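import Vale.Agent.P271.HWeyl0

/-! Weyl lemma for dbar. -/

namespace Fuj

open MeasureTheory Set Filter Topology Complex
open scoped ENNReal ContDiff ComplexConjugate

noncomputable section

variable {E : Type*} [NormedAddCommGroup E] [NormedSpace ℝ E] [NormedSpace ℂ E]
  [IsScalarTower ℝ ℂ E] [FiniteDimensional ℂ E] [MeasurableSpace E] [BorelSpace E]
  {vol : Measure E} [vol.IsAddHaarMeasure]

/-- Gluing: two local solutions agree on the overlap (continuous and a.e. equal,
Measure.eqOn_open_of_ae_eq); F z = the value at z of the local solution centred at z; countable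
subcover for the a.e. statement. -/
theorem weyl {U : Set E} (hU : IsOpen U) {g : E → ℂ} (hg : LocallyIntegrableOn g U vol)
    (h : ∀ ζ, TestOn U ζ → ∀ ξ, ∫ z in U, conj (dzr ζ z ξ) * g z ∂vol = 0) :
    ∃ F : E → ℂ, DifferentiableOn ℂ F U ∧ F =ᵐ[vol.restrict U] g := by
  haveI : FiniteDimensional ℝ E := Module.Finite.trans ℂ E
  haveI : ProperSpace E := FiniteDimensional.proper ℝ E
  have loc : ∀ x ∈ U, ∃ r : ℝ, 0 < r ∧ ∃ F : E → ℂ, DifferentiableOn ℂ F (Metric.ball x r) ∧
      F =ᵐ[vol.restrict (Metric.ball x r)] g := fun x hx => by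
    obtain ⟨ε, hε, hb⟩ := Metric.nhds_basis_closedBall.mem_iff.1 (hU.mem_nhds hx)
    have e : 4 * (ε / 4) = ε := by ring
    have hs : Metric.ball x ε ⊆ U := Metric.ball_subset_closedBall.trans hb
    refine ⟨ε / 4, by positivity, weyl_ball (by positivity) ?_ fun ζ hζ ξ => ?_⟩
    · rw [e]
      exact (hg.integrableOn_compact_subset hb (isCompact_closedBall x ε)).mono_set
        Metric.ball_subset_closedBall
    · rw [e] at hζ ⊢
      rw [← h ζ ⟨hζ.1, hζ.2.1, hζ.2.2.trans hs⟩ ξ]
      refine (setIntegral_eq_of_subset_of_forall_diff_eq_zero hU.measurableSet hs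
        fun z hz => ?_).symm
      rw [hζ.dzr_eq_zero (fun h' => hz.2 (hζ.2.2 h')), map_zero, zero_mul]
  choose! r hr F hF hg' using loc
  have key : ∀ x ∈ U, ∀ y ∈ U, y ∈ Metric.ball x (r x) → F y y = F x y := fun x hx y hy hxy => by
    have ho : IsOpen (Metric.ball x (r x) ∩ Metric.ball y (r y)) :=
      Metric.isOpen_ball.inter Metric.isOpen_ball
    refine Measure.eqOn_open_of_ae_eq (μ := vol) ?_ ho
      ((hF y hy).continuousOn.mono inter_subset_right)
      ((hF x hx).continuousOn.mono inter_subset_left) ⟨hxy, Metric.mem_ball_self (hr y hy)⟩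
    filter_upwards [ae_restrict_of_ae_restrict_of_subset inter_subset_right (hg' y hy),
      ae_restrict_of_ae_restrict_of_subset inter_subset_left (hg' x hx)] with z h1 h2
    rw [h1, h2]
  refine ⟨fun z => F z z, fun x hx => ?_, ?_⟩
  · have hb := Metric.ball_mem_nhds x (hr x hx)
    refine (((hF x hx).differentiableAt hb).congr_of_eventuallyEq ?_).differentiableWithinAt
    filter_upwards [hb, hU.mem_nhds hx] with y h1 h2 using key x hx y h2 h1
  · obtain ⟨t, ht, hc, hcov⟩ := TopologicalSpace.countable_cover_nhdsWithin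
      (f := fun x => Metric.ball x (r x) ∩ U) (s := U) fun x hx =>
        inter_mem (mem_nhdsWithin_of_mem_nhds (Metric.ball_mem_nhds x (hr x hx)))
          self_mem_nhdsWithin
    refine ae_restrict_of_ae_restrict_of_subset hcov ((ae_restrict_biUnion_iff _ hc _).2
      fun x hx => ?_)
    filter_upwards [ae_restrict_of_ae_restrict_of_subset inter_subset_left (hg' x (ht hx)),
      ae_restrict_mem (Metric.isOpen_ball.inter hU).measurableSet] with y h1 h2
    rw [key x (ht hx) y h2.2 h2.1, h1]

end

end Fuj
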