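import Vale.Agent.P271.DDefs

open Set Filter Topology Metric

noncomputable section
namespace Fuj

/-- a map with injective derivative whose image contains short segments in direction `(a, 0)`
near the base point: no functional that kills the derivative has value one at `(a, 0)` -/
theorem dchart_surj {n d e : ℕ} {F : E n → E d × E e} {L : E n →L[ℂ] E d × E e} {y : E n}
    (hF : HasFDerivAt F L y) (h0 : F y = 0) (hL : Function.Injective L)
    (hop : ∀ U ∈ 𝓝 y, ∀ᶠ ζ in 𝓝 (0 : E d), ∃ x ∈ U, F x = (ζ, 0))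
    (φ : (E d × E e) →ₗ[ℂ] ℂ) (hφ : ∀ ξ, φ (L ξ) = 0) (a : E d) : φ (a, 0) = 0 := by
  by_contra hne
  obtain ⟨C, -, hC⟩ := (L : E n →ₗ[ℂ] E d × E e).exists_antilipschitzWith
    (LinearMap.ker_eq_bot.2 hL)
  have h1 : (fun x => x - y) =O[𝓝 y] fun x => F x - F y :=
    (hF.isTheta_sub (AntilipschitzWith.isInducing (f := L) hC L.continuous)).isBigO_symm
  have h2 : HasFDerivAt (fun x => (LinearMap.toContinuousLinearMap φ) (F x))
      ((LinearMap.toContinuousLinearMap φ).comp L) y :=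
    (LinearMap.toContinuousLinearMap φ).hasFDerivAt.comp y hF
  have h3 : (fun x => φ (F x)) =o[𝓝 y] fun x => x - y := by
    refine h2.isLittleO.congr_left fun x => ?_
    simp [h0, hφ]
  have h4 : (fun x => φ (F x)) =o[𝓝 y] fun x => F x := by
    simpa [h0] using h3.trans_isBigO h1
  have hp : 0 < ‖φ (a, 0)‖ := norm_pos_iff.2 hne
  have h5 := h4.def (c := ‖φ (a, 0)‖ / (‖a‖ + 1)) (by positivity)
  have h6 : Tendsto (fun s : ℂ => s • a) (𝓝[≠] 0) (𝓝 0) := by
    have : Tendsto (fun s : ℂ => s • a) (𝓝 0) (𝓝 ((0 : ℂ) • a)) :=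
      (continuous_id.smul continuous_const).tendsto 0
    rw [zero_smul] at this
    exact this.mono_left nhdsWithin_le_nhds
  obtain ⟨s, ⟨x, hx, hFx⟩, hs⟩ := ((h6.eventually (hop _ h5)).and self_mem_nhdsWithin).exists
  have hs' : 0 < ‖s‖ := norm_pos_iff.2 hs
  have h7 : ‖φ (F x)‖ ≤ ‖φ (a, 0)‖ / (‖a‖ + 1) * ‖F x‖ := hx
  have e1 : F x = s • ((a, 0) : E d × E e) := by rw [hFx]; simp
  have e2 : ‖((a, 0) : E d × E e)‖ = ‖a‖ := by simp [Prod.norm_def]
  rw [e1, map_smul, norm_smul, norm_smul, e2, div_mul_eq_mul_div,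
    le_div_iff₀ (by positivity)] at h7
  nlinarith [mul_pos hs' hp]

theorem d_Chart : Chart := by
  intro n d z p Z y hz hp hy hpZ hinj hop
  obtain ⟨b, hb⟩ : ∃ b : Fin n → (E n →ₗ[ℂ] ℂ), ∀ j ξ, b j ξ = fderiv ℂ (p j) y ξ :=
    ⟨fun j => (fderiv ℂ (p j) y : E n →ₗ[ℂ] ℂ), fun _ _ => rfl⟩
  obtain ⟨f, hf1, hf2, hf3⟩ := Submodule.exists_fun_fin_finrank_span_eq ℂ (range b)
  choose σ hσ using hf1
  generalize Module.finrank ℂ (Submodule.span ℂ (range b)) = e at f σ hσ hf2 hf3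
  obtain ⟨F, hFd⟩ : ∃ F : E n → E d × E e,
      F = fun x => (fun i => z i x - z i y, fun j => p (σ j) x) := ⟨_, rfl⟩
  obtain ⟨L, hLd⟩ : ∃ L : E n →L[ℂ] E d × E e,
      L = (ContinuousLinearMap.pi fun i => fderiv ℂ (z i) y).prod
        (ContinuousLinearMap.pi fun j => fderiv ℂ (p (σ j)) y) := ⟨_, rfl⟩
  have hLa : ∀ ξ, L ξ = (fun i => fderiv ℂ (z i) y ξ, fun j => f j ξ) := by
    intro ξ
    rw [hLd]
    refine Prod.ext rfl (funext fun j => ?_)
    show fderiv ℂ (p (σ j)) y ξ = f j ξ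
    rw [← hσ j, hb]
  have hFa : AnalyticAt ℂ F y := by
    rw [hFd]
    exact (AnalyticAt.pi fun i => (hz i).sub analyticAt_const).prod
      (AnalyticAt.pi fun j => hp (σ j))
  have hFL : HasFDerivAt F L y := by
    rw [hFd, hLd]
    exact (hasFDerivAt_pi.2 fun i => (hz i).differentiableAt.hasFDerivAt.sub_const _).prodMk
      (hasFDerivAt_pi.2 fun j => (hp (σ j)).differentiableAt.hasFDerivAt)
  have hFZ : ∀ x ∈ Z, ∀ ζ : E d, (∀ i, z i x = z i y + ζ i) → F x = (ζ, 0) := by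
    intro x hx ζ hζ
    rw [hFd]
    refine Prod.ext (funext fun i => ?_) (funext fun j => hpZ _ x hx)
    simp [hζ i]
  have hF0 : F y = 0 := hFZ y hy 0 (by simp)
  have hop' : ∀ U ∈ 𝓝 y, ∀ᶠ ζ in 𝓝 (0 : E d), ∃ x ∈ Z, x ∈ U ∧ F x = (ζ, 0) := by
    intro U hU
    have h1 : Tendsto (fun ζ : E d => (fun i => z i y) + ζ) (𝓝 0) (𝓝 fun i => z i y) := by
      have : Tendsto (fun ζ : E d => (fun i => z i y) + ζ) (𝓝 0) (𝓝 ((fun i => z i y) + 0)) :=
        (continuous_const.add continuous_id).tendsto 0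
      rwa [add_zero] at this
    filter_upwards [h1.eventually (hop U hU)] with ζ ⟨x, hx, hxU, hxz⟩
    exact ⟨x, hx, hxU, hFZ x hx ζ hxz⟩
  have hLi : Function.Injective L := by
    rw [injective_iff_map_eq_zero]
    intro ξ hξ
    rw [hLa] at hξ
    refine hinj ξ (fun i => congrFun (congrArg Prod.fst hξ) i) fun j => ?_
    have h1 : b j ∈ Submodule.span ℂ (range f) := by
      rw [hf2]
      exact Submodule.subset_span ⟨j, rfl⟩
    obtain ⟨c, hc⟩ := (Submodule.mem_span_range_iff_exists_fun ℂ).1 h1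
    have h2 : ∀ l, f l ξ = 0 := fun l => congrFun (congrArg Prod.snd hξ) l
    rw [← hb, ← hc]
    simp [h2]
  have hLs : Function.Surjective L := by
    by_contra hns
    have h1 : LinearMap.range (L : E n →ₗ[ℂ] E d × E e) < ⊤ :=
      lt_top_iff_ne_top.2 fun h => hns (LinearMap.range_eq_top.1 h)
    obtain ⟨φ, hφ0, hφ⟩ := Submodule.exists_le_ker_of_lt_top _ h1
    have h2 : ∀ ξ, φ (L ξ) = 0 := fun ξ => hφ ⟨ξ, rfl⟩
    have h3 := dchart_surj hFL hF0 hLi
      (fun U hU => (hop' U hU).mono fun ζ ⟨x, _, hx⟩ => ⟨x, hx⟩) φ h2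
    have h4 : ∀ (a : E d) (c : E e), φ (a, c) = ∑ j, φ (0, Pi.single j 1) * c j := by
      intro a c
      have e1 : ((a, c) : E d × E e) = (a, 0) + ∑ j, c j • ((0, Pi.single j 1) : E d × E e) := by
        refine Prod.ext ?_ ?_
        · simp [Prod.fst_sum]
        · funext l
          simp [Prod.snd_sum, Pi.single_apply]
      rw [e1, map_add, h3, zero_add, map_sum]
      exact Finset.sum_congr rfl fun j _ => by rw [map_smul, smul_eq_mul, mul_comm]
    have h5 : ∑ j, φ (0, Pi.single j 1) • f j = 0 := by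
      refine LinearMap.ext fun ξ => ?_
      have := h2 ξ
      rw [hLa, h4] at this
      simpa using this
    have h6 := Fintype.linearIndependent_iff.1 hf3 _ h5
    refine hφ0 (LinearMap.ext fun q => ?_)
    rw [show q = (q.1, q.2) from rfl, h4]
    simp [h6]
  obtain ⟨D, hD⟩ : ∃ D : E n ≃L[ℂ] (E d × E e), (D : E n →L[ℂ] E d × E e) = L :=
    ⟨(LinearEquiv.ofBijective (L : E n →ₗ[ℂ] E d × E e) ⟨hLi, hLs⟩).toContinuousLinearEquiv,
      ContinuousLinearMap.ext fun _ => rfl⟩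
  have hS : HasStrictFDerivAt F (D : E n →L[ℂ] E d × E e) y := by
    rw [hD, ← hFL.fderiv]
    exact hFa.hasStrictFDerivAt
  refine ⟨e, σ, hS.localInverse F D y, D.symm, ?_, ?_, ?_, ?_, ?_, ?_⟩
  · have := D.toLinearEquiv.finrank_eq
    simpa using this.symm
  · rw [← hF0]
    exact (hS.toOpenPartialHomeomorph F).analyticAt_symm' (i := D)
      hS.mem_toOpenPartialHomeomorph_source hFa hS.hasFDerivAt.fderiv
  · rw [← hF0]
    exact hS.to_localInverse.hasFDerivAt
  · rw [← hF0]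
    exact hS.localInverse_apply_image
  · have h1 := hS.eventually_right_inverse
    rw [hF0] at h1
    filter_upwards [h1] with x hx
    generalize hS.localInverse F D y x = w at hx
    rw [hFd] at hx
    refine ⟨fun i => ?_, fun j => congrFun (congrArg Prod.snd hx) j⟩
    have h2 : z i w - z i y = x.1 i := congrFun (congrArg Prod.fst hx) i
    rw [← h2]
    ring
  · filter_upwards [hop' _ hS.eventually_left_inverse] with ζ ⟨x, hx, hxU, hFx⟩
    have h1 : hS.localInverse F D y (F x) = x := hxU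
    rw [← hFx, h1]
    exact hx

end Fuj
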