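import Vale.Agent.P271.DDefs

open Set Filter Topology Metric

noncomputable section
namespace Fuj

section aux
variable {K : Type} [Field K] {d : ℕ}

/-- The monomial attached to a multiset of size `k` in `d + 1` letters. -/
def dcnt_mu (z : Fin d → K) (k : ℕ) (s : Sym (Option (Fin d)) k) : K :=
  ∏ i, z i ^ (s : Multiset (Option (Fin d))).count (some i)

theorem dcnt_mu_cons (z : Fin d → K) (k : ℕ) (o : Option (Fin d)) (s : Sym (Option (Fin d)) k) :
    dcnt_mu z (k + 1) (o ::ₛ s) = dcnt_mu z k s * o.elim 1 z := by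
  unfold dcnt_mu
  simp only [Sym.coe_cons, Multiset.count_cons, pow_add, Finset.prod_mul_distrib]
  congr 1
  cases o with
  | none => simp
  | some j => simp [pow_ite]

theorem dcnt_card (d k : ℕ) : k ^ d ≤ d.factorial * Fintype.card (Sym (Option (Fin d)) k) ∧
    d.factorial * Fintype.card (Sym (Option (Fin d)) k) ≤ (k + d) ^ d := by
  have e : Fintype.card (Sym (Option (Fin d)) k) = (k + d).choose d := by
    rw [Sym.card_sym_eq_choose, Fintype.card_option, Fintype.card_fin,
      show d + 1 + k - 1 = k + d by omega, Nat.choose_symm_add]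
  rw [e, ← Nat.ascFactorial_eq_factorial_mul_choose]
  exact ⟨(Nat.pow_le_pow_left (Nat.le_succ k) d).trans (Nat.pow_succ_le_ascFactorial _ _),
    Nat.ascFactorial_le_pow_add k d⟩

variable [Algebra ℂ K]

theorem dcnt_pow (z : Fin d → K) (k : ℕ) : Z1 z ^ k = Submodule.span ℂ (range (dcnt_mu z k)) := by
  induction k with
  | zero =>
    rw [pow_zero, Submodule.one_eq_span]
    congr 1
    ext x
    simp only [mem_singleton_iff, mem_range]
    constructor
    · rintro rfl
      exact ⟨Sym.nil, by simp [dcnt_mu]⟩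
    · rintro ⟨s, rfl⟩
      rw [Sym.eq_nil_of_card_zero s]
      simp [dcnt_mu]
  | succ k ih =>
    rw [pow_succ, ih, Z1, Submodule.span_mul_span]
    congr 1
    ext x
    constructor
    · rintro ⟨_, ⟨s, rfl⟩, y, hy, rfl⟩
      rcases hy with rfl | ⟨i, rfl⟩
      · exact ⟨none ::ₛ s, dcnt_mu_cons z k none s⟩
      · exact ⟨some i ::ₛ s, dcnt_mu_cons z k (some i) s⟩
    · rintro ⟨s, rfl⟩
      obtain ⟨o, s', rfl⟩ := Sym.exists_eq_cons_of_succ s
      rw [dcnt_mu_cons]
      refine ⟨_, ⟨s', rfl⟩, _, ?_, rfl⟩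
      cases o with
      | none => exact Or.inl rfl
      | some i => exact Or.inr ⟨i, rfl⟩

theorem dcnt_li {z : Fin d → K} (hz : AlgebraicIndependent ℂ z) (k : ℕ) :
    LinearIndependent ℂ (dcnt_mu z k) := by
  let g : Sym (Option (Fin d)) k → (Fin d →₀ ℕ) := fun s =>
    Finsupp.equivFunOnFinite.symm fun i => (s : Multiset (Option (Fin d))).count (some i)
  have hg : Function.Injective g := by
    intro s s' h
    have h1 : ∀ i, (s : Multiset (Option (Fin d))).count (some i) =
        (s' : Multiset (Option (Fin d))).count (some i) := fun i =>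
      congrFun (Finsupp.equivFunOnFinite.symm.injective h) i
    have h2 : ∀ t : Sym (Option (Fin d)) k, (t : Multiset (Option (Fin d))).count none +
        ∑ i, (t : Multiset (Option (Fin d))).count (some i) = k := fun t => by
      rw [← Fintype.sum_option (fun o => (t : Multiset (Option (Fin d))).count o),
        Multiset.sum_count_eq_card (fun _ _ => Finset.mem_univ _)]
      exact t.2
    have h3 := h2 s
    have h4 := h2 s'
    simp only [h1] at h3
    refine Subtype.ext (Multiset.ext.2 fun o => ?_)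
    cases o with
    | none => exact Nat.add_right_cancel (h3.trans h4.symm)
    | some i => exact h1 i
  have h := ((MvPolynomial.basisMonomials (Fin d) ℂ).linearIndependent.comp g hg).map'
    (MvPolynomial.aeval z : MvPolynomial (Fin d) ℂ →ₐ[ℂ] K).toLinearMap
    (LinearMap.ker_eq_bot.2 (algebraicIndependent_iff_injective_aeval.1 hz))
  have e : dcnt_mu z k = (MvPolynomial.aeval z : MvPolynomial (Fin d) ℂ →ₐ[ℂ] K).toLinearMap ∘
      (MvPolynomial.basisMonomials (Fin d) ℂ) ∘ g := by
    funext s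
    simp [dcnt_mu, g, MvPolynomial.aeval_monomial, Finsupp.prod_fintype]
  rw [e]
  exact h

theorem dcnt_mono (z : Fin d → K) {a b : ℕ} (h : a ≤ b) : Z1 z ^ a ≤ Z1 z ^ b := by
  induction b, h using Nat.le_induction with
  | base => exact le_rfl
  | succ b _ ih =>
    refine ih.trans fun x hx => ?_
    rw [pow_succ, ← mul_one x]
    exact Submodule.mul_mem_mul hx (Submodule.subset_span (Or.inl rfl))

theorem dcnt_adj (z : Fin d → K) {x : K} (hx : x ∈ Algebra.adjoin ℂ (range z)) :
    ∃ c : ℕ, x ∈ Z1 z ^ c := by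
  induction hx using Algebra.adjoin_induction with
  | mem x hx => exact ⟨1, by rw [pow_one]; exact Submodule.subset_span (Or.inr hx)⟩
  | algebraMap r => exact ⟨0, by rw [pow_zero]; exact Submodule.algebraMap_mem r⟩
  | add x y _ _ hx hy =>
    obtain ⟨a, ha⟩ := hx
    obtain ⟨b, hb⟩ := hy
    exact ⟨max a b, Submodule.add_mem _ (dcnt_mono z (le_max_left _ _) ha)
      (dcnt_mono z (le_max_right _ _) hb)⟩
  | mul x y _ _ hx hy =>
    obtain ⟨a, ha⟩ := hx
    obtain ⟨b, hb⟩ := hy
    exact ⟨a + b, by rw [pow_add]; exact Submodule.mul_mem_mul ha hb⟩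

theorem dcnt_mm {z : Fin d → K} {T : Submodule ℂ K} {a b : ℕ} {g u : K} (hg : g ∈ Z1 z ^ a)
    (hu : u ∈ Z1 z ^ b * T) : g * u ∈ Z1 z ^ (a + b) * T := by
  rw [pow_add, mul_assoc]
  exact Submodule.mul_mem_mul hg hu

theorem dcnt_den (z : Fin d → K) (b : Set K) {u : K}
    (hu : u ∈ Submodule.span (IntermediateField.adjoin ℂ (range z)) b) :
    ∃ (g : K) (c : ℕ), g ≠ 0 ∧ g ∈ Z1 z ^ c ∧ g * u ∈ Z1 z ^ c * Submodule.span ℂ b := by
  have h1 : (1 : K) ∈ Z1 z ^ 0 := by rw [pow_zero]; exact Submodule.one_le.1 le_rfl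
  induction hu using Submodule.span_induction with
  | mem x hx => exact ⟨1, 0, one_ne_zero, h1, Submodule.mul_mem_mul h1 (Submodule.subset_span hx)⟩
  | zero => exact ⟨1, 0, one_ne_zero, h1, by rw [mul_zero]; exact Submodule.zero_mem _⟩
  | add x y _ _ hx hy =>
    obtain ⟨g, c, g0, g1, g2⟩ := hx
    obtain ⟨g', c', g0', g1', g2'⟩ := hy
    refine ⟨g * g', c + c', mul_ne_zero g0 g0',
      by rw [pow_add]; exact Submodule.mul_mem_mul g1 g1', ?_⟩
    have e : g * g' * (x + y) = g' * (g * x) + g * (g' * y) := by ring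
    rw [e]
    exact Submodule.add_mem _ (add_comm c' c ▸ dcnt_mm g1' g2) (dcnt_mm g1 g2')
  | smul a x _ hx =>
    obtain ⟨g, c, g0, g1, g2⟩ := hx
    obtain ⟨p, hp, q, hq, e⟩ := IntermediateField.mem_adjoin_iff_div.1 a.2
    have e' : a • x = p / q * x := by rw [← e]; rfl
    rw [e']
    by_cases h0 : q = 0
    · exact ⟨1, 0, one_ne_zero, h1, by
        rw [h0, div_zero, zero_mul, mul_zero]; exact Submodule.zero_mem _⟩
    obtain ⟨i, hi⟩ := dcnt_adj z hp
    obtain ⟨j, hj⟩ := dcnt_adj z hq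
    refine ⟨q * g, max i j + c, mul_ne_zero h0 g0, ?_, ?_⟩
    · rw [pow_add]
      exact Submodule.mul_mem_mul (dcnt_mono z (le_max_right _ _) hj) g1
    · have e : q * g * (p / q * x) = p * (g * x) := by field_simp
      rw [e]
      exact dcnt_mm (dcnt_mono z (le_max_left _ _) hi) g2

theorem dcnt_den' (z : Fin d → K) (b : Set K) (U : Submodule ℂ K) (hU : U.FG) :
    (∀ u ∈ U, u ∈ Submodule.span (IntermediateField.adjoin ℂ (range z)) b) →
    ∃ (g : K) (c : ℕ), g ≠ 0 ∧ g ∈ Z1 z ^ c ∧
      ∀ u ∈ U, g * u ∈ Z1 z ^ c * Submodule.span ℂ b := by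
  refine Submodule.fg_induction (motive := fun V _ => (∀ u ∈ V,
    u ∈ Submodule.span (IntermediateField.adjoin ℂ (range z)) b) → ∃ (g : K) (c : ℕ), g ≠ 0 ∧
      g ∈ Z1 z ^ c ∧ ∀ u ∈ V, g * u ∈ Z1 z ^ c * Submodule.span ℂ b) ?_ ?_ U hU
  · intro x hx
    obtain ⟨g, c, g0, g1, g2⟩ := dcnt_den z b (hx x (Submodule.mem_span_singleton_self x))
    refine ⟨g, c, g0, g1, fun u hu => ?_⟩
    obtain ⟨r, rfl⟩ := Submodule.mem_span_singleton.1 hu
    rw [mul_smul_comm]
    exact Submodule.smul_mem _ _ g2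
  · intro V V' _ _ h h' hV
    obtain ⟨g, c, g0, g1, g2⟩ := h fun u hu => hV u (Submodule.mem_sup_left hu)
    obtain ⟨g', c', g0', g1', g2'⟩ := h' fun u hu => hV u (Submodule.mem_sup_right hu)
    refine ⟨g * g', c + c', mul_ne_zero g0 g0',
      by rw [pow_add]; exact Submodule.mul_mem_mul g1 g1', fun u hu => ?_⟩
    obtain ⟨x, hx, y, hy, rfl⟩ := Submodule.mem_sup.1 hu
    have e : g * g' * (x + y) = g' * (g * x) + g * (g' * y) := by ring
    rw [e]
    exact Submodule.add_mem _ (add_comm c' c ▸ dcnt_mm g1' (g2 x hx)) (dcnt_mm g1 (g2' y hy))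

end aux

theorem d_Cnt : Cnt := by
  intro K _ _ d z U hz hU
  have hUf : U.FG := Module.Finite.iff_fg.1 hU
  have hZ : ∀ k, (Z1 z ^ k).FG := fun k => by
    rw [dcnt_pow]; exact Submodule.fg_span (finite_range _)
  obtain ⟨b, hbU, hsp, hli⟩ :=
    exists_linearIndependent (IntermediateField.adjoin ℂ (range z)) (U : Set K)
  have hfin : Finite b := by
    obtain ⟨S, hS⟩ := hUf
    refine hli.finite_of_le_span_finite _ (S : Set K) ?_
    rintro _ ⟨x, rfl⟩
    have h1 : (x : K) ∈ Submodule.span ℂ (S : Set K) := hS ▸ hbU x.2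
    exact Submodule.span_le_restrictScalars ℂ _ _ h1
  have := Fintype.ofFinite b
  have hrk : rk z U = Fintype.card b := by
    rw [rk, ← hsp, ← finrank_span_eq_card hli, Subtype.range_coe]
  rw [hrk]
  constructor
  · intro k
    have : Module.Finite ℂ ↥(Z1 z ^ k * U) := Module.Finite.iff_fg.2 ((hZ k).mul hUf)
    have hm : ∀ s, dcnt_mu z k s ∈ IntermediateField.adjoin ℂ (range z) := fun s =>
      prod_mem fun i _ => pow_mem (IntermediateField.subset_adjoin ℂ (range z) (mem_range_self i)) _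
    have l1 : LinearIndependent ℂ fun s =>
        (⟨dcnt_mu z k s, hm s⟩ : IntermediateField.adjoin ℂ (range z)) :=
      LinearIndependent.of_comp (IntermediateField.adjoin ℂ (range z)).val.toLinearMap
        (dcnt_li hz k)
    have l2 := linearIndependent_smul l1 hli
    have hmem : ∀ p : Sym (Option (Fin d)) k × b, dcnt_mu z k p.1 * (p.2 : K) ∈ Z1 z ^ k * U :=
      fun p => Submodule.mul_mem_mul
        (by rw [dcnt_pow]; exact Submodule.subset_span ⟨p.1, rfl⟩) (hbU p.2.2)
    have l3 : LinearIndependent ℂ fun p : Sym (Option (Fin d)) k × b =>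
        (⟨_, hmem p⟩ : ↥(Z1 z ^ k * U)) :=
      LinearIndependent.of_comp (Z1 z ^ k * U).subtype l2
    have h := l3.fintype_card_le_finrank
    rw [Fintype.card_prod] at h
    calc Fintype.card b * k ^ d
        ≤ Fintype.card b * (d.factorial * Fintype.card (Sym (Option (Fin d)) k)) :=
          Nat.mul_le_mul_left _ (dcnt_card d k).1
      _ = d.factorial * (Fintype.card (Sym (Option (Fin d)) k) * Fintype.card b) := by ring
      _ ≤ _ := Nat.mul_le_mul_left _ h
  · obtain ⟨g, c, g0, -, g2⟩ := dcnt_den' z b U hUf fun u hu => hsp ▸ Submodule.subset_span hu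
    refine ⟨c + d, fun k => ?_⟩
    have e : Z1 z ^ (k + c) * Submodule.span ℂ b = Submodule.span ℂ
        (range fun p : Sym (Option (Fin d)) (k + c) × b => dcnt_mu z (k + c) p.1 * (p.2 : K)) := by
      rw [dcnt_pow, Submodule.span_mul_span]
      congr 1
      ext x
      constructor
      · rintro ⟨_, ⟨s, rfl⟩, y, hy, rfl⟩
        exact ⟨(s, ⟨y, hy⟩), rfl⟩
      · rintro ⟨p, rfl⟩
        exact ⟨_, ⟨p.1, rfl⟩, _, p.2.2, rfl⟩
    have hle : (Z1 z ^ k * U).map (LinearMap.mulLeft ℂ g) ≤
        Z1 z ^ (k + c) * Submodule.span ℂ b := by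
      rw [Submodule.map_le_iff_le_comap, Submodule.mul_le]
      intro x hx u hu
      have e1 : g * (x * u) = x * (g * u) := by ring
      rw [Submodule.mem_comap, LinearMap.mulLeft_apply, e1]
      exact dcnt_mm hx (g2 u hu)
    have hinj : Function.Injective (LinearMap.mulLeft ℂ g) := mul_right_injective₀ g0
    have h1 : Module.finrank ℂ ↥(Z1 z ^ k * U) ≤
        Fintype.card (Sym (Option (Fin d)) (k + c)) * Fintype.card b := by
      rw [(Submodule.equivMapOfInjective _ hinj _).finrank_eq, ← Fintype.card_prod]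
      rw [e] at hle
      have : Module.Finite ℂ ↥(Submodule.span ℂ (range fun p : Sym (Option (Fin d)) (k + c) × b =>
        dcnt_mu z (k + c) p.1 * (p.2 : K))) :=
          Module.Finite.iff_fg.2 (Submodule.fg_span (finite_range _))
      exact (Submodule.finrank_mono hle).trans (finrank_range_le_card _)
    calc d.factorial * Module.finrank ℂ ↥(Z1 z ^ k * U)
        ≤ d.factorial * (Fintype.card (Sym (Option (Fin d)) (k + c)) * Fintype.card b) :=
          Nat.mul_le_mul_left _ h1
      _ = Fintype.card b * (d.factorial * Fintype.card (Sym (Option (Fin d)) (k + c))) := by ring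
      _ ≤ _ := Nat.mul_le_mul_left _ (by rw [← add_assoc]; exact (dcnt_card d (k + c)).2)

end Fuj
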