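import Vale.Agent.P271.DDefs

open Set Filter Topology Metric

noncomputable section
namespace Fuj

theorem cop_key {h : ℕ → ℕ} {q d D q₁ d₁ D₁ : ℕ} (hq : 1 ≤ q) (hq₁ : 1 ≤ q₁)
    (h1 : TwoS h q d D) (h2 : TwoS h q₁ d₁ D₁) : ∃ c c₁ : ℕ, ∀ᶠ k : ℕ in atTop,
      D * d₁.factorial * (k * q₁ - c) ^ d ≤ D₁ * d.factorial * (k * q + c₁) ^ d₁ := by
  obtain ⟨c, hc⟩ := h1
  obtain ⟨c₁, hc₁⟩ := h2
  have ht : Tendsto (fun k : ℕ => k * q * q₁) atTop atTop :=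
    tendsto_atTop_mono (fun k => by
      calc k = k * 1 * 1 := by ring
        _ ≤ k * q * q₁ := by gcongr) tendsto_id
  refine ⟨c, c₁, ?_⟩
  filter_upwards [ht.eventually hc, ht.eventually hc₁] with k hk hk₁
  have e1 : k * q * q₁ / q = k * q₁ := by
    rw [show k * q * q₁ = k * q₁ * q by ring, Nat.mul_div_cancel _ hq]
  have e2 : k * q * q₁ / q₁ = k * q := Nat.mul_div_cancel _ hq₁
  rw [e1] at hk
  rw [e2] at hk₁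
  calc D * d₁.factorial * (k * q₁ - c) ^ d = d₁.factorial * (D * (k * q₁ - c) ^ d) := by ring
    _ ≤ d₁.factorial * (d.factorial * h (k * q * q₁)) := Nat.mul_le_mul_left _ hk.1
    _ = d.factorial * (d₁.factorial * h (k * q * q₁)) := by ring
    _ ≤ d.factorial * (D₁ * (k * q + c₁) ^ d₁) := Nat.mul_le_mul_left _ hk₁.2
    _ = D₁ * d.factorial * (k * q + c₁) ^ d₁ := by ring

theorem cop_lim {a b q q₁ c c₁ d₁ e : ℕ} (hq₁ : 1 ≤ q₁)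
    (h : ∀ᶠ k : ℕ in atTop, a * (k * q₁ - c) ^ (d₁ + e) ≤ b * (k * q + c₁) ^ d₁) :
    a * q₁ ^ (d₁ + e) ≤ b * q ^ d₁ * 0 ^ e := by
  have h0 : Tendsto (fun k : ℕ => ((k : ℝ))⁻¹) atTop (𝓝 0) := tendsto_inv_atTop_nhds_zero_nat
  have hL : Tendsto (fun k : ℕ => (a : ℝ) * (q₁ - c * (k : ℝ)⁻¹) ^ (d₁ + e)) atTop
      (𝓝 ((a : ℝ) * (q₁ - c * 0) ^ (d₁ + e))) :=
    (((h0.const_mul (c : ℝ)).const_sub (q₁ : ℝ)).pow _).const_mul _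
  have hR : Tendsto (fun k : ℕ => (b : ℝ) * (q + c₁ * (k : ℝ)⁻¹) ^ d₁ * ((k : ℝ)⁻¹) ^ e) atTop
      (𝓝 ((b : ℝ) * (q + c₁ * 0) ^ d₁ * 0 ^ e)) :=
    ((((h0.const_mul (c₁ : ℝ)).const_add (q : ℝ)).pow _).const_mul _).mul (h0.pow _)
  have hle := le_of_tendsto_of_tendsto hL hR (by
    filter_upwards [h, eventually_ge_atTop c, eventually_ge_atTop 1] with k hk hkc hk1
    have hc : c ≤ k * q₁ := hkc.trans (Nat.le_mul_of_pos_right _ hq₁)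
    have hk0 : (0 : ℝ) < k := by exact_mod_cast hk1
    have hk' : (a : ℝ) * ((k : ℝ) * q₁ - c) ^ (d₁ + e) ≤ b * ((k : ℝ) * q + c₁) ^ d₁ := by
      have : ((a * (k * q₁ - c) ^ (d₁ + e) : ℕ) : ℝ) ≤ ((b * (k * q + c₁) ^ d₁ : ℕ) : ℝ) :=
        Nat.cast_le.2 hk
      push_cast [Nat.cast_sub hc] at this
      exact this
    have e1 : (q₁ : ℝ) - c * (k : ℝ)⁻¹ = ((k : ℝ) * q₁ - c) * (k : ℝ)⁻¹ := by field_simp
    have e2 : (q : ℝ) + c₁ * (k : ℝ)⁻¹ = ((k : ℝ) * q + c₁) * (k : ℝ)⁻¹ := by field_simp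
    rw [e1, e2, mul_pow, mul_pow, ← mul_assoc, ← mul_assoc, mul_assoc _ _ ((k : ℝ)⁻¹ ^ e),
      ← pow_add]
    exact mul_le_mul_of_nonneg_right hk' (by positivity))
  simp only [mul_zero, sub_zero, add_zero] at hle
  exact_mod_cast hle

theorem cop_le {h : ℕ → ℕ} {q d D q₁ d₁ D₁ : ℕ} (hq : 1 ≤ q) (hq₁ : 1 ≤ q₁) (hD : 1 ≤ D)
    (h1 : TwoS h q d D) (h2 : TwoS h q₁ d₁ D₁) : d ≤ d₁ := by
  by_contra hlt
  obtain ⟨e, rfl⟩ : ∃ e, d = d₁ + (e + 1) := ⟨d - d₁ - 1, by omega⟩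
  obtain ⟨c, c₁, hc⟩ := cop_key hq hq₁ h1 h2
  have := cop_lim hq₁ hc
  have hp : 0 < D * d₁.factorial * q₁ ^ (d₁ + (e + 1)) := by
    have := Nat.factorial_pos d₁
    positivity
  rw [pow_succ 0, mul_zero, mul_zero] at this
  omega

theorem cop_eq {h : ℕ → ℕ} {q d D q₁ D₁ : ℕ} (hq : 1 ≤ q) (hq₁ : 1 ≤ q₁)
    (h1 : TwoS h q d D) (h2 : TwoS h q₁ d D₁) : D * q₁ ^ d ≤ D₁ * q ^ d := by
  obtain ⟨c, c₁, hc⟩ := cop_key hq hq₁ h1 h2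
  have := cop_lim (e := 0) hq₁ hc
  rw [pow_zero, mul_one, add_zero] at this
  refine Nat.le_of_mul_le_mul_left ?_ (Nat.factorial_pos d)
  calc d.factorial * (D * q₁ ^ d) = D * d.factorial * q₁ ^ d := by ring
    _ ≤ D₁ * d.factorial * q ^ d := this
    _ = d.factorial * (D₁ * q ^ d) := by ring

theorem d_Cop : Cop := by
  intro h q d D q₁ d₁ D₁ hq hq₁ hD hD₁ hco h1 h2
  obtain rfl : d = d₁ := le_antisymm (cop_le hq hq₁ hD h1 h2) (cop_le hq₁ hq hD₁ h2 h1)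
  have he : D * q₁ ^ d = D₁ * q ^ d := le_antisymm (cop_eq hq hq₁ h1 h2) (cop_eq hq₁ hq h2 h1)
  have hdvd : q ^ d ∣ D * q₁ ^ d := ⟨D₁, by rw [he, mul_comm]⟩
  exact Nat.le_of_dvd hD ((Nat.Coprime.pow d d hco).dvd_of_dvd_mul_right hdvd)

end Fuj
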