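import Vale.Agent.P271.FDefs

/-! Problem P271, part D (algebra): definitions and the statements of the parts. -/

open MeasureTheory Set Filter Topology Metric
open scoped ENNReal

noncomputable section
namespace Fuj

/-- the coordinate functions, precomposed with the retraction -/
def crd {n : ℕ} (i : Fin n) (p : E n) : ℂ := (ball (0 : E n) 2).indicator (fun z => z i) p

/-- a character of a graded system of functions -/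
structure IsChar {Y : Type*} (V : ℕ → Submodule ℂ (Y → ℂ)) (ξ : ℕ → (Y → ℂ) → ℂ) : Prop where
  add : ∀ {m : ℕ} {s s' : Y → ℂ}, s ∈ V m → s' ∈ V m → ξ m (s + s') = ξ m s + ξ m s'
  smul : ∀ {m : ℕ} {s : Y → ℂ} (c : ℂ), s ∈ V m → ξ m (c • s) = c * ξ m s
  mul : ∀ {m m' : ℕ} {s s' : Y → ℂ}, s ∈ V m → s' ∈ V m' → ξ (m + m') (s * s') = ξ m s * ξ m' s'
  one : ξ 0 1 = 1

/-- eventually `V (m + q)` is generated by `U * V m` -/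
def Gen {A : Type*} [CommRing A] [Algebra ℂ A] (V : ℕ → Submodule ℂ A) (q : ℕ)
    (U : Submodule ℂ A) : Prop := ∃ m₀, ∀ m, m₀ ≤ m → V (m + q) ≤ U * V m

namespace Loc
variable {n : ℕ} (L : Loc n)

/-- the algebraic properties of the local model -/
structure Alg (q : ℕ) : Prop where
  qpos : 1 ≤ q
  ret : ∀ {m : ℕ} {s : E n → ℂ}, s ∈ L.V m → ∀ p, p ∉ ball (0 : E n) 2 → s p = s 0
  one : (1 : E n → ℂ) ∈ L.V q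
  crd : ∀ i, crd i ∈ L.V q
  big : ∀ᶠ m in atTop, ∃ s ∈ L.V m, s 0 ≠ 0
  gen : Gen L.V q (L.V q)
  gen1 : ∃ q₁, 1 ≤ q₁ ∧ Nat.Coprime q q₁ ∧ Gen L.V q₁ (L.V q₁)
  lc : ∃ (δ : ℝ) (N : ℕ) (l : Fin N → E n → ℂ), 0 < δ ∧ (∀ j, l j ∈ L.V q) ∧
    ∀ ξ, IsChar (fun k => L.V (k * q)) ξ → ξ 1 1 = 1 → (∀ j, ‖ξ 1 (l j) - l j 0‖ < δ) →
      ∃ p ∈ ball (0 : E n) 1, ∀ k, ∀ s ∈ L.V (k * q), ξ k s = s p

/-- a chart along the centre `Z` of `v` at a general point `y`: `Z` is `{p.2 = 0}`, the first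
coordinates are the sections `t i` of degree `q`, the last ones are sections of degree `k` of
positive value -/
structure Br (v : (E n → ℂ) → ℝ) (d e k : ℕ) (t : Fin d → E n → ℂ) (y : E n) where
  Φ : E d × E e → E n
  D : (E d × E e) ≃L[ℂ] E n
  an : AnalyticAt ℂ Φ 0
  der : HasFDerivAt Φ (D : E d × E e →L[ℂ] E n) 0
  cen : Φ 0 = y
  onZ : ∀ᶠ z in 𝓝 (0 : E d), ∀ m, ∀ g ∈ L.V m, g ≠ 0 → 0 < v g → g (Φ (z, 0)) = 0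
  inj : ∀ m, ∀ g ∈ L.V m, g ≠ 0 → v g = 0 → ¬ ∀ᶠ z in 𝓝 (0 : E d), g (Φ (z, 0)) = 0
  zc : ∀ᶠ p in 𝓝 (0 : E d × E e), ∀ i, t i (Φ p) = t i y + p.1 i
  w : Fin e → E n → ℂ
  wm : ∀ j, w j ∈ L.V k ∧ w j ≠ 0 ∧ 0 < v (w j)
  wc : ∀ᶠ p in 𝓝 (0 : E d × E e), ∀ j, w j (Φ p) = p.2 j

end Loc

/-- the result of part D for a valuation -/
def PartD : Prop := ∀ (n : ℕ) (L : Loc n) (q : ℕ), L.Alg q → ∃ k₁ : ℕ, ∀ v, L.IsVal v →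
  ∃ (d e k : ℕ) (t : Fin d → E n → ℂ), 1 ≤ d ∧ d + e = n ∧ 1 ≤ k ∧ (∀ i, t i ∈ L.V q) ∧
    (∀ j : ℕ, ∃ U : Submodule ℂ (E n → ℂ), U ≤ L.V ((k₁ + j) * q) ∧
      (∀ s ∈ U, s ≠ 0 → v s = 0) ∧ (q * j) ^ d ≤ d.factorial * Module.finrank ℂ U) ∧
    ∀ m, ∀ g ∈ L.V m, g ≠ 0 → v g = 0 → ∀ r : ℝ, 0 < r →
      ∃ y ∈ ball (0 : E n) r, g y ≠ 0 ∧ Nonempty (L.Br v d e k t y)

/-- the Hilbert function of `X` -/
def HilbX : Prop := ∀ (n : ℕ) (L : Loc n) (q : ℕ), 1 ≤ n → L.Alg q → ∃ D c : ℕ, q ^ n ≤ D ∧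
  ∀ᶠ m in atTop, D * (m / q - c) ^ n ≤ n.factorial * L.h m ∧
    n.factorial * L.h m ≤ D * (m / q + c) ^ n

/-- parts D and E together give the algebraic fields of `Hyp` -/
def PartE : Prop := PartD → HilbX → ∀ (n : ℕ) (L : Loc n) (q : ℕ), 1 ≤ n → L.Alg q →
  (∀ η : ℝ, 0 < η → ∀ᶠ m : ℕ in atTop, (1 - η) * (m : ℝ) ^ n / n.factorial ≤ L.h m) ∧
  (∀ η : ℝ, 0 < η → ∃ q : ℕ, 1 ≤ q ∧ ∀ᶠ m : ℕ in atTop,
    (L.h (m + q) : ℝ) ≤ (1 + (1 + η) * n * q / m) * L.h m ∧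
    ∀ f f' : Submodule ℂ (E n → ℂ), f ≤ L.V m → f' ≤ L.V (m + q) → f ≠ ⊥ →
      (∀ g ∈ L.V q, ∀ s ∈ f, g * s ∈ f') →
      (Module.finrank ℂ f : ℝ) ^ (1 / n : ℝ) + (1 - η) * q / m * (L.h m : ℝ) ^ (1 / n : ℝ)
        ≤ (Module.finrank ℂ f' : ℝ) ^ (1 / n : ℝ)) ∧
  ∀ η : ℝ, 0 < η → ∃ q : ℕ, 1 ≤ q ∧ ∀ v, L.IsVal v → ∃ d e : ℕ, 1 ≤ d ∧
    ∀ M : ℕ, ∃ γ : ℝ, 0 < γ ∧ ∀ r : ℝ, 0 < r →
      ∃ y ∈ ball (0 : E n) r, Nonempty (L.Pert v η q d e M γ y)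

/-! ### The algebraic lemmas -/

/-- the span of `1` and the `z i` -/
def Z1 {K : Type*} [CommRing K] [Algebra ℂ K] {d : ℕ} (z : Fin d → K) : Submodule ℂ K :=
  Submodule.span ℂ (insert 1 (range z))

/-- the rank of `U` over the field generated by the `z i` -/
def rk {K : Type*} [Field K] [Algebra ℂ K] {d : ℕ} (z : Fin d → K) (U : Submodule ℂ K) : ℕ :=
  Module.finrank (IntermediateField.adjoin ℂ (range z))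
    (Submodule.span (IntermediateField.adjoin ℂ (range z)) (U : Set K))

/-- a graded system of subspaces of a field, nonzero in large degrees -/
structure GF {K : Type*} [Field K] [Algebra ℂ K] (W : ℕ → Submodule ℂ K) (m₁ : ℕ) : Prop where
  fd : ∀ m, FiniteDimensional ℂ (W m)
  mul : ∀ {m m' : ℕ} {s s' : K}, s ∈ W m → s' ∈ W m' → s * s' ∈ W (m + m')
  ne : ∀ m, m₁ ≤ m → W m ≠ ⊥

/-- a linear Noether normalisation in degree `q` -/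
structure NData {K : Type*} [Field K] [Algebra ℂ K] (W : ℕ → Submodule ℂ K) (q : ℕ) (t₀ : K)
    {d : ℕ} (z : Fin d → K) : Prop where
  qpos : 1 ≤ q
  ne : t₀ ≠ 0
  mem₀ : t₀ ∈ W q
  mem : ∀ i, t₀ * z i ∈ W q
  ind : AlgebraicIndependent ℂ z
  gen : Gen W q (Submodule.span ℂ {t₀} * Z1 z)

/-- two sided bound for a Hilbert function -/
def TwoS (h : ℕ → ℕ) (q d D : ℕ) : Prop := ∃ c : ℕ,
  ∀ᶠ m in atTop, D * (m / q - c) ^ d ≤ d.factorial * h m ∧ d.factorial * h m ≤ D * (m / q + c) ^ d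

/-- linear Noether normalisation -/
def NN : Prop := ∀ (K : Type) [Field K] [Algebra ℂ K] (U : Submodule ℂ K),
  FiniteDimensional ℂ U → (1 : K) ∈ U → ∃ (d : ℕ) (z : Fin d → K), (∀ i, z i ∈ U) ∧
    AlgebraicIndependent ℂ z ∧ ∃ r : ℕ, U ^ (r + 1) ≤ Z1 z * U ^ r

/-- counting -/
def Cnt : Prop := ∀ (K : Type) [Field K] [Algebra ℂ K] (d : ℕ) (z : Fin d → K)
  (U : Submodule ℂ K), AlgebraicIndependent ℂ z → FiniteDimensional ℂ U →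
  (∀ k : ℕ, rk z U * k ^ d ≤ d.factorial * Module.finrank ℂ ↥(Z1 z ^ k * U)) ∧
  ∃ c : ℕ, ∀ k : ℕ, d.factorial * Module.finrank ℂ ↥(Z1 z ^ k * U) ≤ rk z U * (k + c) ^ d

/-- existence of normalisations with a prescribed first element -/
def ExN : Prop := ∀ (K : Type) [Field K] [Algebra ℂ K] (W : ℕ → Submodule ℂ K) (m₁ q : ℕ) (t₀ : K),
  GF W m₁ → 1 ≤ q → t₀ ≠ 0 → t₀ ∈ W q → Gen W q (W q) → ∃ (d : ℕ) (z : Fin d → K), NData W q t₀ z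

/-- the Hilbert function -/
def HF : Prop := ∀ (K : Type) [Field K] [Algebra ℂ K] (W : ℕ → Submodule ℂ K) (m₁ q : ℕ) (t₀ : K)
  (d : ℕ) (z : Fin d → K), GF W m₁ → NData W q t₀ z → ∃ D : ℕ, 1 ≤ D ∧
    (∀ᶠ m in atTop, rk z (W m) = D) ∧ TwoS (fun m => Module.finrank ℂ (W m)) q d D

/-- coprime degrees -/
def Cop : Prop := ∀ (h : ℕ → ℕ) (q d D q₁ d₁ D₁ : ℕ), 1 ≤ q → 1 ≤ q₁ → 1 ≤ D → 1 ≤ D₁ →
  Nat.Coprime q q₁ → TwoS h q d D → TwoS h q₁ d₁ D₁ → q ^ d ≤ D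

/-- the uniform lower bound -/
def Unif : Prop := ∀ (K : Type) [Field K] [Algebra ℂ K] (W : ℕ → Submodule ℂ K) (m₁ q m₀ : ℕ)
  (t₀ : K) (d : ℕ) (z : Fin d → K) (D B : ℕ), GF W m₁ → NData W q t₀ z →
  (∀ m, m₀ ≤ m → W (m + q) ≤ W q * W m) → (∀ᶠ m in atTop, rk z (W m) = D) → q ^ d ≤ D →
  q ^ d ≤ B → ∀ j : ℕ,
    (q * j) ^ d ≤ d.factorial * Module.finrank ℂ (W ((m₀ + 1 + B + j) * q))

/-- a finite map onto affine space is open -/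
def OpenC : Prop := ∀ (Λ : Type) [CommRing Λ] [IsDomain Λ] [Algebra ℂ Λ] (d N : ℕ) (z : Fin d → Λ)
  (l : Fin N → Λ) (ξ₀ : Λ →ₐ[ℂ] ℂ), AlgebraicIndependent ℂ z →
  (MvPolynomial.aeval z : MvPolynomial (Fin d) ℂ →ₐ[ℂ] Λ).toRingHom.IsIntegral →
  ∀ ε : ℝ, 0 < ε → ∀ᶠ ζ in 𝓝 (fun i => ξ₀ (z i)), ∃ ξ : Λ →ₐ[ℂ] ℂ, (∀ i, ξ (z i) = ζ i) ∧
    ∀ j, ‖ξ (l j) - ξ₀ (l j)‖ < ε

/-- separability and norms -/
def SepN : Prop := ∀ (Λ : Type) [CommRing Λ] [IsDomain Λ] [Algebra ℂ Λ] (d : ℕ) (z : Fin d → Λ),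
  AlgebraicIndependent ℂ z →
  (MvPolynomial.aeval z : MvPolynomial (Fin d) ℂ →ₐ[ℂ] Λ).toRingHom.IsIntegral → ∀ x : Λ,
  (∃ μ : Polynomial (MvPolynomial (Fin d) ℂ),
    μ.eval₂ (MvPolynomial.aeval z : MvPolynomial (Fin d) ℂ →ₐ[ℂ] Λ).toRingHom x = 0 ∧
    μ.derivative.eval₂ (MvPolynomial.aeval z : MvPolynomial (Fin d) ℂ →ₐ[ℂ] Λ).toRingHom x ≠ 0) ∧
  (x ≠ 0 → ∃ (a : MvPolynomial (Fin d) ℂ) (x' : Λ), a ≠ 0 ∧ x * x' = MvPolynomial.aeval z a)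

/-- the chart along a set that is cut out transversally and maps openly -/
def Chart : Prop := ∀ (n d : ℕ) (z : Fin d → E n → ℂ) (p : Fin n → E n → ℂ) (Z : Set (E n))
  (y : E n), (∀ i, AnalyticAt ℂ (z i) y) → (∀ j, AnalyticAt ℂ (p j) y) → y ∈ Z →
  (∀ j, ∀ x ∈ Z, p j x = 0) →
  (∀ ξ : E n, (∀ i, fderiv ℂ (z i) y ξ = 0) → (∀ j, fderiv ℂ (p j) y ξ = 0) → ξ = 0) →
  (∀ U ∈ 𝓝 y, ∀ᶠ ζ in 𝓝 (fun i => z i y), ∃ x ∈ Z, x ∈ U ∧ ∀ i, z i x = ζ i) →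
  ∃ (e : ℕ) (σ : Fin e → Fin n) (Φ : E d × E e → E n) (D : (E d × E e) ≃L[ℂ] E n),
    d + e = n ∧ AnalyticAt ℂ Φ 0 ∧ HasFDerivAt Φ (D : E d × E e →L[ℂ] E n) 0 ∧ Φ 0 = y ∧
    (∀ᶠ x in 𝓝 (0 : E d × E e), (∀ i, z i (Φ x) = z i y + x.1 i) ∧ ∀ j, p (σ j) (Φ x) = x.2 j) ∧
    ∀ᶠ ζ in 𝓝 (0 : E d), Φ (ζ, 0) ∈ Z

end Fuj
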