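import Vale.Agent.P271.DDefs

open Set Filter Topology Metric

noncomputable section
namespace Fuj

section
variable {K : Type} [Field K] [Algebra ℂ K] {W : ℕ → Submodule ℂ K} {m₁ q : ℕ}

theorem DExN_pow_le (hW : GF W m₁) {T : Submodule ℂ K} (hT : T ≤ W q) (m k : ℕ) :
    T ^ k * W m ≤ W (m + k * q) := by
  induction k with
  | zero => simp
  | succ k ih =>
    rw [pow_succ', mul_assoc, add_mul, one_mul, ← add_assoc, add_comm _ q]
    exact Submodule.mul_le.2 fun a ha b hb => hW.mul (hT ha) (ih hb)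

theorem DExN_le_pow {T : Submodule ℂ K} {m₀ : ℕ} (h : ∀ m, m₀ ≤ m → W (m + q) ≤ T * W m)
    {m : ℕ} (hm : m₀ ≤ m) (k : ℕ) : W (m + k * q) ≤ T ^ k * W m := by
  induction k with
  | zero => simp
  | succ k ih =>
    rw [pow_succ', mul_assoc, add_mul, one_mul, ← add_assoc]
    exact (h _ (hm.trans (Nat.le_add_right _ _))).trans (mul_le_mul_right ih T)

end

theorem d_ExN (hNN : NN) : ExN := by
  intro K _ _ W m₁ q t₀ hW hq ht htq ⟨m₀, hg⟩
  set S : Submodule ℂ K := Submodule.span ℂ {t₀} with hS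
  set U : Submodule ℂ K := Submodule.span ℂ {t₀⁻¹} * W q with hU
  have hSU : S * U = W q := by
    rw [hS, hU, ← mul_assoc, Submodule.span_mul_span, Set.singleton_mul_singleton,
      mul_inv_cancel₀ ht, ← Submodule.one_eq_span, one_mul]
  have hfd : FiniteDimensional ℂ U := Module.Finite.iff_fg.2
    ((Submodule.fg_span_singleton _).mul (Module.Finite.iff_fg.1 (hW.fd q)))
  have h1 : (1 : K) ∈ U := by
    rw [← inv_mul_cancel₀ ht]
    exact Submodule.mul_mem_mul (Submodule.mem_span_singleton_self _) htq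
  obtain ⟨d, z, hz, hi, r, hr⟩ := hNN K U hfd h1
  refine ⟨d, z, hq, ht, htq, fun i => ?_, hi, m₀ + r * q, fun m hm => ?_⟩
  · rw [← hSU]
    exact Submodule.mul_mem_mul (Submodule.mem_span_singleton_self _) (hz i)
  · obtain ⟨m', rfl⟩ : ∃ m', m = m' + r * q := ⟨m - r * q, by omega⟩
    have h2 := DExN_le_pow hg (by omega : m₀ ≤ m') (r + 1)
    have h3 := DExN_pow_le hW (le_refl (W q)) m' r
    rw [add_mul, one_mul, ← add_assoc, ← hSU, mul_pow] at h2
    rw [← hSU] at h3
    refine h2.trans ((mul_le_mul_left (mul_le_mul_right hr _) _).trans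
      (le_trans (le_of_eq ?_) (mul_le_mul_right h3 _)))
    ring

end Fuj
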