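import Vale.Agent.P271.DDefs
import Vale.Agent.P271.DExN

open Set Filter Topology Metric

noncomputable section
namespace Fuj

section
variable {K : Type} [Field K] [Algebra ℂ K] {d : ℕ} (z : Fin d → K)

theorem DHF_coe (a : K) (V : Submodule ℂ K) :
    Submodule.span ℂ {a} * V = V.map (LinearMap.mulLeft ℂ a) := by
  ext x
  rw [Submodule.mem_span_singleton_mul, Submodule.mem_map]
  rfl

theorem DHF_fin {F : Type} [Field F] [Algebra F K] {a : K} (ha : a ≠ 0) (V : Submodule F K) :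
    Module.finrank F (V.map (LinearMap.mulLeft F a)) = Module.finrank F V :=
  (Submodule.equivMapOfInjective (LinearMap.mulLeft F a) (mul_right_injective₀ ha)
    V).finrank_eq.symm

theorem DHF_rk_mul {a : K} (ha : a ≠ 0) (V : Submodule ℂ K) :
    rk z (Submodule.span ℂ {a} * V) = rk z V := by
  rw [rk, rk, ← DHF_fin ha (Submodule.span _ (V : Set K)), Submodule.map_span, DHF_coe]
  rfl

theorem DHF_one : (1 : K) ∈ Z1 z := Submodule.subset_span (mem_insert _ _)

theorem DHF_mem (k : ℕ) {x : K} (hx : x ∈ Z1 z ^ k) :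
    x ∈ IntermediateField.adjoin ℂ (range z) := by
  have h1 : Z1 z ≤ (IntermediateField.adjoin ℂ (range z)).toSubalgebra.toSubmodule :=
    Submodule.span_le.2 (insert_subset (IntermediateField.adjoin ℂ (range z)).one_mem
      (IntermediateField.subset_adjoin _ _))
  have h2 : ∀ k, Z1 z ^ k ≤ (IntermediateField.adjoin ℂ (range z)).toSubalgebra.toSubmodule := by
    intro k
    induction k with
    | zero => exact Submodule.one_le.2 (IntermediateField.adjoin ℂ (range z)).one_mem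
    | succ k ih =>
      rw [pow_succ]
      exact Submodule.mul_le.2 fun a ha b hb =>
        (IntermediateField.adjoin ℂ (range z)).mul_mem (ih ha) (h1 hb)
  exact h2 k hx

theorem DHF_rk_Z (k : ℕ) (V : Submodule ℂ K) : rk z (Z1 z ^ k * V) = rk z V := by
  have e : Submodule.span (IntermediateField.adjoin ℂ (range z))
      ((Z1 z ^ k * V : Submodule ℂ K) : Set K) =
      Submodule.span (IntermediateField.adjoin ℂ (range z)) (V : Set K) := by
    refine le_antisymm (Submodule.span_le.2 ?_) (Submodule.span_mono fun x hx => ?_)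
    · have h : Z1 z ^ k * V ≤ (Submodule.span (IntermediateField.adjoin ℂ (range z))
          (V : Set K)).restrictScalars ℂ := Submodule.mul_le.2 fun a ha b hb =>
        Submodule.smul_mem _ (⟨a, DHF_mem z k ha⟩ : IntermediateField.adjoin ℂ (range z))
          (Submodule.subset_span hb)
      exact h
    · have h := Submodule.mul_mem_mul (Submodule.pow_mem_pow _ (DHF_one z) k) hx
      rwa [one_pow, one_mul] at h
  rw [rk, rk, e]

theorem DHF_fd (V : Submodule ℂ K) [h : FiniteDimensional ℂ V] :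
    FiniteDimensional (IntermediateField.adjoin ℂ (range z))
      (Submodule.span (IntermediateField.adjoin ℂ (range z)) (V : Set K)) := by
  obtain ⟨s, rfl⟩ := Module.Finite.iff_fg.1 h
  rw [Submodule.span_span_of_tower]
  exact FiniteDimensional.span_of_finite _ s.finite_toSet

theorem DHF_mono {V V' : Submodule ℂ K} [FiniteDimensional ℂ V'] (h : V ≤ V') :
    rk z V ≤ rk z V' := by
  haveI := DHF_fd z V'
  exact Submodule.finrank_mono (Submodule.span_mono h)

theorem DHF_pos {V : Submodule ℂ K} [FiniteDimensional ℂ V] (h : V ≠ ⊥) : 1 ≤ rk z V := by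
  haveI := DHF_fd z V
  obtain ⟨x, hx, h0⟩ := (Submodule.ne_bot_iff _).1 h
  exact Submodule.one_le_finrank_iff.2
    ((Submodule.ne_bot_iff _).2 ⟨x, Submodule.subset_span hx, h0⟩)

end

theorem d_HF (hCnt : Cnt) : HF := by
  intro K _ _ W m₁ q t₀ d z hW hN
  obtain ⟨m₀, hg⟩ := hN.gen
  have hq := hN.qpos
  haveI := hW.fd
  have hT : Submodule.span ℂ {t₀} * Z1 z ≤ W q := by
    rw [Z1, Submodule.span_mul_span]
    refine Submodule.span_le.2 ?_
    rintro _ ⟨a, rfl, b, rfl | ⟨i, rfl⟩, rfl⟩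
    · simpa using hN.mem₀
    · exact hN.mem i
  have hE : ∀ m, m₀ ≤ m → ∀ k, W (m + k * q) =
      Submodule.span ℂ {t₀ ^ k} * (Z1 z ^ k * W m) := fun m hm k => by
    rw [← mul_assoc, ← Set.singleton_pow, ← Submodule.span_pow, ← mul_pow]
    exact le_antisymm (DExN_le_pow hg hm k) (DExN_pow_le hW hT m k)
  have hR : ∀ m, m₀ ≤ m → ∀ k, rk z (W (m + k * q)) = rk z (W m) := fun m hm k => by
    rw [hE m hm, DHF_rk_mul z (pow_ne_zero k hN.ne), DHF_rk_Z]
  have hM : ∀ m m', m₀ ≤ m → rk z (W m') ≤ rk z (W m) := fun m m' hm => by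
    have h1 : m' + m₁ ≤ (m' + m₁) * q := Nat.le_mul_of_pos_right _ hq
    obtain ⟨j, hj⟩ : ∃ j, m + (m' + m₁) * q = j + m' := ⟨m + (m' + m₁) * q - m', by omega⟩
    obtain ⟨a, ha, h0⟩ := (Submodule.ne_bot_iff _).1 (hW.ne j (by omega))
    rw [← hR m hm (m' + m₁), hj, ← DHF_rk_mul z h0 (W m')]
    exact DHF_mono z (Submodule.mul_le.2 fun x hx y hy =>
      hW.mul ((Submodule.span_singleton_le_iff_mem _ _).2 ha hx) hy)
  have hC : ∀ m, m₀ ≤ m → rk z (W m) = rk z (W m₀) := fun m hm =>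
    le_antisymm (hM m₀ m le_rfl) (hM m m₀ hm)
  choose cf hcf using fun m => (hCnt K d z (W m) hN.ind (hW.fd m)).2
  refine ⟨rk z (W m₀), (DHF_pos z (hW.ne m₁ le_rfl)).trans (hM m₀ m₁ le_rfl),
    eventually_atTop.2 ⟨m₀, hC⟩, m₀ + q + ∑ i ∈ Finset.range (m₀ + q), cf i,
    eventually_atTop.2 ⟨m₀, fun m hm => ?_⟩⟩
  obtain ⟨m', k, h1, h2, rfl⟩ : ∃ m' k, m₀ ≤ m' ∧ m' < m₀ + q ∧ m = m' + k * q :=
    ⟨m₀ + (m - m₀) % q, (m - m₀) / q, by omega, by have := Nat.mod_lt (m - m₀) hq; omega, by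
      have := Nat.mod_add_div' (m - m₀) q
      omega⟩
  have h3 : cf m' ≤ ∑ i ∈ Finset.range (m₀ + q), cf i :=
    Finset.single_le_sum (fun _ _ => Nat.zero_le _) (Finset.mem_range.2 h2)
  have h4 : m' / q ≤ m' := Nat.div_le_self _ _
  have h5 : Module.finrank ℂ (W (m' + k * q)) = Module.finrank ℂ ↥(Z1 z ^ k * W m') := by
    rw [hE m' h1, DHF_coe, DHF_fin (pow_ne_zero k hN.ne)]
  simp only [h5, Nat.add_mul_div_right _ _ hq, ← hC m' h1]
  generalize m' / q = u at h4 ⊢
  exact ⟨(Nat.mul_le_mul_left _ (Nat.pow_le_pow_left (by omega) d)).trans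
      ((hCnt K d z (W m') hN.ind (hW.fd m')).1 k),
    (hcf m' k).trans (Nat.mul_le_mul_left _ (Nat.pow_le_pow_left (by omega) d))⟩

end Fuj
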