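import Vale.Agent.P271.DDefs

/-! Part D: the affine ring, the centre of a valuation and the associated system in a field. -/

open Set Filter Topology Metric

noncomputable section
namespace Fuj
namespace Loc
variable {n : ℕ} (L : Loc n) {q : ℕ}

theorem DM_dom {m m' : ℕ} {s s' : E n → ℂ} (hs : s ∈ L.V m) (hs' : s' ∈ L.V m')
    (h0 : s ≠ 0) (h0' : s' ≠ 0) : s * s' ≠ 0 := by
  intro h
  have h1 : ∃ p ∈ ball (0 : E n) 2, s p ≠ 0 := by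
    by_contra h2
    push Not at h2
    exact h0 (L.inj hs h2)
  obtain ⟨p, hp, hp'⟩ := h1
  have h2 : s' =ᶠ[𝓝 p] 0 := by
    filter_upwards [(L.an hs p hp).continuousAt.eventually_ne hp'] with x hx
    exact (mul_eq_zero.1 (congrFun h x)).resolve_left hx
  exact h0' (L.inj hs' fun x hx => (L.an hs').eqOn_zero_of_preconnected_of_eventuallyEq_zero
    (convex_ball _ _).isPreconnected hp h2 hx)

theorem DM_pow {m : ℕ} {s : E n → ℂ} (hs : s ∈ L.V m) (k : ℕ) : s ^ k ∈ L.V (k * m) := by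
  induction k with
  | zero => simpa using L.one
  | succ k ih => rw [pow_succ, Nat.succ_mul]; exact L.mul ih hs

theorem DM_pow_ne {m : ℕ} {s : E n → ℂ} (hs : s ∈ L.V m) (h0 : s ≠ 0) (k : ℕ) : s ^ k ≠ 0 := by
  induction k with
  | zero => simp
  | succ k ih => rw [pow_succ]; exact L.DM_dom (L.DM_pow hs k) hs ih h0

variable {L}

theorem Alg.pad (hA : L.Alg q) {m : ℕ} {s : E n → ℂ} (hs : s ∈ L.V m) (k : ℕ) :
    s ∈ L.V (m + k * q) := by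
  simpa using L.mul hs (L.DM_pow hA.one k)

theorem Alg.mono (hA : L.Alg q) {k k' : ℕ} (h : k ≤ k') {s : E n → ℂ} (hs : s ∈ L.V (k * q)) :
    s ∈ L.V (k' * q) := by
  obtain ⟨j, rfl⟩ := Nat.exists_eq_add_of_le h
  rw [add_mul]
  exact hA.pad hs j

/-- the affine coordinate ring -/
def Alg.B (hA : L.Alg q) : Subalgebra ℂ (E n → ℂ) where
  carrier := {s | ∃ k, s ∈ L.V (k * q)}
  mul_mem' := fun ⟨k, a⟩ ⟨k', b⟩ => ⟨k + k', by rw [add_mul]; exact L.mul a b⟩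
  add_mem' := fun ⟨k, a⟩ ⟨k', b⟩ =>
    ⟨k + k', add_mem (hA.mono (Nat.le_add_right _ _) a) (hA.mono (Nat.le_add_left _ _) b)⟩
  algebraMap_mem' := fun c => ⟨0, by
    rw [Algebra.algebraMap_eq_smul_one, zero_mul]
    exact Submodule.smul_mem _ c L.one⟩

theorem IsVal.v_pow {v : (E n → ℂ) → ℝ} (hv : L.IsVal v) {m : ℕ} {s : E n → ℂ} (hs : s ∈ L.V m)
    (h0 : s ≠ 0) (k : ℕ) : v (s ^ k) = k * v s := by
  induction k with
  | zero => simpa using hv.cen L.one (by simp)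
  | succ k ih =>
    rw [pow_succ, hv.mul (L.DM_pow hs k) hs (L.DM_pow_ne hs h0 k) h0, ih]
    push_cast
    ring

/-- the centre of the valuation -/
def Alg.P (hA : L.Alg q) {v : (E n → ℂ) → ℝ} (hv : L.IsVal v) : Ideal hA.B where
  carrier := {s | s.1 = 0 ∨ 0 < v s.1}
  zero_mem' := Or.inl rfl
  add_mem' := by
    rintro ⟨s, k, a⟩ ⟨s', k', b⟩ h h'
    by_cases h0 : s = 0
    · subst h0
      change 0 + s' = 0 ∨ 0 < v (0 + s')
      rw [zero_add]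
      exact h'
    by_cases h0' : s' = 0
    · subst h0'
      change s + 0 = 0 ∨ 0 < v (s + 0)
      rw [add_zero]
      exact h
    by_cases h1 : s + s' = 0
    · exact Or.inl h1
    exact Or.inr ((lt_min (h.resolve_left h0) (h'.resolve_left h0')).trans_le
      (hv.add (hA.mono (Nat.le_add_right k k') a) (hA.mono (Nat.le_add_left k' k) b) h0 h0' h1))
  smul_mem' := by
    rintro ⟨r, k, a⟩ ⟨s, k', b⟩ h
    change r * s = 0 ∨ 0 < v (r * s)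
    by_cases h0 : r = 0
    · simp [h0]
    by_cases h0' : s = 0
    · simp [h0']
    right
    rw [hv.mul a b h0 h0']
    exact add_pos_of_nonneg_of_pos (hv.nonneg a h0) (h.resolve_left h0')

variable (hA : L.Alg q) {v : (E n → ℂ) → ℝ} (hv : L.IsVal v)

theorem Alg.mem_P {s : hA.B} : s ∈ hA.P hv ↔ s.1 = 0 ∨ 0 < v s.1 := Iff.rfl

theorem Alg.notMem_P {s : hA.B} : s ∉ hA.P hv ↔ s.1 ≠ 0 ∧ v s.1 = 0 := by
  obtain ⟨s, k, a⟩ := s
  rw [hA.mem_P hv, not_or, not_lt]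
  exact ⟨fun h => ⟨h.1, le_antisymm h.2 (hv.nonneg a h.1)⟩, fun h => ⟨h.1, h.2.le⟩⟩

instance Alg.P_prime : (hA.P hv).IsPrime where
  ne_top' := by
    rw [Ideal.ne_top_iff_one, hA.notMem_P hv]
    exact ⟨one_ne_zero, hv.cen L.one (by simp)⟩
  mem_or_mem' := by
    rintro ⟨s, k, a⟩ ⟨s', k', b⟩ h
    by_contra h1
    rw [not_or, hA.notMem_P hv, hA.notMem_P hv] at h1
    refine (hA.notMem_P hv).2 ⟨L.DM_dom a b h1.1.1 h1.2.1, ?_⟩ h
    change v (s * s') = 0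
    rw [hv.mul a b h1.1.1 h1.2.1, h1.1.2, h1.2.2, add_zero]

theorem Alg.P_zero {s : hA.B} (h : s ∈ hA.P hv) : s.1 0 = 0 := by
  by_contra h1
  obtain ⟨k, a⟩ := s.2
  exact (hA.notMem_P hv).2 ⟨fun h2 => h1 (by rw [h2]; rfl), hv.cen a h1⟩ h

theorem DM_exQ (B : Type) [CommRing B] [Algebra ℂ B] (P : Ideal B) [P.IsPrime] :
    ∃ (Λ : Type) (_ : CommRing Λ) (_ : IsDomain Λ) (_ : Algebra ℂ Λ) (K : Type) (_ : Field K)
      (_ : Algebra ℂ K) (mk : B →ₐ[ℂ] Λ) (ι : Λ →ₐ[ℂ] K), Function.Surjective mk ∧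
      (∀ s, mk s = 0 ↔ s ∈ P) ∧ Function.Injective ι :=
  ⟨B ⧸ P, inferInstance, inferInstance, inferInstance, FractionRing (B ⧸ P), inferInstance,
    inferInstance, Ideal.Quotient.mkₐ ℂ P, IsScalarTower.toAlgHom ℂ _ _,
    Ideal.Quotient.mkₐ_surjective ℂ P, fun _ => Ideal.Quotient.eq_zero_iff_mem,
    IsFractionRing.injective _ _⟩

/-- a unit of degree `-1` modulo `q` -/
structure IsB (L : Loc n) (q a b : ℕ) (β : E n → ℂ) : Prop where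
  deg : b + 1 = a * q
  mem : β ∈ L.V b
  ne : β 0 ≠ 0

include hA in
theorem Alg.exB : ∃ a b β, IsB L q a b β := by
  obtain ⟨m₁, h⟩ := eventually_atTop.1 hA.big
  have h1 : m₁ + 1 ≤ (m₁ + 1) * q := Nat.le_mul_of_pos_right _ hA.qpos
  obtain ⟨β, h2, h3⟩ := h ((m₁ + 1) * q - 1) (by omega)
  exact ⟨m₁ + 1, _, β, by omega, h2, h3⟩

variable {a b : ℕ} {β : E n → ℂ} (hβ : IsB L q a b β) {K : Type} [Field K] [Algebra ℂ K]
  (π : hA.B →ₐ[ℂ] K)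

include hβ in
theorem IsB.memB {m : ℕ} {s : E n → ℂ} (hs : s ∈ L.V m) : s * β ^ m ∈ hA.B :=
  ⟨m * a, by
    have := L.mul hs (L.DM_pow hβ.mem m)
    rwa [show m + m * b = m * a * q by rw [mul_assoc, ← hβ.deg]; ring] at this⟩

/-- the embedding of degree `m` -/
def IsB.φ (m : ℕ) : L.V m →ₗ[ℂ] K where
  toFun s := π ⟨s.1 * β ^ m, hβ.memB hA s.2⟩
  map_add' s s' := by
    rw [← map_add]
    congr 1
    exact Subtype.ext (add_mul _ _ _)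
  map_smul' c s := by
    rw [RingHom.id_apply, ← map_smul]
    congr 1
    exact Subtype.ext (smul_mul_assoc _ _ _)

theorem IsB.φ_apply {m : ℕ} {s : E n → ℂ} (hs : s ∈ L.V m) :
    hβ.φ hA π m ⟨s, hs⟩ = π ⟨s * β ^ m, hβ.memB hA hs⟩ := rfl

theorem IsB.φ_mul {m m' : ℕ} {s s' : E n → ℂ} (hs : s ∈ L.V m) (hs' : s' ∈ L.V m') {k : ℕ}
    (hk : k = m + m') (h : s * s' ∈ L.V k) :
    hβ.φ hA π k ⟨s * s', h⟩ = hβ.φ hA π m ⟨s, hs⟩ * hβ.φ hA π m' ⟨s', hs'⟩ := by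
  subst hk
  rw [hβ.φ_apply, hβ.φ_apply, hβ.φ_apply, ← map_mul]
  congr 1
  refine Subtype.ext ?_
  change s * s' * β ^ (m + m') = s * β ^ m * (s' * β ^ m')
  ring

theorem IsB.φ_ne (hπ : ∀ s, π s = 0 ↔ s ∈ hA.P hv) {m : ℕ} {s : E n → ℂ} (hs : s ∈ L.V m) :
    hβ.φ hA π m ⟨s, hs⟩ ≠ 0 ↔ s ≠ 0 ∧ v s = 0 := by
  have hb : β ≠ 0 := fun h => hβ.ne (by rw [h]; rfl)
  have h1 := L.DM_pow hβ.mem m
  have h2 := L.DM_pow_ne hβ.mem hb m
  have h3 : v (β ^ m) = 0 := hv.cen h1 (pow_ne_zero m hβ.ne)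
  rw [hβ.φ_apply, Ne, hπ, hA.notMem_P]
  change s * β ^ m ≠ 0 ∧ v (s * β ^ m) = 0 ↔ _
  constructor
  · rintro ⟨h4, h5⟩
    have h6 : s ≠ 0 := left_ne_zero_of_mul h4
    rw [hv.mul hs h1 h6 h2, h3, add_zero] at h5
    exact ⟨h6, h5⟩
  · rintro ⟨h4, h5⟩
    exact ⟨L.DM_dom hs h1 h4 h2, by rw [hv.mul hs h1 h4 h2, h3, h5, add_zero]⟩

/-- the graded system in the function field -/
def IsB.W (m : ℕ) : Submodule ℂ (K) := LinearMap.range (hβ.φ hA π m)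

theorem IsB.gf (hπ : ∀ s, π s = 0 ↔ s ∈ hA.P hv) {m₁ : ℕ}
    (h : ∀ m, m₁ ≤ m → ∃ s ∈ L.V m, s 0 ≠ 0) : GF (hβ.W hA π) m₁ where
  fd m := by
    have := L.fd m
    unfold IsB.W
    infer_instance
  mul := by
    rintro m m' _ _ ⟨⟨s, hs⟩, rfl⟩ ⟨⟨s', hs'⟩, rfl⟩
    exact ⟨⟨s * s', L.mul hs hs'⟩, hβ.φ_mul hA π hs hs' rfl _⟩
  ne m hm := by
    obtain ⟨s, hs, h0⟩ := h m hm
    refine (Submodule.ne_bot_iff _).2 ⟨_, ⟨⟨s, hs⟩, rfl⟩, (hβ.φ_ne hA hv π hπ hs).2 ⟨?_, hv.cen hs h0⟩⟩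
    exact fun h1 => h0 (by rw [h1]; rfl)

theorem IsB.gen_le {m r : ℕ} (h : L.V (m + r) ≤ L.V r * L.V m) :
    hβ.W hA π (m + r) ≤ hβ.W hA π r * hβ.W hA π m := by
  rintro _ ⟨⟨s, hs⟩, rfl⟩
  have key : ∀ s ∈ L.V r * L.V m, ∃ hs : s ∈ L.V (m + r),
      hβ.φ hA π (m + r) ⟨s, hs⟩ ∈ hβ.W hA π r * hβ.W hA π m := by
    intro s hs
    refine Submodule.mul_induction_on hs (fun x hx y hy => ?_) ?_
    · have h1 : x * y ∈ L.V (m + r) := by rw [add_comm]; exact L.mul hx hy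
      refine ⟨h1, ?_⟩
      rw [hβ.φ_mul hA π hx hy (add_comm _ _)]
      exact Submodule.mul_mem_mul ⟨_, rfl⟩ ⟨_, rfl⟩
    · rintro x y ⟨hx, hx'⟩ ⟨hy, hy'⟩
      refine ⟨add_mem hx hy, ?_⟩
      have := add_mem hx' hy'
      rwa [← map_add] at this
  exact (key s (h hs)).2

theorem IsB.gen {r : ℕ} (h : Gen L.V r (L.V r)) : Gen (hβ.W hA π) r (hβ.W hA π r) := by
  obtain ⟨m₀, h⟩ := h
  exact ⟨m₀, fun m hm => hβ.gen_le hA π (h m hm)⟩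

theorem IsB.lift (hπ : ∀ s, π s = 0 ↔ s ∈ hA.P hv) (m : ℕ) : ∃ U : Submodule ℂ (E n → ℂ), U ≤ L.V m ∧
    (∀ s ∈ U, s ≠ 0 → v s = 0) ∧ Module.finrank ℂ U = Module.finrank ℂ (hβ.W hA π m) := by
  have := L.fd m
  obtain ⟨C, hC⟩ := Submodule.exists_isCompl (LinearMap.ker (hβ.φ hA π m))
  refine ⟨C.map (L.V m).subtype, Submodule.map_subtype_le _ _, ?_, ?_⟩
  · rintro _ ⟨⟨s, hs⟩, h1, rfl⟩ h0
    refine ((hβ.φ_ne hA hv π hπ hs).1 fun h2 => h0 ?_).2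
    have : (⟨s, hs⟩ : L.V m) = 0 := (Submodule.disjoint_def.1 hC.disjoint) _ h2 h1
    exact congrArg Subtype.val this
  · rw [Submodule.finrank_map_subtype_eq]
    have h1 := LinearMap.finrank_range_add_finrank_ker (hβ.φ hA π m)
    have h2 := Submodule.finrank_add_eq_of_isCompl hC
    unfold IsB.W
    omega

theorem IsB.finrank_eq (hπ : ∀ s, π s = 0 ↔ s ∈ hA.P hv)
    (h : ∀ m, ∀ s ∈ L.V m, s ≠ 0 → v s = 0) (m : ℕ) :
    Module.finrank ℂ (hβ.W hA π m) = L.h m := by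
  refine LinearMap.finrank_range_of_inj ((injective_iff_map_eq_zero _).2 ?_)
  rintro ⟨s, hs⟩ h0
  by_contra h1
  have h2 : s ≠ 0 := fun h3 => h1 (Subtype.ext h3)
  exact (hβ.φ_ne hA hv π hπ hs).2 ⟨h2, h m s hs h2⟩ h0

end Loc
end Fuj
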