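import Vale.Agent.P271.DM1

/-! Part D: integrality over the normalisation, characters and points. -/

open Set Filter Topology Metric

noncomputable section
namespace Fuj
namespace Loc
variable {n : ℕ} {L : Loc n} {q : ℕ} (hA : L.Alg q) {v : (E n → ℂ) → ℝ} (hv : L.IsVal v)
  {a b : ℕ} {β : E n → ℂ} (hβ : IsB L q a b β) {Λ : Type} [CommRing Λ] [Algebra ℂ Λ]
  {K : Type} [Field K] [Algebra ℂ K] (mk : hA.B →ₐ[ℂ] Λ) (ι : Λ →ₐ[ℂ] K)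

theorem Alg.memq {s : E n → ℂ} (hs : s ∈ L.V q) : s ∈ hA.B := ⟨1, by rwa [one_mul]⟩

theorem IsB.φ_eq {K : Type} [Field K] [Algebra ℂ K] (π : hA.B →ₐ[ℂ] K) {k : ℕ} {s : E n → ℂ}
    (hs : s ∈ L.V (k * q)) :
    hβ.φ hA π (k * q) ⟨s, hs⟩ = hβ.φ hA π q ⟨1, hA.one⟩ ^ k * π ⟨s, k, hs⟩ := by
  rw [hβ.φ_apply, hβ.φ_apply, ← map_pow, ← map_mul]
  congr 1
  refine Subtype.ext ?_
  change s * β ^ (k * q) = (1 * β ^ q) ^ k * s
  ring

theorem IsB.exT {K : Type} [Field K] [Algebra ℂ K] (π : hA.B →ₐ[ℂ] K) {d : ℕ} {z : Fin d → K}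
    (hN : NData (hβ.W hA π) q (hβ.φ hA π q ⟨1, hA.one⟩) z) :
    ∃ (t : Fin d → E n → ℂ) (ht : ∀ i, t i ∈ L.V q), ∀ i, z i = π ⟨t i, hA.memq (ht i)⟩ := by
  have : ∀ i, ∃ (t : E n → ℂ) (ht : t ∈ L.V q), z i = π ⟨t, hA.memq ht⟩ := fun i => by
    obtain ⟨⟨t, ht⟩, h⟩ := hN.mem i
    refine ⟨t, ht, mul_left_cancel₀ hN.ne ?_⟩
    rw [← h, hβ.φ_apply, hβ.φ_apply, ← map_mul]
    congr 1
    refine Subtype.ext ?_
    change t * β ^ q = 1 * β ^ q * t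
    ring
  choose t ht h using this
  exact ⟨t, ht, h⟩

theorem IsB.integral (hs : Function.Surjective mk) (hι : Function.Injective ι) {d : ℕ}
    {z : Fin d → Λ}
    (hN : NData (hβ.W hA (ι.comp mk)) q (hβ.φ hA (ι.comp mk) q ⟨1, hA.one⟩) fun i => ι (z i)) :
    (MvPolynomial.aeval z : MvPolynomial (Fin d) ℂ →ₐ[ℂ] Λ).toRingHom.IsIntegral := by
  classical
  letI : Algebra (MvPolynomial (Fin d) ℂ) Λ :=
    (MvPolynomial.aeval z : MvPolynomial (Fin d) ℂ →ₐ[ℂ] Λ).toRingHom.toAlgebra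
  have hsm : ∀ (r : MvPolynomial (Fin d) ℂ) (x : Λ), r • x = MvPolynomial.aeval z r * x :=
    fun r x => rfl
  obtain ⟨m₀, hg⟩ := hN.gen
  have := L.fd (m₀ * q)
  set t₀ := hβ.φ hA (ι.comp mk) q ⟨1, hA.one⟩ with ht₀
  let bs := Module.finBasis ℂ (L.V (m₀ * q))
  let N : Submodule (MvPolynomial (Fin d) ℂ) Λ :=
    Submodule.span _ (range fun j => mk ⟨(bs j).1, m₀, (bs j).2⟩)
  have hC : ∀ (c : ℂ) x, x ∈ N → c • x ∈ N := fun c x hx => by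
    have := N.smul_mem (MvPolynomial.C c) hx
    rwa [hsm, MvPolynomial.aeval_C, ← Algebra.smul_def] at this
  have h0 : ∀ s : L.V (m₀ * q), mk ⟨s.1, m₀, s.2⟩ ∈ N := fun s => by
    have e : (⟨s.1, m₀, s.2⟩ : hA.B) = ∑ j, bs.repr s j • (⟨(bs j).1, m₀, (bs j).2⟩ : hA.B) := by
      refine Subtype.ext ?_
      have := congrArg Subtype.val (bs.sum_repr s).symm
      rw [Submodule.coe_sum] at this
      rw [AddSubmonoidClass.coe_finset_sum]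
      exact this
    rw [e, map_sum]
    refine Submodule.sum_mem _ fun j _ => ?_
    rw [map_smul]
    exact hC _ _ (Submodule.subset_span ⟨j, rfl⟩)
  have h1 : ∀ j, ∀ x ∈ hβ.W hA (ι.comp mk) ((m₀ + j) * q), ∃ y ∈ N, x = t₀ ^ (m₀ + j) * ι y := by
    intro j
    induction j with
    | zero =>
      rintro _ ⟨⟨s, hs⟩, rfl⟩
      exact ⟨_, h0 ⟨s, hs⟩, hβ.φ_eq hA _ hs⟩
    | succ j ih =>
      intro x hx
      rw [show (m₀ + (j + 1)) * q = (m₀ + j) * q + q by ring] at hx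
      have h2 := hg _ ((Nat.le_add_right m₀ j).trans (Nat.le_mul_of_pos_right _ hA.qpos)) hx
      refine Submodule.mul_induction_on h2 (fun u hu w hw => ?_) ?_
      · obtain ⟨y, hy, rfl⟩ := ih w hw
        obtain ⟨u', hu', rfl⟩ := Submodule.mem_span_singleton_mul.1 hu
        have h3 : ∃ r : MvPolynomial (Fin d) ℂ, u' = ι (MvPolynomial.aeval z r) := by
          refine Submodule.span_induction
            (p := fun u' _ => ∃ r : MvPolynomial (Fin d) ℂ, u' = ι (MvPolynomial.aeval z r)) ?_ ⟨0, by simp⟩ ?_ ?_ hu'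
          · rintro _ (rfl | ⟨i, rfl⟩)
            · exact ⟨1, by simp⟩
            · exact ⟨MvPolynomial.X i, by simp⟩
          · rintro _ _ _ _ ⟨r, rfl⟩ ⟨r', rfl⟩
            exact ⟨r + r', by simp⟩
          · rintro c _ _ ⟨r, rfl⟩
            exact ⟨c • r, by simp⟩
        obtain ⟨r, rfl⟩ := h3
        refine ⟨r • y, N.smul_mem r hy, ?_⟩
        rw [hsm, map_mul, ← add_assoc, pow_succ]
        ring
      · rintro _ _ ⟨y, hy, rfl⟩ ⟨y', hy', rfl⟩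
        exact ⟨y + y', add_mem hy hy', by rw [map_add, mul_add]⟩
  have h4 : N = ⊤ := by
    refine eq_top_iff.2 fun x _ => ?_
    obtain ⟨⟨s, k, hk⟩, rfl⟩ := hs x
    have h5 := hA.mono (Nat.le_add_left k m₀) hk
    obtain ⟨y, hy, h6⟩ := h1 k _ ⟨⟨s, h5⟩, rfl⟩
    rw [hβ.φ_eq hA _ h5] at h6
    have h7 := hι (mul_left_cancel₀ (pow_ne_zero _ hN.ne) h6)
    exact h7 ▸ hy
  have : Module.Finite (MvPolynomial (Fin d) ℂ) Λ :=
    ⟨h4 ▸ Submodule.fg_span (finite_range _)⟩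
  exact fun x => Algebra.IsIntegral.isIntegral (R := MvPolynomial (Fin d) ℂ) x

/-- evaluation at a point -/
def Alg.ev (y : E n) : hA.B →ₐ[ℂ] ℂ := (Pi.evalAlgHom ℂ (fun _ => ℂ) y).comp hA.B.val

theorem Alg.exChar (hs : Function.Surjective mk) (hk : ∀ s, mk s = 0 ↔ s ∈ hA.P hv) {y : E n}
    (hy : ∀ s ∈ hA.P hv, s.1 y = 0) : ∃ ξ : Λ →ₐ[ℂ] ℂ, ∀ s, ξ (mk s) = s.1 y :=
  ⟨AlgHom.liftOfSurjective mk hs (hA.ev y) fun s h => hy s ((hk s).1 h), fun s =>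
    AlgHom.liftOfSurjective_apply _ _ _ _ s⟩

theorem Alg.lc' : ∃ (δ : ℝ) (N : ℕ) (l : Fin N → hA.B), 0 < δ ∧
    ∀ ξ : hA.B →ₐ[ℂ] ℂ, (∀ j, ‖ξ (l j) - (l j).1 0‖ < δ) →
      ∃ p ∈ ball (0 : E n) 1, ∀ s, ξ s = s.1 p := by
  classical
  obtain ⟨δ, N, l, hδ, hl, h⟩ := hA.lc
  refine ⟨δ, N, fun j => ⟨l j, hA.memq (hl j)⟩, hδ, fun ξ hξ => ?_⟩
  let ξ' : ℕ → (E n → ℂ) → ℂ := fun _ s => if h : s ∈ hA.B then ξ ⟨s, h⟩ else 0
  have e : ∀ k s (h : s ∈ hA.B), ξ' k s = ξ ⟨s, h⟩ := fun k s h => dif_pos h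
  obtain ⟨p, hp, h1⟩ := h ξ' ⟨fun {m s s'} h h' => by
      rw [e m s ⟨m, h⟩, e m s' ⟨m, h'⟩, e m _ ⟨m, add_mem h h'⟩, ← map_add]
      rfl, fun {m s} c h => by
      rw [e m s ⟨m, h⟩, e m _ ⟨m, Submodule.smul_mem _ c h⟩]
      exact map_smul ξ c ⟨s, m, h⟩, fun {m m' s s'} h h' => by
      rw [e m s ⟨m, h⟩, e m' s' ⟨m', h'⟩, e (m + m') _ (hA.B.mul_mem ⟨m, h⟩ ⟨m', h'⟩),
        ← map_mul]
      rfl, by rw [e 0 1 hA.B.one_mem]; exact map_one ξ⟩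
    (by rw [e 1 1 hA.B.one_mem]; exact map_one ξ) fun j => by
      rw [e 1 _ (hA.memq (hl j))]
      exact hξ j
  refine ⟨p, hp, fun ⟨s, k, hs⟩ => ?_⟩
  exact (e k s ⟨k, hs⟩).symm.trans (h1 k s hs)

theorem Alg.anB (s : hA.B) : AnalyticOnNhd ℂ s.1 (ball 0 2) := by
  obtain ⟨k, h⟩ := s.2
  exact L.an h

theorem DM_crd {p : E n} (hp : p ∈ ball (0 : E n) 2) (i : Fin n) : Fuj.crd i p = p i :=
  indicator_of_mem hp _

/-- the zero set of the centre -/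
def Alg.Z : Set (E n) := {x | x ∈ ball (0 : E n) 1 ∧ ∀ s ∈ hA.P hv, s.1 x = 0}

theorem Alg.opn [IsDomain Λ] (hO : OpenC) (hs : Function.Surjective mk)
    (hk : ∀ s, mk s = 0 ↔ s ∈ hA.P hv) {d : ℕ} (t : Fin d → hA.B)
    (hi : AlgebraicIndependent ℂ fun i => mk (t i))
    (hI : (MvPolynomial.aeval fun i => mk (t i) :
      MvPolynomial (Fin d) ℂ →ₐ[ℂ] Λ).toRingHom.IsIntegral) :
    ∀ᶠ y in 𝓝 (0 : E n), y ∈ hA.Z hv → ∀ U ∈ 𝓝 y, ∀ᶠ ζ in 𝓝 (fun i => (t i).1 y),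
      ∃ x ∈ hA.Z hv, x ∈ U ∧ ∀ i, (t i).1 x = ζ i := by
  obtain ⟨δ, N, l, hδ, h⟩ := hA.lc'
  have h1 : ∀ᶠ y in 𝓝 (0 : E n), ∀ j, ‖(l j).1 y - (l j).1 0‖ < δ / 2 := by
    refine eventually_all.2 fun j => ?_
    have := (hA.anB (l j) 0 (mem_ball_self two_pos)).continuousAt
    simpa [dist_eq_norm] using Metric.tendsto_nhds.1 this (δ / 2) (half_pos hδ)
  filter_upwards [h1] with y hy hZ U hU
  obtain ⟨ξ₀, hξ₀⟩ := hA.exChar hv mk hs hk hZ.2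
  obtain ⟨ε, hε, hU⟩ := Metric.mem_nhds_iff.1 hU
  let c : Fin n → hA.B := fun i => ⟨Fuj.crd i, hA.memq (hA.crd i)⟩
  have h2 := hO Λ d (N + n) (fun i => mk (t i)) (fun j => mk (Fin.append l c j)) ξ₀ hi hI
    (min (δ / 2) ε) (lt_min (half_pos hδ) hε)
  simp only [hξ₀] at h2
  filter_upwards [h2] with ζ ⟨ξ, h3, h4⟩
  obtain ⟨p, hp, h5⟩ := h (ξ.comp mk) fun j => by
    have h6 := h4 (Fin.castAdd n j)
    rw [Fin.append_left] at h6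
    have h7 := norm_sub_le_norm_sub_add_norm_sub (ξ (mk (l j))) ((l j).1 y) ((l j).1 0)
    have h8 := hy j
    have h9 := min_le_left (δ / 2) ε
    change ‖ξ (mk (l j)) - (l j).1 0‖ < δ
    linarith
  have h10 : ∀ s, ξ (mk s) = s.1 p := h5
  refine ⟨p, ⟨hp, fun s hs => ?_⟩, hU ?_, fun i => ?_⟩
  · rw [← h10, (hk s).2 hs, map_zero]
  · rw [mem_ball, dist_eq_norm, pi_norm_lt_iff hε]
    intro i
    have h6 := h4 (Fin.natAdd N i)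
    rw [Fin.append_right, h10] at h6
    change ‖Fuj.crd i p - Fuj.crd i y‖ < _ at h6
    rw [DM_crd (ball_subset_ball one_le_two hp), DM_crd (ball_subset_ball one_le_two hZ.1)] at h6
    exact h6.trans_le (min_le_right _ _)
  · rw [← h10, h3]

end Loc
end Fuj
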