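import Vale.Agent.P271.DM2

/-! Part D: general points of the centre and the chart along it. -/

open Set Filter Topology Metric

noncomputable section
namespace Fuj

theorem DM_freq {d : ℕ} {a : MvPolynomial (Fin d) ℂ} (ha : a ≠ 0) (ζ₀ : E d) :
    ∃ᶠ ζ in 𝓝 ζ₀, MvPolynomial.eval ζ a ≠ 0 := by
  rw [Filter.Frequently]
  intro h
  refine ha (MvPolynomial.funext fun x => ?_)
  have := (AnalyticOnNhd.eval_mvPolynomial a).eqOn_zero_of_preconnected_of_eventuallyEq_zero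
    isPreconnected_univ (mem_univ ζ₀) (h.mono fun ζ h => not_not.1 h) (mem_univ x)
  simpa using this

namespace Loc
variable {n : ℕ} {L : Loc n} {q : ℕ} (hA : L.Alg q) {v : (E n → ℂ) → ℝ} (hv : L.IsVal v)
  {Λ : Type} [CommRing Λ] [Algebra ℂ Λ] (mk : hA.B →ₐ[ℂ] Λ) {d : ℕ} (t : Fin d → hA.B)

theorem Alg.ev_aeval (a : MvPolynomial (Fin d) ℂ) (x : E n) :
    (MvPolynomial.aeval t a).1 x = MvPolynomial.eval (fun i => (t i).1 x) a := by
  change hA.ev x (MvPolynomial.aeval t a) = _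
  rw [← AlgHom.comp_apply, MvPolynomial.comp_aeval, MvPolynomial.aeval_eq_eval]
  rfl

theorem Alg.mk_aeval (a : MvPolynomial (Fin d) ℂ) :
    mk (MvPolynomial.aeval t a) = MvPolynomial.aeval (fun i => mk (t i)) a := by
  rw [← AlgHom.comp_apply, MvPolynomial.comp_aeval]

theorem Alg.mk_eval₂ (μ : Polynomial (MvPolynomial (Fin d) ℂ)) (c : hA.B) :
    mk (μ.eval₂ (MvPolynomial.aeval t : MvPolynomial (Fin d) ℂ →ₐ[ℂ] hA.B).toRingHom c) =
      μ.eval₂ (MvPolynomial.aeval fun i => mk (t i) : MvPolynomial (Fin d) ℂ →ₐ[ℂ] Λ).toRingHom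
        (mk c) := by
  have := Polynomial.hom_eval₂ μ
    (MvPolynomial.aeval t : MvPolynomial (Fin d) ℂ →ₐ[ℂ] hA.B).toRingHom mk.toRingHom c
  refine this.trans ?_
  congr 1
  exact RingHom.ext fun a => hA.mk_aeval mk t a

theorem Alg.der_mul {y : E n} (hy : y ∈ ball (0 : E n) 2) (ξ : E n) (s s' : hA.B) :
    fderiv ℂ (s * s').1 y ξ = s.1 y * fderiv ℂ s'.1 y ξ + s'.1 y * fderiv ℂ s.1 y ξ := by
  have := fderiv_mul (hA.anB s y hy).differentiableAt (hA.anB s' y hy).differentiableAt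
  change fderiv ℂ (s.1 * s'.1) y ξ = _
  rw [this]
  simp

theorem Alg.der_add {y : E n} (hy : y ∈ ball (0 : E n) 2) (ξ : E n) (s s' : hA.B) :
    fderiv ℂ (s + s').1 y ξ = fderiv ℂ s.1 y ξ + fderiv ℂ s'.1 y ξ := by
  have := fderiv_add (hA.anB s y hy).differentiableAt (hA.anB s' y hy).differentiableAt
  change fderiv ℂ (s.1 + s'.1) y ξ = _
  rw [this]
  simp

theorem Alg.der_aeval {y : E n} (hy : y ∈ ball (0 : E n) 2) {ξ : E n}
    (h : ∀ i, fderiv ℂ (t i).1 y ξ = 0) (a : MvPolynomial (Fin d) ℂ) :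
    fderiv ℂ (MvPolynomial.aeval t a).1 y ξ = 0 := by
  induction a using MvPolynomial.induction_on with
  | C c =>
    rw [MvPolynomial.aeval_C]
    change fderiv ℂ (fun _ => c) y ξ = 0
    simp
  | add a b ha hb => rw [map_add, hA.der_add hy, ha, hb, add_zero]
  | mul_X a i ha => rw [map_mul, MvPolynomial.aeval_X, hA.der_mul hy, ha, h i]; simp

theorem Alg.der_eval₂ {y : E n} (hy : y ∈ ball (0 : E n) 2) {ξ : E n}
    (h : ∀ i, fderiv ℂ (t i).1 y ξ = 0) (μ : Polynomial (MvPolynomial (Fin d) ℂ)) (c : hA.B) :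
    fderiv ℂ (μ.eval₂ (MvPolynomial.aeval t : MvPolynomial (Fin d) ℂ →ₐ[ℂ] hA.B).toRingHom c).1 y ξ
      = (μ.derivative.eval₂
          (MvPolynomial.aeval t : MvPolynomial (Fin d) ℂ →ₐ[ℂ] hA.B).toRingHom c).1 y *
        fderiv ℂ c.1 y ξ := by
  induction μ using Polynomial.induction_on with
  | C a =>
    rw [Polynomial.eval₂_C, Polynomial.derivative_C, Polynomial.eval₂_zero]
    exact (hA.der_aeval t hy h a).trans (zero_mul _).symm
  | add a b ha hb =>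
    rw [Polynomial.eval₂_add, hA.der_add hy, ha, hb, map_add, Polynomial.eval₂_add, ← add_mul]
    rfl
  | monomial k a ha =>
    rw [pow_succ, ← mul_assoc, Polynomial.eval₂_mul, Polynomial.eval₂_X, hA.der_mul hy, ha,
      Polynomial.derivative_mul (f := Polynomial.C a * Polynomial.X ^ k), Polynomial.derivative_X,
      mul_one, Polynomial.eval₂_add, Polynomial.eval₂_mul (p := Polynomial.derivative _),
      Polynomial.eval₂_X]
    generalize Polynomial.eval₂ _ c (Polynomial.C a * Polynomial.X ^ k) = u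
    generalize Polynomial.eval₂ _ c (Polynomial.derivative (Polynomial.C a * Polynomial.X ^ k)) = w
    change _ = (w.1 y * c.1 y + u.1 y) * _
    ring

theorem DM_dcrd {y : E n} (hy : y ∈ ball (0 : E n) 2) (ξ : E n) (j : Fin n) :
    fderiv ℂ (Fuj.crd j) y ξ = ξ j := by
  have : Fuj.crd j =ᶠ[𝓝 y] (ContinuousLinearMap.proj j : E n →L[ℂ] ℂ) := by
    filter_upwards [isOpen_ball.mem_nhds hy] with p hp using DM_crd hp j
  rw [this.fderiv_eq, ContinuousLinearMap.fderiv]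
  rfl

variable [IsDomain Λ] (hs : Function.Surjective mk) (hk : ∀ s, mk s = 0 ↔ s ∈ hA.P hv)
  (hi : AlgebraicIndependent ℂ fun i => mk (t i))
  (hI : (MvPolynomial.aeval fun i => mk (t i) :
      MvPolynomial (Fin d) ℂ →ₐ[ℂ] Λ).toRingHom.IsIntegral)

include hs hk hi hI

theorem Alg.nrm (hS : SepN) {g : hA.B} (hg : g ∉ hA.P hv) : ∃ a : MvPolynomial (Fin d) ℂ, a ≠ 0 ∧
    ∀ x, (∀ s ∈ hA.P hv, s.1 x = 0) → MvPolynomial.eval (fun i => (t i).1 x) a ≠ 0 → g.1 x ≠ 0 := by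
  obtain ⟨a, x', ha, h⟩ := (hS Λ d _ hi hI (mk g)).2 fun h => hg ((hk g).1 h)
  obtain ⟨s', rfl⟩ := hs x'
  refine ⟨a, ha, fun x hx h1 h2 => h1 ?_⟩
  have h3 := hx (g * s' - MvPolynomial.aeval t a)
    ((hk _).1 (by rw [map_sub, map_mul, h, hA.mk_aeval, sub_self]))
  change g.1 x * s'.1 x - (MvPolynomial.aeval t a).1 x = 0 at h3
  rw [h2, hA.ev_aeval] at h3
  simpa using h3

theorem Alg.dpos (hS : SepN) : 1 ≤ d := by
  rcases Nat.eq_zero_or_pos d with rfl | h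
  swap
  · exact h
  obtain ⟨m, s, h1, h2, h3, h4⟩ := hv.pos
  have h5 : s ^ q ∈ hA.B := ⟨m, by rw [mul_comm]; exact L.DM_pow h1 q⟩
  obtain ⟨a, ha, h6⟩ := hA.nrm hv mk t hs hk hi hI hS (g := ⟨s ^ q, h5⟩)
    ((hA.notMem_P hv).2 ⟨L.DM_pow_ne h1 h2 q, by rw [hv.v_pow h1 h2, h4, mul_zero]⟩)
  obtain ⟨ζ, hζ⟩ := (DM_freq ha 0).exists
  refine absurd ?_ (h6 0 (fun s hs => hA.P_zero hv hs) (by rwa [Subsingleton.elim (fun _ => _) ζ]))
  change s 0 ^ q = 0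
  rw [h3, zero_pow (Nat.one_le_iff_ne_zero.1 hA.qpos)]

theorem Alg.exBr (hO : OpenC) (hS : SepN) (hC : Chart) : ∃ k, 1 ≤ k ∧
    ∀ m, ∀ g ∈ L.V m, g ≠ 0 → v g = 0 → ∀ r : ℝ, 0 < r → ∃ y ∈ ball (0 : E n) r, g y ≠ 0 ∧
      ∃ e, d + e = n ∧ Nonempty (L.Br v d e k (fun i => (t i).1) y) := by
  classical
  let c : Fin n → hA.B := fun i => ⟨Fuj.crd i, hA.memq (hA.crd i)⟩
  choose μ hμ hμ' using fun j => (hS Λ d _ hi hI (mk (c j))).1
  let f := (MvPolynomial.aeval t : MvPolynomial (Fin d) ℂ →ₐ[ℂ] hA.B).toRingHom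
  let p : Fin n → hA.B := fun j => (μ j).eval₂ f (c j)
  let Δ : Fin n → hA.B := fun j => (μ j).derivative.eval₂ f (c j)
  have hp : ∀ j, p j ∈ hA.P hv := fun j => (hk _).1 ((hA.mk_eval₂ mk t _ _).trans (hμ j))
  have hΔ : ∀ j, Δ j ∉ hA.P hv := fun j h => hμ' j ((hA.mk_eval₂ mk t _ _).symm.trans ((hk _).2 h))
  choose k hkk using fun j => (p j).2
  have hpow : ∀ {m : ℕ} {g : E n → ℂ}, g ∈ L.V m → g ^ q ∈ hA.B := fun {m g} h =>
    ⟨m, by rw [mul_comm]; exact L.DM_pow h q⟩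
  have hq := Nat.one_le_iff_ne_zero.1 hA.qpos
  have hnot : ∀ {m : ℕ} {g : E n → ℂ} (h : g ∈ L.V m), g ≠ 0 → v g = 0 →
      (⟨g ^ q, hpow h⟩ : hA.B) ∉ hA.P hv := fun h h0 h1 =>
    (hA.notMem_P hv).2 ⟨L.DM_pow_ne h h0 q, by rw [hv.v_pow h h0, h1, mul_zero]⟩
  refine ⟨(Finset.univ.sup k + 1) * q, Nat.mul_pos (Nat.succ_pos _) hA.qpos,
    fun m g hg hg0 hvg r hr => ?_⟩
  have hop := hA.opn hv mk hO hs hk t hi hI
  have hG : (⟨g ^ q, hpow hg⟩ : hA.B) * ∏ j, Δ j ∉ hA.P hv := fun h => by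
    rcases (hA.P_prime hv).mem_or_mem h with h | h
    · exact hnot hg hg0 hvg h
    · obtain ⟨j, -, h⟩ := (Ideal.IsPrime.prod_mem_iff (hp := hA.P_prime hv)).1 h
      exact hΔ j h
  obtain ⟨a, ha, h1⟩ := hA.nrm hv mk t hs hk hi hI hS hG
  have h0Z : (0 : E n) ∈ hA.Z hv := ⟨mem_ball_self one_pos, fun s hs => hA.P_zero hv hs⟩
  obtain ⟨ζ, h2, y, hZ, ⟨hy1, hy2⟩, h3⟩ := ((DM_freq ha _).and_eventually
    (hop.self_of_nhds h0Z _ (inter_mem (ball_mem_nhds 0 hr) hop))).exists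
  have h4 := h1 y hZ.2 (by rwa [funext h3])
  have h5 : g y ^ q * ∏ j, (Δ j).1 y ≠ 0 := by
    have e : (∏ j, Δ j).1 y = ∏ j, (Δ j).1 y := map_prod (hA.ev y) _ _
    rw [← e]
    exact h4
  have hy := ball_subset_ball one_le_two hZ.1
  obtain ⟨e, σ, Φ, D, h6, h7, h8, h9, h10, h11⟩ := hC n d (fun i => (t i).1) (fun j => (p j).1)
    (hA.Z hv) y (fun i => hA.anB _ y hy) (fun j => hA.anB _ y hy) hZ
    (fun j x hx => hx.2 _ (hp j)) (fun ξ h h' => funext fun j => by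
      have h6 := h' j
      rw [hA.der_eval₂ t hy h, DM_dcrd hy] at h6
      exact (mul_eq_zero.1 h6).resolve_left
        (Finset.prod_ne_zero_iff.1 (right_ne_zero_of_mul h5) j (Finset.mem_univ j))) (hy2 hZ)
  have hne : ∀ j, (p (σ j)).1 ≠ 0 := fun j h => by
    have h12 : (fun x : E d × E e => x.2 j) =ᶠ[𝓝 0] fun _ => 0 := by
      filter_upwards [h10] with x hx
      rw [← hx.2 j, h]
      rfl
    have h13 : Tendsto (fun s : ℂ => ((0 : E d), (fun _ => s : E e))) (𝓝[≠] 0) (𝓝 0) :=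
      tendsto_nhdsWithin_of_tendsto_nhds (Continuous.tendsto' (by fun_prop) _ _ rfl)
    obtain ⟨s, h14, h15⟩ := ((h13.eventually h12).and self_mem_nhdsWithin).exists
    exact h15 h14
  refine ⟨y, hy1, fun h => h5 (by rw [h, zero_pow hq, zero_mul]), e, h6,
    ⟨⟨Φ, D, h7, h8, h9, ?_, ?_, h10.mono fun x hx => hx.1, fun j => (p (σ j)).1, fun j =>
      ⟨hA.mono ((Finset.le_sup (Finset.mem_univ _)).trans (Nat.le_succ _)) (hkk (σ j)), hne j,
        (hp (σ j)).resolve_left (hne j)⟩, h10.mono fun x hx => hx.2⟩⟩⟩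
  · filter_upwards [h11] with z hz m g hg h0 hv'
    refine pow_eq_zero_iff hq |>.1 (hz.2 ⟨g ^ q, hpow hg⟩ (Or.inr ?_))
    change 0 < v (g ^ q)
    rw [hv.v_pow hg h0]
    exact mul_pos (Nat.cast_pos.2 hA.qpos) hv'
  · intro m g hg h0 hv' h12
    obtain ⟨a, ha, h1⟩ := hA.nrm hv mk t hs hk hi hI hS (hnot hg h0 hv')
    have h13 : Tendsto (fun ζ : E d => ζ - fun i => (t i).1 y) (𝓝 fun i => (t i).1 y) (𝓝 0) :=
      Continuous.tendsto' (by fun_prop) _ _ (sub_self _)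
    have h14 : Tendsto (fun ζ : E d => (ζ, (0 : E e))) (𝓝 0) (𝓝 0) :=
      Continuous.tendsto' (by fun_prop) _ _ rfl
    obtain ⟨ζ, h15, h16, h17, h18⟩ := ((DM_freq ha _).and_eventually
      (h13.eventually (h11.and (h12.and (h14.eventually h10))))).exists
    refine h1 _ h16.2 ?_ ?_
    · have : (fun i => (t i).1 (Φ (ζ - fun i => (t i).1 y, 0))) = ζ := funext fun i => by
        rw [h18.1 i]
        simp
      rwa [this]
    · change g _ ^ q = 0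
      rw [h17, zero_pow hq]

end Loc
end Fuj
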