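import Vale.Agent.P271.DM3

/-! Part D: assembly. -/

open Set Filter Topology Metric

noncomputable section
namespace Fuj

theorem DM_main (hE : ExN) (hH : HF) (hCop : Cop) (hU : Unif) (hO : OpenC) (hS : SepN)
    (hC : Chart) {n : ℕ} (L : Loc n) {q : ℕ} (hA : L.Alg q) : ∃ k₁ : ℕ, ∀ v, L.IsVal v →
    ∃ (d e k : ℕ) (t : Fin d → E n → ℂ), (1 ≤ d ∧ d + e = n ∧ 1 ≤ k ∧ (∀ i, t i ∈ L.V q) ∧
      (∀ j : ℕ, ∃ U : Submodule ℂ (E n → ℂ), U ≤ L.V ((k₁ + j) * q) ∧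
        (∀ s ∈ U, s ≠ 0 → v s = 0) ∧ (q * j) ^ d ≤ d.factorial * Module.finrank ℂ U) ∧
      ∀ m, ∀ g ∈ L.V m, g ≠ 0 → v g = 0 → ∀ r : ℝ, 0 < r →
        ∃ y ∈ ball (0 : E n) r, g y ≠ 0 ∧ Nonempty (L.Br v d e k t y)) ∧
      ((∀ m, ∀ s ∈ L.V m, s ≠ 0 → v s = 0) → ∃ D, q ^ d ≤ D ∧ TwoS L.h q d D) := by
  obtain ⟨m₀, hg⟩ := hA.gen
  obtain ⟨m₁, hb⟩ := eventually_atTop.1 hA.big
  obtain ⟨a, b, β, hβ⟩ := hA.exB
  refine ⟨m₀ + 1 + q ^ n, fun v hv => ?_⟩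
  obtain ⟨Λ, _, _, _, K, _, _, mk, ι, hs, hk, hι⟩ := Loc.DM_exQ hA.B (hA.P hv)
  have hπ : ∀ s, ι.comp mk s = 0 ↔ s ∈ hA.P hv := fun s => by
    rw [AlgHom.comp_apply, map_eq_zero_iff _ hι, hk]
  have hG := hβ.gf hA hv _ hπ hb
  have h1 : v 1 = 0 := hv.cen L.one (by simp)
  obtain ⟨d, z, hN⟩ := hE K _ m₁ q (hβ.φ hA (ι.comp mk) q ⟨1, hA.one⟩) hG hA.qpos
    ((hβ.φ_ne hA hv _ hπ hA.one).2 ⟨one_ne_zero, h1⟩) ⟨_, rfl⟩ (hβ.gen hA _ hA.gen)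
  obtain ⟨t, ht, hz⟩ := hβ.exT hA _ hN
  obtain rfl : z = fun i => ι (mk ⟨t i, hA.memq (ht i)⟩) := funext hz
  have hI := hβ.integral hA mk ι hs hι hN
  have hi : AlgebraicIndependent ℂ fun i => mk ⟨t i, hA.memq (ht i)⟩ :=
    AlgebraicIndependent.of_comp ι hN.ind
  obtain ⟨D, hD, hrk, hT⟩ := hH K _ m₁ q _ d _ hG hN
  have hqD : q ^ d ≤ D := by
    obtain ⟨q₁, h2, h3, h4⟩ := hA.gen1
    have h5 := hβ.gen hA (ι.comp mk) h4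
    have h6 : hβ.W hA (ι.comp mk) q₁ ≠ ⊥ := fun h => by
      obtain ⟨m₂, h7⟩ := h5
      have h8 := h7 (m₂ + m₁) (Nat.le_add_right _ _)
      rw [h, Submodule.bot_mul] at h8
      exact hG.ne _ (by omega) (le_bot_iff.1 h8)
    obtain ⟨t₁, h7, h8⟩ := (Submodule.ne_bot_iff _).1 h6
    obtain ⟨d₁, z₁, hN₁⟩ := hE K _ m₁ q₁ t₁ hG h2 h8 h7 h5
    obtain ⟨D₁, hD₁, -, hT₁⟩ := hH K _ m₁ q₁ _ d₁ _ hG hN₁
    exact hCop _ q d D q₁ d₁ D₁ hA.qpos h2 hD hD₁ h3 hT hT₁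
  obtain ⟨k, hk1, hBr⟩ := hA.exBr hv mk _ hs hk hi hI hO hS hC
  obtain ⟨-, -, -, e, he, -⟩ := hBr 0 1 L.one one_ne_zero h1 1 one_pos
  refine ⟨d, e, k, t, ⟨hA.dpos hv mk _ hs hk hi hI hS, he, hk1, ht, fun j => ?_,
    fun m g h2 h3 h4 r hr => ?_⟩, fun h => ⟨D, hqD, ?_⟩⟩
  · obtain ⟨U, h2, h3, h4⟩ := hβ.lift hA hv _ hπ ((m₀ + 1 + q ^ n + j) * q)
    refine ⟨U, h2, h3, h4 ▸ hU K _ m₁ q m₀ _ d _ D (q ^ n) hG hN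
      (fun m hm => hβ.gen_le hA _ (hg m hm)) hrk hqD
      (Nat.pow_le_pow_right hA.qpos (by omega)) j⟩
  · obtain ⟨y, h5, h6, e', he', h7⟩ := hBr m g h2 h3 h4 r hr
    obtain rfl : e' = e := by omega
    exact ⟨y, h5, h6, h7⟩
  · rwa [funext (hβ.finrank_eq hA hv _ hπ h)] at hT

theorem d_PartD (hE : ExN) (hH : HF) (hCop : Cop) (hU : Unif) (hO : OpenC) (hS : SepN)
    (hC : Chart) : PartD := fun _ L _ hA => by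
  obtain ⟨k₁, h⟩ := DM_main hE hH hCop hU hO hS hC L hA
  refine ⟨k₁, fun v hv => ?_⟩
  obtain ⟨d, e, k, t, h1, -⟩ := h v hv
  exact ⟨d, e, k, t, h1⟩

theorem d_HilbX (hE : ExN) (hH : HF) (hCop : Cop) (hU : Unif) (hO : OpenC) (hS : SepN)
    (hC : Chart) : HilbX := fun n L q hn hA => by
  obtain ⟨k₁, h⟩ := DM_main hE hH hCop hU hO hS hC L hA
  have hv : L.IsVal fun _ => 0 :=
    ⟨fun _ _ => le_rfl, fun _ _ => rfl, fun _ _ _ _ _ => by simp, fun _ _ _ _ => by simp,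
      fun _ _ => rfl, q, crd ⟨0, hn⟩, hA.crd _, fun h => by
        have h1 : (fun _ => 1 : E n) ∈ ball (0 : E n) 2 := by
          rw [mem_ball_zero_iff, pi_norm_lt_iff two_pos]
          simp
        have := congrFun h fun _ => 1
        rw [Loc.DM_crd h1] at this
        exact one_ne_zero this, Loc.DM_crd (mem_ball_self two_pos) _, rfl⟩
  obtain ⟨d, e, k, t, ⟨-, h1, -, -, -, h2⟩, h3⟩ := h _ hv
  obtain ⟨y, -, -, ⟨B⟩⟩ := h2 0 1 L.one one_ne_zero rfl 1 one_pos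
  have he : e = 0 := by
    by_contra h4
    exact lt_irrefl _ (B.wm ⟨0, Nat.pos_of_ne_zero h4⟩).2.2
  obtain rfl : d = n := by omega
  obtain ⟨D, h5, c, h6⟩ := h3 fun _ _ _ _ => rfl
  exact ⟨D, c, h5, h6⟩

end Fuj
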