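import Vale.Agent.P271.DDefs

open Set Filter Topology Metric

noncomputable section
namespace Fuj

section DNN
variable {K : Type} [Field K] [Algebra ℂ K]

/-- `u` is `c τ ^ k` modulo the smaller space -/
def DNNRel (T' T : Submodule ℂ K) (τ : K) (k : ℕ) (u : K) (c : ℂ) : Prop :=
  u ∈ T ^ k ∧ τ * (u - c • τ ^ k) ∈ T' * T ^ k

variable {T' T : Submodule ℂ K} {τ : K}

theorem DNN_mul (hτ : τ ∈ T) {k k' : ℕ} {u u' : K} {c c' : ℂ} (h : DNNRel T' T τ k u c)
    (h' : DNNRel T' T τ k' u' c') : DNNRel T' T τ (k + k') (u * u') (c * c') := by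
  refine ⟨by rw [pow_add]; exact Submodule.mul_mem_mul h.1 h'.1, ?_⟩
  have e : τ * (u * u' - (c * c') • τ ^ (k + k')) =
      τ * (u - c • τ ^ k) * u' + c • (τ * (u' - c' • τ ^ k') * τ ^ k) := by
    simp only [Algebra.smul_def, map_mul]
    ring
  rw [e]
  refine add_mem ?_ (Submodule.smul_mem _ _ ?_)
  · rw [pow_add, ← mul_assoc]
    exact Submodule.mul_mem_mul h.2 h'.1
  · rw [add_comm, pow_add, ← mul_assoc]
    exact Submodule.mul_mem_mul h'.2 (Submodule.pow_mem_pow T hτ k)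

theorem DNN_one : DNNRel T' T τ 0 1 1 := by
  refine ⟨by rw [pow_zero]; exact Submodule.one_le.1 le_rfl, ?_⟩
  simp

theorem DNN_pow (hτ : τ ∈ T) {u : K} {c : ℂ} (h : DNNRel T' T τ 1 u c) (k : ℕ) :
    DNNRel T' T τ k (u ^ k) (c ^ k) := by
  induction k with
  | zero => simpa using DNN_one
  | succ k ih => rw [pow_succ, pow_succ]; exact DNN_mul hτ ih h

theorem DNN_prod (hτ : τ ∈ T) {ι : Type} (s : Finset ι) {k : ι → ℕ} {u : ι → K} {c : ι → ℂ}
    (h : ∀ i, DNNRel T' T τ (k i) (u i) (c i)) :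
    DNNRel T' T τ (∑ i ∈ s, k i) (∏ i ∈ s, u i) (∏ i ∈ s, c i) := by
  classical
  induction s using Finset.induction_on with
  | empty => simpa using DNN_one
  | insert a s ha ih =>
    rw [Finset.sum_insert ha, Finset.prod_insert ha, Finset.prod_insert ha]
    exact DNN_mul hτ (h a) ih

theorem DNN_sum {ι : Type} (s : Finset ι) {k : ℕ} {u : ι → K} {c b : ι → ℂ}
    (h : ∀ i ∈ s, DNNRel T' T τ k (u i) (c i)) :
    DNNRel T' T τ k (∑ i ∈ s, b i • u i) (∑ i ∈ s, b i * c i) := by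
  refine ⟨Submodule.sum_mem _ fun i hi => Submodule.smul_mem _ _ (h i hi).1, ?_⟩
  have e : τ * (∑ i ∈ s, b i • u i - (∑ i ∈ s, b i * c i) • τ ^ k) =
      ∑ i ∈ s, b i • (τ * (u i - c i • τ ^ k)) := by
    rw [Finset.sum_smul, ← Finset.sum_sub_distrib, Finset.mul_sum]
    refine Finset.sum_congr rfl fun i _ => ?_
    simp only [Algebra.smul_def, map_mul]
    ring
  rw [e]
  exact Submodule.sum_mem _ fun i hi => Submodule.smul_mem _ _ (h i hi).2

theorem DNN_base (hτ : τ ∈ T) {u : K} {c : ℂ} (hu : u ∈ T) (h : u - c • τ ∈ T') :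
    DNNRel T' T τ 1 u c := by
  refine ⟨by rwa [pow_one], ?_⟩
  rw [pow_one, pow_one, mul_comm τ]
  exact Submodule.mul_mem_mul h hτ

theorem DNN_sup (hτ : τ ∈ T) (h : T ≤ T' ⊔ Submodule.span ℂ {τ}) (k : ℕ) :
    T ^ (k + 1) ≤ T' * T ^ k ⊔ Submodule.span ℂ {τ ^ (k + 1)} := by
  induction k with
  | zero => simpa using h
  | succ k ih =>
    have h1 : Submodule.span ℂ {τ ^ (k + 1)} ≤ T ^ (k + 1) := by
      rw [Submodule.span_le, singleton_subset_iff]
      exact Submodule.pow_mem_pow T hτ _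
    calc T ^ (k + 1 + 1) = T ^ (k + 1) * T := pow_succ _ _
      _ ≤ (T' * T ^ k ⊔ Submodule.span ℂ {τ ^ (k + 1)}) * T := mul_le_mul' ih le_rfl
      _ = T' * T ^ (k + 1) ⊔ Submodule.span ℂ {τ ^ (k + 1)} * T := by
        rw [Submodule.sup_mul, mul_assoc, ← pow_succ]
      _ ≤ _ := by
        refine sup_le le_sup_left ((mul_le_mul' le_rfl h).trans ?_)
        rw [Submodule.mul_sup]
        refine sup_le (le_sup_of_le_left ?_) (le_sup_of_le_right ?_)
        · rw [mul_comm]
          exact mul_le_mul' le_rfl h1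
        · rw [Submodule.span_mul_span, singleton_mul_singleton, ← pow_succ]

theorem DNN_trans {U : Submodule ℂ K} (hT : T ≤ U) {r s : ℕ} (h : U ^ (s + 1) ≤ T * U ^ s)
    (h' : T ^ (r + 1) ≤ T' * T ^ r) : U ^ (s + r + 1) ≤ T' * U ^ (s + r) := by
  have h1 : ∀ k, U ^ (s + k) ≤ T ^ k * U ^ s := by
    intro k
    induction k with
    | zero => simp
    | succ k ih =>
      calc U ^ (s + (k + 1)) = U ^ (s + k) * U := by rw [← add_assoc, pow_succ]
        _ ≤ T ^ k * U ^ s * U := mul_le_mul' ih le_rfl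
        _ = T ^ k * U ^ (s + 1) := by rw [mul_assoc, ← pow_succ]
        _ ≤ T ^ k * (T * U ^ s) := mul_le_mul' le_rfl h
        _ = T ^ (k + 1) * U ^ s := by rw [← mul_assoc, ← pow_succ]
  calc U ^ (s + r + 1) ≤ T ^ (r + 1) * U ^ s := h1 (r + 1)
    _ ≤ T' * T ^ r * U ^ s := mul_le_mul' h' le_rfl
    _ ≤ T' * U ^ r * U ^ s := mul_le_mul' (mul_le_mul' le_rfl (pow_le_pow_left' hT r)) le_rfl
    _ = T' * U ^ (s + r) := by rw [mul_assoc, ← pow_add, add_comm]

theorem DNN_mem1 {d : ℕ} (z : Fin d → K) : (1 : K) ∈ Z1 z :=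
  Submodule.subset_span (mem_insert _ _)

theorem DNN_memz {d : ℕ} (z : Fin d → K) (i : Fin d) : z i ∈ Z1 z :=
  Submodule.subset_span (mem_insert_of_mem _ (mem_range_self i))

open MvPolynomial in
theorem DNN_step {d : ℕ} (z : Fin (d + 1) → K) (hz : ¬ AlgebraicIndependent ℂ z) :
    ∃ z' : Fin d → K, (∀ i, z' i ∈ Z1 z) ∧ ∃ r, Z1 z ^ (r + 1) ≤ Z1 z' * Z1 z ^ r := by
  classical
  rw [algebraicIndependent_iff] at hz
  push Not at hz
  obtain ⟨F, hF, hF0⟩ := hz
  set r := F.totalDegree with hr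
  have htop : homogeneousComponent r F ≠ 0 := by
    obtain ⟨g, hg, hg'⟩ := Finset.exists_mem_eq_sup F.support (support_nonempty.2 hF0)
      fun s => s.sum fun _ e => e
    intro h0
    have h1 : coeff g (homogeneousComponent r F) = coeff g F := by
      rw [coeff_homogeneousComponent, if_pos]
      rw [hr, totalDegree, hg', Finsupp.degree_apply]
      rfl
    rw [h0, coeff_zero] at h1
    exact mem_support_iff.1 hg h1.symm
  obtain ⟨a, ha⟩ : ∃ a : Fin (d + 1) → ℂ, eval a (homogeneousComponent r F * X 0) ≠ 0 := by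
    by_contra hc
    push Not at hc
    exact mul_ne_zero htop (X_ne_zero 0) (MvPolynomial.funext fun a => by rw [hc a, map_zero])
  rw [map_mul, eval_X] at ha
  have ha0 : a 0 ≠ 0 := right_ne_zero_of_mul ha
  have ha1 := left_ne_zero_of_mul ha
  let τ : K := (a 0)⁻¹ • z 0
  have hτ : τ ∈ Z1 z := Submodule.smul_mem _ _ (DNN_memz z 0)
  let z' : Fin d → K := fun i => z i.succ - a i.succ • τ
  have hz' : ∀ i, z i - a i • τ ∈ Z1 z' := by
    intro i
    refine Fin.cases ?_ (fun i => DNN_memz z' i) i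
    simp only [τ, smul_smul, mul_inv_cancel₀ ha0, one_smul, sub_self]
    exact zero_mem _
  refine ⟨z', fun i => sub_mem (DNN_memz z _) (Submodule.smul_mem _ _ hτ), r, ?_⟩
  have hle : Z1 z ≤ Z1 z' ⊔ Submodule.span ℂ {τ} := by
    rw [Z1, Submodule.span_le]
    rintro _ (rfl | ⟨i, rfl⟩)
    · exact Submodule.mem_sup_left (DNN_mem1 z')
    · have e : z i = (z i - a i • τ) + a i • τ := by ring
      rw [e]
      exact Submodule.add_mem_sup (hz' i)
        (Submodule.smul_mem _ _ (Submodule.mem_span_singleton_self τ))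
  refine (DNN_sup hτ hle r).trans (sup_le le_rfl ?_)
  rw [Submodule.span_le, singleton_subset_iff]
  have hm : ∀ g ∈ F.support, DNNRel (Z1 z') (Z1 z) τ r (∏ i, z i ^ g i)
      ((∏ i, a i ^ g i) * 0 ^ (r - ∑ i, g i)) := by
    intro g hg
    have h1 := DNN_prod hτ Finset.univ fun i =>
      DNN_pow hτ (DNN_base hτ (DNN_memz z i) (hz' i)) (g i)
    have h2 := DNN_pow hτ (DNN_base (c := 0) hτ (DNN_mem1 z)
      (by simpa using DNN_mem1 z')) (r - ∑ i, g i)
    have h3 := DNN_mul hτ h1 h2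
    have h4 : ∑ i, g i ≤ r := by
      have := le_totalDegree hg
      rwa [Finsupp.sum_fintype _ _ (fun _ => rfl)] at this
    rwa [one_pow, mul_one, Nat.add_sub_cancel' h4] at h3
  have hs := DNN_sum (b := fun g => coeff g F) F.support hm
  have e1 : ∑ g ∈ F.support, coeff g F • ∏ i, z i ^ g i = 0 := by
    rw [← hF, aeval_def, eval₂_eq']
    simp only [Algebra.smul_def]
  have e2 : ∑ g ∈ F.support, coeff g F * ((∏ i, a i ^ g i) * 0 ^ (r - ∑ i, g i)) =
      eval a (homogeneousComponent r F) := by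
    rw [homogeneousComponent_apply, map_sum, Finset.sum_filter]
    refine Finset.sum_congr rfl fun g hg => ?_
    have h4 : ∑ i, g i ≤ r := by
      have := le_totalDegree hg
      rwa [Finsupp.sum_fintype _ _ (fun _ => rfl)] at this
    rw [Finsupp.degree_eq_sum]
    split_ifs with h5
    · rw [h5, Nat.sub_self, pow_zero, mul_one, eval_monomial,
        Finsupp.prod_fintype _ _ (fun _ => pow_zero _)]
    · rw [zero_pow (by omega), mul_zero, mul_zero]
  rw [e1, e2] at hs
  have h5 := Submodule.smul_mem _ (-(eval a (homogeneousComponent r F))⁻¹) hs.2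
  have e3 : -(eval a (homogeneousComponent r F))⁻¹ •
      (τ * (0 - eval a (homogeneousComponent r F) • τ ^ r)) = τ ^ (r + 1) := by
    rw [zero_sub, mul_neg, smul_neg, neg_smul, neg_neg, mul_smul_comm, smul_smul,
      inv_mul_cancel₀ ha1, one_smul, pow_succ']
  rwa [e3] at h5

end DNN

theorem d_NN : NN := by
  intro K _ _ U hU h1
  have key : ∀ (d : ℕ) (z : Fin d → K), (∀ i, z i ∈ U) → (∃ r : ℕ, U ^ (r + 1) ≤ Z1 z * U ^ r) →
      ∃ (d : ℕ) (z : Fin d → K), (∀ i, z i ∈ U) ∧ AlgebraicIndependent ℂ z ∧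
        ∃ r : ℕ, U ^ (r + 1) ≤ Z1 z * U ^ r := by
    intro d
    induction d with
    | zero =>
      intro z hz hr
      exact ⟨0, z, hz, algebraicIndependent_empty_type, hr⟩
    | succ d ih =>
      intro z hz ⟨s, hs⟩
      by_cases hi : AlgebraicIndependent ℂ z
      · exact ⟨_, z, hz, hi, s, hs⟩
      · have hT : Z1 z ≤ U := by
          rw [Z1, Submodule.span_le]
          rintro _ (rfl | ⟨i, rfl⟩)
          · exact h1
          · exact hz i
        obtain ⟨z', hz', r, hr⟩ := DNN_step z hi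
        exact ih z' (fun i => hT (hz' i)) ⟨s + r, DNN_trans hT hs hr⟩
  obtain ⟨d, z, hz⟩ := Submodule.fg_iff_exists_fin_generating_family.1
    ((Submodule.fg_top U).1 (Module.finite_def.1 hU))
  refine key d z (fun i => hz ▸ Submodule.subset_span (mem_range_self i)) ⟨0, ?_⟩
  rw [zero_add, pow_one, pow_zero, mul_one, ← hz]
  exact Submodule.span_mono (subset_insert _ _)

end Fuj
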