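import Vale.Agent.P271.DDefs

open Set Filter Topology Metric

noncomputable section
namespace Fuj

open Polynomial

theorem DOpenC_lift {R Λ : Type} [CommRing R] [CommRing Λ] [Algebra ℂ R] [Algebra ℂ Λ]
    (ψ : R →ₐ[ℂ] Λ) (hψ : ψ.toRingHom.IsIntegral) (φ : R →ₐ[ℂ] ℂ)
    (hk : ∀ r, ψ r = 0 → φ r = 0) : ∃ ξ : Λ →ₐ[ℂ] ℂ, ∀ r, ξ (ψ r) = φ r := by
  let _ : Algebra R Λ := ψ.toRingHom.toAlgebra
  have : Algebra.IsIntegral R Λ := ⟨hψ⟩
  have : (RingHom.ker φ.toRingHom).IsMaximal :=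
    RingHom.ker_isMaximal_of_surjective _ fun c => ⟨algebraMap ℂ R c, φ.commutes c⟩
  obtain ⟨Q, hQ, hc⟩ := Ideal.exists_ideal_over_maximal_of_isIntegral (S := Λ)
    (RingHom.ker φ.toRingHom) fun r hr => hk r hr
  have h1 : ∀ r, Ideal.Quotient.mk Q (ψ r) = algebraMap ℂ (Λ ⧸ Q) (φ r) := by
    intro r
    have h2 : r - algebraMap ℂ R (φ r) ∈ Q.comap (algebraMap R Λ) := by
      rw [hc]
      change φ _ = 0
      simp
    have h3 : ψ (r - algebraMap ℂ R (φ r)) ∈ Q := h2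
    rw [map_sub, ψ.commutes] at h3
    exact Ideal.Quotient.eq.2 h3
  have h4 : (Ideal.Quotient.mk Q).comp ψ.toRingHom = (algebraMap ℂ (Λ ⧸ Q)).comp φ.toRingHom :=
    RingHom.ext h1
  have : Algebra.IsIntegral ℂ (Λ ⧸ Q) := ⟨fun y => by
    obtain ⟨y, rfl⟩ := Ideal.Quotient.mk_surjective y
    obtain ⟨p, hp, hy⟩ := hψ y
    refine ⟨p.map φ.toRingHom, hp.map _, ?_⟩
    rw [eval₂_map, ← h4, ← hom_eval₂, hy, map_zero]⟩
  have hb : Function.Bijective (Algebra.ofId ℂ (Λ ⧸ Q)) :=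
    IsAlgClosed.algebraMap_bijective_of_isIntegral
  refine ⟨(AlgEquiv.ofBijective _ hb).symm.toAlgHom.comp (Ideal.Quotient.mkₐ ℂ Q), fun r => ?_⟩
  change (AlgEquiv.ofBijective _ hb).symm (Ideal.Quotient.mk Q (ψ r)) = φ r
  rw [h1, AlgEquiv.commutes]
  rfl

/-- a root close to a given point -/
theorem DOpenC_root {p : ℂ[X]} (hp : p.Monic) (hd : p.natDegree ≠ 0) (a : ℂ) :
    ∃ r, p.eval r = 0 ∧ ‖a - r‖ ^ p.natDegree ≤ ‖p.eval a‖ := by
  have hs : p.Splits := IsAlgClosed.splits p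
  have hne : p.roots.toFinset.Nonempty := by
    rw [Multiset.toFinset_nonempty, ← Multiset.card_pos, ← hs.natDegree_eq_card_roots]
    exact Nat.pos_of_ne_zero hd
  obtain ⟨r, hr, hmin⟩ := p.roots.toFinset.exists_min_image (fun r => ‖a - r‖) hne
  refine ⟨r, isRoot_of_mem_roots (Multiset.mem_toFinset.1 hr), ?_⟩
  have h := Multiset.prod_map_le_prod_map₀ (s := p.roots) (fun _ => ‖a - r‖) (fun b => ‖a - b‖)
    (fun _ _ => norm_nonneg _) fun b hb => hmin b (Multiset.mem_toFinset.2 hb)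
  rw [Multiset.map_const', Multiset.prod_replicate, ← hs.natDegree_eq_card_roots] at h
  refine h.trans_eq ?_
  rw [hs.eval_eq_prod_roots_of_monic hp]
  exact p.roots.prod_hom' (NormedField.toMulRingNorm ℂ) fun x : ℂ => a - x

variable {d : ℕ}

theorem DOpenC_cont (μ : (MvPolynomial (Fin d) ℂ)[X]) :
    Continuous fun q : (Fin d → ℂ) × ℂ => μ.eval₂ (MvPolynomial.eval q.1) q.2 := by
  simp only [eval₂_eq_sum_range]
  exact continuous_finsetSum _ fun i _ =>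
    ((MvPolynomial.continuous_eval _).comp continuous_fst).mul (continuous_snd.pow i)

theorem DOpenC_bdd {μ : (MvPolynomial (Fin d) ℂ)[X]} (hμ : μ.Monic) (ζ₀ : Fin d → ℂ) :
    ∃ B : ℝ, ∀ᶠ ζ in 𝓝 ζ₀, ∀ r, μ.eval₂ (MvPolynomial.eval ζ) r = 0 → ‖r‖ ≤ B := by
  have hc : Continuous fun ζ : Fin d → ℂ =>
      ∑ i ∈ Finset.range μ.natDegree, ‖MvPolynomial.eval ζ (μ.coeff i)‖₊ :=
    continuous_finsetSum _ fun i _ => (MvPolynomial.continuous_eval _).nnnorm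
  refine ⟨((∑ i ∈ Finset.range μ.natDegree, ‖MvPolynomial.eval ζ₀ (μ.coeff i)‖₊) + 1 + 1 : NNReal),
    ?_⟩
  filter_upwards [hc.continuousAt.eventually_lt continuousAt_const (lt_add_one _)] with ζ hζ r hr
  have hm := hμ.map (MvPolynomial.eval ζ)
  have h := IsRoot.norm_lt_cauchyBound hm.ne_zero (a := r) (by rwa [IsRoot.def, eval_map])
  rw [cauchyBound, hm.leadingCoeff, nnnorm_one, div_one, hμ.natDegree_map] at h
  refine NNReal.coe_le_coe.2 (h.le.trans (add_le_add_left (Finset.sup_le fun i hi => ?_) 1))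
  rw [coeff_map]
  exact (Finset.single_le_sum (f := fun i => ‖MvPolynomial.eval ζ (μ.coeff i)‖₊)
    (fun _ _ => zero_le) hi).trans hζ.le

theorem DOpenC_map {Λ : Type} [CommRing Λ] [Algebra ℂ Λ] (z : Fin d → Λ) (ξ : Λ →ₐ[ℂ] ℂ)
    (μ : (MvPolynomial (Fin d) ℂ)[X]) (x : Λ) :
    ξ (μ.eval₂ (MvPolynomial.aeval z : MvPolynomial (Fin d) ℂ →ₐ[ℂ] Λ).toRingHom x) =
      μ.eval₂ (MvPolynomial.eval fun i => ξ (z i)) (ξ x) := by
  refine (hom_eval₂ μ _ ξ.toRingHom x).trans ?_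
  congr 1
  ext c <;> simp

/-- lifting of a point and a nearby value -/
theorem DOpenC_one {Λ : Type} [CommRing Λ] [IsDomain Λ] [Algebra ℂ Λ] {z : Fin d → Λ}
    (ξ₀ : Λ →ₐ[ℂ] ℂ) (hz : AlgebraicIndependent ℂ z)
    (hi : (MvPolynomial.aeval z : MvPolynomial (Fin d) ℂ →ₐ[ℂ] Λ).toRingHom.IsIntegral) (x : Λ) :
    ∃ ξ : (Fin d → ℂ) → Λ →ₐ[ℂ] ℂ, (∀ ζ i, ξ ζ (z i) = ζ i) ∧
      Tendsto (fun ζ => ξ ζ x) (𝓝 fun i => ξ₀ (z i)) (𝓝 (ξ₀ x)) := by
  let _ : Algebra (MvPolynomial (Fin d) ℂ) Λ :=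
    (MvPolynomial.aeval z : MvPolynomial (Fin d) ℂ →ₐ[ℂ] Λ).toRingHom.toAlgebra
  have : Module.IsTorsionFree (MvPolynomial (Fin d) ℂ) Λ :=
    Module.isTorsionFree_iff_algebraMap_injective.2 hz
  have hx : IsIntegral (MvPolynomial (Fin d) ℂ) x := hi x
  have hm := minpoly.monic hx
  have hd := (minpoly.natDegree_pos hx).ne'
  have hex : ∀ ζ : Fin d → ℂ, ∃ ξ : Λ →ₐ[ℂ] ℂ, (∀ i, ξ (z i) = ζ i) ∧
      ‖ξ₀ x - ξ x‖ ^ (minpoly (MvPolynomial (Fin d) ℂ) x).natDegree ≤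
        ‖(minpoly (MvPolynomial (Fin d) ℂ) x).eval₂ (MvPolynomial.eval ζ) (ξ₀ x)‖ := by
    intro ζ
    obtain ⟨r, hr, hle⟩ := DOpenC_root (hm.map (MvPolynomial.eval ζ))
      (by rwa [hm.natDegree_map]) (ξ₀ x)
    rw [hm.natDegree_map, eval_map] at hle
    rw [eval_map] at hr
    obtain ⟨ξ, hξ⟩ := DOpenC_lift
      (eval₂AlgHom (MvPolynomial.aeval z : MvPolynomial (Fin d) ℂ →ₐ[ℂ] Λ) x fun _ => .all _ _)
      (RingHom.IsIntegral.tower_top C _ (by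
        refine (congrArg RingHom.IsIntegral ?_).mp hi
        ext c <;> simp))
      (eval₂AlgHom (MvPolynomial.aeval ζ : MvPolynomial (Fin d) ℂ →ₐ[ℂ] ℂ) r fun _ => .all _ _)
      (fun p hp => by
        obtain ⟨q, rfl⟩ := minpoly.isIntegrallyClosed_dvd hx (p := p) hp
        rw [map_mul]
        exact mul_eq_zero_of_left hr _)
    have h1 : ξ x = r := by simpa using hξ X
    exact ⟨ξ, fun i => by simpa using hξ (C (MvPolynomial.X i)), h1 ▸ hle⟩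
  choose ξ h1 h2 using hex
  refine ⟨ξ, h1, ?_⟩
  have h0 : (minpoly (MvPolynomial (Fin d) ℂ) x).eval₂ (MvPolynomial.eval fun i => ξ₀ (z i))
      (ξ₀ x) = 0 := by
    rw [← DOpenC_map]
    exact (congrArg ξ₀ (minpoly.aeval _ x)).trans (map_zero _)
  have h3 := (((DOpenC_cont (minpoly (MvPolynomial (Fin d) ℂ) x)).comp
    (continuous_id.prodMk (continuous_const (y := ξ₀ x)))).norm.tendsto fun i => ξ₀ (z i))
  simp only [Function.comp_apply, id, h0, norm_zero] at h3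
  rw [Metric.tendsto_nhds]
  intro ε hε
  filter_upwards [h3.eventually (gt_mem_nhds (pow_pos hε
    (minpoly (MvPolynomial (Fin d) ℂ) x).natDegree))] with ζ hζ
  rw [dist_comm, dist_eq_norm]
  exact lt_of_pow_lt_pow_left₀ _ hε.le ((h2 ζ).trans_lt hζ)

theorem d_OpenC : OpenC := by
  intro Λ _ _ _ d N z l ξ₀ hz hi ε hε
  choose μ hμ hl using fun j => hi (l j)
  have hF : {f : Fin N → ℂ | (∀ j, f j ∈ ((μ j).map
      (MvPolynomial.eval fun i => ξ₀ (z i))).roots.toFinset) ∧ f ≠ fun j => ξ₀ (l j)}.Finite :=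
    (Set.Finite.pi' fun j => Finset.finite_toSet _).subset fun f hf => hf.1
  have := hF.to_subtype
  obtain ⟨φ, hφ⟩ := Module.exists_dual_forall_apply_ne_zero (K := ℂ)
    (fun f : {f : Fin N → ℂ | (∀ j, f j ∈ ((μ j).map
      (MvPolynomial.eval fun i => ξ₀ (z i))).roots.toFinset) ∧ f ≠ fun j => ξ₀ (l j)} =>
      f.1 - fun j => ξ₀ (l j)) fun f => sub_ne_zero.2 f.2.2
  have hx : ∀ ξ : Λ →ₐ[ℂ] ℂ, ξ (∑ j, φ (fun k => if j = k then 1 else 0) • l j) =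
      φ fun j => ξ (l j) := by
    intro ξ
    rw [LinearMap.pi_apply_eq_sum_univ φ fun j => ξ (l j), map_sum]
    simp [mul_comm]
  obtain ⟨ξ, h1, h2⟩ := DOpenC_one ξ₀ hz hi (∑ j, φ (fun k => if j = k then 1 else 0) • l j)
  simp only [hx] at h2
  have hr : ∀ ζ j, (μ j).eval₂ (MvPolynomial.eval ζ) (ξ ζ (l j)) = 0 := by
    intro ζ j
    have := DOpenC_map z (ξ ζ) (μ j) (l j)
    rw [hl, map_zero] at this
    simpa only [h1] using this.symm
  refine Filter.mem_iff_ultrafilter.2 fun 𝒰 h𝒰 => ?_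
  have hlim : ∀ j, ∃ f, Tendsto (fun ζ => ξ ζ (l j)) 𝒰 (𝓝 f) := by
    intro j
    obtain ⟨B, hB⟩ := DOpenC_bdd (hμ j) fun i => ξ₀ (z i)
    obtain ⟨f, -, hf⟩ := (isCompact_closedBall (0 : ℂ) B).ultrafilter_le_nhds
      (𝒰.map fun ζ => ξ ζ (l j)) (by
        rw [le_principal_iff]
        exact (hB.filter_mono h𝒰).mono fun ζ hζ => mem_closedBall_zero_iff.2 (hζ _ (hr ζ j)))
    exact ⟨f, hf⟩
  choose f hf using hlim
  have hf' : Tendsto (fun ζ j => ξ ζ (l j)) 𝒰 (𝓝 f) := tendsto_pi_nhds.2 hf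
  have he : f = fun j => ξ₀ (l j) := by
    by_contra hn
    refine hφ ⟨f, fun j => ?_, hn⟩ ?_
    · rw [Multiset.mem_toFinset, mem_roots ((hμ j).map _).ne_zero, IsRoot.def, eval_map]
      have h3 := ((DOpenC_cont (μ j)).tendsto _).comp (Tendsto.prodMk_nhds h𝒰 (hf j))
      simp only [Function.comp_def, hr] at h3
      exact (tendsto_nhds_unique tendsto_const_nhds h3).symm
    · rw [map_sub, sub_eq_zero]
      exact tendsto_nhds_unique ((φ.continuous_of_finiteDimensional.tendsto f).comp hf')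
        (h2.mono_left h𝒰)
  rw [he] at hf'
  filter_upwards [Metric.tendsto_nhds.1 hf' ε hε] with ζ hζ
  refine ⟨ξ ζ, h1 ζ, fun j => ?_⟩
  rw [← dist_eq_norm]
  exact (dist_le_pi_dist (fun j => ξ ζ (l j)) (fun j => ξ₀ (l j)) j).trans_lt hζ

end Fuj
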