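import Vale.Agent.P271.DDefs

open Set Filter Topology Metric

noncomputable section
namespace Fuj

open Polynomial in
theorem dSepN_aux {T Λ : Type} [CommRing T] [IsDomain T] [CharZero T] [CommRing Λ] [IsDomain Λ]
    (f : T →+* Λ) (hf : Function.Injective f) (x : Λ) (hx : f.IsIntegralElem x) :
    (∃ μ : T[X], μ.eval₂ f x = 0 ∧ μ.derivative.eval₂ f x ≠ 0) ∧
      (x ≠ 0 → ∃ (a : T) (x' : Λ), a ≠ 0 ∧ x * x' = f a) := by
  classical
  have hex : ∃ k, ∃ μ : T[X], μ ≠ 0 ∧ μ.eval₂ f x = 0 ∧ μ.natDegree = k := by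
    obtain ⟨p, hp, h0⟩ := hx
    exact ⟨_, p, hp.ne_zero, h0, rfl⟩
  obtain ⟨μ, h1, h2, h3⟩ := Nat.find_spec hex
  have hmin : ∀ ν : T[X], ν ≠ 0 → ν.natDegree < μ.natDegree → ν.eval₂ f x ≠ 0 :=
    fun ν k1 k2 k3 => Nat.find_min hex (h3 ▸ k2) ⟨ν, k1, k3, rfl⟩
  have hd : μ.natDegree ≠ 0 := fun h0 => by
    rw [eq_C_of_natDegree_eq_zero h0] at h1 h2
    rw [eval₂_C, map_eq_zero_iff f hf] at h2
    exact h1 (by rw [h2, C_0])
  refine ⟨⟨μ, h2, hmin _ (fun h0 => hd (derivative_eq_zero.1 h0))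
    (natDegree_derivative_lt hd)⟩, fun hx0 => ?_⟩
  have hv : μ.divX.eval₂ f x ≠ 0 := by
    refine hmin _ (fun h0 => hd ?_) ?_
    · rw [divX_eq_zero_iff.1 h0, natDegree_C]
    · rw [natDegree_divX_eq_natDegree_tsub_one]; omega
  rw [← divX_mul_X_add μ, eval₂_add, eval₂_mul, eval₂_X, eval₂_C] at h2
  refine ⟨μ.coeff 0, -μ.divX.eval₂ f x, fun h0 => ?_, by linear_combination -h2⟩
  rw [h0, map_zero, add_zero] at h2
  exact mul_ne_zero hv hx0 h2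

theorem d_SepN : SepN := fun _ _ _ _ _ _ hz hi x => dSepN_aux _ hz x (hi x)

end Fuj
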