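import Vale.Agent.P271.DDefs

open Set Filter Topology Metric

noncomputable section
namespace Fuj

theorem DUnif_num {r : ℕ → ℕ} {m₀ D : ℕ} (h1 : ∀ i, r i ≤ r (i + 1))
    (h2 : ∀ i, m₀ ≤ i → r (i + 1) ≤ r i → r (i + 1 + 1) ≤ r (i + 1))
    (h3 : ∀ i, ∃ k, r (i + k) = D) (b : ℕ) : min D b ≤ r (m₀ + 1 + b) := by
  induction b with
  | zero => simp
  | succ b ih =>
    rw [← add_assoc]
    by_cases h : r (m₀ + 1 + b + 1) ≤ r (m₀ + 1 + b)
    · have h4 : ∀ k, r (m₀ + 1 + b + k + 1) ≤ r (m₀ + 1 + b + k) ∧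
          r (m₀ + 1 + b + k) ≤ r (m₀ + 1 + b) := fun k => by
        induction k with
        | zero => exact ⟨h, le_rfl⟩
        | succ k ih => exact ⟨h2 (m₀ + 1 + b + k) (by omega) ih.1, ih.1.trans ih.2⟩
      obtain ⟨k, hk⟩ := h3 (m₀ + 1 + b)
      exact (min_le_left _ _).trans ((hk.ge.trans (h4 k).2).trans (h1 _))
    · omega

theorem DUnif_rank {F K : Type*} [Field F] [Field K] [Algebra F K] {t : K} (ht : t ≠ 0)
    (S : Submodule F K) :
    Module.finrank F (S.map (LinearMap.mulLeft F t)) = Module.finrank F S :=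
  (Submodule.equivMapOfInjective _ (mul_right_injective₀ ht) S).finrank_eq.symm

theorem d_Unif (hCnt : Cnt) : Unif := by
  intro K _ _ W m₁ q m₀ t₀ d z D B hG hN hm hD h1 h2 j
  have hfd := hG.fd
  let S : ℕ → Submodule (IntermediateField.adjoin ℂ (range z)) K := fun i =>
    Submodule.span _ (W (i * q) : Set K)
  have hf : ∀ i, FiniteDimensional _ (S i) := fun i =>
    Module.Finite.iff_fg.2 (Module.Finite.iff_fg.1 (hG.fd _)).span
  have hS : ∀ i, ∀ a ∈ W q, (S i).map (LinearMap.mulLeft _ a) ≤ S (i + 1) := fun i a ha =>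
    (Submodule.map_span_le _ _ _).2 fun b hb => Submodule.subset_span (by
      rw [add_mul, one_mul, add_comm]
      exact hG.mul ha hb)
  have h3 : min D B ≤ rk z (W ((m₀ + 1 + B) * q)) := by
    refine DUnif_num (r := fun i => Module.finrank _ (S i)) (fun i => ?_) (fun i hi h => ?_)
      (fun i => ?_) B
    · exact (DUnif_rank hN.ne _).ge.trans (Submodule.finrank_mono (hS i _ hN.mem₀))
    · have e := Submodule.eq_of_le_of_finrank_le (hS i _ hN.mem₀)
        (h.trans (DUnif_rank hN.ne _).ge)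
      refine (Submodule.finrank_mono (Submodule.span_le.2 fun x hx => ?_)).trans
        (DUnif_rank hN.ne (S (i + 1))).le
      rw [add_mul (i + 1), one_mul] at hx
      refine Submodule.mul_induction_on
        (hm _ (by nlinarith [hN.qpos]) hx) (fun a ha b hb => ?_) fun _ _ => add_mem
      obtain ⟨b', hb', rfl⟩ := e.ge (Submodule.subset_span hb)
      exact ⟨a * b', hS i a ha ⟨b', hb', rfl⟩, mul_left_comm _ _ _⟩
    · obtain ⟨N, hN'⟩ := eventually_atTop.1 hD
      exact ⟨N, hN' _ (by nlinarith [hN.qpos])⟩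
  have h4 : ∀ a ∈ Z1 z, t₀ * a ∈ W q := fun a ha =>
    (Submodule.span_le (p := (W q).comap (LinearMap.mulLeft ℂ t₀))).2 (by
      rintro _ (rfl | ⟨i, rfl⟩)
      exacts [by simpa using hN.mem₀, hN.mem i]) ha
  have h5 : ∀ k, ∀ x ∈ Z1 z ^ k * W ((m₀ + 1 + B) * q),
      t₀ ^ k * x ∈ W ((m₀ + 1 + B + k) * q) := fun k => by
    induction k with
    | zero => simp
    | succ k ih =>
      intro x hx
      rw [pow_succ', mul_assoc] at hx
      refine Submodule.mul_induction_on hx (fun a ha b hb => ?_) fun x y hx hy => ?_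
      · rw [pow_succ', mul_mul_mul_comm, ← add_assoc, add_mul _ 1, one_mul, add_comm]
        exact hG.mul (h4 a ha) (ih b hb)
      · rw [mul_add]
        exact add_mem hx hy
  have h6 := (hCnt K d z _ hN.ind (hG.fd ((m₀ + 1 + B) * q))).1 j
  rw [mul_pow]
  refine (Nat.mul_le_mul_right _ ((le_min h1 h2).trans h3)).trans (h6.trans
    (Nat.mul_le_mul_left _ ((DUnif_rank (pow_ne_zero j hN.ne) _).ge.trans
      (Submodule.finrank_mono ?_))))
  rintro _ ⟨x, hx, rfl⟩
  exact h5 j x hx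

end Fuj
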