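import Mathlib

/-! Holomorphic line bundles on a complex manifold, sections of `mL` and of `K + mL`, ampleness. -/

open scoped Manifold ContDiff

namespace Vale.Agent.P271

/-- A holomorphic line bundle, given by an open cover `U i` and a cocycle `g i j` of holomorphic
transition functions. -/
structure LineBundle (E : Type*) [NormedAddCommGroup E] [NormedSpace ℂ E] (X : Type*)
    [TopologicalSpace X] [ChartedSpace E X] (ι : Type*) where
  U : ι → Set X
  isOpen_U : ∀ i, IsOpen (U i)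
  cover : ∀ x, ∃ i, x ∈ U i
  g : ι → ι → X → ℂ
  hol : ∀ i j, MDifferentiableOn 𝓘(ℂ, E) 𝓘(ℂ, ℂ) (g i j) (U i ∩ U j)
  g_self : ∀ i, ∀ x ∈ U i, g i i x = 1
  cocycle : ∀ i j k, ∀ x ∈ U i ∩ U j ∩ U k, g i j x * g j k x = g i k x

variable {E : Type*} [NormedAddCommGroup E] [NormedSpace ℂ E] {X : Type*} [TopologicalSpace X]
  [ChartedSpace E X] {ι : Type*}

/-- The coefficient `w (v 1, …, v n)` of a field of top degree forms in the chart `e`, at the point
`z` of the target of `e`. -/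
noncomputable def coef
    (w : ∀ x : X, TangentSpace 𝓘(ℂ, E) x [⋀^Fin (Module.finrank ℂ E)]→L[ℂ] ℂ)
    (e : OpenPartialHomeomorph X E) (v : Fin (Module.finrank ℂ E) → E) (z : E) : ℂ :=
  w (e.symm z) fun k => mfderiv 𝓘(ℂ, E) 𝓘(ℂ, E) e.symm z (v k)

namespace LineBundle

variable (L : LineBundle E X ι)

/-- `s` is a global holomorphic section of `mL`: holomorphic functions `s i` on `U i` with
`s i = (g i j) ^ m * s j`. -/
def IsSection (m : ℕ) (s : ι → X → ℂ) : Prop :=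
  (∀ i, MDifferentiableOn 𝓘(ℂ, E) 𝓘(ℂ, ℂ) (s i) (L.U i)) ∧
    ∀ i j, ∀ x ∈ L.U i ∩ L.U j, s i x = L.g i j x ^ m * s j x

/-- `qL` is very ample: finitely many sections `t a` of `qL` have no common zero, and
`x ↦ [t 0 x : … : t N x]` is an injective immersion into projective space (no nonzero tangent vector
is killed by the differentials of all the affine coordinates `t b / t a`). -/
def IsVeryAmple (q : ℕ) : Prop :=
  ∃ (N : ℕ) (t : Fin (N + 1) → ι → X → ℂ), (∀ a, L.IsSection q (t a)) ∧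
    (∀ i, ∀ x ∈ L.U i, ∃ a, t a i x ≠ 0) ∧
    (∀ i j, ∀ x ∈ L.U i, ∀ y ∈ L.U j, (∃ c : ℂ, ∀ a, t a i x = c * t a j y) → x = y) ∧
    ∀ i, ∀ x ∈ L.U i, ∀ a, t a i x ≠ 0 → ∀ v : TangentSpace 𝓘(ℂ, E) x,
      (∀ b, mfderiv 𝓘(ℂ, E) 𝓘(ℂ, ℂ) (fun y => t b i y / t a i y) x v = 0) → v = 0

/-- `L` is ample: some positive multiple is very ample. -/
def IsAmple : Prop := ∃ q, 1 ≤ q ∧ L.IsVeryAmple q

/-- `w` is a global holomorphic section of `K + mL`: top degree forms `w i` on `U i` whose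
coefficients in every chart are holomorphic, with `w i = (g i j) ^ m • w j`. -/
def IsAdjointSection (m : ℕ)
    (w : ι → ∀ x : X, TangentSpace 𝓘(ℂ, E) x [⋀^Fin (Module.finrank ℂ E)]→L[ℂ] ℂ) : Prop :=
  (∀ i, ∀ e ∈ atlas E X, ∀ v,
    DifferentiableOn ℂ (coef (w i) e v) (e.target ∩ e.symm ⁻¹' L.U i)) ∧
    ∀ i j, ∀ x ∈ L.U i ∩ L.U j, ∀ u, w i x u = L.g i j x ^ m * w j x u

/-- `K + mL` is globally generated: at every point some global section is nonzero. -/
def AdjointFree (m : ℕ) : Prop :=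
  ∀ x : X, ∃ w, L.IsAdjointSection m w ∧ ∃ i, x ∈ L.U i ∧ ∃ u, w i x u ≠ 0

end LineBundle

end Vale.Agent.P271
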