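import Vale.Agent.P271.EDefs

open MeasureTheory Set Filter Topology Metric Asymptotics

noncomputable section
namespace Fuj

section
variable {Y T Λ : Type} [AddCommGroup Y] [Module ℂ Y] [LinearOrder Λ] {W : Submodule ℂ Y}
  {R : Y → T → Prop} {κ : T → Λ} (V : VRel W R κ)
include V

theorem eAdapt_add {s s' : Y} {t t' : T} (hs : s ∈ W) (hs' : s' ∈ W) (h0 : s ≠ 0) (h0' : s' ≠ 0)
    (h : R s t) (h' : R s' t') (hlt : κ t < κ t') : s + s' ≠ 0 ∧ R (s + s') t := by
  have hn : R ((-1 : ℂ) • s') t' := V.smul s' hs' h0' (-1) t' (by norm_num) h'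
  have hne : s + s' ≠ 0 := by
    intro k
    rw [neg_one_smul, ← eq_neg_of_add_eq_zero_left k] at hn
    exact hlt.ne (congrArg κ (V.uniq s hs h0 t t' h hn))
  obtain ⟨t'', h''⟩ := V.ex _ (add_mem hs hs') hne
  have h1 := V.add s hs s' hs' h0 h0' hne t t' t'' h h' h''
  have e : s + s' + (-1 : ℂ) • s' = s := by rw [neg_one_smul, add_neg_cancel_right]
  have h2 := V.add _ (add_mem hs hs') _ (W.smul_mem (-1) hs') hne
    (smul_ne_zero (by norm_num) h0') (by rwa [e]) t'' t' t h'' hn (by rwa [e])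
  rw [min_eq_left hlt.le] at h1
  have h3 : κ t'' ≤ κ t := (min_le_iff.1 h2).resolve_right hlt.not_ge
  exact ⟨hne, V.inj (le_antisymm h3 h1) ▸ h''⟩

theorem eAdapt_sum {ι : Type*} {s : ι → Y} {τ : ι → T} (hτ : Function.Injective τ)
    {S : Finset ι} (hS : S.Nonempty) (h : ∀ i ∈ S, s i ∈ W ∧ s i ≠ 0 ∧ R (s i) (τ i)) :
    ∑ i ∈ S, s i ≠ 0 ∧ ∃ j ∈ S, R (∑ i ∈ S, s i) (τ j) ∧ ∀ i ∈ S, κ (τ j) ≤ κ (τ i) := by
  induction hS using Finset.Nonempty.cons_induction with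
  | singleton a =>
    have := h a (Finset.mem_singleton_self a)
    simpa using this.2
  | cons a S ha hS ih =>
    have h1 := h a (Finset.mem_cons_self a S)
    have h2 : ∀ i ∈ S, s i ∈ W ∧ s i ≠ 0 ∧ R (s i) (τ i) := fun i hi =>
      h i (Finset.mem_cons_of_mem hi)
    obtain ⟨k0, j, hj, k1, k2⟩ := ih h2
    have k3 : ∑ i ∈ S, s i ∈ W := W.sum_mem fun i hi => (h2 i hi).1
    have k4 : κ (τ a) ≠ κ (τ j) := fun k => ha (hτ (V.inj k) ▸ hj)
    rw [Finset.sum_cons]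
    rcases lt_or_gt_of_ne k4 with k | k
    · have := eAdapt_add V h1.1 k3 h1.2.1 k0 h1.2.2 k1 k
      refine ⟨this.1, a, Finset.mem_cons_self a S, this.2, fun i hi => ?_⟩
      rcases Finset.mem_cons.1 hi with rfl | hi
      · exact le_rfl
      · exact k.le.trans (k2 i hi)
    · have := eAdapt_add V k3 h1.1 k0 h1.2.1 k1 h1.2.2 k
      rw [add_comm] at this
      refine ⟨this.1, j, Finset.mem_cons_of_mem hj, this.2, fun i hi => ?_⟩
      rcases Finset.mem_cons.1 hi with rfl | hi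
      · exact k.le
      · exact k2 i hi

theorem eAdapt_comb {ι : Type*} {s : ι → Y} {τ : ι → T} (hτ : Function.Injective τ)
    (h : ∀ i, s i ∈ W ∧ s i ≠ 0 ∧ R (s i) (τ i)) (S : Finset ι) (c : ι → ℂ) {i : ι} (hi : i ∈ S)
    (hc : c i ≠ 0) : ∑ j ∈ S, c j • s j ≠ 0 ∧ ∀ t, R (∑ j ∈ S, c j • s j) t → κ t ≤ κ (τ i) := by
  classical
  have e : ∑ j ∈ S.filter (fun j => c j ≠ 0), c j • s j = ∑ j ∈ S, c j • s j :=
    Finset.sum_filter_of_ne fun j _ k => left_ne_zero_of_smul k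
  have hi' : i ∈ S.filter fun j => c j ≠ 0 := Finset.mem_filter.2 ⟨hi, hc⟩
  obtain ⟨k0, j, -, k1, k2⟩ := eAdapt_sum V (s := fun j => c j • s j) hτ ⟨i, hi'⟩ fun j hj =>
    ⟨W.smul_mem _ (h j).1, smul_ne_zero (Finset.mem_filter.1 hj).2 (h j).2.1,
      V.smul _ (h j).1 (h j).2.1 _ _ (Finset.mem_filter.1 hj).2 (h j).2.2⟩
  rw [e] at k0 k1
  refine ⟨k0, fun t ht => ?_⟩
  rw [V.uniq _ (W.sum_mem fun j _ => W.smul_mem _ (h j).1) k0 t _ ht k1]
  exact k2 i hi'

theorem eAdapt_li {ι : Type*} {s : ι → Y} {τ : ι → T} (hτ : Function.Injective τ)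
    (h : ∀ i, s i ∈ W ∧ s i ≠ 0 ∧ R (s i) (τ i)) : LinearIndependent ℂ s :=
  linearIndependent_iff'.2 fun S c k _ hi =>
    not_not.1 fun hc => (eAdapt_comb V hτ h S c hi hc).1 k

end

theorem s_Adapt : EAdaptS := by
  intro Y T Λ _ _ _ W R κ hW V
  set I := {t | ∃ s ∈ W, s ≠ 0 ∧ R s t}
  have h0 : ∀ t : I, ∃ s, s ∈ W ∧ s ≠ 0 ∧ R s t := fun t => t.2
  choose σ hσ using h0
  have h1 := eAdapt_li V Subtype.val_injective hσ
  have h2 : LinearIndependent ℂ fun t => (⟨σ t, (hσ t).1⟩ : W) :=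
    LinearIndependent.of_comp W.subtype h1
  have h3 : Finite I := h2.finite
  refine ⟨h3, fun hl => ?_⟩
  have h4 : ∀ t : I, ∀ s ∈ W, s ≠ 0 → R s t → s ∈ Submodule.span ℂ (range σ) := by
    have : IsTrans I fun a b => κ b < κ a := ⟨fun _ _ _ k k' => k'.trans k⟩
    have : Std.Irrefl fun a b : I => κ b < κ a := ⟨fun _ => lt_irrefl _⟩
    intro t
    induction t using (Finite.wellFounded_of_trans_of_irrefl
      fun a b : I => κ b < κ a).induction with
    | _ t ih =>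
      intro s hs hs0 hR
      obtain ⟨c, hc⟩ := hl s hs _ (hσ t).1 hs0 (hσ t).2.1 t hR (hσ t).2.2
      have k1 : s - c • σ t ∈ W := sub_mem hs (W.smul_mem c (hσ t).1)
      have k2 : s - c • σ t ∈ Submodule.span ℂ (range σ) := by
        by_cases k : s - c • σ t = 0
        · rw [k]
          exact zero_mem _
        obtain ⟨t', ht'⟩ := V.ex _ k1 k
        exact ih ⟨t', _, k1, k, ht'⟩ (hc.resolve_left k t' ht') _ k1 k ht'
      simpa using add_mem k2 (Submodule.smul_mem _ c (Submodule.subset_span (mem_range_self t)))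
  have h5 : Submodule.span ℂ (range σ) = W := by
    refine le_antisymm (Submodule.span_le.2 (range_subset_iff.2 fun t => (hσ t).1)) fun s hs => ?_
    by_cases k : s = 0
    · rw [k]
      exact zero_mem _
    obtain ⟨t, ht⟩ := V.ex s hs k
    exact h4 ⟨t, s, hs, k, ht⟩ s hs k ht
  have := Fintype.ofFinite I
  have h6 : Fintype.card I = Module.finrank ℂ W := by rw [← h5, finrank_span_eq_card h1]
  let e := (Fintype.equivFinOfCardEq h6).symm
  have h7 : Function.Injective fun i => (e i).1 := Subtype.val_injective.comp e.injective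
  refine ⟨fun i => σ (e i), fun i => (e i).1, h7, fun i => hσ _,
    eAdapt_li V h7 fun i => hσ _, fun c i hc =>
      (eAdapt_comb V h7 (fun i => hσ _) _ c (Finset.mem_univ i) hc).2, fun s hs k t ht => ?_⟩
  exact ⟨e.symm ⟨t, s, hs, k, ht⟩, by simp⟩

end Fuj
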