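import Vale.Agent.P271.EDefs

open MeasureTheory Set Filter Topology Metric Asymptotics

noncomputable section
namespace Fuj

theorem eBM_card {F G H : Finset ℕ} (hF : F.Nonempty) (hG : G.Nonempty)
    (h : ∀ i ∈ F, ∀ j ∈ G, ∀ ε ≤ 1, i + j + ε ∈ H) : F.card + G.card ≤ H.card := by
  have h1 : (F.image fun i => i + G.min' hG).card = F.card :=
    Finset.card_image_of_injective _ (add_left_injective _)
  have h2 : (G.image fun j => F.max' hF + j + 1).card = G.card :=
    Finset.card_image_of_injective _ fun x y k => by simpa using k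
  rw [← h1, ← h2, ← Finset.card_union_of_disjoint]
  · refine Finset.card_le_card (Finset.union_subset ?_ ?_) <;> intro k hk <;>
      obtain ⟨i, hi, rfl⟩ := Finset.mem_image.1 hk
    · exact h i hi _ (G.min'_mem hG) 0 zero_le_one
    · exact h _ (F.max'_mem hF) i hi 1 le_rfl
  · refine Finset.disjoint_left.2 fun k hk hk' => ?_
    obtain ⟨i, hi, rfl⟩ := Finset.mem_image.1 hk
    obtain ⟨j, hj, e⟩ := Finset.mem_image.1 hk'
    have := F.le_max' i hi
    have := G.min'_le j hj
    omega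

theorem eBM_cut (F : Finset ℕ) (f : ℕ → ℝ) (t : ℝ) (h : ∀ i ∈ F, t ≤ f i) :
    ∑ i ∈ F, f i = ∑ i ∈ F.filter (fun i => t < f i), (f i - t) + t * F.card := by
  rw [Finset.sum_filter_of_ne fun i hi k => lt_of_le_of_ne (h i hi) (sub_ne_zero.1 k).symm,
    Finset.sum_sub_distrib, Finset.sum_const, nsmul_eq_mul]
  ring

theorem eBM_min (n : ℕ) : ∀ (F G H : Finset ℕ) (f g h : ℕ → ℝ) (M : ℝ), F.card + G.card ≤ n →
    (∀ k ∈ H, 0 ≤ h k) → (∀ i ∈ F, 0 ≤ f i ∧ f i ≤ M) → (∀ j ∈ G, 0 ≤ g j ∧ g j ≤ M) →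
    (∃ i ∈ F, f i = M) → (∃ j ∈ G, g j = M) →
    (∀ i ∈ F, ∀ j ∈ G, ∀ ε ≤ 1, i + j + ε ∈ H ∧ min (f i) (g j) ≤ h (i + j + ε)) →
    ∑ i ∈ F, f i + ∑ j ∈ G, g j ≤ ∑ k ∈ H, h k := by
  induction n with
  | zero =>
    rintro F G H f g h M hn - - - ⟨i, hi, -⟩ - -
    have := Finset.card_pos.2 ⟨i, hi⟩
    omega
  | succ n ih =>
    rintro F G H f g h M hn hh hf hg ⟨i₀, hi₀, ei⟩ ⟨j₀, hj₀, ej⟩ hyp
    obtain ⟨i₁, hi₁, mi⟩ := F.exists_min_image f ⟨i₀, hi₀⟩
    obtain ⟨j₁, hj₁, mj⟩ := G.exists_min_image g ⟨j₀, hj₀⟩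
    generalize ht : min (f i₁) (g j₁) = t
    have t0 : 0 ≤ t := ht ▸ le_min (hf _ hi₁).1 (hg _ hj₁).1
    have tf : ∀ i ∈ F, t ≤ f i := fun i hi => ht ▸ (min_le_left _ _).trans (mi i hi)
    have tg : ∀ j ∈ G, t ≤ g j := fun j hj => ht ▸ (min_le_right _ _).trans (mj j hj)
    have mem : ∀ i ∈ F, ∀ j ∈ G, ∀ ε ≤ 1, i + j + ε ∈ H.filter fun k => t ≤ h k :=
      fun i hi j hj ε hε => Finset.mem_filter.2 ⟨(hyp i hi j hj ε hε).1,
        (le_min (tf i hi) (tg j hj)).trans (hyp i hi j hj ε hε).2⟩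
    have hc : (F.card : ℝ) + G.card ≤ (H.filter fun k => t ≤ h k).card := by
      exact_mod_cast eBM_card ⟨i₀, hi₀⟩ ⟨j₀, hj₀⟩ mem
    have h1 : ∑ k ∈ H.filter (fun k => t ≤ h k), h k ≤ ∑ k ∈ H, h k :=
      Finset.sum_le_sum_of_subset_of_nonneg (Finset.filter_subset _ _) fun k hk _ => hh k hk
    have h2 : ∑ k ∈ H.filter (fun k => t ≤ h k), (h k - t) =
        ∑ k ∈ H.filter (fun k => t ≤ h k), h k - t * (H.filter fun k => t ≤ h k).card := by
      rw [Finset.sum_sub_distrib, Finset.sum_const, nsmul_eq_mul, mul_comm]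
    have h3 : ∑ i ∈ F.filter (fun i => t < f i), (f i - t) +
        ∑ j ∈ G.filter (fun j => t < g j), (g j - t) ≤
        ∑ k ∈ H.filter (fun k => t ≤ h k), (h k - t) := by
      rcases (ei ▸ tf i₀ hi₀ : t ≤ M).eq_or_lt with e | e
      · rw [Finset.filter_false_of_mem fun i hi => not_lt.2 (e ▸ (hf i hi).2),
          Finset.filter_false_of_mem fun j hj => not_lt.2 (e ▸ (hg j hj).2)]
        simp only [Finset.sum_empty, add_zero]
        exact Finset.sum_nonneg fun k hk => sub_nonneg.2 (Finset.mem_filter.1 hk).2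
      · refine ih _ _ _ (fun i => f i - t) (fun j => g j - t) (fun k => h k - t) (M - t) ?_
          (fun k hk => sub_nonneg.2 (Finset.mem_filter.1 hk).2)
          (fun i hi => ⟨sub_nonneg.2 (Finset.mem_filter.1 hi).2.le,
            sub_le_sub_right (hf i (Finset.mem_filter.1 hi).1).2 _⟩)
          (fun j hj => ⟨sub_nonneg.2 (Finset.mem_filter.1 hj).2.le,
            sub_le_sub_right (hg j (Finset.mem_filter.1 hj).1).2 _⟩)
          ⟨i₀, Finset.mem_filter.2 ⟨hi₀, ei ▸ e⟩, by rw [ei]⟩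
          ⟨j₀, Finset.mem_filter.2 ⟨hj₀, ej ▸ e⟩, by rw [ej]⟩ fun i hi j hj ε hε => ?_
        · have a1 := Finset.card_filter_le F fun i => t < f i
          have a2 := Finset.card_filter_le G fun j => t < g j
          rcases min_choice (f i₁) (g j₁) with e' | e'
          · have : (F.filter fun i => t < f i).card < F.card := Finset.card_lt_card
              (Finset.filter_ssubset.2 ⟨i₁, hi₁, by rw [← e', ht]; exact lt_irrefl _⟩)
            omega
          · have : (G.filter fun j => t < g j).card < G.card := Finset.card_lt_card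
              (Finset.filter_ssubset.2 ⟨j₁, hj₁, by rw [← e', ht]; exact lt_irrefl _⟩)
            omega
        · have hi' := (Finset.mem_filter.1 hi).1
          have hj' := (Finset.mem_filter.1 hj).1
          refine ⟨mem i hi' j hj' ε hε, ?_⟩
          rw [min_sub_sub_right]
          exact sub_le_sub_right (hyp i hi' j hj' ε hε).2 _
    rw [eBM_cut F f t tf, eBM_cut G g t tg]
    nlinarith [mul_le_mul_of_nonneg_left hc t0]

theorem eBM_one {s : ℝ} (s0 : 0 < s) (s1 : s < 1) (R : ℕ) (f g h : ℕ → ℝ) (hf : ∀ i, 0 ≤ f i)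
    (hg : ∀ i, 0 ≤ g i) (hh : ∀ i, 0 ≤ h i)
    (hyp : ∀ i j, ∀ ε ≤ 1, f i ^ (1 - s) * g j ^ s ≤ h (i + j + ε)) :
    ((∑ i ∈ Finset.range R, f i) / (1 - s)) ^ (1 - s) * ((∑ i ∈ Finset.range R, g i) / s) ^ s ≤
      ∑ i ∈ Finset.range (2 * R), h i := by
  have s1' : 0 < 1 - s := by linarith
  have H0 : 0 ≤ ∑ i ∈ Finset.range (2 * R), h i := Finset.sum_nonneg fun i _ => hh i
  rcases (Finset.sum_nonneg fun i (_ : i ∈ Finset.range R) => hf i).eq_or_lt with e | pf
  · rwa [← e, zero_div, Real.zero_rpow s1'.ne', zero_mul]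
  rcases (Finset.sum_nonneg fun i (_ : i ∈ Finset.range R) => hg i).eq_or_lt with e | pg
  · rwa [← e, zero_div, Real.zero_rpow s0.ne', mul_zero]
  have hR : (Finset.range R).Nonempty := Finset.nonempty_of_sum_ne_zero pf.ne'
  obtain ⟨i₀, hi₀, mi⟩ := (Finset.range R).exists_max_image f hR
  obtain ⟨j₀, hj₀, mj⟩ := (Finset.range R).exists_max_image g hR
  have f0 : 0 < f i₀ := by
    by_contra k
    exact pf.not_ge (Finset.sum_nonpos fun i hi => (mi i hi).trans (not_lt.1 k))
  have g0 : 0 < g j₀ := by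
    by_contra k
    exact pg.not_ge (Finset.sum_nonpos fun i hi => (mj i hi).trans (not_lt.1 k))
  have P0 : 0 < f i₀ ^ (1 - s) * g j₀ ^ s := by positivity
  have key := eBM_min _ (Finset.range R) (Finset.range R) (Finset.range (2 * R))
    (fun i => f i / f i₀) (fun j => g j / g j₀) (fun k => h k / (f i₀ ^ (1 - s) * g j₀ ^ s)) 1 le_rfl
    (fun k _ => div_nonneg (hh k) P0.le)
    (fun i hi => ⟨div_nonneg (hf i) f0.le, (div_le_one f0).2 (mi i hi)⟩)
    (fun i hi => ⟨div_nonneg (hg i) g0.le, (div_le_one g0).2 (mj i hi)⟩)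
    ⟨i₀, hi₀, div_self f0.ne'⟩ ⟨j₀, hj₀, div_self g0.ne'⟩ fun i hi j hj ε hε => by
      refine ⟨by simp only [Finset.mem_range] at hi hj ⊢; omega, ?_⟩
      have a0 : 0 ≤ min (f i / f i₀) (g j / g j₀) :=
        le_min (div_nonneg (hf i) f0.le) (div_nonneg (hg j) g0.le)
      calc min (f i / f i₀) (g j / g j₀)
          = min (f i / f i₀) (g j / g j₀) ^ (1 - s) * min (f i / f i₀) (g j / g j₀) ^ s := by
            rw [← Real.rpow_add' a0 (by simp), sub_add_cancel, Real.rpow_one]
        _ ≤ (f i / f i₀) ^ (1 - s) * (g j / g j₀) ^ s :=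
            mul_le_mul (Real.rpow_le_rpow a0 (min_le_left _ _) s1'.le)
              (Real.rpow_le_rpow a0 (min_le_right _ _) s0.le) (by positivity)
              (Real.rpow_nonneg (div_nonneg (hf i) f0.le) _)
        _ = f i ^ (1 - s) * g j ^ s / (f i₀ ^ (1 - s) * g j₀ ^ s) := by
            rw [Real.div_rpow (hf i) f0.le, Real.div_rpow (hg j) g0.le, div_mul_div_comm]
        _ ≤ _ := div_le_div_of_nonneg_right (hyp i j ε hε) P0.le
  rw [← Finset.sum_div, ← Finset.sum_div, ← Finset.sum_div, le_div_iff₀ P0] at key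
  refine le_trans ?_ key
  generalize ∑ i ∈ Finset.range R, f i = X at pf
  generalize ∑ i ∈ Finset.range R, g i = Y at pg
  have am := Real.geom_mean_le_arith_mean2_weighted s1'.le s0.le
    (show 0 ≤ X / (1 - s) / f i₀ by positivity) (show 0 ≤ Y / s / g j₀ by positivity) (by ring)
  have e1 : (1 - s) * (X / (1 - s) / f i₀) + s * (Y / s / g j₀) = X / f i₀ + Y / g j₀ := by
    field_simp
  rw [e1, Real.div_rpow (by positivity) f0.le, Real.div_rpow (y := g j₀) (by positivity) g0.le,
    div_mul_div_comm, div_le_iff₀ P0] at am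
  exact am

theorem eBM_box {d : ℕ} (S : Finset ℕ) (f : (Fin (d + 1) → ℕ) → ℝ) :
    ∑ x ∈ Fintype.piFinset (fun _ : Fin (d + 1) => S), f x =
      ∑ i ∈ S, ∑ y ∈ Fintype.piFinset (fun _ : Fin d => S), f (Fin.cons i y) := by
  rw [← Finset.sum_product']
  refine Finset.sum_nbij' (fun x => (x 0, Fin.tail x)) (fun p => Fin.cons p.1 p.2) ?_ ?_ ?_ ?_ ?_
  · intro x hx
    simp only [Finset.mem_product, Fintype.mem_piFinset] at hx ⊢
    exact ⟨hx 0, fun i => hx _⟩
  · intro p hp
    simp only [Finset.mem_product, Fintype.mem_piFinset] at hp ⊢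
    exact fun i => Fin.cases hp.1 hp.2 i
  · intro x _
    exact Fin.cons_self_tail x
  · intro p _
    simp
  · intro x _
    simp

theorem eBM_fun {s : ℝ} (s0 : 0 < s) (s1 : s < 1) (R d : ℕ) :
    ∀ f g h : (Fin d → ℕ) → ℝ, (∀ i, 0 ≤ f i) → (∀ i, 0 ≤ g i) → (∀ i, 0 ≤ h i) →
    (∀ x y ε : Fin d → ℕ, (∀ i, ε i ≤ 1) → f x ^ (1 - s) * g y ^ s ≤ h (x + y + ε)) →
    ((∑ x ∈ Fintype.piFinset (fun _ : Fin d => Finset.range R), f x) / (1 - s) ^ d) ^ (1 - s) *
      ((∑ x ∈ Fintype.piFinset (fun _ : Fin d => Finset.range R), g x) / s ^ d) ^ s ≤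
      ∑ x ∈ Fintype.piFinset (fun _ : Fin d => Finset.range (2 * R)), h x := by
  have s1' : 0 < 1 - s := by linarith
  induction d with
  | zero =>
    intro f g h _ _ _ hyp
    simp only [Fintype.piFinset_of_isEmpty, Finset.univ_unique, Finset.sum_singleton, pow_zero,
      div_one]
    exact (hyp _ _ 0 fun i => zero_le_one).trans_eq (congrArg h (Subsingleton.elim _ _))
  | succ d ih =>
    intro f g h hf hg hh hyp
    have := eBM_one s0 s1 R
      (fun i => (∑ x ∈ Fintype.piFinset (fun _ : Fin d => Finset.range R), f (Fin.cons i x)) /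
        (1 - s) ^ d)
      (fun i => (∑ x ∈ Fintype.piFinset (fun _ : Fin d => Finset.range R), g (Fin.cons i x)) / s ^ d)
      (fun i => ∑ x ∈ Fintype.piFinset (fun _ : Fin d => Finset.range (2 * R)), h (Fin.cons i x))
      (fun i => div_nonneg (Finset.sum_nonneg fun _ _ => hf _) (by positivity))
      (fun i => div_nonneg (Finset.sum_nonneg fun _ _ => hg _) (by positivity))
      (fun i => Finset.sum_nonneg fun _ _ => hh _) fun i j ε hε =>
        ih _ _ _ (fun _ => hf _) (fun _ => hg _) (fun _ => hh _) fun x y ε' hε' => by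
          have e : (Fin.cons (i + j + ε) (x + y + ε') : Fin (d + 1) → ℕ) =
              Fin.cons i x + Fin.cons j y + Fin.cons ε ε' := by
            funext k
            refine Fin.cases ?_ (fun k => ?_) k <;> simp
          rw [e]
          exact hyp _ _ _ fun k => Fin.cases hε hε' k
    rw [← Finset.sum_div, ← Finset.sum_div, div_div, div_div, ← pow_succ, ← pow_succ] at this
    rwa [eBM_box, eBM_box, eBM_box]

theorem eBM_ind {d : ℕ} (A : Finset (Ex d)) (S : Finset (Fin d → ℕ)) :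
    ∑ x ∈ S, (if Finsupp.equivFunOnFinite.symm x ∈ A then (1 : ℝ) else 0) =
      (A.filter fun a : Ex d => ⇑a ∈ S).card := by
  rw [Finset.sum_boole]
  congr 1
  refine Finset.card_equiv Finsupp.equivFunOnFinite.symm fun x => ?_
  simp [and_comm]

theorem s_BM : BMS := by
  intro d A B C hd hA hB hyp
  obtain ⟨R, hR⟩ : ∃ R : ℕ, ∀ a ∈ A ∪ B, ∀ i, a i < R :=
    ⟨(A ∪ B).sup (fun a => Finset.univ.sup a) + 1, fun a ha i => Nat.lt_succ_of_le
      ((Finset.le_sup (f := a) (Finset.mem_univ i)).trans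
        (Finset.le_sup (f := fun a : Ex d => Finset.univ.sup a) ha))⟩
  have d0 : d ≠ 0 := by omega
  have pA : (0 : ℝ) < A.card := by exact_mod_cast hA.card_pos
  have pB : (0 : ℝ) < B.card := by exact_mod_cast hB.card_pos
  have eA : ((A.card : ℝ) ^ (1 / d : ℝ)) ^ d = A.card := by
    rw [one_div, Real.rpow_inv_natCast_pow pA.le d0]
  have eB : ((B.card : ℝ) ^ (1 / d : ℝ)) ^ d = B.card := by
    rw [one_div, Real.rpow_inv_natCast_pow pB.le d0]
  have a0 : 0 < (A.card : ℝ) ^ (1 / d : ℝ) := by positivity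
  have b0 : 0 < (B.card : ℝ) ^ (1 / d : ℝ) := by positivity
  generalize (A.card : ℝ) ^ (1 / d : ℝ) = a at eA a0
  generalize (B.card : ℝ) ^ (1 / d : ℝ) = b at eB b0
  have s0 : 0 < b / (a + b) := by positivity
  have s1 : b / (a + b) < 1 := (div_lt_one (by positivity)).2 (by linarith)
  have key := eBM_fun s0 s1 R d
    (fun x => if Finsupp.equivFunOnFinite.symm x ∈ A then (1 : ℝ) else 0)
    (fun x => if Finsupp.equivFunOnFinite.symm x ∈ B then (1 : ℝ) else 0)
    (fun x => if Finsupp.equivFunOnFinite.symm x ∈ C then (1 : ℝ) else 0)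
    (fun _ => by positivity) (fun _ => by positivity) (fun _ => by positivity) fun x y ε hε => by
      by_cases hx : Finsupp.equivFunOnFinite.symm x ∈ A
      · by_cases hy : Finsupp.equivFunOnFinite.symm y ∈ B
        · have := hyp _ hx _ hy (Finsupp.equivFunOnFinite.symm ε) (by simpa using hε)
          have e : Finsupp.equivFunOnFinite.symm (x + y + ε) = Finsupp.equivFunOnFinite.symm x +
              Finsupp.equivFunOnFinite.symm y + Finsupp.equivFunOnFinite.symm ε := by
            ext i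
            simp
          simp only [e, hx, hy, this, if_true, Real.one_rpow, mul_one, le_refl]
        · simp only [hy, if_false, Real.zero_rpow s0.ne', mul_zero]
          positivity
      · simp only [hx, if_false, Real.zero_rpow (sub_pos.2 s1).ne', zero_mul]
        positivity
  rw [eBM_ind, eBM_ind, eBM_ind, Finset.filter_true_of_mem fun x hx => by
      simpa using hR x (Finset.mem_union_left _ hx),
    Finset.filter_true_of_mem fun x hx => by
      simpa using hR x (Finset.mem_union_right _ hx), ← eA, ← eB, ← div_pow, ← div_pow] at key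
  have e1 : a / (1 - b / (a + b)) = a + b := by
    have : 1 - b / (a + b) = a / (a + b) := by
      field_simp
      ring
    rw [this]
    field_simp
  have e2 : b / (b / (a + b)) = a + b := by field_simp
  rw [e1, e2, ← Real.rpow_add (by positivity), sub_add_cancel, Real.rpow_one] at key
  have k2 : (a + b) ^ d ≤ C.card := key.trans (by exact_mod_cast Finset.card_filter_le _ _)
  have k3 := Real.rpow_le_rpow (by positivity) k2 (show (0 : ℝ) ≤ 1 / d by positivity)
  rwa [one_div, Real.pow_rpow_inv_natCast (by positivity) d0, ← one_div] at k3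

end Fuj
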