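import Vale.Agent.P271.EDefs

open MeasureTheory Set Filter Topology Metric Asymptotics

noncomputable section
namespace Fuj

theorem eBound_fst {d e : ℕ} : Tendsto (fun p : E d × E e => p.1) (𝓝 0) (𝓝 0) :=
  continuous_fst.tendsto' 0 0 rfl

theorem eBound_pr {d e : ℕ} : Tendsto (fun p : E d × E e => ((p.1, 0) : E d × E e)) (𝓝 0) (𝓝 0) :=
  (continuous_fst.prodMk continuous_const).tendsto' 0 0 rfl

theorem eBound_lip {d e : ℕ} {F : E d × E e → ℂ} (hF : AnalyticAt ℂ F 0) :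
    (fun p => F p - F (p.1, 0)) =O[𝓝 0] fun p : E d × E e => ‖p.2‖ := by
  have h := hF.hasStrictFDerivAt.isBigO_sub.comp_tendsto
    (k := fun p : E d × E e => (p, ((p.1, 0) : E d × E e))) (l' := 𝓝 0)
    (tendsto_id.prodMk_nhds eBound_pr)
  refine h.trans (IsBigO.of_bound' (Eventually.of_forall fun p => ?_))
  simp [Prod.norm_def]

theorem eBound_key {d e' N u : ℕ} {s g : E d × E e' → ℂ} {e h : Fin N → E d × E e' → ℂ}
    {H : Fin N → E d → ℂ} (hg : ContinuousAt g 0) (hg0 : g 0 ≠ 0) (hh : ∀ α, AnalyticAt ℂ (h α) 0)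
    (h1 : ∀ α, ∀ᶠ z in 𝓝 (0 : E d), H α z * g (z, 0) = h α (z, 0))
    (h2 : ∀ α, H α =O[𝓝 0] fun z : E d => ‖z‖ ^ u) :
    s =O[𝓝 0] fun p => ‖p.1‖ ^ u * ∑ α, ‖e α p‖ + (‖g p * s p - ∑ α, h α p * e α p‖ +
      ∑ q : Fin e' × Fin N, ‖p.2 q.1 * e q.2 p‖) := by
  set G : E d × E e' → ℝ := fun p => ‖p.1‖ ^ u * ∑ α, ‖e α p‖ +
    (‖g p * s p - ∑ α, h α p * e α p‖ + ∑ q : Fin e' × Fin N, ‖p.2 q.1 * e q.2 p‖) with hG
  have k0 : ∀ {F : E d × E e' → ℝ}, (∀ p, 0 ≤ F p) → (∀ p, F p ≤ G p) → F =O[𝓝 0] G :=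
    fun k k' => IsBigO.of_bound' (Eventually.of_forall fun p => by
      rw [Real.norm_of_nonneg (k p), Real.norm_of_nonneg ((k p).trans (k' p))]
      exact k' p)
  have k1 : (fun p => g p * s p - ∑ α, h α p * e α p) =O[𝓝 0] G := by
    refine IsBigO.of_norm_left (k0 (fun p => norm_nonneg _) fun p => ?_)
    exact le_add_of_nonneg_of_le (by positivity) (le_add_of_nonneg_right (by positivity))
  have k2 : ∀ α, (fun p => h α p * e α p) =O[𝓝 0] G := by
    intro α
    have a1 : (fun p => (h α p - h α (p.1, 0)) * e α p) =O[𝓝 0] G := by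
      refine ((eBound_lip (hh α)).mul (isBigO_refl (e α) _).norm_right).trans
        (k0 (fun p => by positivity) fun p => ?_)
      refine le_add_of_nonneg_of_le (by positivity) (le_add_of_nonneg_of_le (by positivity) ?_)
      rw [Fintype.sum_prod_type_right]
      refine le_trans ?_ (Finset.single_le_sum (f := fun α => ∑ j, ‖p.2 j * e α p‖)
        (fun _ _ => by positivity) (Finset.mem_univ α))
      simp only [norm_mul, ← Finset.sum_mul]
      refine mul_le_mul_of_nonneg_right ((pi_norm_le_iff_of_nonneg (by positivity)).2 fun j => ?_)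
        (norm_nonneg _)
      exact Finset.single_le_sum (f := fun j => ‖p.2 j‖) (fun _ _ => norm_nonneg _)
        (Finset.mem_univ j)
    have a2 : (fun p => h α (p.1, 0) * e α p) =O[𝓝 0] G := by
      have b1 : (fun p : E d × E e' => H α p.1 * g (p.1, 0)) =O[𝓝 0] fun p => ‖p.1‖ ^ u * 1 :=
        ((h2 α).comp_tendsto eBound_fst).mul ((hg.tendsto.comp eBound_pr).isBigO_one ℝ)
      have b2 : (fun p : E d × E e' => h α (p.1, 0)) =O[𝓝 0] fun p => ‖p.1‖ ^ u * 1 :=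
        b1.congr' (eBound_fst.eventually (h1 α)) EventuallyEq.rfl
      refine (b2.mul (isBigO_refl (e α) _).norm_right).trans
        (k0 (fun p => by positivity) fun p => ?_)
      refine le_add_of_le_of_nonneg ?_ (by positivity)
      rw [mul_one]
      exact mul_le_mul_of_nonneg_left (Finset.single_le_sum (f := fun α => ‖e α p‖)
        (fun _ _ => norm_nonneg _) (Finset.mem_univ α)) (by positivity)
    exact (a1.add a2).congr_left fun p => by ring
  have k3 := ((hg.inv₀ hg0).tendsto.isBigO_one ℝ).mul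
    (k1.add (IsBigO.fun_sum (s := Finset.univ) fun α _ => k2 α))
  refine k3.congr' ((hg.eventually_ne hg0).mono fun p hp => ?_)
    (Eventually.of_forall fun p => one_mul _)
  simp [hp]

theorem s_Bound : BoundS := by
  intro n d e' k N M k₁ k₂ u L v t y B e h H a γ s g hv hy hM he hg hg0 hh hr hw h1 h2
  have hy' : B.Φ 0 ∈ ball (0 : E n) 2 := by rwa [B.cen]
  have an : ∀ {m : ℕ} {f : E n → ℂ}, f ∈ L.V m → AnalyticAt ℂ (fun p => f (B.Φ p)) 0 :=
    fun hf => (L.an hf _ hy').comp B.an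
  obtain ⟨C, hC⟩ := (eBound_key (s := fun p => s (B.Φ p)) (e := fun α p => e α (B.Φ p))
    (an hg).continuousAt (by rwa [B.cen]) (fun α => an (hh α)) h1 h2).bound
  let ε := (Fintype.equivFin (Fin N ⊕ Unit ⊕ Fin e' × Fin N)).symm
  let f : Fin N ⊕ Unit ⊕ Fin e' × Fin N → E n → ℂ := Sum.elim e 0
  let r : Fin N ⊕ Unit ⊕ Fin e' × Fin N → E n → ℂ :=
    Sum.elim 0 (Sum.elim (fun _ => g * s - ∑ α, h α * e α) fun q => B.w q.1 * e q.2)
  let κ : Fin N ⊕ Unit ⊕ Fin e' × Fin N → ℕ :=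
    Sum.elim (fun _ => 1) (Sum.elim (fun _ => k₂ + M) fun _ => k + M)
  have a1 : ∀ j, L.Ge v M a (f j) := by
    rintro (α | q)
    · exact he α
    · exact Loc.Ge.zero
  have a2 : ∀ j, 1 ≤ κ j ∧ L.Ge v (κ j) (a + γ) (r j) := by
    rintro (α | q | q)
    · exact ⟨le_rfl, Loc.Ge.zero⟩
    · exact ⟨hM.trans (Nat.le_add_left _ _), hr⟩
    · refine ⟨hM.trans (Nat.le_add_left _ _), ?_⟩
      rw [add_comm a]
      exact hv.ge_mul ⟨(B.wm q.1).1, Or.inr (hw q.1)⟩ (he q.2)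
  refine ⟨C, _, fun _ => M, fun j => κ (ε j), fun j => f (ε j), fun j => r (ε j),
    fun j => ⟨hM, a1 _⟩, fun j => a2 _, ?_⟩
  filter_upwards [hC, B.wc] with p k1 k2
  rw [ε.sum_comp fun j => ‖f j (B.Φ p)‖, ε.sum_comp fun j => ‖r j (B.Φ p)‖]
  rw [Real.norm_of_nonneg (by positivity)] at k1
  simpa [f, r, Fintype.sum_sum_type, k2, Finset.sum_apply] using k1

end Fuj
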