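import Vale.Agent.P271.EDefs

open MeasureTheory Set Filter Topology Metric Asymptotics

noncomputable section
namespace Fuj

open Classical in
/-- the exponents over a given value and index -/
def eCountA {d : ℕ} (S : Finset (ℝ × ℕ × Ex d)) (p : ℝ × ℕ) : Finset (Ex d) :=
  (S.filter fun t => (t.1, t.2.1) = p).image fun t => t.2.2

open Classical in
/-- the values and indices that occur -/
def eCountI {d : ℕ} (S : Finset (ℝ × ℕ × Ex d)) : Finset (ℝ × ℕ) :=
  S.image fun t => (t.1, t.2.1)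

theorem eCount_memA {d : ℕ} {S : Finset (ℝ × ℕ × Ex d)} {p : ℝ × ℕ} {b : Ex d} :
    b ∈ eCountA S p ↔ (p.1, p.2, b) ∈ S := by
  simp only [eCountA, Finset.mem_image, Finset.mem_filter]
  constructor
  · rintro ⟨t, ⟨h1, rfl⟩, rfl⟩
    exact h1
  · exact fun h => ⟨_, ⟨h, rfl⟩, rfl⟩

theorem eCount_memI {d : ℕ} {S : Finset (ℝ × ℕ × Ex d)} {p : ℝ × ℕ} :
    p ∈ eCountI S ↔ (eCountA S p).Nonempty := by
  simp only [eCountI, Finset.mem_image]
  constructor
  · rintro ⟨t, h1, rfl⟩
    exact ⟨t.2.2, eCount_memA.2 h1⟩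
  · rintro ⟨b, hb⟩
    exact ⟨_, eCount_memA.1 hb, rfl⟩

theorem eCount_sum {d : ℕ} (S : Finset (ℝ × ℕ × Ex d)) (F : ℝ × ℕ × Ex d → ℝ) :
    ∑ t ∈ S, F t = ∑ p ∈ eCountI S, ∑ b ∈ eCountA S p, F (p.1, p.2, b) := by
  classical
  rw [Finset.sum_sigma']
  symm
  refine Finset.sum_bij (fun x _ => (x.1.1, x.1.2, x.2)) (fun x hx => ?_) (fun x _ y _ h => ?_)
    (fun t ht => ?_) (fun _ _ => rfl)
  · exact eCount_memA.1 (Finset.mem_sigma.1 hx).2
  · obtain ⟨⟨x1, x2⟩, x3⟩ := x
    obtain ⟨⟨y1, y2⟩, y3⟩ := y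
    simp only [Prod.mk.injEq] at h
    obtain ⟨rfl, rfl, rfl⟩ := h
    rfl
  · have h : t.2.2 ∈ eCountA S (t.1, t.2.1) := eCount_memA.2 ht
    exact ⟨⟨(t.1, t.2.1), t.2.2⟩, Finset.mem_sigma.2 ⟨eCount_memI.2 ⟨_, h⟩, h⟩, rfl⟩

theorem eCount_exp {d : ℕ} (S : Finset (ℝ × ℕ × Ex d)) :
    ∑ t ∈ S, Real.exp (-t.1) = ∑ p ∈ eCountI S, Real.exp (-p.1) * (eCountA S p).card := by
  rw [eCount_sum]
  refine Finset.sum_congr rfl fun p _ => ?_
  simp only [Finset.sum_const, nsmul_eq_mul]
  ring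

/-- the normalised size -/
def eCountS {d : ℕ} (A : Finset (Ex d)) : ℝ := ((d.factorial : ℝ) * A.card) ^ (1 / d : ℝ)

theorem eCountS_nonneg {d : ℕ} (A : Finset (Ex d)) : 0 ≤ eCountS A := by
  unfold eCountS
  positivity

theorem eCountS_pow {d : ℕ} (hd : 1 ≤ d) (A : Finset (Ex d)) :
    eCountS A ^ d = d.factorial * A.card := by
  unfold eCountS
  rw [one_div]
  exact Real.rpow_inv_natCast_pow (by positivity) (by omega)

theorem eCount_cnt (h2 : LatS) {d : ℕ} (hd : 1 ≤ d) (A : Finset (Ex d)) {K : ℝ} (hK : 0 ≤ K) :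
    Fz d K (eCountS A) / d.factorial - d * A.card ≤ ∑ b ∈ A, min (b.degree : ℝ) K := by
  have hk0 : 0 ≤ min K (eCountS A) := le_min hK (eCountS_nonneg A)
  have hf : (0 : ℝ) < d.factorial := by positivity
  have e : Fz d K (eCountS A) / d.factorial = A.card * min K (eCountS A) -
      min K (eCountS A) ^ (d + 1) / (d + 1).factorial := by
    unfold Fz
    rw [eCountS_pow hd, Nat.factorial_succ]
    push_cast
    field_simp
  rw [e]
  generalize hk : min K (eCountS A) = k at hk0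
  have hkK : k ≤ K := hk ▸ min_le_left _ _
  have hc : (0 : ℝ) ≤ A.card := by positivity
  rcases le_total k d with h | h
  · have h1 : 0 ≤ ∑ b ∈ A, min (b.degree : ℝ) K :=
      Finset.sum_nonneg fun b _ => le_min (by positivity) hK
    have h3 : 0 ≤ k ^ (d + 1) / (d + 1).factorial := by positivity
    nlinarith [mul_le_mul_of_nonneg_left h hc]
  · have h1 := h2 d A (k - d) (by linarith)
    rw [sub_add_cancel] at h1
    have h3 : ∑ b ∈ A, (k - d - max (k - d - b.degree) 0) ≤ ∑ b ∈ A, min (b.degree : ℝ) K :=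
      Finset.sum_le_sum fun b _ => le_min (by linarith [le_max_left (k - d - b.degree) 0])
        (by linarith [le_max_right (k - d - b.degree) 0, (Nat.cast_nonneg d : (0 : ℝ) ≤ d)])
    rw [Finset.sum_sub_distrib, Finset.sum_const, nsmul_eq_mul] at h3
    linarith

theorem s_Count (h1 : EPsiS) (h2 : LatS) : CountS := by
  intro d q M ρ Λ B hd hρ hρq hΛ hB
  have hf : (0 : ℝ) < d.factorial := by positivity
  have hF : ∀ (m : ℕ) (A : Finset (Ex d)), 0 ≤ Fz d (d * m) (eCountS A) := fun m A =>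
    (h1 d (d * m) (d * m) (eCountS A) (eCountS A) 0 hd (by positivity) (eCountS_nonneg A) le_rfl
      (by simp) (by simp)).1
  refine ⟨fun m => ∑ p ∈ eCountI (Λ m),
    Real.exp (-p.1) * (Fz d (d * m) (eCountS (eCountA (Λ m) p)) / d.factorial),
    fun m => Finset.sum_nonneg fun p _ => mul_nonneg (Real.exp_pos _).le
      (div_nonneg (hF _ _) hf.le), fun m hm hmq => ?_, fun m => ?_⟩
  · have key : ∀ p ∈ eCountI (Λ m),
        eCountS (eCountA (Λ m) p) + ρ ≤ eCountS (eCountA (Λ (m + q)) p) := fun p hp => by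
      have h3 := hB (eCountA (Λ m) p) (eCountA (Λ (m + q)) p) (eCount_memI.1 hp) fun a ha b hb =>
        eCount_memA.2 (hΛ m hm hmq _ (eCount_memA.1 ha) b hb)
      have h4 : 0 < (d.factorial : ℝ) ^ (1 / d : ℝ) := by positivity
      unfold eCountS
      rw [Real.mul_rpow hf.le (by positivity), Real.mul_rpow hf.le (by positivity)]
      have h5 := mul_le_mul_of_nonneg_left h3 h4.le
      rwa [mul_add, mul_div_cancel₀ _ h4.ne'] at h5
    have hsub : eCountI (Λ m) ⊆ eCountI (Λ (m + q)) := fun p hp => by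
      rw [eCount_memI, ← Finset.card_pos]
      have h3 := key p hp
      have h4 : 0 < eCountS (eCountA (Λ m) p) := by
        have := Finset.card_pos.2 (eCount_memI.1 hp)
        unfold eCountS
        positivity
      have h5 : 0 < eCountS (eCountA (Λ (m + q)) p) ^ d := pow_pos (by linarith) _
      rw [eCountS_pow hd] at h5
      exact_mod_cast (mul_pos_iff_of_pos_left hf).1 h5
    refine le_trans ?_ (Finset.sum_le_sum_of_subset_of_nonneg hsub fun p _ _ =>
      mul_nonneg (Real.exp_pos _).le (div_nonneg (hF _ _) hf.le))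
    rw [eCount_exp, Finset.mul_sum, ← Finset.sum_add_distrib]
    refine Finset.sum_le_sum fun p hp => ?_
    have h3 := (h1 d (d * m) (d * (m + q : ℕ)) _ _ ρ hd (by positivity) (eCountS_nonneg _) hρ
      (by push_cast; nlinarith [(Nat.cast_nonneg d : (0 : ℝ) ≤ d)]) (key p hp)).2
    rw [eCountS_pow hd] at h3
    have h4 := div_le_div_of_nonneg_right h3 hf.le
    have e : (Fz d (d * m) (eCountS (eCountA (Λ m) p)) +
        d * ρ * (d.factorial * (eCountA (Λ m) p).card)) / d.factorial =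
        Fz d (d * m) (eCountS (eCountA (Λ m) p)) / d.factorial + d * ρ * (eCountA (Λ m) p).card := by
      field_simp
    rw [e] at h4
    nlinarith [mul_le_mul_of_nonneg_left h4 (Real.exp_pos (-p.1)).le]
  · rw [eCount_exp, eCount_sum (Λ m) fun t => Real.exp (-t.1) * min (t.2.2.degree : ℝ) (d * m),
      Finset.mul_sum, ← Finset.sum_sub_distrib]
    refine Finset.sum_le_sum fun p _ => ?_
    have h3 := eCount_cnt h2 hd (eCountA (Λ m) p) (K := d * m) (by positivity)
    simp only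
    rw [← Finset.mul_sum]
    nlinarith [mul_le_mul_of_nonneg_left h3 (Real.exp_pos (-p.1)).le]

end Fuj
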