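import Vale.Agent.P271.EDefs

open MeasureTheory Set Filter Topology Metric Asymptotics

noncomputable section
namespace Fuj

namespace ECube

theorem lead_zero {d : ℕ} {H : Fin 1 → E d → ℂ} {α : ℕ} {β : Ex d} (h : Lead H α β) : α = 0 := by
  obtain ⟨Q, hα, -⟩ := h
  omega

theorem part1 (hL : LeadS) (hA : EAdaptS) {n d : ℕ} (L : Loc n) (φ : E d → E n)
    (hφ : AnalyticAt ℂ φ 0) (h2 : φ 0 ∈ ball (0 : E n) 2) (k : ℕ) (U : Submodule ℂ (E n → ℂ))
    (hU : U ≤ L.V k) (hne : ∀ s ∈ U, s ≠ 0 → ¬ ∀ᶠ z in 𝓝 (0 : E d), s (φ z) = 0) :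
    ∃ A : Finset (Ex d), A.card = Module.finrank ℂ U ∧
      ∀ β, β ∈ A ↔ ∃ s ∈ U, Ld1 (fun z => s (φ z)) β := by
  classical
  have hP := hL d 1
  have := L.fd k
  have hfd : FiniteDimensional ℂ U := Submodule.finiteDimensional_of_le hU
  have hV : VRel U (fun s b => Ld1 (fun z => s (φ z)) b) (fun b : Ex d => key 0 b) := by
    refine ⟨fun b b' h => (key_inj h).2, fun s hs h0 => ?_, fun s _ _ t t' h h' => ?_,
      fun s _ _ c t hc h => ?_, fun s _ s' _ _ _ _ t t' t'' h h' h'' => ?_⟩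
    · obtain ⟨α, β, h⟩ := hP.ex (fun _ : Fin 1 => fun z => s (φ z))
        (fun _ => Loc.an_comp hφ h2 (hU hs)) (fun h => hne s hs h0 (h 0))
      obtain rfl := lead_zero h
      exact ⟨β, h⟩
    · exact (hP.uniq h h').2
    · exact hP.smul hc h
    · exact hP.add h h' h''
  obtain ⟨s, τ, hτ, hs, -, -, hall⟩ := (hA _ _ _ U _ _ hfd hV).2 (by
    intro s _ s' _ _ _ t h h'
    obtain ⟨c, hc⟩ := hP.leaf h h'
    exact ⟨c, Or.inr fun t' ht' => hc 0 t' ht'⟩)
  refine ⟨Finset.univ.image τ, by simp [Finset.card_image_of_injective _ hτ], fun β => ?_⟩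
  simp only [Finset.mem_image, Finset.mem_univ, true_and]
  constructor
  · rintro ⟨i, rfl⟩
    exact ⟨s i, (hs i).1, (hs i).2.2⟩
  · rintro ⟨s', hs', h⟩
    refine hall s' hs' (fun h0 => hP.ne h fun _ => ?_) β h
    subst h0
    exact Eventually.of_forall fun _ => rfl

end ECube

open ECube in
theorem s_Cube (hL : LeadS) (hA : EAdaptS) (hB : BMS) : CubeS := by
  intro n d L φ hφ h2
  refine ⟨part1 hL hA L φ hφ h2, ?_⟩
  intro q k r c U hd hr h1 hc hcz hU hbot hne A C hAne hAC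
  have hP := hL d 1
  obtain ⟨B, hBc, hBm⟩ := part1 hL hA L φ hφ h2 k U hU hne
  have := L.fd k
  have hfd : FiniteDimensional ℂ U := Submodule.finiteDimensional_of_le hU
  have hBne : B.Nonempty := by
    rw [← Finset.card_pos, hBc]
    exact Nat.pos_of_ne_zero fun h => hbot (Submodule.finrank_eq_zero.1 h)
  rw [← hBc]
  refine hB d A B C hd hAne hBne fun a ha b hb ε hε => ?_
  rw [add_assoc]
  refine hAC a ha _ ?_
  obtain ⟨s, hs, hsb⟩ := (hBm b).1 hb
  have hsum : ∑ i, ε i ≤ r := by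
    refine le_trans ?_ hr
    simpa using Finset.sum_le_sum (s := Finset.univ) fun i _ => hε i
  have m1 : ∏ i, c i ^ ε i ∈ L.V (∑ i, ε i * q) :=
    Loc.e_prod_mem _ fun i _ => Loc.e_pow_mem (hc i) _
  have m2 := Loc.e_pow_mem h1 (r - ∑ i, ε i)
  have m3 := L.mul (hU hs) (L.mul m1 m2)
  have e : k + (∑ i, ε i * q + (r - ∑ i, ε i) * q) = k + r * q := by
    rw [← Finset.sum_mul, ← add_mul, Nat.add_sub_cancel' hsum]
  rw [e] at m3
  refine ⟨_, m3, hP.congr (fun _ => ?_) (hP.mul (hP.mono ε) hsb)⟩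
  filter_upwards [hcz] with z hz
  simp [hz, mul_comm]

end Fuj
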