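import Vale.Agent.P271.DDefs

/-! Problem P271, part E: definitions, statements of the parts, elementary facts. -/

open MeasureTheory Set Filter Topology Metric Asymptotics

noncomputable section
namespace Fuj

/-- exponents -/
abbrev Ex (d : ℕ) := Fin d →₀ ℕ

/-- the lexicographic monomial order -/
abbrev mo (d : ℕ) : MonomialOrder (Fin d) := MonomialOrder.lex

/-- `f` vanishes to order `u` at `0` and `Q` is its homogeneous part of degree `u` -/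
def Ini {d : ℕ} (f : E d → ℂ) (u : ℕ) (Q : MvPolynomial (Fin d) ℂ) : Prop :=
  Q.IsHomogeneous u ∧
    (fun z => f z - MvPolynomial.eval z Q) =O[𝓝 0] fun z : E d => ‖z‖ ^ (u + 1)

/-- the leading index and exponent of a tuple of germs -/
def Lead {d N : ℕ} (H : Fin N → E d → ℂ) (α : ℕ) (β : Ex d) : Prop :=
  ∃ (Q : Fin N → MvPolynomial (Fin d) ℂ) (h : α < N), (∀ a, Ini (H a) β.degree (Q a)) ∧
    Q ⟨α, h⟩ ≠ 0 ∧ (∀ a : Fin N, a.1 < α → Q a = 0) ∧ (mo d).degree (Q ⟨α, h⟩) = β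

/-- the leading exponent of one germ -/
def Ld1 {d : ℕ} (f : E d → ℂ) (β : Ex d) : Prop := Lead (fun _ : Fin 1 => f) 0 β

/-- the order on leading data -/
def key {d : ℕ} (α : ℕ) (β : Ex d) : ℕ ×ₗ ℕ ×ₗ (mo d).synᵒᵈ :=
  toLex (β.degree, toLex (α, OrderDual.toDual ((mo d).toSyn β)))

theorem key_inj {d : ℕ} {α α' : ℕ} {β β' : Ex d} (h : key α β = key α' β') : α = α' ∧ β = β' := by
  simp only [key, Prod.mk.injEq, EmbeddingLike.apply_eq_iff_eq] at h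
  exact h.2

theorem key_lt {d : ℕ} {α α' : ℕ} {β β' : Ex d} : key α β < key α' β' ↔ β.degree < β'.degree ∨
    (β.degree = β'.degree ∧ (α < α' ∨ (α = α' ∧ (mo d).toSyn β' < (mo d).toSyn β))) := by
  simp only [key, Prod.Lex.toLex_lt_toLex, OrderDual.toDual_lt_toDual]

/-- the potential -/
def Fz (d : ℕ) (K σ : ℝ) : ℝ := σ ^ d * min K σ - min K σ ^ (d + 1) / (d + 1)

namespace Loc
variable {n : ℕ} (L : Loc n)

/-- `s` has degree `m` and value larger than `a` -/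
def Gt (v : (E n → ℂ) → ℝ) (m : ℕ) (a : ℝ) (s : E n → ℂ) : Prop :=
  s ∈ L.V m ∧ (s = 0 ∨ a < v s)

/-- a parametrised piece of the centre of `v` -/
structure Arc (v : (E n → ℂ) → ℝ) {d : ℕ} (φ : E d → E n) : Prop where
  an : AnalyticAt ℂ φ 0
  mem : φ 0 ∈ ball (0 : E n) 2
  iff : ∀ m, ∀ g ∈ L.V m, L.Gt v m 0 g ↔ ∀ᶠ z in 𝓝 (0 : E d), g (φ z) = 0

/-- a family of value at least `a` that is independent in the graded piece of value `a` -/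
structure Frm (v : (E n → ℂ) → ℝ) (M : ℕ) (a : ℝ) {N : ℕ} (e : Fin N → E n → ℂ) : Prop where
  ge : ∀ α, L.Ge v M a (e α)
  ind : ∀ (k : ℕ) (h : Fin N → E n → ℂ), (∀ α, h α ∈ L.V k) →
    L.Gt v (k + M) a (∑ α, h α * e α) → ∀ α, L.Gt v k 0 (h α)

/-- the family generates the graded piece after multiplication by `g` -/
def Spn (v : (E n → ℂ) → ℝ) (M : ℕ) (a : ℝ) {N : ℕ} (e : Fin N → E n → ℂ) (k : ℕ)
    (g : E n → ℂ) : Prop := ∀ x, L.Ge v M a x → ∃ h : Fin N → E n → ℂ, (∀ α, h α ∈ L.V k) ∧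
      L.Gt v (k + M) a (g * x - ∑ α, h α * e α)

/-- the germs `H` are the coordinates of `s` in the family `e` -/
def Rep (v : (E n → ℂ) → ℝ) {d : ℕ} (φ : E d → E n) (M : ℕ) (a : ℝ) {N : ℕ}
    (e : Fin N → E n → ℂ) (m : ℕ) (s : E n → ℂ) (H : Fin N → E d → ℂ) : Prop :=
  (∀ α, AnalyticAt ℂ (H α) 0) ∧ ∃ (k₁ k₂ : ℕ) (g : E n → ℂ) (h : Fin N → E n → ℂ),
    k₁ + m = k₂ + M ∧ g ∈ L.V k₁ ∧ g (φ 0) ≠ 0 ∧ (∀ α, h α ∈ L.V k₂) ∧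
    L.Gt v (k₂ + M) a (g * s - ∑ α, h α * e α) ∧
    ∀ α, ∀ᶠ z in 𝓝 (0 : E d), H α z * g (φ z) = h α (φ z)

/-- value and leading data of a section -/
def LD (v : (E n → ℂ) → ℝ) {d : ℕ} (φ : E d → E n) (M : ℕ) {N : ℝ → ℕ}
    (e : ∀ a, Fin (N a) → E n → ℂ) (m : ℕ) (s : E n → ℂ) (t : ℝ × ℕ × Ex d) : Prop :=
  t.1 = v s ∧ ∃ H, L.Rep v φ M t.1 (e t.1) m s H ∧ Lead H t.2.1 t.2.2

end Loc

/-! ### Statements -/

/-- initial forms -/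
structure IniP (d : ℕ) : Prop where
  ex : ∀ (f : E d → ℂ) (u : ℕ), AnalyticAt ℂ f 0 → (f =O[𝓝 0] fun z : E d => ‖z‖ ^ u) →
    ∃ Q, Ini f u Q
  zero : ∀ (Q : MvPolynomial (Fin d) ℂ) (u : ℕ), Q.IsHomogeneous u →
    ((fun z => MvPolynomial.eval z Q) =O[𝓝 0] fun z : E d => ‖z‖ ^ (u + 1)) → Q = 0
  bd : ∀ (Q : MvPolynomial (Fin d) ℂ) (u : ℕ), Q.IsHomogeneous u →
    (fun z => MvPolynomial.eval z Q) =O[𝓝 0] fun z : E d => ‖z‖ ^ u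
  flat : ∀ f : E d → ℂ, AnalyticAt ℂ f 0 → (∀ u : ℕ, f =O[𝓝 0] fun z : E d => ‖z‖ ^ u) →
    ∀ᶠ z in 𝓝 (0 : E d), f z = 0

def IniS : Prop := ∀ d, IniP d

/-- leading data -/
structure LeadP (d N : ℕ) : Prop where
  ex : ∀ H : Fin N → E d → ℂ, (∀ a, AnalyticAt ℂ (H a) 0) →
    (¬ ∀ a, ∀ᶠ z in 𝓝 (0 : E d), H a z = 0) → ∃ α β, Lead H α β
  congr : ∀ {H H' : Fin N → E d → ℂ} {α : ℕ} {β : Ex d}, (∀ a, H a =ᶠ[𝓝 0] H' a) →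
    Lead H α β → Lead H' α β
  uniq : ∀ {H : Fin N → E d → ℂ} {α α' : ℕ} {β β' : Ex d}, Lead H α β → Lead H α' β' →
    α = α' ∧ β = β'
  ne : ∀ {H : Fin N → E d → ℂ} {α : ℕ} {β : Ex d}, Lead H α β →
    ¬ ∀ a, ∀ᶠ z in 𝓝 (0 : E d), H a z = 0
  smul : ∀ {H : Fin N → E d → ℂ} {α : ℕ} {β : Ex d} {c : ℂ}, c ≠ 0 → Lead H α β →
    Lead (c • H) α β
  add : ∀ {H H' : Fin N → E d → ℂ} {α α' α'' : ℕ} {β β' β'' : Ex d}, Lead H α β →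
    Lead H' α' β' → Lead (H + H') α'' β'' → min (key α β) (key α' β') ≤ key α'' β''
  leaf : ∀ {H H' : Fin N → E d → ℂ} {α : ℕ} {β : Ex d}, Lead H α β → Lead H' α β →
    ∃ c : ℂ, ∀ α' β', Lead (H - c • H') α' β' → key α β < key α' β'
  mul : ∀ {w : E d → ℂ} {H : Fin N → E d → ℂ} {α : ℕ} {β β' : Ex d}, Ld1 w β' → Lead H α β →
    Lead (fun a z => w z * H a z) α (β + β')
  bd : ∀ {H : Fin N → E d → ℂ} {α : ℕ} {β : Ex d}, Lead H α β →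
    ∀ a, H a =O[𝓝 0] fun z : E d => ‖z‖ ^ β.degree
  mono : ∀ β : Ex d, Ld1 (fun z : E d => ∏ i, z i ^ β i) β

def LeadS : Prop := ∀ d N, LeadP d N

/-- a valuation-like relation on a space -/
structure VRel {Y T Λ : Type} [AddCommGroup Y] [Module ℂ Y] [LinearOrder Λ] (W : Submodule ℂ Y)
    (R : Y → T → Prop) (κ : T → Λ) : Prop where
  inj : Function.Injective κ
  ex : ∀ s ∈ W, s ≠ 0 → ∃ t, R s t
  uniq : ∀ s ∈ W, s ≠ 0 → ∀ t t', R s t → R s t' → t = t'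
  smul : ∀ s ∈ W, s ≠ 0 → ∀ (c : ℂ) t, c ≠ 0 → R s t → R (c • s) t
  add : ∀ s ∈ W, ∀ s' ∈ W, s ≠ 0 → s' ≠ 0 → s + s' ≠ 0 → ∀ t t' t'', R s t → R s' t' →
    R (s + s') t'' → min (κ t) (κ t') ≤ κ t''

/-- adapted bases -/
def EAdaptS : Prop := ∀ (Y T Λ : Type) [AddCommGroup Y] [Module ℂ Y] [LinearOrder Λ]
  (W : Submodule ℂ Y) (R : Y → T → Prop) (κ : T → Λ), FiniteDimensional ℂ W → VRel W R κ →
  {t | ∃ s ∈ W, s ≠ 0 ∧ R s t}.Finite ∧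
  ((∀ s ∈ W, ∀ s' ∈ W, s ≠ 0 → s' ≠ 0 → ∀ t, R s t → R s' t →
      ∃ c : ℂ, s - c • s' = 0 ∨ ∀ t', R (s - c • s') t' → κ t < κ t') →
    ∃ (s : Fin (Module.finrank ℂ W) → Y) (τ : Fin (Module.finrank ℂ W) → T),
      Function.Injective τ ∧ (∀ i, s i ∈ W ∧ s i ≠ 0 ∧ R (s i) (τ i)) ∧ LinearIndependent ℂ s ∧
      (∀ (c : Fin (Module.finrank ℂ W) → ℂ) i, c i ≠ 0 → ∀ t, R (∑ j, c j • s j) t →
        κ t ≤ κ (τ i)) ∧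
      ∀ s' ∈ W, s' ≠ 0 → ∀ t, R s' t → ∃ i, τ i = t)

/-- the discrete Brunn-Minkowski inequality -/
def BMS : Prop := ∀ (d : ℕ) (A B C : Finset (Ex d)), 1 ≤ d → A.Nonempty → B.Nonempty →
  (∀ a ∈ A, ∀ b ∈ B, ∀ ε : Ex d, (∀ i, ε i ≤ 1) → a + b + ε ∈ C) →
  (A.card : ℝ) ^ (1 / d : ℝ) + (B.card : ℝ) ^ (1 / d : ℝ) ≤ (C.card : ℝ) ^ (1 / d : ℝ)

/-- growth of the potential -/
def EPsiS : Prop := ∀ (d : ℕ) (K K' σ σ' ρ : ℝ), 1 ≤ d → 0 ≤ K → 0 ≤ σ → 0 ≤ ρ →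
  K + d * ρ ≤ K' → σ + ρ ≤ σ' → 0 ≤ Fz d K σ ∧ Fz d K σ + d * ρ * σ ^ d ≤ Fz d K' σ'

/-- counting lattice points -/
def LatS : Prop := ∀ (d : ℕ) (A : Finset (Ex d)) (κ : ℝ), 0 ≤ κ →
  ∑ b ∈ A, max (κ - b.degree) 0 ≤ (κ + d) ^ (d + 1) / (d + 1).factorial

/-- the function `U` -/
def CountS : Prop := ∀ (d q M : ℕ) (ρ : ℝ) (Λ : ℕ → Finset (ℝ × ℕ × Ex d)) (B : Set (Ex d)),
  1 ≤ d → 0 ≤ ρ → ρ ≤ q →
  (∀ m, 1 ≤ m → m + q ≤ M → ∀ t ∈ Λ m, ∀ b ∈ B, (t.1, t.2.1, t.2.2 + b) ∈ Λ (m + q)) →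
  (∀ A C : Finset (Ex d), A.Nonempty → (∀ a ∈ A, ∀ b ∈ B, a + b ∈ C) →
    (A.card : ℝ) ^ (1 / d : ℝ) + ρ / (d.factorial : ℝ) ^ (1 / d : ℝ)
      ≤ (C.card : ℝ) ^ (1 / d : ℝ)) →
  ∃ U : ℕ → ℝ, (∀ m, 0 ≤ U m) ∧
    (∀ m, 1 ≤ m → m + q ≤ M → U m + d * ρ * ∑ t ∈ Λ m, Real.exp (-t.1) ≤ U (m + q)) ∧
    ∀ m, U m - d * ∑ t ∈ Λ m, Real.exp (-t.1) ≤
      ∑ t ∈ Λ m, Real.exp (-t.1) * min (t.2.2.degree : ℝ) (d * m)

/-- finitely many values, frames -/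
def FrameS : Prop := ∀ (n : ℕ) (L : Loc n) (v : (E n → ℂ) → ℝ), L.IsVal v →
  (∀ K : ℕ, {a | ∃ m ≤ K, ∃ s ∈ L.V m, s ≠ 0 ∧ v s = a}.Finite) ∧
  (∀ K : ℕ, ∃ γ : ℝ, 0 < γ ∧ ∀ m ≤ K, ∀ m' ≤ K, ∀ s ∈ L.V m, ∀ s' ∈ L.V m', s ≠ 0 → s' ≠ 0 →
    v s < v s' → v s + γ ≤ v s') ∧
  ∀ (M : ℕ) (a : ℝ), ∃ (N : ℕ) (e : Fin N → E n → ℂ) (k : ℕ) (g : E n → ℂ),
    L.Frm v M a e ∧ g ∈ L.V k ∧ g ≠ 0 ∧ v g = 0 ∧ L.Spn v M a e k g

/-- coordinates in a frame -/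
structure RepP {n d N : ℕ} (L : Loc n) (v : (E n → ℂ) → ℝ) (φ : E d → E n) (M : ℕ) (a : ℝ)
    (e : Fin N → E n → ℂ) : Prop where
  uniq : ∀ {m : ℕ} {s : E n → ℂ} {H H' : Fin N → E d → ℂ}, s ∈ L.V m → L.Rep v φ M a e m s H →
    L.Rep v φ M a e m s H' → ∀ α, H α =ᶠ[𝓝 0] H' α
  add : ∀ {m : ℕ} {s s' : E n → ℂ} {H H' : Fin N → E d → ℂ}, L.Rep v φ M a e m s H →
    L.Rep v φ M a e m s' H' → L.Rep v φ M a e m (s + s') (H + H')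
  smul : ∀ {m : ℕ} {s : E n → ℂ} {H : Fin N → E d → ℂ} (c : ℂ), L.Rep v φ M a e m s H →
    L.Rep v φ M a e m (c • s) (c • H)
  mul : ∀ {m q : ℕ} {s w : E n → ℂ} {H : Fin N → E d → ℂ}, w ∈ L.V q → L.Rep v φ M a e m s H →
    L.Rep v φ M a e (m + q) (w * s) fun α z => w (φ z) * H α z
  zero : ∀ {m : ℕ} {s : E n → ℂ} {H : Fin N → E d → ℂ}, s ∈ L.V m → L.Rep v φ M a e m s H →
    (L.Gt v m a s ↔ ∀ α, ∀ᶠ z in 𝓝 (0 : E d), H α z = 0)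
  add_gt : ∀ {m : ℕ} {s s' : E n → ℂ} {H : Fin N → E d → ℂ}, L.Rep v φ M a e m s H →
    L.Gt v m a s' → L.Rep v φ M a e m (s + s') H
  ex : ∀ {m k k' : ℕ} {s g b : E n → ℂ}, L.Spn v M a e k g → g ∈ L.V k → g (φ 0) ≠ 0 →
    b ∈ L.V k' → b (φ 0) ≠ 0 → k' + m = M → L.Ge v m a s →
    ∃ (H : Fin N → E d → ℂ) (h : Fin N → E n → ℂ), L.Rep v φ M a e m s H ∧ (∀ α, h α ∈ L.V k) ∧
      L.Gt v (k + M) a (g * b * s - ∑ α, h α * e α) ∧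
      ∀ α, ∀ᶠ z in 𝓝 (0 : E d), H α z * (g * b) (φ z) = h α (φ z)

def RepS : Prop := ∀ (n d N : ℕ) (L : Loc n) (v : (E n → ℂ) → ℝ) (φ : E d → E n) (M : ℕ) (a : ℝ)
  (e : Fin N → E n → ℂ), L.IsVal v → L.Arc v φ → L.Frm v M a e → RepP L v φ M a e

/-- leading exponents of spaces of sections, and the growth of sumsets -/
def CubeS : Prop := ∀ (n d : ℕ) (L : Loc n) (φ : E d → E n), AnalyticAt ℂ φ 0 →
  φ 0 ∈ ball (0 : E n) 2 →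
  (∀ (k : ℕ) (U : Submodule ℂ (E n → ℂ)), U ≤ L.V k →
    (∀ s ∈ U, s ≠ 0 → ¬ ∀ᶠ z in 𝓝 (0 : E d), s (φ z) = 0) →
    ∃ A : Finset (Ex d), A.card = Module.finrank ℂ U ∧
      ∀ β, β ∈ A ↔ ∃ s ∈ U, Ld1 (fun z => s (φ z)) β) ∧
  ∀ (q k r : ℕ) (c : Fin d → E n → ℂ) (U : Submodule ℂ (E n → ℂ)), 1 ≤ d → d ≤ r →
    (1 : E n → ℂ) ∈ L.V q → (∀ i, c i ∈ L.V q) → (∀ᶠ z in 𝓝 (0 : E d), ∀ i, c i (φ z) = z i) →
    U ≤ L.V k → U ≠ ⊥ → (∀ s ∈ U, s ≠ 0 → ¬ ∀ᶠ z in 𝓝 (0 : E d), s (φ z) = 0) →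
    ∀ A C : Finset (Ex d), A.Nonempty →
      (∀ a ∈ A, ∀ b, (∃ w ∈ L.V (k + r * q), Ld1 (fun z => w (φ z)) b) → a + b ∈ C) →
      (A.card : ℝ) ^ (1 / d : ℝ) + (Module.finrank ℂ U : ℝ) ^ (1 / d : ℝ)
        ≤ (C.card : ℝ) ^ (1 / d : ℝ)

/-- numerical consequences of the two sided bound for the Hilbert function -/
def ENumS : Prop := ∀ (h : ℕ → ℕ) (n q D c : ℕ), 1 ≤ n → 1 ≤ q → q ^ n ≤ D →
  (∀ᶠ m in atTop, D * (m / q - c) ^ n ≤ n.factorial * h m ∧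
    n.factorial * h m ≤ D * (m / q + c) ^ n) → ∀ η : ℝ, 0 < η →
  (∀ᶠ m : ℕ in atTop, (1 - η) * (m : ℝ) ^ n / n.factorial ≤ h m) ∧
  ∃ k : ℕ, 1 ≤ h k ∧ ∀ᶠ m : ℕ in atTop,
    (h (m + (k + n * q)) : ℝ) ≤ (1 + (1 + η) * n * (k + n * q : ℕ) / m) * h m ∧
    (1 - η) * (k + n * q : ℕ) / m * (h m : ℝ) ^ (1 / n : ℝ) ≤ (h k : ℝ) ^ (1 / n : ℝ)

/-- bases adapted to the value and the leading data -/
def LDS : Prop := ∀ (n d : ℕ) (L : Loc n) (v : (E n → ℂ) → ℝ) (φ : E d → E n) (M : ℕ)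
  (N : ℝ → ℕ) (e : ∀ a, Fin (N a) → E n → ℂ) (m : ℕ), L.IsVal v → L.Arc v φ →
  (∀ a, L.Frm v M a (e a)) →
  (∀ s ∈ L.V m, s ≠ 0 → ∃ H, L.Rep v φ M (v s) (e (v s)) m s H) →
  ∃ (s : Fin (L.h m) → E n → ℂ) (τ : Fin (L.h m) → ℝ × ℕ × Ex d), Function.Injective τ ∧
    (∀ i, s i ∈ L.V m ∧ s i ≠ 0 ∧ L.LD v φ M e m (s i) (τ i)) ∧ LinearIndependent ℂ s ∧
    (∀ (c : Fin (L.h m) → ℂ) i, c i ≠ 0 → v (∑ j, c j • s j) ≤ v (s i)) ∧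
    ∀ s' ∈ L.V m, s' ≠ 0 → ∀ t, L.LD v φ M e m s' t → ∃ i, τ i = t

/-- the pointwise bound -/
def BoundS : Prop := ∀ (n d e' k N M k₁ k₂ u : ℕ) (L : Loc n) (v : (E n → ℂ) → ℝ)
  (t : Fin d → E n → ℂ) (y : E n) (B : L.Br v d e' k t y) (e h : Fin N → E n → ℂ)
  (H : Fin N → E d → ℂ) (a γ : ℝ) (s g : E n → ℂ), L.IsVal v → y ∈ ball (0 : E n) 2 → 1 ≤ M →
  (∀ α, L.Ge v M a (e α)) → g ∈ L.V k₁ → g y ≠ 0 → (∀ α, h α ∈ L.V k₂) →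
  L.Ge v (k₂ + M) (a + γ) (g * s - ∑ α, h α * e α) → (∀ j, γ ≤ v (B.w j)) →
  (∀ α, ∀ᶠ z in 𝓝 (0 : E d), H α z * g (B.Φ (z, 0)) = h α (B.Φ (z, 0))) →
  (∀ α, H α =O[𝓝 0] fun z : E d => ‖z‖ ^ u) →
  ∃ (C : ℝ) (J : ℕ) (κ κ' : Fin J → ℕ) (f r : Fin J → E n → ℂ),
    (∀ j, 1 ≤ κ j ∧ L.Ge v (κ j) a (f j)) ∧ (∀ j, 1 ≤ κ' j ∧ L.Ge v (κ' j) (a + γ) (r j)) ∧
    ∀ᶠ p in 𝓝 (0 : E d × E e'), ‖s (B.Φ p)‖ ≤
      C * (‖p.1‖ ^ u * ∑ j, ‖f j (B.Φ p)‖ + ∑ j, ‖r j (B.Φ p)‖)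

/-- the perturbation data -/
def PertS : Prop := PartD → ∀ (n : ℕ) (L : Loc n) (q : ℕ), L.Alg q →
  ∀ η : ℝ, 0 < η → ∃ q : ℕ, 1 ≤ q ∧ ∀ v, L.IsVal v → ∃ d e : ℕ, 1 ≤ d ∧
    ∀ M : ℕ, ∃ γ : ℝ, 0 < γ ∧ ∀ r : ℝ, 0 < r →
      ∃ y ∈ ball (0 : E n) r, Nonempty (L.Pert v η q d e M γ y)

/-! ### Elementary facts -/

namespace Loc
variable {n : ℕ} {L : Loc n} {v : (E n → ℂ) → ℝ} {m m' : ℕ} {a a' : ℝ} {s s' : E n → ℂ}

theorem germ_ne (hs : s ∈ L.V m) (h0 : s ≠ 0) {y : E n} (hy : y ∈ ball (0 : E n) 2) :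
    ¬ ∀ᶠ z in 𝓝 y, s z = 0 := fun h => h0 (L.inj hs
  ((L.an hs).eqOn_zero_of_preconnected_of_eventuallyEq_zero (convex_ball _ _).isPreconnected hy h))

theorem mul_ne (hs : s ∈ L.V m) (hs' : s' ∈ L.V m') (h0 : s ≠ 0) (h0' : s' ≠ 0) : s * s' ≠ 0 := by
  intro h
  obtain ⟨p, hp, hp'⟩ : ∃ p ∈ ball (0 : E n) 2, s p ≠ 0 := by
    by_contra k
    exact h0 (L.inj hs fun p hp => not_not.1 fun k' => k ⟨p, hp, k'⟩)
  refine germ_ne hs' h0' hp (((L.an hs p hp).continuousAt.eventually_ne hp').mono fun z hz => ?_)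
  exact (mul_eq_zero.1 (congrFun h z)).resolve_left hz

theorem an_comp {d : ℕ} {φ : E d → E n} (hφ : AnalyticAt ℂ φ 0) (h2 : φ 0 ∈ ball (0 : E n) 2)
    (hs : s ∈ L.V m) : AnalyticAt ℂ (fun z => s (φ z)) 0 := (L.an hs _ h2).comp hφ

theorem e_pow_mem (hs : s ∈ L.V m) (k : ℕ) : s ^ k ∈ L.V (k * m) := by
  induction k with
  | zero => simpa using L.one
  | succ k ih => rw [pow_succ, Nat.succ_mul]; exact L.mul ih hs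

theorem e_prod_mem {ι : Type*} (S : Finset ι) {g : ι → E n → ℂ} {k : ι → ℕ}
    (h : ∀ i ∈ S, g i ∈ L.V (k i)) : ∏ i ∈ S, g i ∈ L.V (∑ i ∈ S, k i) := by
  classical
  induction S using Finset.induction_on with
  | empty => simpa using L.one
  | insert i S hi ih =>
    rw [Finset.prod_insert hi, Finset.sum_insert hi]
    exact L.mul (h i (Finset.mem_insert_self _ _)) (ih fun j hj => h j (Finset.mem_insert_of_mem hj))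

theorem Gt.ge (h : L.Gt v m a s) : L.Ge v m a s := ⟨h.1, h.2.imp id le_of_lt⟩

theorem Ge.zero : L.Ge v m a 0 := ⟨zero_mem _, Or.inl rfl⟩

theorem Gt.zero : L.Gt v m a 0 := ⟨zero_mem _, Or.inl rfl⟩

theorem Ge.self (hs : s ∈ L.V m) : L.Ge v m (v s) s := ⟨hs, Or.inr le_rfl⟩

variable (hv : L.IsVal v)
include hv

theorem IsVal.one : v 1 = 0 := hv.cen L.one one_ne_zero

theorem IsVal.ge0 (hs : s ∈ L.V m) : L.Ge v m 0 s :=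
  ⟨hs, or_iff_not_imp_left.2 fun h => hv.nonneg hs h⟩

theorem IsVal.ge_add (h : L.Ge v m a s) (h' : L.Ge v m a s') : L.Ge v m a (s + s') := by
  refine ⟨add_mem h.1 h'.1, or_iff_not_imp_left.2 fun k => ?_⟩
  by_cases h1 : s = 0
  · subst h1
    rw [zero_add] at k ⊢
    exact h'.2.resolve_left k
  by_cases h2 : s' = 0
  · subst h2
    rw [add_zero]
    exact h.2.resolve_left h1
  exact (le_min (h.2.resolve_left h1) (h'.2.resolve_left h2)).trans (hv.add h.1 h'.1 h1 h2 k)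

theorem IsVal.gt_add (h : L.Gt v m a s) (h' : L.Gt v m a s') : L.Gt v m a (s + s') := by
  refine ⟨add_mem h.1 h'.1, or_iff_not_imp_left.2 fun k => ?_⟩
  by_cases h1 : s = 0
  · subst h1
    rw [zero_add] at k ⊢
    exact h'.2.resolve_left k
  by_cases h2 : s' = 0
  · subst h2
    rw [add_zero]
    exact h.2.resolve_left h1
  exact (lt_min (h.2.resolve_left h1) (h'.2.resolve_left h2)).trans_le (hv.add h.1 h'.1 h1 h2 k)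

theorem IsVal.ge_smul (c : ℂ) (h : L.Ge v m a s) : L.Ge v m a (c • s) := by
  by_cases hc : c = 0
  · rw [hc, zero_smul]
    exact Ge.zero
  · exact ⟨Submodule.smul_mem _ c h.1,
      h.2.imp (fun k => by rw [k, smul_zero]) fun k => by rwa [hv.smul h.1 hc]⟩

theorem IsVal.gt_smul (c : ℂ) (h : L.Gt v m a s) : L.Gt v m a (c • s) := by
  by_cases hc : c = 0
  · rw [hc, zero_smul]
    exact Gt.zero
  · exact ⟨Submodule.smul_mem _ c h.1,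
      h.2.imp (fun k => by rw [k, smul_zero]) fun k => by rwa [hv.smul h.1 hc]⟩

theorem IsVal.ge_sub (h : L.Ge v m a s) (h' : L.Ge v m a s') : L.Ge v m a (s - s') := by
  simpa only [neg_one_smul, ← sub_eq_add_neg] using hv.ge_add h (hv.ge_smul (-1) h')

theorem IsVal.gt_sub (h : L.Gt v m a s) (h' : L.Gt v m a s') : L.Gt v m a (s - s') := by
  simpa only [neg_one_smul, ← sub_eq_add_neg] using hv.gt_add h (hv.gt_smul (-1) h')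

theorem IsVal.ge_sum {ι : Type*} (S : Finset ι) {g : ι → E n → ℂ}
    (h : ∀ i ∈ S, L.Ge v m a (g i)) : L.Ge v m a (∑ i ∈ S, g i) :=
  Finset.sum_induction _ _ (fun _ _ => hv.ge_add) Ge.zero h

theorem IsVal.gt_sum {ι : Type*} (S : Finset ι) {g : ι → E n → ℂ}
    (h : ∀ i ∈ S, L.Gt v m a (g i)) : L.Gt v m a (∑ i ∈ S, g i) :=
  Finset.sum_induction _ _ (fun _ _ => hv.gt_add) Gt.zero h

theorem IsVal.ge_mul (h : L.Ge v m a s) (h' : L.Ge v m' a' s') :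
    L.Ge v (m + m') (a + a') (s * s') := by
  refine ⟨L.mul h.1 h'.1, or_iff_not_imp_left.2 fun k => ?_⟩
  have h1 := left_ne_zero_of_mul k
  have h2 := right_ne_zero_of_mul k
  rw [hv.mul h.1 h'.1 h1 h2]
  exact add_le_add (h.2.resolve_left h1) (h'.2.resolve_left h2)

theorem IsVal.gt_mul (h : L.Gt v m a s) (h' : L.Ge v m' a' s') :
    L.Gt v (m + m') (a + a') (s * s') := by
  refine ⟨L.mul h.1 h'.1, or_iff_not_imp_left.2 fun k => ?_⟩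
  have h1 := left_ne_zero_of_mul k
  have h2 := right_ne_zero_of_mul k
  rw [hv.mul h.1 h'.1 h1 h2]
  exact add_lt_add_of_lt_of_le (h.2.resolve_left h1) (h'.2.resolve_left h2)

theorem IsVal.mul_gt (hs : s ∈ L.V m) (h' : L.Gt v m' a s') : L.Gt v (m + m') a (s * s') := by
  have := hv.gt_mul h' (hv.ge0 hs)
  rwa [add_zero, add_comm m', mul_comm] at this

theorem IsVal.mul_ge (hs : s ∈ L.V m) (h' : L.Ge v m' a s') : L.Ge v (m + m') a (s * s') := by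
  have := hv.ge_mul (hv.ge0 hs) h'
  rwa [zero_add] at this

/-- cancelling a factor of value zero -/
theorem IsVal.gt_cancel (hs : s ∈ L.V m) (h0 : s ≠ 0) (h1 : v s = 0) (hs' : s' ∈ L.V m') {k : ℕ}
    (h : L.Gt v k a (s * s')) : L.Gt v m' a s' := by
  refine ⟨hs', or_iff_not_imp_left.2 fun k => ?_⟩
  have := h.2.resolve_left (mul_ne hs hs' h0 k)
  rwa [hv.mul hs hs' h0 k, h1, zero_add] at this

theorem IsVal.prod_zero {ι : Type*} (S : Finset ι) {g : ι → E n → ℂ} {k : ι → ℕ}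
    (h : ∀ i ∈ S, g i ∈ L.V (k i) ∧ g i ≠ 0 ∧ v (g i) = 0) :
    ∏ i ∈ S, g i ≠ 0 ∧ v (∏ i ∈ S, g i) = 0 := by
  classical
  induction S using Finset.induction_on with
  | empty => exact ⟨one_ne_zero, hv.one⟩
  | insert i S hi ih =>
    have h1 := h i (Finset.mem_insert_self _ _)
    have h2 := ih fun j hj => h j (Finset.mem_insert_of_mem hj)
    have h3 := e_prod_mem S fun j hj => (h j (Finset.mem_insert_of_mem hj)).1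
    rw [Finset.prod_insert hi, hv.mul h1.1 h3 h1.2.1 h2.1, h1.2.2, h2.2, add_zero]
    exact ⟨mul_ne h1.1 h3 h1.2.1 h2.1, rfl⟩

/-- a section that does not vanish at the base point of an arc has value zero -/
theorem IsVal.arc_zero {d : ℕ} {φ : E d → E n} (hφ : L.Arc v φ) (hs : s ∈ L.V m)
    (h : s (φ 0) ≠ 0) : s ≠ 0 ∧ v s = 0 := by
  have h0 : s ≠ 0 := fun k => h (by rw [k]; rfl)
  refine ⟨h0, le_antisymm (not_lt.1 fun k => h ?_) (hv.nonneg hs h0)⟩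
  exact ((hφ.iff m s hs).1 ⟨hs, Or.inr k⟩).self_of_nhds

end Loc

end Fuj
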