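import Vale.Agent.P271.EDefs

open MeasureTheory Set Filter Topology Metric Asymptotics

noncomputable section
namespace Fuj

theorem eFrame_gap {S : Set ℝ} (hS : S.Finite) :
    ∃ γ : ℝ, 0 < γ ∧ ∀ x ∈ S, ∀ y ∈ S, x < y → x + γ ≤ y := by
  have hT : {p ∈ S ×ˢ S | p.1 < p.2}.Finite := (hS.prod hS).subset (sep_subset _ _)
  rcases {p ∈ S ×ˢ S | p.1 < p.2}.eq_empty_or_nonempty with h | h
  · refine ⟨1, one_pos, fun x hx y hy hxy => ?_⟩
    have : (x, y) ∈ {p ∈ S ×ˢ S | p.1 < p.2} := ⟨⟨hx, hy⟩, hxy⟩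
    rw [h] at this
    exact this.elim
  · obtain ⟨p, hp, hm⟩ := Set.exists_min_image _ (fun p : ℝ × ℝ => p.2 - p.1) hT h
    refine ⟨p.2 - p.1, sub_pos.2 hp.2, fun x hx y hy hxy => ?_⟩
    have := hm (x, y) ⟨⟨hx, hy⟩, hxy⟩
    simp only at this
    linarith

section
variable {n : ℕ} {L : Loc n} {v : (E n → ℂ) → ℝ} {M N : ℕ} {a : ℝ} {e : Fin N → E n → ℂ}

theorem eFrame_le (hv : L.IsVal v) (hF : L.Frm v M a e) : N ≤ L.h M := by
  have h1 : LinearIndependent ℂ e := by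
    refine Fintype.linearIndependent_iff.2 fun c hc α => ?_
    have h2 := hF.ind 0 (fun α => c α • (1 : E n → ℂ)) (fun α => Submodule.smul_mem _ _ L.one)
      (by
        simp only [smul_mul_assoc, one_mul]
        rw [hc]
        exact Loc.Gt.zero) α
    by_contra k
    rcases h2.2 with h3 | h3
    · exact one_ne_zero ((smul_eq_zero.1 h3).resolve_left k)
    · rw [hv.smul L.one k, hv.one] at h3
      exact lt_irrefl _ h3
  have h2 : LinearIndependent ℂ fun α => (⟨e α, (hF.ge α).1⟩ : L.V M) :=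
    LinearIndependent.of_comp (L.V M).subtype h1
  have := L.fd M
  simpa [Loc.h] using h2.fintype_card_le_finrank

/-- the multiple `g * x` is generated -/
def eFrameSp (L : Loc n) (v : (E n → ℂ) → ℝ) (M : ℕ) (a : ℝ) (e : Fin N → E n → ℂ) (k : ℕ)
    (g x : E n → ℂ) : Prop := ∃ h : Fin N → E n → ℂ, (∀ α, h α ∈ L.V k) ∧
      L.Gt v (k + M) a (g * x - ∑ α, h α * e α)

theorem eFrame_mul (hv : L.IsVal v) {k k' : ℕ} {g g' x : E n → ℂ} (hg : g' ∈ L.V k')
    (h : eFrameSp L v M a e k g x) : eFrameSp L v M a e (k' + k) (g' * g) x := by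
  obtain ⟨h, h1, h2⟩ := h
  refine ⟨fun α => g' * h α, fun α => L.mul hg (h1 α), ?_⟩
  have h3 := hv.mul_gt hg h2
  have e3 : g' * (g * x - ∑ α, h α * e α) = g' * g * x - ∑ α, g' * h α * e α := by
    simp only [mul_sub, Finset.mul_sum, mul_assoc]
  rwa [e3, ← add_assoc] at h3

theorem eFrame_one (hv : L.IsVal v) (hF : L.Frm v M a e)
    (hN : ¬ ∃ e' : Fin (N + 1) → E n → ℂ, L.Frm v M a e') {x : E n → ℂ} (hx : L.Ge v M a x) :
    ∃ k g, g ∈ L.V k ∧ g ≠ 0 ∧ v g = 0 ∧ eFrameSp L v M a e k g x := by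
  by_contra hcon
  refine hN ⟨Fin.cons x e, fun α => Fin.cases hx hF.ge α, fun k h hh hG => ?_⟩
  simp only [Fin.sum_univ_succ, Fin.cons_zero, Fin.cons_succ] at hG
  have h0 : L.Gt v k 0 (h 0) := by
    by_contra k0
    have k1 : h 0 ≠ 0 := fun k1 => k0 (k1 ▸ Loc.Gt.zero)
    refine hcon ⟨k, h 0, hh 0, k1, le_antisymm (not_lt.1 fun k2 => k0 ⟨hh 0, Or.inr k2⟩)
      (hv.nonneg (hh 0) k1), fun α => -h α.succ, fun α => neg_mem (hh _), ?_⟩
    simpa only [neg_mul, Finset.sum_neg_distrib, sub_neg_eq_add] using hG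
  have h1 := hv.gt_mul h0 hx
  rw [zero_add] at h1
  have h2 := hv.gt_sub hG h1
  rw [add_sub_cancel_left] at h2
  exact fun α => Fin.cases h0 (hF.ind k (fun α => h α.succ) (fun α => hh _) h2) α

theorem eFrame_fin (hv : L.IsVal v) (hF : L.Frm v M a e)
    (hN : ¬ ∃ e' : Fin (N + 1) → E n → ℂ, L.Frm v M a e') (S : Finset (E n → ℂ))
    (hS : ∀ x ∈ S, L.Ge v M a x) :
    ∃ k g, g ∈ L.V k ∧ g ≠ 0 ∧ v g = 0 ∧ ∀ x ∈ S, eFrameSp L v M a e k g x := by
  classical
  induction S using Finset.induction_on with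
  | empty => exact ⟨0, 1, L.one, one_ne_zero, hv.one, by simp⟩
  | insert y S _ ih =>
    obtain ⟨k, g, g1, g2, g3, g4⟩ := ih fun x hx => hS x (Finset.mem_insert_of_mem hx)
    obtain ⟨k', g', f1, f2, f3, f4⟩ := eFrame_one hv hF hN (hS y (Finset.mem_insert_self _ _))
    refine ⟨k' + k, g' * g, L.mul f1 g1, Loc.mul_ne f1 g1 f2 g2, by
      rw [hv.mul f1 g1 f2 g2, f3, g3, add_zero], fun x hx => ?_⟩
    rcases Finset.mem_insert.1 hx with rfl | hx
    · rw [add_comm, mul_comm]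
      exact eFrame_mul hv g1 f4
    · exact eFrame_mul hv f1 (g4 x hx)

end

theorem s_Frame (hA : EAdaptS) : FrameS := by
  intro n L v hv
  have h1 : ∀ K : ℕ, {a | ∃ m ≤ K, ∃ s ∈ L.V m, s ≠ 0 ∧ v s = a}.Finite := fun K => by
    have h0 : ∀ m, {a | ∃ s ∈ L.V m, s ≠ 0 ∧ v s = a}.Finite := fun m =>
      (hA (E n → ℂ) ℝ ℝ (L.V m) (fun s t => v s = t) id (L.fd m)
        ⟨Function.injective_id, fun s _ _ => ⟨_, rfl⟩, fun s _ _ t t' k k' => k ▸ k',
          fun s hs _ c t hc k => k ▸ hv.smul hs hc,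
          fun s hs s' hs' k k' k'' t t' t'' e e' e'' => by
            subst e e' e''
            exact hv.add hs hs' k k' k''⟩).1
    refine ((Set.finite_le_nat K).biUnion fun m _ => h0 m).subset ?_
    rintro a ⟨m, hm, h⟩
    exact mem_biUnion hm h
  refine ⟨h1, fun K => ?_, fun M a => ?_⟩
  · obtain ⟨γ, g0, hγ⟩ := eFrame_gap (h1 K)
    exact ⟨γ, g0, fun m hm m' hm' s hs s' hs' k k' =>
      hγ _ ⟨m, hm, s, hs, k, rfl⟩ _ ⟨m', hm', s', hs', k', rfl⟩⟩
  · obtain ⟨N, ⟨e, hF⟩, hN⟩ : ∃ N, (∃ e : Fin N → E n → ℂ, L.Frm v M a e) ∧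
        ¬ ∃ e : Fin (N + 1) → E n → ℂ, L.Frm v M a e := by
      by_contra hcon
      have : ∀ N, ∃ e : Fin N → E n → ℂ, L.Frm v M a e := fun N => by
        induction N with
        | zero => exact ⟨fun _ => 0, fun α => α.elim0, fun _ _ _ _ α => α.elim0⟩
        | succ N ih => exact not_not.1 fun k => hcon ⟨N, ih, k⟩
      obtain ⟨e, he⟩ := this (L.h M + 1)
      have := eFrame_le hv he
      omega
    let W : Submodule ℂ (E n → ℂ) :=
      { carrier := {x | L.Ge v M a x}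
        add_mem' := hv.ge_add
        zero_mem' := Loc.Ge.zero
        smul_mem' := fun c _ hx => hv.ge_smul c hx }
    have hW : W ≤ L.V M := fun x hx => hx.1
    have := L.fd M
    have := Submodule.finiteDimensional_of_le hW
    obtain ⟨S, hS⟩ : W.FG := Module.Finite.iff_fg.1 this
    obtain ⟨k, g, g1, g2, g3, g4⟩ := eFrame_fin hv hF hN S fun x hx => by
      have : x ∈ W := hS ▸ Submodule.subset_span hx
      exact this
    refine ⟨N, e, k, g, hF, g1, g2, g3, fun x hx => ?_⟩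
    have hx' : x ∈ Submodule.span ℂ (S : Set (E n → ℂ)) := hS ▸ hx
    clear hx
    induction hx' using Submodule.span_induction with
    | mem x hx => exact g4 x hx
    | zero => exact ⟨0, fun _ => zero_mem _, by simpa using Loc.Gt.zero⟩
    | add x y _ _ hx hy =>
      obtain ⟨h, a1, a2⟩ := hx
      obtain ⟨h', b1, b2⟩ := hy
      refine ⟨fun α => h α + h' α, fun α => add_mem (a1 α) (b1 α), ?_⟩
      have h3 := hv.gt_add a2 b2
      have e3 : g * x - ∑ α, h α * e α + (g * y - ∑ α, h' α * e α) =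
          g * (x + y) - ∑ α, (h α + h' α) * e α := by
        simp only [add_mul, Finset.sum_add_distrib]
        ring
      rwa [e3] at h3
    | smul c x _ hx =>
      obtain ⟨h, a1, a2⟩ := hx
      refine ⟨fun α => c • h α, fun α => Submodule.smul_mem _ c (a1 α), ?_⟩
      have h3 := hv.gt_smul c a2
      have e3 : c • (g * x - ∑ α, h α * e α) = g * (c • x) - ∑ α, (c • h α) * e α := by
        simp only [smul_sub, Finset.smul_sum, mul_smul_comm, smul_mul_assoc]
      rwa [e3] at h3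

end Fuj
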