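import Vale.Agent.P271.EDefs

open MeasureTheory Set Filter Topology Metric Asymptotics

noncomputable section
namespace Fuj

theorem eIni_deg {d u : ℕ} {Q : MvPolynomial (Fin d) ℂ} (hQ : Q.IsHomogeneous u) {b : Ex d}
    (hb : b ∈ Q.support) : ∑ i, b i = u := by
  rw [← hQ (MvPolynomial.mem_support_iff.1 hb), ← Finsupp.degree_eq_sum,
    Finsupp.degree_eq_weight_one]
  rfl

theorem eIni_scale {d u : ℕ} {Q : MvPolynomial (Fin d) ℂ} (hQ : Q.IsHomogeneous u) (t : ℂ)
    (z : E d) : MvPolynomial.eval (t • z) Q = t ^ u * MvPolynomial.eval z Q := by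
  rw [MvPolynomial.eval_eq', MvPolynomial.eval_eq', Finset.mul_sum]
  refine Finset.sum_congr rfl fun b hb => ?_
  have h := eIni_deg hQ hb
  simp only [Pi.smul_apply, smul_eq_mul, mul_pow, Finset.prod_mul_distrib,
    Finset.prod_pow_eq_pow_sum, h]
  ring

theorem eIni_zero {d : ℕ} (Q : MvPolynomial (Fin d) ℂ) (u : ℕ) (hQ : Q.IsHomogeneous u)
    (h : (fun z => MvPolynomial.eval z Q) =O[𝓝 0] fun z : E d => ‖z‖ ^ (u + 1)) : Q = 0 := by
  refine MvPolynomial.funext fun z => ?_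
  rw [map_zero]
  obtain ⟨C, hC⟩ := h.bound
  have ht : Tendsto (fun t : ℝ => (t : ℂ) • z) (𝓝[>] 0) (𝓝 0) := by
    have : Continuous fun t : ℝ => (t : ℂ) • z := by fun_prop
    simpa using (this.tendsto 0).mono_left nhdsWithin_le_nhds
  have h1 : ∀ᶠ t : ℝ in 𝓝[>] 0, ‖MvPolynomial.eval z Q‖ ≤ C * ‖z‖ ^ (u + 1) * t := by
    filter_upwards [ht.eventually hC, self_mem_nhdsWithin] with t h1 h2
    have h3 : 0 < t := h2
    rw [eIni_scale hQ, norm_mul, norm_pow, norm_pow, norm_norm, norm_smul, Complex.norm_real,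
      Real.norm_of_nonneg h3.le, mul_pow] at h1
    refine le_of_mul_le_mul_left (h1.trans_eq ?_) (pow_pos h3 u)
    ring
  have h2 : Tendsto (fun t : ℝ => C * ‖z‖ ^ (u + 1) * t) (𝓝[>] 0) (𝓝 0) := by
    have : Continuous fun t : ℝ => C * ‖z‖ ^ (u + 1) * t := by fun_prop
    simpa using (this.tendsto 0).mono_left nhdsWithin_le_nhds
  exact norm_le_zero_iff.1 (ge_of_tendsto h2 h1)

theorem eIni_bd {d : ℕ} (Q : MvPolynomial (Fin d) ℂ) (u : ℕ) (hQ : Q.IsHomogeneous u) :
    (fun z => MvPolynomial.eval z Q) =O[𝓝 0] fun z : E d => ‖z‖ ^ u := by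
  simp only [MvPolynomial.eval_eq']
  refine IsBigO.fun_sum fun b hb => IsBigO.const_mul_left ?_ _
  have h := eIni_deg hQ hb
  refine IsBigO.of_bound' (Eventually.of_forall fun z => ?_)
  rw [norm_prod, norm_pow, norm_norm, ← h, ← Finset.prod_pow_eq_pow_sum]
  refine Finset.prod_le_prod (fun i _ => norm_nonneg _) fun i _ => ?_
  rw [norm_pow]
  exact pow_le_pow_left₀ (norm_nonneg _) (norm_le_pi_norm z i) _

theorem eIni_diag {d k : ℕ} (p : ContinuousMultilinearMap ℂ (fun _ : Fin k => E d) ℂ) :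
    ∃ Q : MvPolynomial (Fin d) ℂ, Q.IsHomogeneous k ∧
      ∀ z : E d, MvPolynomial.eval z Q = p fun _ => z := by
  refine ⟨∑ r : Fin k → Fin d, MvPolynomial.C (p fun j => Pi.single (r j) 1) *
    ∏ j, MvPolynomial.X (r j), ?_, fun z => ?_⟩
  · refine MvPolynomial.IsHomogeneous.sum _ _ _ fun r _ => MvPolynomial.IsHomogeneous.C_mul ?_ _
    have := MvPolynomial.IsHomogeneous.prod (R := ℂ) Finset.univ
      (fun j => MvPolynomial.X (r j)) (fun _ => 1) fun j _ => MvPolynomial.isHomogeneous_X ℂ (r j)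
    simpa using this
  · have h : (fun _ : Fin k => z) = fun _ => ∑ i, z i • (Pi.single i 1 : E d) := by
      funext j
      exact pi_eq_sum_univ' z
    rw [h, p.map_sum]
    simp only [map_sum, map_mul, map_prod, MvPolynomial.eval_C, MvPolynomial.eval_X,
      p.map_smul_univ, smul_eq_mul]
    exact Finset.sum_congr rfl fun r _ => mul_comm _ _

theorem eIni_pow {d u u' : ℕ} (h : u ≤ u') :
    (fun z : E d => ‖z‖ ^ u') =O[𝓝 0] fun z : E d => ‖z‖ ^ u := by
  refine IsBigO.of_bound' ?_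
  filter_upwards [ball_mem_nhds (0 : E d) one_pos] with z hz
  rw [norm_pow, norm_pow, norm_norm]
  exact pow_le_pow_of_le_one (norm_nonneg _) (mem_ball_zero_iff.1 hz).le h

theorem eIni_key {d : ℕ} {f : E d → ℂ} (hf : AnalyticAt ℂ f 0) :
    ∃ T : ℕ → MvPolynomial (Fin d) ℂ,
      (∀ u, (f =O[𝓝 0] fun z : E d => ‖z‖ ^ u) → Ini f u (T u) ∧ ∀ j < u, T j = 0) ∧
      ∀ᶠ z in 𝓝 (0 : E d), HasSum (fun j => MvPolynomial.eval z (T j)) (f z) := by
  obtain ⟨p, hp⟩ := hf
  choose T hT hT' using fun k => eIni_diag (p k)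
  have h1 : ∀ u, (∀ j < u, T j = 0) → Ini f u (T u) := by
    intro u hu
    refine ⟨hT u, (hp.isBigO_sub_partialSum_pow (u + 1)).congr_left fun z => ?_⟩
    rw [zero_add, FormalMultilinearSeries.partialSum, Finset.sum_range_succ,
      Finset.sum_eq_zero, zero_add, hT']
    intro j hj
    rw [← hT', hu j (Finset.mem_range.1 hj), map_zero]
  refine ⟨T, fun u hu => ?_, ?_⟩
  · have h2 : ∀ j < u, T j = 0 := by
      intro j
      induction j using Nat.strong_induction_on with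
      | _ j ih =>
        intro hj
        refine eIni_zero _ j (hT j) ?_
        have := (hu.trans (eIni_pow hj)).sub (h1 j fun i hi => ih i hi (hi.trans hj)).2
        simpa using this
    exact ⟨h1 u h2, h2⟩
  · simpa [hT'] using hp.eventually_hasSum

theorem s_Ini : IniS := by
  refine fun d => ⟨fun f u hf hu => ?_, eIni_zero, eIni_bd, fun f hf hu => ?_⟩
  · obtain ⟨T, h, -⟩ := eIni_key hf
    exact ⟨T u, (h u hu).1⟩
  · obtain ⟨T, h, h'⟩ := eIni_key hf
    refine h'.mono fun z hz => hz.unique ?_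
    have : ∀ j, T j = 0 := fun j => (h (j + 1) (hu _)).2 j (Nat.lt_succ_self j)
    simp [this]

end Fuj
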