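import Vale.Agent.P271.EDefs

open MeasureTheory Set Filter Topology Metric Asymptotics

noncomputable section
namespace Fuj

/-- the order on values and leading data -/
def eLDk {d : ℕ} (t : ℝ × ℕ × Ex d) : ℝ ×ₗ (ℕ ×ₗ ℕ ×ₗ (mo d).synᵒᵈ) :=
  toLex (t.1, key t.2.1 t.2.2)

theorem eLD_lt {d : ℕ} {a a' : ℝ} {α α' : ℕ} {β β' : Ex d} (h : a < a') :
    eLDk (a, α, β) < eLDk (a', α', β') := Prod.Lex.toLex_lt_toLex.2 (Or.inl h)

theorem eLD_lt' {d : ℕ} {a : ℝ} {α α' : ℕ} {β β' : Ex d} (h : key α β < key α' β') :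
    eLDk (a, α, β) < eLDk (a, α', β') := Prod.Lex.toLex_lt_toLex.2 (Or.inr ⟨rfl, h⟩)

theorem eLD_le {d : ℕ} {a : ℝ} {α α' : ℕ} {β β' : Ex d} (h : key α β ≤ key α' β') :
    eLDk (a, α, β) ≤ eLDk (a, α', β') := Prod.Lex.toLex_le_toLex.2 (Or.inr ⟨rfl, h⟩)

theorem eLD_fst {d : ℕ} {t t' : ℝ × ℕ × Ex d} (h : eLDk t ≤ eLDk t') : t.1 ≤ t'.1 :=
  (Prod.Lex.toLex_le_toLex.1 h).elim le_of_lt fun k => k.1.le

theorem s_LD (hL : LeadS) (hA : EAdaptS) (hR : RepS) : LDS := by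
  intro n d L v φ M N e m hv hφ hF hex
  have P : ∀ a, RepP L v φ M a (e a) := fun a => hR n d (N a) L v φ M a (e a) hv hφ (hF a)
  have U : ∀ {a s H H' α β}, s ∈ L.V m → L.Rep v φ M a (e a) m s H → L.Rep v φ M a (e a) m s H' →
      Lead H α β → Lead H' α β := fun hs h h' k => (hL d _).congr ((P _).uniq hs h h') k
  have X : ∀ s ∈ L.V m, s ≠ 0 → ∃ t, L.LD v φ M e m s t := fun s hs h0 => by
    obtain ⟨H, hH⟩ := hex s hs h0
    obtain ⟨α, β, k⟩ := (hL d _).ex H hH.1 fun k =>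
      (((P _).zero hs hH).2 k).2.elim h0 (lt_irrefl _)
    exact ⟨(v s, α, β), rfl, H, hH, k⟩
  have A1 : ∀ s ∈ L.V m, ∀ s' ∈ L.V m, s ≠ 0 → s' ≠ 0 → s + s' ≠ 0 → v s < v s' → ∀ t t'',
      L.LD v φ M e m s t → L.LD v φ M e m (s + s') t'' → eLDk t ≤ eLDk t'' := by
    rintro s hs s' hs' h0 h0' h0'' hlt ⟨a, α, β⟩ ⟨a'', α'', β''⟩ ⟨ea, H, hH, k⟩ ⟨ea'', H'', hH'', k''⟩
    simp only at ea ea'' hH hH'' k k''
    have h1 := hv.add hs hs' h0 h0' h0''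
    rw [min_eq_left hlt.le, ← ea, ← ea''] at h1
    rcases h1.eq_or_lt with rfl | h2
    · have h3 := (P a).add_gt hH (s' := s') ⟨hs', Or.inr (ea ▸ hlt)⟩
      obtain ⟨rfl, rfl⟩ := (hL d _).uniq (U (add_mem hs hs') h3 hH'' k) k''
      exact le_rfl
    · exact (eLD_lt h2).le
  have V : VRel (L.V m) (L.LD v φ M e m) eLDk := by
    refine ⟨?_, X, ?_, ?_, ?_⟩
    · rintro ⟨a, α, β⟩ ⟨a', α', β'⟩ h
      simp only [eLDk, Prod.mk.injEq, EmbeddingLike.apply_eq_iff_eq] at h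
      obtain ⟨rfl, rfl⟩ := key_inj h.2
      rw [h.1]
    · rintro s hs _ ⟨a, α, β⟩ ⟨a', α', β'⟩ ⟨ea, H, hH, k⟩ ⟨ea', H', hH', k'⟩
      simp only at ea ea' hH hH' k k'
      obtain rfl : a = a' := ea.trans ea'.symm
      obtain ⟨rfl, rfl⟩ := (hL d _).uniq (U hs hH hH' k) k'
      rfl
    · rintro s hs _ c t hc ⟨ea, H, hH, k⟩
      exact ⟨ea.trans (hv.smul hs hc).symm, c • H, (P _).smul c hH, (hL d _).smul hc k⟩
    · intro s hs s' hs' h0 h0' h0'' t t' t'' l l' l''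
      rcases lt_trichotomy (v s) (v s') with h | h | h
      · exact (min_le_left _ _).trans (A1 s hs s' hs' h0 h0' h0'' h t t'' l l'')
      · obtain ⟨a, α, β⟩ := t
        obtain ⟨a', α', β'⟩ := t'
        obtain ⟨a'', α'', β''⟩ := t''
        obtain ⟨ea, H, hH, k⟩ := l
        obtain ⟨ea', H', hH', k'⟩ := l'
        obtain ⟨ea'', H'', hH'', k''⟩ := l''
        simp only at ea ea' ea'' hH hH' hH'' k k' k''
        obtain rfl : a = a' := ea.trans (h.trans ea'.symm)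
        have h1 := hv.add hs hs' h0 h0' h0''
        rw [← h, min_self, ← ea, ← ea''] at h1
        rcases h1.eq_or_lt with rfl | h2
        · have h3 := (hL d _).add k k' (U (add_mem hs hs') hH'' ((P a).add hH hH') k'')
          exact min_le_iff.2 ((min_le_iff.1 h3).imp eLD_le eLD_le)
        · exact (min_le_left _ _).trans (eLD_lt h2).le
      · rw [add_comm] at h0'' l''
        exact (min_le_right _ _).trans (A1 s' hs' s hs h0' h0 h0'' h t' t'' l' l'')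
  obtain ⟨s, τ, h1, h2, h3, h4, h5⟩ :=
    (hA (E n → ℂ) (ℝ × ℕ × Ex d) _ (L.V m) (L.LD v φ M e m) eLDk (L.fd m) V).2 (by
      rintro s hs s' hs' h0 h0' ⟨a, α, β⟩ ⟨ea, H, hH, k⟩ ⟨ea', H', hH', k'⟩
      simp only at ea ea' hH hH' k k'
      obtain ⟨c, hc⟩ := (hL d _).leaf k k'
      refine ⟨c, or_iff_not_imp_left.2 fun h0'' => ?_⟩
      rintro ⟨a'', α'', β''⟩ ⟨ea'', H'', hH'', k''⟩
      simp only at ea'' hH'' k''
      have g1 : L.Ge v m a (s - c • s') :=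
        hv.ge_sub ⟨hs, Or.inr ea.le⟩ (hv.ge_smul c ⟨hs', Or.inr ea'.le⟩)
      have g2 := g1.2.resolve_left h0''
      rw [← ea''] at g2
      rcases g2.eq_or_lt with rfl | g3
      · have g4 := (P a).add hH ((P a).smul (-c) hH')
        rw [neg_smul, neg_smul, ← sub_eq_add_neg, ← sub_eq_add_neg] at g4
        exact eLD_lt' (hc _ _ (U g1.1 hH'' g4 k''))
      · exact eLD_lt g3)
  refine ⟨s, τ, h1, h2, h3, fun c i hc => ?_, h5⟩
  obtain ⟨t, ht⟩ := X (∑ j, c j • s j) (sum_mem fun j _ => Submodule.smul_mem _ _ (h2 j).1)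
    fun k => hc (Fintype.linearIndependent_iff.1 h3 c k i)
  have := eLD_fst (h4 c i hc t ht)
  rwa [ht.1, (h2 i).2.2.1] at this

end Fuj
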