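import Vale.Agent.P271.EDefs

open MeasureTheory Set Filter Topology Metric Asymptotics

noncomputable section
namespace Fuj
namespace ELat

/-- truncated powers -/
def G (p : ℕ) (x : ℝ) : ℝ := max x 0 ^ (p + 1) / (p + 1).factorial

theorem G_nonneg (p : ℕ) (x : ℝ) : 0 ≤ G p x := by unfold G; positivity

theorem step (p : ℕ) (y : ℝ) : G p y ≤ G (p + 1) (y + 1) - G (p + 1) y := by
  rcases le_total y 0 with h | h
  · have := G_nonneg (p + 1) (y + 1)
    simpa [G, max_eq_right h] using this
  · have h1 := pow_add_mul_le_add_pow h (by linarith : 0 ≤ 2 * y + 1) (p + 1 + 1)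
    unfold G
    rw [max_eq_left h, max_eq_left (by linarith : 0 ≤ y + 1), ← sub_div,
      Nat.factorial_succ (p + 1), div_le_div_iff₀ (by positivity) (by positivity)]
    simp only [Nat.add_sub_cancel, mul_one] at h1
    rw [Nat.cast_mul, ← mul_assoc]
    exact mul_le_mul_of_nonneg_right (by linarith) (by positivity)

theorem one (p R : ℕ) (x : ℝ) : ∑ j : Fin R, G p (x - (j : ℕ)) ≤ G (p + 1) (x + 1) := by
  rw [Fin.sum_univ_eq_sum_range (fun j : ℕ => G p (x - j))]
  have : ∑ j ∈ Finset.range R, G p (x - j) ≤ G (p + 1) (x + 1) - G (p + 1) (x + 1 - R) := by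
    induction R with
    | zero => simp
    | succ R ih =>
      rw [Finset.sum_range_succ]
      have h := step p (x - R)
      have e1 : x - R + 1 = x + 1 - R := by ring
      have e2 : x + 1 - ((R + 1 : ℕ) : ℝ) = x - R := by push_cast; ring
      rw [e1] at h
      rw [e2]
      linarith
  linarith [G_nonneg (p + 1) (x + 1 - R)]

theorem box (R d : ℕ) : ∀ (p : ℕ) (x : ℝ),
    ∑ b : Fin d → Fin R, G p (x - ∑ i, ((b i : ℕ) : ℝ)) ≤ G (p + d) (x + d) := by
  induction d with
  | zero => intro p x; simp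
  | succ d ih =>
    intro p x
    rw [← (Fin.consEquiv fun _ : Fin (d + 1) => Fin R).sum_comp, Fintype.sum_prod_type_right]
    have h := ih (p + 1) (x + 1)
    have e1 : p + 1 + d = p + (d + 1) := by ring
    have e2 : x + 1 + d = x + ((d + 1 : ℕ) : ℝ) := by push_cast; ring
    rw [e1, e2] at h
    refine le_trans (Finset.sum_le_sum fun b _ => ?_) h
    have h2 := one p R (x - ∑ i, ((b i : ℕ) : ℝ))
    rw [sub_add_eq_add_sub] at h2
    refine le_trans (le_of_eq (Finset.sum_congr rfl fun j _ => ?_)) h2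
    simp only [Fin.consEquiv_apply, Fin.sum_univ_succ, Fin.cons_zero, Fin.cons_succ]
    congr 1; ring

end ELat

open ELat in
theorem s_Lat : LatS := by
  classical
  intro d A κ hκ
  obtain ⟨R, hR⟩ : ∃ R : ℕ, ∀ b ∈ A, ∀ i, b i < R :=
    ⟨A.sup (fun b => b.degree) + 1, fun b hb i => Nat.lt_succ_of_le
      ((Finsupp.le_degree i b).trans (Finset.le_sup (f := fun b : Ex d => b.degree) hb))⟩
  have h := box R d 0 κ
  have e : G (0 + d) (κ + d) = (κ + d) ^ (d + 1) / (d + 1).factorial := by
    rw [G, zero_add, max_eq_left (by positivity)]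
  rw [e] at h
  refine le_trans ?_ h
  let φ : (Fin d → Fin R) → Ex d := fun b => Finsupp.equivFunOnFinite.symm fun i => (b i : ℕ)
  have hA : A ⊆ Finset.univ.image φ := fun b hb =>
    Finset.mem_image.2 ⟨fun i => ⟨b i, hR b hb i⟩, Finset.mem_univ _, by ext i; simp [φ]⟩
  refine (Finset.sum_le_sum_of_subset_of_nonneg hA fun _ _ _ => le_max_right _ _).trans
    ((Finset.sum_image_le_of_nonneg fun _ _ => le_max_right _ _).trans
      (le_of_eq (Finset.sum_congr rfl fun b _ => ?_)))
  simp [G, φ, Finsupp.degree_eq_sum]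

end Fuj
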