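import Vale.Agent.P271.EDefs

/-! Problem P271, part E: leading data of tuples of germs. -/

open MeasureTheory Set Filter Topology Metric Asymptotics MvPolynomial

noncomputable section
namespace Fuj

variable {d N : ℕ} {f g : E d → ℂ} {u u' : ℕ} {P Q : MvPolynomial (Fin d) ℂ}

theorem ELead_mono (h : f =O[𝓝 0] fun z : E d => ‖z‖ ^ u') (hu : u ≤ u') :
    f =O[𝓝 0] fun z : E d => ‖z‖ ^ u := by
  refine h.trans (IsBigO.of_bound 1 ?_)
  filter_upwards [closedBall_mem_nhds (0 : E d) one_pos] with z hz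
  rw [mem_closedBall, dist_zero_right] at hz
  rw [one_mul, Real.norm_of_nonneg (by positivity), Real.norm_of_nonneg (by positivity)]
  exact pow_le_pow_of_le_one (norm_nonneg _) hz hu

theorem ELead_bd (hI : IniP d) (h : Ini f u Q) : f =O[𝓝 0] fun z : E d => ‖z‖ ^ u := by
  have := (ELead_mono h.2 (Nat.le_succ u)).add (hI.bd Q u h.1)
  simpa only [sub_add_cancel] using this

theorem ELead_zero (hI : IniP d) (h : Ini f u Q)
    (h' : f =O[𝓝 0] fun z : E d => ‖z‖ ^ (u + 1)) : Q = 0 := by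
  refine hI.zero Q u h.1 ?_
  simpa only [sub_sub_cancel] using h'.sub h.2

theorem ELead_of (h' : f =O[𝓝 0] fun z : E d => ‖z‖ ^ (u + 1)) : Ini f u 0 :=
  ⟨isHomogeneous_zero _ _ _, by simpa only [map_zero, sub_zero] using h'⟩

theorem ELead_add (h : Ini f u P) (h' : Ini g u Q) : Ini (f + g) u (P + Q) :=
  ⟨h.1.add h'.1, (h.2.add h'.2).congr_left fun z => by
    simp only [map_add, Pi.add_apply]
    ring⟩

theorem ELead_smul (c : ℂ) (h : Ini f u P) : Ini (c • f) u (C c * P) :=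
  ⟨h.1.C_mul c, (h.2.const_mul_left c).congr_left fun z => by
    simp only [map_mul, eval_C, Pi.smul_apply, smul_eq_mul]
    ring⟩

theorem ELead_sub (c : ℂ) (h : Ini f u P) (h' : Ini g u Q) : Ini (f - c • g) u (P - C c * Q) :=
  ⟨h.1.sub (h'.1.C_mul c), (h.2.sub (h'.2.const_mul_left c)).congr_left fun z => by
    simp only [map_sub, map_mul, eval_C, Pi.sub_apply, Pi.smul_apply, smul_eq_mul]
    ring⟩

theorem ELead_uniq (hI : IniP d) (h : Ini f u P) (h' : Ini f u Q) : P = Q := by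
  refine sub_eq_zero.1 (hI.zero _ u (h.1.sub h'.1) ((h'.2.sub h.2).congr_left fun z => ?_))
  simp only [map_sub]
  ring

theorem ELead_mul (hI : IniP d) (h : Ini f u P) (h' : Ini g u' Q) :
    Ini (fun z => g z * f z) (u + u') (P * Q) := by
  refine ⟨h.1.mul h'.1, ?_⟩
  have h1 := (h'.2.mul (ELead_bd hI h)).congr_right
    (g₂ := fun z : E d => ‖z‖ ^ (u + u' + 1)) fun z => by ring
  have h2 := ((hI.bd Q u' h'.1).mul h.2).congr_right
    (g₂ := fun z : E d => ‖z‖ ^ (u + u' + 1)) fun z => by ring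
  refine (h1.add h2).congr_left fun z => ?_
  simp only [map_mul]
  ring

theorem ELead_deg (h : Q.IsHomogeneous u) (h0 : Q ≠ 0) : ((mo d).degree Q).degree = u :=
  not_not.1 fun k => (mo d).coeff_degree_ne_zero_iff.2 h0 (h.coeff_eq_zero k)

variable {H H' : Fin N → E d → ℂ} {α α' : ℕ} {β β' : Ex d}

theorem ELead_cmp (hI : IniP d) (h : Lead H α β) {R : Fin N → MvPolynomial (Fin d) ℂ}
    (hR : ∀ a, Ini (H a) u (R a)) : ((∀ a, R a = 0) ∧ u < β.degree) ∨ (u = β.degree ∧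
      (∀ a : Fin N, a.1 < α → R a = 0) ∧ ∃ k : α < N, R ⟨α, k⟩ ≠ 0 ∧
        (mo d).degree (R ⟨α, k⟩) = β) := by
  obtain ⟨Q, k, h1, h2, h3, h4⟩ := h
  rcases lt_trichotomy u β.degree with c | c | c
  · exact Or.inl ⟨fun a => ELead_zero hI (hR a) (ELead_mono (ELead_bd hI (h1 a)) c), c⟩
  · subst c
    have e : R = Q := funext fun a => ELead_uniq hI (hR a) (h1 a)
    subst e
    exact Or.inr ⟨rfl, h3, k, h2, h4⟩
  · exact absurd (ELead_zero hI (h1 _) (ELead_mono (ELead_bd hI (hR _)) c)) h2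

theorem ELead_low (hI : IniP d) (h : Lead H α β) {R : Fin N → MvPolynomial (Fin d) ℂ}
    (hR : ∀ a, Ini (H a) β'.degree (R a)) (k : α' < N) (h0 : R ⟨α', k⟩ ≠ 0)
    (h1 : (mo d).toSyn β' ≤ (mo d).toSyn ((mo d).degree (R ⟨α', k⟩))) : key α β ≤ key α' β' := by
  rcases ELead_cmp hI h hR with c | ⟨c1, c2, k', -, c4⟩
  · exact absurd (c.1 _) h0
  · rw [← not_lt, key_lt]
    rintro (c | ⟨-, c | ⟨rfl, c⟩⟩)
    · omega
    · exact h0 (c2 ⟨α', k⟩ c)
    · rw [c4] at h1
      exact absurd c (not_lt.2 h1)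

theorem ELead_ini (hI : IniP d) (h : Lead H α β) (hu : u ≤ β.degree) :
    ∃ R : Fin N → MvPolynomial (Fin d) ℂ, ∀ a, Ini (H a) u (R a) := by
  obtain ⟨Q, -, h1, -⟩ := h
  rcases hu.eq_or_lt with c | c
  · exact ⟨Q, c ▸ h1⟩
  · exact ⟨0, fun a => ELead_of (ELead_mono (ELead_bd hI (h1 a)) c)⟩

theorem s_Lead (hI : IniS) : LeadS := by
  classical
  intro d N
  have hI := hI d
  refine ⟨fun H hH h0 => ?_, fun {H H' α β} e h => ?_, fun {H α α' β β'} h h' => ?_,
    fun {H α β} h h0 => ?_, fun {H α β c} hc h => ?_, fun {H H' α α' α'' β β' β''} h h' h'' => ?_,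
    fun {H H' α β} h h' => ?_, fun {w H α β β'} hw h => ?_, fun {H α β} h a => ?_, fun β => ?_⟩
  · have e1 : ∃ u : ℕ, ¬ ∀ a, H a =O[𝓝 0] fun z : E d => ‖z‖ ^ (u + 1) := by
      by_contra k
      exact h0 fun a => hI.flat _ (hH a) fun u =>
        ELead_mono (not_not.1 (not_exists.1 k u) a) (Nat.le_succ u)
    have e2 : ∀ a, H a =O[𝓝 0] fun z : E d => ‖z‖ ^ Nat.find e1 := fun a => by
      rcases Nat.eq_zero_or_eq_succ_pred (Nat.find e1) with c | c
      · rw [c]
        simpa only [pow_zero] using (hH a).continuousAt.tendsto.isBigO_one ℝ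
      · rw [c]
        exact not_not.1 (Nat.find_min e1 (m := (Nat.find e1).pred) (by omega)) a
    choose Q hQ using fun a => hI.ex _ _ (hH a) (e2 a)
    have e3 : ∃ α : ℕ, ∃ k : α < N, Q ⟨α, k⟩ ≠ 0 := by
      by_contra k
      refine Nat.find_spec e1 fun a => ?_
      have := (hQ a).2
      rw [show Q a = 0 from not_not.1 fun k' => k ⟨a.1, a.2, k'⟩] at this
      simpa only [map_zero, sub_zero] using this
    obtain ⟨k, hk⟩ := Nat.find_spec e3
    refine ⟨_, _, Q, k, fun a => ?_, hk, fun a ha => ?_, rfl⟩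
    · rw [ELead_deg (hQ _).1 hk]
      exact hQ a
    · exact not_not.1 fun k' => Nat.find_min e3 ha ⟨a.2, k'⟩
  · obtain ⟨Q, k, h1, h2⟩ := h
    refine ⟨Q, k, fun a => ⟨(h1 a).1, (h1 a).2.congr' ?_ EventuallyEq.rfl⟩, h2⟩
    exact (e a).mono fun z hz => by simp only [hz]
  · have l1 : key α β ≤ key α' β' := by
      obtain ⟨Q, k, h1, h2, -, h4⟩ := h'
      exact ELead_low hI h h1 k h2 (by rw [h4])
    have l2 : key α' β' ≤ key α β := by
      obtain ⟨Q, k, h1, h2, -, h4⟩ := h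
      exact ELead_low hI h' h1 k h2 (by rw [h4])
    exact key_inj (le_antisymm l1 l2)
  · obtain ⟨Q, k, h1, h2, -⟩ := h
    refine h2 (ELead_zero hI (h1 _) ?_)
    exact (isBigO_zero _ _).congr' ((h0 _).mono fun z hz => hz.symm) EventuallyEq.rfl
  · obtain ⟨Q, k, h1, h2, h3, h4⟩ := h
    have c0 : (C c : MvPolynomial (Fin d) ℂ) ≠ 0 := C_ne_zero.2 hc
    refine ⟨fun a => C c * Q a, k, fun a => ELead_smul c (h1 a), mul_ne_zero c0 h2,
      fun a ha => by simp only [h3 a ha, mul_zero], ?_⟩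
    rw [(mo d).degree_mul c0 h2, (mo d).degree_C, zero_add, h4]
  · obtain ⟨P, hP⟩ := ELead_ini hI h (min_le_left β.degree β'.degree)
    obtain ⟨P', hP'⟩ := ELead_ini hI h' (min_le_right β.degree β'.degree)
    rcases ELead_cmp hI h'' (R := P + P') fun a => ELead_add (hP a) (hP' a) with
      c | ⟨c1, -, k, c3, c4⟩
    · rcases min_lt_iff.1 c.2 with c' | c'
      · exact (min_le_left _ _).trans (key_lt.2 (Or.inl c')).le
      · exact (min_le_right _ _).trans (key_lt.2 (Or.inl c')).le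
    · rw [c1] at hP hP'
      rw [Pi.add_apply] at c3 c4
      by_cases p1 : P ⟨α'', k⟩ = 0
      · rw [p1, zero_add] at c3 c4
        exact (min_le_right _ _).trans (ELead_low hI h' hP' k c3 (by rw [c4]))
      by_cases p2 : P' ⟨α'', k⟩ = 0
      · rw [p2, add_zero] at c4
        exact (min_le_left _ _).trans (ELead_low hI h hP k p1 (by rw [c4]))
      have := (mo d).degree_add_le (f := P ⟨α'', k⟩) (g := P' ⟨α'', k⟩)
      rw [c4] at this
      rcases le_sup_iff.1 this with c | c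
      · exact (min_le_left _ _).trans (ELead_low hI h hP k p1 c)
      · exact (min_le_right _ _).trans (ELead_low hI h' hP' k p2 c)
  · obtain ⟨Q, k, h1, h2, h3, h4⟩ := h
    obtain ⟨Q', k', h1', h2', h3', h4'⟩ := h'
    have l0 : coeff β (Q' ⟨α, k⟩) ≠ 0 := h4' ▸ (mo d).coeff_degree_ne_zero_iff.2 h2'
    refine ⟨coeff β (Q ⟨α, k⟩) / coeff β (Q' ⟨α, k⟩), fun α' β' h'' => key_lt.2 ?_⟩
    rcases ELead_cmp hI h'' (R := fun a => Q a - C _ * Q' a) fun a => ELead_sub _ (h1 a) (h1' a)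
      with c | ⟨c1, -, k'', c3, c4⟩
    · exact Or.inl c.2
    refine Or.inr ⟨c1, ?_⟩
    rcases lt_trichotomy α α' with c | c | c
    · exact Or.inl c
    · subst c
      refine Or.inr ⟨rfl, ?_⟩
      have c5 := (mo d).coeff_degree_ne_zero_iff.2 c3
      rw [c4, coeff_sub, coeff_C_mul] at c5
      rcases lt_trichotomy ((mo d).toSyn β') ((mo d).toSyn β) with c | c | c
      · exact c
      · rw [(mo d).toSyn.injective c, div_mul_cancel₀ _ l0, sub_self] at c5
        exact absurd rfl c5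
      · rw [(mo d).coeff_eq_zero_of_lt (f := Q ⟨α, k⟩) (d := β') (by rwa [h4]),
          (mo d).coeff_eq_zero_of_lt (f := Q' ⟨α, k⟩) (d := β') (by rwa [h4']), mul_zero,
          sub_self] at c5
        exact absurd rfl c5
    · exact absurd (by simp only [h3 ⟨α', k''⟩ c, h3' ⟨α', k''⟩ c, mul_zero, sub_self]) c3
  · obtain ⟨Q, k, h1, h2, h3, h4⟩ := h
    obtain ⟨Q', k', h1', h2', -, h4'⟩ := hw
    refine ⟨fun a => Q a * Q' ⟨0, k'⟩, k, fun a => ?_, mul_ne_zero h2 h2',
      fun a ha => by simp only [h3 a ha, zero_mul], by rw [(mo d).degree_mul h2 h2', h4, h4']⟩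
    rw [map_add]
    exact ELead_mul hI (h1 a) (h1' _)
  · obtain ⟨Q, -, h1, -⟩ := h
    exact ELead_bd hI (h1 a)
  · refine ⟨fun _ => monomial β 1, one_pos, fun _ => ⟨isHomogeneous_monomial _ rfl, ?_⟩,
      by simp, fun a ha => absurd ha (Nat.not_lt_zero _), by simp [MonomialOrder.degree_monomial]⟩
    refine (isBigO_zero _ _).congr_left fun z => ?_
    rw [eval_monomial, one_mul, Finsupp.prod_fintype _ _ (fun i => pow_zero _), sub_self]

end Fuj
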