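import Vale.Agent.P271.EDefs

open MeasureTheory Set Filter Topology Metric Asymptotics

noncomputable section
namespace Fuj

theorem eNum_lim (c : ℝ) (j : ℕ) :
    Tendsto (fun m : ℕ => (((m : ℝ) + c) / m) ^ j) atTop (𝓝 1) := by
  have h1 : Tendsto (fun m : ℕ => 1 + c / (m : ℝ)) atTop (𝓝 (1 + 0)) :=
    tendsto_const_nhds.add (tendsto_const_div_atTop_nhds_zero_nat c)
  have h2 : Tendsto (fun m : ℕ => ((m : ℝ) + c) / m) atTop (𝓝 1) := by
    rw [add_zero] at h1
    refine h1.congr' ?_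
    filter_upwards [eventually_gt_atTop 0] with m hm
    have : (m : ℝ) ≠ 0 := by positivity
    field_simp
  simpa using h2.pow j

theorem eNum_real {h : ℕ → ℕ} {n q D c : ℕ} (hq : 1 ≤ q) (hD : q ^ n ≤ D)
    (H : ∀ᶠ m in atTop, D * (m / q - c) ^ n ≤ n.factorial * h m ∧
      n.factorial * h m ≤ D * (m / q + c) ^ n) :
    ∃ a c' : ℝ, 1 / (n.factorial : ℝ) ≤ a ∧ 0 ≤ c' ∧ ∀ᶠ m : ℕ in atTop,
      a * ((m : ℝ) - c') ^ n ≤ h m ∧ (h m : ℝ) ≤ a * ((m : ℝ) + c') ^ n := by
  have hf : (0 : ℝ) < n.factorial := by positivity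
  have hq' : (0 : ℝ) < (q : ℝ) ^ n := by positivity
  refine ⟨D / (n.factorial * (q : ℝ) ^ n), ((c + 1) * q : ℕ), ?_, by positivity, ?_⟩
  · rw [div_le_div_iff₀ hf (by positivity)]
    have : (q : ℝ) ^ n ≤ D := by exact_mod_cast hD
    nlinarith
  · filter_upwards [H, eventually_ge_atTop ((c + 1) * q)] with m hm hmc
    have e1 := Nat.div_add_mod m q
    have e2 := Nat.mod_lt m hq
    have e3 : c ≤ m / q := (Nat.le_div_iff_mul_le hq).2 (by nlinarith)
    have k1 : m - (c + 1) * q ≤ q * (m / q - c) := by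
      obtain ⟨r, hr⟩ := Nat.exists_eq_add_of_le e3
      rw [hr, Nat.add_sub_cancel_left]
      rw [hr] at e1
      refine Nat.sub_le_iff_le_add.2 ?_
      nlinarith
    have k2 : q * (m / q + c) ≤ m + (c + 1) * q := by nlinarith [Nat.zero_le (m % q)]
    have l1 : D * (m - (c + 1) * q) ^ n ≤ q ^ n * (n.factorial * h m) := by
      calc D * (m - (c + 1) * q) ^ n ≤ D * (q * (m / q - c)) ^ n := by gcongr
        _ = q ^ n * (D * (m / q - c) ^ n) := by rw [mul_pow]; ring
        _ ≤ _ := Nat.mul_le_mul_left _ hm.1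
    have l2 : q ^ n * (n.factorial * h m) ≤ D * (m + (c + 1) * q) ^ n := by
      calc q ^ n * (n.factorial * h m) ≤ q ^ n * (D * (m / q + c) ^ n) :=
            Nat.mul_le_mul_left _ hm.2
        _ = D * (q * (m / q + c)) ^ n := by rw [mul_pow]; ring
        _ ≤ _ := by gcongr
    have l1' : (D : ℝ) * ((m : ℝ) - ((c + 1) * q : ℕ)) ^ n ≤ q ^ n * (n.factorial * h m) := by
      rw [← Nat.cast_sub hmc]
      exact_mod_cast l1
    have l2' : (q : ℝ) ^ n * (n.factorial * h m) ≤ D * ((m : ℝ) + ((c + 1) * q : ℕ)) ^ n := by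
      exact_mod_cast l2
    constructor
    · rw [div_mul_eq_mul_div, div_le_iff₀ (by positivity)]
      linarith
    · rw [div_mul_eq_mul_div, le_div_iff₀ (by positivity)]
      linarith

theorem eNum_root {n : ℕ} (hn : 1 ≤ n) {a x : ℝ} (ha : 0 ≤ a) (hx : 0 ≤ x) :
    (a * x ^ n) ^ (1 / n : ℝ) = a ^ (1 / n : ℝ) * x := by
  rw [Real.mul_rpow ha (by positivity), one_div, Real.pow_rpow_inv_natCast hx (by omega)]

theorem s_Num : ENumS := by
  intro h n q D c hn hq hD H η hη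
  obtain ⟨a, c', ha, hc', H'⟩ := eNum_real hq hD H
  have hf : (0 : ℝ) < n.factorial := by positivity
  have ha0 : 0 < a := lt_of_lt_of_le (by positivity) ha
  have hbig : ∀ x : ℝ, ∀ᶠ m : ℕ in atTop, x < m := fun x =>
    tendsto_natCast_atTop_atTop.eventually_gt_atTop x
  constructor
  · filter_upwards [H', (eNum_lim (-c') n).eventually (lt_mem_nhds (by linarith : 1 - η < 1)),
      hbig c'] with m h1 h2 h3
    have hm : (0 : ℝ) < m := by linarith
    rw [div_pow, lt_div_iff₀ (by positivity), ← sub_eq_add_neg] at h2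
    have h4 : 0 ≤ ((m : ℝ) - c') ^ n := pow_nonneg (by linarith) _
    calc (1 - η) * (m : ℝ) ^ n / n.factorial ≤ ((m : ℝ) - c') ^ n / n.factorial := by gcongr
      _ = 1 / n.factorial * ((m : ℝ) - c') ^ n := by ring
      _ ≤ a * ((m : ℝ) - c') ^ n := by gcongr
      _ ≤ _ := h1.1
  · obtain ⟨k, hk1, hk2, hk3⟩ := (H'.and ((hbig c').and (hbig ((2 * c' + n * q) / η)))).exists
    rw [div_lt_iff₀ hη] at hk3
    have hnq : (0 : ℝ) ≤ n * q := by positivity
    refine ⟨k, ?_, ?_⟩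
    · have : (0 : ℝ) < h k := lt_of_lt_of_le (mul_pos ha0 (pow_pos (by linarith) _)) hk1.1
      exact_mod_cast this
    generalize hQ : k + n * q = Q
    have hQ' : (Q : ℝ) = k + n * q := by rw [← hQ]; push_cast; ring
    have hQ0 : (0 : ℝ) ≤ Q := by positivity
    have t1 := ((eNum_lim (Q + c') (n - 1)).const_mul (Q + 2 * c')).eventually_lt
      ((eNum_lim (-c') n).const_mul ((1 + η) * Q)) (by nlinarith)
    have t2 := ((eNum_lim c' 1).const_mul ((1 - η) * Q)).eventually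
      (gt_mem_nhds (show (1 - η) * Q * 1 < k - c' by nlinarith))
    filter_upwards [H', (tendsto_add_atTop_nat Q).eventually H', t1, t2, hbig c']
      with m h1 h2 h3 h4 h5
    have hm : (0 : ℝ) < m := by linarith
    constructor
    · have e1 := abs_pow_sub_pow_le ((m : ℝ) + (Q + c')) ((m : ℝ) + -c') n
      rw [abs_of_nonneg (by linarith : (0 : ℝ) ≤ m + (Q + c')),
        abs_of_nonneg (by linarith : (0 : ℝ) ≤ m + -c'), max_eq_left (by linarith),
        abs_of_nonneg (by linarith : (0 : ℝ) ≤ m + (Q + c') - (m + -c'))] at e1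
      have e2 := (le_abs_self _).trans e1
      obtain ⟨n', rfl⟩ : ∃ n', n = n' + 1 := ⟨n - 1, by omega⟩
      rw [Nat.add_sub_cancel] at e2 h3
      rw [div_pow, div_pow, ← mul_div_assoc, ← mul_div_assoc,
        div_lt_div_iff₀ (by positivity) (by positivity), pow_succ (m : ℝ), ← mul_assoc,
        mul_right_comm, mul_lt_mul_iff_left₀ (by positivity)] at h3
      have e3 : ((m : ℝ) + (Q + c')) ^ (n' + 1) ≤
          (1 + (1 + η) * (n' + 1 : ℕ) * Q / m) * ((m : ℝ) + -c') ^ (n' + 1) := by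
        have e4 : (Q + 2 * c') * ((m : ℝ) + (Q + c')) ^ n' ≤
            (1 + η) * Q * ((m : ℝ) + -c') ^ (n' + 1) / m := by
          rw [le_div_iff₀ hm]
          exact h3.le
        have e5 := mul_le_mul_of_nonneg_left e4 (Nat.cast_nonneg (n' + 1) : (0 : ℝ) ≤ _)
        have e6 : (1 + (1 + η) * (n' + 1 : ℕ) * Q / m) * ((m : ℝ) + -c') ^ (n' + 1) =
            ((m : ℝ) + -c') ^ (n' + 1) +
              (n' + 1 : ℕ) * ((1 + η) * Q * ((m : ℝ) + -c') ^ (n' + 1) / m) := by ring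
        rw [e6]
        linarith
      have e7 : (0 : ℝ) ≤ 1 + (1 + η) * (n' + 1 : ℕ) * Q / m := by positivity
      calc (h (m + Q) : ℝ) ≤ a * (((m + Q : ℕ) : ℝ) + c') ^ (n' + 1) := h2.2
        _ = a * ((m : ℝ) + (Q + c')) ^ (n' + 1) := by push_cast; ring
        _ ≤ a * ((1 + (1 + η) * (n' + 1 : ℕ) * Q / m) * ((m : ℝ) + -c') ^ (n' + 1)) := by gcongr
        _ = (1 + (1 + η) * (n' + 1 : ℕ) * Q / m) * (a * ((m : ℝ) - c') ^ (n' + 1)) := by ring
        _ ≤ _ := mul_le_mul_of_nonneg_left h1.1 e7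
    · have hr : (0 : ℝ) ≤ 1 / n := by positivity
      rcases le_total η 1 with hη1 | hη1
      · have e1 := Real.rpow_le_rpow (by positivity) h1.2 hr
        have e2 := Real.rpow_le_rpow (mul_nonneg ha0.le (pow_nonneg (by linarith) _)) hk1.1 hr
        rw [eNum_root hn ha0.le (by linarith)] at e1 e2
        have e3 : 0 ≤ (1 - η) * Q / m := div_nonneg (mul_nonneg (by linarith) hQ0) hm.le
        have e4 : 0 ≤ a ^ (1 / n : ℝ) := by positivity
        calc (1 - η) * Q / m * (h m : ℝ) ^ (1 / n : ℝ)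
            ≤ (1 - η) * Q / m * (a ^ (1 / n : ℝ) * (m + c')) := mul_le_mul_of_nonneg_left e1 e3
          _ = a ^ (1 / n : ℝ) * ((1 - η) * Q * ((m + c') / m) ^ 1) := by ring
          _ ≤ a ^ (1 / n : ℝ) * (k - c') := mul_le_mul_of_nonneg_left h4.le e4
          _ ≤ _ := e2
      · refine le_trans (mul_nonpos_of_nonpos_of_nonneg (div_nonpos_of_nonpos_of_nonneg
          (mul_nonpos_of_nonpos_of_nonneg (by linarith) hQ0) hm.le) (by positivity)) (by positivity)

end Fuj
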