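import Vale.Agent.P271.EDefs

/-! Problem P271, part E: the perturbation data. -/

open MeasureTheory Set Filter Topology Metric Asymptotics

noncomputable section
namespace Fuj

theorem EPert_arc {n d e k : ℕ} {L : Loc n} {v : (E n → ℂ) → ℝ} {t : Fin d → E n → ℂ} {y : E n}
    (hv : L.IsVal v) (B : L.Br v d e k t y) (hy : y ∈ ball (0 : E n) 2) :
    L.Arc v fun z => B.Φ (z, 0) := by
  refine ⟨?_, ?_, fun m g hg => ⟨fun h => ?_, fun h => ⟨hg, ?_⟩⟩⟩
  · exact AnalyticAt.comp (f := fun z : E d => ((z, 0) : E d × E e)) B.an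
      (analyticAt_id.prod analyticAt_const)
  · change B.Φ 0 ∈ _
    rwa [B.cen]
  · by_cases h0 : g = 0
    · subst h0
      exact Eventually.of_forall fun _ => rfl
    · exact B.onZ.mono fun z hz => hz m g hg h0 (h.2.resolve_left h0)
  · refine or_iff_not_imp_left.2 fun h0 => lt_of_le_of_ne (hv.nonneg hg h0) fun h1 => ?_
    exact B.inj m g hg h0 h1.symm h

theorem EPert_num {d j q k r : ℕ} {η : ℝ} (hd : 1 ≤ d) (hη : 0 < η) (hj : (k + r : ℝ) / η ≤ j)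
    {N : ℕ} (h : (q * j) ^ d ≤ d.factorial * N) :
    max (1 - η) 0 * (((k + j) * q + r * q : ℕ) : ℝ) / (d.factorial : ℝ) ^ (1 / d : ℝ)
      ≤ (N : ℝ) ^ (1 / d : ℝ) := by
  have hf : (0 : ℝ) < d.factorial := by exact_mod_cast d.factorial_pos
  rw [div_le_iff₀ (by positivity), ← Real.mul_rpow (by positivity) hf.le]
  have h1 : ((q * j : ℕ) : ℝ) ≤ ((N : ℝ) * d.factorial) ^ (1 / d : ℝ) := by
    have h2 : ((q * j : ℕ) : ℝ) ^ d ≤ (N : ℝ) * d.factorial := by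
      rw [mul_comm (N : ℝ)]
      exact_mod_cast h
    have h3 := Real.rpow_le_rpow (by positivity) h2 (show (0 : ℝ) ≤ 1 / d by positivity)
    rwa [one_div, Real.pow_rpow_inv_natCast (by positivity) (by omega), ← one_div] at h3
  refine le_trans ?_ h1
  rw [div_le_iff₀ hη] at hj
  push_cast
  have q0 : (0 : ℝ) ≤ q := by positivity
  have j0 : (0 : ℝ) ≤ j := by positivity
  have k0 : (0 : ℝ) ≤ k + r := by positivity
  rcases le_total (1 - η) 0 with h4 | h4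
  · rw [max_eq_right h4, zero_mul]
    positivity
  · rw [max_eq_left h4]
    have : (1 - η) * (k + j + r) ≤ j := by nlinarith
    nlinarith

theorem s_Pert (hL : LeadS) (hF : FrameS) (hR : RepS) (hC : CubeS) (hU : CountS) (hLD : LDS)
    (hB : BoundS) : PertS := by
  classical
  intro hD n L q hA η hη
  obtain ⟨k₁, hk₁⟩ := hD n L q hA
  obtain ⟨j, hj⟩ := exists_nat_ge (max ((k₁ + n : ℝ) / η) 1)
  have j1 : 1 ≤ j := by exact_mod_cast (le_max_right _ _).trans hj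
  have q1 := hA.qpos
  set Q := (k₁ + j) * q + n * q with hQ
  refine ⟨Q, by nlinarith, fun v hv => ?_⟩
  obtain ⟨d, e', k, t, d1, hde, k1, ht, hUj, hpt⟩ := hk₁ v hv
  refine ⟨d, e', d1, fun M => ?_⟩
  obtain ⟨F1, F2, F3⟩ := hF n L v hv
  obtain ⟨m₀, hm₀⟩ := eventually_atTop.1 hA.big
  set M' := M + m₀ + 1 with hM'
  choose N e κ g fr gm g0 gv sp using F3 M'
  have hb : ∀ m, ∃ b, m ≤ M → b ∈ L.V (M' - m) ∧ b 0 ≠ 0 := fun m => by
    by_cases h : m ≤ M
    · obtain ⟨b, h1, h2⟩ := hm₀ (M' - m) (by omega)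
      exact ⟨b, fun _ => ⟨h1, h2⟩⟩
    · exact ⟨0, fun h' => absurd h' h⟩
  choose b hb using hb
  set S := (F1 M).toFinset with hS
  have mS : ∀ m ≤ M, ∀ s ∈ L.V m, s ≠ 0 → v s ∈ S := fun m hm s hs h0 =>
    (F1 M).mem_toFinset.2 ⟨m, hm, s, hs, h0, rfl⟩
  obtain ⟨γ, γ0, hγ⟩ := F2 (S.sup κ + M' + k)
  refine ⟨γ, γ0, fun r hr => ?_⟩
  have G1 := Loc.e_prod_mem (L := L) S (g := g) (k := κ) fun a _ => gm a
  have G2 := hv.prod_zero S (g := g) (k := κ) fun a _ => ⟨gm a, g0 a, gv a⟩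
  have hb' : ∀ m ∈ Finset.range (M + 1), m ≤ M := fun m hm => by
    rw [Finset.mem_range] at hm
    omega
  have G3 := Loc.e_prod_mem (L := L) (Finset.range (M + 1)) (g := b) (k := fun m => M' - m)
    fun m hm => (hb m (hb' m hm)).1
  have G4 := hv.prod_zero (Finset.range (M + 1)) (g := b) (k := fun m => M' - m) fun m hm =>
    ⟨(hb m (hb' m hm)).1, fun h => (hb m (hb' m hm)).2 (by rw [h]; rfl),
      hv.cen (hb m (hb' m hm)).1 (hb m (hb' m hm)).2⟩
  obtain ⟨y, hy, hG, ⟨B⟩⟩ := hpt _ _ (L.mul G1 G3) (Loc.mul_ne G1 G3 G2.1 G4.1)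
    (by rw [hv.mul G1 G3 G2.1 G4.1, G2.2, G4.2, add_zero]) (min r 2) (by positivity)
  have y2 : y ∈ ball (0 : E n) 2 := ball_subset_ball (min_le_right _ _) hy
  refine ⟨y, ball_subset_ball (min_le_left _ _) hy, ?_⟩
  simp only [Pi.mul_apply, Finset.prod_apply, ne_eq, mul_eq_zero, not_or,
    Finset.prod_eq_zero_iff, not_exists, not_and] at hG
  have arc := EPert_arc hv B y2
  set φ : E d → E n := fun z => B.Φ (z, 0) with hφ
  have φ0 : φ 0 = y := B.cen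
  have R := fun a => hR n d (N a) L v φ M' a (e a) hv arc (fr a)
  have hex := fun m (hm : m ≤ M) s (hs : s ∈ L.V m) (h0 : s ≠ 0) =>
    (R (v s)).ex (sp (v s)) (gm _) (by rw [φ0]; exact hG.1 _ (mS m hm s hs h0)) (hb m hm).1
      (by rw [φ0]; exact hG.2 m (Finset.mem_range.2 (by omega))) (by omega) (Loc.Ge.self hs)
  have hs : ∀ m, ∃ (s : Fin (L.h m) → E n → ℂ) (τ : Fin (L.h m) → ℝ × ℕ × Ex d), m ≤ M →
      Function.Injective τ ∧ (∀ i, s i ∈ L.V m ∧ s i ≠ 0 ∧ L.LD v φ M' e m (s i) (τ i)) ∧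
      LinearIndependent ℂ s ∧
      (∀ (c : Fin (L.h m) → ℂ) i, c i ≠ 0 → v (∑ j, c j • s j) ≤ v (s i)) ∧
      ∀ s' ∈ L.V m, s' ≠ 0 → ∀ t, L.LD v φ M' e m s' t → ∃ i, τ i = t := fun m => by
    by_cases h : m ≤ M
    · obtain ⟨s, τ, h1⟩ := hLD n d L v φ M' N e m hv arc fr fun s hs h0 =>
        (hex m h s hs h0).imp fun H hH => hH.choose_spec.1
      exact ⟨s, τ, fun _ => h1⟩
    · exact ⟨0, 0, fun h' => absurd h' h⟩
  choose s τ hs using hs
  obtain ⟨U₀, U1, U2, U3⟩ := hUj j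
  have U4 : U₀ ≠ ⊥ := by
    rintro rfl
    rw [finrank_bot, mul_zero] at U3
    exact absurd U3 (not_le.2 (by positivity))
  have cube := (hC n d L φ arc.an arc.mem).2 q ((k₁ + j) * q) n (fun i => t i - t i y • 1) U₀ d1
    (by omega) hA.one (fun i => sub_mem (ht i) (Submodule.smul_mem _ _ hA.one))
    (((continuous_id.prodMk continuous_const).tendsto' 0 (0 : E d × E e') rfl).eventually
      B.zc |>.mono fun z hz i => by
        have := hz i
        simp only [id] at this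
        simp [hφ, this])
    U1 U4 fun s hs h0 => B.inj _ s (U1 hs) h0 (U2 s hs h0)
  have ρ1 : max (1 - η) 0 * (Q : ℝ) ≤ Q :=
    mul_le_of_le_one_left (by positivity) (max_le (by linarith) zero_le_one)
  have shift : ∀ m, 1 ≤ m → m + Q ≤ M → ∀ t ∈ Finset.univ.image (τ m),
      ∀ β ∈ {β | ∃ w ∈ L.V Q, Ld1 (fun z => w (φ z)) β},
        (t.1, t.2.1, t.2.2 + β) ∈ Finset.univ.image (τ (m + Q)) := by
    rintro m m1 hm _ ht' β ⟨w, hw, hβ⟩
    obtain ⟨i, -, rfl⟩ := Finset.mem_image.1 ht'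
    obtain ⟨a1, a2, a3, H, a4, a5⟩ := (hs m (by omega)).2.1 i
    have w1 : ¬ L.Gt v Q 0 w := fun h => (hL d 1).ne hβ fun _ => (arc.iff _ w hw).1 h
    have w2 : w ≠ 0 := fun h => w1 ⟨hw, Or.inl h⟩
    have w3 : v w = 0 := le_antisymm (not_lt.1 fun h => w1 ⟨hw, Or.inr h⟩) (hv.nonneg hw w2)
    obtain ⟨i', hi'⟩ := (hs (m + Q) hm).2.2.2.2 (w * s m i) (add_comm Q m ▸ L.mul hw a1)
      (Loc.mul_ne hw a1 w2 a2) ((τ m i).1, (τ m i).2.1, (τ m i).2.2 + β)
      ⟨by rw [hv.mul hw a1 w2 a2, w3, zero_add]; exact a3, _, (R _).mul hw a4,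
        (hL d _).mul hβ a5⟩
    exact Finset.mem_image.2 ⟨i', Finset.mem_univ _, hi'⟩
  obtain ⟨U, V0, V1, V2⟩ := hU d Q M (max (1 - η) 0 * Q) (fun m => Finset.univ.image (τ m))
    {β | ∃ w ∈ L.V Q, Ld1 (fun z => w (φ z)) β} d1 (by positivity) ρ1 shift fun A C hA' h =>
      le_trans (add_le_add le_rfl (EPert_num d1 hη ((le_max_left _ _).trans hj) U3))
        (cube A C hA' h)
  have sum : ∀ m, m ≤ M → ∀ F : ℝ → Ex d → ℝ, ∑ t ∈ Finset.univ.image (τ m), F t.1 t.2.2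
      = ∑ i, F (v (s m i)) (τ m i).2.2 := fun m hm F => by
    rw [Finset.sum_image fun i _ i' _ h => (hs m hm).1 h]
    exact Finset.sum_congr rfl fun i _ => by rw [((hs m hm).2.1 i).2.2.1]
  refine ⟨⟨B.Φ, B.D, B.an, B.der, B.cen, B.onZ, s, fun m i => (τ m i).2.2.degree,
    fun m _ hm i => ((hs m hm).2.1 i).1, fun m _ hm => (hs m hm).2.2.1,
    fun m _ hm => (hs m hm).2.2.2.1, fun m _ hm i => ?_, U, V0, fun m m1 hm => ?_,
    fun m _ hm => ?_⟩⟩
  · obtain ⟨a1, a2, a3⟩ := (hs m hm).2.1 i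
    have key : ∀ t', L.LD v φ M' e m (s m i) t' →
        ∃ H, L.Rep v φ M' (v (s m i)) (e (v (s m i))) m (s m i) H ∧ Lead H t'.2.1 t'.2.2 := by
      rintro ⟨a, α, β⟩ ⟨h1, h2⟩
      dsimp only at h1 h2 ⊢
      subst h1
      exact h2
    obtain ⟨H, a4, a5⟩ := key _ a3
    obtain ⟨H', h, b1, b2, b3, b4⟩ := hex m hm _ a1 a2
    have κ1 : κ (v (s m i)) ≤ S.sup κ := Finset.le_sup (mS m hm _ a1 a2)
    refine hB n d e' k _ M' _ _ _ L v t y B (e _) h H' _ γ (s m i) _ hv y2 (by omega) (fr _).ge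
      (L.mul (gm _) (hb m hm).1) ?_ b2 ⟨b3.1, or_iff_not_imp_left.2 fun h0 => ?_⟩ (fun j => ?_)
      b4 fun α' => ?_
    · exact mul_ne_zero (hG.1 _ (mS m hm _ a1 a2)) (hG.2 m (Finset.mem_range.2 (by omega)))
    · exact hγ m (by omega) _ (by omega) _ a1 _ b3.1 a2 h0 (b3.2.resolve_left h0)
    · have := hγ 0 (by omega) k (by omega) 1 L.one _ (B.wm j).1 one_ne_zero (B.wm j).2.1
        (by rw [hv.one]; exact (B.wm j).2.2)
      rwa [hv.one, zero_add] at this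
    · exact ((hL d _).bd a5 α').congr' ((R _).uniq a1 a4 b1 α') EventuallyEq.rfl
  · have h1 := V1 m m1 hm
    rw [sum m (by omega) fun a _ => Real.exp (-a)] at h1
    refine le_trans (add_le_add le_rfl (mul_le_mul_of_nonneg_right ?_ (by positivity))) h1
    rw [mul_assoc]
    exact mul_le_mul_of_nonneg_left
      (mul_le_mul_of_nonneg_right (le_max_left _ _) (by positivity)) (by positivity)
  · have h1 := V2 m
    rwa [sum m hm fun a _ => Real.exp (-a),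
      sum m hm fun a β => Real.exp (-a) * min (β.degree : ℝ) (d * m)] at h1

theorem s_PartE (hL : LeadS) (hC : CubeS) (hN : ENumS) (hP : PertS) : PartE := by
  intro hD hH n L q n1 hA
  obtain ⟨D, c, h1, h2⟩ := hH n L q n1 hA
  have N := hN L.h n q D c n1 hA.qpos h1 h2
  refine ⟨fun η hη => (N η hη).1, fun η hη => ?_, hP hD n L q hA⟩
  obtain ⟨k, k1, hk⟩ := (N η hη).2
  have q1 := hA.qpos
  refine ⟨k + n * q, by nlinarith, hk.mono fun m hm => ⟨hm.1, fun f f' hf hf' f0 hff => ?_⟩⟩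
  have b0 : (0 : E n) ∈ ball (0 : E n) 2 := mem_ball_self two_pos
  obtain ⟨C1, C2⟩ := hC n n L id analyticAt_id b0
  obtain ⟨A, A1, A2⟩ := C1 m f hf fun s hs h0 => Loc.germ_ne (hf hs) h0 b0
  obtain ⟨C, C3, C4⟩ := C1 _ f' hf' fun s hs h0 => Loc.germ_ne (hf' hs) h0 b0
  have := L.fd m
  have := Submodule.finiteDimensional_of_le hf
  have h3 := C2 q k n crd (L.V k) n1 le_rfl hA.one hA.crd
    ((isOpen_ball.eventually_mem b0).mono fun z hz i => indicator_of_mem hz _) le_rfl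
    (fun h => by
      rw [Loc.h, h, finrank_bot] at k1
      omega)
    (fun s hs h0 => Loc.germ_ne hs h0 b0) A C
    (Finset.card_pos.1 (A1 ▸ Nat.pos_of_ne_zero fun h => f0 (Submodule.finrank_eq_zero.1 h)))
    (by
      rintro a ha β ⟨w, hw, hβ⟩
      obtain ⟨s, hs, hs'⟩ := (A2 a).1 ha
      exact (C4 _).2 ⟨w * s, hff w hw s hs, (hL n 1).mul hβ hs'⟩)
  rw [A1, C3] at h3
  exact le_trans (add_le_add le_rfl hm.2) h3

end Fuj
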