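import Vale.Agent.P271.EDefs

open MeasureTheory Set Filter Topology Metric Asymptotics

noncomputable section
namespace Fuj

namespace EPsi

/-- the potential without truncation -/
def g (d : ℕ) (a k : ℝ) : ℝ := a ^ d * k - k ^ (d + 1) / (d + 1)

theorem grow {f f' : ℝ → ℝ} {r c : ℝ} (hr : 0 ≤ r) (h : ∀ t, HasDerivAt f (f' t) t)
    (hc : ∀ t ∈ Icc 0 r, c ≤ f' t) : f 0 + c * r ≤ f r := by
  have := (convex_Icc 0 r).mul_sub_le_image_sub_of_le_deriv
    (fun t _ => (h t).continuousAt.continuousWithinAt)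
    (fun t _ => (h t).differentiableAt.differentiableWithinAt)
    (fun t ht => by rw [(h t).deriv]; exact hc t (interior_subset ht)) 0 (left_mem_Icc.2 hr) r
    (right_mem_Icc.2 hr) hr
  linarith

theorem path (e : ℕ) (a k α κ t : ℝ) :
    HasDerivAt (fun t => g (e + 1) (a + α * t) (k + κ * t))
      ((e + 1) * (a + α * t) ^ e * α * (k + κ * t) +
        κ * ((a + α * t) ^ (e + 1) - (k + κ * t) ^ (e + 1))) t := by
  have h1 : HasDerivAt (fun t => a + α * t) α t := by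
    simpa using ((hasDerivAt_id t).const_mul α).const_add a
  have h2 : HasDerivAt (fun t => k + κ * t) κ t := by
    simpa using ((hasDerivAt_id t).const_mul κ).const_add k
  refine (((h1.fun_pow (e + 1)).fun_mul h2).fun_sub
    ((h2.fun_pow (e + 1 + 1)).div_const _)).congr_deriv ?_
  simp only [Nat.add_sub_cancel]
  push_cast
  field_simp
  ring

theorem mono_k (e : ℕ) {a k k' : ℝ} (h0 : 0 ≤ k) (h : k ≤ k') (h' : k' ≤ a) :
    g (e + 1) a k ≤ g (e + 1) a k' := by
  have := grow (c := 0) (sub_nonneg.2 h) (path e a k 0 1) fun t ht => by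
    have : (k + 1 * t) ^ (e + 1) ≤ (a + 0 * t) ^ (e + 1) :=
      pow_le_pow_left₀ (by linarith [ht.1]) (by linarith [ht.2]) _
    linarith
  simpa using this

theorem le_Fz (e : ℕ) {a k K σ : ℝ} (h0 : 0 ≤ k) (h1 : k ≤ K) (h2 : k ≤ a) (h3 : a ≤ σ) :
    g (e + 1) a k ≤ Fz (e + 1) K σ := by
  refine le_trans ?_ (mono_k e h0 (le_min h1 (h2.trans h3)) (min_le_right K σ))
  unfold g
  gcongr
  exact h0.trans h2

theorem reg1 (e : ℕ) {a k r : ℝ} (h0 : 0 ≤ k) (h1 : k ≤ a) (hr : 0 ≤ r)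
    (h2 : k + (e + 1) * r ≤ a + r) :
    g (e + 1) a k + (e + 1) * a ^ (e + 1) * r ≤ g (e + 1) (a + r) (k + (e + 1) * r) := by
  have := grow (c := (e + 1) * a ^ (e + 1)) hr (path e a k 1 (e + 1)) fun t ht => by
    have e0 : (0 : ℝ) ≤ e := e.cast_nonneg
    have t0 := ht.1
    have k0 : 0 ≤ k + (e + 1) * t := by positivity
    have k1 : k + (e + 1) * t ≤ a + 1 * t := by
      linarith [mul_le_mul_of_nonneg_left ht.2 e0]
    have k2 : (k + (e + 1) * t) ^ e * (k + (e + 1) * t) ≤ (a + 1 * t) ^ e * (k + (e + 1) * t) := by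
      gcongr
    have k3 : a ^ (e + 1) ≤ (a + 1 * t) ^ (e + 1) :=
      pow_le_pow_left₀ (h0.trans h1) (by linarith) _
    rw [← pow_succ] at k2
    nlinarith
  simpa using this

theorem reg2 (e : ℕ) {a r : ℝ} (h0 : 0 ≤ a) (hr : 0 ≤ r) :
    g (e + 1) a a + (e + 1) * a ^ (e + 1) * r ≤ g (e + 1) (a + r) (a + r) := by
  have := grow (c := (e + 1) * a ^ (e + 1)) hr (path e a a 1 1) fun t ht => by
    have k3 : a ^ (e + 1) ≤ (a + 1 * t) ^ (e + 1) := pow_le_pow_left₀ h0 (by linarith [ht.1]) _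
    have k4 := mul_le_mul_of_nonneg_left k3 (show (0 : ℝ) ≤ e + 1 by positivity)
    rw [pow_succ (a + 1 * t)] at k4
    linarith
  simpa using this

end EPsi

open EPsi in
theorem s_Psi : EPsiS := by
  intro d K K' σ σ' ρ hd hK hσ hρ h1 h2
  obtain ⟨e, rfl⟩ : ∃ e, d = e + 1 := ⟨d - 1, by omega⟩
  push_cast at h1 ⊢
  have k0 : 0 ≤ min K σ := le_min hK hσ
  have k1 := min_le_left K σ
  have k2 := min_le_right K σ
  have e0 : (0 : ℝ) ≤ e := e.cast_nonneg
  have e1 : Fz (e + 1) K σ = g (e + 1) σ (min K σ) := rfl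
  refine ⟨le_trans (by simp [g]) (le_Fz e le_rfl hK hσ le_rfl), ?_⟩
  rw [e1]
  rcases le_or_gt (min K σ + (e + 1) * ρ) (σ + ρ) with h | h
  · have := (reg1 e k0 k2 hρ h).trans (le_Fz e (K := K') (by positivity) (by linarith) h h2)
    linarith
  · have e2 : (0 : ℝ) < e := by
      by_contra hn
      nlinarith [mul_nonneg hρ (sub_nonneg.2 (not_lt.1 hn))]
    obtain ⟨t, ht⟩ : ∃ t, e * t = σ - min K σ := ⟨_, mul_div_cancel₀ _ e2.ne'⟩
    have t0 : 0 ≤ t := le_of_mul_le_mul_left (by linarith) e2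
    have t1 : t ≤ ρ := le_of_mul_le_mul_left (by linarith) e2
    have a1 := reg1 e k0 k2 t0 (by linarith)
    have a2 := reg2 e (add_nonneg hσ t0) (sub_nonneg.2 t1)
    rw [show min K σ + (e + 1) * t = σ + t by linarith] at a1
    rw [show σ + t + (ρ - t) = σ + ρ by ring] at a2
    have a3 := le_Fz e (K := K') (add_nonneg hσ hρ) (by linarith) le_rfl h2
    have a4 : (e + 1) * σ ^ (e + 1) * (ρ - t) ≤ (e + 1) * (σ + t) ^ (e + 1) * (ρ - t) := by
      have := sub_nonneg.2 t1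
      gcongr
      linarith
    linarith

end Fuj
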