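import Vale.Agent.P271.EDefs

open MeasureTheory Set Filter Topology Metric Asymptotics

noncomputable section
namespace Fuj

section
variable {n d : ℕ} {L : Loc n} {v : (E n → ℂ) → ℝ} {φ : E d → E n}

theorem eRep_gt_cast {k k' : ℕ} {a : ℝ} {s : E n → ℂ} (e : k = k') (h : L.Gt v k a s) :
    L.Gt v k' a s := e ▸ h

theorem eRep_mem_cast {k k' : ℕ} {s : E n → ℂ} (e : k = k') (h : s ∈ L.V k) : s ∈ L.V k' := e ▸ h

theorem eRep_ne (hφ : L.Arc v φ) {k : ℕ} {g : E n → ℂ} (hg : g ∈ L.V k) (h0 : g (φ 0) ≠ 0) :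
    ∀ᶠ z in 𝓝 (0 : E d), g (φ z) ≠ 0 :=
  (Loc.an_comp hφ.an hφ.mem hg).continuousAt.eventually_ne h0

end

theorem s_Rep : RepS := by
  intro n d N L v φ M a e hv hφ hF
  refine ⟨?_, ?_, ?_, ?_, ?_, ?_, ?_⟩
  · rintro m s H H' _ ⟨_, k₁, k₂, g, h, e1, hg, hg0, hh, hG, hH⟩
      ⟨_, k₁', k₂', g', h', e1', hg', hg0', hh', hG', hH'⟩ α
    have h1 : L.Gt v (k₁' + k₂ + M) a (g * (g' * s - ∑ α, h' α * e α)) :=
      eRep_gt_cast (by omega) (hv.mul_gt hg hG')
    have h2 : L.Gt v (k₁' + k₂ + M) a (g' * (g * s - ∑ α, h α * e α)) :=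
      eRep_gt_cast (by omega) (hv.mul_gt hg' hG)
    have h3 := hv.gt_sub h1 h2
    have e3 : g * (g' * s - ∑ α, h' α * e α) - g' * (g * s - ∑ α, h α * e α)
        = ∑ α, (g' * h α - g * h' α) * e α := by
      simp only [mul_sub, sub_mul, Finset.sum_sub_distrib, Finset.mul_sum, mul_assoc]
      ring
    rw [e3] at h3
    have hm : ∀ α, g' * h α - g * h' α ∈ L.V (k₁' + k₂) := fun α =>
      sub_mem (L.mul hg' (hh α)) (eRep_mem_cast (by omega) (L.mul hg (hh' α)))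
    have h4 := (hφ.iff _ _ (hm α)).1 (hF.ind _ _ hm h3 α)
    filter_upwards [h4, hH α, hH' α, eRep_ne hφ hg hg0, eRep_ne hφ hg' hg0'] with z z1 z2 z3 z4 z5
    simp only [Pi.sub_apply, Pi.mul_apply] at z1
    rw [← z2, ← z3] at z1
    have : g (φ z) * g' (φ z) * (H α z - H' α z) = 0 := by linear_combination z1
    exact sub_eq_zero.1 ((mul_eq_zero.1 this).resolve_left (mul_ne_zero z4 z5))
  · rintro m s s' H H' ⟨a1, k₁, k₂, g, h, e1, hg, hg0, hh, hG, hH⟩
      ⟨a2, k₁', k₂', g', h', e1', hg', hg0', hh', hG', hH'⟩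
    refine ⟨fun α => (a1 α).add (a2 α), k₁ + k₁', k₁' + k₂, g * g', fun α => g' * h α + g * h' α,
      by omega, L.mul hg hg', mul_ne_zero hg0 hg0', fun α =>
        add_mem (L.mul hg' (hh α)) (eRep_mem_cast (by omega) (L.mul hg (hh' α))), ?_, fun α => ?_⟩
    · have h1 : L.Gt v (k₁' + k₂ + M) a (g * (g' * s' - ∑ α, h' α * e α)) :=
        eRep_gt_cast (by omega) (hv.mul_gt hg hG')
      have h2 : L.Gt v (k₁' + k₂ + M) a (g' * (g * s - ∑ α, h α * e α)) :=
        eRep_gt_cast (by omega) (hv.mul_gt hg' hG)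
      have h3 := hv.gt_add h1 h2
      have e3 : g * (g' * s' - ∑ α, h' α * e α) + g' * (g * s - ∑ α, h α * e α)
          = g * g' * (s + s') - ∑ α, (g' * h α + g * h' α) * e α := by
        simp only [mul_sub, add_mul, Finset.sum_add_distrib, Finset.mul_sum, mul_assoc]
        ring
      rwa [e3] at h3
    · filter_upwards [hH α, hH' α] with z z2 z3
      simp only [Pi.add_apply, Pi.mul_apply]
      rw [← z2, ← z3]
      ring
  · rintro m s H c ⟨a1, k₁, k₂, g, h, e1, hg, hg0, hh, hG, hH⟩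
    refine ⟨fun α => (a1 α).const_smul (c := c), k₁, k₂, g, fun α => c • h α, e1, hg, hg0,
      fun α => Submodule.smul_mem _ c (hh α), ?_, fun α => ?_⟩
    · have h3 := hv.gt_smul c hG
      have e3 : c • (g * s - ∑ α, h α * e α) = g * (c • s) - ∑ α, (c • h α) * e α := by
        simp only [smul_sub, Finset.smul_sum, mul_smul_comm, smul_mul_assoc]
      rwa [e3] at h3
    · filter_upwards [hH α] with z z2
      simp only [Pi.smul_apply, smul_eq_mul]
      rw [← z2]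
      ring
  · rintro m q s w H hw ⟨a1, k₁, k₂, g, h, e1, hg, hg0, hh, hG, hH⟩
    refine ⟨fun α => (Loc.an_comp hφ.an hφ.mem hw).mul (a1 α), k₁, q + k₂, g, fun α => w * h α,
      by omega, hg, hg0, fun α => L.mul hw (hh α), ?_, fun α => ?_⟩
    · have h3 : L.Gt v (q + k₂ + M) a (w * (g * s - ∑ α, h α * e α)) :=
        eRep_gt_cast (by omega) (hv.mul_gt hw hG)
      have e3 : w * (g * s - ∑ α, h α * e α) = g * (w * s) - ∑ α, (w * h α) * e α := by
        simp only [mul_sub, Finset.mul_sum, mul_assoc]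
        ring
      rwa [e3] at h3
    · filter_upwards [hH α] with z z2
      simp only [Pi.mul_apply]
      rw [← z2]
      ring
  · rintro m s H hs ⟨a1, k₁, k₂, g, h, e1, hg, hg0, hh, hG, hH⟩
    constructor
    · intro h1 α
      have h2 : L.Gt v (k₂ + M) a (g * s) := eRep_gt_cast e1 (hv.mul_gt hg h1)
      have h3 := hv.gt_sub h2 hG
      rw [sub_sub_cancel] at h3
      have h4 := (hφ.iff _ _ (hh α)).1 (hF.ind _ _ hh h3 α)
      filter_upwards [h4, hH α, eRep_ne hφ hg hg0] with z z1 z2 z3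
      rw [z1] at z2
      exact (mul_eq_zero.1 z2).resolve_right z3
    · intro h1
      have h2 : ∀ α, L.Gt v k₂ 0 (h α) := fun α => (hφ.iff _ _ (hh α)).2 (by
        filter_upwards [h1 α, hH α] with z z1 z2
        rw [← z2, z1, zero_mul])
      have h3 : L.Gt v (k₂ + M) a (∑ α, h α * e α) := hv.gt_sum _ fun α _ => by
        have := hv.gt_mul (h2 α) (hF.ge α)
        rwa [zero_add] at this
      have h4 := hv.gt_add hG h3
      rw [sub_add_cancel] at h4
      obtain ⟨g1, g2⟩ := hv.arc_zero hφ hg hg0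
      exact hv.gt_cancel hg g1 g2 hs h4
  · rintro m s s' H ⟨a1, k₁, k₂, g, h, e1, hg, hg0, hh, hG, hH⟩ hs'
    refine ⟨a1, k₁, k₂, g, h, e1, hg, hg0, hh, ?_, hH⟩
    have h3 := hv.gt_add hG (eRep_gt_cast e1 (hv.mul_gt hg hs'))
    have e3 : g * s - ∑ α, h α * e α + g * s' = g * (s + s') - ∑ α, h α * e α := by ring
    rwa [e3] at h3
  · intro m k k' s g b hS hg hg0 hb hb0 e1 hs
    have h1 : L.Ge v M a (b * s) := e1 ▸ hv.mul_ge hb hs
    obtain ⟨h, hh, hG⟩ := hS _ h1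
    rw [← mul_assoc] at hG
    have hgb : g * b ∈ L.V (k + k') := L.mul hg hb
    have hgb0 : (g * b) (φ 0) ≠ 0 := mul_ne_zero hg0 hb0
    have hH : ∀ α, ∀ᶠ z in 𝓝 (0 : E d),
        h α (φ z) / (g * b) (φ z) * (g * b) (φ z) = h α (φ z) := fun α =>
      (eRep_ne hφ hgb hgb0).mono fun z hz => div_mul_cancel₀ _ hz
    exact ⟨fun α z => h α (φ z) / (g * b) (φ z), h,
      ⟨fun α => (Loc.an_comp hφ.an hφ.mem (hh α)).div (Loc.an_comp hφ.an hφ.mem hgb) hgb0,
        k + k', k, g * b, h, by omega, hgb, hgb0, hh, hG, hH⟩, hh, hG, hH⟩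

end Fuj
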