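import Vale.Agent.P271.EAdapt
import Vale.Agent.P271.EBM
import Vale.Agent.P271.EBound
import Vale.Agent.P271.ECount
import Vale.Agent.P271.ECube
import Vale.Agent.P271.EFrame
import Vale.Agent.P271.EIni
import Vale.Agent.P271.ELD
import Vale.Agent.P271.ELat
import Vale.Agent.P271.ELead
import Vale.Agent.P271.ENum
import Vale.Agent.P271.EPert
import Vale.Agent.P271.EPsi
import Vale.Agent.P271.ERep

namespace Fuj

theorem e_PartE : PartE :=
  have hL := s_Lead s_Ini
  have hC := s_Cube hL s_Adapt s_BM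
  s_PartE hL hC s_Num (s_Pert hL (s_Frame s_Adapt) s_Rep hC (s_Count s_Psi s_Lat)
    (s_LD hL s_Adapt s_Rep) s_Bound)

end Fuj
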