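import Vale.Agent.P271.FBasic

/-! Problem P271, part F: adapted bases for ultrametric weights. -/

open Set

noncomputable section
namespace Fuj

namespace FAdaptX

variable {Y : Type} [AddCommGroup Y] [Module ℂ Y]

/-- the elements whose weight lies in an upper set -/
def sub {W : Submodule ℂ Y} {w : Y → ℝ} (h : Ultra W w) (p : ℝ → Prop)
    (hp : ∀ a b, p a → a ≤ b → p b) : Submodule ℂ Y where
  carrier := {z | z ∈ W ∧ (z = 0 ∨ p (w z))}
  zero_mem' := ⟨W.zero_mem, Or.inl rfl⟩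
  add_mem' := by
    rintro a b ⟨ha, ha'⟩ ⟨hb, hb'⟩
    refine ⟨W.add_mem ha hb, ?_⟩
    by_cases h0 : a + b = 0
    · exact Or.inl h0
    by_cases h1 : a = 0
    · subst h1; simpa using hb'
    by_cases h2 : b = 0
    · subst h2; simpa using ha'
    refine Or.inr (hp _ _ ?_ (h.add a ha b hb h1 h2 h0))
    rcases min_choice (w a) (w b) with h3 | h3 <;> rw [h3]
    · exact ha'.resolve_left h1
    · exact hb'.resolve_left h2
  smul_mem' := by
    rintro c a ⟨ha, ha'⟩
    refine ⟨W.smul_mem c ha, ?_⟩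
    by_cases h0 : c = 0
    · exact Or.inl (by rw [h0, zero_smul])
    rcases ha' with h1 | h1
    · exact Or.inl (by rw [h1, smul_zero])
    · exact Or.inr (by rwa [h.smul a ha c h0])

theorem exists_min {W : Submodule ℂ Y} [FiniteDimensional ℂ W] {w : Y → ℝ} (h : Ultra W w)
    {k : ℕ} (hk : Module.finrank ℂ W = k + 1) :
    ∃ s₀ ∈ W, s₀ ≠ 0 ∧ ∀ z ∈ W, z ≠ 0 → w s₀ ≤ w z := by
  let b := Module.finBasisOfFinrankEq ℂ W hk
  obtain ⟨i₀, hi⟩ := Finite.exists_min fun i => w (b i)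
  refine ⟨b i₀, (b i₀).2, fun h0 => b.ne_zero i₀ (Subtype.ext h0), fun z hz h0 => ?_⟩
  have h1 : z ∈ sub h (fun a => w (b i₀) ≤ a) fun _ _ => le_trans := by
    have h2 : z = ∑ i, b.repr ⟨z, hz⟩ i • (b i : Y) := by
      have h3 := congrArg W.subtype (b.sum_repr ⟨z, hz⟩)
      rw [map_sum] at h3
      exact h3.symm
    rw [h2]
    exact Submodule.sum_mem _ fun i _ => Submodule.smul_mem _ _ ⟨(b i).2, Or.inr (hi i)⟩
  exact h1.2.resolve_left h0

theorem main (w : Y → ℝ) (k : ℕ) : ∀ (W : Submodule ℂ Y) [FiniteDimensional ℂ W],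
    Module.finrank ℂ W = k → Ultra W w →
    ∃ s : Fin k → Y, (∀ i, s i ∈ W) ∧ LinearIndependent ℂ s ∧
      ∀ (c : Fin k → ℂ) i, c i ≠ 0 → w (∑ j, c j • s j) ≤ w (s i) := by
  induction k with
  | zero =>
    intro W _ _ _
    exact ⟨Fin.elim0, fun i => i.elim0, linearIndependent_empty_type, fun _ i => i.elim0⟩
  | succ k ih =>
    intro W _ hk h
    obtain ⟨s₀, hs, hs0, hmin⟩ := exists_min h hk
    have h1 : s₀ ∉ sub h (fun a => w s₀ < a) fun _ _ => lt_of_lt_of_le := fun h1 =>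
      h1.2.elim hs0 (lt_irrefl _)
    obtain ⟨φ, hφ, hφ'⟩ := Submodule.exists_dual_map_eq_bot_of_notMem h1 inferInstance
    have hH : ∀ z, z ∈ (LinearMap.ker (φ.domRestrict W)).map W.subtype ↔ z ∈ W ∧ φ z = 0 := by
      intro z
      constructor
      · rintro ⟨x, hx, rfl⟩
        exact ⟨x.2, hx⟩
      · rintro ⟨h2, h3⟩
        exact ⟨⟨z, h2⟩, h3, rfl⟩
    have hr : Module.finrank ℂ ((LinearMap.ker (φ.domRestrict W)).map W.subtype) = k := by
      have h2 := LinearMap.finrank_range_add_finrank_ker (φ.domRestrict W)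
      have h3 : LinearMap.range (φ.domRestrict W) = ⊤ := by
        rw [eq_top_iff]
        intro x _
        refine ⟨(x / φ s₀) • ⟨s₀, hs⟩, ?_⟩
        simp [hφ]
      rw [h3, finrank_top, Module.finrank_self, hk] at h2
      rw [Submodule.finrank_map_subtype_eq]
      omega
    obtain ⟨s, m1, m2, m3⟩ := ih _ hr
      ⟨fun a ha => h.smul a ((hH a).1 ha).1,
        fun a ha b hb => h.add a ((hH a).1 ha).1 b ((hH b).1 hb).1⟩
    have hm : ∀ i, (Fin.cons s₀ s : Fin (k + 1) → Y) i ∈ W :=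
      Fin.cases hs fun i => ((hH _).1 (m1 i)).1
    have hli : LinearIndependent ℂ (Fin.cons s₀ s : Fin (k + 1) → Y) := by
      refine m2.finCons fun h2 => hφ ?_
      have h3 : Submodule.span ℂ (range s) ≤ (LinearMap.ker (φ.domRestrict W)).map W.subtype :=
        Submodule.span_le.2 (by rintro _ ⟨i, rfl⟩; exact m1 i)
      exact ((hH _).1 (h3 h2)).2
    refine ⟨Fin.cons s₀ s, hm, hli, fun c i hc => ?_⟩
    by_cases h0 : c 0 = 0
    · rw [Fin.sum_univ_succ, h0, zero_smul, zero_add]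
      revert hc
      refine Fin.cases (fun hc => absurd h0 hc) (fun i hc => ?_) i
      exact m3 (fun j => c j.succ) i hc
    · refine le_trans (not_lt.1 fun h2 => ?_) (hmin _ (hm i) (hli.ne_zero i))
      have h3 : ∑ j, c j • (Fin.cons s₀ s : Fin (k + 1) → Y) j ∈
          sub h (fun a => w s₀ < a) fun _ _ => lt_of_lt_of_le :=
        ⟨Submodule.sum_mem _ fun j _ => W.smul_mem _ (hm j), Or.inr h2⟩
      have h4 : φ (∑ j, c j • (Fin.cons s₀ s : Fin (k + 1) → Y) j) = 0 := by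
        rw [← Submodule.mem_bot ℂ, ← hφ']
        exact Submodule.mem_map_of_mem h3
      have h5 : ∀ j, φ (s j) = 0 := fun j => ((hH _).1 (m1 j)).2
      rw [Fin.sum_univ_succ, map_add, map_sum] at h4
      simp [h5, h0, hφ] at h4

end FAdaptX

theorem fAdapt : AdaptS := fun _ _ _ W _ w h => FAdaptX.main w _ W rfl h

end Fuj
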