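import Vale.Agent.P271.FStm

/-! Problem P271, part F: elementary facts used everywhere. -/

open MeasureTheory Set Filter Topology Metric
open scoped ENNReal NNReal

noncomputable section
namespace Fuj

/-! ### orders of vanishing -/

section
variable {X : Type*} [NormedAddCommGroup X] {y : X} {r r' : ℕ} {f g : X → ℂ}

@[simp] theorem mem_OrdS : f ∈ OrdS y r ↔ Ord y r f := Iff.rfl

theorem Ord.mono (h : Ord y r f) (hr : r' ≤ r) : Ord y r' f := by
  refine Asymptotics.IsBigO.trans h (Asymptotics.IsBigO.of_bound 1 ?_)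
  filter_upwards [ball_mem_nhds y one_pos] with z hz
  rw [mem_ball_iff_norm] at hz
  rw [one_mul, Real.norm_of_nonneg (by positivity), Real.norm_of_nonneg (by positivity)]
  exact pow_le_pow_of_le_one (norm_nonneg _) hz.le hr

theorem OrdS_anti (hr : r' ≤ r) : OrdS y r ≤ OrdS y r' := fun _ h => Ord.mono h hr

theorem ord_zero_of_continuousAt (h : ContinuousAt f y) : Ord y 0 f := by
  unfold Ord; simp only [pow_zero]; exact h.tendsto.isBigO_one ℝ

theorem Ord.eq_zero (h : Ord y (r + 1) f) : f y = 0 := by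
  obtain ⟨C, hC⟩ := h.bound
  have := hC.self_of_nhds
  simpa using this

theorem Ord.mul (hf : Ord y r f) (hg : Ord y r' g) : Ord y (r + r') (f * g) := by
  unfold Ord; simp only [pow_add]; exact Asymptotics.IsBigO.mul hf hg

theorem Ord.bound (h : Ord y r f) : ∃ C : ℝ, 0 < C ∧ ∀ᶠ z in 𝓝 y, ‖f z‖ ≤ C * ‖z - y‖ ^ r := by
  obtain ⟨C, hC, h⟩ := h.exists_pos
  refine ⟨C, hC, ?_⟩
  filter_upwards [h.bound] with z hz
  rwa [Real.norm_of_nonneg (by positivity : 0 ≤ ‖z - y‖ ^ r)] at hz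

theorem ord_of_bound {C : ℝ} (h : ∀ᶠ z in 𝓝 y, ‖f z‖ ≤ C * ‖z - y‖ ^ r) : Ord y r f := by
  refine Asymptotics.IsBigO.of_bound C ?_
  filter_upwards [h] with z hz
  rwa [Real.norm_of_nonneg (by positivity : 0 ≤ ‖z - y‖ ^ r)]

end

/-! ### monomials -/

theorem mem_MonE {n i : ℕ} {β : Fin n → ℕ} : β ∈ MonE n i ↔ ∑ a, β a = i := by
  simp [MonE, Finset.mem_piAntidiag]

theorem mem_MonL {n j : ℕ} {β : Fin n → ℕ} : β ∈ MonL n j ↔ ∑ a, β a ≤ j := by
  simp [MonL, mem_MonE]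

instance (n i : ℕ) : FiniteDimensional ℂ (Hom n i) :=
  FiniteDimensional.span_of_finite ℂ ((MonE n i).finite_toSet.image _)

theorem finrank_Hom_le (n i : ℕ) : Module.finrank ℂ (Hom n i) ≤ (MonE n i).card := by
  classical
  unfold Hom
  rw [← Finset.coe_image]
  exact (finrank_span_finset_le_card _).trans Finset.card_image_le

theorem mon_mem_Hom {n i : ℕ} {β : Fin n → ℕ} (h : ∑ a, β a = i) : mon β ∈ Hom n i :=
  Submodule.subset_span ⟨β, mem_MonE.2 h, rfl⟩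

theorem mon_add {n : ℕ} (β β' : Fin n → ℕ) : mon (β + β') = mon β * mon β' := by
  funext z; simp [mon, pow_add, Finset.prod_mul_distrib]

theorem analyticAt_mon {n : ℕ} (β : Fin n → ℕ) (z : E n) : AnalyticAt ℂ (mon β) z := by
  unfold mon
  exact Finset.analyticAt_fun_prod _ fun i _ =>
    ((ContinuousLinearMap.proj (R := ℂ) (φ := fun _ : Fin n => ℂ) i).analyticAt z).pow _

theorem Hom.analyticAt {n i : ℕ} {P : E n → ℂ} (h : P ∈ Hom n i) (z : E n) :
    AnalyticAt ℂ P z := by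
  induction h using Submodule.span_induction with
  | mem x hx => obtain ⟨β, -, rfl⟩ := hx; exact analyticAt_mon β z
  | zero => exact analyticAt_const
  | add x y _ _ hx hy => exact hx.add hy
  | smul c x _ hx => exact hx.const_smul

theorem Hom.smul_apply {n i : ℕ} {P : E n → ℂ} (h : P ∈ Hom n i) (c : ℂ) (z : E n) :
    P (c • z) = c ^ i * P z := by
  induction h using Submodule.span_induction with
  | mem x hx =>
    obtain ⟨β, hβ, rfl⟩ := hx
    simp only [mon, Pi.smul_apply, smul_eq_mul, mul_pow, Finset.prod_mul_distrib,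
      Finset.prod_pow_eq_pow_sum, mem_MonE.1 hβ]
  | zero => simp
  | add x y _ _ hx hy => simp [hx, hy, mul_add]
  | smul a x _ hx => simp [hx]; ring

theorem Hom.mul {n i j : ℕ} {P Q : E n → ℂ} (hP : P ∈ Hom n i) (hQ : Q ∈ Hom n j) :
    P * Q ∈ Hom n (i + j) := by
  induction hP using Submodule.span_induction with
  | mem x hx =>
    obtain ⟨β, hβ, rfl⟩ := hx
    induction hQ using Submodule.span_induction with
    | mem x hx =>
      obtain ⟨β', hβ', rfl⟩ := hx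
      rw [← mon_add]
      exact mon_mem_Hom (by simp [Finset.sum_add_distrib, mem_MonE.1 hβ, mem_MonE.1 hβ'])
    | zero => simp
    | add x y _ _ hx hy => rw [mul_add]; exact Submodule.add_mem _ hx hy
    | smul a x _ hx => rw [mul_smul_comm]; exact Submodule.smul_mem _ _ hx
  | zero => simp
  | add x y _ _ hx hy => rw [add_mul]; exact Submodule.add_mem _ hx hy
  | smul a x _ hx => rw [smul_mul_assoc]; exact Submodule.smul_mem _ _ hx

/-! ### dimension counts -/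

section
variable {Y : Type*} [AddCommGroup Y] [Module ℂ Y]

theorem finrank_span_image {ι : Type*} [Fintype ι] {s : ι → Y} (hs : LinearIndependent ℂ s)
    (p : ι → Prop) [DecidablePred p] :
    Module.finrank ℂ (Submodule.span ℂ (s '' {i | p i})) = (Finset.univ.filter p).card := by
  have h1 : LinearIndependent ℂ (fun i : {i // p i} => s i) := hs.comp _ Subtype.val_injective
  have h2 : s '' {i | p i} = range (fun i : {i // p i} => s i) := by
    ext z; simp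
  rw [h2, finrank_span_eq_card h1, Fintype.card_subtype]

/-- elements of `W` that are independent modulo `Z` bound the codimension of `W ⊓ Z` -/
theorem codim_ge {ι : Type*} (W Z : Submodule ℂ Y) [FiniteDimensional ℂ W] (T : Finset ι)
    (g : ι → Y) (hg : ∀ β ∈ T, g β ∈ W)
    (hi : ∀ c : ι → ℂ, ∑ β ∈ T, c β • g β ∈ Z → ∀ β ∈ T, c β = 0) :
    Module.finrank ℂ ↥(W ⊓ Z) + T.card ≤ Module.finrank ℂ W := by
  classical
  have ext : ∀ c : T → ℂ, ∑ β : T, c β • g β ∈ Z → ∀ β, c β = 0 := by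
    intro c hc β
    have := hi (fun b => if h : b ∈ T then c ⟨b, h⟩ else 0) (by
      rw [← Finset.sum_coe_sort]; simpa using hc) β β.2
    simpa using this
  have li : LinearIndependent ℂ (fun β : T => g β) := by
    rw [Fintype.linearIndependent_iff]
    intro c hc; exact ext c (by rw [hc]; exact Z.zero_mem)
  set G := Submodule.span ℂ (range fun β : T => g β) with hG
  have hGW : G ≤ W := Submodule.span_le.2 (by rintro _ ⟨β, rfl⟩; exact hg _ β.2)
  have hd : (W ⊓ Z) ⊓ G = ⊥ := by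
    rw [eq_bot_iff]
    rintro z ⟨⟨-, hz⟩, hz'⟩
    obtain ⟨c, rfl⟩ := (Submodule.mem_span_range_iff_exists_fun ℂ).1 hz'
    have := ext c hz
    simp [this]
  have : FiniteDimensional ℂ ↥(W ⊓ Z) := Submodule.finiteDimensional_of_le inf_le_left
  have : FiniteDimensional ℂ G := Submodule.finiteDimensional_of_le hGW
  have h1 := Submodule.finrank_sup_add_finrank_inf_eq (W ⊓ Z) G
  rw [hd, finrank_bot, add_zero, finrank_span_eq_card li, Fintype.card_coe] at h1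
  rw [← h1]
  exact Submodule.finrank_mono (sup_le inf_le_left hGW)

/-- if every element of `W` is in `P` modulo `Z` then `W ⊓ Z` has codimension at most `dim P` -/
theorem codim_le (W Z P : Submodule ℂ Y) [FiniteDimensional ℂ W] [FiniteDimensional ℂ P]
    (h : ∀ s ∈ W, ∃ p ∈ P, s - p ∈ Z) :
    Module.finrank ℂ W ≤ Module.finrank ℂ ↥(W ⊓ Z) + Module.finrank ℂ P := by
  have h1 := LinearMap.finrank_range_add_finrank_ker (Z.mkQ.comp W.subtype)
  have h2 : Module.finrank ℂ (LinearMap.ker (Z.mkQ.comp W.subtype))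
      = Module.finrank ℂ ↥(W ⊓ Z) := by
    rw [LinearMap.ker_comp, Submodule.ker_mkQ, ← Submodule.finrank_map_subtype_eq,
      Submodule.map_comap_subtype]
  have h3 : LinearMap.range (Z.mkQ.comp W.subtype) ≤ P.map Z.mkQ := by
    rintro _ ⟨s, rfl⟩
    obtain ⟨p, hp, hs⟩ := h s s.2
    exact ⟨p, hp, ((Submodule.Quotient.eq Z).2 hs).symm⟩
  have h4 := (Submodule.finrank_mono h3).trans (Submodule.finrank_map_le Z.mkQ P)
  omega

end

theorem cntL_add_cntG {k : ℕ} (a : Fin k → ℝ) (x : ℝ) : cntL a x + cntG a x = k := by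
  classical
  unfold cntL cntG
  have := Finset.card_filter_add_card_filter_not (s := (Finset.univ : Finset (Fin k)))
    (fun i => a i < x)
  simp only [not_lt, Finset.card_univ, Fintype.card_fin] at this
  convert this

theorem cntG_le {k : ℕ} (a : Fin k → ℝ) (x : ℝ) : cntG a x ≤ k := by
  have := cntL_add_cntG a x; omega

/-! ### sums and volumes -/

theorem summable_pow_exp (k : ℕ) {τ : ℝ} (hτ : 0 < τ) :
    Summable fun m : ℕ => ((m : ℝ) + 1) ^ k * Real.exp (-τ * (m + 1)) := by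
  have h := (summable_nat_add_iff 1).2 (Real.summable_pow_mul_exp_neg_nat_mul k hτ)
  simpa using h

theorem tsum_pow_exp_le (k : ℕ) {τ : ℝ} (hτ : 0 < τ) :
    ∑' m : ℕ, ((m : ℝ) + 1) ^ k * Real.exp (-τ * (m + 1)) ≤ k.factorial * (2 / τ) ^ (k + 1) := by
  have hq : Real.exp (-τ / 2) < 1 := Real.exp_lt_one_iff.2 (by linarith)
  have hq0 := Real.exp_pos (-τ / 2)
  have h1 : ∀ m : ℕ, ((m : ℝ) + 1) ^ k * Real.exp (-τ * (m + 1)) ≤
      k.factorial * (2 / τ) ^ k * (Real.exp (-τ / 2) * Real.exp (-τ / 2) ^ m) := by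
    intro m
    have h2 := Real.pow_div_factorial_le_exp (τ / 2 * (m + 1)) (by positivity) k
    rw [div_le_iff₀ (by positivity)] at h2
    have e1 : ((m : ℝ) + 1) ^ k = (2 / τ) ^ k * (τ / 2 * (m + 1)) ^ k := by
      rw [← mul_pow]; congr 1; field_simp
    have e2 : Real.exp (-τ / 2) * Real.exp (-τ / 2) ^ m
        = Real.exp (τ / 2 * (m + 1)) * Real.exp (-τ * (m + 1)) := by
      rw [← Real.exp_nat_mul, ← Real.exp_add, ← Real.exp_add]; congr 1; ring
    rw [e1, e2]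
    calc _ ≤ (2 / τ) ^ k * (Real.exp (τ / 2 * (m + 1)) * k.factorial)
          * Real.exp (-τ * (m + 1)) := by gcongr
      _ = _ := by ring
  have hs := summable_geometric_of_lt_one hq0.le hq
  refine ((summable_pow_exp k hτ).tsum_le_tsum h1 ((hs.mul_left _).mul_left _)).trans ?_
  rw [tsum_mul_left, tsum_mul_left, tsum_geometric_of_lt_one hq0.le hq, pow_succ, ← mul_assoc]
  rw [mul_assoc ((k.factorial : ℝ) * (2 / τ) ^ k), ← mul_assoc (k.factorial : ℝ)]
  gcongr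
  rw [← div_eq_mul_inv, div_le_div_iff₀ (by linarith) hτ]
  have h3 := Real.add_one_le_exp (τ / 2)
  have h4 : Real.exp (-τ / 2) * Real.exp (τ / 2) = 1 := by
    rw [← Real.exp_add]; simp [neg_div]
  nlinarith

theorem vol_ball {n : ℕ} (y : E n) {r : ℝ} (hr : 0 < r) :
    volume (ball y r) = ENNReal.ofReal ((Real.pi * r ^ 2) ^ n) := by
  rw [volume_pi_ball y hr]
  simp only [Complex.volume_ball, Finset.prod_const, Finset.card_univ, Fintype.card_fin]
  rw [ENNReal.ofReal_pow (by positivity), ENNReal.ofReal_mul Real.pi_pos.le,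
    ENNReal.ofReal_pow hr.le, mul_comm]
  congr 2
  rw [← NNReal.coe_real_pi, ENNReal.ofReal_coe_nnreal]

/-! ### the local model -/

namespace Loc
variable {n : ℕ} {L : Loc n}

instance (m : ℕ) : FiniteDimensional ℂ (L.V m) := L.fd m

theorem anAt {m : ℕ} {s : E n → ℂ} (h : s ∈ L.V m) {p : E n} (hp : ‖p‖ < 2) : AnalyticAt ℂ s p :=
  L.an h p (mem_ball_zero_iff.2 hp)

theorem an0 {m : ℕ} {s : E n → ℂ} (h : s ∈ L.V m) : AnalyticAt ℂ s 0 := anAt h (by simp)

theorem pow_mem {m : ℕ} {s : E n → ℂ} (h : s ∈ L.V m) (k : ℕ) : s ^ k ∈ L.V (k * m) := by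
  induction k with
  | zero => simpa using L.one
  | succ k ih => rw [pow_succ, Nat.succ_mul]; exact L.mul ih h

theorem prod_mem {ι : Type*} (T : Finset ι) (m : ι → ℕ) (s : ι → E n → ℂ)
    (h : ∀ j ∈ T, s j ∈ L.V (m j)) : ∏ j ∈ T, s j ∈ L.V (∑ j ∈ T, m j) := by
  classical
  induction T using Finset.induction_on with
  | empty => simpa using L.one
  | insert a T ha ih =>
    rw [Finset.prod_insert ha, Finset.sum_insert ha]
    exact L.mul (h a (Finset.mem_insert_self _ _)) (ih fun j hj => h j (Finset.mem_insert_of_mem hj))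

theorem mul_ne_zero {m m' : ℕ} {s s' : E n → ℂ} (h : s ∈ L.V m) (h' : s' ∈ L.V m') (h0 : s ≠ 0)
    (h0' : s' ≠ 0) : s * s' ≠ 0 := by
  intro hz
  obtain ⟨p, hp, hsp⟩ : ∃ p ∈ ball (0 : E n) 2, s p ≠ 0 := by
    by_contra hc; push Not at hc; exact h0 (L.inj h hc)
  have h1 : s' =ᶠ[𝓝 p] 0 := by
    filter_upwards [(L.an h p hp).continuousAt.eventually_ne hsp] with z hz'
    have := congrFun hz z
    simpa [hz'] using this
  exact h0' (L.inj h' ((L.an h').eqOn_zero_of_preconnected_of_eventuallyEq_zero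
    (convex_ball _ _).isPreconnected hp h1))

theorem exists_bound {m : ℕ} {s : E n → ℂ} (h : s ∈ L.V m) :
    ∃ C : ℝ, 0 < C ∧ ∀ p ∈ closedBall (0 : E n) 1, ‖s p‖ ≤ C := by
  obtain ⟨C, hC⟩ := (isCompact_closedBall (0 : E n) 1).exists_bound_of_continuousOn
    ((L.an h).continuousOn.mono (closedBall_subset_ball (by norm_num)))
  exact ⟨|C| + 1, by positivity, fun p hp => (hC p hp).trans (by linarith [le_abs_self C])⟩

theorem IsVal.ultra {v : (E n → ℂ) → ℝ} (h : L.IsVal v) (m : ℕ) : Ultra (L.V m) v :=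
  ⟨fun _ hs _ hc => h.smul hs hc, fun _ hs _ hs' => h.add hs hs'⟩

instance : Nonempty L.Flt :=
  ⟨⟨fun m i => (Module.finBasis ℂ (L.V (m + 1)) i : E n → ℂ), fun _ _ => 0, fun _ _ => Subtype.coe_prop _,
    fun m => (Module.finBasis ℂ (L.V (m + 1))).linearIndependent.map' (L.V (m + 1)).subtype
      (Submodule.ker_subtype _)⟩⟩

namespace Flt
variable (F : L.Flt)

theorem ne_zero (m : ℕ) (i : Fin (L.h (m + 1))) : F.s m i ≠ 0 := (F.li m).ne_zero i

theorem span_eq (m : ℕ) : Submodule.span ℂ (range (F.s m)) = L.V (m + 1) := by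
  apply Submodule.eq_of_le_of_finrank_eq
  · exact Submodule.span_le.2 (by rintro _ ⟨i, rfl⟩; exact F.mem m i)
  · rw [finrank_span_eq_card (F.li m), Fintype.card_fin]; rfl

theorem Fil_le (m : ℕ) (x : ℝ) : F.Fil m x ≤ L.V (m + 1) :=
  Submodule.span_le.2 (by rintro _ ⟨i, -, rfl⟩; exact F.mem m i)

instance (m : ℕ) (x : ℝ) : FiniteDimensional ℂ (F.Fil m x) :=
  Submodule.finiteDimensional_of_le (F.Fil_le m x)

theorem finrank_Fil (m : ℕ) (x : ℝ) : Module.finrank ℂ (F.Fil m x) = cntG (F.a m) x := by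
  classical
  unfold Fil cntG
  rw [finrank_span_image (F.li m)]

theorem mem_Fil_iff (m : ℕ) (x : ℝ) (i : Fin (L.h (m + 1))) :
    F.s m i ∈ F.Fil m x ↔ x ≤ F.a m i :=
  ⟨fun h => by_contra fun hc => (F.li m).notMem_span_image (s := {i | x ≤ F.a m i}) hc h,
    fun h => Submodule.subset_span ⟨i, h, rfl⟩⟩

theorem le_iff (G : L.Flt) : F.Le G ↔ ∀ m i, F.s m i ∈ G.Fil m (F.a m i) := by
  refine ⟨fun h m i => h m _ ((F.mem_Fil_iff m _ i).2 le_rfl), fun h m x => ?_⟩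
  refine Submodule.span_le.2 ?_
  rintro _ ⟨i, hi, rfl⟩
  exact Submodule.span_mono (image_mono fun j (hj : F.a m i ≤ G.a m j) => le_trans hi hj) (h m i)

theorem exists_ne_zero {m : ℕ} {s : E n → ℂ} (h : s ∈ L.V (m + 1)) {p : E n} (hp : s p ≠ 0) :
    ∃ i, F.s m i p ≠ 0 := by
  by_contra hc
  push Not at hc
  rw [← F.span_eq m] at h
  obtain ⟨c, rfl⟩ := (Submodule.mem_span_range_iff_exists_fun ℂ).1 h
  simp [hc] at hp

theorem W_nonneg (m : ℕ) : 0 ≤ F.W m := Finset.sum_nonneg fun _ _ => (Real.exp_pos _).le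

theorem exp_le_W (m : ℕ) (i : Fin (L.h (m + 1))) : Real.exp (-F.a m i) ≤ F.W m :=
  Finset.single_le_sum (f := fun i => Real.exp (-F.a m i)) (fun _ _ => (Real.exp_pos _).le)
    (Finset.mem_univ i)

theorem W_le_Xi (h : F.Sm) (m : ℕ) : F.W m ≤ F.Xi := h.le_tsum m fun _ _ => F.W_nonneg _

theorem K_le {M m : ℕ} (hm : m < M) (i : Fin (L.h (m + 1))) (lam t : ℝ) (p : E n) :
    F.K M lam t p ≤
      ENNReal.ofReal (‖F.s m i p‖ ^ 2 * Real.exp (F.a m i * t)) ^ (-(lam / (m + 1 : ℝ))) := by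
  have := iInf_le (fun j : L.Ix M => ENNReal.ofReal (‖F.s j.1 j.2 p‖ ^ 2 *
    Real.exp (F.a j.1 j.2 * t)) ^ (-(lam / ((j.1.val + 1 : ℕ) : ℝ)))) ⟨⟨m, hm⟩, i⟩
  simpa [K, Kf] using this

theorem le_K {M : ℕ} {lam t : ℝ} {p : E n} {x : ℝ≥0∞} (h : ∀ m, m < M → ∀ i, x ≤
    ENNReal.ofReal (‖F.s m i p‖ ^ 2 * Real.exp (F.a m i * t)) ^ (-(lam / (m + 1 : ℝ)))) :
    x ≤ F.K M lam t p :=
  le_iInf fun j => by simpa using h j.1 j.1.2 j.2

theorem K_anti {M M' : ℕ} (h : M ≤ M') (lam t : ℝ) (p : E n) : F.K M' lam t p ≤ F.K M lam t p :=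
  F.le_K fun _ hm i => F.K_le (hm.trans_le h) i lam t p

theorem measurable_K (M : ℕ) (lam t : ℝ) : Measurable (F.K M lam t) := by
  unfold K Kf
  refine Measurable.iInf fun j => ?_
  have := L.meas (F.mem j.1 j.2)
  fun_prop

theorem measurableSet_Sub (M : ℕ) (σ t : ℝ) : MeasurableSet (F.Sub M σ t) := by
  unfold Sub
  simp only [ofPred_forall]
  refine MeasurableSet.iInter fun m => MeasurableSet.iInter fun _ => MeasurableSet.iInter fun i => ?_
  have := L.meas (F.mem m i)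
  exact measurableSet_le (by fun_prop) measurable_const

theorem Sub_anti {M M' : ℕ} (h : M ≤ M') (σ t : ℝ) : F.Sub M' σ t ⊆ F.Sub M σ t :=
  fun _ hp m hm i => hp m (hm.trans_le h) i

theorem Sub_mono (M : ℕ) {σ σ' t : ℝ} (h : σ ≤ σ') (ht : 0 ≤ t) : F.Sub M σ t ⊆ F.Sub M σ' t :=
  fun _ hp m hm i => (hp m hm i).trans (by gcongr)

theorem ofReal_exp_rpow (x c : ℝ) :
    ENNReal.ofReal (Real.exp x) ^ c = ENNReal.ofReal (Real.exp (x * c)) := by
  rw [ENNReal.ofReal_rpow_of_pos (Real.exp_pos _), ← Real.exp_mul]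

theorem le_K_of_Sub {M : ℕ} {σ t lam : ℝ} (hl : 0 ≤ lam) {p : E n} (hp : p ∈ F.Sub M σ t) :
    ENNReal.ofReal (Real.exp (-lam * σ * t)) ≤ F.K M lam t p := by
  refine F.le_K fun m hm i => ?_
  have e : ENNReal.ofReal (Real.exp (-lam * σ * t)) =
      ENNReal.ofReal (Real.exp ((m + 1) * σ * t)) ^ (-(lam / (m + 1 : ℝ))) := by
    rw [ofReal_exp_rpow]; congr 2; field_simp
  rw [e, ENNReal.rpow_neg, ENNReal.rpow_neg]
  exact ENNReal.inv_le_inv.2 (ENNReal.rpow_le_rpow (ENNReal.ofReal_le_ofReal (hp m hm i))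
    (by positivity))

theorem K_le_of_not_Sub {M : ℕ} {σ t lam : ℝ} (hl : 0 ≤ lam) {p : E n} (hp : p ∉ F.Sub M σ t) :
    F.K M lam t p ≤ ENNReal.ofReal (Real.exp (-lam * σ * t)) := by
  simp only [Sub, mem_ofPred_eq, not_forall, not_le] at hp
  obtain ⟨m, hm, i, hi⟩ := hp
  refine (F.K_le hm i lam t p).trans ?_
  have e : ENNReal.ofReal (Real.exp (-lam * σ * t)) =
      ENNReal.ofReal (Real.exp ((m + 1) * σ * t)) ^ (-(lam / (m + 1 : ℝ))) := by
    rw [ofReal_exp_rpow]; congr 2; field_simp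
  rw [e, ENNReal.rpow_neg, ENNReal.rpow_neg]
  exact ENNReal.inv_le_inv.2 (ENNReal.rpow_le_rpow (ENNReal.ofReal_le_ofReal hi.le)
    (by positivity))

theorem LeL.mono {F : L.Flt} {y : E n} {lam ℓ ℓ' : ℝ} (h : F.LeL y lam ℓ) (hl : ℓ ≤ ℓ') :
    F.LeL y lam ℓ' := fun c hc => h c (hl.trans_lt hc)

/-- `Dec` with a large degree bound -/
theorem Dec.large {F : L.Flt} {y : E n} {lam c : ℝ} (h : F.Dec y lam c) (M₀ : ℕ) :
    ∃ M, M₀ ≤ M ∧ ∃ U ∈ 𝓝 y, ∃ C : ℝ, 0 < C ∧ ∀ t, 0 ≤ t →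
      ∫⁻ p in U, F.K M lam t p ≤ ENNReal.ofReal (C * Real.exp (-c * t)) := by
  obtain ⟨M, U, hU, C, h⟩ := h
  refine ⟨max M M₀, le_max_right _ _, U, hU, |C| + 1, by positivity, fun t ht => ?_⟩
  refine (lintegral_mono fun p => F.K_anti (le_max_left _ _) lam t p).trans ((h t ht).trans ?_)
  apply ENNReal.ofReal_le_ofReal
  gcongr
  linarith [le_abs_self C]

/-- large sublevel sets bound `L` from above -/
theorem leL_of_vol {y : E n} {lam ℓ : ℝ} (hl : 0 ≤ lam) (h : ∀ (M : ℕ), ∀ U ∈ 𝓝 y, ∀ ε T : ℝ,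
    0 < ε → ∃ t σ, T ≤ t ∧
      ENNReal.ofReal (Real.exp (-(ℓ + ε - lam * σ) * t)) ≤ volume (U ∩ F.Sub M σ t)) :
    F.LeL y lam ℓ := by
  intro c hc hD
  obtain ⟨M, -, U, hU, C, hC, hD⟩ := hD.large 0
  obtain ⟨t, σ, ht, hv⟩ := h M U hU ((c - ℓ) / 2) (max 0 (2 * C / (c - ℓ))) (by linarith)
  have ht0 : 0 ≤ t := (le_max_left _ _).trans ht
  have ht1 : 2 * C / (c - ℓ) ≤ t := (le_max_right _ _).trans ht
  rw [div_le_iff₀ (by linarith)] at ht1
  have h1 : ENNReal.ofReal (Real.exp (-lam * σ * t)) * volume (U ∩ F.Sub M σ t) ≤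
      ∫⁻ p in U, F.K M lam t p := by
    rw [inter_comm, ← Measure.restrict_apply (F.measurableSet_Sub M σ t),
      ← lintegral_indicator_const (F.measurableSet_Sub M σ t)]
    refine lintegral_mono fun p => ?_
    by_cases hp : p ∈ F.Sub M σ t
    · rw [indicator_of_mem hp]; exact F.le_K_of_Sub hl hp
    · rw [indicator_of_notMem hp]; exact zero_le
  have h2 := ((mul_le_mul_right hv _).trans h1).trans (hD t ht0)
  rw [← ENNReal.ofReal_mul (Real.exp_pos _).le, ← Real.exp_add,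
    ENNReal.ofReal_le_ofReal_iff (by positivity)] at h2
  have e : -lam * σ * t + -(ℓ + (c - ℓ) / 2 - lam * σ) * t = (c - ℓ) / 2 * t + -c * t := by ring
  rw [e, Real.exp_add] at h2
  have h3 := le_of_mul_le_mul_right h2 (Real.exp_pos _)
  have h4 := Real.add_one_le_exp ((c - ℓ) / 2 * t)
  nlinarith

theorem Bpf.mono {F : L.Flt} {M M' : ℕ} (h : F.Bpf M) (hM : M ≤ M') : F.Bpf M' := fun p hp => by
  obtain ⟨m, hm, i, hi⟩ := h p hp; exact ⟨m, hm.trans_le hM, i, hi⟩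

theorem Bpf.bnd {F : L.Flt} {M : ℕ} (h : F.Bpf M) : ∃ A : ℝ, 1 ≤ A ∧
    ∀ p ∈ closedBall (0 : E n) 1,
      (∀ j : L.Ix M, ‖F.s j.1 j.2 p‖ ≤ A) ∧ ∃ j : L.Ix M, A⁻¹ ≤ ‖F.s j.1 j.2 p‖ := by
  have hsub : closedBall (0 : E n) 1 ⊆ ball 0 2 := closedBall_subset_ball (by norm_num)
  have hc : ContinuousOn (fun p (j : L.Ix M) => F.s j.1 j.2 p) (closedBall (0 : E n) 1) :=
    continuousOn_pi.2 fun j => (L.an (F.mem j.1 j.2)).continuousOn.mono hsub
  obtain ⟨C, hC⟩ := (isCompact_closedBall (0 : E n) 1).exists_bound_of_continuousOn hc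
  obtain ⟨p₀, hp₀, hmin⟩ := (isCompact_closedBall (0 : E n) 1).exists_isMinOn
    (nonempty_closedBall.2 zero_le_one) hc.norm
  have hpos : 0 < ‖fun j : L.Ix M => F.s j.1 j.2 p₀‖ := by
    obtain ⟨m, hm, i, hi⟩ := h p₀ (hsub hp₀)
    exact (norm_pos_iff.2 hi).trans_le
      (norm_le_pi_norm (fun j : L.Ix M => F.s j.1 j.2 p₀) ⟨⟨m, hm⟩, i⟩)
  refine ⟨max 1 (max C (2 / ‖fun j : L.Ix M => F.s j.1 j.2 p₀‖)), le_max_left _ _, fun p hp =>
    ⟨fun j => ((norm_le_pi_norm _ j).trans (hC p hp)).trans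
      ((le_max_left _ _).trans (le_max_right _ _)), ?_⟩⟩
  by_contra hn
  push Not at hn
  have h1 : (max 1 (max C (2 / ‖fun j : L.Ix M => F.s j.1 j.2 p₀‖)))⁻¹ ≤
      ‖fun j : L.Ix M => F.s j.1 j.2 p₀‖ / 2 := by
    rw [← inv_div (2 : ℝ) ‖fun j : L.Ix M => F.s j.1 j.2 p₀‖]
    exact inv_anti₀ (div_pos two_pos hpos) ((le_max_right _ _).trans (le_max_right _ _))
  have h2 : ‖fun j : L.Ix M => F.s j.1 j.2 p‖ ≤ ‖fun j : L.Ix M => F.s j.1 j.2 p₀‖ / 2 :=
    (pi_norm_le_iff_of_nonneg (half_pos hpos).le).2 fun j => (hn j).le.trans h1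
  have h3 : ‖fun j : L.Ix M => F.s j.1 j.2 p₀‖ ≤ ‖fun j : L.Ix M => F.s j.1 j.2 p‖ := hmin hp
  linarith

end Flt

theorem Hyp.exists_bpf (H : L.Hyp) : ∃ M₀, ∀ F : L.Flt, F.Bpf M₀ := by
  obtain ⟨q, hq, h, -⟩ := H.bpf
  obtain ⟨m, rfl⟩ : ∃ m, q = m + 1 := ⟨q - 1, by omega⟩
  refine ⟨m + 1, fun F p hp => ?_⟩
  obtain ⟨s, hs, hsp⟩ := h p hp
  exact ⟨m, m.lt_succ_self, F.exists_ne_zero hs hsp⟩

theorem Hyp.Xi_pos (H : L.Hyp) {F : L.Flt} (h : F.Sm) : 0 < F.Xi := by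
  obtain ⟨M, hM⟩ := H.exists_bpf
  obtain ⟨m, -, i, -⟩ := hM F 0 (by simp)
  exact (Real.exp_pos _).trans_le ((F.exp_le_W m i).trans (F.W_le_Xi h m))

theorem Flt.Val.le_a {F : L.Flt} {lam θ ℓ τ : ℝ} {v : (E n → ℂ) → ℝ} (h : F.Val lam θ ℓ τ v)
    (m : ℕ) (i : Fin (L.h (m + 1))) : τ * (m + 1) ≤ F.a m i := by
  rw [h.wt]; linarith [h.val.nonneg (F.mem m i) (F.ne_zero m i)]

theorem Flt.Val.W_eq {F : L.Flt} {lam θ ℓ τ : ℝ} {v : (E n → ℂ) → ℝ} (h : F.Val lam θ ℓ τ v)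
    (m : ℕ) : F.W m = Real.exp (-τ * (m + 1)) *
      Wn (H := fun m => L.h (m + 1)) (fun m i => v (F.s m i)) m := by
  unfold Flt.W Wn
  rw [Finset.mul_sum]
  refine Finset.sum_congr rfl fun i _ => ?_
  rw [← Real.exp_add, h.wt]; congr 1; ring

end Loc

theorem Wn_nonneg {H : ℕ → ℕ} (v : ∀ m, Fin (H m) → ℝ) (m : ℕ) : 0 ≤ Wn v m :=
  Finset.sum_nonneg fun _ _ => (Real.exp_pos _).le

theorem Wn_le {H : ℕ → ℕ} {v : ∀ m, Fin (H m) → ℝ} (h : ∀ m i, 0 ≤ v m i) (m : ℕ) :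
    Wn v m ≤ H m := by
  calc Wn v m ≤ ∑ _i : Fin (H m), (1 : ℝ) :=
        Finset.sum_le_sum fun i _ => Real.exp_le_one_iff.2 (by linarith [h m i])
    _ = H m := by simp

end Fuj
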