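import Vale.Agent.P271.FBasic

/-! Problem P271, part F: counting monomials, and independence of monomials modulo high order. -/

open MeasureTheory Set Filter Topology Metric
open scoped ENNReal NNReal

noncomputable section
namespace Fuj.FCardX

theorem card_MonE (n i : ℕ) : (MonE n i).card = (n + i - 1).choose i := by
  classical
  have h := Finset.card_finsuppAntidiag_nat_eq_choose (s := (Finset.univ : Finset (Fin n))) i
  rw [Finset.card_univ, Fintype.card_fin] at h
  rw [← h]
  symm
  refine Finset.card_bij (fun f _ => (f : Fin n → ℕ)) ?_ ?_ ?_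
  · intro f hf
    rw [Finset.mem_finsuppAntidiag] at hf
    exact mem_MonE.2 hf.1
  · intro f _ g _ hfg
    exact DFunLike.coe_injective hfg
  · intro β hβ
    refine ⟨Finsupp.equivFunOnFinite.symm β, ?_, rfl⟩
    rw [Finset.mem_finsuppAntidiag]
    exact ⟨mem_MonE.1 hβ, Finset.subset_univ _⟩

theorem card_MonE_succ (n i : ℕ) : (MonE (n + 1) i).card = (i + n).choose n := by
  rw [card_MonE, show n + 1 + i - 1 = i + n by omega, Nat.choose_symm_add]

theorem card_MonL (n j : ℕ) : (MonL n j).card = (MonE (n + 1) j).card := by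
  symm
  refine Finset.card_bij (fun β _ => Fin.tail β) ?_ ?_ ?_
  · intro β hβ
    have := mem_MonE.1 hβ
    rw [Fin.sum_univ_succ] at this
    refine mem_MonL.2 ?_
    unfold Fin.tail
    omega
  · intro β hβ γ hγ h
    have h1 := mem_MonE.1 hβ
    have h2 := mem_MonE.1 hγ
    rw [Fin.sum_univ_succ] at h1 h2
    have h3 : ∀ a : Fin n, β a.succ = γ a.succ := fun a => congrFun h a
    have h4 : ∑ a : Fin n, β a.succ = ∑ a : Fin n, γ a.succ :=
      Finset.sum_congr rfl fun a _ => h3 a
    funext a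
    refine Fin.cases ?_ h3 a
    omega
  · intro β hβ
    have h1 := mem_MonL.1 hβ
    refine ⟨Fin.cons (j - ∑ a, β a) β, ?_, Fin.tail_cons _ _⟩
    refine mem_MonE.2 ?_
    rw [Fin.sum_univ_succ]
    simp only [Fin.cons_zero, Fin.cons_succ]
    omega

/-- a one-variable polynomial of degree at most `j` that vanishes to order `j + 1` is zero -/
theorem poly_eq_zero (j : ℕ) : ∀ p : Polynomial ℂ, p.natDegree ≤ j →
    Ord (0 : ℂ) (j + 1) (fun ξ => p.eval ξ) → p = 0 := by
  induction j with
  | zero =>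
    intro p hp h
    have h0 := Ord.eq_zero h
    rw [Polynomial.eq_C_of_natDegree_le_zero hp] at h0 ⊢
    simpa using h0
  | succ j ih =>
    intro p hp h
    have h0 : p.coeff 0 = 0 := by
      have := Ord.eq_zero h
      rwa [Polynomial.coeff_zero_eq_eval_zero]
    have hp' : p = Polynomial.X * p.divX := by
      have := Polynomial.X_mul_divX_add p
      rw [h0] at this
      simpa using this.symm
    have hd : p.divX.natDegree ≤ j := by
      rw [Polynomial.natDegree_divX_eq_natDegree_tsub_one]; omega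
    obtain ⟨C, hC, hb⟩ := h.bound
    have hne : ∀ᶠ ξ in 𝓝[≠] (0 : ℂ), ‖p.divX.eval ξ‖ ≤ C * ‖ξ - 0‖ ^ (j + 1) := by
      filter_upwards [nhdsWithin_le_nhds hb, self_mem_nhdsWithin] with ξ hξ hξ0
      have hpos : 0 < ‖ξ‖ := norm_pos_iff.2 hξ0
      have e : p.eval ξ = ξ * p.divX.eval ξ := by
        conv_lhs => rw [hp']
        simp
      rw [e, norm_mul, sub_zero, pow_succ _ (j + 1)] at hξ
      rw [sub_zero]
      refine le_of_mul_le_mul_left ?_ hpos
      linarith
    have hz : p.divX.eval 0 = 0 := by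
      have t1 : Tendsto (fun ξ => ‖p.divX.eval ξ‖) (𝓝[≠] (0 : ℂ)) (𝓝 ‖p.divX.eval 0‖) :=
        (p.divX.continuous.norm.tendsto 0).mono_left nhdsWithin_le_nhds
      have t2 : Tendsto (fun ξ : ℂ => C * ‖ξ - 0‖ ^ (j + 1)) (𝓝[≠] (0 : ℂ))
          (𝓝 (C * ‖(0 : ℂ) - 0‖ ^ (j + 1))) :=
        (Continuous.tendsto (by fun_prop) 0).mono_left nhdsWithin_le_nhds
      have := le_of_tendsto_of_tendsto t1 t2 hne
      simpa using this
    have hall : ∀ᶠ ξ in 𝓝 (0 : ℂ), ‖p.divX.eval ξ‖ ≤ C * ‖ξ - 0‖ ^ (j + 1) := by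
      rw [← nhdsNE_sup_pure, eventually_sup]
      refine ⟨hne, ?_⟩
      simp [hz]
    rw [hp', ih _ hd (ord_of_bound hall), mul_zero]

theorem fun_eq_zero {n j : ℕ} (c : (Fin n → ℕ) → ℂ)
    (h : Ord (0 : E n) (j + 1) (∑ β ∈ MonL n j, c β • mon β)) (z : E n) :
    ∑ β ∈ MonL n j, c β * mon β z = 0 := by
  set p : Polynomial ℂ :=
    ∑ β ∈ MonL n j, Polynomial.monomial (∑ a, β a) (c β * mon β z) with hp
  have hev : ∀ ξ : ℂ, p.eval ξ = (∑ β ∈ MonL n j, c β • mon β) (ξ • z) := by
    intro ξ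
    rw [hp, Polynomial.eval_finsetSum, Finset.sum_apply]
    refine Finset.sum_congr rfl fun β _ => ?_
    rw [Polynomial.eval_monomial, Pi.smul_apply, Hom.smul_apply (mon_mem_Hom rfl), smul_eq_mul]
    ring
  have hdeg : p.natDegree ≤ j := by
    rw [hp]
    refine Polynomial.natDegree_sum_le_of_forall_le _ _ fun β hβ => ?_
    exact (Polynomial.natDegree_monomial_le _).trans (mem_MonL.1 hβ)
  have hord : Ord (0 : ℂ) (j + 1) (fun ξ => p.eval ξ) := by
    obtain ⟨C, hC, hb⟩ := h.bound
    have ht : Tendsto (fun ξ : ℂ => ξ • z) (𝓝 0) (𝓝 0) := by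
      have : Continuous (fun ξ : ℂ => ξ • z) := by fun_prop
      simpa using this.tendsto 0
    refine ord_of_bound (C := C * ‖z‖ ^ (j + 1)) ?_
    filter_upwards [ht.eventually hb] with ξ hξ
    rw [hev]
    refine hξ.trans (le_of_eq ?_)
    rw [sub_zero, sub_zero, norm_smul, mul_pow]
    ring
  have h0 := poly_eq_zero j p hdeg hord
  have h1 := hev 1
  rw [h0, Polynomial.eval_zero, one_smul, Finset.sum_apply] at h1
  simpa using h1.symm

end Fuj.FCardX

namespace Fuj
open FCardX

theorem fCard : CardS :=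
  ⟨card_MonE_succ, fun n j => by rw [card_MonL, card_MonE_succ]⟩

theorem fPoly : PolyS := by
  classical
  intro n j c h β hβ
  set P : MvPolynomial (Fin n) ℂ :=
    ∑ γ ∈ MonL n j, MvPolynomial.monomial (Finsupp.equivFunOnFinite.symm γ) (c γ) with hP
  have h0 : P = 0 := by
    refine MvPolynomial.funext fun z => ?_
    rw [hP, map_sum, map_zero, ← fun_eq_zero c h z]
    refine Finset.sum_congr rfl fun γ _ => ?_
    rw [MvPolynomial.eval_monomial, Finsupp.prod_fintype _ _ (by simp)]
    rfl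
  have h1 := congrArg (MvPolynomial.coeff (Finsupp.equivFunOnFinite.symm β)) h0
  rw [hP, MvPolynomial.coeff_sum, Finset.sum_eq_single β] at h1
  · simpa using h1
  · intro γ _ hne
    rw [MvPolynomial.coeff_monomial, if_neg]
    exact fun e => hne (Finsupp.equivFunOnFinite.symm.injective e)
  · exact fun h => (h hβ).elim

end Fuj
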