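import Vale.Agent.P271.FBasic

/-! Problem P271, part F: local charts distort volumes by a bounded factor. -/

open MeasureTheory Set Filter Topology Metric
open scoped ENNReal NNReal

noncomputable section
namespace Fuj

namespace FChartX

theorem self {X : Type} [NormedAddCommGroup X] [NormedSpace ℝ X] [FiniteDimensional ℝ X]
    {Ψ : X → X} (ha : AnalyticAt ℝ Ψ 0) (hd : HasFDerivAt Ψ (ContinuousLinearMap.id ℝ X) 0) :
    ∀ᶠ ρ in 𝓝[>] (0 : ℝ), InjOn Ψ (ball 0 ρ) ∧ ∀ p ∈ ball (0 : X) ρ,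
      HasFDerivAt Ψ (fderiv ℝ Ψ p) p ∧ map Ψ (𝓝 p) = 𝓝 (Ψ p) ∧
        1 / 2 ≤ |(fderiv ℝ Ψ p).det| ∧ |(fderiv ℝ Ψ p).det| ≤ 2 := by
  have := FiniteDimensional.complete ℝ X
  have hc : Tendsto (fderiv ℝ Ψ) (𝓝 0) (𝓝 (ContinuousLinearMap.id ℝ X)) :=
    hd.fderiv ▸ ha.fderiv.continuousAt.tendsto
  have h1 : Tendsto (fun p => |(fderiv ℝ Ψ p).det|) (𝓝 0) (𝓝 1) := by
    have := ((ContinuousLinearMap.continuous_det.tendsto _).comp hc).abs
    simpa [ContinuousLinearMap.det] using this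
  have h2 : ∀ᶠ p in 𝓝 (0 : X), AnalyticAt ℝ Ψ p ∧
      ‖fderiv ℝ Ψ p - ContinuousLinearMap.id ℝ X‖ ≤ 1 / 2 ∧
      1 / 2 ≤ |(fderiv ℝ Ψ p).det| ∧ |(fderiv ℝ Ψ p).det| ≤ 2 := by
    filter_upwards [ha.eventually_analyticAt, hc (closedBall_mem_nhds _ one_half_pos),
      h1.eventually_const_le (by norm_num : (1 : ℝ) / 2 < 1),
      h1.eventually_le_const one_lt_two] with p a b c d
    exact ⟨a, mem_closedBall_iff_norm.1 b, c, d⟩
  obtain ⟨r, hr, h⟩ := Metric.eventually_nhds_iff_ball.1 h2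
  filter_upwards [Ioo_mem_nhdsGT hr] with ρ hρ
  have h' := fun p (hp : p ∈ ball (0 : X) ρ) => h p (ball_subset_ball hρ.2.le hp)
  refine ⟨fun p hp q hq e => ?_, fun p hp => ⟨(h' p hp).1.differentiableAt.hasFDerivAt, ?_,
    (h' p hp).2.2⟩⟩
  · have := (convex_ball (0 : X) ρ).norm_image_sub_le_of_norm_fderiv_le'
      (fun x hx => (h' x hx).1.differentiableAt) (fun x hx => (h' x hx).2.1) hp hq
    rw [e, sub_self, zero_sub, norm_neg, ContinuousLinearMap.id_apply] at this
    have h0 : ‖q - p‖ = 0 := by linarith [norm_nonneg (q - p)]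
    exact (sub_eq_zero.1 (norm_eq_zero.1 h0)).symm
  · have hne : (fderiv ℝ Ψ p).det ≠ 0 := abs_pos.1 (one_half_pos.trans_le (h' p hp).2.2.1)
    refine HasStrictFDerivAt.map_nhds_eq_of_equiv
      (f' := (fderiv ℝ Ψ p).toContinuousLinearEquivOfDetNeZero hne) ?_
    rw [ContinuousLinearMap.coe_toContinuousLinearEquivOfDetNeZero]
    exact (h' p hp).1.hasStrictFDerivAt

end FChartX

theorem fChart : ChartS := by
  intro n d e Φ D ha hd
  have : (volume : Measure (E d × E e)).IsAddHaarMeasure :=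
    Measure.prod.instIsAddHaarMeasure (volume : Measure (E d)) (volume : Measure (E e))
  set Ψ : E d × E e → E d × E e := fun p => D.symm (Φ p) with hΨ
  have a1 : AnalyticAt ℝ Ψ 0 :=
    (((D.symm : E n →L[ℂ] E d × E e).analyticAt _).comp ha).restrictScalars
  have a2 : HasFDerivAt Ψ (ContinuousLinearMap.id ℝ _) 0 := by
    have := ((D.symm : E n →L[ℂ] E d × E e).hasFDerivAt.comp 0 hd).restrictScalars ℝ
    rw [D.coe_symm_comp_coe] at this
    exact this
  obtain ⟨r, hr, hΦ⟩ := Metric.eventually_nhds_iff_ball.1 ha.eventually_analyticAt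
  obtain ⟨ρ, ⟨hi, h⟩, hρ⟩ := ((FChartX.self a1 a2).and (Ioo_mem_nhdsGT hr)).exists
  have me : MeasurableEmbedding D := D.toHomeomorph.measurableEmbedding
  have : (Measure.map D (volume : Measure (E d × E e))).IsAddHaarMeasure :=
    D.isAddHaarMeasure_map volume
  obtain ⟨c, hc⟩ : ∃ c : ℝ≥0, Measure.map D (volume : Measure (E d × E e)) = c • volume :=
    ⟨_, Measure.isAddLeftInvariant_eq_smul _ _⟩
  obtain ⟨c', hc'⟩ : ∃ c' : ℝ≥0,
      (volume : Measure (E n)) = c' • Measure.map D (volume : Measure (E d × E e)) :=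
    ⟨_, Measure.isAddLeftInvariant_eq_smul _ _⟩
  have pre : ∀ S, D ⁻¹' (Φ '' S) = Ψ '' S := fun S => by
    rw [← D.image_symm_eq_preimage, image_image]
  refine ⟨ρ, 2 * (c + c'), hρ.1, fun p hp => hΦ p (ball_subset_ball hρ.2.le hp),
    fun p hp U hU => ?_, fun S mS hS => ⟨?_, fun f _ => ?_⟩⟩
  · have h1 : Ψ '' U ∈ 𝓝 (D.symm (Φ p)) := (h p hp).2.1 ▸ image_mem_map hU
    rw [← pre] at h1
    have h2 := D.symm.continuous.continuousAt.preimage_mem_nhds h1
    rwa [← preimage_comp, D.self_comp_symm, preimage_id] at h2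
  · have h1 := lintegral_abs_det_fderiv_eq_addHaar_image volume mS
      (fun p hp => (h p (hS hp)).1.hasFDerivWithinAt) (hi.mono hS)
    have h2 : volume S ≤ 2 * volume (Ψ '' S) := by
      rw [← h1, ← lintegral_const_mul' _ _ ENNReal.ofNat_ne_top, ← setLIntegral_one]
      refine setLIntegral_mono' mS fun p hp => ?_
      rw [← ENNReal.ofReal_ofNat, ← ENNReal.ofReal_mul zero_le_two, ENNReal.one_le_ofReal]
      linarith [(h p (hS hp)).2.2.1]
    rw [← pre, ← me.map_apply, hc, Measure.smul_apply, ENNReal.smul_def, smul_eq_mul,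
      ← mul_assoc] at h2
    refine h2.trans (mul_le_mul_left ?_ _)
    push_cast
    exact mul_le_mul_right le_self_add _
  · have h1 := lintegral_image_eq_lintegral_abs_det_fderiv_mul volume mS
      (fun p hp => (h p (hS hp)).1.hasFDerivWithinAt) (hi.mono hS) fun p => f (D p)
    have h2 : ∫⁻ p in Ψ '' S, f (D p) ≤ 2 * ∫⁻ p in S, f (Φ p) := by
      rw [h1, ← lintegral_const_mul' _ _ ENNReal.ofNat_ne_top]
      refine setLIntegral_mono' mS fun p hp => ?_
      rw [hΨ, D.apply_symm_apply, ← ENNReal.ofReal_ofNat]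
      exact mul_le_mul_left (ENNReal.ofReal_le_ofReal (h p (hS hp)).2.2.2) _
    rw [hc', Measure.restrict_smul, lintegral_smul_measure, me.restrict_map, me.lintegral_map, pre,
      ENNReal.smul_def, smul_eq_mul]
    refine (mul_le_mul_right h2 _).trans ?_
    rw [← mul_assoc]
    refine mul_le_mul_left ?_ _
    push_cast
    rw [mul_comm]
    exact mul_le_mul_right le_add_self _

end Fuj
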