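import Vale.Agent.P271.FBasic

/-! Problem P271, part F: comparison of filtrations. -/

open MeasureTheory Set Filter Topology Metric
open scoped ENNReal NNReal

noncomputable section
namespace Fuj

namespace FCmpX

theorem fdFil {n : ℕ} {L : Loc n} (F : L.Flt) (m : ℕ) (x : ℝ) :
    FiniteDimensional ℂ (F.Fil m x) := by
  have := L.fd (m + 1)
  exact Submodule.finiteDimensional_of_le (F.Fil_le m x)

theorem cnt_perm {k : ℕ} {a a' : Fin k → ℝ} (π : Equiv.Perm (Fin k)) (h : ∀ i, a i = a' (π i))
    (x : ℝ) : cntG a x = cntG a' x := by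
  unfold cntG
  refine Finset.card_equiv π fun i => ?_
  simp only [Finset.mem_filter, Finset.mem_univ, true_and, h i]

end FCmpX

theorem fCmp (h : PermS) : CmpS := by
  intro n L F G hle hF
  have hc : ∀ m x, cntG (F.a m) x ≤ cntG (G.a m) x := fun m x => by
    have := FCmpX.fdFil G m x
    rw [← F.finrank_Fil, ← G.finrank_Fil]
    exact Submodule.finrank_mono (hle m x)
  choose π hπ using fun m => h _ (F.a m) (G.a m) (hc m)
  have hterm : ∀ m i, Real.exp (-G.a m (π m i)) ≤ Real.exp (-F.a m i) := fun m i =>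
    Real.exp_le_exp.2 (neg_le_neg (hπ m i))
  have hGW : ∀ m, G.W m = ∑ i, Real.exp (-G.a m (π m i)) := fun m =>
    (Equiv.sum_comp (π m) fun i => Real.exp (-G.a m i)).symm
  have hW : ∀ m, G.W m ≤ F.W m := fun m => by
    rw [hGW]
    exact Finset.sum_le_sum fun i _ => hterm m i
  have hG : G.Sm := Summable.of_nonneg_of_le G.W_nonneg hW hF
  refine ⟨hG, Summable.tsum_le_tsum hW hG hF, fun hXi m x => ?_⟩
  have hWe : G.W m = F.W m := by
    by_contra hne
    have := Summable.tsum_lt_tsum (i := m) hW (lt_of_le_of_ne (hW m) hne) hG hF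
    exact absurd hXi (not_le.2 this)
  rw [hGW] at hWe
  have h1 := (Finset.sum_eq_sum_iff_of_le fun i _ => hterm m i).1 hWe
  have h2 : ∀ i, F.a m i = G.a m (π m i) := fun i =>
    (neg_injective (Real.exp_injective (h1 i (Finset.mem_univ i)))).symm
  have := FCmpX.fdFil G m x
  refine (Submodule.eq_of_le_of_finrank_eq (hle m x) ?_).ge
  rw [F.finrank_Fil, G.finrank_Fil]
  exact FCmpX.cnt_perm (π m) h2 x

end Fuj
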