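import Mathlib

/-! Problem P271, part F: the local model and everything the variational argument uses. -/

open MeasureTheory Set Filter Topology Metric
open scoped ENNReal

noncomputable section
namespace Fuj

abbrev E (n : ℕ) := Fin n → ℂ

/-- `f` vanishes to order at least `r` at `y` -/
def Ord {X : Type*} [NormedAddCommGroup X] (y : X) (r : ℕ) (f : X → ℂ) : Prop :=
  f =O[𝓝 y] fun z => ‖z - y‖ ^ r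

/-- `(∑ |ρ_j|²)^{-κ}`, infinite on the common zeros when `κ > 0` -/
def Psi {X ι : Type*} [Fintype ι] (ρ : ι → X → ℂ) (κ : ℝ) (p : X) : ℝ≥0∞ :=
  ENNReal.ofReal (∑ j, ‖ρ j p‖ ^ 2) ^ (-κ)

/-- `(∑ |σ_j|² e^{b_j t})^{-κ}` -/
def Ks {X ι : Type*} [Fintype ι] (σ : ι → X → ℂ) (b : ι → ℝ) (κ t : ℝ) (p : X) : ℝ≥0∞ :=
  ENNReal.ofReal (∑ j, ‖σ j p‖ ^ 2 * Real.exp (b j * t)) ^ (-κ)

/-- integrable near `y` -/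
def IntAt {n : ℕ} (y : E n) (f : E n → ℝ≥0∞) : Prop := ∃ U ∈ 𝓝 y, ∫⁻ p in U, f p ≠ ⊤

/-- key lemma (part H) -/
def KL : Prop := ∀ (d e J : ℕ) (κ A B c η ρ : ℝ), 0 < κ → 0 < A → 0 < η → 0 < ρ →
  ∃ T δ : ℝ, 0 < δ ∧ ∀ (o : E d × E e) (σ : Fin J → E d × E e → ℂ) (b : Fin J → ℝ),
    (∀ j, AnalyticOnNhd ℂ (σ j) (ball o ρ)) →
    (∀ p ∈ ball o ρ, A⁻¹ ≤ ∑ j, ‖σ j p‖ ^ 2 ∧ ∑ j, ‖σ j p‖ ^ 2 ≤ A) →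
    (∀ j, |b j| ≤ B) → ∀ t₀, T ≤ t₀ → ∀ z ∈ ball o.1 δ,
    ∫⁻ w in ball o.2 ρ, Ks σ b κ t₀ (z, w) ≤ ENNReal.ofReal (Real.exp (-(c + η) * t₀)) →
    ∀ w ∈ ball o.2 δ, ∃ U ∈ 𝓝 (z, w),
      ∫⁻ t in Ioi (0 : ℝ), ENNReal.ofReal (Real.exp (c * t)) * ∫⁻ p in U, Ks σ b κ t p ≠ ⊤

/-- integrability of negative powers (part H) -/
def IntS : Prop := ∀ (n r : ℕ) (f : E n → ℂ) (y : E n) (c : ℝ), AnalyticAt ℂ f y →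
  ¬ Ord y (r + 1) f → 0 ≤ c → c * r < 1 → IntAt y (fun p => ENNReal.ofReal (‖f p‖ ^ 2) ^ (-c))

/-- the section ring read in a chart and a frame at the point `x = 0`; `V m` are the sections of
`mL` (precomposed with the retraction that sends the outside of `ball 0 2` to `0`) -/
structure Loc (n : ℕ) where
  V : ℕ → Submodule ℂ (E n → ℂ)
  fd : ∀ m, FiniteDimensional ℂ (V m)
  one : (1 : E n → ℂ) ∈ V 0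
  mul : ∀ {m m' : ℕ} {s s' : E n → ℂ}, s ∈ V m → s' ∈ V m' → s * s' ∈ V (m + m')
  an : ∀ {m : ℕ} {s : E n → ℂ}, s ∈ V m → AnalyticOnNhd ℂ s (ball 0 2)
  meas : ∀ {m : ℕ} {s : E n → ℂ}, s ∈ V m → Measurable s
  inj : ∀ {m : ℕ} {s : E n → ℂ}, s ∈ V m → (∀ p ∈ ball (0 : E n) 2, s p = 0) → s = 0

namespace Loc
variable {n : ℕ} (L : Loc n)

def h (m : ℕ) : ℕ := Module.finrank ℂ (L.V m)

/-- a valuation on homogeneous elements, centred on a positive dimensional set through `0` -/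
structure IsVal (v : (E n → ℂ) → ℝ) : Prop where
  nonneg : ∀ {m : ℕ} {s : E n → ℂ}, s ∈ L.V m → s ≠ 0 → 0 ≤ v s
  smul : ∀ {m : ℕ} {s : E n → ℂ} {c : ℂ}, s ∈ L.V m → c ≠ 0 → v (c • s) = v s
  add : ∀ {m : ℕ} {s s' : E n → ℂ}, s ∈ L.V m → s' ∈ L.V m → s ≠ 0 → s' ≠ 0 → s + s' ≠ 0 →
    min (v s) (v s') ≤ v (s + s')
  mul : ∀ {m m' : ℕ} {s s' : E n → ℂ}, s ∈ L.V m → s' ∈ L.V m' → s ≠ 0 → s' ≠ 0 →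
    v (s * s') = v s + v s'
  cen : ∀ {m : ℕ} {s : E n → ℂ}, s ∈ L.V m → s 0 ≠ 0 → v s = 0
  pos : ∃ m, ∃ s ∈ L.V m, s ≠ 0 ∧ s 0 = 0 ∧ v s = 0

/-- `s` has degree `m` and value at least `a` -/
def Ge (v : (E n → ℂ) → ℝ) (m : ℕ) (a : ℝ) (s : E n → ℂ) : Prop :=
  s ∈ L.V m ∧ (s = 0 ∨ a ≤ v s)

/-- the data of step F5 at a general point `y` of the centre of `v` (parts D and E) -/
structure Pert (v : (E n → ℂ) → ℝ) (η : ℝ) (q d e M : ℕ) (γ : ℝ) (y : E n) where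
  Φ : E d × E e → E n
  D : (E d × E e) ≃L[ℂ] E n
  an : AnalyticAt ℂ Φ 0
  der : HasFDerivAt Φ (D : E d × E e →L[ℂ] E n) 0
  cen : Φ 0 = y
  onZ : ∀ᶠ z in 𝓝 (0 : E d), ∀ m, ∀ g ∈ L.V m, g ≠ 0 → 0 < v g → g (Φ (z, 0)) = 0
  s : ∀ m, Fin (L.h m) → E n → ℂ
  u : ∀ m, Fin (L.h m) → ℕ
  mem : ∀ m, 1 ≤ m → m ≤ M → ∀ i, s m i ∈ L.V m
  li : ∀ m, 1 ≤ m → m ≤ M → LinearIndependent ℂ (s m)
  adapt : ∀ m, 1 ≤ m → m ≤ M → ∀ (c : Fin (L.h m) → ℂ) i, c i ≠ 0 →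
    v (∑ j, c j • s m j) ≤ v (s m i)
  bound : ∀ m, 1 ≤ m → m ≤ M → ∀ i, ∃ (C : ℝ) (J : ℕ) (k k' : Fin J → ℕ)
    (f r : Fin J → E n → ℂ), (∀ j, 1 ≤ k j ∧ L.Ge v (k j) (v (s m i)) (f j)) ∧
    (∀ j, 1 ≤ k' j ∧ L.Ge v (k' j) (v (s m i) + γ) (r j)) ∧
    ∀ᶠ p in 𝓝 (0 : E d × E e), ‖s m i (Φ p)‖ ≤
      C * (‖p.1‖ ^ u m i * ∑ j, ‖f j (Φ p)‖ + ∑ j, ‖r j (Φ p)‖)
  U : ℕ → ℝ
  U0 : ∀ m, 0 ≤ U m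
  step : ∀ m, 1 ≤ m → m + q ≤ M →
    U m + d * (1 - η) * q * ∑ i, Real.exp (-v (s m i)) ≤ U (m + q)
  cnt : ∀ m, 1 ≤ m → m ≤ M → U m - d * ∑ i, Real.exp (-v (s m i)) ≤
    ∑ i, Real.exp (-v (s m i)) * min (u m i : ℝ) (d * m)

/-- everything part F uses; `noIso` is the contrapositive of G1 when `K + mL` has a base point at
`x`, `m ≥ n + 1` -/
structure Hyp : Prop where
  bpf : ∃ q₀, 1 ≤ q₀ ∧ (∀ p ∈ ball (0 : E n) 2, ∃ s ∈ L.V q₀, s p ≠ 0) ∧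
    ∃ s : Fin n → E n → ℂ, (∀ i, s i ∈ L.V q₀) ∧ (∀ i, s i 0 = 0) ∧
      HasFDerivAt (fun p i => s i p) (ContinuousLinearMap.id ℂ (E n)) 0
  big : ∀ᶠ m in atTop, ∃ s ∈ L.V m, s 0 ≠ 0
  siegel : ∃ C₀ : ℕ, ∀ m, ∀ s ∈ L.V m, s ≠ 0 → ¬ Ord 0 (C₀ * m + 1) s
  hilb : ∀ η : ℝ, 0 < η → ∀ᶠ m : ℕ in atTop, (1 - η) * (m : ℝ) ^ n / n.factorial ≤ L.h m
  grow : ∀ η : ℝ, 0 < η → ∃ q : ℕ, 1 ≤ q ∧ ∀ᶠ m : ℕ in atTop,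
    (L.h (m + q) : ℝ) ≤ (1 + (1 + η) * n * q / m) * L.h m ∧
    ∀ f f' : Submodule ℂ (E n → ℂ), f ≤ L.V m → f' ≤ L.V (m + q) → f ≠ ⊥ →
      (∀ g ∈ L.V q, ∀ s ∈ f, g * s ∈ f') →
      (Module.finrank ℂ f : ℝ) ^ (1 / n : ℝ) + (1 - η) * q / m * (L.h m : ℝ) ^ (1 / n : ℝ)
        ≤ (Module.finrank ℂ f' : ℝ) ^ (1 / n : ℝ)
  noIso : ∀ U ∈ 𝓝 (0 : E n), ∃ S : Set (E n), IsCompact S ∧ S ⊆ U ∧ (0 : E n) ∉ S ∧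
    ∀ (N J : ℕ) (ρ : Fin J → E n → ℂ) (lam : ℝ), 1 ≤ N → (∀ j, ρ j ∈ L.V N) →
      0 < lam → lam < n + 1 → (∀ y ∈ S, IntAt y (Psi ρ (lam / N))) → IntAt 0 (Psi ρ (lam / N))
  g2 : ∀ (N J : ℕ) (ρ : Fin J → E n → ℂ) (lam : ℝ) (y : E n), 1 ≤ N → (∀ j, ρ j ∈ L.V N) →
    0 < lam → y ∈ ball (0 : E n) 1 → IntAt y (Psi ρ (lam / N)) →
    ∃ q, ∃ g ∈ L.V q, g y ≠ 0 ∧
      ∫⁻ p in ball (0 : E n) 1, ENNReal.ofReal (‖g p‖ ^ 2) * Psi ρ (lam / N) p ≠ ⊤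
  pert : ∀ η : ℝ, 0 < η → ∃ q : ℕ, 1 ≤ q ∧ ∀ v, L.IsVal v → ∃ d e : ℕ, 1 ≤ d ∧
    ∀ M : ℕ, ∃ γ : ℝ, 0 < γ ∧ ∀ r : ℝ, 0 < r →
      ∃ y ∈ ball (0 : E n) r, Nonempty (L.Pert v η q d e M γ y)

end Loc

/-- the result of part F -/
def PartF : Prop := KL → IntS → ∀ n : ℕ, 1 ≤ n → ∀ L : Loc n, ¬ L.Hyp

end Fuj
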