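import Vale.Agent.P271.FBasic

/-! Problem P271, part F: large sublevel sets from a lower bound for the integrals. -/

open MeasureTheory Set Filter Topology Metric
open scoped ENNReal NNReal

noncomputable section
namespace Fuj
namespace FDownX
variable {n : ℕ} {L : Loc n} {F : L.Flt} {M : ℕ}

theorem bnds (h : F.Bpf M) : ∃ B : ℝ, 0 ≤ B ∧ ∀ p ∈ ball (0 : E n) 1, ∀ t : ℝ, 0 ≤ t →
    (∀ σ, B * t + B ≤ σ * t → p ∈ F.Sub M σ t) ∧
    ∀ lam : ℝ, 0 < lam → F.K M lam t p ≤ ENNReal.ofReal (Real.exp (lam * (B * t + B))) := by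
  obtain ⟨A, hA, hb⟩ := h.bnd
  obtain ⟨B₀, hB₀⟩ := (Set.finite_range fun j : L.Ix M => |F.a j.1 j.2|).bddAbove
  have hA0 : 0 < A := by linarith
  obtain ⟨B, h0, h1, h2⟩ : ∃ B : ℝ, 0 ≤ B ∧ B₀ ≤ B ∧ A ^ 2 ≤ Real.exp B := by
    refine ⟨max B₀ (A ^ 2), le_max_of_le_right (by positivity), le_max_left _ _, ?_⟩
    linarith [Real.add_one_le_exp (max B₀ (A ^ 2)), le_max_right B₀ (A ^ 2)]
  have ha : ∀ j : L.Ix M, |F.a j.1 j.2| ≤ B := fun j => (hB₀ ⟨j, rfl⟩).trans h1
  refine ⟨B, h0, fun p hp t ht => ⟨fun σ hσ m hm i => ?_, fun lam hl => ?_⟩⟩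
  · have e1 : ‖F.s m i p‖ ≤ A := (hb p (ball_subset_closedBall hp)).1 ⟨⟨m, hm⟩, i⟩
    have e2 : F.a m i ≤ B := (le_abs_self _).trans (ha ⟨⟨m, hm⟩, i⟩)
    have e3 : 0 ≤ σ * t := le_trans (by positivity) hσ
    calc ‖F.s m i p‖ ^ 2 * Real.exp (F.a m i * t) ≤ Real.exp B * Real.exp (B * t) := by
          refine mul_le_mul (le_trans (by gcongr) h2) (by gcongr) (by positivity) (by positivity)
      _ ≤ _ := by
          rw [← Real.exp_add]
          refine Real.exp_le_exp.2 ?_
          have : (0 : ℝ) ≤ m * (σ * t) := by positivity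
          nlinarith
  · obtain ⟨⟨⟨m, hm⟩, i⟩, hj⟩ := (hb p (ball_subset_closedBall hp)).2
    have e2 : -B ≤ F.a m i := (abs_le.1 (ha ⟨⟨m, hm⟩, i⟩)).1
    have e1 : Real.exp (-B) ≤ ‖F.s m i p‖ ^ 2 := by
      rw [Real.exp_neg]
      refine le_trans (inv_anti₀ (by positivity) h2) ?_
      rw [← inv_pow]
      exact pow_le_pow_left₀ (by positivity) hj 2
    have e3 : Real.exp (-(B * t + B)) ≤ ‖F.s m i p‖ ^ 2 * Real.exp (F.a m i * t) := by
      have : -(B * t + B) = -B + -B * t := by ring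
      rw [this, Real.exp_add]
      gcongr
    refine (F.K_le hm i lam t p).trans ?_
    have e4 : ENNReal.ofReal (‖F.s m i p‖ ^ 2 * Real.exp (F.a m i * t)) ^ (-(lam / (m + 1 : ℝ))) ≤
        ENNReal.ofReal (Real.exp (-(B * t + B))) ^ (-(lam / (m + 1 : ℝ))) := by
      rw [ENNReal.rpow_neg, ENNReal.rpow_neg]
      exact ENNReal.inv_le_inv.2 (ENNReal.rpow_le_rpow (ENNReal.ofReal_le_ofReal e3)
        (by positivity))
    refine e4.trans ?_
    rw [Loc.Flt.ofReal_exp_rpow]
    refine ENNReal.ofReal_le_ofReal (Real.exp_le_exp.2 ?_)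
    have e5 : lam / (m + 1 : ℝ) ≤ lam := div_le_self hl.le (by linarith [Nat.cast_nonneg (α := ℝ) m])
    have e6 : 0 ≤ B * t + B := by positivity
    nlinarith

theorem layer {B lam t : ℝ} {p : E n} (hl : 0 < lam) (ht : 0 < t) (N : ℕ)
    (hN : 2 * (B * t + B) ≤ N) (h1 : ∀ σ, B * t + B ≤ σ * t → p ∈ F.Sub M σ t)
    (h2 : F.K M lam t p ≤ ENNReal.ofReal (Real.exp (lam * (B * t + B)))) :
    F.K M lam t p ≤ ∑ k ∈ Finset.range (N + 1),
      (F.Sub M ((k - (B * t + B)) / t) t).indicator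
        (fun _ => ENNReal.ofReal (Real.exp (lam - lam * (k - (B * t + B))))) p := by
  classical
  have hex : ∃ k : ℕ, p ∈ F.Sub M ((k - (B * t + B)) / t) t :=
    ⟨N, h1 _ (by rw [div_mul_cancel₀ _ ht.ne']; linarith)⟩
  have hk : Nat.find hex ≤ N :=
    Nat.find_min' hex (h1 _ (by rw [div_mul_cancel₀ _ ht.ne']; linarith))
  refine le_trans ?_ (Finset.single_le_sum (f := fun k : ℕ =>
    (F.Sub M ((k - (B * t + B)) / t) t).indicator
      (fun _ => ENNReal.ofReal (Real.exp (lam - lam * (k - (B * t + B))))) p)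
    (fun _ _ => zero_le) (Finset.mem_range.2 (Nat.lt_succ_of_le hk)))
  rw [indicator_of_mem (Nat.find_spec hex)]
  rcases h : Nat.find hex with _ | k
  · refine h2.trans (ENNReal.ofReal_le_ofReal (Real.exp_le_exp.2 ?_))
    push_cast
    linarith
  · refine (F.K_le_of_not_Sub hl.le (Nat.find_min hex (by omega : k < Nat.find hex))).trans
      (le_of_eq ?_)
    congr 2
    push_cast
    field_simp
    ring

end FDownX
open FDownX

theorem fDown : DownS := by
  intro n L F y lam ℓ M hl hy hB hL U hU ε T hε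
  by_contra hc
  push Not at hc
  obtain ⟨B, hB0, hb⟩ := bnds hB
  obtain ⟨O, hOU, hO, hyO⟩ := _root_.mem_nhds_iff.1 (inter_mem hU (isOpen_ball.mem_nhds hy))
  obtain ⟨T', hT, hT1⟩ : ∃ T' : ℝ, T ≤ T' ∧ 1 ≤ T' := ⟨max T 1, le_max_left _ _, le_max_right _ _⟩
  refine hL (ℓ + ε / 2) (by linarith) ⟨M, O, hO.mem_nhds hyO,
    max (Real.exp (lam * (B * T' + B)) * (Real.pi * 1 ^ 2) ^ n * Real.exp (|ℓ + ε / 2| * T'))
      ((2 * B + 2) * (1 + 2 / ε) * Real.exp lam), fun t ht => ?_⟩
  rcases le_total t T' with h | h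
  · refine (setLIntegral_mono' hO.measurableSet
      (g := fun _ => ENNReal.ofReal (Real.exp (lam * (B * T' + B)))) fun p hp =>
        ((hb p (hOU hp).2 t ht).2 lam hl).trans (by gcongr)).trans ?_
    rw [setLIntegral_const]
    refine (mul_le_mul_right (measure_mono fun p hp => (hOU hp).2) _).trans ?_
    rw [vol_ball _ one_pos, ← ENNReal.ofReal_mul (Real.exp_pos _).le]
    refine ENNReal.ofReal_le_ofReal (le_trans ?_
      (mul_le_mul_of_nonneg_right (le_max_left _ _) (Real.exp_pos _).le))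
    rw [mul_assoc _ (Real.exp _), ← Real.exp_add]
    refine le_mul_of_one_le_right (by positivity) (Real.one_le_exp ?_)
    have := le_abs_self (ℓ + ε / 2)
    have := abs_nonneg (ℓ + ε / 2)
    nlinarith
  · have ht0 : 0 < t := by linarith
    refine (setLIntegral_mono' hO.measurableSet fun p hp => layer hl ht0 _ (Nat.le_ceil _)
      (hb p (hOU hp).2 t ht).1 ((hb p (hOU hp).2 t ht).2 lam hl)).trans ?_
    rw [lintegral_finset_sum _ fun k _ => measurable_const.indicator (F.measurableSet_Sub _ _ _)]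
    refine (Finset.sum_le_card_nsmul _ _
      (ENNReal.ofReal (Real.exp lam * Real.exp (-(ℓ + ε) * t))) fun k _ => ?_).trans ?_
    · rw [lintegral_indicator_const (F.measurableSet_Sub _ _ _),
        Measure.restrict_apply (F.measurableSet_Sub _ _ _)]
      have hs : F.Sub M ((k - (B * t + B)) / t) t ∩ O ⊆ U ∩ F.Sub M ((k - (B * t + B)) / t) t :=
        fun p hp => ⟨(hOU hp.2).1, hp.1⟩
      refine (mul_le_mul_right ((measure_mono hs).trans
        (hc t _ (hT.trans h)).le) _).trans (le_of_eq ?_)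
      rw [← ENNReal.ofReal_mul (Real.exp_pos _).le, ← Real.exp_add, ← Real.exp_add]
      congr 2
      field_simp
      ring
    · rw [Finset.card_range, nsmul_eq_mul, ← ENNReal.ofReal_natCast,
        ← ENNReal.ofReal_mul (Nat.cast_nonneg _)]
      refine ENNReal.ofReal_le_ofReal (le_trans ?_
        (mul_le_mul_of_nonneg_right (le_max_right _ _) (Real.exp_pos _).le))
      have e1 : ((⌈2 * (B * t + B)⌉₊ + 1 : ℕ) : ℝ) ≤ (2 * B + 2) * (t + 1) := by
        have := Nat.ceil_lt_add_one (a := 2 * (B * t + B)) (by positivity)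
        push_cast
        nlinarith
      have e2 : t + 1 ≤ (1 + 2 / ε) * Real.exp (ε / 2 * t) := by
        have h1 := Real.add_one_le_exp (ε / 2 * t)
        have h2 : 2 / ε * (ε / 2 * t) = t := by field_simp
        have h3 : 0 < 2 / ε := by positivity
        have h4 : 0 ≤ ε / 2 * t := by positivity
        nlinarith
      have e3 : Real.exp (-(ℓ + ε / 2) * t) = Real.exp (ε / 2 * t) * Real.exp (-(ℓ + ε) * t) := by
        rw [← Real.exp_add]; congr 1; ring
      rw [e3]
      calc _ ≤ (2 * B + 2) * ((1 + 2 / ε) * Real.exp (ε / 2 * t)) *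
            (Real.exp lam * Real.exp (-(ℓ + ε) * t)) := by
            refine mul_le_mul_of_nonneg_right (e1.trans ?_) (by positivity)
            gcongr
        _ = _ := by ring

end Fuj
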