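import Vale.Agent.P271.FBasic

/-! Problem P271, part F: extraction of a convergent sequence of filtrations. -/

open MeasureTheory Set Filter Topology Metric
open scoped ENNReal NNReal

noncomputable section
namespace Fuj

theorem fExt_emb {n : ℕ} (L : Loc n) (m : ℕ) :
    ∃ e : EuclideanSpace ℂ (Fin (L.h m)) →ₗ[ℂ] (E n → ℂ), Function.Injective e ∧
      (∀ x, e x ∈ L.V m) ∧ (∀ s ∈ L.V m, ∃ x, e x = s) ∧
      ∃ C : ℝ, ∀ x, ∀ p ∈ ball (0 : E n) 1, ‖e x p‖ ≤ C * ‖x‖ := by
  let β : Module.Basis (Fin (L.h m)) ℂ (L.V m) := Module.finBasis ℂ (L.V m)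
  let g : EuclideanSpace ℂ (Fin (L.h m)) ≃ₗ[ℂ] L.V m :=
    (WithLp.linearEquiv 2 ℂ (Fin (L.h m) → ℂ)).trans β.equivFun.symm
  refine ⟨(L.V m).subtype ∘ₗ g.toLinearMap, Subtype.val_injective.comp g.injective,
    fun x => (g x).2, fun s hs => ⟨g.symm ⟨s, hs⟩, by simp⟩, ?_⟩
  choose C hC0 hC using fun l => Loc.exists_bound (β l).2
  refine ⟨∑ l, C l, fun x p hp => ?_⟩
  have e1 : ((L.V m).subtype ∘ₗ g.toLinearMap) x p = ∑ l, x l * (β l : E n → ℂ) p := by
    simp [g, Module.Basis.equivFun_symm_apply]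
  rw [e1, Finset.sum_mul]
  refine (norm_sum_le _ _).trans (Finset.sum_le_sum fun l _ => ?_)
  rw [norm_mul, mul_comm]
  exact mul_le_mul (hC l p (ball_subset_closedBall hp)) (PiLp.norm_apply_le x l) (norm_nonneg _)
    (hC0 l).le

theorem fExt (h : GSS) : ExtS := by
  classical
  intro n L F B hB
  choose e einj emem esur C hC using fun m => fExt_emb L (m + 1)
  choose u hu using fun k m i => esur m _ ((F k).mem m i)
  have uli : ∀ k m, LinearIndependent ℂ (u k m) := fun k m => by
    refine LinearIndependent.of_comp (e m) ?_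
    have : e m ∘ u k m = (F k).s m := funext fun i => hu k m i
    rw [this]
    exact (F k).li m
  choose w won wsp using fun k m => h _ (u k m) ((F k).a m) (uli k m)
  let K : Set (∀ m, (Fin (L.h (m + 1)) → EuclideanSpace ℂ (Fin (L.h (m + 1)))) ×
      (Fin (L.h (m + 1)) → ℝ)) := univ.pi fun m =>
    (univ.pi fun _ => closedBall 0 1) ×ˢ (univ.pi fun _ => Icc (-B m) (B m))
  have hK : IsCompact K := isCompact_univ_pi fun m =>
    (isCompact_univ_pi fun _ => isCompact_closedBall _ _).prod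
      (isCompact_univ_pi fun _ => isCompact_Icc)
  obtain ⟨z, -, φ, hφ, hz⟩ := hK.tendsto_subseq (x := fun k m => (w k m, (F k).a m))
    fun k m _ => ⟨fun i _ => by simp [(won k m).1 i], fun i _ => abs_le.1 (hB k m i)⟩
  have t1 : ∀ m i, Tendsto (fun k => w (φ k) m i) atTop (𝓝 ((z m).1 i)) := fun m i =>
    ((continuous_apply i).tendsto _).comp ((continuous_fst.tendsto _).comp
      (((continuous_apply m).tendsto _).comp hz))
  have t2 : ∀ m i, Tendsto (fun k => (F (φ k)).a m i) atTop (𝓝 ((z m).2 i)) := fun m i =>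
    ((continuous_apply i).tendsto _).comp ((continuous_snd.tendsto _).comp
      (((continuous_apply m).tendsto _).comp hz))
  have zon : ∀ m, Orthonormal ℂ (z m).1 := fun m => orthonormal_iff_ite.2 fun i j => by
    refine tendsto_nhds_unique ((t1 m i).inner (𝕜 := ℂ) (t1 m j)) ?_
    simp only [orthonormal_iff_ite.1 (won _ m) i j]
    exact tendsto_const_nhds
  have hli : ∀ m (v : Fin (L.h (m + 1)) → EuclideanSpace ℂ (Fin (L.h (m + 1)))),
      Orthonormal ℂ v → LinearIndependent ℂ fun i => e m (v i) := fun m v hv =>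
    hv.linearIndependent.map' (e m) (LinearMap.ker_eq_bot.2 (einj m))
  refine ⟨fun k => ⟨fun m i => e m (w (φ k) m i), (F (φ k)).a, fun m i => emem m _,
      fun m => hli m _ (won _ m)⟩,
    ⟨fun m i => e m ((z m).1 i), fun m => (z m).2, fun m i => emem m _,
      fun m => hli m _ (zon m)⟩, φ, hφ, fun k => ⟨rfl, fun m x => ?_⟩, fun m i => ?_, t2⟩
  · refine Submodule.span_le.2 ?_
    rintro _ ⟨i, hi, rfl⟩
    have h1 : w (φ k) m i ∈ Submodule.span ℂ (u (φ k) m '' {i | x ≤ (F (φ k)).a m i}) := by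
      rw [← wsp]
      exact Submodule.subset_span ⟨i, hi, rfl⟩
    have h2 := Submodule.mem_map_of_mem (f := e m) h1
    rw [Submodule.map_span, ← image_comp] at h2
    have e2 : e m ∘ u (φ k) m = (F (φ k)).s m := funext fun i => hu _ m i
    rw [e2] at h2
    exact h2
  · refine Metric.tendstoUniformlyOn_iff.2 fun ε hε => ?_
    have t3 : Tendsto (fun k => C m * ‖(z m).1 i - w (φ k) m i‖) atTop
        (𝓝 (C m * ‖(z m).1 i - (z m).1 i‖)) :=
      ((tendsto_const_nhds.sub (t1 m i)).norm).const_mul _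
    rw [sub_self, norm_zero, mul_zero] at t3
    filter_upwards [t3.eventually (gt_mem_nhds hε)] with k hk p hp
    refine lt_of_le_of_lt ?_ hk
    have := hC m ((z m).1 i - w (φ k) m i) p hp
    rw [map_sub] at this
    rw [dist_eq_norm]
    exact this

end Fuj
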