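import Vale.Agent.P271.FBasic

/-! Problem P271, part F: the fixed data. -/

open MeasureTheory Set Filter Topology Metric
open scoped ENNReal NNReal

noncomputable section
namespace Fuj

namespace FF0X

theorem sum_cnt_le {k : ℕ} (o : Fin k → ℕ) (N : ℕ) :
    ∑ r ∈ Finset.range N, cntG (fun i => (o i : ℝ)) ((r + 1 : ℕ) : ℝ) ≤ ∑ i, o i := by
  classical
  have h1 : ∀ r : ℕ, cntG (fun i => (o i : ℝ)) ((r + 1 : ℕ) : ℝ) =
      ∑ i, if r + 1 ≤ o i then 1 else 0 := by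
    intro r
    unfold cntG
    rw [Finset.card_filter]
    refine Finset.sum_congr rfl fun i _ => ?_
    simp only [Nat.cast_le]
  simp only [h1]
  rw [Finset.sum_comm]
  refine Finset.sum_le_sum fun i _ => ?_
  rw [← Finset.card_filter]
  calc _ ≤ (Finset.range (o i)).card := Finset.card_le_card fun r hr => by
        rw [Finset.mem_filter] at hr
        exact Finset.mem_range.2 hr.2
    _ = o i := Finset.card_range _

theorem fin_zero {n : ℕ} (L : Loc n) (m : ℕ) :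
    Module.finrank ℂ ↥(L.V m ⊓ OrdS 0 0) = L.h m := by
  have : L.V m ⊓ OrdS 0 0 = L.V m :=
    inf_eq_left.2 fun s hs => ord_zero_of_continuousAt (Loc.an0 hs).continuousAt
  rw [this]
  rfl

end FF0X

theorem fF0 (h1 : OrdB) (h2 : F0a) (h3 : F0n) (h4 : Jet1) (h5 : Jet2) (h6 : JetS) (h7 : HbS) :
    F0S := by
  intro n L hn H
  obtain ⟨n, rfl⟩ : ∃ n', n = n' + 1 := ⟨n - 1, by omega⟩
  obtain ⟨O, o, C₁, ho, hC₁, hcnt⟩ := h1 _ L H
  obtain ⟨S, η, hS, hS1, hη, hev⟩ := h3 n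
  obtain ⟨ε₀, hε, hε1, hjet⟩ := h6 _ L H
  obtain ⟨C₂, hC₂, hH⟩ := h7 _ L hn H
  obtain ⟨m₀, hm₀⟩ := eventually_atTop.1 (hev.and (hjet.and (H.hilb η hη)))
  refine ⟨O, o, max C₁ C₂, S, ε₀, m₀, ho, ⟨hn, hC₂.trans (le_max_right _ _), fun m => ?_,
    fun m i => ?_, ?_, hS1, fun m hm => ?_, hε, hε1⟩, fun m hm j hj => ?_⟩
  · exact (hH m).trans (mul_le_mul_of_nonneg_right (le_max_right _ _) (by positivity))
  · have : (o m i : ℝ) ≤ C₁ * (m + 1) := by exact_mod_cast hC₁ m i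
    exact this.trans (mul_le_mul_of_nonneg_right (le_max_left _ _) (by positivity))
  · push_cast
    rw [add_assoc, one_add_one_eq_two]
    exact hS
  · obtain ⟨⟨j, r, hj, hr, hD⟩, -, hh⟩ := hm₀ (m + 1) (by omega)
    have hrj : r ≤ j := by nlinarith
    have h8 := hD (fun i => Module.finrank ℂ ↥(L.V (m + 1) ⊓ OrdS 0 i))
      (by simp only [FF0X.fin_zero]; exact hh)
      (fun i => h4 n i _ fun s hs => Loc.an0 hs)
      (fun i hi => h5 n i j r _ (fun s hs => L.an hs) hi (hrj.trans hi)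
        (h2 _ L hn H (m + 1) j r (by omega) hj hr))
    simp only [FF0X.fin_zero] at h8
    simp only [← hcnt] at h8
    have h9 : (∑ r ∈ Finset.range (m + 1),
        (cntG (fun i => (o m i : ℝ)) ((r + 1 : ℕ) : ℝ) : ℝ)) ≤ ∑ i, (o m i : ℝ) := by
      exact_mod_cast FF0X.sum_cnt_le (o m) (m + 1)
    refine le_trans (le_of_eq ?_) (h8.trans h9)
    rw [Nat.cast_succ]
  · exact (hm₀ (m + 1) (by omega)).2.1 j (by push_cast; exact hj)

end Fuj
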