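import Vale.Agent.P271.FBasic

open MeasureTheory Set Filter Topology Metric
open scoped ENNReal NNReal

namespace Fuj
namespace FF0aX

theorem rpow_anti {x y : ℝ≥0∞} (h : x ≤ y) {c : ℝ} (hc : 0 ≤ c) : y ^ (-c) ≤ x ^ (-c) := by
  rw [ENNReal.rpow_neg, ENNReal.rpow_neg]
  exact ENNReal.inv_le_inv.2 (ENNReal.rpow_le_rpow h hc)

theorem comb {n J : ℕ} (ρ : Fin J → E n → ℂ) (a : Fin J → ℂ) {c : ℝ} (hc : 0 ≤ c) {y : E n}
    (h : IntAt y fun p => ENNReal.ofReal (‖(∑ l, a l • ρ l) p‖ ^ 2) ^ (-c)) :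
    IntAt y (Psi ρ c) := by
  obtain ⟨U, hU, h⟩ := h
  have hC : 0 < ∑ l, ‖a l‖ ^ 2 + 1 := by positivity
  have e : ∀ p, ENNReal.ofReal (∑ l, ‖a l‖ ^ 2 + 1) ^ (-c) * Psi ρ c p ≤
      ENNReal.ofReal (‖(∑ l, a l • ρ l) p‖ ^ 2) ^ (-c) := fun p => by
    rw [Psi, ← ENNReal.mul_rpow_of_ne_top ENNReal.ofReal_ne_top ENNReal.ofReal_ne_top,
      ← ENNReal.ofReal_mul hC.le]
    refine rpow_anti (ENNReal.ofReal_le_ofReal ?_) hc
    have h1 : ‖(∑ l, a l • ρ l) p‖ ≤ ∑ l, ‖a l‖ * ‖ρ l p‖ := by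
      rw [Finset.sum_apply]
      exact (norm_sum_le _ _).trans (Finset.sum_le_sum fun l _ => norm_mul_le _ _)
    refine ((pow_le_pow_left₀ (norm_nonneg _) h1 2).trans
      (Finset.sum_mul_sq_le_sq_mul_sq _ _ _)).trans ?_
    gcongr
    exact le_add_of_nonneg_right zero_le_one
  have h2 := lintegral_mono (μ := volume.restrict U) e
  rw [ENNReal.ofReal_rpow_of_pos hC, lintegral_const_mul' _ _ ENNReal.ofReal_ne_top] at h2
  refine ⟨U, hU, fun h3 => h (top_unique ?_)⟩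
  rwa [h3, ENNReal.mul_top (ENNReal.ofReal_pos.2 (Real.rpow_pos_of_pos hC _)).ne'] at h2

theorem bound {n J j : ℕ} (ρ : Fin J → E n → ℂ) (h : ∀ l, Ord 0 j (ρ l)) :
    ∃ C : ℝ, 0 < C ∧ ∀ᶠ p in 𝓝 (0 : E n), ∑ l, ‖ρ l p‖ ^ 2 ≤ C * ‖p‖ ^ (2 * j) := by
  choose C h0 hC using fun l => (h l).bound
  refine ⟨∑ l, C l ^ 2 + 1, by positivity, (eventually_all.2 hC).mono fun p hp => ?_⟩
  rw [add_mul, Finset.sum_mul]
  refine le_add_of_le_of_nonneg (Finset.sum_le_sum fun l _ => ?_) (by positivity)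
  rw [mul_comm 2, pow_mul, ← mul_pow]
  exact pow_le_pow_left₀ (norm_nonneg _) (by simpa using hp l) 2

theorem not_int {n J j : ℕ} (hn : 1 ≤ n) (hj : 0 < j) (ρ : Fin J → E n → ℂ)
    (h : ∀ l, Ord 0 j (ρ l)) : ¬ IntAt 0 (Psi ρ (n / j)) := by
  rintro ⟨U, hU, hI⟩
  obtain ⟨C, hC, hb⟩ := bound ρ h
  obtain ⟨δ, hδ, hs⟩ := Metric.mem_nhds_iff.1 (inter_mem hU hb)
  have hv : Tendsto (volume.restrict U ∘ fun e : ℝ => ball (0 : E n) e) (𝓝[>] 0) (𝓝 0) := by
    have h1 : Tendsto (fun e : ℝ => ENNReal.ofReal ((Real.pi * e ^ 2) ^ n)) (𝓝[>] 0) (𝓝 0) := by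
      have h2 := (ENNReal.continuous_ofReal.comp (by fun_prop :
        Continuous fun e : ℝ => (Real.pi * e ^ 2) ^ n)).tendsto' 0 0
        (by simp [zero_pow (Nat.pos_iff_ne_zero.1 hn)])
      exact h2.mono_left nhdsWithin_le_nhds
    refine tendsto_of_tendsto_of_tendsto_of_le_of_le' tendsto_const_nhds h1
      (Eventually.of_forall fun _ => zero_le) (eventually_mem_nhdsWithin.mono fun e he => ?_)
    rw [← vol_ball 0 he]
    exact Measure.restrict_apply_le _ _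
  have hp : 0 < C ^ (-(n / j : ℝ)) * Real.pi ^ n := by
    have := Real.pi_pos
    positivity
  refine (ENNReal.ofReal_pos.2 hp).not_ge (ge_of_tendsto (tendsto_setLIntegral_zero hI hv) ?_)
  filter_upwards [Ioo_mem_nhdsGT hδ] with e he
  have hsub := (ball_subset_ball he.2.le).trans hs
  have he0 := he.1
  have e1 : C ^ (-(n / j : ℝ)) * Real.pi ^ n =
      (C * e ^ (2 * j)) ^ (-(n / j : ℝ)) * (Real.pi * e ^ 2) ^ n := by
    have e2 : (e ^ (2 * j)) ^ (-(n / j : ℝ)) = ((e ^ 2) ^ n)⁻¹ := by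
      rw [← pow_mul, ← Real.rpow_natCast, ← Real.rpow_mul he0.le, ← Real.rpow_natCast,
        ← Real.rpow_neg he0.le]
      congr 1
      push_cast
      field_simp
    rw [Real.mul_rpow hC.le (by positivity), e2, mul_pow]
    field_simp
  rw [Measure.restrict_restrict measurableSet_ball,
    inter_eq_left.2 (hsub.trans inter_subset_left), e1, ENNReal.ofReal_mul (by positivity),
    ← vol_ball 0 he0, ← setLIntegral_const, ← ENNReal.ofReal_rpow_of_pos (by positivity)]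
  refine setLIntegral_mono' measurableSet_ball fun p hp => rpow_anti
    (ENNReal.ofReal_le_ofReal ((hsub hp).2.trans ?_)) (by positivity)
  have := (mem_ball_zero_iff.1 hp).le
  gcongr

end FF0aX

theorem fF0a (h : IntS) : F0a := by
  intro n L hn H m j r hm h1 h2 hc
  have hj : 0 < j := by omega
  have hj' : (0 : ℝ) < j := Nat.cast_pos.2 hj
  have hm' : (0 : ℝ) < m := Nat.cast_pos.2 hm
  have hn' : (0 : ℝ) < n := Nat.cast_pos.2 hn
  obtain ⟨S, -, hS, h0, hI⟩ := H.noIso _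
    (inter_mem (eventually_nhdsWithin_iff.1 hc) (ball_mem_nhds (0 : E n) two_pos))
  have : FiniteDimensional ℂ ↥(L.V m ⊓ OrdS 0 j) := Submodule.finiteDimensional_of_le inf_le_left
  set b := Module.finBasis ℂ ↥(L.V m ⊓ OrdS (0 : E n) j)
  have e : (n * m / j : ℝ) / m = n / j := by field_simp
  have h3 := hI m _ (fun l => (b l : E n → ℂ)) (n * m / j) hm (fun l => (b l).2.1) (by positivity)
    (by rw [div_lt_iff₀ hj']; exact_mod_cast h1)
  rw [e] at h3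
  refine FF0aX.not_int hn hj _ (fun l => (b l).2.2) (h3 fun y hy => ?_)
  have h4 := (hS hy).1 fun h => h0 (h ▸ hy)
  push Not at h4
  obtain ⟨s, hs, hs0, hsy⟩ := h4
  refine FF0aX.comb _ (b.repr ⟨s, hs, hs0⟩) (by positivity) ?_
  have h5 := congrArg Subtype.val (b.sum_repr ⟨s, hs, hs0⟩)
  simp only [Submodule.coe_sum, Submodule.coe_smul] at h5
  rw [h5]
  exact h n r s y _ (Loc.anAt hs (mem_ball_zero_iff.1 (hS hy).2)) hsy (by positivity)
    (by rw [div_mul_eq_mul_div, div_lt_one hj']; exact_mod_cast h2)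

end Fuj
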