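import Vale.Agent.P271.FBasic

/-! Problem P271, part F: the numerical lemma on orders of vanishing. -/

open Set Filter Topology

noncomputable section
namespace Fuj

namespace FF0nX

theorem step {n j c : ℕ} {D : ℕ → ℕ} (h1 : ∀ i, D i ≤ D (i + 1) + (i + n).choose n)
    (h2 : ∀ i, j ≤ i → D i + c ≤ D (i + 1) + (i + n).choose n) (i : ℕ) :
    D 0 + (i - j) * c ≤ D i + (i + n).choose (n + 1) := by
  induction i with
  | zero => simp
  | succ i ih =>
    rw [show i + 1 + n = (i + n) + 1 by ring, Nat.choose_succ_succ' (i + n) n]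
    by_cases h : j ≤ i
    · have := h2 i h
      rw [show i + 1 - j = (i - j) + 1 by omega, add_mul, one_mul]
      omega
    · have := h1 i
      rw [show i + 1 - j = i - j by omega]
      omega

theorem sum_choose (n m : ℕ) :
    ∑ i ∈ Finset.range m, (i + 1 + n).choose (n + 1) = (m + (n + 1)).choose (n + 2) := by
  induction m with
  | zero => simp
  | succ m ih =>
    rw [Finset.sum_range_succ, ih, show m + 1 + (n + 1) = (m + (n + 1)) + 1 by ring,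
      Nat.choose_succ_succ' (m + (n + 1)) (n + 1), show m + 1 + n = m + (n + 1) by ring]
    ring

theorem sum_sub (j m : ℕ) : (m - j) ^ 2 ≤ 2 * ∑ i ∈ Finset.range m, (i + 1 - j) := by
  induction m with
  | zero => simp
  | succ m ih =>
    rw [Finset.sum_range_succ]
    by_cases h : j ≤ m
    · rw [show m + 1 - j = (m - j) + 1 by omega]
      nlinarith
    · rw [show m + 1 - j = 0 by omega]
      simp

theorem total {n j c m : ℕ} {D : ℕ → ℕ} (h1 : ∀ i, D i ≤ D (i + 1) + (i + n).choose n)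
    (h2 : ∀ i, j ≤ i → D i + c ≤ D (i + 1) + (i + n).choose n) :
    2 * (m * D 0) + (m - j) ^ 2 * c ≤
      2 * ∑ i ∈ Finset.range m, D (i + 1) + 2 * (m + (n + 1)).choose (n + 2) := by
  have h := Finset.sum_le_sum fun i (_ : i ∈ Finset.range m) => step h1 h2 (i + 1)
  rw [Finset.sum_add_distrib, Finset.sum_add_distrib, sum_choose, ← Finset.sum_mul,
    Finset.sum_const, Finset.card_range, smul_eq_mul] at h
  have h3 := Nat.mul_le_mul_right c (sum_sub j m)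
  rw [mul_assoc] at h3
  omega

theorem ev_pow (N k : ℕ) {κ : ℝ} (hκ : 0 < κ) :
    ∀ᶠ m : ℕ in atTop, ((m : ℝ) + N) ^ k ≤ (1 + κ) * (m : ℝ) ^ k := by
  have h : Tendsto (fun m : ℕ => (1 + (N : ℝ) / m) ^ k) atTop (𝓝 ((1 + 0) ^ k)) :=
    ((tendsto_const_div_atTop_nhds_zero_nat (N : ℝ)).const_add 1).pow k
  rw [add_zero, one_pow] at h
  filter_upwards [h.eventually_le_const (show (1 : ℝ) < 1 + κ by linarith),
    eventually_gt_atTop 0] with m h1 h2
  have h3 : (0 : ℝ) < m := Nat.cast_pos.2 h2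
  have e : (m : ℝ) + N = (1 + (N : ℝ) / m) * m := by field_simp
  rw [e, mul_pow]
  exact mul_le_mul_of_nonneg_right h1 (by positivity)

theorem choose_ge (r n : ℕ) : ((r : ℝ) + 1) ^ n ≤ n.factorial * ((r + n).choose n : ℕ) := by
  have h := Nat.pow_succ_le_ascFactorial (r + 1) n
  rw [Nat.ascFactorial_eq_factorial_mul_choose] at h
  exact_mod_cast h

theorem choose_le (a k : ℕ) : (k.factorial : ℝ) * (a.choose k : ℕ) ≤ (a : ℝ) ^ k := by
  have h := Nat.descFactorial_le_pow a k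
  rw [Nat.descFactorial_eq_factorial_mul_choose] at h
  exact_mod_cast h

theorem nat_choice {n m : ℕ} (hm : 4 * (n + 2) ≤ m) : ∃ q j r : ℕ, m - j = q ∧
    (n + 1) * m < (n + 2) * j ∧ (n + 1) * r < j ∧ m ≤ (r + 1) * (2 * (n + 1)) ∧
    m ≤ q * (4 * (n + 2)) := by
  obtain ⟨q, q1, q2⟩ : ∃ q, 2 * (n + 2) * q ≤ m ∧ m < 2 * (n + 2) * (q + 1) :=
    ⟨m / (2 * (n + 2)), Nat.mul_div_le _ _, Nat.lt_mul_div_succ _ (by omega)⟩
  have q3 : 1 ≤ q := by
    by_contra h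
    obtain rfl : q = 0 := by omega
    omega
  have q4 : 2 * q ≤ m := by nlinarith
  obtain ⟨j, rfl⟩ : ∃ j, m = j + q := ⟨m - q, by omega⟩
  obtain ⟨r, r1, r2⟩ : ∃ r, (n + 1) * r ≤ j - 1 ∧ j - 1 < (n + 1) * (r + 1) :=
    ⟨(j - 1) / (n + 1), Nat.mul_div_le _ _, Nat.lt_mul_div_succ _ (by omega)⟩
  have r3 : j ≤ (n + 1) * (r + 1) := by omega
  refine ⟨q, j, r, by omega, by nlinarith, by omega, by nlinarith, by nlinarith⟩

theorem up {n m : ℕ} {δ : ℝ} (hm : ((m : ℝ) + (n + 1 : ℕ)) ^ (n + 2) ≤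
    (1 + ((n : ℝ) + 2) * δ / 2) * (m : ℝ) ^ (n + 2)) :
    (((m + (n + 1)).choose (n + 2) : ℕ) : ℝ) ≤
      (1 / (n + 2) + δ / 2) * ((m : ℝ) ^ (n + 2) / ((n + 1) * n.factorial)) := by
  have f0 : (0 : ℝ) < n.factorial := Nat.cast_pos.2 n.factorial_pos
  have f2 : (((n + 2).factorial : ℕ) : ℝ) = (n + 2) * ((n + 1) * n.factorial) := by
    rw [Nat.factorial_succ, Nat.factorial_succ]; push_cast; ring
  have h := choose_le (m + (n + 1)) (n + 2)
  rw [f2, Nat.cast_add] at h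
  have h3 := h.trans hm
  rw [← le_div_iff₀' (by positivity)] at h3
  refine h3.trans (le_of_eq ?_)
  field_simp

theorem low {n m q r : ℕ} (h1 : m ≤ (r + 1) * (2 * (n + 1))) (h2 : m ≤ q * (4 * (n + 2))) :
    2 * (((n : ℝ) + 1) / (2 * (2 * (n + 1)) ^ n * (4 * (n + 2)) ^ 2)) *
      ((m : ℝ) ^ (n + 2) / ((n + 1) * n.factorial)) ≤ (q : ℝ) ^ 2 * ((r + n).choose n : ℕ) := by
  have f0 : (0 : ℝ) < n.factorial := Nat.cast_pos.2 n.factorial_pos
  have h3 : (m : ℝ) / (2 * (n + 1)) ≤ r + 1 := by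
    rw [div_le_iff₀ (by positivity)]
    exact_mod_cast h1
  have h4 : (m : ℝ) / (4 * (n + 2)) ≤ q := by
    rw [div_le_iff₀ (by positivity)]
    exact_mod_cast h2
  have h5 := (pow_le_pow_left₀ (by positivity) h3 n).trans (choose_ge r n)
  rw [← div_le_iff₀' f0] at h5
  refine le_trans (le_of_eq ?_)
    (mul_le_mul (pow_le_pow_left₀ (by positivity) h4 2) h5 (by positivity) (by positivity))
  rw [div_pow, div_pow]
  field_simp
  ring

theorem fin {a δ ε X P Q C T : ℝ} (a1 : a ≤ 1) (ε0 : 0 < ε) (ε1 : ε ≤ δ / 4) (ε2 : ε ≤ a / 2)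
    (P0 : 0 ≤ P) (ht : 2 * X + Q ≤ 2 * T + 2 * C) (u1 : C ≤ (a + δ / 2) * P) (u2 : 2 * δ * P ≤ Q)
    (u3 : (1 - ε) * P ≤ X) : (1 - a + ε) * X ≤ T := by
  have u4 : (a - ε) * ((1 - ε) * P) ≤ (a - ε) * X := mul_le_mul_of_nonneg_left u3 (by linarith)
  have u5 : (a - δ / 2) * P ≤ (a - ε) * (1 - ε) * P :=
    mul_le_mul_of_nonneg_right (by nlinarith) P0
  linarith

end FF0nX

open FF0nX in
theorem fF0n : F0n := by
  intro n
  have hn : (0 : ℝ) ≤ n := Nat.cast_nonneg n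
  obtain ⟨δ, hδ⟩ : ∃ δ : ℝ, δ = (n + 1) / (2 * (2 * (n + 1)) ^ n * (4 * (n + 2)) ^ 2) := ⟨_, rfl⟩
  have a0 : (0 : ℝ) < 1 / (n + 2) := by positivity
  have a1 : (1 : ℝ) / (n + 2) ≤ 1 := by rw [div_le_one (by positivity)]; linarith
  have δ0 : 0 < δ := by rw [hδ]; positivity
  obtain ⟨ε, ε0, ε1, ε2⟩ : ∃ ε : ℝ, 0 < ε ∧ ε ≤ δ / 4 ∧ ε ≤ 1 / (n + 2) / 2 :=
    ⟨_, lt_min (by positivity) (by positivity), min_le_left _ _, min_le_right _ _⟩
  refine ⟨1 - 1 / (n + 2) + ε, ε, ?_, by linarith, ε0, ?_⟩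
  · have : ((n : ℝ) + 1) / (n + 2) = 1 - 1 / (n + 2) := by field_simp; ring
    linarith
  filter_upwards [ev_pow (n + 1) (n + 2) (show 0 < ((n : ℝ) + 2) * δ / 2 by positivity),
    eventually_ge_atTop (4 * (n + 2))] with m hm1 hm2
  obtain ⟨q, j, r, e, c1, c2, c3, c4⟩ := nat_choice hm2
  refine ⟨j, r, c1, c2, fun D h0 h1 h2 => ?_⟩
  have ht := total (m := m) h1 h2
  rw [e] at ht
  have ht' : 2 * ((m : ℝ) * D 0) + (q : ℝ) ^ 2 * ((r + n).choose n : ℕ) ≤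
      2 * ∑ i ∈ Finset.range m, (D (i + 1) : ℝ) + 2 * ((m + (n + 1)).choose (n + 2) : ℕ) := by
    exact_mod_cast ht
  have u2 := low c3 c4
  rw [← hδ] at u2
  rw [mul_assoc]
  refine fin a1 ε0 ε1 ε2 (by positivity) ht' (up hm1) u2 ?_
  rw [Nat.factorial_succ] at h0
  refine le_trans (le_of_eq ?_) (mul_le_mul_of_nonneg_left h0 (Nat.cast_nonneg m))
  push_cast
  ring

end Fuj
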