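import Vale.Agent.P271.FBasic

/-! Problem P271, part F: step F2. -/

open MeasureTheory Set Filter Topology Metric
open scoped ENNReal NNReal

noncomputable section
namespace Fuj

namespace FF2X

theorem unif {n : ℕ} {L : Loc n} (F : L.Flt) {lam ℓ : ℝ} {S : Set (E n)} (hS : IsCompact S)
    (h : ∀ y ∈ S, ¬ F.LeL y lam ℓ) : ∃ c, ℓ < c ∧ ∃ M, ∀ y ∈ S, ∃ U ∈ 𝓝 y, ∃ C : ℝ, 0 < C ∧
      ∀ t, 0 ≤ t → ∫⁻ p in U, F.K M lam t p ≤ ENNReal.ofReal (C * Real.exp (-c * t)) := by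
  have key : ∀ {c c' : ℝ} {M M' : ℕ} {y : E n}, c' ≤ c → M ≤ M' →
      (∃ U ∈ 𝓝 y, ∃ C : ℝ, 0 < C ∧
        ∀ t, 0 ≤ t → ∫⁻ p in U, F.K M lam t p ≤ ENNReal.ofReal (C * Real.exp (-c * t))) →
      ∃ U ∈ 𝓝 y, ∃ C : ℝ, 0 < C ∧
        ∀ t, 0 ≤ t → ∫⁻ p in U, F.K M' lam t p ≤ ENNReal.ofReal (C * Real.exp (-c' * t)) := by
    rintro c c' M M' y hc hM ⟨U, hU, C, hC, hD⟩
    refine ⟨U, hU, C, hC, fun t ht => ?_⟩
    refine (lintegral_mono fun p => F.K_anti hM lam t p).trans ((hD t ht).trans ?_)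
    exact ENNReal.ofReal_le_ofReal (mul_le_mul_of_nonneg_left (Real.exp_le_exp.2
      (mul_le_mul_of_nonneg_right (neg_le_neg hc) ht)) hC.le)
  refine hS.induction_on (p := fun T => ∃ c, ℓ < c ∧ ∃ M, ∀ y ∈ T, ∃ U ∈ 𝓝 y, ∃ C : ℝ, 0 < C ∧
      ∀ t, 0 ≤ t → ∫⁻ p in U, F.K M lam t p ≤ ENNReal.ofReal (C * Real.exp (-c * t)))
    ⟨ℓ + 1, lt_add_one ℓ, 0, fun _ hy => hy.elim⟩ ?_ ?_ fun x hx => ?_
  · rintro T T' hT ⟨c, hc, M, hM⟩
    exact ⟨c, hc, M, fun y hy => hM y (hT hy)⟩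
  · rintro T T' ⟨c, hc, M, hM⟩ ⟨c', hc', M', hM'⟩
    refine ⟨min c c', lt_min hc hc', max M M', fun y hy => ?_⟩
    rcases hy with hy | hy
    · exact key (min_le_left _ _) (le_max_left _ _) (hM y hy)
    · exact key (min_le_right _ _) (le_max_right _ _) (hM' y hy)
  · have h1 := h x hx
    simp only [Loc.Flt.LeL, not_forall, not_not] at h1
    obtain ⟨c, hc, hD⟩ := h1
    obtain ⟨M, -, U, hU, C, hC, hD⟩ := hD.large 0
    exact ⟨interior U, mem_nhdsWithin_of_mem_nhds (interior_mem_nhds.2 hU), c, hc, M,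
      fun y hy => ⟨U, mem_interior_iff_mem_nhds.1 hy, C, hC, hD⟩⟩

end FF2X

theorem fF2 (h : PsiS) : F2S := by
  intro n L H F lam ℓ hl hln hle
  by_contra hn
  rw [not_frequently, eventually_nhdsWithin_iff] at hn
  obtain ⟨S, hS, hSU, hS0, hiso⟩ := H.noIso _ hn
  obtain ⟨c, hc, M, hM⟩ := FF2X.unif F hS fun y hy => hSU hy fun h0 => hS0 (h0 ▸ hy)
  obtain ⟨N, J, ρ, C, hN, hρ, hup, hint⟩ := h n L F M lam ((ℓ + c) / 2) c hl (by linarith)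
  obtain ⟨U, hU, hI⟩ := hiso N J ρ lam hN hρ hl hln fun y hy => by
    obtain ⟨U, hU, C', -, hD⟩ := hM y hy
    exact hint y U hU C' hD
  refine hle ((ℓ + c) / 2) (by linarith)
    ⟨M, U, hU, (C * ∫⁻ p in U, Psi ρ (lam / N) p).toReal, fun t ht => ?_⟩
  have h1 : ENNReal.ofReal (Real.exp ((ℓ + c) / 2 * t)) * ∫⁻ p in U, F.K M lam t p ≤
      C * ∫⁻ p in U, Psi ρ (lam / N) p := by
    rw [← lintegral_const_mul' _ _ ENNReal.ofReal_ne_top,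
      ← lintegral_const_mul' _ _ ENNReal.coe_ne_top]
    exact lintegral_mono fun p => hup p t ht
  have h2 := mul_le_mul_right h1 (ENNReal.ofReal (Real.exp (-((ℓ + c) / 2) * t)))
  rw [← mul_assoc, ← ENNReal.ofReal_mul (Real.exp_pos _).le, ← Real.exp_add, neg_mul,
    neg_add_cancel, Real.exp_zero, ENNReal.ofReal_one, one_mul] at h2
  rw [ENNReal.ofReal_mul ENNReal.toReal_nonneg,
    ENNReal.ofReal_toReal (ENNReal.mul_ne_top ENNReal.coe_ne_top hI), mul_comm, neg_mul]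
  exact h2

end Fuj
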