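import Vale.Agent.P271.FBasic

/-! Problem P271, part F: step F4. -/

open MeasureTheory Set Filter Topology Metric
open scoped ENNReal NNReal

noncomputable section
namespace Fuj

theorem fF4 (h : PsiS) : F4S := by
  intro n L H F lam θ ℓ τ v hV y hy hcen lam' hl c hc hD
  obtain ⟨M, U, hU, C', hD⟩ := hD
  obtain ⟨N, J, ρ, C, hN, hρ, hup, hint⟩ :=
    h n L F M lam' ((ℓ - lam * τ + lam' * τ + c) / 2) c hl (by linarith)
  obtain ⟨q, g, hg, hgy, hI⟩ := H.g2 N J ρ lam' y hN hρ hl hy (hint y U hU C' hD)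
  have hg0 : g ≠ 0 := fun h0 => hgy (by rw [h0]; rfl)
  have hv : v g = 0 :=
    le_antisymm (not_lt.1 fun h1 => hgy (hcen q g hg hg0 h1)) (hV.val.nonneg hg hg0)
  set I := ∫⁻ p in ball (0 : E n) 1, ENNReal.ofReal (‖g p‖ ^ 2) * Psi ρ (lam' / N) p with hIdef
  obtain ⟨δ, hδ⟩ : ∃ δ, δ = (c - (ℓ - lam * τ + lam' * τ)) / 4 := ⟨_, rfl⟩
  have hδ0 : 0 < δ := by rw [hδ]; linarith
  obtain ⟨e, he0, he⟩ : ∃ e, 0 < e ∧ (2 + lam') * e = δ :=
    ⟨δ / (2 + lam'), by positivity, by field_simp⟩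
  obtain ⟨t, ht, hvol⟩ := hV.test q g hg hg0 hv M e (max 0 ((C * I).toReal / δ)) he0
  have ht0 : 0 ≤ t := (le_max_left _ _).trans ht
  have ht1 : (C * I).toReal / δ ≤ t := (le_max_right _ _).trans ht
  rw [div_le_iff₀ hδ0] at ht1
  set S := ball (0 : E n) 1 ∩ F.Sub M (τ + e) t ∩ {p | Real.exp (-e * t) ≤ ‖g p‖ ^ 2} with hS
  have hSm : MeasurableSet S :=
    (measurableSet_ball.inter (F.measurableSet_Sub M _ t)).inter
      (measurableSet_le measurable_const ((L.meas hg).norm.pow_const 2))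
  have h1 : ENNReal.ofReal (Real.exp (-e * t)) *
      (ENNReal.ofReal (Real.exp ((ℓ - lam * τ + lam' * τ + c) / 2 * t)) *
        ENNReal.ofReal (Real.exp (-lam' * (τ + e) * t))) * volume S ≤ C * I := by
    rw [← setLIntegral_const, hIdef, ← lintegral_const_mul' _ _ ENNReal.coe_ne_top]
    refine (setLIntegral_mono' hSm fun p hp => ?_).trans
      (lintegral_mono_set (inter_subset_left.trans inter_subset_left))
    rw [mul_left_comm (C : ℝ≥0∞)]
    exact mul_le_mul' (ENNReal.ofReal_le_ofReal hp.2)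
      ((mul_le_mul_right (F.le_K_of_Sub hl.le hp.1.2) _).trans (hup p t ht0))
  have h2 := (mul_le_mul_right hvol _).trans h1
  rw [← ENNReal.ofReal_mul (Real.exp_pos _).le, ← ENNReal.ofReal_mul (Real.exp_pos _).le,
    ← ENNReal.ofReal_mul (by positivity), ← Real.exp_add, ← Real.exp_add, ← Real.exp_add,
    ENNReal.ofReal_le_iff_le_toReal (ENNReal.mul_ne_top ENNReal.coe_ne_top hI)] at h2
  have e1 : -e * t + ((ℓ - lam * τ + lam' * τ + c) / 2 * t + -lam' * (τ + e) * t) +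
      -(ℓ - lam * τ + e) * t = δ * t := by
    linear_combination (-t) * he - 2 * t * hδ
  rw [e1] at h2
  have h3 := Real.add_one_le_exp (δ * t)
  linarith

end Fuj
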