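import Vale.Agent.P271.FBasic

/-! Problem P271, part F: summing the perturbation inequality over all degrees. -/

open MeasureTheory Set Filter Topology Metric

noncomputable section
namespace Fuj

theorem ff5b_rec {U W : ℕ → ℝ} {τ c : ℝ} {q M : ℕ} (hU : ∀ m, 0 ≤ U m) (hW : ∀ m, 0 ≤ W m)
    (hc : 0 ≤ c) (hs : ∀ m, m + 1 + q ≤ M → Real.exp (-τ * (m + 1)) * U (m + 1) + c * W m ≤
      Real.exp (-τ * (m + 1)) * U (m + 1 + q)) (M₁ : ℕ) :
    ∀ J : ℕ, M₁ + J * q ≤ M → c * (∑ m ∈ Finset.range M₁, W m) *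
      (∑ j ∈ Finset.range J, Real.exp (-τ * q) ^ (j + 1)) ≤
        ∑ m ∈ Finset.range (M₁ + J * q), Real.exp (-τ * (m + 1)) * U (m + 1) := by
  intro J
  induction J with
  | zero =>
    intro _
    simp only [Finset.range_zero, Finset.sum_empty, mul_zero]
    exact Finset.sum_nonneg fun m _ => mul_nonneg (Real.exp_pos _).le (hU _)
  | succ J ih =>
    intro hJ
    have e : M₁ + (J + 1) * q = q + (M₁ + J * q) := by ring
    have h1 := ih (by omega)
    have hx := Real.exp_pos (-τ * q)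
    have h2 : ∑ m ∈ Finset.range M₁, W m ≤ ∑ m ∈ Finset.range (M₁ + J * q), W m :=
      Finset.sum_le_sum_of_subset_of_nonneg (Finset.range_mono (by omega)) fun m _ _ => hW m
    have h3 : Real.exp (-τ * q) * (∑ m ∈ Finset.range (M₁ + J * q),
        Real.exp (-τ * (m + 1)) * U (m + 1) + c * ∑ m ∈ Finset.range (M₁ + J * q), W m) ≤
        ∑ m ∈ Finset.range (M₁ + J * q), Real.exp (-τ * ((q + m : ℕ) + 1)) * U (q + m + 1) := by
      rw [Finset.mul_sum (a := c), ← Finset.sum_add_distrib, Finset.mul_sum]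
      refine Finset.sum_le_sum fun m hm => ?_
      have h4 := hs m (by have := Finset.mem_range.1 hm; omega)
      have e1 : Real.exp (-τ * ((q + m : ℕ) + 1)) =
          Real.exp (-τ * q) * Real.exp (-τ * (m + 1)) := by
        rw [← Real.exp_add]; congr 1; push_cast; ring
      rw [e1, mul_assoc, show q + m + 1 = m + 1 + q by ring]
      exact mul_le_mul_of_nonneg_left h4 hx.le
    have h5 : 0 ≤ ∑ m ∈ Finset.range q, Real.exp (-τ * (m + 1)) * U (m + 1) :=
      Finset.sum_nonneg fun m _ => mul_nonneg (Real.exp_pos _).le (hU _)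
    have e2 : ∑ j ∈ Finset.range (J + 1), Real.exp (-τ * q) ^ (j + 1) =
        Real.exp (-τ * q) * (∑ j ∈ Finset.range J, Real.exp (-τ * q) ^ (j + 1) + 1) := by
      rw [Finset.sum_range_succ', mul_add, Finset.mul_sum]
      simp only [pow_succ', pow_zero]
    rw [e2, e, Finset.sum_range_add]
    have h6 := mul_le_mul_of_nonneg_left (add_le_add h1 (mul_le_mul_of_nonneg_left h2 hc)) hx.le
    nlinarith

theorem fF5b (h1 : F5c) (h2 : PermP) : F5b := by
  intro n L H F lam θ ℓ τ v hl hθ hτ hV η q d e hq hd hP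
  have hq0 : (0 : ℝ) < q := by exact_mod_cast hq
  have hd0 : (0 : ℝ) < d := by exact_mod_cast hd
  have hE : 0 < Real.exp (τ * q) - 1 := by
    linarith [Real.add_one_le_exp (τ * q), mul_pos hτ hq0]
  rcases le_or_gt 1 η with hη | hη
  · have : (1 - η) * q / (Real.exp (τ * q) - 1) ≤ 0 :=
      div_nonpos_of_nonpos_of_nonneg (by nlinarith) hE.le
    nlinarith
  have hκ : 0 ≤ (1 - η) * q := by nlinarith
  have hX := H.Xi_pos hV.min.sm
  have key : ∀ J : ℕ, θ * ((1 - η) * q * (∑ m ∈ Finset.range J, F.W m) *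
      (∑ j ∈ Finset.range J, Real.exp (-τ * q) ^ (j + 1)) - F.Xi) ≤ F.Xi := by
    intro J
    obtain ⟨γ, hγ, hγ'⟩ := hP (J + J * q)
    have := h1 n L H F lam θ ℓ τ v hl hθ hV η q d e (J + J * q) γ
      (d * ((1 - η) * q * (∑ m ∈ Finset.range J, F.W m) *
        (∑ j ∈ Finset.range J, Real.exp (-τ * q) ^ (j + 1)) - F.Xi)) hγ fun r hr => by
      obtain ⟨y, hy, ⟨P⟩⟩ := hγ' r hr
      refine ⟨y, hy, P, ?_⟩
      have hW : ∀ m, m + 1 ≤ J + J * q →
          Real.exp (-τ * (m + 1)) * ∑ i, Real.exp (-v (P.s (m + 1) i)) = F.W m := by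
        intro m hm
        obtain ⟨π, hπ⟩ := h2 n L F lam θ ℓ τ v hV η q d e _ γ y P m hm
        rw [Loc.Flt.W, ← Equiv.sum_comp π (fun i => Real.exp (-F.a m i)), Finset.mul_sum]
        refine Finset.sum_congr rfl fun i _ => ?_
        rw [← Real.exp_add, ← hπ]; congr 1; ring
      have a1 := ff5b_rec (U := P.U) (W := F.W) (τ := τ) (c := d * ((1 - η) * q)) (q := q)
        (M := J + J * q) P.U0 F.W_nonneg (by positivity) (fun m hm => by
          have := mul_le_mul_of_nonneg_left (P.step (m + 1) (by omega) hm)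
            (Real.exp_pos (-τ * (m + 1))).le
          rw [← hW m (by omega)]
          nlinarith) J J le_rfl
      have a2 : ∑ m ∈ Finset.range (J + J * q), F.W m ≤ F.Xi :=
        hV.min.sm.sum_le_tsum _ fun m _ => F.W_nonneg m
      have a3 : ∑ m ∈ Finset.range (J + J * q), Real.exp (-τ * (m + 1)) * P.U (m + 1) -
          d * ∑ m ∈ Finset.range (J + J * q), F.W m ≤
          ∑ m ∈ Finset.range (J + J * q), Real.exp (-τ * (m + 1)) *
            ∑ i, Real.exp (-v (P.s (m + 1) i)) * min (P.u (m + 1) i : ℝ) (d * (m + 1)) := by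
        rw [Finset.mul_sum, ← Finset.sum_sub_distrib]
        refine Finset.sum_le_sum fun m hm => ?_
        have hm' : m + 1 ≤ J + J * q := Finset.mem_range.1 hm
        have := mul_le_mul_of_nonneg_left (P.cnt (m + 1) (by omega) hm')
          (Real.exp_pos (-τ * (m + 1))).le
        rw [← hW m hm']
        push_cast at this
        nlinarith
      nlinarith
    refine le_of_mul_le_mul_left ?_ hd0
    nlinarith
  have hx0 := Real.exp_pos (-τ * q)
  have hx1 : Real.exp (-τ * q) < 1 := Real.exp_lt_one_iff.2 (by nlinarith)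
  have l1 := hV.min.sm.hasSum.tendsto_sum_nat
  have l2 := ((hasSum_geometric_of_lt_one hx0.le hx1).mul_left
    (Real.exp (-τ * q))).tendsto_sum_nat
  simp only [← pow_succ'] at l2
  have l3 := le_of_tendsto' ((((l1.const_mul ((1 - η) * q)).mul l2).sub_const F.Xi).const_mul θ)
    key
  have e1 : Real.exp (-τ * q) * (1 - Real.exp (-τ * q))⁻¹ = (Real.exp (τ * q) - 1)⁻¹ := by
    have h4 : Real.exp (-τ * q) * Real.exp (τ * q) = 1 := by rw [← Real.exp_add]; simp
    have : 1 - Real.exp (-τ * q) ≠ 0 := by linarith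
    rw [← div_eq_mul_inv, ← one_div, div_eq_div_iff this hE.ne']
    linarith
  rw [e1] at l3
  refine le_of_mul_le_mul_left ?_ hX
  rw [div_eq_mul_inv]
  have e2 : ∑' m, F.W m = F.Xi := rfl
  rw [e2] at l3
  nlinarith

end Fuj
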