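import Vale.Agent.P271.FBasic

/-! Problem P271, part F: the first variation inequality of step F5. -/

open MeasureTheory Set Filter Topology Metric
open scoped ENNReal NNReal

noncomputable section
namespace Fuj

namespace FF5cX

theorem exp_neg_le {x : ℝ} (hx : 0 ≤ x) : Real.exp (-x) ≤ 1 - x + x ^ 2 := by
  have h1 := Real.add_one_le_exp x
  have h2 : Real.exp (-x) * Real.exp x = 1 := by rw [← Real.exp_add]; simp
  have h3 := Real.exp_pos (-x)
  have h4 : Real.exp (-x) * (x + 1) ≤ 1 := by nlinarith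
  have h5 : 1 ≤ (1 - x + x ^ 2) * (x + 1) := by nlinarith [pow_nonneg hx 3]
  exact le_of_mul_le_mul_right (h4.trans h5) (by linarith)

variable {n : ℕ} {L : Loc n} {F : L.Flt} {lam θ ℓ τ : ℝ} {v : (E n → ℂ) → ℝ} {η : ℝ}
  {q d e M : ℕ} {γ : ℝ} {y : E n}

theorem min_bd (P : L.Pert v η q d e M γ y) (m : ℕ) (i : Fin (L.h (m + 1))) :
    0 ≤ min (P.u (m + 1) i : ℝ) (d * (m + 1)) ∧
      min (P.u (m + 1) i : ℝ) (d * (m + 1)) ≤ d * (m + 1) :=
  ⟨le_min (Nat.cast_nonneg _) (by positivity), min_le_right _ _⟩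

theorem a_lt (P : L.Pert v η q d e M γ y) (ε : ℝ) {m : ℕ} (hm : m + 1 ≤ M)
    (i : Fin (L.h (m + 1))) : (P.flt F τ ε).a m i =
      v (P.s (m + 1) i) + τ * (m + 1) + ε * min (P.u (m + 1) i : ℝ) (d * (m + 1)) := if_pos hm

theorem a_ge (P : L.Pert v η q d e M γ y) (ε : ℝ) {m : ℕ} (hm : ¬ m + 1 ≤ M)
    (i : Fin (L.h (m + 1))) : (P.flt F τ ε).a m i = F.a m i := if_neg hm

theorem a_bd (h3 : PermP) (hF : F.Val lam θ ℓ τ v) (P : L.Pert v η q d e M γ y) {ε : ℝ}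
    (hε : 0 < ε) (m : ℕ) (i : Fin (L.h (m + 1))) :
    |(P.flt F τ ε).a m i| ≤ ∑ j, |F.a m j| + ε * (d * (m + 1)) := by
  have hs : ∀ j, |F.a m j| ≤ ∑ j, |F.a m j| := fun j =>
    Finset.single_le_sum (f := fun j => |F.a m j|) (fun _ _ => abs_nonneg _) (Finset.mem_univ j)
  by_cases hm : m + 1 ≤ M
  · obtain ⟨π, hπ⟩ := h3 n L F lam θ ℓ τ v hF η q d e M γ y P m hm
    obtain ⟨h1, h2⟩ := min_bd P m i
    rw [a_lt P ε hm, hπ]
    refine (abs_add_le _ _).trans (add_le_add (hs _) ?_)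
    rw [abs_of_nonneg (by positivity)]
    gcongr
  · rw [a_ge P ε hm]
    have : 0 ≤ ε * (d * (m + 1)) := by positivity
    linarith [hs i]

theorem W_le (h3 : PermP) (hF : F.Val lam θ ℓ τ v) (P : L.Pert v η q d e M γ y) {ε : ℝ}
    (hε : 0 < ε) {m : ℕ} (hm : m + 1 ≤ M) :
    (P.flt F τ ε).W m ≤ F.W m - ε * (Real.exp (-τ * (m + 1)) *
      ∑ i, Real.exp (-v (P.s (m + 1) i)) * min (P.u (m + 1) i : ℝ) (d * (m + 1))) +
      ε ^ 2 * (d * M) ^ 2 * F.W m := by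
  obtain ⟨π, hπ⟩ := h3 n L F lam θ ℓ τ v hF η q d e M γ y P m hm
  have hW : F.W m = ∑ i, Real.exp (-F.a m (π i)) :=
    (Equiv.sum_comp π fun i => Real.exp (-F.a m i)).symm
  rw [hW, Finset.mul_sum, Finset.mul_sum, Finset.mul_sum, ← Finset.sum_sub_distrib,
    ← Finset.sum_add_distrib]
  refine Finset.sum_le_sum fun i _ => ?_
  obtain ⟨h1, h2⟩ := min_bd P m i
  rw [a_lt P ε hm, ← mul_assoc (Real.exp _), ← Real.exp_add,
    show -τ * (m + 1) + -v (P.s (m + 1) i) = -(v (P.s (m + 1) i) + τ * (m + 1)) by ring, hπ,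
    neg_add, Real.exp_add]
  set c := min (P.u (m + 1) i : ℝ) (d * (m + 1))
  have hM : ((m : ℝ) + 1) ≤ M := by exact_mod_cast hm
  have h4 : c ≤ d * M := h2.trans (by gcongr)
  have h5 := exp_neg_le (x := ε * c) (by positivity)
  have h6 : (ε * c) ^ 2 ≤ ε ^ 2 * (d * M) ^ 2 := by rw [mul_pow]; gcongr
  have h7 := Real.exp_pos (-F.a m (π i))
  nlinarith

theorem step (h1 : F5a) (h2 : CptS) (h3 : PermP) (H : L.Hyp) (hl : 0 < lam) (hθ : 0 < θ)
    (hF : F.Val lam θ ℓ τ v) {D₀ : ℝ}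
    (hP : ∀ r, 0 < r → ∃ y ∈ ball (0 : E n) r, ∃ P : L.Pert v η q d e M γ y,
      D₀ ≤ ∑ m ∈ Finset.range M, Real.exp (-τ * (m + 1)) *
        ∑ i, Real.exp (-v (P.s (m + 1) i)) * min (P.u (m + 1) i : ℝ) (d * (m + 1)))
    {ε : ℝ} (hε : 0 < ε) (hεγ : ε * d * M ≤ γ) :
    θ * D₀ ≤ d * F.Xi + ε * (θ * (d * M) ^ 2 * F.Xi) := by
  choose y hy P hD using fun k : ℕ => hP (1 / ((k : ℝ) + 1)) (by positivity)
  have hy0 : Tendsto y atTop (𝓝 0) := by
    rw [tendsto_zero_iff_norm_tendsto_zero]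
    exact squeeze_zero (fun _ => norm_nonneg _) (fun k => (mem_ball_zero_iff.1 (hy k)).le)
      tendsto_one_div_add_atTop_nhds_zero_nat
  have hy1 : ∀ k, y k ∈ ball (0 : E n) 1 := fun k => by
    refine ball_subset_ball ?_ (hy k)
    rw [div_le_one (by positivity)]
    linarith [(Nat.cast_nonneg k : (0 : ℝ) ≤ k)]
  obtain ⟨G, φ, -, hG, hlim⟩ := h2 n L H (fun k => (P k).flt F τ ε)
    (fun m => ∑ j, |F.a m j| + ε * (d * (m + 1))) y lam (ℓ + ε * d) hl hy0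
    (fun k m i => a_bd h3 hF (P k) hε m i) fun δ hδ => Eventually.of_forall fun k =>
      (h1 n L H F lam θ ℓ τ v hl hF η q d e M γ (y k) (P k) ε (hy1 k) hε hεγ).mono (by linarith)
  have hWlim : ∀ m, Tendsto (fun k => ((P (φ k)).flt F τ ε).W m) atTop (𝓝 (G.W m)) := fun m =>
    tendsto_finsetSum _ fun i _ => (Real.continuous_exp.tendsto _).comp (hlim m i).neg
  have hge : ∀ m, G.W (m + M) = F.W (m + M) := fun m => by
    refine tendsto_nhds_unique (hWlim (m + M)) ?_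
    have : (fun k => ((P (φ k)).flt F τ ε).W (m + M)) = fun _ => F.W (m + M) :=
      funext fun k => Finset.sum_congr rfl fun i _ => by rw [a_ge (P (φ k)) ε (by omega)]
    rw [this]
    exact tendsto_const_nhds
  have hFs : F.Sm := hF.min.sm
  have hGs : G.Sm := by
    refine (summable_nat_add_iff M).1 ?_
    simp only [hge]
    exact (summable_nat_add_iff M).2 hFs
  have hsum : ∑ m ∈ Finset.range M, G.W m ≤ ∑ m ∈ Finset.range M, F.W m - ε * D₀ +
      ε ^ 2 * (d * M) ^ 2 * ∑ m ∈ Finset.range M, F.W m := by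
    refine le_of_tendsto' (tendsto_finsetSum _ fun m _ => hWlim m) fun k => ?_
    refine (Finset.sum_le_sum fun m hm =>
      W_le h3 hF (P (φ k)) hε (Finset.mem_range.1 hm)).trans ?_
    rw [Finset.sum_add_distrib, Finset.sum_sub_distrib, ← Finset.mul_sum, ← Finset.mul_sum]
    have := mul_le_mul_of_nonneg_left (hD (φ k)) hε.le
    linarith
  have e1 := hFs.sum_add_tsum_nat_add M
  have e2 := hGs.sum_add_tsum_nat_add M
  simp only [hge] at e2
  have hle : ∑ m ∈ Finset.range M, F.W m ≤ F.Xi := hFs.sum_le_tsum _ fun m _ => F.W_nonneg m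
  have hXi : G.Xi ≤ F.Xi - ε * D₀ + ε ^ 2 * (d * M) ^ 2 * F.Xi := by
    have := mul_le_mul_of_nonneg_left hle (by positivity : 0 ≤ ε ^ 2 * ((d : ℝ) * M) ^ 2)
    unfold Loc.Flt.Xi at this ⊢
    linarith
  have hmin := hF.min.min G (ℓ + ε * d) hG hGs
  have p1 := H.Xi_pos hFs
  have p2 := H.Xi_pos hGs
  have hlog := Real.log_le_sub_one_of_pos (div_pos p2 p1)
  rw [Real.log_div p2.ne' p1.ne'] at hlog
  have h4 : 0 ≤ ε * d + θ * (G.Xi / F.Xi - 1) := by nlinarith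
  have h5 : 0 ≤ ε * d * F.Xi + θ * (G.Xi - F.Xi) := by
    have := mul_nonneg h4 p1.le
    have e3 : (ε * d + θ * (G.Xi / F.Xi - 1)) * F.Xi = ε * d * F.Xi + θ * (G.Xi - F.Xi) := by
      field_simp
    linarith
  have h6 := mul_le_mul_of_nonneg_left hXi hθ.le
  refine le_of_mul_le_mul_left ?_ hε
  nlinarith

end FF5cX

theorem fF5c (h1 : F5a) (h2 : CptS) (h3 : PermP) : F5c := by
  intro n L H F lam θ ℓ τ v hl hθ hF η q d e M γ D₀ hγ hP
  have p1 := H.Xi_pos hF.min.sm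
  refine le_of_forall_pos_le_add fun δ hδ => ?_
  set C : ℝ := θ * (d * M) ^ 2 * F.Xi with hC
  have hC0 : 0 ≤ C := by positivity
  have hdM : (0 : ℝ) ≤ d * M := by positivity
  set ε : ℝ := min (γ / (d * M + 1)) (δ / (C + 1)) with hε
  have hε0 : 0 < ε := lt_min (by positivity) (by positivity)
  have hε1 : ε * (d * M + 1) ≤ γ := (le_div_iff₀ (by positivity)).1 (min_le_left _ _)
  have hε2 : ε * (C + 1) ≤ δ := (le_div_iff₀ (by positivity)).1 (min_le_right _ _)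
  have := FF5cX.step h1 h2 h3 H hl hθ hF hP hε0 (by nlinarith)
  nlinarith

end Fuj
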