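import Vale.Agent.P271.FBasic

/-! Problem P271, part F: the filtration of an adapted basis. -/

open MeasureTheory Set Filter Topology Metric

noncomputable section
namespace Fuj

theorem fFilAd : FilAdS := by
  intro Y _ _ W _ w hw s hs li had x z
  constructor
  · intro hz
    induction hz using Submodule.span_induction with
    | mem y hy =>
      obtain ⟨i, hi, rfl⟩ := hy
      exact ⟨hs i, Or.inr hi⟩
    | zero => exact ⟨W.zero_mem, Or.inl rfl⟩
    | add y y' _ _ hy hy' =>
      refine ⟨W.add_mem hy.1 hy'.1, ?_⟩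
      by_cases h0 : y = 0
      · rw [h0, zero_add]; exact hy'.2
      by_cases h0' : y' = 0
      · rw [h0', add_zero]; exact hy.2
      by_cases h1 : y + y' = 0
      · exact Or.inl h1
      exact Or.inr ((le_min (hy.2.resolve_left h0) (hy'.2.resolve_left h0')).trans
        (hw.add y hy.1 y' hy'.1 h0 h0' h1))
    | smul c y _ hy =>
      refine ⟨W.smul_mem c hy.1, ?_⟩
      by_cases hc : c = 0
      · exact Or.inl (by rw [hc, zero_smul])
      rcases hy.2 with h | h
      · exact Or.inl (by rw [h, smul_zero])
      · exact Or.inr (by rwa [hw.smul y hy.1 c hc])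
  · rintro ⟨hz, h⟩
    rcases h with h | h
    · rw [h]; exact Submodule.zero_mem _
    have hsp : Submodule.span ℂ (range s) = W := by
      apply Submodule.eq_of_le_of_finrank_eq
      · exact Submodule.span_le.2 (by rintro _ ⟨i, rfl⟩; exact hs i)
      · rw [finrank_span_eq_card li, Fintype.card_fin]
    rw [← hsp] at hz
    obtain ⟨c, rfl⟩ := (Submodule.mem_span_range_iff_exists_fun ℂ).1 hz
    refine Submodule.sum_mem _ fun i _ => ?_
    by_cases hc : c i = 0
    · rw [hc, zero_smul]; exact Submodule.zero_mem _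
    exact Submodule.smul_mem _ _ (Submodule.subset_span ⟨i, h.trans (had c i hc), rfl⟩)

theorem fMk (h1 : AdaptS) (h2 : FilAdS) : MkS := by
  intro n L w hw
  choose s hs li had using fun m => h1 (E n → ℂ) (L.V (m + 1)) (w m) (hw m)
  exact ⟨⟨s, fun m i => w m (s m i), hs, li⟩, fun _ _ => rfl,
    fun m x z => h2 (E n → ℂ) (L.V (m + 1)) (w m) (hw m) (s m) (hs m) (li m) (had m) x z⟩

end Fuj
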