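import Vale.Agent.P271.FTop

/-! Problem P271, part F: final form. -/

namespace Fuj

theorem f_PartF : PartF := partF

end Fuj
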