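import Vale.Agent.P271.FBasic

/-! Problem P271, part F: orthonormal bases adapted to a filtration. -/

open Set InnerProductSpace

noncomputable section
namespace Fuj

theorem fGS : GSS := by
  intro k u a hu
  let σ : Equiv.Perm (Fin k) := Tuple.sort fun i => -a i
  have hmono : Monotone ((fun i => -a i) ∘ σ) := Tuple.monotone_sort _
  have hu' : LinearIndependent ℂ (u ∘ σ) := hu.comp σ σ.injective
  refine ⟨gramSchmidtNormed ℂ (u ∘ σ) ∘ σ.symm,
    (gramSchmidtNormed_orthonormal hu').comp _ σ.symm.injective, fun x => ?_⟩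
  have hT : ∀ i ∈ σ ⁻¹' {i | x ≤ a i}, Iic i ⊆ σ ⁻¹' {i | x ≤ a i} := fun i hi j hj =>
    le_trans hi (neg_le_neg_iff.1 (hmono hj))
  have e : u '' {i | x ≤ a i} = (u ∘ σ) '' (σ ⁻¹' {i | x ≤ a i}) := by
    rw [image_comp, image_preimage_eq _ σ.surjective]
  rw [e, image_comp, Equiv.image_symm_eq_preimage, span_gramSchmidtNormed]
  exact Submodule.span_eq_span
    (image_subset_iff.2 fun i hi =>
      Submodule.span_mono (image_mono (hT i hi)) (gramSchmidt_mem_span ℂ _ le_rfl))
    (image_subset_iff.2 fun i hi =>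
      Submodule.span_mono (image_mono (hT i hi)) (mem_span_gramSchmidt ℂ _ le_rfl))

end Fuj
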