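import Vale.Agent.P271.FBasic

open MeasureTheory Set Filter Topology Metric

noncomputable section
namespace Fuj

namespace FHomLX
variable {n : ℕ}

theorem one_mem : (1 : E n → ℂ) ∈ Hom n 0 := by
  have h := mon_mem_Hom (n := n) (β := 0) (i := 0) (by simp)
  have e : mon (0 : Fin n → ℕ) = 1 := by funext z; simp [mon]
  rwa [e] at h

theorem crd_mem (a : Fin n) : (fun z : E n => z a) ∈ Hom n 1 := by
  have h := mon_mem_Hom (n := n) (β := Pi.single a 1) (i := 1) (by simp)
  have e : mon (Pi.single a 1 : Fin n → ℕ) = fun z : E n => z a := by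
    funext z
    simp only [mon]
    rw [Finset.prod_eq_single a (fun b _ hb => by simp [Pi.single_eq_of_ne hb]) (by simp)]
    simp
  rwa [e] at h

theorem pow_mem {P : E n → ℂ} (h : P ∈ Hom n 1) (k : ℕ) : P ^ k ∈ Hom n k := by
  induction k with
  | zero => simpa using one_mem
  | succ k ih => rw [pow_succ]; exact Hom.mul ih h

theorem prod_mem {ι : Type} (T : Finset ι) (m : ι → ℕ) (s : ι → E n → ℂ)
    (h : ∀ j, s j ∈ Hom n (m j)) : ∏ j ∈ T, s j ∈ Hom n (∑ j ∈ T, m j) := by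
  classical
  induction T using Finset.induction_on with
  | empty => simpa using one_mem
  | insert a T ha ih => rw [Finset.prod_insert ha, Finset.sum_insert ha]; exact Hom.mul (h a) ih

end FHomLX

open FHomLX in
theorem fHomL (h1 : CardS) (h2 : PolyS) : HomL := by
  intro n i r l hl hri
  obtain ⟨i0, hi0⟩ := Function.ne_iff.1 hl
  have hi0' : l i0 ≠ 0 := hi0
  let u : E (n + 1) → ℂ := (l i0)⁻¹ • fun z => z i0
  have hu : u ∈ Hom (n + 1) 1 := Submodule.smul_mem _ _ (crd_mem i0)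
  let w : Fin n → E (n + 1) → ℂ := fun a => (fun z => z (i0.succAbove a)) - l (i0.succAbove a) • u
  have hw : ∀ a, w a ∈ Hom (n + 1) 1 := fun a =>
    sub_mem (crd_mem _) (Submodule.smul_mem _ _ hu)
  let g : (Fin n → ℕ) → E (n + 1) → ℂ := fun β => u ^ (i - ∑ a, β a) * ∏ a, w a ^ β a
  let ψ : E n → E (n + 1) := fun ζ => l + Fin.insertNth i0 0 ζ
  have hψn : ∀ ζ, ‖ψ ζ - l‖ ≤ ‖ζ‖ := by
    intro ζ
    simp only [ψ, add_sub_cancel_left]
    refine (pi_norm_le_iff_of_nonneg (norm_nonneg _)).2 fun b => ?_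
    refine Fin.succAboveCases i0 ?_ (fun a => ?_) b
    · simp
    · simpa using norm_le_pi_norm ζ a
  have hψ : Tendsto ψ (𝓝 0) (𝓝 l) := by
    rw [tendsto_iff_norm_sub_tendsto_zero]
    exact squeeze_zero (fun _ => norm_nonneg _) hψn tendsto_norm_zero
  have hg : ∀ β ζ, g β (ψ ζ) = mon β ζ := by
    intro β ζ
    have e1 : u (ψ ζ) = 1 := by simp [u, ψ, hi0']
    have e2 : ∀ a, w a (ψ ζ) = ζ a := by
      intro a
      simp only [w, Pi.sub_apply, Pi.smul_apply, e1, smul_eq_mul, mul_one]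
      simp [ψ]
    simp only [g, Pi.mul_apply, Pi.pow_apply, Finset.prod_apply, e1, e2, one_pow, one_mul, mon]
  have key := codim_ge (Hom (n + 1) i) (OrdS l (r + 1)) (MonL n r) g (fun β hβ => by
    have h3 := Hom.mul (pow_mem hu (i - ∑ a, β a))
      (prod_mem Finset.univ β (fun a => w a ^ β a) fun a => pow_mem (hw a) (β a))
    rwa [Nat.sub_add_cancel ((mem_MonL.1 hβ).trans hri)] at h3) (fun c hc => by
    refine h2 n r c ?_
    obtain ⟨C, hC, hb⟩ := (mem_OrdS.1 hc).bound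
    refine ord_of_bound (C := C) ?_
    filter_upwards [hψ hb] with ζ hζ
    have hζ' : ‖(∑ β ∈ MonL n r, c β • g β) (ψ ζ)‖ ≤ C * ‖ψ ζ - l‖ ^ (r + 1) := hζ
    simp only [Finset.sum_apply, Pi.smul_apply, hg] at hζ' ⊢
    refine hζ'.trans ?_
    rw [sub_zero]
    exact mul_le_mul_of_nonneg_left (pow_le_pow_left₀ (norm_nonneg _) (hψn ζ) _) hC.le)
  rw [h1.2] at key
  exact key.trans ((finrank_Hom_le _ _).trans_eq (h1.1 n i))

end Fuj
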