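import Vale.Agent.P271.FBasic

/-! Problem P271, part F: initial forms. -/

open MeasureTheory Set Filter Topology Metric
open scoped ENNReal NNReal

noncomputable section
namespace Fuj

namespace FInX

variable {n : ℕ}

theorem prod_mem (k : ℕ) (κ : Fin k → Fin n) : (fun z : E n => ∏ l, z (κ l)) ∈ Hom n k := by
  have e : (fun z : E n => ∏ l, z (κ l)) = mon (∑ l, Pi.single (κ l) 1) := by
    funext z
    simp only [mon, Finset.sum_apply, ← Finset.prod_pow_eq_pow_sum]
    rw [Finset.prod_comm]
    refine Finset.prod_congr rfl fun l _ => ?_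
    rw [Finset.prod_eq_single (κ l) (fun a _ ha => by simp [ha]) (by simp)]
    simp
  rw [e]
  refine mon_mem_Hom ?_
  simp only [Finset.sum_apply]
  rw [Finset.sum_comm]
  simp

theorem diag_mem (k : ℕ) (p : ContinuousMultilinearMap ℂ (fun _ : Fin k => E n) ℂ) :
    (fun z : E n => p fun _ => z) ∈ Hom n k := by
  have e : (fun z : E n => p fun _ => z) = ∑ κ : Fin k → Fin n,
      (p fun l => Pi.single (κ l) 1) • fun z : E n => ∏ l, z (κ l) := by
    funext z
    have h : z = ∑ a, z a • (Pi.single a 1 : E n) := by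
      funext b
      simp [Finset.sum_apply, Pi.single_apply]
    rw [Finset.sum_apply]
    refine (congrArg (fun w : E n => p fun _ => w) h).trans ?_
    rw [p.map_sum fun _ a => z a • (Pi.single a 1 : E n)]
    exact Finset.sum_congr rfl fun κ _ => by
      rw [p.map_smul_univ, Pi.smul_apply, smul_eq_mul, smul_eq_mul, mul_comm]
  rw [e]
  exact Submodule.sum_mem _ fun κ _ => Submodule.smul_mem _ _ (prod_mem k κ)

theorem eq_zero {k : ℕ} {P : E n → ℂ} (hP : P ∈ Hom n k) (h : Ord 0 (k + 1) P) : P = 0 := by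
  funext z
  obtain ⟨C, -, hC⟩ := h.bound
  have h1 : Tendsto (fun t : ℝ => (t : ℂ) • z) (𝓝[>] 0) (𝓝 0) :=
    ((by fun_prop : Continuous fun t : ℝ => (t : ℂ) • z).tendsto' 0 0 (by simp)).mono_left
      nhdsWithin_le_nhds
  have h2 : Tendsto (fun t : ℝ => C * ‖z‖ ^ (k + 1) * t) (𝓝[>] 0) (𝓝 0) :=
    ((by fun_prop : Continuous fun t : ℝ => C * ‖z‖ ^ (k + 1) * t).tendsto' 0 0
      (by simp)).mono_left nhdsWithin_le_nhds
  refine norm_le_zero_iff.1 (ge_of_tendsto h2 ?_)
  filter_upwards [h1.eventually hC, self_mem_nhdsWithin] with t ht ht0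
  have h0 : 0 < t := ht0
  rw [Hom.smul_apply hP, sub_zero, norm_mul, norm_pow, norm_smul, Complex.norm_real,
    Real.norm_of_nonneg h0.le] at ht
  refine le_of_mul_le_mul_left (ht.trans (le_of_eq ?_)) (pow_pos h0 k)
  ring

end FInX

open FInX in
theorem fIn : InS := by
  intro n i f ⟨p, hp⟩ hf
  have h1 : ∀ k, Ord (0 : E n) k fun z => f z - ∑ j ∈ Finset.range k, p j fun _ => z :=
    fun k => by simpa [Ord, FormalMultilinearSeries.partialSum] using
      hp.isBigO_sub_partialSum_pow k
  have h2 : ∀ k, (∀ z : E n, (∑ j ∈ Finset.range k, p j fun _ => z) = 0) →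
      Ord 0 (k + 1) (f - fun z => p k fun _ => z) := fun k hk => by
    have := h1 (k + 1)
    simp only [Finset.sum_range_succ, hk, zero_add] at this
    exact this
  have h3 : ∀ k, k ≤ i → ∀ z : E n, (∑ j ∈ Finset.range k, p j fun _ => z) = 0 := by
    intro k
    induction k with
    | zero => simp
    | succ k ih =>
      intro hk z
      have a := ih (Nat.le_of_succ_le hk)
      have b := (OrdS (0 : E n) (k + 1)).sub_mem (mem_OrdS.2 (hf.mono hk)) (mem_OrdS.2 (h2 k a))
      rw [sub_sub_cancel] at b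
      rw [Finset.sum_range_succ, a, zero_add]
      exact congrFun (eq_zero (diag_mem k (p k)) b) z
  exact ⟨_, diag_mem i (p i), h2 i (h3 i le_rfl)⟩

end Fuj
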