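import Vale.Agent.P271.FBasic

/-! Problem P271, part F: jets of order proportional to the degree are generated. -/

open MeasureTheory Set Filter Topology Metric

noncomputable section
namespace Fuj

namespace FJetX

theorem ord_of_comp {n r : ℕ} {Q : E n → ℂ} {ζ : E n → E n} (han : AnalyticAt ℂ ζ 0)
    (h0 : ζ 0 = 0) (hd : HasFDerivAt ζ (ContinuousLinearMap.id ℂ (E n)) 0)
    (h : Ord 0 r (fun p => Q (ζ p))) : Ord 0 r Q := by
  have hs : HasStrictFDerivAt ζ
      ((ContinuousLinearEquiv.refl ℂ (E n) : E n ≃L[ℂ] E n) : E n →L[ℂ] E n) 0 := by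
    have := han.hasStrictFDerivAt
    rwa [hd.fderiv] at this
  have h1 := hs.map_nhds_eq_of_equiv
  rw [h0] at h1
  have h2 := (hd.isTheta_sub IsInducing.id).isBigO_symm.norm_norm.pow r
  unfold Ord
  rw [← h1, Asymptotics.isBigO_map]
  refine Asymptotics.IsBigO.trans h ?_
  simpa only [h0, Function.comp_def] using h2

theorem indep (h2 : PolyS) {n j : ℕ} {g t : E n → ℂ} {s : Fin n → E n → ℂ}
    (hg : AnalyticAt ℂ g 0) (hg0 : g 0 ≠ 0) (ht : AnalyticAt ℂ t 0) (ht0 : t 0 = 1)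
    (hs : ∀ i, AnalyticAt ℂ (s i) 0) (hs0 : ∀ i, s i 0 = 0)
    (hd : HasFDerivAt (fun p i => s i p) (ContinuousLinearMap.id ℂ (E n)) 0)
    (c : (Fin n → ℕ) → ℂ)
    (h : Ord 0 (j + 1) (∑ β ∈ MonL n j, c β • (g * t ^ (j - ∑ a, β a) * ∏ i, s i ^ β i))) :
    ∀ β ∈ MonL n j, c β = 0 := by
  have ht1 : t 0 ≠ 0 := by rw [ht0]; exact one_ne_zero
  have hti : AnalyticAt ℂ (fun p => (t p)⁻¹) 0 := ht.fun_inv ht1
  have hσ : AnalyticAt ℂ (fun p i => s i p) 0 := analyticAt_pi_iff.2 hs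
  have hσ0 : (fun i => s i 0) = (0 : E n) := funext hs0
  refine h2 n j c (ord_of_comp (ζ := fun p => (t p)⁻¹ • fun i => s i p) (hti.fun_smul hσ)
    (by rw [hσ0, smul_zero]) ?_ ?_)
  · have := hti.differentiableAt.hasFDerivAt.fun_smul hd
    simpa only [ht0, inv_one, one_smul, hσ0, ContinuousLinearMap.smulRight_zero, add_zero]
      using this
  · have hc : ContinuousAt (fun p => (g p * t p ^ j)⁻¹) 0 :=
      (hg.continuousAt.mul (ht.continuousAt.pow j)).inv₀ (mul_ne_zero hg0 (pow_ne_zero _ ht1))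
    have h3 := (ord_zero_of_continuousAt hc).mul h
    rw [zero_add] at h3
    refine Asymptotics.IsBigO.congr' h3 ?_ EventuallyEq.rfl
    filter_upwards [hg.continuousAt.eventually_ne hg0, ht.continuousAt.eventually_ne ht1]
      with p hgp htp
    simp only [Pi.mul_apply, Finset.sum_apply, Pi.smul_apply, smul_eq_mul, Pi.pow_apply,
      Finset.prod_apply, Finset.mul_sum, mon, mul_pow, Finset.prod_mul_distrib,
      Finset.prod_pow_eq_pow_sum]
    refine Finset.sum_congr rfl fun β hβ => ?_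
    obtain ⟨k, hk⟩ := Nat.exists_eq_add_of_le (mem_MonL.1 hβ)
    rw [hk, Nat.add_sub_cancel_left, pow_add, inv_pow]
    field_simp

end FJetX

theorem fJet (h1 : CardS) (h2 : PolyS) : JetS := by
  intro n L H
  obtain ⟨q, hq, hb, s, hsV, hs0, hd⟩ := H.bpf
  obtain ⟨t₀, ht₀, ht0⟩ := hb 0 (by simp)
  obtain ⟨mb, hmb⟩ := eventually_atTop.1 H.big
  have hq' : (1 : ℝ) ≤ q := by exact_mod_cast hq
  refine ⟨1 / (2 * q), by positivity, by rw [div_le_one (by positivity)]; linarith, ?_⟩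
  filter_upwards [eventually_ge_atTop (2 * mb)] with m hm j hj
  have hjq : 2 * (j * q) ≤ m := by
    rw [div_mul_eq_mul_div, le_div_iff₀ (by positivity)] at hj
    have : ((2 * (j * q) : ℕ) : ℝ) ≤ m := by push_cast; linarith
    exact_mod_cast this
  obtain ⟨g, hg, hg0⟩ := hmb (m - j * q) (by omega)
  have htV : (t₀ 0)⁻¹ • t₀ ∈ L.V q := Submodule.smul_mem _ _ ht₀
  rw [← h1.2 n j]
  refine codim_ge (L.V m) (OrdS 0 (j + 1)) (MonL n j)
    (fun β => g * ((t₀ 0)⁻¹ • t₀) ^ (j - ∑ a, β a) * ∏ i, s i ^ β i) (fun β hβ => ?_)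
    (fun c hc => FJetX.indep h2 (Loc.an0 hg) hg0 (Loc.an0 htV) (by simp [ht0])
      (fun i => Loc.an0 (hsV i)) hs0 hd c hc)
  have h3 := L.mul (L.mul hg (Loc.pow_mem htV (j - ∑ a, β a)))
    (Loc.prod_mem Finset.univ (fun i => β i * q) (fun i => s i ^ β i)
      fun i _ => Loc.pow_mem (hsV i) (β i))
  have e : m - j * q + (j - ∑ a, β a) * q + ∑ i, β i * q = m := by
    rw [← Finset.sum_mul, add_assoc, ← add_mul, Nat.sub_add_cancel (mem_MonL.1 hβ)]
    omega
  rwa [e] at h3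

end Fuj
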