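import Vale.Agent.P271.FBasic

/-! Problem P271, part F: counting jets. -/

open MeasureTheory Set Filter Topology Metric
open scoped ENNReal

noncomputable section
namespace Fuj

namespace FJet12X

theorem inf_inf {n i : ℕ} (W : Submodule ℂ (E n → ℂ)) :
    (W ⊓ OrdS 0 i) ⊓ OrdS 0 (i + 1) = W ⊓ OrdS (0 : E n) (i + 1) := by
  rw [inf_assoc, inf_eq_right.2 (OrdS_anti (Nat.le_succ i))]

theorem step {n i : ℕ} (W P : Submodule ℂ (E n → ℂ)) [FiniteDimensional ℂ W]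
    [FiniteDimensional ℂ P] (h : ∀ s ∈ W, Ord 0 i s → ∃ p ∈ P, Ord 0 (i + 1) (s - p)) :
    Module.finrank ℂ ↥(W ⊓ OrdS 0 i) ≤
      Module.finrank ℂ ↥(W ⊓ OrdS 0 (i + 1)) + Module.finrank ℂ P := by
  have := codim_le (W ⊓ OrdS 0 i) (OrdS 0 (i + 1)) P fun s hs => h s hs.1 hs.2
  rwa [inf_inf] at this

end FJet12X

open FJet12X

theorem fJet1 (h1 : CardS) (h2 : InS) : Jet1 := by
  intro n i W _ hW
  refine (step W (Hom (n + 1) i) fun s hs ho => h2 _ i s (hW s hs) ho).trans ?_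
  rw [← h1.1 n i]
  exact Nat.add_le_add_left (finrank_Hom_le _ _) _

theorem fJet2 (h2 : InS) (h3 : HomL) (h4 : LimS) : Jet2 := by
  intro n i j r W _ hW hj hr hf
  obtain ⟨y, hy, hp⟩ := frequently_iff_seq_forall.1 (hf.and_eventually self_mem_nhdsWithin)
  have h0 : ∀ k, y k ≠ 0 := fun k => (hp k).2
  have hs : ∀ k, ((‖y k‖⁻¹ : ℝ) : ℂ) • y k ∈ sphere (0 : E (n + 1)) 1 := fun k => by
    rw [mem_sphere_zero_iff_norm, norm_smul, Complex.norm_real, norm_inv, norm_norm,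
      inv_mul_cancel₀ (norm_ne_zero_iff.2 (h0 k))]
  obtain ⟨l, hl, φ, hφ, ht⟩ := (isCompact_sphere (0 : E (n + 1)) 1).tendsto_subseq hs
  have hl0 : l ≠ 0 := ne_zero_of_mem_unit_sphere ⟨l, hl⟩
  have h5 := step (i := i) W (Hom (n + 1) i ⊓ OrdS l (r + 1)) fun s hs ho => by
    obtain ⟨P, hP, hd⟩ := h2 _ i s (hW s hs 0 (by simp)) ho
    exact ⟨P, ⟨hP, h4 _ i (r + 1) s P (fun k => y (φ k)) l (hW s hs) hP hd (fun k => h0 _)
      ((hy.mono_right nhdsWithin_le_nhds).comp hφ.tendsto_atTop) ht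
      fun k => (hp _).1 s hs (ho.mono hj)⟩, hd⟩
  have h6 := h3 n i r l hl0 hr
  omega

theorem fHb (h : Jet1) : HbS := by
  intro n L hn H
  obtain ⟨n, rfl⟩ : ∃ k, n = k + 1 := ⟨n - 1, by omega⟩
  obtain ⟨C, hC⟩ := H.siegel
  refine ⟨((C + 1 + n : ℕ) : ℝ) ^ (n + 1), one_le_pow₀ (Nat.one_le_cast.2 (by omega)), fun m => ?_⟩
  have key : ∀ k, k ≤ C * (m + 1) + 1 → L.h (m + 1) ≤
      Module.finrank ℂ ↥(L.V (m + 1) ⊓ OrdS 0 k) + k * (C * (m + 1) + 1 + n) ^ n := by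
    intro k
    induction k with
    | zero =>
      intro _
      rw [inf_eq_left.2 fun s hs => ord_zero_of_continuousAt (Loc.an0 hs).continuousAt]
      exact Nat.le_add_right _ _
    | succ k ih =>
      intro hk
      have h1 := ih (by omega)
      have h2 := h n k (L.V (m + 1)) fun s hs => Loc.an0 hs
      have h3 : (k + n).choose n ≤ (C * (m + 1) + 1 + n) ^ n :=
        (Nat.choose_le_pow _ _).trans (Nat.pow_le_pow_left (by omega) _)
      rw [Nat.succ_mul]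
      omega
  have h1 := key _ le_rfl
  have h2 : L.V (m + 1) ⊓ OrdS 0 (C * (m + 1) + 1) = ⊥ :=
    eq_bot_iff.2 fun s hs => by_contra fun h0 => hC _ s hs.1 h0 hs.2
  rw [h2, finrank_bot, zero_add] at h1
  have h3 : C * (m + 1) + 1 + n ≤ (C + 1 + n) * (m + 1) := by nlinarith
  have h4 : L.h (m + 1) ≤ (C + 1 + n) ^ (n + 1) * (m + 1) ^ (n + 1) := by
    rw [← mul_pow, pow_succ']
    exact h1.trans (Nat.mul_le_mul (by omega) (Nat.pow_le_pow_left h3 _))
  exact_mod_cast h4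

end Fuj
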