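import Vale.Agent.P271.FBasic

/-! Problem P271, part F: the key lemma without parameters. -/

open MeasureTheory Set Filter Topology Metric
open scoped ENNReal NNReal

noncomputable section
namespace Fuj

theorem fKL0 (h : KLm) : KL0 := by
  intro n ι _ m lam A B c η ρ hm hl hA hη hρ
  obtain ⟨T, δ, hδ, hk⟩ := h 0 n ι m lam A B c η ρ hm hl hA hη hρ
  refine ⟨T, δ, hδ, fun o s a han hb ha t₀ ht hI w hw => ?_⟩
  have hs : ∀ p ∈ ball ((0, o) : E 0 × E n) ρ, p.2 ∈ ball o ρ := fun p hp => by
    rw [← ball_prod_same] at hp; exact hp.2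
  obtain ⟨U, hU, C, hC⟩ := hk (0, o) (fun j p => s j p.2) a
    (fun j p hp => (han j _ (hs p hp)).comp analyticAt_snd) (fun p hp => hb _ (hs p hp)) ha t₀ ht
    0 (mem_ball_self hδ) hI w hw
  have hmp : MeasurePreserving (Prod.mk (0 : E 0)) (volume : Measure (E n))
      (volume : Measure (E 0 × E n)) :=
    ⟨measurable_prodMk_left, by
      rw [Measure.volume_eq_prod, Measure.volume_pi_eq_dirac (0 : E 0), Measure.dirac_prod]⟩
  refine ⟨Prod.mk 0 ⁻¹' U, (Continuous.prodMk_right 0).continuousAt.preimage_mem_nhds hU, C,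
    fun t ht => le_trans (le_of_eq ?_) (hC t ht)⟩
  exact hmp.setLIntegral_comp_preimage_emb (measurableEmbedding_prodMk_left 0)
    (Kf m (fun j (p : E 0 × E n) => s j p.2) a lam t) U

end Fuj
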