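import Vale.Agent.P271.FBasic

/-! Problem P271, part F: the key lemma for sections of different degrees. -/

open MeasureTheory Set Filter Topology Metric
open scoped ENNReal NNReal

noncomputable section
namespace Fuj
namespace FKLmX

theorem scale {x y C κ : ℝ} (hC : 0 < C) (hκ : 0 ≤ κ) (h : y ≤ C * x) :
    ENNReal.ofReal x ^ (-κ) ≤ ENNReal.ofReal (C ^ κ) * ENNReal.ofReal y ^ (-κ) := by
  have h1 : ENNReal.ofReal (C * x) ^ (-κ) ≤ ENNReal.ofReal y ^ (-κ) := by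
    rw [ENNReal.rpow_neg, ENNReal.rpow_neg]
    exact ENNReal.inv_le_inv.2 (ENNReal.rpow_le_rpow (ENNReal.ofReal_le_ofReal h) hκ)
  refine le_trans (le_of_eq ?_) (mul_le_mul_right h1 _)
  rw [ENNReal.ofReal_mul hC.le, ENNReal.mul_rpow_of_ne_top ENNReal.ofReal_ne_top
    ENNReal.ofReal_ne_top, ← mul_assoc, ENNReal.ofReal_rpow_of_pos hC,
    ← ENNReal.ofReal_mul (by positivity), ← Real.rpow_add hC]
  simp

theorem term {x lam : ℝ} (hx : 0 ≤ x) {m k N : ℕ} (hN : m * k = N) (h0 : 0 < N) :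
    ENNReal.ofReal x ^ (-(lam / m)) = ENNReal.ofReal (x ^ k) ^ (-(lam / N)) := by
  have hk : (k : ℝ) ≠ 0 := by
    rintro h
    rw [Nat.cast_eq_zero] at h
    simp [h] at hN
    omega
  rw [ENNReal.ofReal_pow hx, ← ENNReal.rpow_natCast, ← ENNReal.rpow_mul, ← hN]
  congr 1
  push_cast
  field_simp

theorem decay (I : ℝ → ℝ≥0∞) (c : ℝ) {D : ℝ} (hD : 0 ≤ D)
    (hI : ∀ t t', t < t' → t' ≤ t + 1 → I t ≤ ENNReal.ofReal D * I t')
    (hf : ∫⁻ t in Ioi (0 : ℝ), ENNReal.ofReal (Real.exp (c * t)) * I t ≠ ⊤) :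
    ∃ C : ℝ, ∀ t, 0 ≤ t → I t ≤ ENNReal.ofReal (C * Real.exp (-c * t)) := by
  refine ⟨(∫⁻ t in Ioi (0 : ℝ), ENNReal.ofReal (Real.exp (c * t)) * I t).toReal *
    (D * Real.exp |c|), fun t ht => ?_⟩
  have h1 : ∀ t' ∈ Ioc t (t + 1), I t ≤ ENNReal.ofReal (D * Real.exp |c| * Real.exp (-c * t)) *
      (ENNReal.ofReal (Real.exp (c * t')) * I t') := fun t' h => by
    rw [← mul_assoc, ← ENNReal.ofReal_mul (by positivity)]
    refine (hI t t' h.1 h.2).trans (mul_le_mul_left (ENNReal.ofReal_le_ofReal ?_) _)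
    rw [mul_assoc, mul_assoc, ← Real.exp_add, ← Real.exp_add]
    refine le_mul_of_one_le_right hD (Real.one_le_exp ?_)
    nlinarith [neg_abs_le c, abs_nonneg c, h.1, h.2]
  calc I t = ∫⁻ _ in Ioc t (t + 1), I t := by simp
    _ ≤ _ := setLIntegral_mono' measurableSet_Ioc h1
    _ ≤ _ := lintegral_mono_set (t := Ioi 0) fun t' h => ht.trans_lt h.1
    _ = _ := by
      rw [lintegral_const_mul' _ _ ENNReal.ofReal_ne_top, mul_assoc _ (D * _),
        ENNReal.ofReal_mul ENNReal.toReal_nonneg, ENNReal.ofReal_toReal hf, mul_comm]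

section
variable {X ι : Type} [Fintype ι]

theorem lip (σ : ι → X → ℂ) {b : ι → ℝ} {B κ t t' : ℝ} (hκ : 0 ≤ κ) (hb : ∀ j, |b j| ≤ B)
    (h1 : t < t') (h2 : t' ≤ t + 1) (p : X) :
    Ks σ b κ t p ≤ ENNReal.ofReal (Real.exp B ^ κ) * Ks σ b κ t' p := by
  refine scale (Real.exp_pos B) hκ ?_
  rw [Finset.mul_sum]
  refine Finset.sum_le_sum fun j _ => ?_
  rw [mul_left_comm, ← Real.exp_add]
  refine mul_le_mul_of_nonneg_left (Real.exp_le_exp.2 ?_) (by positivity)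
  nlinarith [le_abs_self (b j), abs_nonneg (b j), hb j]

theorem pw (z : ℂ) (a t : ℝ) (k : ℕ) :
    ‖z ^ k‖ ^ 2 * Real.exp (a * k * t) = (‖z‖ ^ 2 * Real.exp (a * t)) ^ k := by
  rw [mul_pow, norm_pow, ← pow_mul, ← pow_mul, mul_comm k 2, ← Real.exp_nat_mul]
  congr 2
  ring

variable {m k : ι → ℕ} {N : ℕ} (s : ι → X → ℂ) (a : ι → ℝ) {lam : ℝ}

theorem Ks_le (hN : ∀ j, m j * k j = N) (h0 : 0 < N) (hl : 0 ≤ lam) (t : ℝ) (p : X) :
    Ks (fun j p => s j p ^ k j) (fun j => a j * k j) (lam / N) t p ≤ Kf m s a lam t p := by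
  refine le_iInf fun j => ?_
  rw [term (by positivity) (hN j) h0, ← pw]
  have h := scale (κ := lam / N) one_pos (by positivity) ((Finset.single_le_sum
    (f := fun j => ‖s j p ^ k j‖ ^ 2 * Real.exp (a j * k j * t)) (fun _ _ => by positivity)
    (Finset.mem_univ j)).trans_eq (one_mul _).symm)
  rw [Real.one_rpow, ENNReal.ofReal_one, one_mul] at h
  exact h

theorem Kf_le [Nonempty ι] (hN : ∀ j, m j * k j = N) (h0 : 0 < N) (hl : 0 ≤ lam) (t : ℝ)
    (p : X) : Kf m s a lam t p ≤ ENNReal.ofReal ((Fintype.card ι : ℝ) ^ (lam / N)) *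
      Ks (fun j p => s j p ^ k j) (fun j => a j * k j) (lam / N) t p := by
  obtain ⟨j, hj⟩ := Finite.exists_max fun j => ‖s j p ^ k j‖ ^ 2 * Real.exp (a j * k j * t)
  refine (iInf_le _ j).trans ?_
  rw [term (by positivity) (hN j) h0, ← pw]
  refine scale (Nat.cast_pos.2 Fintype.card_pos) (by positivity) ?_
  simpa using Finset.sum_le_card_nsmul Finset.univ _ _ fun i _ => hj i

theorem bounds {z : ι → ℂ} {A : ℝ} (hA : 0 < A) (hk : ∀ j, k j ≤ N) (h1 : ∀ j, ‖z j‖ ≤ A)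
    (h2 : ∃ j, A⁻¹ ≤ ‖z j‖) :
    (((Fintype.card ι : ℝ) + 1) * max 1 A ^ (2 * N))⁻¹ ≤ ∑ j, ‖z j ^ k j‖ ^ 2 ∧
      ∑ j, ‖z j ^ k j‖ ^ 2 ≤ ((Fintype.card ι : ℝ) + 1) * max 1 A ^ (2 * N) := by
  have o : (1 : ℝ) ≤ max 1 A := le_max_left _ _
  have e : ∀ j, max 1 A ^ (k j * 2) ≤ max 1 A ^ (2 * N) := fun j =>
    pow_le_pow_right₀ o (by have := hk j; omega)
  have c : (0 : ℝ) ≤ Fintype.card ι := Nat.cast_nonneg _
  have p : 0 < max 1 A ^ (2 * N) := by positivity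
  simp only [norm_pow, ← pow_mul]
  constructor
  · obtain ⟨j, hj⟩ := h2
    refine le_trans ?_ (Finset.single_le_sum (f := fun j => ‖z j‖ ^ (k j * 2))
      (fun _ _ => by positivity) (Finset.mem_univ j))
    calc _ ≤ (max 1 A ^ (k j * 2))⁻¹ := inv_anti₀ (by positivity) (by nlinarith [e j])
      _ = (max 1 A)⁻¹ ^ (k j * 2) := (inv_pow _ _).symm
      _ ≤ _ := pow_le_pow_left₀ (by positivity) ((inv_anti₀ hA (le_max_right _ _)).trans hj) _
  · have := Finset.sum_le_card_nsmul Finset.univ (fun j => ‖z j‖ ^ (k j * 2)) _ fun j _ =>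
      (pow_le_pow_left₀ (norm_nonneg _) ((h1 j).trans (le_max_right 1 A)) _).trans (e j)
    simp only [Finset.card_univ, nsmul_eq_mul] at this
    nlinarith

theorem Ks_equiv {ι' : Type} [Fintype ι'] (e : ι' ≃ ι) (σ : ι → X → ℂ) (b : ι → ℝ) (κ : ℝ) :
    Ks (fun j => σ (e j)) (fun j => b (e j)) κ = Ks σ b κ := by
  funext t p
  exact congrArg (fun x => ENNReal.ofReal x ^ (-κ))
    (e.sum_comp fun j => ‖σ j p‖ ^ 2 * Real.exp (b j * t))

end

end FKLmX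

open FKLmX in
theorem fKLm (h : KL) : KLm := by
  intro d e ι _ m lam A B c η ρ hm hl hA hη hρ
  have h0 : 0 < ∏ j, m j := Finset.prod_pos fun j _ => hm j
  have hN : ∀ j, m j * ((∏ j, m j) / m j) = ∏ j, m j := fun j =>
    Nat.mul_div_cancel' (Finset.dvd_prod_of_mem m (Finset.mem_univ j))
  have hk : ∀ j, (∏ j, m j) / m j ≤ ∏ j, m j := fun j => Nat.div_le_self _ _
  generalize (∏ j, m j) = N at h0 hN hk
  have hκ : 0 < lam / N := by positivity
  obtain ⟨T, δ, hδ, H⟩ := h d e (Fintype.card ι) (lam / N)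
    (((Fintype.card ι : ℝ) + 1) * max 1 A ^ (2 * N)) (|B| * N) c η ρ hκ (by positivity) hη hρ
  refine ⟨T, δ, hδ, fun o s a hs hb ha t₀ ht z hz hi w hw => ?_⟩
  obtain ⟨j₀, -⟩ := (hb o (mem_ball_self hρ)).2
  have : Nonempty ι := ⟨j₀⟩
  have hb' : ∀ j, |a j * (N / m j : ℕ)| ≤ |B| * N := fun j => by
    rw [abs_mul, Nat.abs_cast]
    exact mul_le_mul ((ha j).trans (le_abs_self B)) (Nat.cast_le.2 (hk j)) (Nat.cast_nonneg _)
      (abs_nonneg B)
  let q := (Fintype.equivFin ι).symm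
  have E := Ks_equiv q (fun j p => s j p ^ (N / m j)) (fun j => a j * (N / m j : ℕ)) (lam / N)
  obtain ⟨U, hU, hf⟩ := H o (fun j p => s (q j) p ^ (N / m (q j)))
    (fun j => a (q j) * (N / m (q j) : ℕ)) (fun j => (hs (q j)).fun_pow _)
    (fun p hp => by
      rw [q.sum_comp fun j => ‖s j p ^ (N / m j)‖ ^ 2]
      exact bounds hA hk (hb p hp).1 (hb p hp).2) (fun j => hb' (q j)) t₀ ht z hz
    (by
      rw [E]
      exact (lintegral_mono fun w => Ks_le s a hN h0 hl.le t₀ (z, w)).trans hi) w hw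
  rw [E] at hf
  obtain ⟨C, hC⟩ := decay _ c (D := Real.exp (|B| * N) ^ (lam / N)) (by positivity)
    (fun t t' h1 h2 => (lintegral_mono (lip _ hκ.le hb' h1 h2)).trans_eq
      (lintegral_const_mul' _ _ ENNReal.ofReal_ne_top)) hf
  refine ⟨U, hU, (Fintype.card ι : ℝ) ^ (lam / N) * C, fun t ht => ?_⟩
  rw [mul_assoc, ENNReal.ofReal_mul (by positivity)]
  refine (lintegral_mono (Kf_le s a hN h0 hl.le t)).trans ?_
  rw [lintegral_const_mul' _ _ ENNReal.ofReal_ne_top]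
  exact mul_le_mul_right (hC t ht) _

end Fuj
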