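import Vale.Agent.P271.FBasic

/-! Problem P271, part F: lower bounds for the decay exponent. -/

open MeasureTheory Set Filter Topology Metric
open scoped ENNReal NNReal

noncomputable section
namespace Fuj
namespace FLbX
open Loc Loc.Flt

theorem pt {K : ℝ≥0∞} {x y b u u' κ κ' ε : ℝ} (hx : 0 ≤ x) (hy : Real.exp b ≤ y) (k' : 0 ≤ κ')
    (e0 : 0 ≤ ε) (e1 : ε ≤ 1) (h1 : K ≤ ENNReal.ofReal (x * Real.exp u) ^ (-κ))
    (h2 : K ≤ ENNReal.ofReal (y * Real.exp u') ^ (-κ')) :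
    K ≤ ENNReal.ofReal x ^ (-(κ * ε)) * ENNReal.ofReal (Real.exp (-(κ' * (1 - ε) * b)) *
      Real.exp (-(κ * ε * u + κ' * (1 - ε) * u'))) := by
  have h3 : K ≤ ENNReal.ofReal (Real.exp (b + u')) ^ (-κ') := by
    refine h2.trans ?_
    rw [ENNReal.rpow_neg, ENNReal.rpow_neg, Real.exp_add]
    exact ENNReal.inv_le_inv.2 (ENNReal.rpow_le_rpow (ENNReal.ofReal_le_ofReal
      (mul_le_mul_of_nonneg_right hy (Real.exp_pos _).le)) k')
  have h4 := mul_le_mul' (ENNReal.rpow_le_rpow h1 e0) (ENNReal.rpow_le_rpow h3 (sub_nonneg.2 e1))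
  rw [← ENNReal.rpow_add_of_nonneg _ _ e0 (sub_nonneg.2 e1), add_sub_cancel, ENNReal.rpow_one,
    ← ENNReal.rpow_mul, ← ENNReal.rpow_mul, ENNReal.ofReal_mul hx,
    ENNReal.mul_rpow_of_ne_top ENNReal.ofReal_ne_top ENNReal.ofReal_ne_top, ofReal_exp_rpow,
    ofReal_exp_rpow, mul_assoc, ← ENNReal.ofReal_mul (Real.exp_pos _).le, ← Real.exp_add,
    neg_mul] at h4
  refine h4.trans_eq ?_
  rw [← Real.exp_add]
  congr 3
  ring

theorem core {n : ℕ} {L : Loc n} (F : L.Flt) {lam ε : ℝ} (hl : 0 < lam) (e0 : 0 ≤ ε) (e1 : ε ≤ 1)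
    (m : ℕ) (i : Fin (L.h (m + 1))) (m' : ℕ) (i' : Fin (L.h (m' + 1))) (h0 : F.s m' i' 0 ≠ 0)
    (hI : IntAt 0 fun p => ENNReal.ofReal (‖F.s m i p‖ ^ 2) ^ (-(lam / (m + 1) * ε))) :
    F.Dec 0 lam (lam * (ε * (F.a m i / (m + 1)) + (1 - ε) * (F.a m' i' / (m' + 1)))) := by
  obtain ⟨U, hU, hI⟩ := hI
  have p0 : 0 < ‖F.s m' i' 0‖ ^ 2 := pow_pos (norm_pos_iff.2 h0) 2
  obtain ⟨b, hb⟩ : ∃ b, Real.exp b < ‖F.s m' i' 0‖ ^ 2 :=
    ⟨Real.log (‖F.s m' i' 0‖ ^ 2 / 2), by rw [Real.exp_log (half_pos p0)]; exact half_lt_self p0⟩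
  have hV := ((an0 (F.mem m' i')).continuousAt.norm.pow 2).eventually (lt_mem_nhds hb)
  obtain ⟨V, hV1, hV2, hV3⟩ := _root_.mem_nhds_iff.1 (inter_mem hU hV)
  refine ⟨max m m' + 1, V, hV2.mem_nhds hV3, (∫⁻ p in U, ENNReal.ofReal (‖F.s m i p‖ ^ 2) ^
    (-(lam / (m + 1) * ε))).toReal * Real.exp (-(lam / (m' + 1) * (1 - ε) * b)), fun t _ => ?_⟩
  refine (setLIntegral_mono' hV2.measurableSet fun p hp => pt (sq_nonneg _) (hV1 hp).2.le
    (by positivity) e0 e1 (F.K_le (by omega) i lam t p) (F.K_le (by omega) i' lam t p)).trans ?_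
  rw [lintegral_mul_const' _ _ ENNReal.ofReal_ne_top, mul_assoc (ENNReal.toReal _),
    ENNReal.ofReal_mul ENNReal.toReal_nonneg, ENNReal.ofReal_toReal hI]
  refine mul_le_mul' (lintegral_mono_set fun p hp => (hV1 hp).1) (le_of_eq ?_)
  congr 3
  ring

end FLbX

theorem fLb1 : Lb1S := by
  intro n L F lam ℓ hl h m i h0
  have hD := FLbX.core F hl le_rfl zero_le_one m i m i h0
    ⟨ball 0 1, ball_mem_nhds _ one_pos, by simp [measure_ball_lt_top.ne]⟩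
  have := not_lt.1 fun hc => h _ hc hD
  rw [zero_mul, zero_add, sub_zero, one_mul, ← mul_div_assoc] at this
  exact (div_le_iff₀ (by positivity)).1 this

theorem fLb2 (h : IntS) : Lb2S := by
  intro n L H lam hl
  obtain ⟨C, hC⟩ := H.siegel
  have hp : 0 ≤ lam * C := by positivity
  have e1 : 1 / (lam * C + 2) < 1 := (div_lt_one (by linarith)).2 (by linarith)
  refine ⟨1 / (lam * C + 2), by positivity, e1, fun F ℓ hF m i m' i' h0 =>
    not_lt.1 fun hc => hF _ hc (FLbX.core F hl (by positivity) e1.le m i m' i' h0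
      (h n (C * (m + 1)) _ 0 _ (Loc.an0 (F.mem m i)) (hC _ _ (F.mem m i) (F.ne_zero m i))
        (by positivity) ?_))⟩
  have e : lam / (m + 1) * (1 / (lam * C + 2)) * ((C * (m + 1) : ℕ) : ℝ) =
      lam * C / (lam * C + 2) := by
    push_cast
    field_simp
  rw [e, div_lt_one (by linarith)]
  linarith

end Fuj
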