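import Vale.Agent.P271.FBasic

/-! Problem P271, part F: the initial form inherits the order of vanishing in the limit direction. -/

open MeasureTheory Set Filter Topology Metric
open scoped ENNReal NNReal

noncomputable section
namespace Fuj

namespace FLimX

theorem schwarz {n r : ℕ} {f : E n → ℂ} {c z : E n} {R B : ℝ} (hd : DifferentiableOn ℂ f (ball c R))
    (hB : ∀ w ∈ ball c R, ‖f w‖ ≤ B) (ho : Ord c (r + 1) f) (hz : z ∈ ball c R) :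
    ‖f z‖ ≤ B * (‖z - c‖ / R) ^ (r + 1) := by
  have h0 := ho.eq_zero
  have h1 : (fun w => f w - f c) =o[𝓝 c] fun w => ‖w - c‖ ^ r := by
    simp only [h0, sub_zero]
    refine Asymptotics.IsBigO.trans_isLittleO ho ?_
    have h2 : Tendsto (fun w : E n => ‖w - c‖) (𝓝 c) (𝓝 0) := tendsto_norm_sub_self c
    exact (Asymptotics.isLittleO_pow_pow (𝕜 := ℝ) (Nat.lt_succ_self r)).comp_tendsto h2
  have := Complex.dist_le_mul_div_pow_of_mapsTo_ball_of_isLittleO (R₂ := B) hd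
    (fun w hw => by rw [h0, mem_closedBall_zero_iff]; exact hB w hw) h1 hz
  rwa [h0, dist_zero_right, dist_eq_norm] at this

theorem one {n i r : ℕ} {f P : E n → ℂ} (hf : AnalyticOnNhd ℂ f (ball 0 2)) (hP : P ∈ Hom n i)
    {C M δ : ℝ} (hC0 : 0 ≤ C) (hC : ∀ z ∈ ball (0 : E n) δ, ‖f z - P z‖ ≤ C * ‖z‖ ^ (i + 1))
    (hM : ∀ w ∈ closedBall (0 : E n) 2, ‖P w‖ ≤ M) {y : E n} (hy : y ≠ 0) (h1 : 2 * ‖y‖ < δ)
    (h2 : ‖y‖ < 1) (ho : Ord y (r + 1) f) {w : E n} (hw : ‖w - ((‖y‖⁻¹ : ℝ) : ℂ) • y‖ < 1) :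
    ‖P w‖ ≤ (M + C * 2 ^ (i + 1)) * ‖w - ((‖y‖⁻¹ : ℝ) : ℂ) • y‖ ^ (r + 1) +
      C * 2 ^ (i + 1) * ‖y‖ := by
  have hρ : 0 < ‖y‖ := norm_pos_iff.2 hy
  set ρ := ‖y‖ with hρdef
  have hρc : (ρ : ℂ) ≠ 0 := by exact_mod_cast hρ.ne'
  have hnc : ‖(ρ : ℂ)‖ = ρ := by rw [Complex.norm_real, Real.norm_of_nonneg hρ.le]
  have hb : ∀ z ∈ ball y ρ, ‖z‖ < 2 * ρ := fun z hz => by
    have := norm_sub_norm_le z y
    rw [mem_ball_iff_norm] at hz
    linarith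
  have hE : ∀ z ∈ ball y ρ, ‖f z - P z‖ ≤ C * 2 ^ (i + 1) * ρ * ρ ^ i := fun z hz => by
    have h3 := hb z hz
    refine (hC z (mem_ball_zero_iff.2 (by linarith))).trans ?_
    calc C * ‖z‖ ^ (i + 1) ≤ C * (2 * ρ) ^ (i + 1) := by gcongr
      _ = _ := by ring
  have hPz : ∀ z ∈ ball y ρ, ‖P z‖ ≤ M * ρ ^ i := fun z hz => by
    have e : z = (ρ : ℂ) • ((ρ : ℂ)⁻¹ • z) := by rw [smul_smul, mul_inv_cancel₀ hρc, one_smul]
    have h3 : ‖(ρ : ℂ)⁻¹ • z‖ ≤ 2 := by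
      rw [norm_smul, norm_inv, hnc, inv_mul_le_iff₀ hρ]
      linarith [hb z hz]
    have h4 := hM _ (mem_closedBall_zero_iff.2 h3)
    rw [e, Hom.smul_apply hP, norm_mul, norm_pow, hnc, mul_comm]
    gcongr
  have hfz : ∀ z ∈ ball y ρ, ‖f z‖ ≤ (M + C * 2 ^ (i + 1)) * ρ ^ i := fun z hz => by
    have h3 := norm_add_le (f z - P z) (P z)
    rw [sub_add_cancel] at h3
    have h4 := hE z hz
    have h5 := hPz z hz
    have h6 : C * 2 ^ (i + 1) * ρ * ρ ^ i ≤ C * 2 ^ (i + 1) * 1 * ρ ^ i := by gcongr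
    nlinarith
  have e : (ρ : ℂ) • w - y = (ρ : ℂ) • (w - ((ρ⁻¹ : ℝ) : ℂ) • y) := by
    rw [smul_sub, smul_smul, Complex.ofReal_inv, mul_inv_cancel₀ hρc, one_smul]
  have hn : ‖(ρ : ℂ) • w - y‖ = ρ * ‖w - ((ρ⁻¹ : ℝ) : ℂ) • y‖ := by rw [e, norm_smul, hnc]
  have hz : (ρ : ℂ) • w ∈ ball y ρ := by
    rw [mem_ball_iff_norm, hn]
    nlinarith
  have hd : DifferentiableOn ℂ f (ball y ρ) :=
    hf.differentiableOn.mono fun z hz => mem_ball_zero_iff.2 (by linarith [hb z hz])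
  have h3 := schwarz hd hfz ho hz
  rw [hn, mul_div_cancel_left₀ _ hρ.ne'] at h3
  have h4 := hE _ hz
  have h5 := norm_sub_le (f ((ρ : ℂ) • w)) (f ((ρ : ℂ) • w) - P ((ρ : ℂ) • w))
  rw [sub_sub_cancel, Hom.smul_apply hP, norm_mul, norm_pow, hnc] at h5
  rw [Hom.smul_apply hP] at h4
  refine le_of_mul_le_mul_left ?_ (pow_pos hρ i)
  nlinarith

end FLimX

theorem fLim : LimS := by
  intro n i r f P y l hf hP hfP hy0 hy hl ho
  rcases r with _ | r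
  · exact ord_zero_of_continuousAt (Hom.analyticAt hP l).continuousAt
  obtain ⟨C, hC0, hC⟩ := hfP.bound
  obtain ⟨δ, hδ, hC⟩ := Metric.eventually_nhds_iff_ball.1 hC
  obtain ⟨M, hM⟩ := (isCompact_closedBall (0 : E n) 2).exists_bound_of_continuousOn
    (f := P) fun z _ => (Hom.analyticAt hP z).continuousAt.continuousWithinAt
  have hn : Tendsto (fun k => ‖y k‖) atTop (𝓝 0) := tendsto_zero_iff_norm_tendsto_zero.1 hy
  refine ord_of_bound (C := M + C * 2 ^ (i + 1)) ?_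
  filter_upwards [ball_mem_nhds l one_pos] with w hw
  rw [mem_ball_iff_norm] at hw
  have h1 : Tendsto (fun k => ‖w - ((‖y k‖⁻¹ : ℝ) : ℂ) • y k‖) atTop (𝓝 ‖w - l‖) :=
    (tendsto_const_nhds.sub hl).norm
  have h2 := ((h1.pow (r + 1)).const_mul (M + C * 2 ^ (i + 1))).add
    (hn.const_mul (C * 2 ^ (i + 1)))
  rw [mul_zero, add_zero] at h2
  refine ge_of_tendsto h2 ?_
  filter_upwards [h1.eventually_lt_const hw, hn.eventually_lt_const (half_pos hδ),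
    hn.eventually_lt_const one_pos] with k k1 k2 k3
  exact FLimX.one hf hP hC0.le (fun z hz => by simpa using hC z hz) hM (hy0 k) (by linarith) k3
    (ho k) k1

end Fuj
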