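import Vale.Agent.P271.FBasic

/-! Problem P271, part F: lower semicontinuity and compactness. -/

open MeasureTheory Set Filter Topology Metric
open scoped ENNReal NNReal

noncomputable section
namespace Fuj

namespace FLscX
variable {n : ℕ} {L : Loc n}

theorem rpow_neg_anti {x y : ℝ≥0∞} (h : x ≤ y) {c : ℝ} (hc : 0 ≤ c) : y ^ (-c) ≤ x ^ (-c) := by
  rw [ENNReal.rpow_neg, ENNReal.rpow_neg]
  exact ENNReal.inv_le_inv.2 (ENNReal.rpow_le_rpow h hc)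

/-- comparison of kernels of two close families -/
theorem cmp {F G : L.Flt} {M : ℕ} {lam t y₀ : ℝ} {p : E n} (hl : 0 < lam) (hy : 0 < y₀)
    (hy1 : y₀ ≤ 1) (h0 : ∃ j : L.Ix M, y₀ ≤ ‖G.s j.1 j.2 p‖ ^ 2 * Real.exp (G.a j.1 j.2 * t))
    (h1 : ∀ j : L.Ix M, ‖G.s j.1 j.2 p‖ ^ 2 * Real.exp (G.a j.1 j.2 * t) - y₀ ^ M / 2 ≤
      ‖F.s j.1 j.2 p‖ ^ 2 * Real.exp (F.a j.1 j.2 * t)) :
    F.K M lam t p ≤ ENNReal.ofReal (2 ^ lam) * G.K M lam t p := by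
  obtain ⟨j₀, hj₀⟩ := h0
  have hF0 : F.K M lam t p ≤ ⨅ j : L.Ix M, ENNReal.ofReal (‖F.s j.1 j.2 p‖ ^ 2 *
      Real.exp (F.a j.1 j.2 * t)) ^ (-(lam / (j.1.val + 1 : ℝ))) :=
    le_iInf fun j => F.K_le j.1.2 j.2 lam t p
  have : Nonempty (L.Ix M) := ⟨j₀⟩
  obtain ⟨j, hj⟩ := exists_eq_ciInf_of_finite (f := fun j : L.Ix M => ENNReal.ofReal
    (‖G.s j.1 j.2 p‖ ^ 2 * Real.exp (G.a j.1 j.2 * t)) ^ (-(lam / (j.1.val + 1 : ℝ))))
  have hG : ENNReal.ofReal (‖G.s j.1 j.2 p‖ ^ 2 * Real.exp (G.a j.1 j.2 * t)) ^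
      (-(lam / (j.1.val + 1 : ℝ))) ≤ G.K M lam t p :=
    G.le_K fun m hm i => hj.le.trans (iInf_le _ (⟨⟨m, hm⟩, i⟩ : L.Ix M))
  have hj' := hj.le.trans (iInf_le _ j₀)
  set X := ‖G.s j.1 j.2 p‖ ^ 2 * Real.exp (G.a j.1 j.2 * t) with hX
  have hm : (0 : ℝ) ≤ (j.1.val : ℝ) := Nat.cast_nonneg _
  have hm₀ : (0 : ℝ) ≤ (j₀.1.val : ℝ) := Nat.cast_nonneg _
  have hXy : y₀ ^ M ≤ X := by
    by_contra hc
    push Not at hc
    have e1 : ENNReal.ofReal (‖G.s j₀.1 j₀.2 p‖ ^ 2 * Real.exp (G.a j₀.1 j₀.2 * t)) ^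
        (-(lam / (j₀.1.val + 1 : ℝ))) ≤ ENNReal.ofReal (y₀ ^ (-lam)) := by
      refine (rpow_neg_anti (ENNReal.ofReal_le_ofReal hj₀) (by positivity)).trans ?_
      rw [ENNReal.ofReal_rpow_of_pos hy]
      apply ENNReal.ofReal_le_ofReal
      apply Real.rpow_le_rpow_of_exponent_ge hy hy1
      rw [neg_le_neg_iff]
      exact div_le_self hl.le (by linarith)
    have e2 : X < y₀ ^ (j.1.val + 1) := hc.trans_le (pow_le_pow_of_le_one hy.le hy1 j.1.2)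
    have e3 : ENNReal.ofReal (y₀ ^ (-lam)) = ENNReal.ofReal (y₀ ^ (j.1.val + 1)) ^
        (-(lam / (j.1.val + 1 : ℝ))) := by
      rw [ENNReal.ofReal_rpow_of_pos (by positivity), ← Real.rpow_natCast, ← Real.rpow_mul hy.le]
      congr 2; push_cast; field_simp
    have e4 := (hj'.trans e1).trans_eq e3
    rw [ENNReal.rpow_neg, ENNReal.rpow_neg, ENNReal.inv_le_inv,
      ENNReal.rpow_le_rpow_iff (by positivity),
      ENNReal.ofReal_le_ofReal_iff (by rw [hX]; positivity)] at e4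
    linarith
  have hX0 : 0 < X := (pow_pos hy M).trans_le hXy
  refine (hF0.trans (iInf_le _ j)).trans (le_trans ?_ (mul_le_mul_right hG _))
  have e5 : X / 2 ≤ ‖F.s j.1 j.2 p‖ ^ 2 * Real.exp (F.a j.1 j.2 * t) := by linarith [h1 j]
  refine (rpow_neg_anti (ENNReal.ofReal_le_ofReal e5) (by positivity)).trans ?_
  rw [ENNReal.ofReal_rpow_of_pos (by positivity), ENNReal.ofReal_rpow_of_pos hX0,
    ← ENNReal.ofReal_mul (by positivity)]
  apply ENNReal.ofReal_le_ofReal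
  rw [Real.div_rpow hX0.le (by norm_num), Real.rpow_neg (by norm_num : (0 : ℝ) ≤ 2), div_inv_eq_mul,
    mul_comm]
  gcongr
  · norm_num
  · exact div_le_self hl.le (by linarith)

theorem close {s : ℕ → E n → ℂ} {g : E n → ℂ} {a : ℕ → ℝ} {a₀ A t ε : ℝ} (hε : 0 < ε)
    (hs : TendstoUniformlyOn s g atTop (ball 0 1)) (ha : Tendsto a atTop (𝓝 a₀))
    (hA : ∀ p ∈ ball (0 : E n) 1, ‖g p‖ ≤ A) :
    ∀ᶠ k in atTop, ∀ p ∈ ball (0 : E n) 1,
      ‖g p‖ ^ 2 * Real.exp (a₀ * t) - ε ≤ ‖s k p‖ ^ 2 * Real.exp (a k * t) := by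
  have hA0 : 0 ≤ A := (norm_nonneg _).trans (hA 0 (mem_ball_self one_pos))
  have he : Tendsto (fun k => Real.exp (a k * t)) atTop (𝓝 (Real.exp (a₀ * t))) :=
    (Real.continuous_exp.tendsto _).comp (ha.mul_const t)
  set e₀ := Real.exp (a₀ * t) with he₀
  have he0 : 0 < e₀ := Real.exp_pos _
  have hδ : 0 < ε / (2 * (A ^ 2 + 1)) := by positivity
  have hδ' : 0 < ε / (4 * (A + 1) * (e₀ + 1)) := by positivity
  filter_upwards [he.eventually (ge_mem_nhds (by linarith : e₀ < e₀ + 1)),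
    he.eventually (le_mem_nhds (by linarith : e₀ - ε / (2 * (A ^ 2 + 1)) < e₀)),
    Metric.tendstoUniformlyOn_iff.1 hs _ hδ'] with k h1 h2 h3 p hp
  have h4 := h3 p hp
  rw [dist_eq_norm] at h4
  have h5 : ‖g p‖ - ε / (4 * (A + 1) * (e₀ + 1)) ≤ ‖s k p‖ := by
    linarith [norm_sub_norm_le (g p) (s k p)]
  have h6 := hA p hp
  have h7 : ‖g p‖ ^ 2 - 2 * A * (ε / (4 * (A + 1) * (e₀ + 1))) ≤ ‖s k p‖ ^ 2 := by
    rcases le_or_gt ‖g p‖ (ε / (4 * (A + 1) * (e₀ + 1))) with h | h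
    · nlinarith [norm_nonneg (g p), sq_nonneg ‖s k p‖]
    · nlinarith [norm_nonneg (g p), sq_nonneg (ε / (4 * (A + 1) * (e₀ + 1)))]
  have h8 : 2 * A * (ε / (4 * (A + 1) * (e₀ + 1))) * (e₀ + 1) ≤ ε / 2 := by
    have : 2 * A * (ε / (4 * (A + 1) * (e₀ + 1))) * (e₀ + 1) = ε / 2 * (A / (A + 1)) := by
      field_simp; ring
    rw [this]
    exact mul_le_of_le_one_right (by positivity) ((div_le_one (by positivity)).2 (by linarith))
  have h9 : ‖g p‖ ^ 2 * (ε / (2 * (A ^ 2 + 1))) ≤ ε / 2 := by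
    have e1 : ‖g p‖ ^ 2 ≤ A ^ 2 + 1 := by nlinarith [norm_nonneg (g p)]
    calc _ ≤ (A ^ 2 + 1) * (ε / (2 * (A ^ 2 + 1))) := by gcongr
      _ = _ := by field_simp
  have hp' := Real.exp_pos (a k * t)
  have h10 := mul_le_mul_of_nonneg_right h7 hp'.le
  have h11 : 2 * A * (ε / (4 * (A + 1) * (e₀ + 1))) * Real.exp (a k * t) ≤ ε / 2 :=
    le_trans (by gcongr) h8
  have h12 := mul_le_mul_of_nonneg_left h2 (sq_nonneg ‖g p‖)
  nlinarith

end FLscX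

open FLscX in
theorem fLsc (h : KL0) : LscS := by
  intro n L H F G y y₀ lam ℓ hl hy₀ hy hs ha hL c hc hD
  obtain ⟨M₀, hM₀⟩ := H.exists_bpf
  obtain ⟨M, hM, U, hU, C, hC, hD⟩ := hD.large M₀
  obtain ⟨A, hA, hbnd⟩ := ((hM₀ G).mono hM).bnd
  obtain ⟨ρ, hρ, hρU⟩ := Metric.mem_nhds_iff.1 (inter_mem hU (isOpen_ball.mem_nhds hy₀))
  have hρ1 : ∀ p ∈ ball y₀ ρ, p ∈ ball (0 : E n) 1 := fun p hp => (hρU hp).2
  set B : ℝ := ∑ j : L.Ix M, |G.a j.1 j.2| with hB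
  have hB' : ∀ j : L.Ix M, |G.a j.1 j.2| ≤ B := fun j => Finset.single_le_sum
    (f := fun j : L.Ix M => |G.a j.1 j.2|) (fun _ _ => abs_nonneg _) (Finset.mem_univ j)
  have hB0 : 0 ≤ B := Finset.sum_nonneg fun _ _ => abs_nonneg _
  obtain ⟨T, δ, hδ, hK⟩ := h n (L.Ix M) (fun j => j.1.val + 1) lam (2 * A) (B + 1)
    (ℓ + (c - ℓ) / 3) ((c - ℓ) / 3) ρ (fun j => Nat.le_add_left 1 _) hl (by linarith)
    (by linarith) hρ
  set t := max (max T 0) (3 * (2 ^ lam * C) / (c - ℓ)) with ht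
  have htT : T ≤ t := (le_max_left _ _).trans (le_max_left _ _)
  have ht0 : 0 ≤ t := (le_max_right _ _).trans (le_max_left _ _)
  have ht1 : 3 * (2 ^ lam * C) / (c - ℓ) ≤ t := le_max_right _ _
  rw [div_le_iff₀ (by linarith)] at ht1
  have hA0 : 0 < A⁻¹ := by positivity
  have hA1 : A⁻¹ ≤ 1 := inv_le_one_of_one_le₀ hA
  set y₁ := A⁻¹ ^ 2 * Real.exp (-B * t) with hy₁
  have hy₁0 : 0 < y₁ := by positivity
  have hy₁1 : y₁ ≤ 1 := mul_le_one₀ (pow_le_one₀ hA0.le hA1) (Real.exp_pos _).le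
    (Real.exp_le_one_iff.2 (by nlinarith))
  have e1 : ∀ᶠ k in atTop, ∀ j : L.Ix M, ∀ p ∈ ball (0 : E n) 1,
      dist (G.s j.1 j.2 p) ((F k).s j.1 j.2 p) < A⁻¹ / 2 :=
    eventually_all.2 fun j => Metric.tendstoUniformlyOn_iff.1 (hs j.1 j.2) _ (by positivity)
  have e2 : ∀ᶠ k in atTop, ∀ j : L.Ix M, |(F k).a j.1 j.2| ≤ B + 1 :=
    eventually_all.2 fun j => (ha j.1 j.2).abs.eventually (ge_mem_nhds (by linarith [hB' j]))
  have e3 := eventually_all.2 fun j : L.Ix M => close (t := t) (ε := y₁ ^ M / 2) (by positivity)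
    (hs j.1 j.2) (ha j.1 j.2) fun p hp => (hbnd p (ball_subset_closedBall hp)).1 j
  obtain ⟨k, ⟨⟨⟨k1, k2⟩, k3⟩, k4⟩, k5⟩ := ((((e1.and e2).and e3).and
    (hy.eventually (ball_mem_nhds y₀ hδ))).and (hL ((c - ℓ) / 6) (by linarith))).exists
  obtain ⟨U', hU', C', hC'⟩ := hK y₀ (fun j => (F k).s j.1 j.2) (fun j => (F k).a j.1 j.2)
    (fun j p hp => Loc.anAt ((F k).mem j.1 j.2)
      ((mem_ball_zero_iff.1 (hρ1 p hp)).trans one_lt_two))
    (fun p hp => by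
      obtain ⟨b1, j, b2⟩ := hbnd p (ball_subset_closedBall (hρ1 p hp))
      refine ⟨fun j => ?_, j, ?_⟩
      · have := k1 j p (hρ1 p hp)
        rw [dist_comm, dist_eq_norm] at this
        linarith [norm_sub_norm_le ((F k).s j.1 j.2 p) (G.s j.1 j.2 p), b1 j]
      · have := k1 j p (hρ1 p hp)
        rw [dist_eq_norm] at this
        rw [mul_inv]
        linarith [norm_sub_norm_le (G.s j.1 j.2 p) ((F k).s j.1 j.2 p)]) k2 t htT
    (by
      calc _ ≤ ∫⁻ p in ball y₀ ρ, ENNReal.ofReal (2 ^ lam) * G.K M lam t p := by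
            refine setLIntegral_mono' measurableSet_ball fun p hp =>
              cmp hl hy₁0 hy₁1 ?_ fun j => k3 j p (hρ1 p hp)
            obtain ⟨-, j, b2⟩ := hbnd p (ball_subset_closedBall (hρ1 p hp))
            refine ⟨j, mul_le_mul (pow_le_pow_left₀ hA0.le b2 2) (Real.exp_le_exp.2 ?_)
              (Real.exp_pos _).le (by positivity)⟩
            exact mul_le_mul_of_nonneg_right (abs_le.1 (hB' j)).1 ht0
        _ ≤ ENNReal.ofReal (2 ^ lam) * ENNReal.ofReal (C * Real.exp (-c * t)) := by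
            rw [lintegral_const_mul' _ _ ENNReal.ofReal_ne_top]
            gcongr
            exact (lintegral_mono_set (hρU.trans inter_subset_left)).trans (hD t ht0)
        _ ≤ _ := by
            rw [← ENNReal.ofReal_mul (by positivity)]
            apply ENNReal.ofReal_le_ofReal
            have e : -(ℓ + (c - ℓ) / 3 + (c - ℓ) / 3) * t = (c - ℓ) / 3 * t + -c * t := by ring
            rw [e, Real.exp_add, ← mul_assoc]
            gcongr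
            linarith [Real.add_one_le_exp ((c - ℓ) / 3 * t)]) (y k) k4
  exact k5 (ℓ + (c - ℓ) / 3) (by linarith) ⟨M, U', hU', C', hC'⟩

theorem fCpt (h1 : ExtS) (h2 : LscS) (h3 : MonoS) : CptS := by
  intro n L H F B y lam ℓ hl hy hB hL
  obtain ⟨F', G, φ, hφ, hF', hs, ha⟩ := h1 n L F B hB
  refine ⟨G, φ, hφ, h2 n L H F' G (fun k => y (φ k)) 0 lam ℓ hl (mem_ball_self one_pos)
    (hy.comp hφ.tendsto_atTop) hs ha fun ε hε => ?_, fun m i => ?_⟩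
  · filter_upwards [hφ.tendsto_atTop.eventually (hL ε hε)] with k hk
    exact h3 n L _ _ (hF' k).2 _ _ _ hl hk
  · simpa only [fun k => (hF' k).1] using ha m i

end Fuj
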