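import Vale.Agent.P271.FBasic

/-! Problem P271, part F: assembly from the intermediate statements. -/

open MeasureTheory Set Filter Topology Metric

noncomputable section
namespace Fuj

theorem partF_of (hF0 : F0S) (hN : NumS) (hG : GrIn) (hM : MinS) (h2 : F2S) (hO : OmS)
    (hV : ValS) (hI : NumIn) (h5 : F5b) (hS : ShiftS) (n : ℕ) (hn : 1 ≤ n) (L : Loc n) :
    ¬ L.Hyp := by
  intro H
  obtain ⟨O, o, C, S, ε₀, m₀, hO', hC, hj⟩ := hF0 n L hn H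
  obtain ⟨lam, η, hl1, hl2, hη, hN⟩ := hN _ _ _ _ _ _ _ hC
  obtain ⟨q, hq, hP⟩ := H.pert η hη
  obtain ⟨q', m₁, hq', hG⟩ := hG n L H η hη
  obtain ⟨θ₀, hθ₀, hN⟩ := hN q q' m₁ hq hq'
  obtain ⟨θ₁, hθ₁, hM⟩ := hM n L hn H
  have hθ : 0 < min θ₀ θ₁ / 2 := by positivity
  have hθa : min θ₀ θ₁ / 2 < θ₀ := by linarith [min_le_left θ₀ θ₁, lt_min hθ₀ hθ₁]
  have hθb : min θ₀ θ₁ / 2 < θ₁ := by linarith [min_le_right θ₀ θ₁, lt_min hθ₀ hθ₁]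
  have hl0 : 0 < lam := by linarith
  obtain ⟨F, ℓ, hF⟩ := hM lam _ hl1 hθ hθb
  obtain ⟨τ, t, Ω, hA⟩ := hO n L H F lam ℓ hl0 (h2 n L H F lam ℓ hl0 hl2 hF.le)
  have hv := hV n L H F lam _ ℓ τ t Ω hl0 hθ hF hA
  have hD := hI n L F O o C S ε₀ m₀ lam _ ℓ τ _ hl0 hv hO' hC hj
  obtain ⟨d, e, hd, hP⟩ := hP _ hv.val
  refine hN _ _ τ _ hθ hθa hD (h5 n L H F lam _ ℓ τ _ hl0 hθ hD.τ0 hv η q d e hq hd hP) ?_
    (hG F lam _ ℓ τ _ hv)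
  have := hS n L F lam _ ℓ τ C hθ hD.τ0 hF (H.Xi_pos hF.sm) hv.le_a hC.Hle
  unfold Loc.Flt.Xi at this
  simp only [hv.W_eq] at this
  exact this

end Fuj
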