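import Vale.Agent.P271.FBasic

/-! Problem P271, part F: existence of a minimiser. -/

open MeasureTheory Set Filter Topology Metric
open scoped ENNReal NNReal

noncomputable section
namespace Fuj

namespace FMinX

theorem scal {lam θ q q' ℓ x a a' : ℝ} (hl : 1 ≤ lam) (hθ : 0 < θ) (hq : 1 ≤ q) (hθq : θ * q ≤ 1 / 2)
    (hq' : 0 < q') (hθq' : lam ≤ θ / 2 * q') (h1 : lam * a ≤ ℓ * q) (h2 : -a ≤ x)
    (h3 : lam * a' ≤ ℓ * q') (h4 : -a' ≤ x) :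
    0 ≤ ℓ + θ * x ∧ |ℓ| ≤ 2 * (ℓ + θ * x) ∧ θ * x ≤ 2 * (ℓ + θ * x) := by
  rcases le_or_gt 0 x with hx | hx
  · have e1 : -(θ / 2 * x) * q' ≤ ℓ * q' := by nlinarith
    have e2 : -(θ / 2 * x) ≤ ℓ := le_of_mul_le_mul_right e1 hq'
    have e3 : 0 ≤ θ * x := by positivity
    refine ⟨by linarith, abs_le.2 ⟨by linarith, by linarith⟩, by linarith⟩
  · have e0 : 0 < a := by linarith
    have e1 : -x ≤ ℓ * q := by nlinarith
    have e2 : 0 < ℓ := by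
      by_contra hc
      have : ℓ * q ≤ 0 := mul_nonpos_of_nonpos_of_nonneg (not_lt.1 hc) (by linarith)
      linarith
    have e3 : θ * -x ≤ ℓ / 2 := by nlinarith
    have e4 : θ * x < 0 := mul_neg_of_pos_of_neg hθ hx
    refine ⟨by linarith, abs_le.2 ⟨by linarith, by linarith⟩, by linarith⟩

variable {n : ℕ} {L : Loc n}

theorem neg_a_le (H : L.Hyp) {G : L.Flt} (h : G.Sm) (m : ℕ) (i : Fin (L.h (m + 1))) :
    -G.a m i ≤ Real.log G.Xi := by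
  rw [Real.le_log_iff_exp_le (H.Xi_pos h)]
  exact (G.exp_le_W m i).trans (G.W_le_Xi h m)

theorem nonempty (h3 : TestS) (h4 : HbS) (hn : 1 ≤ n) (H : L.Hyp) {lam : ℝ} (hl : 0 < lam) :
    ∃ (G : L.Flt) (ℓ : ℝ), G.LeL 0 lam ℓ ∧ G.Sm := by
  obtain ⟨O⟩ : Nonempty L.Flt := inferInstance
  obtain ⟨C, -, hC⟩ := h4 n L hn H
  refine ⟨_, _, h3 n L O (fun _ _ => 0) (fun m i =>
    ord_zero_of_continuousAt (Loc.an0 (O.mem m i)).continuousAt) lam 0 1 hl le_rfl, ?_⟩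
  refine Summable.of_nonneg_of_le (fun m => Loc.Flt.W_nonneg _ m) (fun m => ?_)
    ((summable_pow_exp n one_pos).mul_left C)
  simp only [Loc.Flt.W, Loc.Flt.rew, zero_mul, zero_add, Finset.sum_const, Finset.card_univ,
    Fintype.card_fin, nsmul_eq_mul, neg_mul]
  rw [← mul_assoc]
  gcongr
  exact hC m

theorem fatou {G : L.Flt} {F : ℕ → L.Flt} {z : ℝ} (hs : ∀ k, (F k).Sm)
    (ha : ∀ m i, Tendsto (fun k => (F k).a m i) atTop (𝓝 (G.a m i)))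
    (hz : Tendsto (fun k => (F k).Xi) atTop (𝓝 z)) : G.Sm ∧ G.Xi ≤ z := by
  have key : ∀ N, ∑ m ∈ Finset.range N, G.W m ≤ z := by
    intro N
    refine le_of_tendsto_of_tendsto' (f := fun k => ∑ m ∈ Finset.range N, (F k).W m) ?_ hz
      fun k => (hs k).sum_le_tsum _ fun m _ => (F k).W_nonneg m
    refine tendsto_finsetSum _ fun m _ => tendsto_finsetSum _ fun i _ => ?_
    exact (Real.continuous_exp.tendsto _).comp (ha m i).neg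
  exact ⟨summable_of_sum_range_le G.W_nonneg key, Real.tsum_le_of_sum_range_le G.W_nonneg key⟩

end FMinX

open FMinX in
theorem fMin (h1 : Lb1S) (h2 : Lb2S) (h3 : TestS) (h4 : HbS) (h5 : CptS) : MinS := by
  intro n L hn H
  obtain ⟨q, hq, hb, -⟩ := H.bpf
  obtain ⟨m₀, rfl⟩ : ∃ m, q = m + 1 := ⟨q - 1, by omega⟩
  obtain ⟨s₀, hs₀, hs₀'⟩ := hb 0 (by simp)
  refine ⟨1 / (2 * (m₀ + 1)), by positivity, fun lam θ hl hθ hθ0 => ?_⟩
  have hl0 : 0 < lam := by linarith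
  have hθq : θ * (m₀ + 1) ≤ 1 / 2 := by
    rw [lt_div_iff₀ (by positivity)] at hθ0; linarith
  obtain ⟨m₁, hm₁, s₁, hs₁, hs₁'⟩ : ∃ m₁ : ℕ, lam ≤ θ / 2 * (m₁ + 1) ∧
      ∃ s ∈ L.V (m₁ + 1), s 0 ≠ 0 := by
    have e1 := (tendsto_add_atTop_nat 1).eventually H.big
    have e2 : ∀ᶠ m : ℕ in atTop, 2 * lam / θ ≤ (m : ℝ) :=
      tendsto_natCast_atTop_atTop.eventually_ge_atTop _
    obtain ⟨m, hm, hm'⟩ := (e2.and e1).exists
    refine ⟨m, ?_, hm'⟩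
    rw [div_le_iff₀ hθ] at hm; nlinarith
  have key : ∀ (G : L.Flt) (ℓ : ℝ), G.LeL 0 lam ℓ → G.Sm →
      0 ≤ ℓ + θ * Real.log G.Xi ∧ |ℓ| ≤ 2 * (ℓ + θ * Real.log G.Xi) ∧
        θ * Real.log G.Xi ≤ 2 * (ℓ + θ * Real.log G.Xi) := by
    intro G ℓ hG hs
    obtain ⟨i₀, hi₀⟩ := G.exists_ne_zero hs₀ hs₀'
    obtain ⟨i₁, hi₁⟩ := G.exists_ne_zero hs₁ hs₁'
    exact scal hl hθ (by linarith [(Nat.cast_nonneg m₀ : (0 : ℝ) ≤ m₀)]) hθq (by positivity) hm₁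
      (h1 n L G lam ℓ hl0 hG m₀ i₀ hi₀) (neg_a_le H hs _ _) (h1 n L G lam ℓ hl0 hG m₁ i₁ hi₁)
      (neg_a_le H hs _ _)
  set S : Set ℝ := {z | ∃ (G : L.Flt) (ℓ : ℝ), G.LeL 0 lam ℓ ∧ G.Sm ∧ z = ℓ + θ * Real.log G.Xi}
    with hS
  have hne : S.Nonempty := by
    obtain ⟨G, ℓ, hG, hs⟩ := nonempty h3 h4 hn H hl0
    exact ⟨_, G, ℓ, hG, hs, rfl⟩
  have hbd : BddBelow S := ⟨0, by rintro _ ⟨G, ℓ, hG, hs, rfl⟩; exact (key G ℓ hG hs).1⟩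
  obtain ⟨u, hu, hul, huS⟩ := exists_seq_tendsto_sInf hne hbd
  choose F ℓ hF hs hu' using huS
  have hu0 : ∀ k, ℓ k + θ * Real.log (F k).Xi ≤ u 0 := fun k => hu' k ▸ hu (Nat.zero_le k)
  have hℓ : ∀ k, |ℓ k| ≤ 2 * u 0 := fun k => by linarith [(key _ _ (hF k) (hs k)).2.1, hu0 k]
  have hx : ∀ k m i, -(2 * u 0 / θ) ≤ (F k).a m i := fun k m i => by
    have e1 := (key _ _ (hF k) (hs k)).2.2
    have e2 := neg_a_le H (hs k) m i
    have e3 : Real.log (F k).Xi ≤ 2 * u 0 / θ := by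
      rw [le_div_iff₀ hθ]; linarith [hu0 k]
    linarith
  obtain ⟨ε, hε, hε1, h2⟩ := h2 n L H lam hl0
  have hU : 0 ≤ u 0 := (key _ _ (hF 0) (hs 0)).1.trans (hu0 0)
  have hD : 0 ≤ 2 * u 0 / θ := by positivity
  have hB : ∀ k m i, |(F k).a m i| ≤ 2 * u 0 / θ + (2 * u 0 + 2 * u 0 / θ) / ε * (m + 1) := by
    intro k m i
    obtain ⟨i₀, hi₀⟩ := (F k).exists_ne_zero hs₀ hs₀'
    have e1 := h2 (F k) (ℓ k) (hF k) m i m₀ i₀ hi₀
    have e2 : -(2 * u 0 / θ) ≤ (F k).a m₀ i₀ / (m₀ + 1) := by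
      rw [le_div_iff₀ (by positivity)]
      have := hx k m₀ i₀
      nlinarith [(Nat.cast_nonneg m₀ : (0 : ℝ) ≤ m₀)]
    have e3 : ε * ((F k).a m i / (m + 1)) + (1 - ε) * ((F k).a m₀ i₀ / (m₀ + 1)) ≤ 2 * u 0 := by
      by_contra hc
      push Not at hc
      have := (abs_le.1 (hℓ k)).2
      nlinarith
    have e4 : ε * ((F k).a m i / (m + 1)) ≤ 2 * u 0 + 2 * u 0 / θ := by nlinarith
    have e5 : (F k).a m i ≤ (2 * u 0 + 2 * u 0 / θ) / ε * (m + 1) := by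
      rw [← div_le_iff₀ (by positivity), le_div_iff₀ hε]; linarith
    have e6 : 0 ≤ (2 * u 0 + 2 * u 0 / θ) / ε * (m + 1) := by positivity
    exact abs_le.2 ⟨by linarith [hx k m i], by linarith⟩
  obtain ⟨ℓ₀, -, φ, hφ, hℓφ⟩ := tendsto_subseq_of_bounded (Metric.isBounded_Icc (-(2 * u 0)) (2 * u 0))
    (x := ℓ) (fun k => abs_le.1 (hℓ k))
  obtain ⟨G, ψ, hψ, hG, hGa⟩ := h5 n L H (fun k => F (φ k)) _ (fun _ => 0) lam ℓ₀ hl0
    tendsto_const_nhds (fun k => hB (φ k)) (fun e he => by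
      filter_upwards [hℓφ.eventually (ge_mem_nhds (by linarith : ℓ₀ < ℓ₀ + e))] with k hk
      exact (hF (φ k)).mono hk)
  have hXi : Tendsto (fun k => (F (φ (ψ k))).Xi) atTop (𝓝 (Real.exp ((sInf S - ℓ₀) / θ))) := by
    have e1 : ∀ k, (F k).Xi = Real.exp ((u k - ℓ k) / θ) := fun k => by
      rw [hu' k, add_sub_cancel_left, mul_div_cancel_left₀ _ hθ.ne', Real.exp_log (H.Xi_pos (hs k))]
    simp only [e1]
    refine (Real.continuous_exp.tendsto _).comp (Tendsto.div_const (Tendsto.sub ?_ ?_) θ)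
    · exact (hul.comp hφ.tendsto_atTop).comp hψ.tendsto_atTop
    · exact hℓφ.comp hψ.tendsto_atTop
  obtain ⟨hGs, hGx⟩ := fatou (fun k => hs (φ (ψ k))) hGa hXi
  refine ⟨G, ℓ₀, hG, hGs, fun G' ℓ' hG' hs' => ?_⟩
  have e1 : sInf S ≤ ℓ' + θ * Real.log G'.Xi := csInf_le hbd ⟨G', ℓ', hG', hs', rfl⟩
  have e2 : Real.log G.Xi ≤ (sInf S - ℓ₀) / θ := by
    rw [Real.log_le_iff_le_exp (H.Xi_pos hGs)]; exact hGx
  rw [le_div_iff₀ hθ] at e2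
  linarith

end Fuj
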