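import Vale.Agent.P271.FBasic

open MeasureTheory Set Filter Topology Metric
open scoped ENNReal

noncomputable section
namespace Fuj

theorem fElem : ElemS := by
  intro n L F m x z hz
  induction hz using Submodule.span_induction with
  | mem s hs =>
    obtain ⟨i, hi, rfl⟩ := hs
    refine ⟨1, one_pos, fun t B p ht _ h => ?_⟩
    rw [one_mul]
    refine le_trans ?_ (h i)
    have hi' : x ≤ F.a m i := hi
    gcongr
  | zero =>
    refine ⟨1, one_pos, fun t B p _ hB _ => ?_⟩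
    simpa using hB
  | add s s' _ _ h1 h2 =>
    obtain ⟨C, hC, h1⟩ := h1
    obtain ⟨C', hC', h2⟩ := h2
    refine ⟨2 * C + 2 * C', by positivity, fun t B p ht hB h => ?_⟩
    have a1 := h1 t B p ht hB h
    have a2 := h2 t B p ht hB h
    have a3 : ‖(s + s') p‖ ^ 2 ≤ 2 * ‖s p‖ ^ 2 + 2 * ‖s' p‖ ^ 2 := by
      have := pow_le_pow_left₀ (norm_nonneg _) (norm_add_le (s p) (s' p)) 2
      rw [Pi.add_apply]
      nlinarith [sq_nonneg (‖s p‖ - ‖s' p‖)]
    have a4 := mul_le_mul_of_nonneg_right a3 (Real.exp_pos (x * t)).le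
    linarith
  | smul c s _ h1 =>
    obtain ⟨C, hC, h1⟩ := h1
    refine ⟨(‖c‖ ^ 2 + 1) * C, by positivity, fun t B p ht hB h => ?_⟩
    have a1 := mul_le_mul_of_nonneg_left (h1 t B p ht hB h) (sq_nonneg ‖c‖)
    rw [Pi.smul_apply, norm_smul, mul_pow]
    nlinarith [mul_nonneg hC.le hB]

theorem FMonoX.aux {X B C e lam : ℝ} (hC : 1 ≤ C) (h : X ≤ C * B) (he : 0 ≤ e) (hl : e ≤ lam) :
    ENNReal.ofReal B ^ (-e) ≤ ENNReal.ofReal X ^ (-e) * ENNReal.ofReal (C ^ lam) := by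
  have hC0 : 0 < C := by linarith
  have h1 : (ENNReal.ofReal C * ENNReal.ofReal B) ^ (-e) ≤ ENNReal.ofReal X ^ (-e) := by
    rw [ENNReal.rpow_neg, ENNReal.rpow_neg, ← ENNReal.ofReal_mul hC0.le]
    exact ENNReal.inv_le_inv.2 (ENNReal.rpow_le_rpow (ENNReal.ofReal_le_ofReal h) he)
  rw [ENNReal.mul_rpow_of_ne_top ENNReal.ofReal_ne_top ENNReal.ofReal_ne_top,
    ENNReal.ofReal_rpow_of_pos hC0] at h1
  have h2 : (1 : ℝ≥0∞) ≤ ENNReal.ofReal (C ^ (-e)) * ENNReal.ofReal (C ^ lam) := by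
    rw [← ENNReal.ofReal_mul (by positivity), ← Real.rpow_add hC0, ENNReal.one_le_ofReal]
    exact Real.one_le_rpow hC (by linarith)
  calc ENNReal.ofReal B ^ (-e) = 1 * ENNReal.ofReal B ^ (-e) := (one_mul _).symm
    _ ≤ ENNReal.ofReal (C ^ (-e)) * ENNReal.ofReal (C ^ lam) * ENNReal.ofReal B ^ (-e) :=
      mul_le_mul_left h2 _
    _ = ENNReal.ofReal (C ^ (-e)) * ENNReal.ofReal B ^ (-e) * ENNReal.ofReal (C ^ lam) :=
      mul_right_comm _ _ _
    _ ≤ _ := mul_le_mul_left h1 _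

theorem fMono (h : ElemS) : MonoS := by
  intro n L F G hFG y lam ℓ hl hG c hc hD
  obtain ⟨M, -, U, hU, C₀, hC₀, hD⟩ := hD.large 0
  choose C hC hC' using fun j : L.Ix M => h n L G j.1 _ _ ((F.le_iff G).1 hFG j.1 j.2)
  have hs : 0 ≤ ∑ j, C j := Finset.sum_nonneg fun j _ => (hC j).le
  set D := 1 + ∑ j, C j with hDdef
  have hD1 : 1 ≤ D := by linarith
  have hCD : ∀ j, C j ≤ D := fun j => by
    have := Finset.single_le_sum (fun j _ => (hC j).le) (Finset.mem_univ j)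
    linarith
  have hpos : 0 < D ^ lam := by positivity
  have h0 : ENNReal.ofReal (D ^ lam) ≠ 0 := (ENNReal.ofReal_pos.2 hpos).ne'
  have key : ∀ t, 0 ≤ t → ∀ p, G.K M lam t p ≤ F.K M lam t p * ENNReal.ofReal (D ^ lam) := by
    intro t ht p
    rw [← ENNReal.div_le_iff h0 ENNReal.ofReal_ne_top]
    refine F.le_K fun m hm i => ENNReal.div_le_of_le_mul ?_
    obtain ⟨i', -, hi'⟩ := Finset.exists_max_image Finset.univ
      (fun i => ‖G.s m i p‖ ^ 2 * Real.exp (G.a m i * t)) ⟨i, Finset.mem_univ i⟩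
    have hB : 0 ≤ ‖G.s m i' p‖ ^ 2 * Real.exp (G.a m i' * t) := by positivity
    have h1 := hC' ⟨⟨m, hm⟩, i⟩ t _ p ht hB fun i'' => hi' i'' (Finset.mem_univ _)
    refine (G.K_le hm i' lam t p).trans (FMonoX.aux hD1
      (h1.trans (mul_le_mul_of_nonneg_right (hCD _) hB)) (by positivity) ?_)
    exact div_le_self hl.le (by linarith [(Nat.cast_nonneg m : (0 : ℝ) ≤ m)])
  refine hG c hc ⟨M, U, hU, C₀ * D ^ lam, fun t ht => ?_⟩
  refine (lintegral_mono (key t ht)).trans ?_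
  rw [lintegral_mul_const' _ _ ENNReal.ofReal_ne_top, mul_right_comm,
    ENNReal.ofReal_mul (by positivity)]
  exact mul_le_mul_left (hD t ht) _

end Fuj
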