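import Vale.Agent.P271.FBasic

/-! Problem P271, part F: the numerical contradiction. -/

open Set Filter Topology

noncomputable section
namespace Fuj
namespace FNumX

theorem exists_eta (N C g lam : ℝ) (h : 1 + N - N * g < lam) : ∃ η : ℝ, 0 < η ∧ η ≤ 1 / 4 ∧
    (1 + η) ^ 2 / (1 - η) * ((1 + η) ^ 2 + N + 2 * N * η * C - N * (1 - η) * g) < lam := by
  have hc : ContinuousAt (fun η : ℝ =>
      (1 + η) ^ 2 / (1 - η) * ((1 + η) ^ 2 + N + 2 * N * η * C - N * (1 - η) * g)) 0 := by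
    refine ContinuousAt.mul (ContinuousAt.div (by fun_prop) (by fun_prop) (by norm_num)) ?_
    fun_prop
  have h1 := hc.eventually_lt continuousAt_const (g := fun _ => lam) (by simpa using h)
  have h2 : ∀ᶠ η : ℝ in 𝓝 0, η < 1 / 4 := eventually_lt_nhds (by norm_num)
  obtain ⟨η, ⟨h3, h4⟩, h5⟩ := (((h1.and h2).filter_mono nhdsWithin_le_nhds).and
    (self_mem_nhdsWithin (a := (0 : ℝ)) (s := Ioi 0))).exists
  exact ⟨η, h5, h4.le, h3⟩

theorem exp_le {X θ η τ : ℝ} {q : ℕ} (hX : 0 < X) (hq : 1 ≤ q) (hη : 0 < η) (hτ : τ ≤ X * θ)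
    (h : θ ≤ Real.log (1 + η) / (X * q)) : Real.exp (τ * q) ≤ 1 + η := by
  have hq0 : (0 : ℝ) < q := by exact_mod_cast hq
  rw [le_div_iff₀ (by positivity)] at h
  rw [← Real.le_log_iff_exp_le (by positivity)]
  nlinarith

theorem tau_ge {θ η τ : ℝ} {q : ℕ} (hq : 1 ≤ q) (hη : 0 < η) (hη1 : η ≤ 1 / 4) (hτ : 0 < τ)
    (hθη : θ ≤ η) (he : Real.exp (τ * q) ≤ 1 + η)
    (h : θ * ((1 - η) * q / (Real.exp (τ * q) - 1) - 1) ≤ 1) : θ * (1 - η) ≤ (1 + η) ^ 2 * τ := by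
  have hq0 : (0 : ℝ) < q := by exact_mod_cast hq
  have h0 : 0 < τ * q := by positivity
  have h1 : 0 < Real.exp (τ * q) - 1 := by linarith [Real.add_one_le_exp (τ * q)]
  have h2 : Real.exp (τ * q) - 1 ≤ τ * q * (1 + η) := by
    have a1 := Real.add_one_le_exp (-(τ * q))
    have a2 : Real.exp (-(τ * q)) * Real.exp (τ * q) = 1 := by rw [← Real.exp_add]; simp
    have a3 := mul_le_mul_of_nonneg_right a1 (Real.exp_pos (τ * q)).le
    have a4 := mul_le_mul_of_nonneg_left he h0.le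
    linarith
  have h3 : θ * ((1 - η) * q) ≤ (1 + η) * (Real.exp (τ * q) - 1) := by
    rw [← div_le_iff₀ h1, mul_div_assoc]; linarith
  have h4 := mul_le_mul_of_nonneg_left h2 (by linarith : 0 ≤ 1 + η)
  have h5 : θ * (1 - η) * q ≤ (1 + η) ^ 2 * τ * q := by linarith
  exact le_of_mul_le_mul_right h5 hq0

theorem Th_le {n : ℕ} {H : ℕ → ℕ} {C τ θ : ℝ} (hC : 0 ≤ C) (hθ : 0 < θ) (hτ : θ / 4 ≤ τ)
    (hH : ∀ m, (H m : ℝ) ≤ C * (m + 1) ^ n) :
    Th H τ ≤ C * n.factorial * 8 ^ (n + 1) / θ ^ (n + 1) := by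
  have hτ0 : 0 < τ := by linarith
  have hs := (summable_pow_exp n hτ0).mul_left C
  have hle : ∀ m : ℕ, Real.exp (-τ * (m + 1)) * H m ≤
      C * (((m : ℝ) + 1) ^ n * Real.exp (-τ * (m + 1))) := fun m => by
    have := mul_le_mul_of_nonneg_left (hH m) (Real.exp_pos (-τ * (m + 1))).le
    linarith
  have h1 := (hs.of_nonneg_of_le (fun m => by positivity) hle).tsum_le_tsum hle hs
  rw [tsum_mul_left] at h1
  refine h1.trans ((mul_le_mul_of_nonneg_left (tsum_pow_exp_le n hτ0) hC).trans ?_)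
  rw [mul_div_assoc, ← div_pow, mul_assoc]
  have : 2 / τ ≤ 8 / θ := by rw [div_le_div_iff₀ hτ0 hθ]; linarith
  gcongr

theorem fin {lam T E θ τ η N C g e B Th : ℝ} (hT : 0 < T) (hE : 0 ≤ E) (hη : 0 < η)
    (hη1 : η ≤ 1 / 4) (hN : 0 ≤ N) (h1 : lam * T ≤ θ * E) (h2 : θ * (1 - η) ≤ (1 + η) ^ 2 * τ)
    (he : e ≤ 1 + η) (hB0 : 0 ≤ B) (hB : B ≤ η * T) (hTh : Th ≤ C * T)
    (h3 : τ * E ≤ e * (T + B) + N * (T + 2 * η * Th - (1 - η) * g * T))
    (h : (1 + η) ^ 2 / (1 - η) * ((1 + η) ^ 2 + N + 2 * N * η * C - N * (1 - η) * g) < lam) :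
    False := by
  have h0 : 0 < 1 - η := by linarith
  rw [div_mul_eq_mul_div, div_lt_iff₀ h0] at h
  have a1 : e * (T + B) ≤ (1 + η) * (T + η * T) :=
    mul_le_mul he (by linarith) (by positivity) (by positivity)
  have a2 : N * η * Th ≤ N * η * (C * T) := mul_le_mul_of_nonneg_left hTh (by positivity)
  have a3 : τ * E ≤ ((1 + η) ^ 2 + N + 2 * N * η * C - N * (1 - η) * g) * T := by linarith
  have a4 := mul_le_mul_of_nonneg_left a3 (by positivity : 0 ≤ (1 + η) ^ 2)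
  have a5 := mul_le_mul_of_nonneg_right h2 hE
  have a6 := mul_le_mul_of_nonneg_right h1 h0.le
  have a7 := mul_lt_mul_of_pos_right h hT
  linarith

end FNumX

open FNumX in
theorem fNum (h2 : U2) (h3 : U3) (h4 : U4) (h5 : U5a) (h6 : U5b) : NumS := by
  intro n H o C S ε₀ m₀ hC
  obtain ⟨X, c, θ2, hX, hc, hθ2, h2⟩ := h2 n H o C S ε₀ m₀ hC
  obtain ⟨β, lam₀, θ3, hβ, hl1, hl2, hθ3, h3⟩ := h3 n H o C S ε₀ m₀ hC c hc
  obtain ⟨a₀, κ, K, g, ha, hκ, hK, hg, h4⟩ := h4 n H o C S ε₀ m₀ hC X c β hX hc hβ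
  have hn : (1 : ℝ) ≤ n := by exact_mod_cast hC.hn
  have hC0 : 0 < C := by linarith [hC.hC]
  have hng : 0 < n * (κ * g) := by positivity
  obtain ⟨lam, hlam⟩ : ∃ lam, lam = max lam₀ (n + 1 - n * (κ * g) / 2) := ⟨_, rfl⟩
  have hl3 : lam₀ ≤ lam := hlam ▸ le_max_left _ _
  have hl4 : n + 1 - n * (κ * g) / 2 ≤ lam := hlam ▸ le_max_right _ _
  have hl5 : lam < n + 1 := hlam ▸ max_lt hl2 (by linarith)
  obtain ⟨η, hη, hη1, hR⟩ := exists_eta n (C * n.factorial * 8 ^ (n + 1) / c) (κ * g) lam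
    (by linarith)
  refine ⟨lam, η, hl1.trans hl3, hl5, hη, fun q q' m₁ hq hq' => ?_⟩
  obtain ⟨θ4, hθ4, h4⟩ := h4 (max m₀ m₁)
  have hlog : 0 < Real.log (1 + η) := Real.log_pos (by linarith)
  have hq0 : (0 : ℝ) < q := by exact_mod_cast hq
  have hq0' : (0 : ℝ) < q' := by exact_mod_cast hq'
  obtain ⟨B, hB⟩ : ∃ B : ℝ, B = C * (((max m₀ m₁ : ℕ) : ℝ) + q' + 1) ^ (n + 2) := ⟨_, rfl⟩
  have hB0 : 0 < B := by rw [hB]; positivity
  refine ⟨min (min θ2 (min θ3 θ4)) (min (min η (η * c / B))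
    (min (Real.log (1 + η) / (X * q)) (Real.log (1 + η) / (X * q')))), by positivity, ?_⟩
  intro θ A τ v hθ hθ' hD hF hE hG
  simp only [lt_min_iff] at hθ'
  obtain ⟨⟨t2, t3, t4⟩, ⟨t5, t6⟩, t7, t8⟩ := hθ'
  obtain ⟨hA, hτ, hT⟩ := h2 lam θ A τ v (hl1.trans hl3) hl5.le hθ t2 hD
  have hτ0 := hD.τ0
  have hθτ := tau_ge hq hη hη1 hτ0 t5.le (exp_le hX hq hη hτ t7.le) hF
  have hθ4' : θ / 4 ≤ τ := by
    have a1 : (1 + η) ^ 2 ≤ (5 / 4) ^ 2 := pow_le_pow_left₀ (by linarith) (by linarith) 2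
    have a2 := mul_le_mul_of_nonneg_right a1 hτ0.le
    have a3 := mul_le_mul_of_nonneg_left hη1 hθ.le
    linarith
  obtain ⟨h7, h8⟩ := h4 lam θ A τ v hθ t4 hD hA hθ4' hT
    (h3 lam θ A τ v hl3 hθ t3 hD hθ4' hT)
  have hT0 : 0 < Tn v τ := lt_of_lt_of_le (by positivity) hT
  have hGam : ∀ m, 0 ≤ Gam v a₀ m := fun m => Finset.sum_nonneg fun _ _ => le_max_right _ _
  have h1η : 0 < 1 - η := by linarith
  have key := h6 n H v (fun m => if m < ⌊K / θ⌋₊ then (1 - η) * κ * Gam v a₀ m else 0) C η τ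
    ((1 - η) * (κ * g) * Tn v τ) q' (max m₀ m₁) ⌊K / θ⌋₊ hq' hτ0 hη.le hC0.le hC.Hle hD.v0
    (fun m => by have := hGam m; positivity) (fun m hm => ?_) ?_
  · refine fin hT0 (tsum_nonneg fun m => ?_) hη hη1 (by linarith) hE hθτ
      (exp_le hX hq' hη hτ t8.le) hB0.le ?_ ?_ (hB ▸ key) hR
    · have := Wn_nonneg v m
      positivity
    · rw [lt_div_iff₀ hB0] at t6
      have a1 : θ ^ (n + 1) ≤ θ := pow_le_of_le_one hθ.le (by linarith) (by omega)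
      have a2 : B ≤ η * (c / θ ^ (n + 1)) := by
        rw [← mul_div_assoc, le_div_iff₀ (by positivity)]
        nlinarith
      exact a2.trans (by gcongr)
    · refine (Th_le hC0.le hθ hθ4' hC.Hle).trans ?_
      calc C * n.factorial * 8 ^ (n + 1) / θ ^ (n + 1) =
            C * n.factorial * 8 ^ (n + 1) / c * (c / θ ^ (n + 1)) := by field_simp
        _ ≤ _ := by gcongr
  · have hm0 : m₀ ≤ m := (le_max_left _ _).trans hm
    have hg := hG m ((le_max_right _ _).trans hm)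
    by_cases h : m < ⌊K / θ⌋₊
    · simp only [if_pos h]
      exact h5 n H v η a₀ κ q' m hC.hn hη (by linarith) ha hκ.le hD.v0 hg (h7 m hm0 h)
    · simp only [if_neg h]
      simpa using h5 n H v η a₀ 0 q' m hC.hn hη (by linarith) ha le_rfl hD.v0 hg fun a _ => by
        simpa using cntG_le (v m) a
  · calc (1 - η) * (κ * g) * Tn v τ = (1 - η) * κ * (g * Tn v τ) := by ring
      _ ≤ (1 - η) * κ * _ := mul_le_mul_of_nonneg_left h8 (by positivity)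
      _ = _ := by
        rw [Finset.mul_sum]
        refine Finset.sum_congr rfl fun m hm => ?_
        rw [if_pos (Finset.mem_Ico.1 hm).2]; ring

end Fuj
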