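import Vale.Agent.P271.FBasic

/-! Problem P271, part F: the minimiser satisfies the hypotheses of the numerical part. -/

open MeasureTheory Set Filter Topology Metric

noncomputable section
namespace Fuj

namespace FNumInX

variable {n : ℕ} {L : Loc n} {F : L.Flt} {lam θ ℓ τ : ℝ} {v : (E n → ℂ) → ℝ}

theorem cnt (h : F.Val lam θ ℓ τ v) (m : ℕ) (a : ℝ) :
    cntG (fun i => v (F.s m i)) a = Module.finrank ℂ (F.Fil m (a + τ * (m + 1))) := by
  rw [F.finrank_Fil]
  unfold cntG
  simp only [h.wt, add_le_add_iff_right]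

theorem mem (h : F.Val lam θ ℓ τ v) (m : ℕ) (a : ℝ) (s : E n → ℂ) :
    s ∈ F.Fil m (a + τ * (m + 1)) ↔ s ∈ L.V (m + 1) ∧ (s = 0 ∨ a ≤ v s) := by
  rw [h.fil, add_sub_cancel_right]
  rfl

theorem jet (h : F.Val lam θ ℓ τ v) {m j : ℕ} {a : ℝ} (ha : (ℓ - lam * τ) * j < a)
    (hj : Module.finrank ℂ ↥(L.V (m + 1) ⊓ OrdS 0 (j + 1)) + (j + n).choose n ≤ L.h (m + 1)) :
    (j + n).choose n ≤ cntL (fun i => v (F.s m i)) a := by
  have := L.fd (m + 1)
  have h1 := cntL_add_cntG (fun i => v (F.s m i)) a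
  have h2 : F.Fil m (a + τ * (m + 1)) ≤ L.V (m + 1) ⊓ OrdS 0 (j + 1) := fun s hs => by
    obtain ⟨h3, h4⟩ := (mem h m a s).1 hs
    refine ⟨h3, ?_⟩
    by_cases h0 : s = 0
    · rw [h0]
      exact Submodule.zero_mem _
    · by_contra h5
      exact ((h.ord _ s h3 h0 j h5).trans_lt ha).not_ge (h4.resolve_left h0)
  have h3 := Submodule.finrank_mono h2
  rw [cnt h] at h1
  omega

end FNumInX

open FNumInX

theorem fNumIn (h : TestS) : NumIn := by
  intro n L F O o C S ε₀ m₀ lam θ ℓ τ v hl hV hO hC hj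
  refine ⟨hV.A0, fun m i => hV.val.nonneg (F.mem m i) (F.ne_zero m i), ?_,
    fun m hm j hj' a ha => jet hV ha (hj m hm j hj'), fun s τ' hs hτ' => ?_⟩
  · by_contra! hτ
    have h1 : ∀ᶠ m in atTop, Real.exp (-1) ≤ F.W m := by
      filter_upwards [eventually_ge_atTop m₀] with m hm
      have h2 := jet hV (j := 0) (a := 1) (by simp) (hj m hm 0 (by
        rw [Nat.cast_zero]
        exact mul_nonneg hC.hε.le (by positivity)))
      rw [zero_add, Nat.choose_self] at h2
      obtain ⟨i, hi⟩ := Finset.card_pos.1 h2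
      have h3 : v (F.s m i) < 1 := by simpa using hi
      refine le_trans (Real.exp_le_exp.2 ?_) (F.exp_le_W m i)
      have h4 : τ * (m + 1) ≤ 0 := mul_nonpos_of_nonpos_of_nonneg hτ (by positivity)
      rw [hV.wt]
      linarith
    exact (ge_of_tendsto hV.min.sm.tendsto_atTop_zero h1).not_gt (Real.exp_pos _)
  · have hW : ∀ m, (O.rew fun m i => s * o m i + τ' * (m + 1)).W m = Real.exp (-τ' * (m + 1)) *
        Wn (H := fun m => L.h (m + 1)) (fun m i => s * o m i) m := fun m => by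
      unfold Loc.Flt.W Wn
      rw [Finset.mul_sum]
      refine Finset.sum_congr rfl fun i _ => ?_
      rw [← Real.exp_add]
      congr 1
      change -(s * o m i + τ' * (m + 1)) = _
      ring
    have hS : (O.rew fun m i => s * o m i + τ' * (m + 1)).Sm := by
      refine Summable.of_nonneg_of_le (fun m => Loc.Flt.W_nonneg _ m) (fun m => ?_)
        ((summable_pow_exp n hτ').mul_left C)
      rw [hW, mul_comm, ← mul_assoc]
      exact mul_le_mul_of_nonneg_right ((Wn_le (H := fun m => L.h (m + 1))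
        (fun m i => by positivity) m).trans (hC.Hle m)) (Real.exp_pos _).le
    have h1 := hV.min.min _ _ (h n L O o hO lam s τ' hl hs) hS
    unfold Loc.Flt.Xi at h1
    simp only [hW, hV.W_eq] at h1
    unfold Tn
    linarith

theorem fGrIn : GrIn := by
  intro n L H η hη
  obtain ⟨q, hq, hev⟩ := H.grow η hη
  obtain ⟨m₁, hm₁⟩ := eventually_atTop.1 hev
  refine ⟨q, m₁, hq, fun F lam θ ℓ τ v hV m hm => ?_⟩
  obtain ⟨h1, h2⟩ := hm₁ (m + 1) (by omega)
  rw [Nat.add_right_comm m 1 q, Nat.cast_succ] at h1 h2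
  refine ⟨h1, fun a _ hne => ?_⟩
  rw [cnt hV] at hne
  rw [cnt hV, cnt hV]
  refine h2 _ _ (F.Fil_le m _) (F.Fil_le (m + q) _) (fun h0 => hne (by rw [h0, finrank_bot]))
    fun g hg s hs => ?_
  obtain ⟨h3, h4⟩ := (mem hV m a s).1 hs
  refine (mem hV (m + q) a _).2 ⟨?_, ?_⟩
  · have := L.mul hg h3
    rwa [show q + (m + 1) = m + q + 1 by omega] at this
  · by_cases hs0 : s = 0
    · exact Or.inl (by rw [hs0, mul_zero])
    by_cases hg0 : g = 0
    · exact Or.inl (by rw [hg0, zero_mul])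
    refine Or.inr ?_
    rw [hV.val.mul hg h3 hg0 hs0]
    linarith [hV.val.nonneg hg hg0, h4.resolve_left hs0]

end Fuj
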