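import Vale.Agent.P271.FBasic

/-! Problem P271, part F: existence of an admissible family. -/

open MeasureTheory Set Filter Topology Metric
open scoped ENNReal NNReal

noncomputable section
namespace Fuj

namespace FOmX

theorem norm_bounds {n : ℕ} {y p : E n} (hp : p ∈ ball y (‖y‖ / 2)) :
    ‖y‖ / 2 ≤ ‖p‖ ∧ ‖p‖ ≤ 3 / 2 * ‖y‖ := by
  rw [mem_ball_iff_norm] at hp
  have h1 := norm_sub_norm_le p y
  have h2 := norm_sub_norm_le y p
  rw [norm_sub_rev] at h2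
  constructor <;> linarith

theorem upper {n : ℕ} {S : Set (E n)} (hS : S ⊆ ball 0 1) {x t : ℝ} (ht : 1 ≤ t)
    (h : ENNReal.ofReal (Real.exp (x * t)) ≤ volume S) : x ≤ (Real.pi * 1 ^ 2) ^ n := by
  have hV : (0 : ℝ) ≤ (Real.pi * 1 ^ 2) ^ n := by positivity
  have h1 := h.trans (measure_mono hS)
  rw [vol_ball _ one_pos, ENNReal.ofReal_le_ofReal_iff hV] at h1
  have h2 := Real.add_one_le_exp (x * t)
  by_contra hc
  have h3 : (Real.pi * 1 ^ 2) ^ n < x := not_le.1 hc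
  nlinarith

theorem lower {A B a σ t u : ℝ} {m : ℕ} (hA : 1 ≤ A) (ha : |a| ≤ B) (ht : 1 ≤ t) (hu : A⁻¹ ≤ u)
    (h : u ^ 2 * Real.exp (a * t) ≤ Real.exp ((m + 1) * σ * t)) : -(2 * A + B) ≤ σ := by
  have hB : 0 ≤ B := (abs_nonneg a).trans ha
  have h1 : Real.exp (-A) ≤ A⁻¹ := by
    rw [Real.exp_neg]
    exact inv_anti₀ (by linarith) (by linarith [Real.add_one_le_exp A])
  have h2 : Real.exp (-A) ^ 2 ≤ u ^ 2 := pow_le_pow_left₀ (Real.exp_pos _).le (h1.trans hu) 2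
  have h3 := (mul_le_mul_of_nonneg_right h2 (Real.exp_pos (a * t)).le).trans h
  rw [sq, ← Real.exp_add, ← Real.exp_add, Real.exp_le_exp] at h3
  by_contra hc
  have h4 : σ < -(2 * A + B) := not_le.1 hc
  have h5 : (0 : ℝ) ≤ m := Nat.cast_nonneg m
  have h6 : 0 ≤ (m : ℝ) * (-σ * t) := mul_nonneg h5 (mul_nonneg (by linarith) (by linarith))
  have h7 : -B * t ≤ a * t := mul_le_mul_of_nonneg_right (abs_le.1 ha).1 (by linarith)
  have h8 : σ * t < -(2 * A + B) * t := mul_lt_mul_of_pos_right h4 (by linarith)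
  have h9 : A * 1 ≤ A * t := mul_le_mul_of_nonneg_left ht (by linarith)
  nlinarith

end FOmX

open FOmX in
theorem fOm (h : DownS) : OmS := by
  intro n L H F lam ℓ hl hfr
  obtain ⟨M₀, hM₀⟩ := H.exists_bpf
  obtain ⟨A, hA, hbnd⟩ := (hM₀ F).bnd
  obtain ⟨B, hB⟩ := Finite.exists_le fun j : L.Ix M₀ => |F.a j.1 j.2|
  have hy : ∀ k : ℕ, ∃ y : E n, y ≠ 0 ∧ ‖y‖ < 1 / ((k : ℝ) + 1) / 2 ∧ F.LeL y lam ℓ := by
    intro k
    have hb : ∀ᶠ y in 𝓝[≠] (0 : E n), y ∈ ball (0 : E n) (1 / ((k : ℝ) + 1) / 2) :=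
      nhdsWithin_le_nhds (ball_mem_nhds _ (by positivity))
    obtain ⟨y, h1, h2, h3⟩ := (hfr.and_eventually (hb.and self_mem_nhdsWithin)).exists
    exact ⟨y, h3, mem_ball_zero_iff.1 h2, h1⟩
  choose y y0 y1 y2 using hy
  have e0 : ∀ k : ℕ, 0 < 1 / ((k : ℝ) + 1) := fun k => by positivity
  have e1 : ∀ k : ℕ, 1 / ((k : ℝ) + 1) ≤ 1 := fun k =>
    (div_le_one (by positivity)).2 (by linarith [Nat.cast_nonneg (α := ℝ) k])
  have yp : ∀ k, 0 < ‖y k‖ := fun k => norm_pos_iff.2 (y0 k)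
  choose t σ ht hv using fun k : ℕ => h n L F (y k) lam ℓ (max k M₀) hl
    (mem_ball_zero_iff.2 (by linarith [y1 k, e1 k])) ((hM₀ F).mono (le_max_right _ _)) (y2 k)
    (ball (y k) (‖y k‖ / 2)) (ball_mem_nhds _ (half_pos (yp k))) (1 / ((k : ℝ) + 1))
    (max ((k : ℝ) + 1) (((k : ℝ) + 1) * Real.log (2 / ‖y k‖))) (e0 k)
  have t1 : ∀ k : ℕ, (k : ℝ) + 1 ≤ t k := fun k => (le_max_left _ _).trans (ht k)
  have t2 : ∀ k : ℕ, ((k : ℝ) + 1) * Real.log (2 / ‖y k‖) ≤ t k :=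
    fun k => (le_max_right _ _).trans (ht k)
  have t3 : ∀ k : ℕ, 1 ≤ t k := fun k => by linarith [t1 k, Nat.cast_nonneg (α := ℝ) k]
  set Ω : ℕ → Set (E n) := fun k => ball (y k) (‖y k‖ / 2) ∩ F.Sub (max k M₀) (σ k) (t k) with hΩ
  have small : ∀ k, ∀ p ∈ Ω k, ‖p‖ < 1 / ((k : ℝ) + 1) := fun k p hp => by
    linarith [(norm_bounds hp.1).2, y1 k, e0 k]
  have sub1 : ∀ k, Ω k ⊆ ball 0 1 := fun k p hp =>
    mem_ball_zero_iff.2 ((small k p hp).trans_le (e1 k))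
  have bd : ∀ k, σ k ∈ Icc (-(2 * A + B)) ((ℓ + 1 + (Real.pi * 1 ^ 2) ^ n) / lam) := by
    intro k
    constructor
    · obtain ⟨p, hp⟩ : (Ω k).Nonempty := nonempty_of_measure_ne_zero
        ((ENNReal.ofReal_pos.2 (Real.exp_pos _)).trans_le (hv k)).ne'
      obtain ⟨j, hj⟩ := (hbnd p (ball_subset_closedBall (sub1 k hp))).2
      exact lower hA (hB j) (t3 k) hj (hp.2 j.1 (j.1.2.trans_le (le_max_right _ _)) j.2)
    · have := upper (sub1 k) (t3 k) (hv k)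
      rw [le_div_iff₀ hl, mul_comm (σ k)]
      generalize (Real.pi * 1 ^ 2) ^ n = V at this ⊢
      linarith [e1 k]
  obtain ⟨τ, -, φ, hφ, hτ⟩ := tendsto_subseq_of_bounded (isBounded_Icc _ _) bd
  have he : Tendsto (fun k => 1 / ((φ k : ℝ) + 1)) atTop (𝓝 0) :=
    tendsto_one_div_add_atTop_nhds_zero_nat.comp hφ.tendsto_atTop
  refine ⟨τ, fun k => t (φ k), fun k => Ω (φ k), ?_, ?_, ?_, ?_, ?_, ?_⟩
  · refine tendsto_atTop_mono (fun k => ?_)
      (tendsto_natCast_atTop_atTop.comp hφ.tendsto_atTop)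
    exact le_trans (le_add_of_nonneg_right zero_le_one) (t1 (φ k))
  · exact fun k => measurableSet_ball.inter (F.measurableSet_Sub _ _ _)
  · intro U hU
    obtain ⟨r, hr, hrU⟩ := Metric.mem_nhds_iff.1 hU
    filter_upwards [he.eventually_lt_const hr] with k hk p hp
    exact hrU (mem_ball_zero_iff.2 ((small _ p hp).trans hk))
  · intro ε hε
    have h1 : Tendsto (fun k => 1 / ((φ k : ℝ) + 1) + lam * (τ - σ (φ k))) atTop
        (𝓝 (0 + lam * (τ - τ))) := he.add ((hτ.const_sub τ).const_mul lam)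
    rw [sub_self, mul_zero, add_zero] at h1
    filter_upwards [h1.eventually_lt_const hε] with k hk
    refine le_trans (ENNReal.ofReal_le_ofReal (Real.exp_le_exp.2 ?_)) (hv (φ k))
    exact mul_le_mul_of_nonneg_right (by linarith) (by linarith [t3 (φ k)])
  · intro ε hε M
    filter_upwards [hτ.eventually_lt_const (lt_add_of_pos_right τ hε),
      hφ.tendsto_atTop.eventually_ge_atTop M] with k hk hM p hp
    exact F.Sub_mono M hk.le (by linarith [t3 (φ k)])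
      (F.Sub_anti (hM.trans (le_max_left _ _)) _ _ hp.2)
  · intro ε hε
    filter_upwards [he.eventually_lt_const hε] with k hk p hp
    refine le_trans ?_ (norm_bounds hp.1).1
    have h1 : Real.log (2 / ‖y (φ k)‖) ≤ 1 / ((φ k : ℝ) + 1) * t (φ k) := by
      rw [one_div, inv_mul_eq_div, le_div_iff₀ (by positivity), mul_comm]
      exact t2 (φ k)
    have h2 : 1 / ((φ k : ℝ) + 1) * t (φ k) ≤ ε * t (φ k) :=
      mul_le_mul_of_nonneg_right hk.le (by linarith [t3 (φ k)])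
    have h3 : Real.exp (-ε * t (φ k)) ≤ Real.exp (-Real.log (2 / ‖y (φ k)‖)) :=
      Real.exp_le_exp.2 (by linarith)
    rwa [Real.exp_neg (Real.log _), Real.exp_log (div_pos two_pos (yp _)), inv_div] at h3

end Fuj
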