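import Vale.Agent.P271.FBasic

/-! Problem P271, part F: the filtration by the order of vanishing. -/

open MeasureTheory Set Filter Topology Metric
open scoped ENNReal NNReal

noncomputable section
namespace Fuj

namespace FOrdBX

open Classical in
/-- the order of vanishing at the origin -/
def ordN {n : ℕ} (s : E n → ℂ) : ℕ := if h : ∃ r, ¬ Ord 0 (r + 1) s then Nat.find h else 0

theorem le_iff {n : ℕ} {s : E n → ℂ} (hc : ContinuousAt s 0) (h : ∃ r, ¬ Ord 0 (r + 1) s)
    (r : ℕ) : r ≤ ordN s ↔ Ord 0 r s := by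
  classical
  rw [ordN, dif_pos h, Nat.le_find_iff]
  constructor
  · intro h1
    rcases r with _ | r
    · exact ord_zero_of_continuousAt hc
    · exact not_not.1 (h1 r r.lt_succ_self)
  · exact fun h1 k hk => not_not.2 (h1.mono hk)

end FOrdBX

open FOrdBX in
theorem fOrdB (h : MkS) : OrdB := by
  intro n L H
  obtain ⟨C, hC⟩ := H.siegel
  have key : ∀ {m : ℕ} {s : E n → ℂ}, s ∈ L.V m → s ≠ 0 → ∀ r, r ≤ ordN s ↔ Ord 0 r s :=
    fun hs h0 => le_iff (Loc.an0 hs).continuousAt ⟨_, hC _ _ hs h0⟩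
  have hU : ∀ m, Ultra (L.V (m + 1)) fun s => (ordN s : ℝ) := by
    intro m
    refine ⟨fun s hs c hc => ?_, fun s hs s' hs' h0 h0' h1 => ?_⟩
    · by_cases h0 : s = 0
      · rw [h0, smul_zero]
      · refine congrArg Nat.cast (eq_of_forall_le_iff fun r => ?_)
        rw [key (Submodule.smul_mem _ c hs) (smul_ne_zero hc h0), key hs h0]
        exact (OrdS (0 : E n) r).smul_mem_iff hc
    rw [← Nat.cast_min, Nat.cast_le, key (add_mem hs hs') h1]
    exact (OrdS (0 : E n) _).add_mem ((key hs h0 _).1 (min_le_left _ _))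
      ((key hs' h0' _).1 (min_le_right _ _))
  obtain ⟨O, h1, h2⟩ := h n L (fun _ s => (ordN s : ℝ)) hU
  refine ⟨O, fun m i => ordN (O.s m i), C, fun m i => (key (O.mem m i) (O.ne_zero m i) _).1 le_rfl,
    fun m i => ?_, fun m r => ?_⟩
  · by_contra hc
    exact hC _ _ (O.mem m i) (O.ne_zero m i)
      ((key (O.mem m i) (O.ne_zero m i) _).1 (not_le.1 hc))
  · have e : O.Fil m r = L.V (m + 1) ⊓ OrdS 0 r := by
      ext z
      rw [h2, Submodule.mem_inf, and_congr_right_iff]
      intro hz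
      by_cases h0 : z = 0
      · subst h0
        exact ⟨fun _ => zero_mem _, fun _ => Or.inl rfl⟩
      · rw [or_iff_right h0, Nat.cast_le, key hz h0, mem_OrdS]
    rw [← e, O.finrank_Fil, show O.a m = fun i => (ordN (O.s m i) : ℝ) from funext (h1 m)]

end Fuj
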