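import Vale.Agent.P271.FBasic

/-! Matching of weights with the same counting function. -/

namespace Fuj

theorem fPerm : PermS := by
  classical
  intro k a a' h
  obtain ⟨f, hf, hm⟩ := (Finset.all_card_le_biUnion_card_iff_exists_injective
    (fun i : Fin k => Finset.univ.filter fun j => a i ≤ a' j)).1 fun s => by
      rcases s.eq_empty_or_nonempty with rfl | hs
      · simp
      obtain ⟨i, hi, hmin⟩ := s.exists_min_image a hs
      have h1 := h (a i)
      unfold cntG at h1
      refine le_trans (Finset.card_le_card fun j hj => ?_) (h1.trans (Finset.card_le_card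
        fun j hj => Finset.mem_biUnion.2 ⟨i, hi, by simpa using hj⟩))
      simpa using hmin j hj
  exact ⟨Equiv.ofBijective f (Finite.injective_iff_bijective.1 hf),
    fun i => (Finset.mem_filter.1 (hm i)).2⟩

theorem fPermP (h1 : PermS) (h2 : FilAdS) : PermP := by
  classical
  intro n L F lam θ ℓ τ v hv η q d e M γ y P m hm
  have h0 := Nat.le_add_left 1 m
  have hc : ∀ x, cntG (fun i => v (P.s (m + 1) i) + τ * (m + 1)) x = cntG (F.a m) x := fun x => by
    have e1 : Submodule.span ℂ (P.s (m + 1) '' {i | x ≤ v (P.s (m + 1) i) + τ * (m + 1)}) =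
        F.Fil m x := by
      ext z
      simp only [← sub_le_iff_le_add]
      exact (h2 _ (L.V (m + 1)) v (hv.val.ultra _) (P.s (m + 1)) (P.mem _ h0 hm) (P.li _ h0 hm)
        (P.adapt _ h0 hm) _ z).trans (hv.fil m x z).symm
    rw [← F.finrank_Fil, ← e1, finrank_span_image (P.li _ h0 hm), cntG]
  obtain ⟨π, hπ⟩ := h1 _ _ _ fun x => (hc x).le
  obtain ⟨π', hπ'⟩ := h1 _ _ _ fun x => (hc x).ge
  refine ⟨π, fun i => (Finset.sum_eq_sum_iff_of_le fun i _ => hπ i).1 (le_antisymm
    (Finset.sum_le_sum fun i _ => hπ i) ?_) i (Finset.mem_univ i)⟩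
  rw [Equiv.sum_comp π (F.a m), ← Equiv.sum_comp π' fun i => v (P.s (m + 1) i) + τ * (m + 1)]
  exact Finset.sum_le_sum fun i _ => hπ' i

end Fuj
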