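import Vale.Agent.P271.FBasic

/-! Problem P271, part F: comparison of the kernels `K` with a single function `Psi`. -/

open MeasureTheory Set Filter Topology Metric
open scoped ENNReal NNReal

noncomputable section
namespace Fuj

namespace FPsiX

variable {ι : Type} [Fintype ι]

theorem ofReal_rpow {a : ℝ} (ha : 0 < a) (r : ℝ) :
    ENNReal.ofReal a ^ r = ENNReal.ofReal (Real.exp (Real.log a * r)) := by
  rw [ENNReal.ofReal_rpow_of_pos ha, Real.rpow_def_of_pos ha]

theorem up {b x : ι → ℝ} {γ μ t : ℝ} {k J : ℕ} {κ : Fin J → ι → ℕ} (hk : 1 ≤ k) (hμ : 0 < μ)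
    (h1 : ∀ l, ∑ j, κ l j = k) (h2 : ∀ l, k * γ ≤ ∑ j, κ l j * b j) (hx : ∀ j, 0 ≤ x j)
    (ht : 0 ≤ t) :
    ENNReal.ofReal (Real.exp (γ * μ * t)) *
        ⨅ j, ENNReal.ofReal (x j * Real.exp (b j * t)) ^ (-μ) ≤
      ENNReal.ofReal (Real.exp (Real.log (J + 1) * (μ / k))) *
        ENNReal.ofReal (∑ l, ∏ j, x j ^ κ l j) ^ (-(μ / k)) := by
  have hk0 : (0 : ℝ) < k := by exact_mod_cast hk
  have hS0 : 0 ≤ ∑ l, ∏ j, x j ^ κ l j :=
    Finset.sum_nonneg fun l _ => Finset.prod_nonneg fun j _ => pow_nonneg (hx j) _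
  rcases hS0.eq_or_lt with hS | hS
  · rw [← hS, ENNReal.ofReal_zero, ENNReal.zero_rpow_of_neg (neg_lt_zero.2 (by positivity)),
      ENNReal.mul_top (by simpa using Real.exp_pos _)]
    exact le_top
  have hne : Nonempty ι := by
    obtain ⟨l, -, -⟩ := Finset.exists_ne_zero_of_sum_ne_zero hS.ne'
    by_contra hc
    rw [not_nonempty_iff] at hc
    have := h1 l
    simp at this
    omega
  obtain ⟨i, hi⟩ := Finite.exists_max fun j => x j * Real.exp (b j * t)
  set Φ := x i * Real.exp (b i * t) with hΦ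
  have h3 : ∀ l, (∏ j, x j ^ κ l j) * Real.exp (k * γ * t) ≤ Φ ^ k := fun l => by
    calc (∏ j, x j ^ κ l j) * Real.exp (k * γ * t)
        ≤ (∏ j, x j ^ κ l j) * Real.exp ((∑ j, κ l j * b j) * t) := by
          have := Finset.prod_nonneg fun j (_ : j ∈ Finset.univ) => pow_nonneg (hx j) (κ l j)
          gcongr
          exact h2 l
      _ = ∏ j, (x j * Real.exp (b j * t)) ^ κ l j := by
          rw [Finset.sum_mul, Real.exp_sum, ← Finset.prod_mul_distrib]
          refine Finset.prod_congr rfl fun j _ => ?_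
          rw [mul_pow, ← Real.exp_nat_mul, mul_assoc]
      _ ≤ ∏ j, Φ ^ κ l j := Finset.prod_le_prod
          (fun j _ => pow_nonneg (mul_nonneg (hx j) (Real.exp_pos _).le) _)
          fun j _ => pow_le_pow_left₀ (mul_nonneg (hx j) (Real.exp_pos _).le) (hi j) _
      _ = Φ ^ k := by rw [Finset.prod_pow_eq_pow_sum, h1]
  have hΦ0 : 0 ≤ Φ := mul_nonneg (hx i) (Real.exp_pos _).le
  have h4 : (∑ l, ∏ j, x j ^ κ l j) * Real.exp (k * γ * t) ≤ (J + 1) * Φ ^ k := by
    rw [Finset.sum_mul]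
    refine (Finset.sum_le_sum fun l _ => h3 l).trans ?_
    simp only [Finset.sum_const, Finset.card_univ, Fintype.card_fin, nsmul_eq_mul]
    have := pow_nonneg hΦ0 k
    nlinarith
  have hΦ1 : 0 < Φ := by
    refine hΦ0.lt_of_ne fun h0 => ?_
    rw [← h0, zero_pow (by omega), mul_zero] at h4
    exact absurd h4 (not_le.2 (mul_pos hS (Real.exp_pos _)))
  have h5 := Real.log_le_log (mul_pos hS (Real.exp_pos _)) h4
  rw [Real.log_mul hS.ne' (Real.exp_pos _).ne', Real.log_exp,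
    Real.log_mul (by positivity) (pow_pos hΦ1 k).ne', Real.log_pow] at h5
  refine (mul_le_mul_right (iInf_le _ i) _).trans ?_
  rw [← hΦ, ofReal_rpow hΦ1, ofReal_rpow hS, ← ENNReal.ofReal_mul (Real.exp_pos _).le,
    ← ENNReal.ofReal_mul (Real.exp_pos _).le, ← Real.exp_add, ← Real.exp_add]
  refine ENNReal.ofReal_le_ofReal (Real.exp_le_exp.2 ?_)
  have h6 := mul_le_mul_of_nonneg_right h5 (show 0 ≤ μ / k by positivity)
  have e : (k : ℝ) * (μ / k) = μ := by field_simp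
  have e1 : k * γ * t * (μ / k) = γ * μ * t := by field_simp
  have e2 : k * Real.log Φ * (μ / k) = Real.log Φ * μ := by field_simp
  rw [add_mul, add_mul, e1, e2] at h6
  linarith

theorem low {b x : ι → ℝ} {γ μ C : ℝ} {k : ℕ} {S : ℝ} (hk : 1 ≤ k) (hμ : 0 < μ) (hC : 0 < C)
    (hx : ∀ j, 0 ≤ x j)
    (h : ∀ B : ℝ, 0 ≤ B →
      (∀ t : ℕ, ∃ j, B * Real.exp (γ * t) ≤ x j * Real.exp (b j * t)) → B ^ k ≤ C * S) :
    ENNReal.ofReal S ^ (-(μ / k)) ≤ ENNReal.ofReal (Real.exp (Real.log C * (μ / k))) *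
      ∑' t : ℕ, ENNReal.ofReal (Real.exp (γ * μ * t)) *
        ⨅ j, ENNReal.ofReal (x j * Real.exp (b j * t)) ^ (-μ) := by
  have hk0 : (0 : ℝ) < k := by exact_mod_cast hk
  set G := ∑' t : ℕ, ENNReal.ofReal (Real.exp (γ * μ * t)) *
    ⨅ j, ENNReal.ofReal (x j * Real.exp (b j * t)) ^ (-μ) with hG
  by_cases hT : G = ⊤
  · rw [hT, ENNReal.mul_top (by simpa using Real.exp_pos _)]
    exact le_top
  have h1 : ∀ t : ℕ, ∃ j, 0 < x j * Real.exp (b j * t) ∧
      Real.exp (γ * μ * t + Real.log (x j * Real.exp (b j * t)) * -μ) ≤ G.toReal := by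
    intro t
    have h2 : ENNReal.ofReal (Real.exp (γ * μ * t)) *
        ⨅ j, ENNReal.ofReal (x j * Real.exp (b j * t)) ^ (-μ) ≤ G := ENNReal.le_tsum t
    have h0 : ENNReal.ofReal (Real.exp (γ * μ * t)) ≠ 0 := by simpa using Real.exp_pos _
    rcases isEmpty_or_nonempty ι with hc | hc
    · rw [iInf_of_empty, ENNReal.mul_top h0] at h2
      exact absurd (top_le_iff.1 h2) hT
    obtain ⟨j, hj⟩ := exists_eq_ciInf_of_finite
      (f := fun j => ENNReal.ofReal (x j * Real.exp (b j * t)) ^ (-μ))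
    rw [← hj] at h2
    have h3 : 0 < x j * Real.exp (b j * t) := by
      refine (mul_nonneg (hx j) (Real.exp_pos _).le).lt_of_ne fun h4 => ?_
      rw [← h4, ENNReal.ofReal_zero, ENNReal.zero_rpow_of_neg (neg_lt_zero.2 hμ),
        ENNReal.mul_top h0] at h2
      exact hT (top_le_iff.1 h2)
    refine ⟨j, h3, ?_⟩
    rw [ofReal_rpow h3, ← ENNReal.ofReal_mul (Real.exp_pos _).le, ← Real.exp_add] at h2
    exact (ENNReal.ofReal_le_iff_le_toReal hT).1 h2
  have hs : 0 < G.toReal := by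
    obtain ⟨j, -, h2⟩ := h1 0
    exact (Real.exp_pos _).trans_le h2
  have h2 := h (Real.exp (-Real.log G.toReal / μ)) (Real.exp_pos _).le fun t => by
    obtain ⟨j, h3, h4⟩ := h1 t
    refine ⟨j, ?_⟩
    rw [← Real.le_log_iff_exp_le hs] at h4
    rw [← Real.exp_add, ← Real.le_log_iff_exp_le h3]
    refine le_of_mul_le_mul_right ?_ hμ
    rw [add_mul, div_mul_cancel₀ _ hμ.ne']
    linarith
  have hS : 0 < S := (mul_pos_iff_of_pos_left hC).1 ((pow_pos (Real.exp_pos _) k).trans_le h2)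
  have h3 := Real.log_le_log (pow_pos (Real.exp_pos _) k) h2
  rw [Real.log_pow, Real.log_exp, Real.log_mul hC.ne' hS.ne'] at h3
  rw [ofReal_rpow hS, ← ENNReal.ofReal_toReal hT, ← ENNReal.ofReal_mul (Real.exp_pos _).le]
  refine ENNReal.ofReal_le_ofReal ?_
  rw [← Real.exp_log hs, ← Real.exp_add, Real.exp_le_exp]
  have h6 := mul_le_mul_of_nonneg_right h3 (show 0 ≤ μ / k by positivity)
  have e : k * (-Real.log G.toReal / μ) * (μ / k) = -Real.log G.toReal := by field_simp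
  rw [e, add_mul] at h6
  linarith

theorem term (z : ℂ) (a t lam : ℝ) {m r N : ℕ} (hm : 0 < m) (hr : 0 < r) (h : r * m = N) :
    ENNReal.ofReal (‖z‖ ^ 2 * Real.exp (a * t)) ^ (-(lam / m)) =
      ENNReal.ofReal (‖z ^ r‖ ^ 2 * Real.exp (a * r * t)) ^ (-(lam / N)) := by
  have e : ‖z ^ r‖ ^ 2 * Real.exp (a * r * t) = (‖z‖ ^ 2 * Real.exp (a * t)) ^ r := by
    rw [mul_pow, ← Real.exp_nat_mul, norm_pow, ← pow_mul, ← pow_mul, mul_comm r 2]
    congr 2
    ring
  rw [e, ENNReal.ofReal_pow (by positivity), ← ENNReal.rpow_natCast, ← ENNReal.rpow_mul, ← h]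
  congr 1
  have h1 : (m : ℝ) ≠ 0 := by positivity
  have h2 : (r : ℝ) ≠ 0 := by positivity
  push_cast
  field_simp

theorem geo {c c' C : ℝ} (h : c' < c) :
    ∑' t : ℕ, ENNReal.ofReal (Real.exp (c' * t)) * ENNReal.ofReal (C * Real.exp (-c * t)) ≠ ⊤ := by
  have h1 : Summable fun t : ℕ => |C| * Real.exp (c' - c) ^ t :=
    (summable_geometric_of_lt_one (Real.exp_pos _).le
      (Real.exp_lt_one_iff.2 (by linarith))).mul_left _
  refine ne_top_of_le_ne_top (b := ∑' t : ℕ, ENNReal.ofReal (|C| * Real.exp (c' - c) ^ t)) ?_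
    (ENNReal.tsum_le_tsum fun t => ?_)
  · rw [← ENNReal.ofReal_tsum_of_nonneg (fun t => by positivity) h1]
    exact ENNReal.ofReal_ne_top
  · rw [← ENNReal.ofReal_mul (Real.exp_pos _).le]
    refine ENNReal.ofReal_le_ofReal ?_
    rw [← Real.exp_nat_mul, mul_left_comm, ← Real.exp_add]
    have e : c' * t + -c * t = t * (c' - c) := by ring
    rw [e]
    gcongr
    exact le_abs_self C

end FPsiX

theorem fPsi (h : PsiAbs) : PsiS := by
  intro n L F M lam c₁ c₂ hl hc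
  have hN : 0 < M.factorial := M.factorial_pos
  have hN' : (0 : ℝ) < M.factorial := by exact_mod_cast hN
  let r : L.Ix M → ℕ := fun j => M.factorial / (j.1.val + 1)
  have hr : ∀ j, r j * (j.1.val + 1) = M.factorial := fun j =>
    Nat.div_mul_cancel (Nat.dvd_factorial (Nat.succ_pos _) j.1.isLt)
  have hr0 : ∀ j, 0 < r j := fun j => Nat.pos_of_mul_pos_right (hr j ▸ hN)
  let σ : L.Ix M → E n → ℂ := fun j => F.s j.1 j.2 ^ r j
  let b : L.Ix M → ℝ := fun j => F.a j.1 j.2 * r j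
  have hσ : ∀ j, σ j ∈ L.V M.factorial := fun j => hr j ▸ Loc.pow_mem (F.mem j.1 j.2) (r j)
  set μ : ℝ := lam / M.factorial with hμ0
  have hμ : 0 < μ := div_pos hl hN'
  obtain ⟨k, J, κ, C, hk, hC, h1, h2, h3⟩ := h (L.Ix M) b (c₁ / μ) ((c₁ + c₂) / 2 / μ)
    (div_lt_div_of_pos_right (by linarith) hμ)
  have hK : ∀ t p, F.K M lam t p =
      ⨅ j, ENNReal.ofReal (‖σ j p‖ ^ 2 * Real.exp (b j * t)) ^ (-μ) := fun t p =>
    iInf_congr fun j => FPsiX.term _ _ _ _ (Nat.succ_pos _) (hr0 j) (hr j)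
  have hP : ∀ p, Psi (fun l => ∏ j, σ j ^ κ l j) (lam / (k * M.factorial : ℕ)) p =
      ENNReal.ofReal (∑ l, ∏ j, (‖σ j p‖ ^ 2) ^ κ l j) ^ (-(μ / k)) := fun p => by
    have e : lam / (k * M.factorial : ℕ) = μ / k := by
      rw [hμ0, Nat.cast_mul, div_div, mul_comm]
    rw [Psi, e]
    congr 2
    refine Finset.sum_congr rfl fun l _ => ?_
    rw [Finset.prod_apply, norm_prod, ← Finset.prod_pow]
    refine Finset.prod_congr rfl fun j _ => ?_
    rw [Pi.pow_apply, norm_pow, ← pow_mul, ← pow_mul, mul_comm]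
  refine ⟨k * M.factorial, J, fun l => ∏ j, σ j ^ κ l j,
    Real.toNNReal (Real.exp (Real.log (J + 1) * (μ / k))), Nat.mul_pos hk hN, fun l => ?_,
    fun p t ht => ?_, fun y U hU C' hI => ⟨U, hU, ?_⟩⟩
  · have := Loc.prod_mem Finset.univ (fun j => κ l j * M.factorial) (fun j => σ j ^ κ l j)
      fun j _ => Loc.pow_mem (hσ j) (κ l j)
    rwa [← Finset.sum_mul, h1] at this
  · have := FPsiX.up (x := fun j => ‖σ j p‖ ^ 2) hk hμ h1 h2 (fun j => by positivity) ht
    rw [div_mul_cancel₀ _ hμ.ne'] at this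
    rw [hK, hP]
    exact this
  · have h4 : ∀ p, Psi (fun l => ∏ j, σ j ^ κ l j) (lam / (k * M.factorial : ℕ)) p ≤
        ENNReal.ofReal (Real.exp (Real.log C * (μ / k))) *
          ∑' t : ℕ, ENNReal.ofReal (Real.exp ((c₁ + c₂) / 2 * t)) * F.K M lam t p := fun p => by
      have := FPsiX.low (x := fun j => ‖σ j p‖ ^ 2) hk hμ hC (fun j => by positivity)
        fun B hB => h3 _ B (fun j => by positivity) hB
      rw [div_mul_cancel₀ _ hμ.ne'] at this
      simp only [hK, hP]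
      exact this
    refine ne_top_of_le_ne_top ?_ (lintegral_mono h4)
    rw [lintegral_const_mul' _ _ ENNReal.ofReal_ne_top,
      lintegral_tsum fun t : ℕ => ((F.measurable_K M lam t).const_mul _).aemeasurable]
    refine ENNReal.mul_ne_top ENNReal.ofReal_ne_top (ne_top_of_le_ne_top
      (FPsiX.geo (c := c₂) (c' := (c₁ + c₂) / 2) (C := C') (by linarith))
      (ENNReal.tsum_le_tsum fun t => ?_))
    rw [lintegral_const_mul' _ _ ENNReal.ofReal_ne_top]
    exact mul_le_mul_right (hI t (Nat.cast_nonneg t)) _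

end Fuj
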