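import Vale.Agent.P271.FBasic

/-! The abstract monomial estimate behind the function `Psi`. -/

namespace Fuj

open Filter Topology

namespace FPsiAX

theorem step {ci cj δ : ℝ} (k : ℕ) (hi : 0 ≤ ci) (hj : cj < 0) (hδ : ci - cj ≤ δ) :
    ∃ a : ℕ, a ≤ k ∧ ((k : ℝ) - a) * ci + a * cj ≤ 0 ∧ -δ ≤ ((k : ℝ) - a) * ci + a * cj := by
  classical
  have hk : (0 : ℝ) ≤ k := Nat.cast_nonneg k
  have h0 : ((k : ℝ) - k) * ci + k * cj ≤ 0 := by nlinarith
  have hex : ∃ a : ℕ, ((k : ℝ) - a) * ci + a * cj ≤ 0 := ⟨k, h0⟩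
  refine ⟨Nat.find hex, Nat.find_min' hex h0, Nat.find_spec hex, ?_⟩
  rcases h : Nat.find hex with _ | a
  · push_cast
    nlinarith [mul_nonneg hk hi]
  · have h1 := not_le.1 (Nat.find_min hex (m := a) (by omega))
    push_cast
    linarith

theorem plus {ι : Type} [Fintype ι] (c x : ι → ℝ) {B : ℝ} (hB : 0 < B)
    (h : ∀ t : ℕ, ∃ j, B ≤ x j * Real.exp (c j * t)) :
    ∃ t : ℕ, ∃ i, 0 ≤ c i ∧ B ≤ x i * Real.exp (c i * t) := by
  have h1 : ∀ᶠ t : ℕ in atTop, ∀ j, c j < 0 → x j * Real.exp (c j * t) < B := by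
    refine eventually_all.2 fun j => ?_
    by_cases hj : c j < 0
    · have h2 : Tendsto (fun t : ℕ => x j * Real.exp (c j * t)) atTop (𝓝 (x j * 0)) :=
        (Real.tendsto_exp_atBot.comp
          (tendsto_natCast_atTop_atTop.const_mul_atTop_of_neg hj)).const_mul _
      rw [mul_zero] at h2
      exact (h2.eventually (gt_mem_nhds hB)).mono fun t ht _ => ht
    · exact Eventually.of_forall fun t h3 => absurd h3 hj
  obtain ⟨t, ht⟩ := h1.exists
  obtain ⟨j, hj⟩ := h t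
  exact ⟨t, j, not_lt.1 fun h4 => (ht j h4).not_ge hj, hj⟩

theorem key {ι : Type} [Fintype ι] (c x : ι → ℝ) {B D : ℝ} (k : ℕ) (hx : ∀ j, 0 ≤ x j)
    (hB : 0 < B) (hD : ∀ j, |c j| ≤ D) (h : ∀ t : ℕ, ∃ j, B ≤ x j * Real.exp (c j * t)) :
    ∃ (i j : ι) (a : ℕ), a ≤ k ∧ -(2 * D) ≤ ((k : ℝ) - a) * c i + a * c j ∧
      B ^ k ≤ Real.exp (k * D) * (x i ^ (k - a) * x j ^ a) := by
  classical
  have hex := plus c x hB h
  obtain ⟨i, hi, hBi⟩ := Nat.find_spec hex
  have hD0 : 0 ≤ D := (abs_nonneg _).trans (hD i)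
  have hk : (0 : ℝ) ≤ k := Nat.cast_nonneg k
  have hE : 1 ≤ Real.exp D := Real.one_le_exp hD0
  rcases h0 : Nat.find hex with _ | t
  · rw [h0] at hBi
    simp only [Nat.cast_zero, mul_zero, Real.exp_zero, mul_one] at hBi
    refine ⟨i, i, 0, Nat.zero_le k, ?_, ?_⟩
    · push_cast
      nlinarith [mul_nonneg hk hi]
    · rw [Nat.sub_zero, pow_zero, mul_one]
      exact (pow_le_pow_left₀ hB.le hBi k).trans (le_mul_of_one_le_left (pow_nonneg (hx i) k)
        (Real.one_le_exp (mul_nonneg hk hD0)))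
  · obtain ⟨j, hBj⟩ := h t
    have hj : c j < 0 := not_le.1 fun h1 => Nat.find_min hex (m := t) (by omega) ⟨j, h1, hBj⟩
    obtain ⟨a, ha, h2, h3⟩ := step (δ := 2 * D) k hi hj
      (by linarith [(abs_le.1 (hD i)).2, (abs_le.1 (hD j)).1])
    refine ⟨i, j, a, ha, h3, ?_⟩
    have h4 : B ≤ Real.exp D * (x i * Real.exp (c i * t)) := by
      rw [h0] at hBi
      push_cast at hBi
      rw [mul_add, mul_one, Real.exp_add, ← mul_assoc, mul_comm] at hBi
      exact hBi.trans (mul_le_mul_of_nonneg_right (Real.exp_le_exp.2 (abs_le.1 (hD i)).2)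
        (mul_nonneg (hx i) (Real.exp_pos _).le))
    have h5 : B ≤ Real.exp D * (x j * Real.exp (c j * t)) :=
      hBj.trans (le_mul_of_one_le_left (mul_nonneg (hx j) (Real.exp_pos _).le) hE)
    have h6 : Real.exp (c i * t) ^ (k - a) * Real.exp (c j * t) ^ a ≤ 1 := by
      rw [← Real.exp_nat_mul, ← Real.exp_nat_mul, ← Real.exp_add, Real.exp_le_one_iff,
        Nat.cast_sub ha]
      nlinarith [mul_nonneg (neg_nonneg.2 h2) (Nat.cast_nonneg (α := ℝ) t)]
    calc B ^ k = B ^ (k - a) * B ^ a := by rw [← pow_add, Nat.sub_add_cancel ha]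
      _ ≤ (Real.exp D * (x i * Real.exp (c i * t))) ^ (k - a) *
          (Real.exp D * (x j * Real.exp (c j * t))) ^ a :=
        mul_le_mul (pow_le_pow_left₀ hB.le h4 _) (pow_le_pow_left₀ hB.le h5 _)
          (pow_nonneg hB.le _) (pow_nonneg (hB.le.trans h4) _)
      _ = (Real.exp D ^ (k - a) * Real.exp D ^ a) * (x i ^ (k - a) * x j ^ a) *
          (Real.exp (c i * t) ^ (k - a) * Real.exp (c j * t) ^ a) := by
        simp only [mul_pow]
        ring
      _ ≤ (Real.exp D ^ (k - a) * Real.exp D ^ a) * (x i ^ (k - a) * x j ^ a) :=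
        mul_le_of_le_one_right (mul_nonneg (by positivity)
          (mul_nonneg (pow_nonneg (hx i) _) (pow_nonneg (hx j) _))) h6
      _ = Real.exp (k * D) * (x i ^ (k - a) * x j ^ a) := by
        rw [← pow_add, Nat.sub_add_cancel ha, Real.exp_nat_mul]

end FPsiAX

theorem fPsiAbs : PsiAbs := by
  classical
  intro ι _ b γ₁ γ₂ hγ
  obtain ⟨D, hD⟩ : ∃ D : ℝ, ∀ j, |b j - γ₂| ≤ D :=
    ⟨∑ j, |b j - γ₂|, fun j => Finset.single_le_sum (f := fun j => |b j - γ₂|)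
      (fun _ _ => abs_nonneg _) (Finset.mem_univ j)⟩
  obtain ⟨k, hk1, hk⟩ : ∃ k : ℕ, 1 ≤ k ∧ 2 * D ≤ k * (γ₂ - γ₁) := by
    obtain ⟨k, hk⟩ := exists_nat_ge (2 * D / (γ₂ - γ₁))
    rw [div_le_iff₀ (sub_pos.2 hγ)] at hk
    refine ⟨k + 1, Nat.le_add_left 1 k, ?_⟩
    push_cast
    linarith
  let T := {p : ι × ι × Fin (k + 1) //
    k * γ₁ ≤ ((k : ℝ) - (p.2.2 : ℕ)) * b p.1 + (p.2.2 : ℕ) * b p.2.1}
  let κ : T → ι → ℕ := fun p => Pi.single p.1.1 (k - p.1.2.2) + Pi.single p.1.2.1 (p.1.2.2 : ℕ)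
  let e := Fintype.equivFin T
  have hp : ∀ (p : T) (x : ι → ℝ), ∏ j, x j ^ κ p j =
      x p.1.1 ^ (k - p.1.2.2) * x p.1.2.1 ^ (p.1.2.2 : ℕ) := by
    intro p x
    simp only [κ, Pi.add_apply, pow_add, Finset.prod_mul_distrib, Pi.single_apply, pow_ite,
      pow_zero, Finset.prod_ite_eq', Finset.mem_univ, if_true]
  refine ⟨k, Fintype.card T, fun l => κ (e.symm l), Real.exp (k * D), hk1, Real.exp_pos _,
    fun l => ?_, fun l => ?_, fun x B hx hB h => ?_⟩
  · have h1 := (e.symm l).1.2.2.2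
    simp only [κ, Pi.add_apply, Finset.sum_add_distrib, Finset.sum_pi_single', Finset.mem_univ,
      if_true]
    omega
  · have h1 := (e.symm l).2
    have h2 : ((e.symm l).1.2.2 : ℕ) ≤ k := Nat.lt_succ_iff.1 (e.symm l).1.2.2.2
    simp only [κ, Pi.add_apply, Nat.cast_add, add_mul, Finset.sum_add_distrib, Pi.single_apply,
      Nat.cast_ite, Nat.cast_zero, ite_mul, zero_mul, Finset.sum_ite_eq', Finset.mem_univ, if_true,
      Nat.cast_sub h2]
    exact h1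
  · have h0 : ∀ l, 0 ≤ ∏ j, x j ^ κ (e.symm l) j :=
      fun l => Finset.prod_nonneg fun j _ => pow_nonneg (hx j) _
    rcases hB.eq_or_lt with rfl | hB'
    · rw [zero_pow (by omega)]
      exact mul_nonneg (Real.exp_pos _).le (Finset.sum_nonneg fun l _ => h0 l)
    obtain ⟨i, j, a, ha, h1, h2⟩ := FPsiAX.key (fun j => b j - γ₂) x k hx hB' hD fun t => by
      obtain ⟨j, hj⟩ := h t
      refine ⟨j, ?_⟩
      rw [sub_mul, Real.exp_sub, ← mul_div_assoc, le_div_iff₀ (Real.exp_pos _)]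
      exact hj
    let p : T := ⟨(i, j, ⟨a, Nat.lt_succ_of_le ha⟩), by
      change k * γ₁ ≤ ((k : ℝ) - a) * b i + a * b j
      linarith⟩
    refine h2.trans (mul_le_mul_of_nonneg_left ?_ (Real.exp_pos _).le)
    refine le_of_eq_of_le ?_ (Finset.single_le_sum (f := fun l => ∏ j, x j ^ κ (e.symm l) j)
      (fun l _ => h0 l) (Finset.mem_univ (e p)))
    simp only [Equiv.symm_apply_apply, hp]
    rfl

end Fuj
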