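import Vale.Agent.P271.FBasic

/-! Problem P271, part F: the pointwise comparison of sublevel sets. -/

open MeasureTheory Set Filter Topology Metric
open scoped ENNReal NNReal

noncomputable section
namespace Fuj
namespace FPtwX

variable {n : ℕ} {L : Loc n} {F : L.Flt} {lam θ ℓ τ : ℝ} {v : (E n → ℂ) → ℝ}

theorem sq_exp (x : ℝ) : Real.exp (x / 2) ^ 2 = Real.exp x := by
  rw [← Real.exp_nat_mul]
  congr 1
  push_cast
  ring

theorem elem (h : ElemS) (hV : F.Val lam θ ℓ τ v) {k : ℕ} {a : ℝ} {f : E n → ℂ} (hk : 1 ≤ k)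
    (hf : L.Ge v k a f) : ∃ C : ℝ, 0 ≤ C ∧ ∀ M, k ≤ M → ∀ ζ t : ℝ, 0 ≤ ζ → 0 ≤ t →
      ∀ p ∈ F.Sub M (τ + ζ) t, ‖f p‖ ≤ C * Real.exp ((M * ζ - a) * t / 2) := by
  obtain ⟨k, rfl⟩ : ∃ k', k = k' + 1 := ⟨k - 1, by omega⟩
  obtain ⟨C, hC, hb⟩ := h n L F k (a + τ * (k + 1)) f
    ((hV.fil k _ f).2 (by rwa [add_sub_cancel_right]))
  refine ⟨Real.sqrt C, Real.sqrt_nonneg _, fun M hM ζ t hζ ht p hp => ?_⟩
  have h1 := hb t _ p ht (Real.exp_pos _).le (hp k hM)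
  refine le_of_pow_le_pow_left₀ two_ne_zero (by positivity) ?_
  rw [mul_pow, Real.sq_sqrt hC.le, sq_exp]
  refine le_of_mul_le_mul_right (h1.trans ?_) (Real.exp_pos ((a + τ * (k + 1)) * t))
  rw [mul_assoc C, ← Real.exp_add]
  refine mul_le_mul_of_nonneg_left (Real.exp_le_exp.2 ?_) hC.le
  have h2 : (k + 1 : ℝ) ≤ M := by exact_mod_cast hM
  nlinarith [mul_le_mul_of_nonneg_right h2 (mul_nonneg hζ ht)]

theorem elems (h : ElemS) (hV : F.Val lam θ ℓ τ v) {J : ℕ} {k : Fin J → ℕ} {a : ℝ}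
    {f : Fin J → E n → ℂ} (hf : ∀ j, 1 ≤ k j ∧ L.Ge v (k j) a (f j)) :
    ∃ (C : ℝ) (M₀ : ℕ), 0 ≤ C ∧ ∀ M, M₀ ≤ M → ∀ ζ t : ℝ, 0 ≤ ζ → 0 ≤ t →
      ∀ p ∈ F.Sub M (τ + ζ) t, ∑ j, ‖f j p‖ ≤ C * Real.exp ((M * ζ - a) * t / 2) := by
  choose C hC hb using fun j => elem h hV (hf j).1 (hf j).2
  refine ⟨∑ j, C j, Finset.univ.sup k, Finset.sum_nonneg fun j _ => hC j,
    fun M hM ζ t hζ ht p hp => ?_⟩
  rw [Finset.sum_mul]
  exact Finset.sum_le_sum fun j _ =>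
    hb j M ((Finset.le_sup (Finset.mem_univ j)).trans hM) ζ t hζ ht p hp

theorem one (h : ElemS) (hV : F.Val lam θ ℓ τ v) {η : ℝ} {q d e M : ℕ} {γ : ℝ} {y : E n}
    (P : L.Pert v η q d e M γ y) {ε : ℝ} (hε : 0 < ε) (hγ : ε * d * M ≤ γ) (m : ℕ)
    (i : Fin (L.h (m + 1))) : ∃ M₀ : ℕ, ∃ U ∈ 𝓝 (0 : E d × E e), ∀ M₂, M₀ ≤ M₂ →
      ∀ ζ : ℝ, 0 < ζ → ∀ᶠ t : ℝ in atTop, ∀ p ∈ U, ‖p.1‖ ^ 2 ≤ Real.exp (-ε * t) →
        P.Φ p ∈ F.Sub M₂ (τ + ζ) t → ‖(P.flt F τ ε).s m i (P.Φ p)‖ ^ 2 *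
          Real.exp ((P.flt F τ ε).a m i * t) ≤ Real.exp ((m + 1) * (τ + (M₂ + 1) * ζ) * t) := by
  by_cases hm : m + 1 ≤ M
  · obtain ⟨C, J, k, k', f, r, hf, hr, hU⟩ := P.bound (m + 1) (Nat.le_add_left 1 m) hm i
    obtain ⟨C₁, M₁, hC₁, h₁⟩ := elems h hV hf
    obtain ⟨C₂, M₁', hC₂, h₂⟩ := elems h hV hr
    refine ⟨max M₁ M₁', _, hU, fun M₂ hM ζ hζ => ?_⟩
    have hev : ∀ᶠ t : ℝ in atTop, (|C| * (C₁ + C₂)) ^ 2 ≤ Real.exp (ζ * t) :=
      (Real.tendsto_exp_atTop.comp (tendsto_id.const_mul_atTop hζ)).eventually_ge_atTop _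
    filter_upwards [hev, eventually_ge_atTop 0] with t hC ht p hp hp1 hp2
    simp only [Loc.Pert.flt, if_pos hm]
    set a := v (P.s (m + 1) i) with ha
    set u := P.u (m + 1) i with hu
    set b := ε * min (u : ℝ) (d * (m + 1)) with hb
    have b1 : b ≤ ε * u := mul_le_mul_of_nonneg_left (min_le_left _ _) hε.le
    have b2 : b ≤ γ := by
      have h3 : (m + 1 : ℝ) ≤ M := by exact_mod_cast hm
      refine (mul_le_mul_of_nonneg_left (min_le_right _ _) hε.le).trans (le_trans ?_ hγ)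
      rw [← mul_assoc]
      exact mul_le_mul_of_nonneg_left h3 (by positivity)
    have p1 : ‖p.1‖ ≤ Real.exp (-ε * t / 2) :=
      le_of_pow_le_pow_left₀ two_ne_zero (Real.exp_pos _).le (by rwa [sq_exp])
    have p2 := pow_le_pow_left₀ (norm_nonneg _) p1 u
    rw [← Real.exp_nat_mul] at p2
    have s1 : ‖p.1‖ ^ u * ∑ j, ‖f j (P.Φ p)‖ ≤ C₁ * Real.exp ((M₂ * ζ - a - b) * t / 2) := by
      refine (mul_le_mul p2 (h₁ M₂ ((le_max_left _ _).trans hM) ζ t hζ.le ht _ hp2)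
        (Finset.sum_nonneg fun j _ => norm_nonneg _) (Real.exp_pos _).le).trans ?_
      rw [mul_left_comm, ← Real.exp_add]
      refine mul_le_mul_of_nonneg_left (Real.exp_le_exp.2 ?_) hC₁
      nlinarith [mul_le_mul_of_nonneg_right b1 ht]
    have s2 : ∑ j, ‖r j (P.Φ p)‖ ≤ C₂ * Real.exp ((M₂ * ζ - a - b) * t / 2) := by
      refine (h₂ M₂ ((le_max_right _ _).trans hM) ζ t hζ.le ht _ hp2).trans ?_
      refine mul_le_mul_of_nonneg_left (Real.exp_le_exp.2 ?_) hC₂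
      nlinarith [mul_le_mul_of_nonneg_right b2 ht]
    have s3 : ‖P.s (m + 1) i (P.Φ p)‖ ≤ |C| * (C₁ + C₂) * Real.exp ((M₂ * ζ - a - b) * t / 2) := by
      refine le_trans hp ((mul_le_mul (le_abs_self C) (add_le_add s1 s2) (by positivity)
        (abs_nonneg C)).trans (le_of_eq ?_))
      ring
    have s4 := pow_le_pow_left₀ (norm_nonneg _) s3 2
    rw [mul_pow, sq_exp] at s4
    refine (mul_le_mul_of_nonneg_right (s4.trans
      (mul_le_mul_of_nonneg_right hC (Real.exp_pos _).le)) (Real.exp_pos _).le).trans ?_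
    rw [← Real.exp_add, ← Real.exp_add]
    refine Real.exp_le_exp.2 ?_
    have s5 : 0 ≤ m * ((M₂ + 1) * ζ * t) := by positivity
    nlinarith
  · refine ⟨m + 1, univ, univ_mem, fun M₂ hM ζ hζ => ?_⟩
    filter_upwards [eventually_ge_atTop 0] with t ht p _ _ hp2
    simp only [Loc.Pert.flt, if_neg hm]
    refine (hp2 m hM i).trans (Real.exp_le_exp.2 ?_)
    have s5 : 0 ≤ (m + 1) * (M₂ * ζ * t) := by positivity
    nlinarith

end FPtwX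

theorem fPtw (h : ElemS) : PtwS := by
  intro n L F lam θ ℓ τ v hV η q d e M γ y P ε hε hγ M₁
  choose M₀ U hU hb using fun j : L.Ix M₁ => FPtwX.one h hV P hε hγ j.1 j.2
  refine ⟨Finset.univ.sup M₀, ⋂ j, U j, iInter_mem.2 hU, fun ζ hζ => ?_⟩
  filter_upwards [eventually_all.2 fun j => hb j _ (Finset.le_sup (Finset.mem_univ j)) ζ hζ]
    with t ht p hp hp1 hp2 m hm i
  exact ht ⟨⟨m, hm⟩, i⟩ p (mem_iInter.1 hp _) hp1 hp2

end Fuj
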