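import Vale.Agent.P271.FBasic

open MeasureTheory Set Filter Topology Metric
open scoped ENNReal NNReal

noncomputable section
namespace Fuj

namespace FShiftX
variable {n : ℕ} {L : Loc n} (F : L.Flt)

theorem K_shift (s lam t : ℝ) (M : ℕ) (p : E n) :
    F.K M lam t p ≤ ENNReal.ofReal (Real.exp (-(lam * s * t))) *
      (F.rew fun m i => F.a m i - s * (m + 1)).K M lam t p := by
  conv_rhs => unfold Loc.Flt.K Kf
  rw [ENNReal.mul_iInf_of_ne (by simp [Real.exp_pos]) ENNReal.ofReal_ne_top]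
  refine le_iInf fun j => (F.K_le j.1.2 j.2 lam t p).trans (le_of_eq ?_)
  have e : ‖F.s j.1 j.2 p‖ ^ 2 * Real.exp (F.a j.1 j.2 * t) = Real.exp (s * (j.1 + 1) * t) *
      (‖F.s j.1 j.2 p‖ ^ 2 * Real.exp ((F.a j.1 j.2 - s * (j.1 + 1)) * t)) := by
    rw [mul_left_comm, ← Real.exp_add]; congr 2; ring
  rw [e, ENNReal.ofReal_mul (Real.exp_pos _).le,
    ENNReal.mul_rpow_of_ne_top ENNReal.ofReal_ne_top ENNReal.ofReal_ne_top,
    Loc.Flt.ofReal_exp_rpow]
  have e2 : s * ((j.1 : ℕ) + 1 : ℝ) * t * -(lam / ((j.1 : ℕ) + 1 : ℝ)) = -(lam * s * t) := by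
    field_simp
  rw [e2]
  simp [Loc.Flt.rew]

theorem leL_shift (s lam ℓ : ℝ) (h : F.LeL 0 lam ℓ) :
    (F.rew fun m i => F.a m i - s * (m + 1)).LeL 0 lam (ℓ - lam * s) := by
  rintro c hc ⟨M, U, hU, C, hC⟩
  refine h (c + lam * s) (by linarith) ⟨M, U, hU, C, fun t ht => ?_⟩
  refine (lintegral_mono fun p => K_shift F s lam t M p).trans ?_
  rw [lintegral_const_mul' _ _ ENNReal.ofReal_ne_top]
  refine (mul_le_mul_right (hC t ht) _).trans (le_of_eq ?_)
  rw [← ENNReal.ofReal_mul (Real.exp_pos _).le, mul_left_comm, ← Real.exp_add]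
  congr 3
  ring

theorem W_shift (s : ℝ) (m : ℕ) :
    (F.rew fun m i => F.a m i - s * (m + 1)).W m = Real.exp (s * (m + 1)) * F.W m := by
  unfold Loc.Flt.W
  rw [Finset.mul_sum]
  refine Finset.sum_congr rfl fun i _ => ?_
  rw [← Real.exp_add]
  congr 1
  simp only [Loc.Flt.rew]
  ring

theorem exp_le {x : ℝ} (hx : 0 ≤ x) : Real.exp x ≤ 1 + x + x ^ 2 * Real.exp x := by
  have h1 : Real.exp x * (1 - x) ≤ 1 := by
    have := mul_le_mul_of_nonneg_left (Real.one_sub_le_exp_neg x) (Real.exp_pos x).le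
    rwa [← Real.exp_add, add_neg_cancel, Real.exp_zero] at this
  nlinarith [mul_le_mul_of_nonneg_left h1 hx]

end FShiftX

open FShiftX in
theorem fShift : ShiftS := by
  intro n L F lam θ ℓ τ C hθ hτ hmin hXi ha hC
  have C0 : 0 ≤ C := by simpa using (Nat.cast_nonneg _).trans (hC 0)
  have hW : ∀ m : ℕ, F.W m ≤ C * ((m + 1) ^ n * Real.exp (-τ * (m + 1))) := fun m => by
    calc F.W m ≤ ∑ _i : Fin (L.h (m + 1)), Real.exp (-τ * (m + 1)) :=
          Finset.sum_le_sum fun i _ => Real.exp_le_exp.2 (by linarith [ha m i])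
      _ = L.h (m + 1) * Real.exp (-τ * (m + 1)) := by simp
      _ ≤ _ := by rw [← mul_assoc]; gcongr; exact hC m
  have s1 : Summable fun m : ℕ => ((m : ℝ) + 1) * F.W m := by
    refine .of_nonneg_of_le (fun m => mul_nonneg (by positivity) (F.W_nonneg m)) (fun m => ?_)
      ((summable_pow_exp (n + 1) hτ).mul_left C)
    refine (mul_le_mul_of_nonneg_left (hW m) (by positivity)).trans (le_of_eq ?_)
    ring
  have s2 := (summable_pow_exp (n + 2) (half_pos hτ)).mul_left C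
  obtain ⟨C', hC'⟩ : ∃ C', C' = ∑' m : ℕ,
    C * (((m : ℝ) + 1) ^ (n + 2) * Real.exp (-(τ / 2) * (m + 1))) := ⟨_, rfl⟩
  have key : ∀ s, 0 < s → s ≤ τ / 2 →
      lam * F.Xi ≤ θ * (∑' m : ℕ, (m + 1) * F.W m) + s * (θ * C') := by
    intro s hs hs'
    have b1 : ∀ m : ℕ, (F.rew fun m i => F.a m i - s * (m + 1)).W m ≤ F.W m +
        s * ((m + 1) * F.W m) +
        s ^ 2 * (C * (((m : ℝ) + 1) ^ (n + 2) * Real.exp (-(τ / 2) * (m + 1)))) := fun m => by
      rw [W_shift]
      have w0 := F.W_nonneg m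
      have e1 := mul_le_mul_of_nonneg_right (exp_le (x := s * (m + 1)) (by positivity)) w0
      have e2 : Real.exp (s * (m + 1)) * F.W m ≤ Real.exp (τ / 2 * (m + 1)) *
          (C * ((m + 1) ^ n * Real.exp (-τ * (m + 1)))) := by gcongr; exact hW m
      have e3 : Real.exp (τ / 2 * (m + 1)) * Real.exp (-τ * (m + 1)) =
          Real.exp (-(τ / 2) * (m + 1)) := by rw [← Real.exp_add]; congr 1; ring
      have e4 := mul_le_mul_of_nonneg_left e2 (sq_nonneg (s * (m + 1)))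
      rw [← e3]
      calc _ ≤ _ := e1
        _ = F.W m + s * ((m + 1) * F.W m) +
            (s * (m + 1)) ^ 2 * (Real.exp (s * (m + 1)) * F.W m) := by ring
        _ ≤ _ := by
          refine add_le_add_right (e4.trans (le_of_eq ?_)) _
          ring
    have s3 := (hmin.sm.add (s1.mul_left s)).add (s2.mul_left (s ^ 2))
    have s4 : (F.rew fun m i => F.a m i - s * (m + 1)).Sm :=
      .of_nonneg_of_le (Loc.Flt.W_nonneg _) b1 s3
    have b2 : (F.rew fun m i => F.a m i - s * (m + 1)).Xi ≤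
        F.Xi + s * (∑' m : ℕ, (m + 1) * F.W m) + s ^ 2 * C' := by
      refine (s4.tsum_le_tsum b1 s3).trans (le_of_eq ?_)
      rw [(hmin.sm.add (s1.mul_left s)).tsum_add (s2.mul_left _), hmin.sm.tsum_add (s1.mul_left s),
        tsum_mul_left, tsum_mul_left, hC']
      rfl
    have b3 : F.Xi ≤ (F.rew fun m i => F.a m i - s * (m + 1)).Xi :=
      hmin.sm.tsum_le_tsum (fun m => by
        rw [W_shift]
        exact le_mul_of_one_le_left (F.W_nonneg m) (Real.one_le_exp (by positivity))) s4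
    have b4 := hmin.min _ _ (leL_shift F s lam ℓ hmin.le) s4
    have b5 := Real.log_le_sub_one_of_pos (div_pos (hXi.trans_le b3) hXi)
    rw [Real.log_div (hXi.trans_le b3).ne' hXi.ne', div_sub_one hXi.ne', le_div_iff₀ hXi] at b5
    refine le_of_mul_le_mul_left ?_ hs
    nlinarith [mul_le_mul_of_nonneg_right b4 hXi.le, mul_le_mul_of_nonneg_left (b5.trans
      (sub_le_sub_right b2 _)) hθ.le]
  have h1 : Tendsto (fun s : ℝ => θ * (∑' m : ℕ, (m + 1) * F.W m) + s * (θ * C')) (𝓝[>] 0)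
      (𝓝 (θ * (∑' m : ℕ, (m + 1) * F.W m) + 0 * (θ * C'))) :=
    ((tendsto_id.mul_const _).const_add _).mono_left nhdsWithin_le_nhds
  rw [zero_mul, add_zero] at h1
  refine ge_of_tendsto h1 ?_
  filter_upwards [Ioc_mem_nhdsGT (half_pos hτ)] with s hs using key s hs.1 hs.2

end Fuj
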