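import Vale.Agent.P271.FBasic

open MeasureTheory Set Filter Topology Metric
open scoped ENNReal NNReal

noncomputable section
namespace Fuj

namespace FSlabX

theorem meas {X Y : Type} [TopologicalSpace X] [MeasurableSpace X] [OpensMeasurableSpace X]
    [TopologicalSpace Y] [MeasurableSpace Y] [BorelSpace Y] [Zero Y] {Φ : X → Y} {B : Set X}
    (hB : MeasurableSet B) (hΦ : ContinuousOn Φ B) {Z : Set Y} (hZ : MeasurableSet Z) :
    MeasurableSet {p ∈ B | Φ p ∈ Z} := by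
  classical
  have h := hΦ.measurable_piecewise (g := fun _ => (0 : Y)) continuousOn_const hB
  have e : {p ∈ B | Φ p ∈ Z} = B ∩ (B.piecewise Φ fun _ => (0 : Y)) ⁻¹' Z := by
    ext p
    by_cases hp : p ∈ B <;> simp [hp]
  rw [e]
  exact hB.inter (h hZ)

theorem prod_lb {d e : ℕ} {S : Set (E d × E e)} (hS : MeasurableSet S) {r : ℝ} (hr : 0 < r)
    {x : ℝ≥0∞} (h : ∀ z ∈ ball (0 : E d) r, x ≤ volume (Prod.mk z ⁻¹' S)) :
    x * ENNReal.ofReal ((r ^ 2) ^ d) ≤ volume S := by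
  rw [Measure.volume_eq_prod, Measure.prod_apply hS]
  calc x * ENNReal.ofReal ((r ^ 2) ^ d) ≤ x * volume (ball (0 : E d) r) := by
        rw [vol_ball _ hr]
        refine mul_le_mul_right (ENNReal.ofReal_le_ofReal ?_) _
        refine pow_le_pow_left₀ (by positivity) ?_ _
        exact le_mul_of_one_le_left (by positivity) (by linarith [Real.pi_gt_three])
    _ = ∫⁻ _ in ball (0 : E d) r, x := (setLIntegral_const _ _).symm
    _ ≤ ∫⁻ z in ball (0 : E d) r, volume (Prod.mk z ⁻¹' S) :=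
        setLIntegral_mono' measurableSet_ball h
    _ ≤ _ := setLIntegral_le_lintegral _ _

theorem exp_small {ε : ℝ} (hε : 0 < ε) {a : ℝ} (ha : 0 < a) :
    ∀ᶠ t : ℝ in atTop, Real.exp (-ε * t / 2) ≤ a := by
  have h : Tendsto (fun t : ℝ => -ε * t / 2) atTop atBot :=
    (tendsto_id.const_mul_atTop_of_neg (neg_lt_zero.2 hε)).atBot_div_const two_pos
  exact (Real.tendsto_exp_atBot.comp h).eventually (ge_mem_nhds ha)

theorem exp_large {η : ℝ} (hη : 0 < η) (a : ℝ) : ∀ᶠ t : ℝ in atTop, a ≤ Real.exp (η / 2 * t) := by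
  have h : Tendsto (fun t : ℝ => η / 2 * t) atTop atTop :=
    tendsto_id.const_mul_atTop (half_pos hη)
  exact (Real.tendsto_exp_atTop.comp h).eventually (eventually_ge_atTop a)

end FSlabX

theorem fSlab (h1 : SliceS) (h2 : ChartS) : SlabS := by
  intro n L H F d e Φ D A τ han hder h0 hA ha hL M ε η hε hη U hU
  obtain ⟨ρ₀, C, hρ₀, hΦ, -, hvol⟩ := h2 n d e Φ D han hder
  obtain ⟨ρ₁, hρ₁, hU'⟩ := Metric.mem_nhds_iff.1 hU
  have hρ : 0 < min ρ₀ ρ₁ := lt_min hρ₀ hρ₁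
  set ρ := min ρ₀ ρ₁ with hρdef
  have b0 : ball (0 : E d × E e) ρ ⊆ ball 0 ρ₀ := ball_subset_ball (min_le_left _ _)
  have b1 : ball (0 : E d × E e) ρ ⊆ U := (ball_subset_ball (min_le_right _ _)).trans hU'
  obtain ⟨T, δ, hδ, hs⟩ := h1 n L H F d e Φ D A τ han hder h0 hA ha hL M (η / 2) ρ (half_pos hη) hρ
  filter_upwards [eventually_ge_atTop T, eventually_ge_atTop 0, FSlabX.exp_small hε hδ,
    FSlabX.exp_small hε hρ, FSlabX.exp_large hη C] with t hT ht0 hrδ hrρ hC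
  set r := Real.exp (-ε * t / 2) with hr
  have hr0 : 0 < r := Real.exp_pos _
  have hr2 : r ^ 2 = Real.exp (-ε * t) := by
    rw [hr, ← Real.exp_nat_mul]; congr 1; push_cast; ring
  set B : Set (E d × E e) := ball (0 : E d) r ×ˢ ball (0 : E e) ρ with hB
  have hBm : MeasurableSet B := measurableSet_ball.prod measurableSet_ball
  have hBρ : B ⊆ ball 0 ρ := by
    rw [show (0 : E d × E e) = (0, 0) from rfl, ← ball_prod_same]
    exact prod_mono (ball_subset_ball hrρ) subset_rfl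
  set S := {p ∈ B | Φ p ∈ F.Sub M (τ + η / 2) t} with hS
  have hSm : MeasurableSet S :=
    FSlabX.meas hBm (hΦ.continuousOn.mono (hBρ.trans b0)) (F.measurableSet_Sub _ _ _)
  have hlb := FSlabX.prod_lb hSm hr0 (x := ENNReal.ofReal (Real.exp (-(A + η / 2) * t)))
    fun z hz => (hs t hT z (ball_subset_ball hrδ hz)).trans
      (measure_mono fun w hw => ⟨⟨hz, hw.1⟩, hw.2⟩)
  have hub := (hvol S hSm fun p hp => b0 (hBρ hp.1)).1
  have hsub : Φ '' S ⊆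
      Φ '' {p ∈ U | ‖p.1‖ ^ 2 ≤ Real.exp (-ε * t) ∧ Φ p ∈ F.Sub M (τ + η) t} := by
    refine image_mono fun p hp => ⟨b1 (hBρ hp.1), ?_, F.Sub_mono M (by linarith) ht0 hp.2⟩
    rw [← hr2]
    exact pow_le_pow_left₀ (norm_nonneg _) (mem_ball_zero_iff.1 hp.1.1).le _
  have hC' : (C : ℝ≥0∞) ≤ ENNReal.ofReal (Real.exp (η / 2 * t)) := by
    rw [← ENNReal.ofReal_coe_nnreal]; exact ENNReal.ofReal_le_ofReal hC
  have key := hlb.trans (hub.trans (mul_le_mul' hC' (measure_mono hsub)))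
  have e1 : ENNReal.ofReal (Real.exp (-(A + η / 2) * t)) * ENNReal.ofReal ((r ^ 2) ^ d) =
      ENNReal.ofReal (Real.exp (η / 2 * t)) *
        ENNReal.ofReal (Real.exp (-(A + ε * d + η) * t)) := by
    rw [← ENNReal.ofReal_mul (Real.exp_pos _).le, ← ENNReal.ofReal_mul (Real.exp_pos _).le, hr2,
      ← Real.exp_nat_mul, ← Real.exp_add, ← Real.exp_add]
    congr 2; ring
  rw [e1] at key
  exact (ENNReal.mul_le_mul_iff_right (by simp [Real.exp_pos]) ENNReal.ofReal_ne_top).1 key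

theorem fF5a (h1 : F4S) (h2 : SlabS) (h3 : PtwS) : F5a := by
  intro n L H F lam θ ℓ τ v hlam hV η q d e M γ y P ε hy hε hγ
  refine Loc.Flt.leL_of_vol _ hlam.le fun M₁ U hU ε₀ T hε₀ => ?_
  obtain ⟨M₂, U', hU', hp⟩ := h3 n L F lam θ ℓ τ v hV η q d e M γ y P ε hε hγ M₁
  have hden : 0 < 1 + lam * (M₂ + 1) := by positivity
  set ζ := ε₀ / (1 + lam * (M₂ + 1)) with hζ
  have hζ0 : 0 < ζ := div_pos hε₀ hden
  have hζ1 : ζ * (1 + lam * (M₂ + 1)) = ε₀ := div_mul_cancel₀ _ hden.ne'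
  have hc : ContinuousAt P.Φ 0 := P.an.continuousAt
  have hy' : P.Φ 0 ∈ ball (0 : E n) 1 := by rw [P.cen]; exact hy
  have hUU : U' ∩ P.Φ ⁻¹' U ∈ 𝓝 (0 : E d × E e) :=
    inter_mem hU' (hc.preimage_mem_nhds (by rw [P.cen]; exact hU))
  have hz : ∀ᶠ z in 𝓝 (0 : E d), P.Φ (z, 0) ∈ ball (0 : E n) 1 := by
    have h4 : ContinuousAt (fun z : E d => P.Φ (z, 0)) 0 :=
      ContinuousAt.comp (f := fun z : E d => ((z, 0) : E d × E e)) hc (by fun_prop)
    exact h4.preimage_mem_nhds (isOpen_ball.mem_nhds hy')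
  have hL : ∀ᶠ z in 𝓝 (0 : E d), ∀ lam', 0 < lam' →
      F.LeL (P.Φ (z, 0)) lam' (ℓ - lam * τ + lam' * τ) := by
    filter_upwards [hz, P.onZ] with z hz1 hz2
    exact h1 n L H F lam θ ℓ τ v hV _ hz1 hz2
  have hs := h2 n L H F d e P.Φ P.D (ℓ - lam * τ) τ P.an P.der hy' hV.A0 hV.le_a hL M₂ ε ζ hε hζ0
    _ hUU
  obtain ⟨t, ⟨ht1, ht2⟩, ht3⟩ := ((hs.and (hp ζ hζ0)).and (eventually_ge_atTop T)).exists
  refine ⟨t, τ + (M₂ + 1) * ζ, ht3, ?_⟩
  have e1 : ℓ + ε * d + ε₀ - lam * (τ + (M₂ + 1) * ζ) = ℓ - lam * τ + ε * d + ζ := by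
    rw [← hζ1]; ring
  rw [e1]
  refine ht1.trans (measure_mono ?_)
  rintro _ ⟨p, ⟨⟨hp1, hp2⟩, hp3, hp4⟩, rfl⟩
  exact ⟨hp2, ht2 p hp1 hp3 hp4⟩

end Fuj
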