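import Vale.Agent.P271.FBasic

/-! Problem P271, part F: volume of slices of sublevel sets. -/

open MeasureTheory Set Filter Topology Metric
open scoped ENNReal NNReal

noncomputable section
namespace Fuj

namespace FSliceX
variable {n : ℕ} {L : Loc n}

theorem K_le_exp {F : L.Flt} {M : ℕ} {A τ lam t : ℝ} (hA : 1 ≤ A) (hl : 0 ≤ lam) (ht : 0 ≤ t)
    (hw : ∀ m i, τ * (m + 1) ≤ F.a m i) {p : E n} (hp : ∃ j : L.Ix M, A⁻¹ ≤ ‖F.s j.1 j.2 p‖) :
    F.K M lam t p ≤ ENNReal.ofReal (Real.exp (2 * lam * Real.log A - lam * τ * t)) := by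
  obtain ⟨j, hj⟩ := hp
  refine (F.K_le j.1.2 j.2 lam t p).trans ?_
  have hlog := Real.log_nonneg hA
  have hm : (0 : ℝ) ≤ (j.1.val : ℝ) := Nat.cast_nonneg _
  have e1 : Real.exp (-(2 * Real.log A * (j.1.val + 1)) + τ * (j.1.val + 1) * t) ≤
      ‖F.s j.1 j.2 p‖ ^ 2 * Real.exp (F.a j.1 j.2 * t) := by
    rw [Real.exp_add]
    have e2 : Real.exp (-(2 * Real.log A * (j.1.val + 1))) ≤ A⁻¹ ^ 2 := by
      have : A⁻¹ ^ 2 = Real.exp (-(2 * Real.log A)) := by
        rw [Real.exp_neg, two_mul, Real.exp_add, Real.exp_log (by linarith), inv_pow, sq]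
      rw [this]; apply Real.exp_le_exp.2; nlinarith
    refine mul_le_mul (e2.trans (pow_le_pow_left₀ (by positivity) hj 2))
      (Real.exp_le_exp.2 (mul_le_mul_of_nonneg_right (hw _ _) ht)) (Real.exp_pos _).le
      (by positivity)
  have e3 : ENNReal.ofReal (Real.exp (2 * lam * Real.log A - lam * τ * t)) = ENNReal.ofReal
      (Real.exp (-(2 * Real.log A * (j.1.val + 1)) + τ * (j.1.val + 1) * t)) ^
        (-(lam / (j.1.val + 1 : ℝ))) := by
    rw [Loc.Flt.ofReal_exp_rpow]; congr 2; field_simp; ring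
  rw [e3, ENNReal.rpow_neg, ENNReal.rpow_neg]
  exact ENNReal.inv_le_inv.2 (ENNReal.rpow_le_rpow (ENNReal.ofReal_le_ofReal e1) (by positivity))

theorem split {X : Type*} [MeasureSpace X] {B S : Set X} (hB : MeasurableSet B) {f : X → ℝ≥0∞}
    {a b : ℝ≥0∞} (h1 : ∀ w ∈ B, f w ≤ a) (h2 : ∀ w ∈ B, w ∉ S → f w ≤ b) :
    ∫⁻ w in B, f w ≤ a * volume S + b * volume B := by
  calc ∫⁻ w in B, f w ≤ ∫⁻ w in B, ((toMeasurable volume S).indicator (fun _ => a) w + b) := by
        refine setLIntegral_mono' hB fun w hw => ?_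
        by_cases hS : w ∈ S
        · rw [indicator_of_mem (subset_toMeasurable _ _ hS)]; exact (h1 w hw).trans le_self_add
        · exact (h2 w hw hS).trans le_add_self
    _ = a * (volume.restrict B) (toMeasurable volume S) + b * volume B := by
        rw [lintegral_add_right _ measurable_const,
          lintegral_indicator_const (measurableSet_toMeasurable _ _), setLIntegral_const]
    _ ≤ _ := by
        have e := (Measure.restrict_apply_le (μ := volume) B (toMeasurable volume S)).trans_eq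
          (measure_toMeasurable S)
        gcongr

theorem fin {A η lam τ t c₁ v : ℝ} {x : ℝ≥0∞} (hη : 0 < η) (hl : A + 2 * η ≤ lam * η) (hv : 0 ≤ v)
    (ht0 : 0 ≤ t) (ht1 : 2 * v ≤ η * t) (ht2 : 2 * (c₁ + 1) ≤ η * t)
    (h : ENNReal.ofReal (Real.exp (-(A + lam * τ + η / 4 + η / 4) * t)) <
      ENNReal.ofReal (Real.exp (c₁ - lam * τ * t)) * x +
        ENNReal.ofReal (Real.exp (-lam * (τ + η) * t)) * ENNReal.ofReal v) :
    ENNReal.ofReal (Real.exp (-(A + η) * t)) ≤ x := by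
  by_contra hc
  push Not at hc
  have h1 := h.trans_le (add_le_add (mul_le_mul_right hc.le _) le_rfl)
  rw [← ENNReal.ofReal_mul (Real.exp_pos _).le, ← ENNReal.ofReal_mul (Real.exp_pos _).le,
    ← ENNReal.ofReal_add (by positivity) (by positivity),
    ENNReal.ofReal_lt_ofReal_iff (by positivity), ← Real.exp_add] at h1
  set z := -(A + lam * τ + η / 4 + η / 4) * t with hz
  have e1 : Real.exp (c₁ - lam * τ * t + -(A + η) * t) ≤ Real.exp z / 2 := by
    have : Real.exp (c₁ - lam * τ * t + -(A + η) * t) ≤ Real.exp (z + -1) :=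
      Real.exp_le_exp.2 (by rw [hz]; nlinarith)
    rw [Real.exp_add z] at this
    have h3 : Real.exp (-1) ≤ 1 / 2 := Real.exp_neg_one_lt_half.le
    nlinarith [Real.exp_pos z]
  have e2 : Real.exp (-lam * (τ + η) * t) * v ≤ Real.exp z / 2 := by
    have h3 : Real.exp (-lam * (τ + η) * t) ≤ Real.exp (z + -(η * t)) :=
      Real.exp_le_exp.2 (by rw [hz]; nlinarith [mul_nonneg hη.le ht0, mul_le_mul_of_nonneg_right hl ht0])
    have h4 : Real.exp (-(η * t)) * (2 * v) ≤ 1 := by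
      rw [Real.exp_neg, inv_mul_le_iff₀ (Real.exp_pos _)]
      linarith [Real.add_one_le_exp (η * t)]
    rw [Real.exp_add] at h3
    calc _ ≤ Real.exp z * Real.exp (-(η * t)) * v := by gcongr
      _ = Real.exp z / 2 * (Real.exp (-(η * t)) * (2 * v)) := by ring
      _ ≤ Real.exp z / 2 * 1 := by gcongr
      _ = _ := mul_one _
  linarith

end FSliceX

open FSliceX in
theorem fSlice (h1 : KLm) (h2 : ChartS) : SliceS := by
  intro n L H F d e Φ D A τ han hder h0 hA hw hL M η ρ hη hρ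
  obtain ⟨ρ₀, C, hρ₀, hanΦ, hopen, hmeas⟩ := h2 n d e Φ D han hder
  obtain ⟨M₀, hM₀⟩ := H.exists_bpf
  obtain ⟨A₀, hA₀, hbnd⟩ := ((hM₀ F).mono (le_max_right M M₀)).bnd
  obtain ⟨r₁, hr₁, hr₁'⟩ := Metric.eventually_nhds_iff_ball.1
    (han.continuousAt.eventually (isOpen_ball.mem_nhds h0))
  obtain ⟨r₂, hr₂, hr₂'⟩ := Metric.eventually_nhds_iff_ball.1 hL
  set r := min (min ρ ρ₀) r₁ with hr
  have hr0 : 0 < r := by positivity
  have hrρ : r ≤ ρ := (min_le_left _ _).trans (min_le_left _ _)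
  have hrρ₀ : r ≤ ρ₀ := (min_le_left _ _).trans (min_le_right _ _)
  have hΦ1 : ∀ p ∈ ball (0 : E d × E e) r, Φ p ∈ ball (0 : E n) 1 := fun p hp =>
    hr₁' p (ball_subset_ball (min_le_right _ _) hp)
  set lam := A / η + 2 with hlam
  have hl0 : 0 < lam := by positivity
  have hl1 : A + 2 * η ≤ lam * η := by rw [hlam]; field_simp; exact le_rfl
  obtain ⟨B, hB⟩ : ∃ B : ℝ, ∀ j : L.Ix (max M M₀), |F.a j.1 j.2| ≤ B :=
    ⟨∑ j : L.Ix (max M M₀), |F.a j.1 j.2|, fun j => Finset.single_le_sum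
      (f := fun j : L.Ix (max M M₀) => |F.a j.1 j.2|) (fun _ _ => abs_nonneg _) (Finset.mem_univ j)⟩
  obtain ⟨T, δ, hδ, hK⟩ := h1 d e (L.Ix (max M M₀)) (fun j => j.1.val + 1) lam A₀ B
    (A + lam * τ + η / 4) (η / 4) r (fun j => Nat.le_add_left 1 _) hl0 (by linarith)
    (by positivity) hr0
  refine ⟨max (max T 0) (max (2 * (Real.pi * r ^ 2) ^ e / η)
    (2 * (2 * lam * Real.log A₀ + 1) / η)), min δ (min r r₂), by positivity, fun t ht z hz => ?_⟩
  have htT : T ≤ t := ((le_max_left _ _).trans (le_max_left _ _)).trans ht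
  have ht0 : 0 ≤ t := ((le_max_right _ _).trans (le_max_left _ _)).trans ht
  have ht1 : 2 * (Real.pi * r ^ 2) ^ e / η ≤ t :=
    ((le_max_left _ _).trans (le_max_right _ _)).trans ht
  have ht2 : 2 * (2 * lam * Real.log A₀ + 1) / η ≤ t :=
    ((le_max_right _ _).trans (le_max_right _ _)).trans ht
  rw [div_le_iff₀' hη] at ht1 ht2
  have hzr : z ∈ ball (0 : E d) r :=
    ball_subset_ball ((min_le_right _ _).trans (min_le_left _ _)) hz
  have hzw : ∀ w ∈ ball (0 : E e) r, (z, w) ∈ ball (0 : E d × E e) r := fun w hw' => by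
    have : (z, w) ∈ ball (0 : E d) r ×ˢ ball (0 : E e) r := ⟨hzr, hw'⟩
    rwa [ball_prod_same] at this
  have hlow : ENNReal.ofReal (Real.exp (-(A + lam * τ + η / 4 + η / 4) * t)) <
      ∫⁻ w in ball (0 : E e) r, F.K (max M M₀) lam t (Φ (z, w)) := by
    by_contra hc
    push Not at hc
    obtain ⟨U, hU, C', hC'⟩ := hK 0 (fun j p => F.s j.1 j.2 (Φ p)) (fun j => F.a j.1 j.2)
      (fun j p hp => (Loc.anAt (F.mem j.1 j.2)
        ((mem_ball_zero_iff.1 (hΦ1 p hp)).trans one_lt_two)).comp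
          (hanΦ p (ball_subset_ball hrρ₀ hp)))
      (fun p hp => hbnd _ (ball_subset_closedBall (hΦ1 p hp))) hB t htT z
      (ball_subset_ball (min_le_left _ _) hz) hc 0 (mem_ball_self hδ)
    have hz0 : (z, (0 : E e)) ∈ ball (0 : E d × E e) ρ₀ :=
      ball_subset_ball hrρ₀ (hzw 0 (mem_ball_self hr0))
    have hU' : interior U ∩ ball 0 ρ₀ ∈ 𝓝 (z, (0 : E e)) :=
      inter_mem (interior_mem_nhds.2 hU) (isOpen_ball.mem_nhds hz0)
    refine hr₂' z (ball_subset_ball ((min_le_right _ _).trans (min_le_right _ _)) hz) lam hl0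
      (A + lam * τ + η / 4) (by linarith) ⟨max M M₀, _, hopen _ hz0 _ hU', C * C', fun s hs => ?_⟩
    refine ((hmeas _ (isOpen_interior.inter isOpen_ball).measurableSet inter_subset_right).2 _
      (F.measurable_K _ lam s)).trans ?_
    rw [mul_assoc, ENNReal.ofReal_mul (NNReal.coe_nonneg C)]
    have e : ENNReal.ofReal (C : ℝ) = (C : ℝ≥0∞) := ENNReal.ofReal_coe_nnreal
    refine mul_le_mul' e.ge ?_
    exact (lintegral_mono_set (inter_subset_left.trans interior_subset)).trans (hC' s hs)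
  have hup := split (B := ball (0 : E e) r)
    (S := {w ∈ ball (0 : E e) ρ | Φ (z, w) ∈ F.Sub M (τ + η) t}) measurableSet_ball
    (f := fun w => F.K (max M M₀) lam t (Φ (z, w)))
    (a := ENNReal.ofReal (Real.exp (2 * lam * Real.log A₀ - lam * τ * t)))
    (b := ENNReal.ofReal (Real.exp (-lam * (τ + η) * t)))
    (fun w hw' => K_le_exp hA₀ hl0.le ht0 hw
      (hbnd _ (ball_subset_closedBall (hΦ1 _ (hzw w hw')))).2)
    (fun w hw' hS => F.K_le_of_not_Sub hl0.le fun hc =>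
      hS ⟨ball_subset_ball hrρ hw', F.Sub_anti (le_max_left _ _) _ _ hc⟩)
  rw [vol_ball _ hr0] at hup
  exact fin hη hl1 (by positivity) ht0 ht1 ht2 (hlow.trans_le hup)

end Fuj
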