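import Vale.Agent.P271.FDefs

/-! Problem P271, part F: working definitions and the list of intermediate statements. -/

open MeasureTheory Set Filter Topology Metric
open scoped ENNReal NNReal

noncomputable section
namespace Fuj

/-- `min_j (|s_j|² e^{a_j t})^{-λ/m_j}` -/
def Kf {X ι : Type*} (m : ι → ℕ) (s : ι → X → ℂ) (a : ι → ℝ) (lam t : ℝ) (p : X) : ℝ≥0∞ :=
  ⨅ j, ENNReal.ofReal (‖s j p‖ ^ 2 * Real.exp (a j * t)) ^ (-(lam / m j))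

/-- functions vanishing to order `r` at `y` -/
def OrdS {X : Type*} [NormedAddCommGroup X] (y : X) (r : ℕ) : Submodule ℂ (X → ℂ) where
  carrier := {f | Ord y r f}
  add_mem' := fun hf hg => Asymptotics.IsBigO.add hf hg
  zero_mem' := Asymptotics.isBigO_zero _ _
  smul_mem' := fun c _ hf => Asymptotics.IsBigO.const_smul_left hf c

def mon {n : ℕ} (β : Fin n → ℕ) : E n → ℂ := fun z => ∏ i, z i ^ β i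

/-- exponents of degree `i` -/
def MonE (n i : ℕ) : Finset (Fin n → ℕ) := Finset.piAntidiag Finset.univ i

/-- exponents of degree at most `j` -/
def MonL (n j : ℕ) : Finset (Fin n → ℕ) := (Finset.range (j + 1)).biUnion (MonE n)

/-- homogeneous polynomial functions of degree `i` -/
def Hom (n i : ℕ) : Submodule ℂ (E n → ℂ) := Submodule.span ℂ (mon '' (MonE n i : Set (Fin n → ℕ)))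

structure Ultra {Y : Type} [AddCommGroup Y] [Module ℂ Y] (W : Submodule ℂ Y) (w : Y → ℝ) :
    Prop where
  smul : ∀ s ∈ W, ∀ c : ℂ, c ≠ 0 → w (c • s) = w s
  add : ∀ s ∈ W, ∀ s' ∈ W, s ≠ 0 → s' ≠ 0 → s + s' ≠ 0 → min (w s) (w s') ≤ w (s + s')

open Classical in
def cntL {k : ℕ} (a : Fin k → ℝ) (x : ℝ) : ℕ := (Finset.univ.filter fun i => a i < x).card

open Classical in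
def cntG {k : ℕ} (a : Fin k → ℝ) (x : ℝ) : ℕ := (Finset.univ.filter fun i => x ≤ a i).card

namespace Loc
variable {n : ℕ}

/-- a filtration: a weighted basis in each degree; the index `m` stands for the degree `m + 1` -/
structure Flt (L : Loc n) where
  s : ∀ m, Fin (L.h (m + 1)) → E n → ℂ
  a : ∀ m, Fin (L.h (m + 1)) → ℝ
  mem : ∀ m i, s m i ∈ L.V (m + 1)
  li : ∀ m, LinearIndependent ℂ (s m)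

/-- basis elements of degree at most `M` -/
abbrev Ix (L : Loc n) (M : ℕ) := (m : Fin M) × Fin (L.h (m.val + 1))

namespace Flt
variable {L : Loc n} (F : L.Flt)

def rew (a : ∀ m, Fin (L.h (m + 1)) → ℝ) : L.Flt := ⟨F.s, a, F.mem, F.li⟩

def Fil (m : ℕ) (x : ℝ) : Submodule ℂ (E n → ℂ) := Submodule.span ℂ (F.s m '' {i | x ≤ F.a m i})

def Le (G : L.Flt) : Prop := ∀ m x, F.Fil m x ≤ G.Fil m x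

def K (M : ℕ) (lam t : ℝ) (p : E n) : ℝ≥0∞ :=
  Kf (fun j : L.Ix M => j.1.val + 1) (fun j => F.s j.1 j.2) (fun j => F.a j.1 j.2) lam t p

def Sub (M : ℕ) (σ t : ℝ) : Set (E n) :=
  {p | ∀ m, m < M → ∀ i, ‖F.s m i p‖ ^ 2 * Real.exp (F.a m i * t) ≤ Real.exp ((m + 1) * σ * t)}

def Bpf (M : ℕ) : Prop := ∀ p ∈ ball (0 : E n) 2, ∃ m, m < M ∧ ∃ i, F.s m i p ≠ 0

def Dec (y : E n) (lam c : ℝ) : Prop := ∃ M, ∃ U ∈ 𝓝 y, ∃ C : ℝ, ∀ t, 0 ≤ t →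
  ∫⁻ p in U, F.K M lam t p ≤ ENNReal.ofReal (C * Real.exp (-c * t))

/-- `L_y(F, λ) ≤ ℓ` -/
def LeL (y : E n) (lam ℓ : ℝ) : Prop := ∀ c, ℓ < c → ¬ F.Dec y lam c

def W (m : ℕ) : ℝ := ∑ i, Real.exp (-F.a m i)

def Sm : Prop := Summable F.W

def Xi : ℝ := ∑' m, F.W m

structure IsMin (lam θ ℓ : ℝ) : Prop where
  le : F.LeL 0 lam ℓ
  sm : F.Sm
  min : ∀ (G : L.Flt) (ℓ' : ℝ), G.LeL 0 lam ℓ' → G.Sm →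
    ℓ + θ * Real.log F.Xi ≤ ℓ' + θ * Real.log G.Xi

/-- admissible family of test sets -/
structure Adm (lam ℓ τ : ℝ) (t : ℕ → ℝ) (Ω : ℕ → Set (E n)) : Prop where
  top : Tendsto t atTop atTop
  meas : ∀ k, MeasurableSet (Ω k)
  loc : ∀ U ∈ 𝓝 (0 : E n), ∀ᶠ k in atTop, Ω k ⊆ U
  vol : ∀ ε, 0 < ε → ∀ᶠ k in atTop,
    ENNReal.ofReal (Real.exp (-(ℓ - lam * τ + ε) * t k)) ≤ volume (Ω k)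
  sub : ∀ ε, 0 < ε → ∀ M, ∀ᶠ k in atTop, Ω k ⊆ F.Sub M (τ + ε) (t k)
  away : ∀ ε, 0 < ε → ∀ᶠ k in atTop, ∀ p ∈ Ω k, Real.exp (-ε * t k) ≤ ‖p‖

/-- the minimiser is `v + τ · degree` for a valuation `v` -/
structure Val (lam θ ℓ τ : ℝ) (v : (E n → ℂ) → ℝ) : Prop where
  min : F.IsMin lam θ ℓ
  val : L.IsVal v
  fil : ∀ m x s, s ∈ F.Fil m x ↔ L.Ge v (m + 1) (x - τ * (m + 1)) s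
  wt : ∀ m i, F.a m i = v (F.s m i) + τ * (m + 1)
  A0 : 0 ≤ ℓ - lam * τ
  ord : ∀ m, ∀ s ∈ L.V m, s ≠ 0 → ∀ r : ℕ, ¬ Ord 0 (r + 1) s → v s ≤ (ℓ - lam * τ) * r
  test : ∀ q, ∀ g ∈ L.V q, g ≠ 0 → v g = 0 → ∀ (M : ℕ) (ε T : ℝ), 0 < ε → ∃ t, T ≤ t ∧
    ENNReal.ofReal (Real.exp (-(ℓ - lam * τ + ε) * t)) ≤
      volume (ball (0 : E n) 1 ∩ F.Sub M (τ + ε) t ∩ {p | Real.exp (-ε * t) ≤ ‖g p‖ ^ 2})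

end Flt

/-- the perturbed filtration of step F5 -/
def Pert.flt {L : Loc n} {v : (E n → ℂ) → ℝ} {η : ℝ} {q d e M : ℕ} {γ : ℝ} {y : E n}
    (P : L.Pert v η q d e M γ y) (F : L.Flt) (τ ε : ℝ) : L.Flt where
  s := fun m => if m + 1 ≤ M then P.s (m + 1) else F.s m
  a := fun m i => if m + 1 ≤ M then
    v (P.s (m + 1) i) + τ * (m + 1) + ε * min (P.u (m + 1) i : ℝ) (d * (m + 1)) else F.a m i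
  mem := fun m i => by
    by_cases h : m + 1 ≤ M
    · simp only [if_pos h]; exact P.mem _ (Nat.le_add_left 1 m) h i
    · simp only [if_neg h]; exact F.mem m i
  li := fun m => by
    by_cases h : m + 1 ≤ M
    · simp only [if_pos h]; exact P.li _ (Nat.le_add_left 1 m) h
    · simp only [if_neg h]; exact F.li m

end Loc

def vOf {n : ℕ} (t : ℕ → ℝ) (Ω : ℕ → Set (E n)) (s : E n → ℂ) : ℝ :=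
  sSup {a | ∀ᶠ k in atTop, ∀ p ∈ Ω k, ‖s p‖ ^ 2 ≤ Real.exp (-a * t k)}

/-! ### linear algebra -/

def AdaptS : Prop := ∀ (Y : Type) [AddCommGroup Y] [Module ℂ Y] (W : Submodule ℂ Y)
  [FiniteDimensional ℂ W] (w : Y → ℝ), Ultra W w →
  ∃ s : Fin (Module.finrank ℂ W) → Y, (∀ i, s i ∈ W) ∧ LinearIndependent ℂ s ∧
    ∀ (c : Fin (Module.finrank ℂ W) → ℂ) i, c i ≠ 0 → w (∑ j, c j • s j) ≤ w (s i)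

def FilAdS : Prop := ∀ (Y : Type) [AddCommGroup Y] [Module ℂ Y] (W : Submodule ℂ Y)
  [FiniteDimensional ℂ W] (w : Y → ℝ), Ultra W w →
  ∀ s : Fin (Module.finrank ℂ W) → Y, (∀ i, s i ∈ W) → LinearIndependent ℂ s →
    (∀ (c : Fin (Module.finrank ℂ W) → ℂ) i, c i ≠ 0 → w (∑ j, c j • s j) ≤ w (s i)) →
    ∀ (x : ℝ) (z : Y), z ∈ Submodule.span ℂ (s '' {i | x ≤ w (s i)}) ↔ z ∈ W ∧ (z = 0 ∨ x ≤ w z)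

def MkS : Prop := ∀ (n : ℕ) (L : Loc n) (w : ℕ → (E n → ℂ) → ℝ),
  (∀ m, Ultra (L.V (m + 1)) (w m)) → ∃ F : L.Flt, (∀ m i, F.a m i = w m (F.s m i)) ∧
    ∀ m x z, z ∈ F.Fil m x ↔ z ∈ L.V (m + 1) ∧ (z = 0 ∨ x ≤ w m z)

def PermS : Prop := ∀ (k : ℕ) (a a' : Fin k → ℝ), (∀ x, cntG a x ≤ cntG a' x) →
  ∃ π : Equiv.Perm (Fin k), ∀ i, a i ≤ a' (π i)

def CmpS : Prop := ∀ (n : ℕ) (L : Loc n) (F G : L.Flt), F.Le G → F.Sm →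
  G.Sm ∧ G.Xi ≤ F.Xi ∧ (F.Xi ≤ G.Xi → G.Le F)

def PermP : Prop := ∀ (n : ℕ) (L : Loc n) (F : L.Flt) (lam θ ℓ τ : ℝ) (v : (E n → ℂ) → ℝ),
  F.Val lam θ ℓ τ v → ∀ (η : ℝ) (q d e M : ℕ) (γ : ℝ) (y : E n) (P : L.Pert v η q d e M γ y)
    (m : ℕ), m + 1 ≤ M → ∃ π : Equiv.Perm (Fin (L.h (m + 1))),
      ∀ i, v (P.s (m + 1) i) + τ * (m + 1) = F.a m (π i)

def ElemS : Prop := ∀ (n : ℕ) (L : Loc n) (F : L.Flt) (m : ℕ) (x : ℝ), ∀ z ∈ F.Fil m x,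
  ∃ C : ℝ, 0 < C ∧ ∀ (t B : ℝ) (p : E n), 0 ≤ t → 0 ≤ B →
    (∀ i, ‖F.s m i p‖ ^ 2 * Real.exp (F.a m i * t) ≤ B) → ‖z p‖ ^ 2 * Real.exp (x * t) ≤ C * B

def MonoS : Prop := ∀ (n : ℕ) (L : Loc n) (F G : L.Flt), F.Le G → ∀ (y : E n) (lam ℓ : ℝ),
  0 < lam → G.LeL y lam ℓ → F.LeL y lam ℓ

def GSS : Prop := ∀ (k : ℕ) (u : Fin k → EuclideanSpace ℂ (Fin k)) (a : Fin k → ℝ),
  LinearIndependent ℂ u → ∃ u' : Fin k → EuclideanSpace ℂ (Fin k), Orthonormal ℂ u' ∧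
    ∀ x, Submodule.span ℂ (u' '' {i | x ≤ a i}) = Submodule.span ℂ (u '' {i | x ≤ a i})

def ExtS : Prop := ∀ (n : ℕ) (L : Loc n) (F : ℕ → L.Flt) (B : ℕ → ℝ),
  (∀ k m i, |(F k).a m i| ≤ B m) → ∃ (F' : ℕ → L.Flt) (G : L.Flt) (φ : ℕ → ℕ), StrictMono φ ∧
    (∀ k, (F' k).a = (F (φ k)).a ∧ (F' k).Le (F (φ k))) ∧
    (∀ m i, TendstoUniformlyOn (fun k => (F' k).s m i) (G.s m i) atTop (ball 0 1)) ∧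
    ∀ m i, Tendsto (fun k => (F' k).a m i) atTop (𝓝 (G.a m i))

/-! ### the functional `L` -/

def DownS : Prop := ∀ (n : ℕ) (L : Loc n) (F : L.Flt) (y : E n) (lam ℓ : ℝ) (M : ℕ), 0 < lam →
  y ∈ ball (0 : E n) 1 → F.Bpf M → F.LeL y lam ℓ → ∀ U ∈ 𝓝 y, ∀ ε T : ℝ, 0 < ε →
  ∃ t σ, T ≤ t ∧ ENNReal.ofReal (Real.exp (-(ℓ + ε - lam * σ) * t)) ≤ volume (U ∩ F.Sub M σ t)

def KLm : Prop := ∀ (d e : ℕ) (ι : Type) [Fintype ι] (m : ι → ℕ) (lam A B c η ρ : ℝ),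
  (∀ j, 1 ≤ m j) → 0 < lam → 0 < A → 0 < η → 0 < ρ →
  ∃ T δ : ℝ, 0 < δ ∧ ∀ (o : E d × E e) (s : ι → E d × E e → ℂ) (a : ι → ℝ),
    (∀ j, AnalyticOnNhd ℂ (s j) (ball o ρ)) →
    (∀ p ∈ ball o ρ, (∀ j, ‖s j p‖ ≤ A) ∧ ∃ j, A⁻¹ ≤ ‖s j p‖) →
    (∀ j, |a j| ≤ B) → ∀ t₀, T ≤ t₀ → ∀ z ∈ ball o.1 δ,
    ∫⁻ w in ball o.2 ρ, Kf m s a lam t₀ (z, w) ≤ ENNReal.ofReal (Real.exp (-(c + η) * t₀)) →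
    ∀ w ∈ ball o.2 δ, ∃ U ∈ 𝓝 (z, w), ∃ C : ℝ, ∀ t, 0 ≤ t →
      ∫⁻ p in U, Kf m s a lam t p ≤ ENNReal.ofReal (C * Real.exp (-c * t))

def KL0 : Prop := ∀ (n : ℕ) (ι : Type) [Fintype ι] (m : ι → ℕ) (lam A B c η ρ : ℝ),
  (∀ j, 1 ≤ m j) → 0 < lam → 0 < A → 0 < η → 0 < ρ →
  ∃ T δ : ℝ, 0 < δ ∧ ∀ (o : E n) (s : ι → E n → ℂ) (a : ι → ℝ),
    (∀ j, AnalyticOnNhd ℂ (s j) (ball o ρ)) →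
    (∀ p ∈ ball o ρ, (∀ j, ‖s j p‖ ≤ A) ∧ ∃ j, A⁻¹ ≤ ‖s j p‖) →
    (∀ j, |a j| ≤ B) → ∀ t₀, T ≤ t₀ →
    ∫⁻ w in ball o ρ, Kf m s a lam t₀ w ≤ ENNReal.ofReal (Real.exp (-(c + η) * t₀)) →
    ∀ w ∈ ball o δ, ∃ U ∈ 𝓝 w, ∃ C : ℝ, ∀ t, 0 ≤ t →
      ∫⁻ p in U, Kf m s a lam t p ≤ ENNReal.ofReal (C * Real.exp (-c * t))

def LscS : Prop := ∀ (n : ℕ) (L : Loc n), L.Hyp → ∀ (F : ℕ → L.Flt) (G : L.Flt) (y : ℕ → E n)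
  (y₀ : E n) (lam ℓ : ℝ), 0 < lam → y₀ ∈ ball (0 : E n) 1 → Tendsto y atTop (𝓝 y₀) →
  (∀ m i, TendstoUniformlyOn (fun k => (F k).s m i) (G.s m i) atTop (ball 0 1)) →
  (∀ m i, Tendsto (fun k => (F k).a m i) atTop (𝓝 (G.a m i))) →
  (∀ ε, 0 < ε → ∀ᶠ k in atTop, (F k).LeL (y k) lam (ℓ + ε)) → G.LeL y₀ lam ℓ

def CptS : Prop := ∀ (n : ℕ) (L : Loc n), L.Hyp → ∀ (F : ℕ → L.Flt) (B : ℕ → ℝ) (y : ℕ → E n)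
  (lam ℓ : ℝ), 0 < lam → Tendsto y atTop (𝓝 0) → (∀ k m i, |(F k).a m i| ≤ B m) →
  (∀ ε, 0 < ε → ∀ᶠ k in atTop, (F k).LeL (y k) lam (ℓ + ε)) →
  ∃ (G : L.Flt) (φ : ℕ → ℕ), StrictMono φ ∧ G.LeL 0 lam ℓ ∧
    ∀ m i, Tendsto (fun k => (F (φ k)).a m i) atTop (𝓝 (G.a m i))

def Lb1S : Prop := ∀ (n : ℕ) (L : Loc n) (F : L.Flt) (lam ℓ : ℝ), 0 < lam → F.LeL 0 lam ℓ →
  ∀ m i, F.s m i 0 ≠ 0 → lam * F.a m i ≤ ℓ * (m + 1)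

def Lb2S : Prop := ∀ (n : ℕ) (L : Loc n), L.Hyp → ∀ lam : ℝ, 0 < lam → ∃ ε : ℝ, 0 < ε ∧ ε < 1 ∧
  ∀ (F : L.Flt) (ℓ : ℝ), F.LeL 0 lam ℓ → ∀ m i m' i', F.s m' i' 0 ≠ 0 →
    lam * (ε * (F.a m i / (m + 1)) + (1 - ε) * (F.a m' i' / (m' + 1))) ≤ ℓ

def TestS : Prop := ∀ (n : ℕ) (L : Loc n) (O : L.Flt) (o : ∀ m, Fin (L.h (m + 1)) → ℕ),
  (∀ m i, Ord 0 (o m i) (O.s m i)) → ∀ lam s τ : ℝ, 0 < lam → 0 ≤ s →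
  (O.rew fun m i => s * o m i + τ * (m + 1)).LeL 0 lam (n * s + lam * τ)

def HbS : Prop := ∀ (n : ℕ) (L : Loc n), 1 ≤ n → L.Hyp →
  ∃ C : ℝ, 1 ≤ C ∧ ∀ m, (L.h (m + 1) : ℝ) ≤ C * (m + 1) ^ n

def MinS : Prop := ∀ (n : ℕ) (L : Loc n), 1 ≤ n → L.Hyp → ∃ θ₀ : ℝ, 0 < θ₀ ∧ ∀ lam θ : ℝ,
  1 ≤ lam → 0 < θ → θ < θ₀ → ∃ (F : L.Flt) (ℓ : ℝ), F.IsMin lam θ ℓ

def PsiAbs : Prop := ∀ (ι : Type) [Fintype ι] (b : ι → ℝ) (γ₁ γ₂ : ℝ), γ₁ < γ₂ →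
  ∃ (k J : ℕ) (κ : Fin J → ι → ℕ) (C : ℝ), 1 ≤ k ∧ 0 < C ∧ (∀ l, ∑ j, κ l j = k) ∧
    (∀ l, k * γ₁ ≤ ∑ j, κ l j * b j) ∧ ∀ (x : ι → ℝ) (B : ℝ), (∀ j, 0 ≤ x j) → 0 ≤ B →
      (∀ t : ℕ, ∃ j, B * Real.exp (γ₂ * t) ≤ x j * Real.exp (b j * t)) →
      B ^ k ≤ C * ∑ l, ∏ j, x j ^ κ l j

def PsiS : Prop := ∀ (n : ℕ) (L : Loc n) (F : L.Flt) (M : ℕ) (lam c₁ c₂ : ℝ), 0 < lam → c₁ < c₂ →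
  ∃ (N J : ℕ) (ρ : Fin J → E n → ℂ) (C : ℝ≥0), 1 ≤ N ∧ (∀ j, ρ j ∈ L.V N) ∧
    (∀ p t, 0 ≤ t → ENNReal.ofReal (Real.exp (c₁ * t)) * F.K M lam t p ≤ C * Psi ρ (lam / N) p) ∧
    ∀ y : E n, ∀ U ∈ 𝓝 y, ∀ C' : ℝ, (∀ t, 0 ≤ t →
      ∫⁻ p in U, F.K M lam t p ≤ ENNReal.ofReal (C' * Real.exp (-c₂ * t))) →
      IntAt y (Psi ρ (lam / N))

def F2S : Prop := ∀ (n : ℕ) (L : Loc n), L.Hyp → ∀ (F : L.Flt) (lam ℓ : ℝ), 0 < lam →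
  lam < n + 1 → F.LeL 0 lam ℓ → ∃ᶠ y in 𝓝[≠] (0 : E n), F.LeL y lam ℓ

/-! ### the valuation -/

def OmS : Prop := ∀ (n : ℕ) (L : Loc n), L.Hyp → ∀ (F : L.Flt) (lam ℓ : ℝ), 0 < lam →
  (∃ᶠ y in 𝓝[≠] (0 : E n), F.LeL y lam ℓ) → ∃ τ t Ω, F.Adm lam ℓ τ t Ω

def V1S : Prop := ∀ (n : ℕ) (L : Loc n), L.Hyp → ∀ (F : L.Flt) (lam ℓ τ : ℝ) (t : ℕ → ℝ)
  (Ω : ℕ → Set (E n)), F.Adm lam ℓ τ t Ω → 0 ≤ ℓ - lam * τ ∧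
  (∀ m, ∀ s ∈ L.V m, s ≠ 0 → 0 ≤ vOf t Ω s ∧
    (∀ r : ℕ, ¬ Ord 0 (r + 1) s → vOf t Ω s ≤ (ℓ - lam * τ) * r) ∧
    ∀ a, a ≤ vOf t Ω s ↔ ∀ ε, 0 < ε → ∀ᶠ k in atTop, ∀ p ∈ Ω k,
      ‖s p‖ ^ 2 ≤ Real.exp (-(a - ε) * t k))

def V1b : Prop := ∀ (n : ℕ) (L : Loc n), L.Hyp → ∀ (F : L.Flt) (lam ℓ τ : ℝ) (t : ℕ → ℝ)
  (Ω : ℕ → Set (E n)), F.Adm lam ℓ τ t Ω → (∀ m, Ultra (L.V m) (vOf t Ω)) ∧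
  ∃ m, ∃ s ∈ L.V m, s ≠ 0 ∧ s 0 = 0 ∧ vOf t Ω s = 0

def V2S : Prop := ∀ (n : ℕ) (L : Loc n), L.Hyp → ∀ (F : L.Flt) (lam θ ℓ τ : ℝ) (t : ℕ → ℝ)
  (Ω : ℕ → Set (E n)), 0 < lam → 0 < θ → F.IsMin lam θ ℓ → F.Adm lam ℓ τ t Ω →
  ∀ m x s, s ∈ F.Fil m x ↔ L.Ge (vOf t Ω) (m + 1) (x - τ * (m + 1)) s

def V3S : Prop := ∀ (n : ℕ) (L : Loc n), L.Hyp → ∀ (F : L.Flt) (lam θ ℓ τ : ℝ) (t : ℕ → ℝ)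
  (Ω : ℕ → Set (E n)), 0 < lam → 0 < θ → F.IsMin lam θ ℓ → F.Adm lam ℓ τ t Ω →
  (∀ t' Ω', F.Adm lam ℓ τ t' Ω' → ∀ m, ∀ s ∈ L.V m, s ≠ 0 → vOf t' Ω' s = vOf t Ω s) ∧
  ∀ m, ∀ g ∈ L.V m, g ≠ 0 → ∀ ε, 0 < ε → F.Adm lam ℓ τ t
    (fun k => Ω k ∩ {p | Real.exp (-(vOf t Ω g + ε) * t k) ≤ ‖g p‖ ^ 2})

def ValS : Prop := ∀ (n : ℕ) (L : Loc n), L.Hyp → ∀ (F : L.Flt) (lam θ ℓ τ : ℝ) (t : ℕ → ℝ)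
  (Ω : ℕ → Set (E n)), 0 < lam → 0 < θ → F.IsMin lam θ ℓ → F.Adm lam ℓ τ t Ω →
  F.Val lam θ ℓ τ (vOf t Ω)

def F4S : Prop := ∀ (n : ℕ) (L : Loc n), L.Hyp → ∀ (F : L.Flt) (lam θ ℓ τ : ℝ)
  (v : (E n → ℂ) → ℝ), F.Val lam θ ℓ τ v → ∀ y ∈ ball (0 : E n) 1,
  (∀ m, ∀ g ∈ L.V m, g ≠ 0 → 0 < v g → g y = 0) → ∀ lam', 0 < lam' →
  F.LeL y lam' (ℓ - lam * τ + lam' * τ)

/-! ### the perturbation -/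

def ChartS : Prop := ∀ (n d e : ℕ) (Φ : E d × E e → E n) (D : (E d × E e) ≃L[ℂ] E n),
  AnalyticAt ℂ Φ 0 → HasFDerivAt Φ (D : E d × E e →L[ℂ] E n) 0 →
  ∃ (ρ : ℝ) (C : ℝ≥0), 0 < ρ ∧ AnalyticOnNhd ℂ Φ (ball 0 ρ) ∧
    (∀ p ∈ ball (0 : E d × E e) ρ, ∀ U ∈ 𝓝 p, Φ '' U ∈ 𝓝 (Φ p)) ∧
    ∀ S, MeasurableSet S → S ⊆ ball (0 : E d × E e) ρ → volume S ≤ C * volume (Φ '' S) ∧
      ∀ f : E n → ℝ≥0∞, Measurable f → ∫⁻ p in Φ '' S, f p ≤ C * ∫⁻ p in S, f (Φ p)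

/-- lower bound for the volume of slices -/
def SliceS : Prop := ∀ (n : ℕ) (L : Loc n), L.Hyp → ∀ (F : L.Flt) (d e : ℕ)
  (Φ : E d × E e → E n) (D : (E d × E e) ≃L[ℂ] E n) (A τ : ℝ), AnalyticAt ℂ Φ 0 →
  HasFDerivAt Φ (D : E d × E e →L[ℂ] E n) 0 → Φ 0 ∈ ball (0 : E n) 1 → 0 ≤ A →
  (∀ m i, τ * (m + 1) ≤ F.a m i) →
  (∀ᶠ z in 𝓝 (0 : E d), ∀ lam, 0 < lam → F.LeL (Φ (z, 0)) lam (A + lam * τ)) →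
  ∀ (M : ℕ) (η ρ : ℝ), 0 < η → 0 < ρ → ∃ T δ : ℝ, 0 < δ ∧ ∀ t, T ≤ t → ∀ z ∈ ball (0 : E d) δ,
    ENNReal.ofReal (Real.exp (-(A + η) * t)) ≤
      volume {w ∈ ball (0 : E e) ρ | Φ (z, w) ∈ F.Sub M (τ + η) t}

def SlabS : Prop := ∀ (n : ℕ) (L : Loc n), L.Hyp → ∀ (F : L.Flt) (d e : ℕ)
  (Φ : E d × E e → E n) (D : (E d × E e) ≃L[ℂ] E n) (A τ : ℝ), AnalyticAt ℂ Φ 0 →
  HasFDerivAt Φ (D : E d × E e →L[ℂ] E n) 0 → Φ 0 ∈ ball (0 : E n) 1 → 0 ≤ A →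
  (∀ m i, τ * (m + 1) ≤ F.a m i) →
  (∀ᶠ z in 𝓝 (0 : E d), ∀ lam, 0 < lam → F.LeL (Φ (z, 0)) lam (A + lam * τ)) →
  ∀ (M : ℕ) (ε η : ℝ), 0 < ε → 0 < η → ∀ U ∈ 𝓝 (0 : E d × E e), ∀ᶠ t : ℝ in atTop,
    ENNReal.ofReal (Real.exp (-(A + ε * d + η) * t)) ≤
      volume (Φ '' {p ∈ U | ‖p.1‖ ^ 2 ≤ Real.exp (-ε * t) ∧ Φ p ∈ F.Sub M (τ + η) t})

/-- pointwise estimate on the slab -/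
def PtwS : Prop := ∀ (n : ℕ) (L : Loc n) (F : L.Flt) (lam θ ℓ τ : ℝ) (v : (E n → ℂ) → ℝ),
  F.Val lam θ ℓ τ v → ∀ (η : ℝ) (q d e M : ℕ) (γ : ℝ) (y : E n) (P : L.Pert v η q d e M γ y)
    (ε : ℝ), 0 < ε → ε * d * M ≤ γ → ∀ M₁ : ℕ, ∃ M₂ : ℕ, ∃ U ∈ 𝓝 (0 : E d × E e),
    ∀ ζ : ℝ, 0 < ζ → ∀ᶠ t : ℝ in atTop, ∀ p ∈ U, ‖p.1‖ ^ 2 ≤ Real.exp (-ε * t) →
      P.Φ p ∈ F.Sub M₂ (τ + ζ) t → P.Φ p ∈ (P.flt F τ ε).Sub M₁ (τ + (M₂ + 1) * ζ) t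

def F5a : Prop := ∀ (n : ℕ) (L : Loc n), L.Hyp → ∀ (F : L.Flt) (lam θ ℓ τ : ℝ)
  (v : (E n → ℂ) → ℝ), 0 < lam → F.Val lam θ ℓ τ v →
  ∀ (η : ℝ) (q d e M : ℕ) (γ : ℝ) (y : E n) (P : L.Pert v η q d e M γ y) (ε : ℝ),
  y ∈ ball (0 : E n) 1 → 0 < ε → ε * d * M ≤ γ → (P.flt F τ ε).LeL y lam (ℓ + ε * d)

def F5c : Prop := ∀ (n : ℕ) (L : Loc n), L.Hyp → ∀ (F : L.Flt) (lam θ ℓ τ : ℝ)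
  (v : (E n → ℂ) → ℝ), 0 < lam → 0 < θ → F.Val lam θ ℓ τ v →
  ∀ (η : ℝ) (q d e M : ℕ) (γ D₀ : ℝ), 0 < γ →
  (∀ r, 0 < r → ∃ y ∈ ball (0 : E n) r, ∃ P : L.Pert v η q d e M γ y,
    D₀ ≤ ∑ m ∈ Finset.range M, Real.exp (-τ * (m + 1)) *
      ∑ i, Real.exp (-v (P.s (m + 1) i)) * min (P.u (m + 1) i : ℝ) (d * (m + 1))) →
  θ * D₀ ≤ d * F.Xi

def F5b : Prop := ∀ (n : ℕ) (L : Loc n), L.Hyp → ∀ (F : L.Flt) (lam θ ℓ τ : ℝ)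
  (v : (E n → ℂ) → ℝ), 0 < lam → 0 < θ → 0 < τ → F.Val lam θ ℓ τ v →
  ∀ (η : ℝ) (q d e : ℕ), 1 ≤ q → 1 ≤ d → (∀ M : ℕ, ∃ γ : ℝ, 0 < γ ∧ ∀ r : ℝ, 0 < r →
    ∃ y ∈ ball (0 : E n) r, Nonempty (L.Pert v η q d e M γ y)) →
  θ * ((1 - η) * q / (Real.exp (τ * q) - 1) - 1) ≤ 1

def ShiftS : Prop := ∀ (n : ℕ) (L : Loc n) (F : L.Flt) (lam θ ℓ τ C : ℝ), 0 < θ → 0 < τ →
  F.IsMin lam θ ℓ → 0 < F.Xi → (∀ m i, τ * (m + 1) ≤ F.a m i) →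
  (∀ m, (L.h (m + 1) : ℝ) ≤ C * (m + 1) ^ n) → lam * F.Xi ≤ θ * ∑' m : ℕ, (m + 1) * F.W m

/-! ### jets -/

def CardS : Prop := (∀ n i, (MonE (n + 1) i).card = (i + n).choose n) ∧
  ∀ n j, (MonL n j).card = (j + n).choose n

def PolyS : Prop := ∀ (n j : ℕ) (c : (Fin n → ℕ) → ℂ),
  Ord (0 : E n) (j + 1) (∑ β ∈ MonL n j, c β • mon β) → ∀ β ∈ MonL n j, c β = 0

def InS : Prop := ∀ (n i : ℕ) (f : E n → ℂ), AnalyticAt ℂ f 0 → Ord 0 i f →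
  ∃ P ∈ Hom n i, Ord 0 (i + 1) (f - P)

def HomL : Prop := ∀ (n i r : ℕ) (l : E (n + 1)), l ≠ 0 → r ≤ i →
  Module.finrank ℂ ↥(Hom (n + 1) i ⊓ OrdS l (r + 1)) + (r + n).choose n ≤ (i + n).choose n

def LimS : Prop := ∀ (n i r : ℕ) (f P : E n → ℂ) (y : ℕ → E n) (l : E n),
  AnalyticOnNhd ℂ f (ball 0 2) → P ∈ Hom n i → Ord 0 (i + 1) (f - P) → (∀ k, y k ≠ 0) →
  Tendsto y atTop (𝓝 0) → Tendsto (fun k => ((‖y k‖⁻¹ : ℝ) : ℂ) • y k) atTop (𝓝 l) →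
  (∀ k, Ord (y k) r f) → Ord l r P

def Jet1 : Prop := ∀ (n i : ℕ) (W : Submodule ℂ (E (n + 1) → ℂ)) [FiniteDimensional ℂ W],
  (∀ s ∈ W, AnalyticAt ℂ s 0) → Module.finrank ℂ ↥(W ⊓ OrdS 0 i) ≤
    Module.finrank ℂ ↥(W ⊓ OrdS 0 (i + 1)) + (i + n).choose n

def Jet2 : Prop := ∀ (n i j r : ℕ) (W : Submodule ℂ (E (n + 1) → ℂ)) [FiniteDimensional ℂ W],
  (∀ s ∈ W, AnalyticOnNhd ℂ s (ball 0 2)) → j ≤ i → r ≤ i →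
  (∃ᶠ y in 𝓝[≠] (0 : E (n + 1)), ∀ s ∈ W, Ord 0 j s → Ord y (r + 1) s) →
  Module.finrank ℂ ↥(W ⊓ OrdS 0 i) + (r + n).choose n ≤
    Module.finrank ℂ ↥(W ⊓ OrdS 0 (i + 1)) + (i + n).choose n

def JetS : Prop := ∀ (n : ℕ) (L : Loc n), L.Hyp → ∃ ε₀ : ℝ, 0 < ε₀ ∧ ε₀ ≤ 1 ∧
  ∀ᶠ m : ℕ in atTop, ∀ j : ℕ, (j : ℝ) ≤ ε₀ * m →
    Module.finrank ℂ ↥(L.V m ⊓ OrdS 0 (j + 1)) + (j + n).choose n ≤ L.h m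

def F0a : Prop := ∀ (n : ℕ) (L : Loc n), 1 ≤ n → L.Hyp → ∀ m j r : ℕ, 1 ≤ m →
  n * m < (n + 1) * j → n * r < j →
  ∃ᶠ y in 𝓝[≠] (0 : E n), ∀ s ∈ L.V m, Ord 0 j s → Ord y (r + 1) s

def F0n : Prop := ∀ n : ℕ, ∃ S η : ℝ, (n + 1 : ℝ) / (n + 2) < S ∧ S ≤ 1 ∧ 0 < η ∧
  ∀ᶠ m : ℕ in atTop, ∃ j r : ℕ, (n + 1) * m < (n + 2) * j ∧ (n + 1) * r < j ∧ ∀ D : ℕ → ℕ,
    (1 - η) * (m : ℝ) ^ (n + 1) / (n + 1).factorial ≤ D 0 →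
    (∀ i, D i ≤ D (i + 1) + (i + n).choose n) →
    (∀ i, j ≤ i → D i + (r + n).choose n ≤ D (i + 1) + (i + n).choose n) →
    S * m * D 0 ≤ ∑ i ∈ Finset.range m, (D (i + 1) : ℝ)

def OrdB : Prop := ∀ (n : ℕ) (L : Loc n), L.Hyp →
  ∃ (O : L.Flt) (o : ∀ m, Fin (L.h (m + 1)) → ℕ) (C : ℕ), (∀ m i, Ord 0 (o m i) (O.s m i)) ∧
    (∀ m i, o m i ≤ C * (m + 1)) ∧ ∀ m (r : ℕ), cntG (fun i => (o m i : ℝ)) r =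
      Module.finrank ℂ ↥(L.V (m + 1) ⊓ OrdS 0 r)

/-! ### numerics; the index `m` stands for the degree `m + 1` -/

def Wn {H : ℕ → ℕ} (v : ∀ m, Fin (H m) → ℝ) (m : ℕ) : ℝ := ∑ i, Real.exp (-v m i)

def Tn {H : ℕ → ℕ} (v : ∀ m, Fin (H m) → ℝ) (τ : ℝ) : ℝ :=
  ∑' m : ℕ, Real.exp (-τ * (m + 1)) * Wn v m

def En {H : ℕ → ℕ} (v : ∀ m, Fin (H m) → ℝ) (τ : ℝ) : ℝ :=
  ∑' m : ℕ, (m + 1) * (Real.exp (-τ * (m + 1)) * Wn v m)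

def Th (H : ℕ → ℕ) (τ : ℝ) : ℝ := ∑' m : ℕ, Real.exp (-τ * (m + 1)) * H m

def Gam {H : ℕ → ℕ} (v : ∀ m, Fin (H m) → ℝ) (a₀ : ℝ) (m : ℕ) : ℝ :=
  ∑ i, max (Real.exp (-a₀) - Real.exp (-v m i)) 0

structure NumC (n : ℕ) (H : ℕ → ℕ) (o : ∀ m, Fin (H m) → ℕ) (C S ε₀ : ℝ) (m₀ : ℕ) : Prop where
  hn : 1 ≤ n
  hC : 1 ≤ C
  Hle : ∀ m, (H m : ℝ) ≤ C * (m + 1) ^ n
  ole : ∀ m i, (o m i : ℝ) ≤ C * (m + 1)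
  hS : (n : ℝ) / (n + 1) < S
  hS1 : S ≤ 1
  oge : ∀ m, m₀ ≤ m → S * (m + 1) * H m ≤ ∑ i, (o m i : ℝ)
  hε : 0 < ε₀
  hε1 : ε₀ ≤ 1

structure NumD (n : ℕ) (H : ℕ → ℕ) (o : ∀ m, Fin (H m) → ℕ) (ε₀ : ℝ) (m₀ : ℕ)
    (lam θ A τ : ℝ) (v : ∀ m, Fin (H m) → ℝ) : Prop where
  A0 : 0 ≤ A
  v0 : ∀ m i, 0 ≤ v m i
  τ0 : 0 < τ
  jet : ∀ m, m₀ ≤ m → ∀ j : ℕ, (j : ℝ) ≤ ε₀ * (m + 1) → ∀ a, A * j < a →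
    (j + n).choose n ≤ cntL (v m) a
  test : ∀ s τ' : ℝ, 0 ≤ s → 0 < τ' → A + lam * τ + θ * Real.log (Tn v τ) ≤
    n * s + lam * τ' + θ * Real.log (Tn (fun m i => s * o m i) τ')

def Gr (n : ℕ) (H : ℕ → ℕ) (v : ∀ m, Fin (H m) → ℝ) (η : ℝ) (q m : ℕ) : Prop :=
  (H (m + q) : ℝ) ≤ (1 + (1 + η) * n * q / (m + 1)) * H m ∧ ∀ a, 0 < a → cntG (v m) a ≠ 0 →
    (cntG (v m) a : ℝ) ^ (1 / n : ℝ) + (1 - η) * q / (m + 1) * (H m : ℝ) ^ (1 / n : ℝ)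
      ≤ (cntG (v (m + q)) a : ℝ) ^ (1 / n : ℝ)

def U2 : Prop := ∀ n H o C S ε₀ m₀, NumC n H o C S ε₀ m₀ → ∃ X c θ₀ : ℝ, 0 < X ∧ 0 < c ∧ 0 < θ₀ ∧
  ∀ (lam θ A τ : ℝ) v, 1 ≤ lam → lam ≤ n + 1 → 0 < θ → θ < θ₀ → NumD n H o ε₀ m₀ lam θ A τ v →
    A ≤ X * θ ∧ τ ≤ X * θ ∧ c / θ ^ (n + 1) ≤ Tn v τ

def U3 : Prop := ∀ n H o C S ε₀ m₀, NumC n H o C S ε₀ m₀ → ∀ c : ℝ, 0 < c →
  ∃ β lam₀ θ₀ : ℝ, 0 < β ∧ 1 ≤ lam₀ ∧ lam₀ < n + 1 ∧ 0 < θ₀ ∧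
  ∀ lam θ A τ v, lam₀ ≤ lam → 0 < θ → θ < θ₀ → NumD n H o ε₀ m₀ lam θ A τ v →
    θ / 4 ≤ τ → c / θ ^ (n + 1) ≤ Tn v τ → Tn v τ ≤ Real.exp (-β) * Th H τ

def U4 : Prop := ∀ n H o C S ε₀ m₀, NumC n H o C S ε₀ m₀ → ∀ X c β : ℝ, 0 < X → 0 < c → 0 < β →
  ∃ a₀ κ K g : ℝ, 0 < a₀ ∧ 0 < κ ∧ 0 < K ∧ 0 < g ∧ ∀ m₃ : ℕ, ∃ θ₀ : ℝ, 0 < θ₀ ∧
  ∀ lam θ A τ v, 0 < θ → θ < θ₀ → NumD n H o ε₀ m₀ lam θ A τ v → A ≤ X * θ → θ / 4 ≤ τ →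
    c / θ ^ (n + 1) ≤ Tn v τ → Tn v τ ≤ Real.exp (-β) * Th H τ →
    (∀ m, m₀ ≤ m → m < ⌊K / θ⌋₊ → ∀ a, a₀ ≤ a → (cntG (v m) a : ℝ) * (1 + κ) ^ n ≤ H m) ∧
    g * Tn v τ ≤ ∑ m ∈ Finset.Ico m₃ ⌊K / θ⌋₊, Real.exp (-τ * (m + 1)) * Gam v a₀ m

def U5a : Prop := ∀ (n : ℕ) (H : ℕ → ℕ) (v : ∀ m, Fin (H m) → ℝ) (η a₀ κ : ℝ) (q m : ℕ),
  1 ≤ n → 0 < η → η < 1 → 0 < a₀ → 0 ≤ κ → (∀ m i, 0 ≤ v m i) → Gr n H v η q m →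
  (∀ a, a₀ ≤ a → (cntG (v m) a : ℝ) * (1 + κ) ^ n ≤ H m) →
  Wn v (m + q) - Wn v m ≤ n * q / (m + 1) * (Wn v m + 2 * η * H m - (1 - η) * κ * Gam v a₀ m)

def U5b : Prop := ∀ (n : ℕ) (H : ℕ → ℕ) (v : ∀ m, Fin (H m) → ℝ) (G : ℕ → ℝ) (C η τ g : ℝ)
  (q m₃ m₄ : ℕ), 1 ≤ q → 0 < τ → 0 ≤ η → 0 ≤ C → (∀ m, (H m : ℝ) ≤ C * (m + 1) ^ n) →
  (∀ m i, 0 ≤ v m i) → (∀ m, 0 ≤ G m) →
  (∀ m, m₃ ≤ m → Wn v (m + q) - Wn v m ≤ n * q / (m + 1) * (Wn v m + 2 * η * H m - G m)) →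
  g ≤ ∑ m ∈ Finset.Ico m₃ m₄, Real.exp (-τ * (m + 1)) * G m →
  τ * En v τ ≤ Real.exp (τ * q) * (Tn v τ + C * (m₃ + q + 1) ^ (n + 2))
    + n * (Tn v τ + 2 * η * Th H τ - g)

def NumS : Prop := ∀ n H o C S ε₀ m₀, NumC n H o C S ε₀ m₀ → ∃ lam η : ℝ, 1 ≤ lam ∧
  lam < n + 1 ∧ 0 < η ∧ ∀ q q' m₁ : ℕ, 1 ≤ q → 1 ≤ q' → ∃ θ₀ : ℝ, 0 < θ₀ ∧
  ∀ θ A τ v, 0 < θ → θ < θ₀ → NumD n H o ε₀ m₀ lam θ A τ v →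
    θ * ((1 - η) * q / (Real.exp (τ * q) - 1) - 1) ≤ 1 → lam * Tn v τ ≤ θ * En v τ →
    (∀ m, m₁ ≤ m → Gr n H v η q' m) → False

/-- the fixed data -/
def F0S : Prop := ∀ (n : ℕ) (L : Loc n), 1 ≤ n → L.Hyp →
  ∃ (O : L.Flt) (o : ∀ m, Fin (L.h (m + 1)) → ℕ) (C S ε₀ : ℝ) (m₀ : ℕ),
    (∀ m i, Ord 0 (o m i) (O.s m i)) ∧ NumC n (fun m => L.h (m + 1)) o C S ε₀ m₀ ∧
    ∀ m, m₀ ≤ m → ∀ j : ℕ, (j : ℝ) ≤ ε₀ * (m + 1) →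
      Module.finrank ℂ ↥(L.V (m + 1) ⊓ OrdS 0 (j + 1)) + (j + n).choose n ≤ L.h (m + 1)

/-- the minimiser satisfies the hypotheses of the numerical part -/
def NumIn : Prop := ∀ (n : ℕ) (L : Loc n) (F O : L.Flt) (o : ∀ m, Fin (L.h (m + 1)) → ℕ)
  (C S ε₀ : ℝ) (m₀ : ℕ) (lam θ ℓ τ : ℝ) (v : (E n → ℂ) → ℝ), 0 < lam → F.Val lam θ ℓ τ v →
  (∀ m i, Ord 0 (o m i) (O.s m i)) → NumC n (fun m => L.h (m + 1)) o C S ε₀ m₀ →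
  (∀ m, m₀ ≤ m → ∀ j : ℕ, (j : ℝ) ≤ ε₀ * (m + 1) →
    Module.finrank ℂ ↥(L.V (m + 1) ⊓ OrdS 0 (j + 1)) + (j + n).choose n ≤ L.h (m + 1)) →
  NumD n (fun m => L.h (m + 1)) o ε₀ m₀ lam θ (ℓ - lam * τ) τ (fun m i => v (F.s m i))

def GrIn : Prop := ∀ (n : ℕ) (L : Loc n), L.Hyp → ∀ η : ℝ, 0 < η → ∃ q m₁ : ℕ, 1 ≤ q ∧
  ∀ (F : L.Flt) (lam θ ℓ τ : ℝ) (v : (E n → ℂ) → ℝ), F.Val lam θ ℓ τ v →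
    ∀ m, m₁ ≤ m → Gr n (fun m => L.h (m + 1)) (fun m i => v (F.s m i)) η q m

end Fuj
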