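import Vale.Agent.P271.FBasic

/-! Problem P271, part F: the test filtrations given by the order of vanishing. -/

open MeasureTheory Set Filter Topology Metric

noncomputable section
namespace Fuj

theorem fTest : TestS := by
  intro n L O o ho lam s τ hl hs
  refine Loc.Flt.leL_of_vol _ hl.le fun M U hU ε T hε => ?_
  choose c hc0 hc using fun j : L.Ix M => (ho j.1 j.2).bound
  obtain ⟨C, hC⟩ : ∃ C, C = ∑ j, c j := ⟨_, rfl⟩
  have hcC : ∀ j, c j ≤ C := fun j =>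
    hC ▸ Finset.single_le_sum (fun i _ => (hc0 i).le) (Finset.mem_univ j)
  obtain ⟨ρ', hρ', hb⟩ := Metric.mem_nhds_iff.1 (inter_mem hU (eventually_all.2 hc))
  obtain ⟨ρ, hρ⟩ : ∃ ρ, ρ = min ρ' 1 := ⟨_, rfl⟩
  have hρ0 : 0 < ρ := hρ ▸ lt_min hρ' one_pos
  have hρ1 : ρ ≤ 1 := hρ ▸ min_le_right _ _
  have hρ2 : ρ ≤ ρ' := hρ ▸ min_le_left _ _
  obtain ⟨e, he⟩ : ∃ e, e = ε / (2 * lam) := ⟨_, rfl⟩
  have he0 : 0 < e := by rw [he]; positivity
  have hP : 0 < (Real.pi * ρ ^ 2) ^ n := by have := Real.pi_pos; positivity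
  obtain ⟨t, ht⟩ : ∃ t, t = max (max T 0) (max (C ^ 2 / e) (2 / (ε * (Real.pi * ρ ^ 2) ^ n))) :=
    ⟨_, rfl⟩
  have t1 : T ≤ t := ht ▸ (le_max_left _ _).trans (le_max_left _ _)
  have t0 : 0 ≤ t := ht ▸ (le_max_right _ _).trans (le_max_left _ _)
  have t2 : C ^ 2 / e ≤ t := ht ▸ (le_max_left _ _).trans (le_max_right _ _)
  have t3 : 2 / (ε * (Real.pi * ρ ^ 2) ^ n) ≤ t :=
    ht ▸ (le_max_right _ _).trans (le_max_right _ _)
  rw [div_le_iff₀ he0] at t2
  rw [div_le_iff₀ (by positivity)] at t3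
  have hx0 := Real.exp_pos (-(s * t / 2))
  have hx1 : Real.exp (-(s * t / 2)) ≤ 1 :=
    Real.exp_le_one_iff.2 (by linarith [mul_nonneg hs t0])
  have hx2 : Real.exp (-(s * t / 2)) ^ 2 = Real.exp (-(s * t)) := by
    rw [← Real.exp_nat_mul]; congr 1; push_cast; ring
  refine ⟨t, τ + e, t1, le_trans ?_
    (measure_mono (s := ball (0 : E n) (ρ * Real.exp (-(s * t / 2)))) fun p hp => ?_)⟩
  · rw [vol_ball _ (by positivity), mul_pow ρ, hx2, ← mul_assoc, mul_pow, ← Real.exp_nat_mul]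
    refine ENNReal.ofReal_le_ofReal ?_
    have e1 : n * -(s * t) = ε / 2 * t + -(n * s + lam * τ + ε - lam * (τ + e)) * t := by
      rw [he]; field_simp; ring
    rw [e1, Real.exp_add, ← mul_assoc]
    refine le_mul_of_one_le_left (Real.exp_pos _).le ?_
    have := mul_le_mul_of_nonneg_left (Real.add_one_le_exp (ε / 2 * t)) hP.le
    linarith
  · have hp1 : ‖p‖ ≤ ρ * Real.exp (-(s * t / 2)) := (mem_ball_zero_iff.1 hp).le
    have hp2 := hb (ball_subset_ball ((mul_le_of_le_one_right hρ0.le hx1).trans hρ2) hp)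
    refine ⟨hp2.1, fun m hm i => ?_⟩
    have h1 : ‖O.s m i p‖ ≤ c ⟨⟨m, hm⟩, i⟩ * ‖p - 0‖ ^ o m i := hp2.2 ⟨⟨m, hm⟩, i⟩
    have hC0 : 0 ≤ C := (hc0 ⟨⟨m, hm⟩, i⟩).le.trans (hcC _)
    have h2 : ‖O.s m i p‖ ≤ C * Real.exp (-(s * t / 2)) ^ o m i := by
      refine h1.trans (mul_le_mul (hcC _) ?_ (by positivity) hC0)
      rw [sub_zero]
      exact pow_le_pow_left₀ (norm_nonneg _) (hp1.trans (mul_le_of_le_one_left hx0.le hρ1)) _
    have h3 : C ^ 2 ≤ Real.exp ((m + 1) * e * t) := by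
      have a1 := Real.add_one_le_exp ((m + 1) * e * t)
      have a2 : 0 ≤ (m : ℝ) * e * t := by positivity
      linarith
    calc ‖O.s m i p‖ ^ 2 * Real.exp ((s * o m i + τ * (m + 1)) * t)
        ≤ (C * Real.exp (-(s * t / 2)) ^ o m i) ^ 2 * Real.exp ((s * o m i + τ * (m + 1)) * t) := by
          gcongr
      _ = C ^ 2 * Real.exp (τ * (m + 1) * t) := by
          rw [mul_pow, ← pow_mul, mul_comm (o m i), pow_mul, hx2, ← Real.exp_nat_mul, mul_assoc,
            ← Real.exp_add]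
          congr 2; ring
      _ ≤ Real.exp ((m + 1) * e * t) * Real.exp (τ * (m + 1) * t) := by gcongr
      _ = _ := by rw [← Real.exp_add]; congr 1; ring

end Fuj
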