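import Vale.Agent.P271.FBasic

/-! The first numerical bound. -/

namespace Fuj

namespace FU2X

variable {n m₀ : ℕ} {H : ℕ → ℕ} {o : ∀ m, Fin (H m) → ℕ} {C S ε₀ lam θ A τ : ℝ}
  {v : ∀ m, Fin (H m) → ℝ}

theorem term_le (hC : NumC n H o C S ε₀ m₀) (hv : ∀ m i, 0 ≤ v m i) (τ : ℝ) (m : ℕ) :
    Real.exp (-τ * (m + 1)) * Wn v m ≤ C * (((m : ℝ) + 1) ^ n * Real.exp (-τ * (m + 1))) := by
  have := mul_le_mul_of_nonneg_left ((Wn_le hv m).trans (hC.Hle m))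
    (Real.exp_pos (-τ * (m + 1))).le
  linarith

theorem term_nonneg (v : ∀ m, Fin (H m) → ℝ) (τ : ℝ) (m : ℕ) :
    0 ≤ Real.exp (-τ * (m + 1)) * Wn v m := mul_nonneg (Real.exp_pos _).le (Wn_nonneg v m)

theorem summ (hC : NumC n H o C S ε₀ m₀) (hv : ∀ m i, 0 ≤ v m i) (hτ : 0 < τ) :
    Summable fun m : ℕ => Real.exp (-τ * (m + 1)) * Wn v m :=
  Summable.of_nonneg_of_le (term_nonneg v τ) (term_le hC hv τ)
    ((summable_pow_exp n hτ).mul_left C)

theorem up (hC : NumC n H o C S ε₀ m₀) (hD : NumD n H o ε₀ m₀ lam θ A τ v) (hθ : 0 < θ)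
    (hθ1 : θ ≤ 1) : A + lam * τ + θ * Real.log (Tn v τ) ≤
      lam * θ + θ * (Real.log (C * n.factorial * 2 ^ (n + 1)) - (n + 1) * Real.log θ) := by
  have h := hD.test 0 θ le_rfl hθ
  have C1 := hC.hC
  have f1 : (1 : ℝ) ≤ n.factorial := by exact_mod_cast n.factorial_pos
  have hv : ∀ m i, 0 ≤ (0 : ℝ) * (o m i : ℝ) := fun _ _ => by simp
  have h1 : Tn (fun m i => (0 : ℝ) * o m i) θ ≤ C * (n.factorial * (2 / θ) ^ (n + 1)) := by
    refine ((summ hC hv hθ).tsum_le_tsum (term_le hC hv θ)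
      ((summable_pow_exp n hθ).mul_left C)).trans ?_
    rw [tsum_mul_left]
    exact mul_le_mul_of_nonneg_left (tsum_pow_exp_le n hθ) (by linarith)
  have h2 : Real.log (Tn (fun m i => (0 : ℝ) * o m i) θ) ≤
      Real.log (C * (n.factorial * (2 / θ) ^ (n + 1))) := by
    have h00 : 0 ≤ Tn (fun m i => (0 : ℝ) * o m i) θ := tsum_nonneg (term_nonneg _ θ)
    rcases h00.eq_or_lt with h0 | h0
    · rw [← h0, Real.log_zero]
      exact Real.log_nonneg (one_le_mul_of_one_le_of_one_le C1 (one_le_mul_of_one_le_of_one_le f1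
        (one_le_pow₀ ((one_le_div hθ).2 (by linarith)))))
    · exact Real.log_le_log h0 h1
  rw [div_pow, ← mul_div_assoc, ← mul_div_assoc, ← mul_assoc,
    Real.log_div (by positivity) (by positivity), Real.log_pow θ] at h2
  push_cast at h2
  linarith [mul_le_mul_of_nonneg_left h2 hθ.le]

theorem low (hD : NumD n H o ε₀ m₀ lam θ A τ v) {m j : ℕ} (hm : m₀ ≤ m)
    (hj : (j : ℝ) ≤ ε₀ * (m + 1)) :
    Real.exp (-(A * j + 1)) * (((j : ℝ) + 1) ^ n / n.factorial) ≤ Wn v m := by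
  classical
  have h1 : (((j + n).choose n : ℕ) : ℝ) ≤ cntL (v m) (A * j + 1) := by
    exact_mod_cast hD.jet m hm j hj _ (lt_add_one _)
  have h2 : ((j : ℝ) + 1) ^ n / n.factorial ≤ ((j + n).choose n : ℕ) := by
    have := Nat.pow_le_choose (α := ℝ) n (j + n)
    rwa [show j + n + 1 - n = j + 1 by omega, Nat.cast_add_one] at this
  refine (mul_le_mul_of_nonneg_left (h2.trans h1) (Real.exp_pos _).le).trans ?_
  rw [cntL, mul_comm, ← nsmul_eq_mul]
  refine (Finset.card_nsmul_le_sum _ (fun i => Real.exp (-v m i)) _ fun i hi => ?_).trans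
    (Finset.sum_le_sum_of_subset_of_nonneg (Finset.subset_univ _) fun _ _ _ => (Real.exp_pos _).le)
  exact Real.exp_le_exp.2 (neg_le_neg (Finset.mem_filter.1 hi).2.le)

theorem step1 (hC : NumC n H o C S ε₀ m₀) (hD : NumD n H o ε₀ m₀ lam θ A τ v) :
    -τ * (m₀ + 1) - ((n : ℝ) * n + 1) ≤ Real.log (Tn v τ) := by
  have h := low hD (j := 0) le_rfl (by have := hC.hε; rw [Nat.cast_zero]; positivity)
  have h1 := (summ hC hD.v0 hD.τ0).le_tsum m₀ fun m _ => term_nonneg v τ m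
  have f1 : (n.factorial : ℝ) ≤ Real.exp (n * n) := by
    rw [Real.exp_nat_mul]
    refine le_trans (by exact_mod_cast n.factorial_le_pow) (pow_le_pow_left₀ n.cast_nonneg ?_ n)
    linarith [Real.add_one_le_exp (n : ℝ)]
  have f0 : (0 : ℝ) < n.factorial := by positivity
  have h2 : Real.exp (-((n : ℝ) * n + 1)) ≤ Wn v m₀ := by
    refine le_trans ?_ h
    simp only [Nat.cast_zero, mul_zero, zero_add, one_pow]
    rw [neg_add, Real.exp_add, mul_comm, Real.exp_neg (n * n), one_div]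
    gcongr
  refine (Real.le_log_iff_exp_le ?_).2 ?_
  · exact lt_of_lt_of_le (mul_pos (Real.exp_pos _) ((Real.exp_pos _).trans_le h2)) h1
  · rw [sub_eq_add_neg, Real.exp_add]
    exact (mul_le_mul_of_nonneg_left h2 (Real.exp_pos _).le).trans h1

theorem step2 (hC : NumC n H o C S ε₀ m₀) (hD : NumD n H o ε₀ m₀ lam θ A τ v) {μ : ℝ}
    (hA : A ≤ μ) (hτ : τ ≤ μ) (hμ : μ * (m₀ + 1) ≤ 1) :
    Real.exp (-7) * ε₀ ^ n / n.factorial / μ ^ (n + 1) ≤ Tn v τ := by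
  have μ0 : 0 < μ := hD.τ0.trans_le hτ
  have e0 := hC.hε
  obtain ⟨k, k1, k2⟩ : ∃ k : ℕ, 1 ≤ μ * k ∧ μ * k ≤ 2 := by
    refine ⟨⌈1 / μ⌉₊, ?_, ?_⟩
    · have := Nat.le_ceil (1 / μ)
      rwa [div_le_iff₀' μ0] at this
    · have h := mul_le_mul_of_nonneg_left (Nat.ceil_lt_add_one (one_div_pos.2 μ0).le).le μ0.le
      rw [mul_add, mul_one_div_cancel μ0.ne'] at h
      nlinarith [mul_nonneg μ0.le (Nat.cast_nonneg (α := ℝ) m₀)]
  have km : m₀ ≤ k := by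
    have : (m₀ : ℝ) ≤ k := le_of_mul_le_mul_left (by linarith) μ0
    exact_mod_cast this
  have j1 : ((⌊ε₀ * k⌋₊ : ℕ) : ℝ) ≤ ε₀ * k := Nat.floor_le (by positivity)
  have j2 := (Nat.lt_floor_add_one (ε₀ * k)).le
  have j3 : A * (⌊ε₀ * k⌋₊ : ℕ) ≤ 2 :=
    (mul_le_mul hA (j1.trans (mul_le_of_le_one_left k.cast_nonneg hC.hε1)) (Nat.cast_nonneg _)
      μ0.le).trans k2
  have key : ∀ m ∈ Finset.Ico k (2 * k), Real.exp (-7) * ((ε₀ * k) ^ n / n.factorial) ≤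
      Real.exp (-τ * (m + 1)) * Wn v m := fun m hm => by
    obtain ⟨m1, m2⟩ := Finset.mem_Ico.1 hm
    have m3 : (k : ℝ) ≤ m + 1 := by exact_mod_cast m1.trans m.le_succ
    have m4 : (m : ℝ) + 1 ≤ 2 * k := by exact_mod_cast m2
    have h := low hD (km.trans m1) (j1.trans (mul_le_mul_of_nonneg_left m3 e0.le))
    have h1 : τ * (m + 1) ≤ μ * (2 * k) := mul_le_mul hτ m4 (by positivity) μ0.le
    refine le_trans ?_ (mul_le_mul_of_nonneg_left h (Real.exp_pos _).le)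
    rw [← mul_assoc, ← Real.exp_add]
    gcongr
    linarith
  have h := Finset.card_nsmul_le_sum _ _ _ key
  rw [Nat.card_Ico, show 2 * k - k = k by omega, nsmul_eq_mul] at h
  refine le_trans ?_ (h.trans ((summ hC hD.v0 hD.τ0).sum_le_tsum _ fun m _ => term_nonneg v τ m))
  rw [div_le_iff₀ (by positivity)]
  refine (le_mul_of_one_le_right (by positivity) (one_le_pow₀ (n := n + 1) k1)).trans (le_of_eq ?_)
  ring

end FU2X

open FU2X in
theorem fU2R (n : ℕ) (H : ℕ → ℕ) (o : ∀ m, Fin (H m) → ℕ) (C S ε₀ : ℝ) (m₀ : ℕ)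
    (hC : NumC n H o C S ε₀ m₀) : ∃ X c θ₀ : ℝ, 0 < X ∧ 0 < c ∧ 0 < θ₀ ∧
    ∀ (lam θ A τ : ℝ) v, 1 ≤ lam → lam ≤ n + 1 → 0 < θ → θ < θ₀ →
      NumD n H o ε₀ m₀ lam θ A τ v → A ≤ X * θ ∧ τ ≤ X * θ ∧ c / θ ^ (n + 1) ≤ Tn v τ := by
  obtain ⟨L₁, hL₁⟩ : ∃ L, L = Real.log (C * n.factorial * 2 ^ (n + 1)) := ⟨_, rfl⟩
  obtain ⟨c₀, hc₀⟩ : ∃ c : ℝ, c = Real.exp (-7) * ε₀ ^ n / n.factorial := ⟨_, rfl⟩
  have c0 : 0 < c₀ := by have := hC.hε; rw [hc₀]; positivity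
  obtain ⟨X, X0, hX⟩ : ∃ X : ℝ, 0 < X ∧
      2 * (n + 2 + (L₁ - Real.log c₀) + (n + 1) * Real.log (2 * (n + 1))) ≤ X :=
    ⟨|_| + 1, by positivity, (le_abs_self _).trans (le_add_of_nonneg_right zero_le_one)⟩
  have hg : ContinuousAt (fun θ : ℝ => (2 * (θ * (n + 1 + L₁ + (n * n + 1)) -
      (n + 1) * (θ * Real.log θ)) + θ) * (m₀ + 1)) 0 := by
    have := Real.continuous_mul_log
    fun_prop
  obtain ⟨δ, hδ, hδ'⟩ := Metric.eventually_nhds_iff.1
    (hg.eventually_lt continuousAt_const (show _ < (1 : ℝ) by simp))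
  refine ⟨X, c₀ / X ^ (n + 1), min δ (1 / (2 * (m₀ + 1))), X0, by positivity, by positivity,
    fun lam θ A τ v l1 l2 θ0 hθ hD => ?_⟩
  have t1 : θ * (2 * (m₀ + 1)) ≤ 1 := (le_div_iff₀ (by positivity)).1 (hθ.le.trans (min_le_right _ _))
  have t2 : θ ≤ 1 := by nlinarith [mul_nonneg θ0.le (Nat.cast_nonneg (α := ℝ) m₀)]
  have t3 := hδ' (y := θ) (by simpa [abs_of_pos θ0] using hθ.trans_le (min_le_left _ _))
  have τ0 := hD.τ0
  have A0 := hD.A0
  have u := up hC hD θ0 t2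
  rw [← hL₁] at u
  have l3 : τ ≤ lam * τ := le_mul_of_one_le_left τ0.le l1
  have l4 := mul_le_mul_of_nonneg_right l2 θ0.le
  have s1 := mul_le_mul_of_nonneg_left (step1 hC hD) θ0.le
  have s2 := mul_le_mul_of_nonneg_left t1 τ0.le
  have hμ : (A + τ + θ) * (m₀ + 1) ≤ 1 :=
    (mul_le_mul_of_nonneg_right (by linarith) (by positivity)).trans t3.le
  have μ0 : 0 < A + τ + θ := by positivity
  have s3 := step2 hC hD (by linarith) (by linarith) hμ
  rw [← hc₀] at s3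
  have s4 := Real.log_le_log (by positivity) s3
  rw [Real.log_div c0.ne' (by positivity), Real.log_pow] at s4
  push_cast at s4
  have s5 := Real.log_le_sub_one_of_pos (show 0 < (A + τ + θ) / θ / (2 * (n + 1)) by positivity)
  rw [Real.log_div (by positivity) (by positivity), Real.log_div μ0.ne' θ0.ne'] at s5
  have s6 := mul_le_mul_of_nonneg_left s5 (show 0 ≤ θ * (n + 1) by positivity)
  have s7 : θ * (n + 1) * ((A + τ + θ) / θ / (2 * (n + 1)) - 1) =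
      (A + τ + θ) / 2 - θ * (n + 1) := by field_simp
  have s8 := mul_le_mul_of_nonneg_left s4 θ0.le
  have s9 := mul_le_mul_of_nonneg_right hX θ0.le
  have n0 : 0 ≤ θ * (n + 1) := by positivity
  have hm : A + τ + θ ≤ X * θ := by linarith
  refine ⟨by linarith, by linarith, le_trans ?_ s3⟩
  rw [div_div, ← mul_pow]
  gcongr

theorem fU2 : U2 := by
  intro n H o C S ε₀ m₀ hC
  obtain ⟨X, c, θ₀, h1, h2, h3, h⟩ := fU2R n H o C S ε₀ m₀ hC
  exact ⟨X, c, θ₀, h1, h2, h3, fun lam θ A τ v l1 l2 =>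
    h _ θ A τ v (by exact_mod_cast l1) (by exact_mod_cast l2)⟩

end Fuj
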