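import Vale.Agent.P271.FBasic

/-! Problem P271, part F: the numerical estimate U3. -/

open MeasureTheory Set Filter Topology Metric

noncomputable section
namespace Fuj.FU3X

theorem exp_neg_le {y : ℝ} (hy : 0 ≤ y) : Real.exp (-y) ≤ 1 - y + y ^ 2 := by
  have h1 := Real.add_one_le_exp y
  have h2 : Real.exp (-y) * Real.exp y = 1 := by rw [← Real.exp_add]; simp
  have h3 : 0 < Real.exp (-y) := Real.exp_pos _
  have h4 : Real.exp (-y) * (y + 1) ≤ 1 := by nlinarith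
  have h5 : 1 ≤ (1 - y + y ^ 2) * (y + 1) := by nlinarith [pow_nonneg hy 3]
  exact le_of_mul_le_mul_right (h4.trans h5) (by linarith)

theorem exp_mul_le (y : ℝ) : Real.exp y * (1 - y) ≤ 1 := by
  have h1 := Real.add_one_le_exp (-y)
  have h2 : Real.exp y * Real.exp (-y) = 1 := by rw [← Real.exp_add]; simp
  have h3 : 0 < Real.exp y := Real.exp_pos _
  nlinarith

variable {n : ℕ} {H : ℕ → ℕ} {o : ∀ m, Fin (H m) → ℕ} {C S ε₀ : ℝ} {m₀ : ℕ}

theorem summable_H (h : NumC n H o C S ε₀ m₀) {τ : ℝ} (hτ : 0 < τ) :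
    Summable fun m : ℕ => Real.exp (-τ * (m + 1)) * H m := by
  refine Summable.of_nonneg_of_le (fun m => by positivity) (fun m => ?_)
    ((summable_pow_exp n hτ).mul_left C)
  calc Real.exp (-τ * (m + 1)) * H m ≤ Real.exp (-τ * (m + 1)) * (C * (m + 1) ^ n) := by
        gcongr; exact h.Hle m
    _ = _ := by ring

theorem summable_W (h : NumC n H o C S ε₀ m₀) {τ : ℝ} (hτ : 0 < τ) {v : ∀ m, Fin (H m) → ℝ}
    (hv : ∀ m i, 0 ≤ v m i) : Summable fun m : ℕ => Real.exp (-τ * (m + 1)) * Wn v m :=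
  Summable.of_nonneg_of_le (fun m => mul_nonneg (Real.exp_pos _).le (Wn_nonneg v m))
    (fun m => mul_le_mul_of_nonneg_left (Wn_le hv m) (Real.exp_pos _).le) (summable_H h hτ)

theorem Tn_le_Th (h : NumC n H o C S ε₀ m₀) {τ : ℝ} (hτ : 0 < τ) {v : ∀ m, Fin (H m) → ℝ}
    (hv : ∀ m i, 0 ≤ v m i) : Tn v τ ≤ Th H τ :=
  (summable_W h hτ hv).tsum_le_tsum
    (fun m => mul_le_mul_of_nonneg_left (Wn_le hv m) (Real.exp_pos _).le) (summable_H h hτ)

theorem Tn_pos (h : NumC n H o C S ε₀ m₀) {τ τ' : ℝ} (hτ' : 0 < τ')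
    {v v' : ∀ m, Fin (H m) → ℝ} (hv' : ∀ m i, 0 ≤ v' m i) (h0 : 0 < Tn v τ) : 0 < Tn v' τ' := by
  obtain ⟨m, hm⟩ : ∃ m, H m ≠ 0 := by
    by_contra hc
    push Not at hc
    have : ∀ m, Wn v m = 0 := fun m => by
      have : IsEmpty (Fin (H m)) := by rw [hc m]; infer_instance
      simp [Wn]
    simp [Tn, this] at h0
  refine (summable_W h hτ' hv').tsum_pos
    (fun m => mul_nonneg (Real.exp_pos _).le (Wn_nonneg v' m)) m (mul_pos (Real.exp_pos _) ?_)
  have : Nonempty (Fin (H m)) := ⟨⟨0, Nat.pos_of_ne_zero hm⟩⟩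
  exact Finset.sum_pos (fun _ _ => Real.exp_pos _) Finset.univ_nonempty

theorem W_le (h : NumC n H o C S ε₀ m₀) {s : ℝ} (hs : 0 ≤ s) {m : ℕ} (hm : m₀ ≤ m) :
    Wn (fun m i => s * o m i) m ≤ H m * (1 - s * (m + 1) * S + (s * (m + 1) * C) ^ 2) := by
  have h1 : Wn (fun m i => s * o m i) m ≤
      ∑ i : Fin (H m), (1 - s * o m i + (s * (m + 1) * C) ^ 2) := by
    refine Finset.sum_le_sum fun i _ => (exp_neg_le (by positivity)).trans ?_
    have h2 : s * o m i ≤ s * (m + 1) * C := by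
      have := mul_le_mul_of_nonneg_left (h.ole m i) hs
      linarith
    have h3 : (s * o m i) ^ 2 ≤ (s * (m + 1) * C) ^ 2 := by gcongr
    linarith
  rw [Finset.sum_add_distrib, Finset.sum_sub_distrib, ← Finset.mul_sum] at h1
  simp only [Finset.sum_const, Finset.card_univ, Fintype.card_fin, nsmul_eq_mul] at h1
  have h4 := mul_le_mul_of_nonneg_left (h.oge m hm) hs
  linarith

theorem term_le (h : NumC n H o C S ε₀ m₀) {s τ : ℝ} (hs : 0 ≤ s) (hτ : 0 < τ)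
    (hsτ : s * S ≤ τ / 2) (m : ℕ) :
    Real.exp (-(τ - s * S) * (m + 1)) * Wn (fun m i => s * o m i) m ≤
      Real.exp (-τ * (m + 1)) * H m +
        s ^ 2 * C ^ 3 * (((m : ℝ) + 1) ^ (n + 2) * Real.exp (-(τ / 2) * (m + 1))) +
        if m ∈ Finset.range m₀ then C * (m₀ : ℝ) ^ n else 0 := by
  have hC : 0 < C := lt_of_lt_of_le one_pos h.hC
  have hm1 : (0 : ℝ) < m + 1 := by positivity
  split_ifs with hm
  · have hm' : (m : ℝ) + 1 ≤ m₀ := by exact_mod_cast Finset.mem_range.1 hm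
    have h1 : Real.exp (-(τ - s * S) * (m + 1)) ≤ 1 := Real.exp_le_one_iff.2 (by nlinarith)
    have h2 : Wn (fun m i => s * o m i) m ≤ C * (m₀ : ℝ) ^ n :=
      (Wn_le (fun m i => by positivity) m).trans ((h.Hle m).trans (by gcongr))
    have h3 := mul_le_mul h1 h2 (Wn_nonneg _ _) zero_le_one
    have h4 : 0 ≤ Real.exp (-τ * (m + 1)) * H m +
      s ^ 2 * C ^ 3 * (((m : ℝ) + 1) ^ (n + 2) * Real.exp (-(τ / 2) * (m + 1))) := by positivity
    linarith
  · have hm' : m₀ ≤ m := not_lt.1 fun h' => hm (Finset.mem_range.2 h')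
    have e1 : Real.exp (-(τ - s * S) * (m + 1)) =
        Real.exp (-τ * (m + 1)) * Real.exp (s * (m + 1) * S) := by
      rw [← Real.exp_add]; congr 1; ring
    have h1 : Real.exp (-(τ - s * S) * (m + 1)) ≤ Real.exp (-(τ / 2) * (m + 1)) :=
      Real.exp_le_exp.2 (by nlinarith)
    have h2 := mul_le_mul_of_nonneg_left (W_le h hs hm')
      (Real.exp_pos (-(τ - s * S) * (m + 1))).le
    have h3 : Real.exp (-(τ - s * S) * (m + 1)) * (H m * (1 - s * (m + 1) * S)) ≤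
        Real.exp (-τ * (m + 1)) * H m := by
      have := mul_le_mul_of_nonneg_left (exp_mul_le (s * (m + 1) * S))
        (show 0 ≤ Real.exp (-τ * (m + 1)) * H m by positivity)
      rw [e1]
      linarith
    have h4 : Real.exp (-(τ - s * S) * (m + 1)) * (H m * (s * (m + 1) * C) ^ 2) ≤
        s ^ 2 * C ^ 3 * (((m : ℝ) + 1) ^ (n + 2) * Real.exp (-(τ / 2) * (m + 1))) := by
      calc _ ≤ Real.exp (-(τ / 2) * (m + 1)) * (C * (m + 1) ^ n * (s * (m + 1) * C) ^ 2) := by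
            gcongr; exact h.Hle m
        _ = _ := by ring
    linarith

theorem Tn_le (h : NumC n H o C S ε₀ m₀) {s τ : ℝ} (hs : 0 ≤ s) (hτ : 0 < τ)
    (hsτ : s * S ≤ τ / 2) :
    Tn (fun m i => s * o m i) (τ - s * S) ≤
      Th H τ + s ^ 2 * C ^ 3 * ((n + 2).factorial * (4 / τ) ^ (n + 3)) + C * (m₀ : ℝ) ^ (n + 1) := by
  have hC : 0 < C := lt_of_lt_of_le one_pos h.hC
  have s1 := summable_H h hτ
  have s2 := (summable_pow_exp (n + 2) (half_pos hτ)).mul_left (s ^ 2 * C ^ 3)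
  have s3 : HasSum (fun m : ℕ => if m ∈ Finset.range m₀ then C * (m₀ : ℝ) ^ n else 0)
      (C * (m₀ : ℝ) ^ (n + 1)) := by
    have := hasSum_sum_of_ne_finset_zero (L := SummationFilter.unconditional ℕ)
      (f := fun m : ℕ => if m ∈ Finset.range m₀ then C * (m₀ : ℝ) ^ n else 0)
      (s := Finset.range m₀) fun m hm => if_neg hm
    rwa [Finset.sum_congr rfl fun m hm => if_pos hm, Finset.sum_const, Finset.card_range,
      nsmul_eq_mul, mul_left_comm, ← pow_succ'] at this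
  have s0 := summable_W h (τ := τ - s * S) (by linarith) (v := fun m i => s * o m i)
    fun m i => by positivity
  refine (s0.tsum_le_tsum (term_le h hs hτ hsτ) ((s1.add s2).add s3.summable)).trans ?_
  rw [(s1.add s2).tsum_add s3.summable, s1.tsum_add s2, s3.tsum_eq, tsum_mul_left]
  have h1 := tsum_pow_exp_le (n + 2) (half_pos hτ)
  have e : 2 / (τ / 2) = 4 / τ := by field_simp; norm_num
  rw [e] at h1
  have h2 := mul_le_mul_of_nonneg_left h1 (show 0 ≤ s ^ 2 * C ^ 3 by positivity)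
  unfold Th
  linarith

theorem err_le {C c θ τ ζ T M : ℝ} (n : ℕ) (hC : 0 < C) (hc : 0 < c) (hθ : 0 < θ) (hθ1 : θ ≤ 1)
    (hτ : θ / 4 ≤ τ) (hM : 0 ≤ M) (hT : c / θ ^ (n + 1) ≤ T) :
    T + (ζ * θ) ^ 2 * C ^ 3 * ((n + 2).factorial * (4 / τ) ^ (n + 3)) + M ≤
      T * Real.exp (C ^ 3 * (n + 2).factorial * 16 ^ (n + 3) / c * ζ ^ 2 + M / c * θ) := by
  have hτ0 : 0 < τ := lt_of_lt_of_le (by positivity) hτ
  have hT0 : 0 < T := lt_of_lt_of_le (by positivity) hT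
  have h1 : 4 / τ ≤ 16 / θ := by
    rw [div_le_div_iff₀ hτ0 hθ]; linarith
  have h2 : (ζ * θ) ^ 2 * C ^ 3 * ((n + 2).factorial * (4 / τ) ^ (n + 3)) ≤
      T * (C ^ 3 * (n + 2).factorial * 16 ^ (n + 3) / c * ζ ^ 2) := by
    calc _ ≤ (ζ * θ) ^ 2 * C ^ 3 * ((n + 2).factorial * (16 / θ) ^ (n + 3)) := by gcongr
      _ = c / θ ^ (n + 1) * (C ^ 3 * (n + 2).factorial * 16 ^ (n + 3) / c * ζ ^ 2) := by
          rw [div_pow]; field_simp; ring
      _ ≤ _ := by gcongr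
  have h3 : M ≤ T * (M / c * θ) := by
    have h4 : θ ^ (n + 1) ≤ θ := pow_le_of_le_one hθ.le hθ1 (Nat.succ_ne_zero n)
    calc M = c / θ * (M / c * θ) := by field_simp
      _ ≤ c / θ ^ (n + 1) * (M / c * θ) := by gcongr
      _ ≤ _ := by gcongr
  have h5 := mul_le_mul_of_nonneg_left (Real.add_one_le_exp
    (C ^ 3 * (n + 2).factorial * 16 ^ (n + 3) / c * ζ ^ 2 + M / c * θ)) hT0.le
  linarith

end Fuj.FU3X

namespace Fuj
open FU3X

theorem fU3 : U3 := by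
  intro n H o C S ε₀ m₀ h c hc
  have hC : 0 < C := lt_of_lt_of_le one_pos h.hC
  have hn1 : (1 : ℝ) ≤ n := by exact_mod_cast h.hn
  have hS : (n : ℝ) < S * (n + 1) := (div_lt_iff₀ (by positivity)).1 h.hS
  have hS0 : 0 < S := by nlinarith
  obtain ⟨b, hb⟩ : ∃ b : ℝ, b = (S * (n + 1) - n) / 2 := ⟨_, rfl⟩
  have hb0 : 0 < b := by rw [hb]; linarith
  obtain ⟨C5, hC5⟩ : ∃ x : ℝ, x = C ^ 3 * (n + 2).factorial * 16 ^ (n + 3) / c := ⟨_, rfl⟩
  have hC50 : 0 < C5 := by rw [hC5]; positivity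
  obtain ⟨C6, hC6⟩ : ∃ x : ℝ, x = C * (m₀ : ℝ) ^ (n + 1) / c := ⟨_, rfl⟩
  have hC60 : 0 ≤ C6 := by rw [hC6]; positivity
  obtain ⟨ζ, hζ⟩ : ∃ x : ℝ, x = min (1 / 8) (b / (4 * C5)) := ⟨_, rfl⟩
  have hζ0 : 0 < ζ := by rw [hζ]; exact lt_min (by norm_num) (by positivity)
  have hζ1 : ζ ≤ 1 / 8 := hζ ▸ min_le_left _ _
  have hζ2 : ζ * (4 * C5) ≤ b := (le_div_iff₀ (by positivity)).1 (hζ ▸ min_le_right _ _)
  refine ⟨b * ζ / 2, max 1 (n + 1 - b), min 1 (b * ζ / (4 * C6 + 1)), by positivity,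
    le_max_left _ _, max_lt (by linarith) (by linarith), lt_min one_pos (by positivity), ?_⟩
  intro lam θ A τ v hlam hθ hθ0 hD hτ hT
  have hθ1 : θ ≤ 1 := hθ0.le.trans (min_le_left _ _)
  have hθ2 : θ * (4 * C6 + 1) ≤ b * ζ :=
    (le_div_iff₀ (by positivity)).1 (hθ0.le.trans (min_le_right _ _))
  have hl : (n : ℝ) + 1 - b ≤ lam := (le_max_right _ _).trans hlam
  have hlS : b ≤ lam * S - n := by
    have h1 := mul_le_mul_of_nonneg_right hl hS0.le
    have h2 := mul_le_mul_of_nonneg_left h.hS1 hb0.le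
    linarith
  have hs : 0 ≤ ζ * θ := by positivity
  have hsτ : ζ * θ * S ≤ τ / 2 := by
    have h1 := mul_le_mul_of_nonneg_left h.hS1 hs
    have h2 := mul_le_mul_of_nonneg_right hζ1 hθ.le
    linarith
  have hτ' : 0 < τ - ζ * θ * S := by linarith [hD.τ0]
  have hT0 : 0 < Tn v τ := lt_of_lt_of_le (by positivity) hT
  have hT' : 0 < Tn (fun m i => ζ * θ * o m i) (τ - ζ * θ * S) :=
    Tn_pos h hτ' (fun m i => by positivity) hT0
  have h1 := hD.test (ζ * θ) (τ - ζ * θ * S) hs hτ'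
  have h2 : Real.log (Tn v τ) ≤
      -(b * ζ) + Real.log (Tn (fun m i => ζ * θ * o m i) (τ - ζ * θ * S)) := by
    refine le_of_mul_le_mul_left ?_ hθ
    have h3 := mul_le_mul_of_nonneg_left hlS hs
    linarith [hD.A0]
  have h3 := Real.exp_le_exp.2 h2
  rw [Real.exp_add, Real.exp_log hT0, Real.exp_log hT'] at h3
  have h4 := (Tn_le h hs hD.τ0 hsτ).trans (err_le (ζ := ζ) n hC hc hθ hθ1 hτ (by positivity)
    (hT.trans (Tn_le_Th h hD.τ0 hD.v0)))
  rw [← hC5, ← hC6] at h4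
  have hTh : 0 < Th H τ := hT0.trans_le (Tn_le_Th h hD.τ0 hD.v0)
  calc Tn v τ ≤ Real.exp (-(b * ζ)) * (Th H τ * Real.exp (C5 * ζ ^ 2 + C6 * θ)) :=
        h3.trans (mul_le_mul_of_nonneg_left h4 (Real.exp_pos _).le)
    _ = Real.exp (-(b * ζ) + (C5 * ζ ^ 2 + C6 * θ)) * Th H τ := by
        rw [Real.exp_add (-(b * ζ))]; ring
    _ ≤ _ := by
        refine mul_le_mul_of_nonneg_right (Real.exp_le_exp.2 ?_) hTh.le
        have h5 := mul_le_mul_of_nonneg_right hζ2 hζ0.le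
        nlinarith

end Fuj
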