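import Vale.Agent.P271.FBasic

/-! Problem P271, part F: a definite proportion of the weights is not small. -/

open Set Filter Topology

noncomputable section
namespace Fuj

namespace FU4X

theorem tsum_split {f g : ℕ → ℝ} (hf : Summable f) (hg : Summable g) (h0 : ∀ m, 0 ≤ f m)
    (g0 : ∀ m, 0 ≤ g m) (s t : Finset ℕ) (h : ∀ m, m ∉ s → m ∉ t → f m ≤ g m) :
    ∑' m, f m ≤ ∑ m ∈ s, f m + ∑ m ∈ t, f m + ∑' m, g m := by
  have k : ∀ u : Finset ℕ, HasSum (fun m => if m ∈ u then f m else 0) (∑ m ∈ u, f m) := by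
    intro u
    have h1 : HasSum (fun m => if m ∈ u then f m else 0)
        (∑ m ∈ u, if m ∈ u then f m else 0) :=
      hasSum_sum_of_ne_finset_zero fun m hm => if_neg hm
    rwa [Finset.sum_congr rfl fun m hm => if_pos hm] at h1
  refine hasSum_le (fun m => ?_) hf.hasSum (((k s).add (k t)).add hg.hasSum)
  have a0 := h0 m
  have a1 := g0 m
  by_cases h1 : m ∈ s <;> by_cases h2 : m ∈ t <;> simp only [h1, h2, if_true, if_false]
  · linarith
  · linarith
  · linarith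
  · linarith [h m h1 h2]

theorem gam_ge {H : ℕ → ℕ} (v : ∀ m, Fin (H m) → ℝ) (a₀ : ℝ) (m : ℕ) :
    (1 - a₀) * H m - Wn v m ≤ Gam v a₀ m := by
  have h1 : (1 - a₀) * H m - Wn v m = ∑ i : Fin (H m), (1 - a₀ - Real.exp (-v m i)) := by
    rw [Finset.sum_sub_distrib, Finset.sum_const, Finset.card_univ, Fintype.card_fin,
      nsmul_eq_mul, mul_comm]
    rfl
  rw [h1]
  refine Finset.sum_le_sum fun i _ => le_max_of_le_left ?_
  linarith [Real.add_one_le_exp (-a₀)]

theorem count {n k j : ℕ} (hn : 1 ≤ n) {C e x a : ℝ} (hC : 1 ≤ C) (he : 0 < e) (hx : 0 ≤ x)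
    (w : Fin k → ℝ) (hk : (k : ℝ) ≤ C * x ^ n) (hj : e * x ≤ j + 1)
    (h : (j + n).choose n ≤ cntL w a) :
    (cntG w a : ℝ) * (1 + e ^ n / (n.factorial * C) / n) ^ n ≤ k := by
  set η : ℝ := e ^ n / (n.factorial * C) with hη
  have hn0 : (0 : ℝ) < n := by exact_mod_cast hn
  have hf : (0 : ℝ) < n.factorial := by exact_mod_cast n.factorial_pos
  have hC0 : 0 < C := by linarith
  have η0 : 0 < η := by positivity
  have h1 : (1 + η / n) ^ n ≤ Real.exp η := by
    have h2 : 1 + η / n ≤ Real.exp (η / n) := by linarith [Real.add_one_le_exp (η / n)]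
    refine (pow_le_pow_left₀ (by positivity) h2 n).trans (le_of_eq ?_)
    rw [← Real.exp_nat_mul, mul_div_cancel₀ _ hn0.ne']
  have h2 : (((j + n + 1 - n : ℕ) : ℝ)) ^ n / n.factorial ≤ (j + n).choose n :=
    Nat.pow_le_choose n (j + n)
  have h3 : j + n + 1 - n = j + 1 := by omega
  rw [h3] at h2
  have h4 : η * k ≤ cntL w a := by
    have h5 : ((j + n).choose n : ℝ) ≤ cntL w a := by exact_mod_cast h
    refine le_trans ?_ (h2.trans h5)
    refine (mul_le_mul_of_nonneg_left hk η0.le).trans ?_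
    have h6 : η * (C * x ^ n) = (e * x) ^ n / n.factorial := by
      rw [hη, mul_pow]; field_simp
    rw [h6]
    push_cast
    exact div_le_div_of_nonneg_right (pow_le_pow_left₀ (by positivity) hj n) hf.le
  have h5 : (cntL w a : ℝ) + cntG w a = k := by exact_mod_cast cntL_add_cntG w a
  have h6 : (cntG w a : ℝ) ≤ (1 - η) * k := by linarith
  have h7 : (1 - η) * Real.exp η ≤ 1 := by
    have h8 : 1 - η ≤ Real.exp (-η) := by linarith [Real.add_one_le_exp (-η)]
    refine (mul_le_mul_of_nonneg_right h8 (Real.exp_pos η).le).trans (le_of_eq ?_)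
    rw [← Real.exp_add, neg_add_cancel, Real.exp_zero]
  calc (cntG w a : ℝ) * (1 + η / n) ^ n ≤ cntG w a * Real.exp η :=
        mul_le_mul_of_nonneg_left h1 (Nat.cast_nonneg _)
    _ ≤ (1 - η) * k * Real.exp η := mul_le_mul_of_nonneg_right h6 (Real.exp_pos η).le
    _ = (1 - η) * Real.exp η * k := by ring
    _ ≤ k := mul_le_of_le_one_left (Nat.cast_nonneg _) h7

theorem summable_h {n : ℕ} {H : ℕ → ℕ} {C τ : ℝ} (hτ : 0 < τ)
    (hH : ∀ m, (H m : ℝ) ≤ C * (m + 1) ^ n) :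
    Summable fun m : ℕ => Real.exp (-τ * (m + 1)) * H m := by
  refine Summable.of_nonneg_of_le (fun m => by positivity) (fun m => ?_)
    ((summable_pow_exp n hτ).mul_left C)
  calc Real.exp (-τ * (m + 1)) * H m ≤ Real.exp (-τ * (m + 1)) * (C * (m + 1) ^ n) :=
        mul_le_mul_of_nonneg_left (hH m) (Real.exp_pos _).le
    _ = C * ((m + 1) ^ n * Real.exp (-τ * (m + 1))) := by ring

theorem th_le {n : ℕ} {H : ℕ → ℕ} {C τ θ K : ℝ} (hC : 1 ≤ C) (hθ : 0 < θ) (hτ : θ / 4 ≤ τ)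
    (hK : 0 < K) (hH : ∀ m, (H m : ℝ) ≤ C * (m + 1) ^ n) (m₃ : ℕ) :
    Th H τ ≤ ∑ m ∈ Finset.Ico m₃ ⌊K / θ⌋₊, Real.exp (-τ * (m + 1)) * H m + C * m₃ ^ (n + 1) +
      8 / K * (C * n.factorial * 16 ^ (n + 1)) / θ ^ (n + 1) := by
  have τ0 : 0 < τ := lt_of_lt_of_le (by positivity) hτ
  have τ2 : 0 < τ / 2 := by positivity
  have hC0 : 0 < C := by linarith
  have h1 := tsum_split (summable_h τ0 hH) ((summable_pow_exp n τ2).mul_left (8 / K * C))
    (fun m => by positivity) (fun m => by positivity) (Finset.Ico m₃ ⌊K / θ⌋₊) (Finset.range m₃)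
    (fun m hm hm' => by
      rw [Finset.mem_Ico] at hm
      rw [Finset.mem_range] at hm'
      have h2 : ⌊K / θ⌋₊ ≤ m := by omega
      have h3 : K / θ ≤ m + 1 := by
        have h4 : (⌊K / θ⌋₊ : ℝ) ≤ m := by exact_mod_cast h2
        linarith [Nat.lt_floor_add_one (K / θ)]
      have h4 : K / 8 ≤ τ / 2 * (m + 1) := by
        have h5 : K ≤ (m + 1) * θ := (div_le_iff₀ hθ).1 h3
        have h6 : (0 : ℝ) ≤ m + 1 := by positivity
        nlinarith
      have h5 : Real.exp (-(τ / 2) * (m + 1)) ≤ 8 / K := by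
        have h6 : K / 8 ≤ Real.exp (τ / 2 * (m + 1)) := by
          linarith [Real.add_one_le_exp (τ / 2 * (m + 1))]
        rw [neg_mul, Real.exp_neg, ← inv_div K 8]
        exact inv_anti₀ (by positivity) h6
      have h6 : Real.exp (-τ * (m + 1)) =
          Real.exp (-(τ / 2) * (m + 1)) * Real.exp (-(τ / 2) * (m + 1)) := by
        rw [← Real.exp_add]; congr 1; ring
      calc Real.exp (-τ * (m + 1)) * H m
          ≤ 8 / K * Real.exp (-(τ / 2) * (m + 1)) * (C * (m + 1) ^ n) := by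
            rw [h6]
            exact mul_le_mul (mul_le_mul_of_nonneg_right h5 (Real.exp_pos _).le) (hH m)
              (Nat.cast_nonneg _) (by positivity)
        _ = 8 / K * C * ((m + 1) ^ n * Real.exp (-(τ / 2) * (m + 1))) := by ring)
  refine h1.trans (add_le_add (add_le_add le_rfl ?_) ?_)
  · have h2 : ∀ m ∈ Finset.range m₃, Real.exp (-τ * (m + 1)) * H m ≤ C * m₃ ^ n := by
      intro m hm
      have h3 : (m : ℝ) + 1 ≤ m₃ := by exact_mod_cast Finset.mem_range.1 hm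
      have h4 : Real.exp (-τ * (m + 1)) ≤ 1 := by
        refine Real.exp_le_one_iff.2 ?_
        have : (0 : ℝ) ≤ τ * (m + 1) := by positivity
        linarith
      refine (mul_le_of_le_one_left (Nat.cast_nonneg _) h4).trans ((hH m).trans ?_)
      exact mul_le_mul_of_nonneg_left (pow_le_pow_left₀ (by positivity) h3 n) hC0.le
    refine (Finset.sum_le_sum h2).trans (le_of_eq ?_)
    rw [Finset.sum_const, Finset.card_range, nsmul_eq_mul]
    ring
  · rw [tsum_mul_left]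
    refine (mul_le_mul_of_nonneg_left (tsum_pow_exp_le n τ2) (by positivity)).trans ?_
    have h2 : 2 / (τ / 2) ≤ 16 / θ := by
      rw [div_le_div_iff₀ τ2 hθ]; linarith
    have h3 : (2 / (τ / 2)) ^ (n + 1) ≤ 16 ^ (n + 1) / θ ^ (n + 1) := by
      rw [← div_pow]; exact pow_le_pow_left₀ (by positivity) h2 _
    calc 8 / K * C * (n.factorial * (2 / (τ / 2)) ^ (n + 1))
        ≤ 8 / K * C * (n.factorial * (16 ^ (n + 1) / θ ^ (n + 1))) := by gcongr
      _ = 8 / K * (C * n.factorial * 16 ^ (n + 1)) / θ ^ (n + 1) := by ring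

end FU4X

theorem fU4 : U4 := by
  intro n H o C S ε₀ m₀ hN X c β hX hc hβ
  obtain ⟨b, hb⟩ : ∃ b, b = 1 - Real.exp (-β) := ⟨_, rfl⟩
  have b0 : 0 < b := by
    have := Real.exp_lt_one_iff.2 (neg_lt_zero.2 hβ)
    linarith
  have b1 : b ≤ 1 := by linarith [Real.exp_pos (-β)]
  have hC0 : 0 < C := by linarith [hN.hC]
  have hn0 : (0 : ℝ) < n := by exact_mod_cast hN.hn
  have hf : (0 : ℝ) < n.factorial := by exact_mod_cast n.factorial_pos
  obtain ⟨K, hK⟩ : ∃ K, K = 32 * (C * n.factorial * 16 ^ (n + 1)) / (b * c) := ⟨_, rfl⟩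
  have K0 : 0 < K := by rw [hK]; positivity
  obtain ⟨e, he⟩ : ∃ e, e = min ε₀ (b / (8 * X * K)) := ⟨_, rfl⟩
  have e0 : 0 < e := by rw [he]; exact lt_min hN.hε (by positivity)
  refine ⟨b / 4, e ^ n / (n.factorial * C) / n, K, b / 4, by positivity, by positivity, K0,
    by positivity, fun m₃ => ?_⟩
  refine ⟨min 1 (b * c / (4 * (C * m₃ ^ (n + 1) + 1))), lt_min one_pos (by positivity), ?_⟩
  intro lam θ A τ v hθ hθ0 hD hA hτ hT hT'
  have θ1 : θ ≤ 1 := (hθ0.trans_le (min_le_left _ _)).le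
  have θ2 : θ ≤ b * c / (4 * (C * m₃ ^ (n + 1) + 1)) := (hθ0.trans_le (min_le_right _ _)).le
  constructor
  · intro m hm hm' a ha
    have h1 : (m : ℝ) + 1 ≤ K / θ := by
      have h2 : ((m + 1 : ℕ) : ℝ) ≤ ⌊K / θ⌋₊ := by exact_mod_cast hm'
      push_cast at h2
      exact h2.trans (Nat.floor_le (by positivity))
    have h2 : (⌊e * (m + 1)⌋₊ : ℝ) ≤ e * (m + 1) := Nat.floor_le (by positivity)
    refine FU4X.count (j := ⌊e * (m + 1)⌋₊) hN.hn hN.hC e0 (by positivity) _ (hN.Hle m)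
      (Nat.lt_floor_add_one _).le (hD.jet m hm _ ?_ a ?_)
    · exact h2.trans (mul_le_mul_of_nonneg_right (he ▸ min_le_left _ _) (by positivity))
    · have h3 : e ≤ b / (8 * X * K) := he ▸ min_le_right _ _
      have h4 : (⌊e * (m + 1)⌋₊ : ℝ) ≤ b / (8 * X * K) * (K / θ) :=
        h2.trans (mul_le_mul h3 h1 (by positivity) (by positivity))
      have h5 : A * ⌊e * (m + 1)⌋₊ ≤ X * θ * (b / (8 * X * K) * (K / θ)) :=
        mul_le_mul hA h4 (Nat.cast_nonneg _) (by positivity)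
      have h6 : X * θ * (b / (8 * X * K) * (K / θ)) = b / 8 := by field_simp
      linarith
  · have h1 := FU4X.th_le hN.hC hθ hτ K0 hN.Hle m₃
    have hp : 0 < θ ^ (n + 1) := by positivity
    have h2 : 8 / K * (C * n.factorial * 16 ^ (n + 1)) / θ ^ (n + 1) =
        b / 4 * (c / θ ^ (n + 1)) := by
      rw [hK]; field_simp; norm_num
    have h3 : C * m₃ ^ (n + 1) ≤ b / 4 * (c / θ ^ (n + 1)) := by
      have h4 : θ ^ (n + 1) ≤ θ := pow_le_of_le_one hθ.le θ1 (Nat.succ_ne_zero n)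
      have h5 : θ * (4 * (C * m₃ ^ (n + 1) + 1)) ≤ b * c := (le_div_iff₀ (by positivity)).1 θ2
      have h6 : 0 ≤ C * m₃ ^ (n + 1) := by positivity
      rw [← mul_div_assoc, le_div_iff₀ hp]
      nlinarith [mul_le_mul_of_nonneg_left h4 h6]
    have hs : Summable fun m : ℕ => Real.exp (-τ * (m + 1)) * Wn v m :=
      Summable.of_nonneg_of_le (fun m => mul_nonneg (Real.exp_pos _).le (Wn_nonneg v m))
        (fun m => mul_le_mul_of_nonneg_left (Wn_le hD.v0 m) (Real.exp_pos _).le)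
        (FU4X.summable_h hD.τ0 hN.Hle)
    have h4 : ∑ m ∈ Finset.Ico m₃ ⌊K / θ⌋₊, Real.exp (-τ * (m + 1)) * Wn v m ≤ Tn v τ :=
      hs.sum_le_tsum _ fun m _ => mul_nonneg (Real.exp_pos _).le (Wn_nonneg v m)
    have h5 : (1 - b / 4) * ∑ m ∈ Finset.Ico m₃ ⌊K / θ⌋₊, Real.exp (-τ * (m + 1)) * H m -
        ∑ m ∈ Finset.Ico m₃ ⌊K / θ⌋₊, Real.exp (-τ * (m + 1)) * Wn v m ≤
        ∑ m ∈ Finset.Ico m₃ ⌊K / θ⌋₊, Real.exp (-τ * (m + 1)) * Gam v (b / 4) m := by
      rw [Finset.mul_sum, ← Finset.sum_sub_distrib]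
      refine Finset.sum_le_sum fun m _ => ?_
      refine le_trans (le_of_eq ?_)
        (mul_le_mul_of_nonneg_left (FU4X.gam_ge v (b / 4) m) (Real.exp_pos _).le)
      ring
    have h6 : ∑ m ∈ Finset.Ico m₃ ⌊K / θ⌋₊, Real.exp (-τ * (m + 1)) * H m ≤ Th H τ :=
      (FU4X.summable_h hD.τ0 hN.Hle).sum_le_tsum _ fun m _ => by positivity
    have h7 : Tn v τ ≤ (1 - b) * Th H τ := by rw [hb]; simpa using hT'
    have h8 : 0 ≤ Th H τ := tsum_nonneg fun m => by positivity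
    have h9 : b / 4 * (c / θ ^ (n + 1)) ≤ b / 4 * Tn v τ :=
      mul_le_mul_of_nonneg_left hT (by positivity)
    have h10 : b * Tn v τ ≤ b * Th H τ :=
      mul_le_mul_of_nonneg_left (by nlinarith) b0.le
    have h11 := mul_le_mul_of_nonneg_left h6 b0.le
    rw [h2] at h1
    nlinarith

end Fuj
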