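import Vale.Agent.P271.FBasic

/-! Problem P271, part F: the one step inequality for the weights. -/

open MeasureTheory Set Filter Topology Metric
open scoped ENNReal NNReal

noncomputable section
namespace Fuj
namespace FU5aX

theorem core {n : ℕ} (hn : 1 ≤ n) {f f' H c k : ℝ} (hf : 0 ≤ f) (hf' : 0 ≤ f') (hH : 0 ≤ H)
    (hc : 0 ≤ c) (hk : 0 ≤ k) (h1 : f * (1 + k) ^ n ≤ H)
    (h2 : f ^ (1 / n : ℝ) + c * H ^ (1 / n : ℝ) ≤ f' ^ (1 / n : ℝ)) :
    f * (1 + n * (c * (1 + k))) ≤ f' := by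
  have hn' : n ≠ 0 := by omega
  rw [one_div] at h2
  have e := fun {x : ℝ} (hx : 0 ≤ x) => Real.rpow_inv_natCast_pow hx hn'
  have g0 := Real.rpow_nonneg hf (n⁻¹ : ℝ)
  have h3 : f ^ (n⁻¹ : ℝ) * (1 + k) ≤ H ^ (n⁻¹ : ℝ) := by
    refine le_of_pow_le_pow_left₀ hn' (Real.rpow_nonneg hH _) ?_
    rwa [mul_pow, e hf, e hH]
  have h4 : f ^ (n⁻¹ : ℝ) * (1 + c * (1 + k)) ≤ f' ^ (n⁻¹ : ℝ) := by
    nlinarith [mul_le_mul_of_nonneg_left h3 hc]
  have h5 := pow_le_pow_left₀ (by positivity) h4 n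
  rw [mul_pow, e hf, e hf'] at h5
  exact (mul_le_mul_of_nonneg_left (one_add_mul_le_pow (by nlinarith [mul_nonneg hc hk]) n)
    hf).trans h5

/-- the tail of the exponential -/
def ph (w a : ℝ) : ℝ := (Ioi w).indicator (fun a => Real.exp (-a)) a

theorem ph_int (w : ℝ) : Integrable (ph w) :=
  (integrable_indicator_iff measurableSet_Ioi).2 (integrableOn_exp_neg_Ioi w)

theorem ph_val (w : ℝ) : ∫ a, ph w a = Real.exp (-w) :=
  (integral_indicator measurableSet_Ioi).trans (integral_exp_neg_Ioi w)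

theorem ph_of_lt {w a : ℝ} (h : w < a) : ph w a = Real.exp (-a) := indicator_of_mem h _

theorem ph_of_le {w a : ℝ} (h : a ≤ w) : ph w a = 0 := indicator_of_notMem (not_lt.2 h) _

theorem sum_ph {k : ℕ} (v : Fin k → ℝ) (a : ℝ) : ∑ i, ph (v i) a = cntL v a * Real.exp (-a) := by
  classical
  simp only [ph, indicator_apply, mem_Ioi]
  rw [← Finset.sum_filter, Finset.sum_const, nsmul_eq_mul, cntL]

theorem max_eq (a w : ℝ) :
    Real.exp (-a) - Real.exp (-max a w) = max (Real.exp (-a) - Real.exp (-w)) 0 := by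
  rcases le_total a w with h | h
  · rw [max_eq_right h, max_eq_left (sub_nonneg.2 (Real.exp_le_exp.2 (neg_le_neg h)))]
  · rw [max_eq_left h, sub_self, max_eq_right (sub_nonpos.2 (Real.exp_le_exp.2 (neg_le_neg h)))]

theorem step {n : ℕ} {H : ℕ → ℕ} {v : ∀ m, Fin (H m) → ℝ} {η k a : ℝ} {q m : ℕ} (hn : 1 ≤ n)
    (h0 : 0 < η) (h1 : η < 1) (hk : 0 ≤ k) (hG : Gr n H v η q m) (ha : 0 < a)
    (h : (cntG (v m) a : ℝ) * (1 + k) ^ n ≤ H m) :
    (cntL (v (m + q)) a : ℝ) - cntL (v m) a ≤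
      n * q / (m + 1) * (cntL (v m) a + 2 * η * H m - (1 - η) * k * cntG (v m) a) := by
  have e1 : (cntL (v m) a : ℝ) + cntG (v m) a = H m := by exact_mod_cast cntL_add_cntG (v m) a
  have e2 : (cntL (v (m + q)) a : ℝ) + cntG (v (m + q)) a = H (m + q) := by
    exact_mod_cast cntL_add_cntG (v (m + q)) a
  have h2 : (cntG (v m) a : ℝ) * (1 + n * ((1 - η) * q / (m + 1) * (1 + k))) ≤
      cntG (v (m + q)) a := by
    by_cases hz : cntG (v m) a = 0
    · rw [hz, Nat.cast_zero, zero_mul]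
      positivity
    · exact core hn (by positivity) (by positivity) (by positivity)
        (div_nonneg (mul_nonneg (by linarith) (by positivity)) (by positivity)) hk h (hG.2 a ha hz)
  have h3 := hG.1
  have e3 : (1 + η) * n * q / (m + 1) = (1 + η) * (n * q / (m + 1)) := by ring
  have e4 : n * ((1 - η) * q / (m + 1) * (1 + k)) = (1 - η) * (1 + k) * (n * q / (m + 1)) := by ring
  rw [e3] at h3
  rw [e4] at h2
  have hy : (0 : ℝ) ≤ n * q / (m + 1) := by positivity
  generalize (n * q / (m + 1) : ℝ) = y at *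
  have h4 : 0 ≤ y * η * cntL (v m) a := by positivity
  rw [← e1] at h3 ⊢
  nlinarith

end FU5aX
open FU5aX

theorem fU5a : U5a := by
  intro n H v η a₀ κ q m hn h0 h1 ha hκ hv hG h
  have i1 : ∀ m, Integrable fun a => ∑ i, ph (v m i) a := fun m =>
    integrable_finset_sum _ fun i _ => ph_int _
  have v1 : ∀ m, ∫ a, ∑ i, ph (v m i) a = Wn v m := fun m => by
    rw [integral_finset_sum _ fun i _ => ph_int _]
    simp only [ph_val, Wn]
  have j2 : ∀ i, Integrable fun a => ph a₀ a - ph (max a₀ (v m i)) a := fun i =>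
    (ph_int _).sub (ph_int _)
  have i2 : Integrable fun a => ∑ i, (ph a₀ a - ph (max a₀ (v m i)) a) :=
    integrable_finset_sum _ fun i _ => j2 i
  have v2 : ∫ a, ∑ i, (ph a₀ a - ph (max a₀ (v m i)) a) = Gam v a₀ m := by
    rw [integral_finset_sum _ fun i _ => j2 i]
    simp only [integral_sub (ph_int _) (ph_int _), ph_val, max_eq, Gam]
  have i3 : Integrable fun a => ∑ i, ph (v m i) a + 2 * η * H m * ph 0 a :=
    (i1 m).add ((ph_int 0).const_mul _)
  have key := integral_mono (f := fun a => ∑ i, ph (v (m + q) i) a - ∑ i, ph (v m i) a)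
    (g := fun a => n * q / (m + 1) * (∑ i, ph (v m i) a + 2 * η * H m * ph 0 a -
      (1 - η) * κ * ∑ i, (ph a₀ a - ph (max a₀ (v m i)) a)))
    ((i1 _).sub (i1 _)) ((i3.sub (i2.const_mul _)).const_mul _) fun a => ?_
  · rwa [integral_sub (i1 _) (i1 _), integral_const_mul, integral_sub i3 (i2.const_mul _),
      integral_add (i1 m) ((ph_int 0).const_mul _), integral_const_mul, integral_const_mul, v1, v1,
      v2, ph_val, neg_zero, Real.exp_zero, mul_one] at key
  rcases le_or_gt a 0 with hle | hlt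
  · have z : ∀ w, 0 ≤ w → ph w a = 0 := fun w hw => ph_of_le (hle.trans hw)
    simp [z _ (hv _ _), z _ ha.le, z _ le_rfl, z _ (ha.le.trans (le_max_left _ _))]
  have hx := (Real.exp_pos (-a)).le
  simp only [sum_ph, ph_of_lt hlt]
  rcases le_or_gt a a₀ with h2 | h2
  · have h3 := step (k := 0) hn h0 h1 le_rfl hG hlt
      (by simpa using (Nat.cast_le (α := ℝ)).2 (cntG_le (v m) a))
    simp only [ph_of_le h2, ph_of_le (h2.trans (le_max_left _ _)), sub_self, Finset.sum_const_zero]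
    nlinarith [mul_le_mul_of_nonneg_right h3 hx]
  · have h3 := step hn h0 h1 hκ hG hlt (h a h2.le)
    have e1 : (cntL (v m) a : ℝ) + cntG (v m) a = H m := by exact_mod_cast cntL_add_cntG (v m) a
    have e2 : ∀ i, ph (max a₀ (v m i)) a = ph (v m i) a := fun i => by
      rcases lt_or_ge (v m i) a with h4 | h4
      · rw [ph_of_lt h4, ph_of_lt (max_lt h2 h4)]
      · rw [ph_of_le h4, ph_of_le (h4.trans (le_max_right _ _))]
    have e3 : ∑ i, (ph a₀ a - ph (max a₀ (v m i)) a) = cntG (v m) a * Real.exp (-a) := by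
      simp only [e2, ph_of_lt h2, Finset.sum_sub_distrib, sum_ph, Finset.sum_const,
        Finset.card_univ, Fintype.card_fin, nsmul_eq_mul, ← e1]
      ring
    rw [e3]
    nlinarith [mul_le_mul_of_nonneg_right h3 hx]

end Fuj
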