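import Vale.Agent.P271.FBasic

/-! Problem P271, part F: summation of the growth inequality. -/

open MeasureTheory Set Filter Topology Metric
open scoped ENNReal NNReal

noncomputable section
namespace Fuj

namespace FU5bX

/-- the abstract summation -/
theorem summ (w h G : ℕ → ℝ) (e B η ν g : ℝ) (q m₃ m₄ : ℕ) (he : 0 ≤ e) (hB0 : 0 ≤ B)
    (hη : 0 ≤ η) (hν : 0 ≤ ν) (hw0 : ∀ m, 0 ≤ w m) (hh0 : ∀ m, 0 ≤ h m) (hG0 : ∀ m, 0 ≤ G m)
    (sw : Summable w) (sw1 : Summable fun m : ℕ => ((m : ℝ) + 1) * w m) (sh : Summable h)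
    (hB : ∀ m, m < m₃ + q → w m ≤ B)
    (hstep : ∀ m, m₃ ≤ m →
      ((m : ℝ) + 1) * (e * w (m + q) - w m) ≤ ν * (w m + 2 * η * h m - G m))
    (hg : g ≤ ∑ m ∈ Finset.Ico m₃ m₄, G m) :
    (e - 1) * ∑' m : ℕ, ((m : ℝ) + 1) * w m ≤
      e * (q * ∑' m, w m + ((m₃ : ℝ) + q + 1) ^ 2 * B) +
        ν * (∑' m, w m + 2 * η * ∑' m, h m - g) := by
  classical
  have s1 := (hasSum_nat_add_iff' q).2 sw1.hasSum
  have s2 := (hasSum_nat_add_iff' q).2 sw.hasSum
  have s3 : HasSum (fun m => if m ∈ Finset.Ico m₃ m₄ then G m else 0)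
      (∑ m ∈ Finset.Ico m₃ m₄, G m) := by
    have := hasSum_sum_of_ne_finset_zero (s := Finset.Ico m₃ m₄)
      (L := SummationFilter.unconditional ℕ) (f := fun m => if m ∈ Finset.Ico m₃ m₄ then G m else 0) fun m hm => if_neg hm
    rwa [Finset.sum_congr rfl fun m hm => if_pos hm] at this
  have s4 : HasSum (fun m => if m ∈ Finset.range m₃ then e * (((m₃ : ℝ) + q + 1) * B) else 0)
      (m₃ * (e * (((m₃ : ℝ) + q + 1) * B))) := by
    have := hasSum_sum_of_ne_finset_zero (s := Finset.range m₃)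
      (L := SummationFilter.unconditional ℕ)
      (f := fun m => if m ∈ Finset.range m₃ then e * (((m₃ : ℝ) + q + 1) * B) else 0)
      fun m hm => if_neg hm
    rwa [Finset.sum_congr rfl fun m hm => if_pos hm, Finset.sum_const, Finset.card_range,
      nsmul_eq_mul] at this
  have l1 := ((s1.sub (s2.mul_left (q : ℝ))).mul_left e).sub sw1.hasSum
  have l2 := (((sw.hasSum.add (sh.hasSum.mul_left (2 * η))).sub s3).mul_left ν).add s4
  have key := hasSum_le (fun m => ?_) l1 l2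
  · have e1 : ∑ i ∈ Finset.range q, ((i : ℝ) + 1) * w i ≤ q * (((m₃ : ℝ) + q + 1) * B) := by
      have := Finset.sum_le_card_nsmul (Finset.range q) (fun i => ((i : ℝ) + 1) * w i)
        (((m₃ : ℝ) + q + 1) * B) fun i hi => by
          have hi' : i < q := Finset.mem_range.1 hi
          have h1 : (i : ℝ) ≤ q := by exact_mod_cast hi'.le
          have h2 : (0 : ℝ) ≤ m₃ := Nat.cast_nonneg _
          exact mul_le_mul (by linarith) (hB i (by omega)) (hw0 i) (by positivity)
      rwa [Finset.card_range, nsmul_eq_mul] at this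
    have e2 : 0 ≤ ∑ i ∈ Finset.range q, w i := Finset.sum_nonneg fun i _ => hw0 i
    have e3 := mul_le_mul_of_nonneg_left e1 he
    have e4 := mul_nonneg he (mul_nonneg (Nat.cast_nonneg (α := ℝ) q) e2)
    have e5 := mul_le_mul_of_nonneg_left hg hν
    have e6 : 0 ≤ e * (((m₃ : ℝ) + q + 1) * B) := by positivity
    nlinarith
  · push_cast
    by_cases hm : m₃ ≤ m
    · have h1 := hstep m hm
      have h2 : (if m ∈ Finset.Ico m₃ m₄ then G m else 0) ≤ G m := by
        split_ifs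
        · exact le_rfl
        · exact hG0 m
      have h3 := mul_le_mul_of_nonneg_left h2 hν
      rw [if_neg (c := m ∈ Finset.range m₃) (by simpa using hm)]
      nlinarith
    · have hm' : m < m₃ := not_le.1 hm
      rw [if_neg (c := m ∈ Finset.Ico m₃ m₄) (fun h => hm (Finset.mem_Ico.1 h).1),
        if_pos (Finset.mem_range.2 hm')]
      have h1 : (m : ℝ) ≤ m₃ := by exact_mod_cast hm'.le
      have h2 : (0 : ℝ) ≤ q := Nat.cast_nonneg _
      have h3 : ((m : ℝ) + 1) * w (m + q) ≤ ((m₃ : ℝ) + q + 1) * B :=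
        mul_le_mul (by linarith) (hB _ (by omega)) (hw0 _) (by positivity)
      have h4 := mul_le_mul_of_nonneg_left h3 he
      have h5 : 0 ≤ ν * (w m + 2 * η * h m) := by
        have := hw0 m
        have := hh0 m
        positivity
      have h6 : 0 ≤ ((m : ℝ) + 1) * w m := by
        have := hw0 m
        positivity
      nlinarith

end FU5bX

theorem fU5b : U5b := by
  intro n H v G C η τ g q m₃ m₄ hq hτ hη hC hH hv hG hstep hg
  have hq' : (1 : ℝ) ≤ q := by exact_mod_cast hq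
  have hw0 : ∀ m : ℕ, 0 ≤ Real.exp (-τ * (m + 1)) * Wn v m := fun m =>
    mul_nonneg (Real.exp_pos _).le (Wn_nonneg v m)
  have hh0 : ∀ m : ℕ, 0 ≤ Real.exp (-τ * (m + 1)) * (H m : ℝ) := fun m => by positivity
  have hwh : ∀ m : ℕ, Real.exp (-τ * (m + 1)) * Wn v m ≤ Real.exp (-τ * (m + 1)) * (H m : ℝ) :=
    fun m => mul_le_mul_of_nonneg_left (Wn_le hv m) (Real.exp_pos _).le
  have hhb : ∀ m : ℕ, Real.exp (-τ * (m + 1)) * (H m : ℝ) ≤
      C * (((m : ℝ) + 1) ^ n * Real.exp (-τ * (m + 1))) := fun m => by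
    have := mul_le_mul_of_nonneg_left (hH m) (Real.exp_pos (-τ * (m + 1))).le
    linarith
  have sh : Summable fun m : ℕ => Real.exp (-τ * (m + 1)) * (H m : ℝ) :=
    Summable.of_nonneg_of_le hh0 hhb ((summable_pow_exp n hτ).mul_left C)
  have sw : Summable fun m : ℕ => Real.exp (-τ * (m + 1)) * Wn v m :=
    Summable.of_nonneg_of_le hw0 hwh sh
  have sw1 : Summable fun m : ℕ => ((m : ℝ) + 1) * (Real.exp (-τ * (m + 1)) * Wn v m) := by
    refine Summable.of_nonneg_of_le (fun m => mul_nonneg (by positivity) (hw0 m)) (fun m => ?_)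
      ((summable_pow_exp (n + 1) hτ).mul_left C)
    have := mul_le_mul_of_nonneg_left ((hwh m).trans (hhb m))
      (by positivity : (0 : ℝ) ≤ (m : ℝ) + 1)
    rw [pow_succ]
    linarith
  have hB : ∀ m : ℕ, m < m₃ + q →
      Real.exp (-τ * (m + 1)) * Wn v m ≤ C * ((m₃ : ℝ) + q + 1) ^ n := by
    intro m hm
    have h1 : Real.exp (-τ * (m + 1)) ≤ 1 := by
      refine Real.exp_le_one_iff.2 ?_
      have : 0 ≤ τ * ((m : ℝ) + 1) := by positivity
      linarith
    have h2 : (m : ℝ) ≤ m₃ + q := by exact_mod_cast hm.le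
    have h3 : ((m : ℝ) + 1) ^ n ≤ ((m₃ : ℝ) + q + 1) ^ n :=
      pow_le_pow_left₀ (by positivity) (by linarith) n
    exact (mul_le_of_le_one_left (Wn_nonneg v m) h1).trans
      ((Wn_le hv m).trans ((hH m).trans (mul_le_mul_of_nonneg_left h3 hC)))
  have key := FU5bX.summ (fun m => Real.exp (-τ * (m + 1)) * Wn v m)
    (fun m => Real.exp (-τ * (m + 1)) * (H m : ℝ)) (fun m => Real.exp (-τ * (m + 1)) * G m)
    (Real.exp (τ * q)) (C * ((m₃ : ℝ) + q + 1) ^ n) η (n * q) g q m₃ m₄ (Real.exp_pos _).le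
    (by positivity) hη (by positivity) hw0 hh0
    (fun m => mul_nonneg (Real.exp_pos _).le (hG m)) sw sw1 sh hB (fun m hm => ?_) hg
  · change (Real.exp (τ * q) - 1) * En v τ ≤ Real.exp (τ * q) * (q * Tn v τ + _) +
      n * q * (Tn v τ + 2 * η * Th H τ - g) at key
    have hE : 0 ≤ En v τ := tsum_nonneg fun m => mul_nonneg (by positivity) (hw0 m)
    have h1 : τ * q * En v τ ≤ (Real.exp (τ * q) - 1) * En v τ :=
      mul_le_mul_of_nonneg_right (by linarith [Real.add_one_le_exp (τ * q)]) hE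
    have h2 : ((m₃ : ℝ) + q + 1) ^ 2 * (C * ((m₃ : ℝ) + q + 1) ^ n) ≤
        q * (C * ((m₃ : ℝ) + q + 1) ^ (n + 2)) := by
      have h3 : ((m₃ : ℝ) + q + 1) ^ 2 * (C * ((m₃ : ℝ) + q + 1) ^ n) =
          C * ((m₃ : ℝ) + q + 1) ^ (n + 2) := by ring
      rw [h3]
      exact le_mul_of_one_le_left (by positivity) hq'
    have h4 := mul_le_mul_of_nonneg_left h2 (Real.exp_pos (τ * q)).le
    refine le_of_mul_le_mul_left ?_ (by linarith : (0 : ℝ) < q)
    linarith
  · have h1 := hstep m hm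
    have hm1 : (0 : ℝ) < (m : ℝ) + 1 := by positivity
    rw [div_mul_eq_mul_div, le_div_iff₀ hm1] at h1
    have h2 := mul_le_mul_of_nonneg_left h1 (Real.exp_pos (-τ * (m + 1))).le
    have h3 : Real.exp (τ * q) * Real.exp (-τ * (((m + q : ℕ) : ℝ) + 1)) =
        Real.exp (-τ * (m + 1)) := by
      rw [← Real.exp_add]
      push_cast
      ring_nf
    rw [← mul_assoc (Real.exp (τ * q)), h3]
    linarith

end Fuj
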