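import Vale.Agent.P271.FBasic

/-! Problem P271, part F: first properties of the valuation attached to an admissible family. -/

open MeasureTheory Set Filter Topology Metric
open scoped ENNReal NNReal

noncomputable section
namespace Fuj

namespace FV1X

theorem grow {t : ℕ → ℝ} (ht : Tendsto t atTop atTop) {δ : ℝ} (hδ : 0 < δ) {I : ℝ≥0∞}
    (hI : I ≠ ⊤) : ¬ ∀ᶠ k in atTop, ENNReal.ofReal (Real.exp (δ * t k)) ≤ I := by
  intro h
  have h1 : Tendsto (fun k => δ * t k) atTop atTop := ht.const_mul_atTop hδ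
  obtain ⟨k, hk, hk'⟩ := (h.and (h1.eventually_ge_atTop I.toReal)).exists
  have h2 := (ENNReal.ofReal_le_iff_le_toReal hI).1 hk
  have h3 := Real.add_one_le_exp (δ * t k)
  linarith

variable {n : ℕ} {L : Loc n} {F : L.Flt} {lam ℓ τ : ℝ} {t : ℕ → ℝ} {Ω : ℕ → Set (E n)}

theorem A_nonneg (hA : F.Adm lam ℓ τ t Ω) : 0 ≤ ℓ - lam * τ := by
  by_contra hn
  push Not at hn
  have hδ : 0 < -(ℓ - lam * τ) / 2 := by linarith
  have hI : volume (ball (0 : E n) 1) ≠ ⊤ := by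
    rw [vol_ball _ one_pos]; exact ENNReal.ofReal_ne_top
  refine grow hA.top hδ hI ?_
  filter_upwards [hA.vol _ hδ, hA.loc _ (ball_mem_nhds 0 one_pos)] with k h1 h2
  have e : -(ℓ - lam * τ) / 2 * t k = -(ℓ - lam * τ + -(ℓ - lam * τ) / 2) * t k := by ring
  rw [e]
  exact h1.trans (measure_mono h2)

theorem mem_neg (hA : F.Adm lam ℓ τ t Ω) {m : ℕ} {s : E n → ℂ} (hs : s ∈ L.V m) {a : ℝ}
    (ha : a < 0) : ∀ᶠ k in atTop, ∀ p ∈ Ω k, ‖s p‖ ^ 2 ≤ Real.exp (-a * t k) := by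
  obtain ⟨C, hC, hb⟩ := Loc.exists_bound hs
  have h1 : Tendsto (fun k => -a * t k) atTop atTop := hA.top.const_mul_atTop (by linarith)
  filter_upwards [h1.eventually_ge_atTop (C ^ 2), hA.loc _ (closedBall_mem_nhds 0 one_pos)]
    with k hk h2 p hp
  have h3 : ‖s p‖ ^ 2 ≤ C ^ 2 := pow_le_pow_left₀ (norm_nonneg _) (hb p (h2 hp)) 2
  have h4 := Real.add_one_le_exp (-a * t k)
  linarith

theorem down (ht : Tendsto t atTop atTop) {s : E n → ℂ} {a b : ℝ} (hab : a ≤ b)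
    (hb : ∀ᶠ k in atTop, ∀ p ∈ Ω k, ‖s p‖ ^ 2 ≤ Real.exp (-b * t k)) :
    ∀ᶠ k in atTop, ∀ p ∈ Ω k, ‖s p‖ ^ 2 ≤ Real.exp (-a * t k) := by
  filter_upwards [hb, ht.eventually_ge_atTop 0] with k hk h0 p hp
  refine (hk p hp).trans (Real.exp_le_exp.2 ?_)
  exact mul_le_mul_of_nonneg_right (neg_le_neg hab) h0

theorem bound (h : IntS) (hA : F.Adm lam ℓ τ t Ω) {m : ℕ} {s : E n → ℂ} (hs : s ∈ L.V m)
    {r : ℕ} (hr : ¬ Ord 0 (r + 1) s) {a : ℝ}
    (ha : ∀ᶠ k in atTop, ∀ p ∈ Ω k, ‖s p‖ ^ 2 ≤ Real.exp (-a * t k)) :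
    a ≤ (ℓ - lam * τ) * r := by
  by_contra hn
  push Not at hn
  have hA0 := A_nonneg hA
  have hv := hA.vol
  generalize ℓ - lam * τ = A at hn hA0 hv
  have hr0 : (0 : ℝ) ≤ r := Nat.cast_nonneg r
  have ha0 : 0 < a := (mul_nonneg hA0 hr0).trans_lt hn
  obtain ⟨δ, hδ, hδa⟩ : ∃ δ : ℝ, 0 < δ ∧ (A + δ) * r < a := by
    refine ⟨(a - A * r) / (r + 1), div_pos (by linarith) (by linarith), ?_⟩
    have e : (a - A * r) / (r + 1) * (r + 1) = a - A * r := div_mul_cancel₀ _ (by linarith)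
    have e2 : 0 < (a - A * r) / (r + 1) := div_pos (by linarith) (by linarith)
    linarith
  have hc0 : 0 ≤ (A + δ) / a := div_nonneg (by linarith) ha0.le
  have hc1 : (A + δ) / a * r < 1 := by
    rw [div_mul_eq_mul_div, div_lt_one ha0]; exact hδa
  obtain ⟨U, hU, hI⟩ := h n r s 0 _ (Loc.an0 hs) hr hc0 hc1
  refine grow hA.top (half_pos hδ) hI ?_
  filter_upwards [ha, hA.loc U hU, hv _ (half_pos hδ)] with k h1 h2 h3
  have h4 : ENNReal.ofReal (Real.exp ((A + δ) * t k)) * volume (Ω k) ≤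
      ∫⁻ p in U, ENNReal.ofReal (‖s p‖ ^ 2) ^ (-((A + δ) / a)) := by
    refine le_trans ?_ (lintegral_mono_set h2)
    rw [← setLIntegral_const]
    refine setLIntegral_mono' (hA.meas k) fun p hp => ?_
    have e : ENNReal.ofReal (Real.exp ((A + δ) * t k)) =
        ENNReal.ofReal (Real.exp (-a * t k)) ^ (-((A + δ) / a)) := by
      rw [Loc.Flt.ofReal_exp_rpow]
      have e' : (A + δ) * t k = -a * t k * -((A + δ) / a) := by field_simp
      rw [← e']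
    rw [e, ENNReal.rpow_neg, ENNReal.rpow_neg]
    exact ENNReal.inv_le_inv.2 (ENNReal.rpow_le_rpow (ENNReal.ofReal_le_ofReal (h1 p hp)) hc0)
  have h5 := (mul_le_mul_right h3 _).trans h4
  rw [← ENNReal.ofReal_mul (Real.exp_pos _).le, ← Real.exp_add] at h5
  have e : δ / 2 * t k = (A + δ) * t k + -(A + δ / 2) * t k := by ring
  rw [e]
  exact h5

end FV1X

theorem fV1 (h : IntS) : V1S := by
  intro n L H F lam ℓ τ t Ω hA
  refine ⟨FV1X.A_nonneg hA, fun m s hs hs0 => ?_⟩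
  obtain ⟨C₀, hC₀⟩ := H.siegel
  have hbd : BddAbove
      {a : ℝ | ∀ᶠ k in atTop, ∀ p ∈ Ω k, ‖s p‖ ^ 2 ≤ Real.exp (-a * t k)} :=
    ⟨_, fun a ha => FV1X.bound h hA hs (hC₀ m s hs hs0) ha⟩
  have hne : Set.Nonempty
      {a : ℝ | ∀ᶠ k in atTop, ∀ p ∈ Ω k, ‖s p‖ ^ 2 ≤ Real.exp (-a * t k)} :=
    ⟨-1, FV1X.mem_neg hA hs (by norm_num)⟩
  refine ⟨?_, fun r hr => csSup_le hne fun a ha => FV1X.bound h hA hs hr ha, fun a => ⟨?_, ?_⟩⟩
  · refine le_of_forall_lt_imp_le_of_dense fun a ha => ?_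
    exact le_csSup hbd (FV1X.mem_neg hA hs ha)
  · intro ha ε hε
    obtain ⟨b, hb, hab⟩ := exists_lt_of_lt_csSup hne (show a - ε < vOf t Ω s by linarith)
    exact FV1X.down hA.top hab.le hb
  · intro ha
    refine le_of_forall_lt_imp_le_of_dense fun b hb => ?_
    have h1 := ha (a - b) (by linarith)
    rw [sub_sub_cancel] at h1
    exact le_csSup hbd h1

end Fuj
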