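import Vale.Agent.P271.FBasic

/-! Problem P271, part F: `vOf` is ultrametric and has a positive dimensional centre. -/

open MeasureTheory Set Filter Topology Metric
open scoped ENNReal NNReal

noncomputable section
namespace Fuj

namespace FV1bX

theorem big {t : ℕ → ℝ} (ht : Tendsto t atTop atTop) (C : ℝ) {ε : ℝ} (hε : 0 < ε) :
    ∀ᶠ k in atTop, C ≤ Real.exp (ε * t k) :=
  (Real.tendsto_exp_atTop.comp (ht.const_mul_atTop hε)).eventually_ge_atTop C

theorem near {n : ℕ} {s : Fin n → E n → ℂ} (h0 : ∀ i, s i 0 = 0)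
    (hd : HasFDerivAt (fun p i => s i p) (ContinuousLinearMap.id ℂ (E n)) 0) :
    ∀ᶠ p in 𝓝 (0 : E n), ‖p‖ ≤ 2 * ‖fun i => s i p‖ := by
  have h1 := (hasFDerivAt_iff_isLittleO_nhds_zero.1 hd).def (c := 1 / 2) (by norm_num)
  filter_upwards [h1] with p hp
  have e0 : (fun i => s i 0) = (0 : E n) := funext h0
  simp only [zero_add, e0, sub_zero, ContinuousLinearMap.id_apply] at hp
  have h2 : ‖p‖ ≤ ‖(fun i => s i p : E n)‖ + ‖(fun i => s i p : E n) - p‖ := by
    have := norm_sub_le (fun i => s i p : E n) ((fun i => s i p : E n) - p)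
    rwa [sub_sub_cancel] at this
  linarith

end FV1bX

open FV1bX in
theorem fV1b (h : V1S) : V1b := by
  intro n L H F lam ℓ τ t Ω hA
  obtain ⟨-, hv⟩ := h n L H F lam ℓ τ t Ω hA
  have hle : ∀ m, ∀ s ∈ L.V m, ∀ c : ℂ, s ≠ 0 → c ≠ 0 → vOf t Ω s ≤ vOf t Ω (c • s) := by
    intro m s hs c hs0 hc
    refine ((hv m _ ((L.V m).smul_mem c hs) (smul_ne_zero hc hs0)).2.2 _).2 ?_
    intro ε hε
    filter_upwards [((hv m s hs hs0).2.2 _).1 le_rfl (ε / 2) (by linarith),
      big hA.top (‖c‖ ^ 2) (ε := ε / 2) (by linarith)] with k h1 h2 p hp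
    rw [Pi.smul_apply, norm_smul, mul_pow]
    calc ‖c‖ ^ 2 * ‖s p‖ ^ 2
        ≤ Real.exp (ε / 2 * t k) * Real.exp (-(vOf t Ω s - ε / 2) * t k) :=
          mul_le_mul h2 (h1 p hp) (by positivity) (by positivity)
      _ = _ := by rw [← Real.exp_add]; congr 1; ring
  refine ⟨fun m => ⟨?_, ?_⟩, ?_⟩
  · intro s hs c hc
    by_cases hs0 : s = 0
    · rw [hs0, smul_zero]
    refine le_antisymm ?_ (hle m s hs c hs0 hc)
    have := hle m (c • s) ((L.V m).smul_mem c hs) c⁻¹ (smul_ne_zero hc hs0) (inv_ne_zero hc)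
    rwa [smul_smul, inv_mul_cancel₀ hc, one_smul] at this
  · intro s hs s' hs' hs0 hs0' hss
    refine ((hv m _ ((L.V m).add_mem hs hs') hss).2.2 _).2 ?_
    intro ε hε
    filter_upwards [((hv m s hs hs0).2.2 _).1 (min_le_left _ (vOf t Ω s')) (ε / 2) (by linarith),
      ((hv m s' hs' hs0').2.2 _).1 (min_le_right (vOf t Ω s) _) (ε / 2) (by linarith),
      big hA.top 4 (ε := ε / 2) (by linarith)] with k h1 h2 h3 p hp
    have h4 := h1 p hp
    have h5 := h2 p hp
    have h6 : ‖(s + s') p‖ ≤ ‖s p‖ + ‖s' p‖ := norm_add_le _ _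
    have h7 : ‖(s + s') p‖ ^ 2 ≤ (‖s p‖ + ‖s' p‖) ^ 2 :=
      pow_le_pow_left₀ (norm_nonneg _) h6 2
    calc ‖(s + s') p‖ ^ 2
        ≤ 4 * Real.exp (-(min (vOf t Ω s) (vOf t Ω s') - ε / 2) * t k) := by
          nlinarith [sq_nonneg (‖s p‖ - ‖s' p‖)]
      _ ≤ Real.exp (ε / 2 * t k) *
          Real.exp (-(min (vOf t Ω s) (vOf t Ω s') - ε / 2) * t k) :=
          mul_le_mul_of_nonneg_right h3 (by positivity)
      _ = _ := by rw [← Real.exp_add]; congr 1; ring
  · obtain ⟨q, -, -, s, hs, h0, hd⟩ := H.bpf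
    by_contra hcon
    have hpos : ∀ i, s i = 0 ∨ 0 < vOf t Ω (s i) := by
      intro i
      by_cases hi : s i = 0
      · exact Or.inl hi
      · refine Or.inr (lt_of_le_of_ne (hv q _ (hs i) hi).1 fun he => hcon ?_)
        exact ⟨q, s i, hs i, hi, h0 i, he.symm⟩
    have hev : ∀ᶠ a in 𝓝[>] (0 : ℝ), ∀ i, s i = 0 ∨ a ≤ vOf t Ω (s i) := by
      refine eventually_all.2 fun i => ?_
      rcases hpos i with hi | hi
      · exact Eventually.of_forall fun _ => Or.inl hi
      · filter_upwards [nhdsWithin_le_nhds (Iic_mem_nhds hi)] with a ha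
        exact Or.inr ha
    obtain ⟨a, ha, ha0⟩ := (hev.and self_mem_nhdsWithin).exists
    have ha0 : 0 < a := ha0
    have h1 : ∀ᶠ k in atTop, ∀ i, ∀ p ∈ Ω k, ‖s i p‖ ≤ Real.exp (-(a / 4) * t k) := by
      refine eventually_all.2 fun i => ?_
      by_cases hi : s i = 0
      · refine Eventually.of_forall fun k p _ => ?_
        rw [hi, Pi.zero_apply, norm_zero]
        positivity
      · have hai : a ≤ vOf t Ω (s i) := (ha i).resolve_left hi
        filter_upwards [((hv q _ (hs i) hi).2.2 a).1 hai (a / 2) (by linarith)] with k hk p hp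
        refine (pow_le_pow_iff_left₀ (norm_nonneg _) (by positivity) two_ne_zero).1 ?_
        refine (hk p hp).trans (le_of_eq ?_)
        rw [← Real.exp_nat_mul]; congr 1; push_cast; ring
    obtain ⟨k, ⟨⟨⟨hk1, hk2⟩, hk3⟩, hk4⟩, hk5⟩ := ((((h1.and (hA.loc _ (near h0 hd))).and
      (hA.vol 1 one_pos)).and (hA.away (a / 8) (by linarith))).and
      (big hA.top 3 (ε := a / 8) (by linarith))).exists
    have hne : (Ω k).Nonempty := by
      refine nonempty_of_measure_ne_zero (μ := volume) (ne_of_gt (lt_of_lt_of_le ?_ hk3))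
      exact ENNReal.ofReal_pos.2 (Real.exp_pos _)
    obtain ⟨p, hp⟩ := hne
    have h2 : ‖p‖ ≤ 2 * ‖fun i => s i p‖ := hk2 hp
    have h3 : ‖fun i => s i p‖ ≤ Real.exp (-(a / 4) * t k) :=
      (pi_norm_le_iff_of_nonneg (by positivity)).2 fun i => hk1 i p hp
    have h4 := hk4 p hp
    have h5 : Real.exp (-(a / 8) * t k) = Real.exp (a / 8 * t k) * Real.exp (-(a / 4) * t k) := by
      rw [← Real.exp_add]; congr 1; ring
    have h6 := Real.exp_pos (-(a / 4) * t k)
    nlinarith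

end Fuj
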