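import Vale.Agent.P271.FBasic

/-! Problem P271, part F: the minimiser is the filtration of the limit valuation. -/

open MeasureTheory Set Filter Topology Metric
open scoped ENNReal

noncomputable section
namespace Fuj

namespace FV2X

theorem ultra_shift {Y : Type} [AddCommGroup Y] [Module ℂ Y] {W : Submodule ℂ Y} {w : Y → ℝ}
    (h : Ultra W w) (c : ℝ) : Ultra W (fun s => w s + c) := by
  refine ⟨fun s hs a ha => by rw [h.smul s hs a ha], fun s hs s' hs' h0 h0' h1 => ?_⟩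
  have := h.add s hs s' hs' h0 h0' h1
  rw [min_add_add_right]
  linarith

end FV2X

theorem fV2 (h1 : V1S) (h2 : V1b) (h3 : MkS) (h4 : CmpS) : V2S := by
  intro n L H F lam θ ℓ τ t Ω hlam hθ hmin hA
  have hv := (h1 n L H F lam ℓ τ t Ω hA).2
  have hU := (h2 n L H F lam ℓ τ t Ω hA).1
  obtain ⟨G, hGa, hGF⟩ := h3 n L (fun m s => vOf t Ω s + τ * (m + 1))
    (fun m => FV2X.ultra_shift (hU (m + 1)) _)
  have hFG : F.Le G := by
    rw [F.le_iff]
    intro m i
    rw [hGF]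
    refine ⟨F.mem m i, Or.inr ?_⟩
    have hm : (0 : ℝ) < m + 1 := by positivity
    have : F.a m i - τ * (m + 1) ≤ vOf t Ω (F.s m i) := by
      rw [(hv (m + 1) _ (F.mem m i) (F.ne_zero m i)).2.2]
      intro ε hε
      filter_upwards [hA.sub (ε / (m + 1)) (by positivity) (m + 1)] with k hk p hp
      have h5 := hk hp m m.lt_succ_self i
      rw [← le_div_iff₀ (Real.exp_pos _), ← Real.exp_sub] at h5
      refine h5.trans (le_of_eq ?_)
      congr 1
      field_simp
      ring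
    linarith
  have hGL : G.LeL 0 lam ℓ := by
    refine G.leL_of_vol hlam.le fun M U hUn ε T hε => ?_
    have he : 0 < ε / (1 + lam) := by positivity
    have hall : ∀ᶠ k in atTop, ∀ j : L.Ix M, ∀ p ∈ Ω k,
        ‖G.s j.1 j.2 p‖ ^ 2 ≤ Real.exp (-(vOf t Ω (G.s j.1 j.2) - ε / (1 + lam)) * t k) :=
      eventually_all.2 fun j =>
        ((hv (j.1 + 1) _ (G.mem j.1 j.2) (G.ne_zero j.1 j.2)).2.2 _).1 le_rfl _ he
    obtain ⟨k, ⟨hk1, hk2⟩, ⟨hk3, hk4⟩, hk5⟩ := (((hA.top.eventually_ge_atTop T).and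
      (hA.top.eventually_ge_atTop 0)).and (((hA.loc U hUn).and hall).and (hA.vol _ he))).exists
    refine ⟨t k, τ + ε / (1 + lam), hk1, ?_⟩
    have e : ℓ + ε - lam * (τ + ε / (1 + lam)) = ℓ - lam * τ + ε / (1 + lam) := by
      field_simp
      ring
    rw [e]
    refine hk5.trans (measure_mono fun p hp => ⟨hk3 hp, fun m hm i => ?_⟩)
    have h5 := hk4 ⟨⟨m, hm⟩, i⟩ p hp
    simp only at h5
    rw [hGa]
    refine (mul_le_mul_of_nonneg_right h5 (Real.exp_pos _).le).trans ?_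
    rw [← Real.exp_add, Real.exp_le_exp]
    have h6 : 0 ≤ (m : ℝ) * (ε / (1 + lam) * t k) := by positivity
    nlinarith
  obtain ⟨hGs, -, hGle⟩ := h4 n L F G hFG hmin.sm
  have hlog := hmin.min G ℓ hGL hGs
  have hX : F.Xi ≤ G.Xi := by
    rw [← Real.log_le_log_iff (H.Xi_pos hmin.sm) (H.Xi_pos hGs)]
    exact le_of_mul_le_mul_left (by linarith) hθ
  have hGF' := hGle hX
  intro m x s
  have e : s ∈ F.Fil m x ↔ s ∈ G.Fil m x := ⟨fun h => hFG m x h, fun h => hGF' m x h⟩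
  rw [e, hGF]
  unfold Loc.Ge
  rw [sub_le_iff_le_add]

end Fuj
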