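import Vale.Agent.P271.FBasic

/-! Problem P271, part F: the valuation does not depend on the admissible family. -/

open MeasureTheory Set Filter Topology Metric
open scoped ENNReal

noncomputable section
namespace Fuj

namespace FV3X

variable {n : ℕ} {L : Loc n} {F : L.Flt} {lam ℓ τ : ℝ} {t : ℕ → ℝ} {Ω : ℕ → Set (E n)}

theorem adm_sub (h : F.Adm lam ℓ τ t Ω) {φ : ℕ → ℕ} (hφ : Tendsto φ atTop atTop)
    {Ω' : ℕ → Set (E n)} (hm : ∀ k, MeasurableSet (Ω' k)) (hs : ∀ k, Ω' k ⊆ Ω (φ k))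
    (hv : ∀ᶠ k in atTop, volume (Ω (φ k)) ≤ 2 * volume (Ω' k)) :
    F.Adm lam ℓ τ (fun k => t (φ k)) Ω' where
  top := h.top.comp hφ
  meas := hm
  loc U hU := (hφ.eventually (h.loc U hU)).mono fun k hk => (hs k).trans hk
  vol ε hε := by
    filter_upwards [hφ.eventually (h.vol (ε / 2) (half_pos hε)), hv,
      (h.top.comp hφ).eventually_ge_atTop (2 / ε)] with k h1 h2 h3
    have h4 : 2 ≤ t (φ k) * ε := (div_le_iff₀ hε).1 h3
    have h5 := Real.add_one_le_exp (ε / 2 * t (φ k))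
    have h6 : 2 * Real.exp (-(ℓ - lam * τ + ε) * t (φ k)) ≤
        Real.exp (-(ℓ - lam * τ + ε / 2) * t (φ k)) := by
      rw [show -(ℓ - lam * τ + ε / 2) * t (φ k) =
        ε / 2 * t (φ k) + -(ℓ - lam * τ + ε) * t (φ k) by ring, Real.exp_add]
      exact mul_le_mul_of_nonneg_right (by linarith) (Real.exp_pos _).le
    have h7 := ((ENNReal.ofReal_le_ofReal h6).trans h1).trans h2
    rw [ENNReal.ofReal_mul zero_le_two, ENNReal.ofReal_ofNat] at h7
    exact (ENNReal.mul_le_mul_iff_right two_ne_zero ENNReal.ofNat_ne_top).1 h7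
  sub ε hε M := (hφ.eventually (h.sub ε hε M)).mono fun k hk => (hs k).trans hk
  away ε hε := (hφ.eventually (h.away ε hε)).mono fun k hk p hp => hk p (hs k hp)

theorem le_of (h2 : V2S) (H : L.Hyp) {θ : ℝ} (hl : 0 < lam) (hθ : 0 < θ) (hM : F.IsMin lam θ ℓ)
    (h : F.Adm lam ℓ τ t Ω) {t' : ℕ → ℝ} {Ω' : ℕ → Set (E n)} (h' : F.Adm lam ℓ τ t' Ω') {m : ℕ}
    {s : E n → ℂ} (hs : s ∈ L.V (m + 1)) (h0 : s ≠ 0) : vOf t Ω s ≤ vOf t' Ω' s := by
  have h3 := (h2 n L H F lam θ ℓ τ t Ω hl hθ hM h m (vOf t Ω s + τ * (m + 1)) s).2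
    ⟨hs, Or.inr (by linarith)⟩
  have h4 := ((h2 n L H F lam θ ℓ τ t' Ω' hl hθ hM h' m _ s).1 h3).2.resolve_left h0
  linarith

theorem zero (h1 : V1S) (H : L.Hyp) (h : F.Adm lam ℓ τ t Ω) {s : E n → ℂ} (hs : s ∈ L.V 0)
    (h0 : s ≠ 0) : vOf t Ω s = 0 := by
  obtain ⟨C, hC⟩ := H.siegel
  obtain ⟨h3, h4, -⟩ := (h1 n L H F lam ℓ τ t Ω h).2 0 s hs h0
  exact le_antisymm (by simpa using h4 0 (hC 0 s hs h0)) h3

end FV3X

open FV3X

theorem fV3 (h1 : V1S) (h2 : V2S) : V3S := by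
  intro n L H F lam θ ℓ τ t Ω hl hθ hM h
  have p1 : ∀ t' Ω', F.Adm lam ℓ τ t' Ω' → ∀ m, ∀ s ∈ L.V m, s ≠ 0 →
      vOf t' Ω' s = vOf t Ω s := by
    intro t' Ω' h' m s hs h0
    cases m with
    | zero => rw [zero h1 H h hs h0, zero h1 H h' hs h0]
    | succ m => exact le_antisymm (le_of h2 H hl hθ hM h' h hs h0) (le_of h2 H hl hθ hM h h' hs h0)
  refine ⟨p1, fun m g hg h0 ε hε => ?_⟩
  have hB : ∀ k, MeasurableSet {p | Real.exp (-(vOf t Ω g + ε) * t k) ≤ ‖g p‖ ^ 2} := fun k =>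
    measurableSet_le measurable_const ((L.meas hg).norm.pow_const 2)
  refine adm_sub h tendsto_id (fun k => (h.meas k).inter (hB k)) (fun k => inter_subset_left) ?_
  by_contra hc
  obtain ⟨φ, hφ, hk⟩ := extraction_of_frequently_atTop (not_eventually.1 hc)
  have h' := adm_sub h hφ.tendsto_atTop
    (Ω' := fun k => Ω (φ k) \ {p | Real.exp (-(vOf t Ω g + ε) * t (φ k)) ≤ ‖g p‖ ^ 2})
    (fun k => (h.meas _).diff (hB _)) (fun k => sdiff_subset) (Eventually.of_forall fun k => by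
      have h3 := measure_inter_add_sdiff (μ := volume) (Ω (φ k)) (hB (φ k))
      have h4 := not_le.1 (hk k)
      rw [id, ← h3, two_mul] at h4
      rw [← h3, two_mul]
      exact add_le_add_left (le_of_lt (lt_of_add_lt_add_left h4)) _)
  have h5 := (((h1 n L H F lam ℓ τ _ _ h').2 m g hg h0).2.2 (vOf t Ω g + ε)).2 fun δ hδ => by
    filter_upwards [h'.top.eventually_ge_atTop 0] with k h6 p hp
    refine (not_le.1 hp.2).le.trans (Real.exp_le_exp.2 ?_)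
    nlinarith [mul_nonneg hδ.le h6]
  rw [p1 _ _ h' m g hg h0] at h5
  linarith

end Fuj
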