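import Vale.Agent.P271.FBasic

open MeasureTheory Set Filter Topology Metric
open scoped ENNReal

noncomputable section
namespace Fuj

theorem fVal (h1 : V1S) (h2 : V1b) (h3 : V2S) (h4 : V3S) : ValS := by
  intro n L H F lam θ ℓ τ t Ω hl hθ hmin hA
  obtain ⟨hA0, hv⟩ := h1 n L H F lam ℓ τ t Ω hA
  obtain ⟨hU, hpos⟩ := h2 n L H F lam ℓ τ t Ω hA
  have hfil := h3 n L H F lam θ ℓ τ t Ω hl hθ hmin hA
  obtain ⟨hsame, hcut⟩ := h4 n L H F lam θ ℓ τ t Ω hl hθ hmin hA
  refine ⟨hmin, ⟨fun hs h0 => (hv _ _ hs h0).1, fun hs hc => (hU _).smul _ hs _ hc,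
    fun hs hs' => (hU _).add _ hs _ hs', fun {m m' s s'} hs hs' h0 h0' => ?_, fun {m s} hs h0 => ?_,
    hpos⟩, hfil, fun m i => ?_, hA0, fun m s hs h0 => (hv m s hs h0).2.1,
    fun q g hg h0 hg0 M ε T hε => ?_⟩
  · have hss := L.mul hs hs'
    have hne := Loc.mul_ne_zero hs hs' h0 h0'
    refine le_antisymm (le_of_forall_pos_le_add fun ε hε => ?_) ?_
    · have hA' := hcut m' s' hs' h0' ε hε
      have key : vOf t Ω (s * s') - vOf t Ω s' - ε ≤ vOf t Ω s := by
        rw [← hsame _ _ hA' m s hs h0]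
        refine (((h1 n L H F lam ℓ τ t _ hA').2 m s hs h0).2.2 _).2 fun ε' hε' => ?_
        filter_upwards [((hv _ _ hss hne).2.2 _).1 le_rfl ε' hε'] with k hk p hp
        have e1 := hk p hp.1
        have e2 : Real.exp (-(vOf t Ω s' + ε) * t k) ≤ ‖s' p‖ ^ 2 := hp.2
        rw [Pi.mul_apply, norm_mul, mul_pow] at e1
        refine le_of_mul_le_mul_right ?_ (Real.exp_pos (-(vOf t Ω s' + ε) * t k))
        rw [← Real.exp_add]
        refine (mul_le_mul_of_nonneg_left e2 (sq_nonneg _)).trans (e1.trans (le_of_eq ?_))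
        congr 1; ring
      linarith
    · refine ((hv _ _ hss hne).2.2 _).2 fun ε hε => ?_
      filter_upwards [((hv _ _ hs h0).2.2 _).1 le_rfl (ε / 2) (half_pos hε),
        ((hv _ _ hs' h0').2.2 _).1 le_rfl (ε / 2) (half_pos hε)] with k hk hk' p hp
      rw [Pi.mul_apply, norm_mul, mul_pow]
      refine (mul_le_mul (hk p hp) (hk' p hp) (sq_nonneg _) (Real.exp_pos _).le).trans
        (le_of_eq ?_)
      rw [← Real.exp_add]
      congr 1; ring
  · have hne : s ≠ 0 := fun h => h0 (by rw [h]; rfl)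
    have := (hv m s hs hne).2.1 0 fun h => h0 h.eq_zero
    rw [Nat.cast_zero, mul_zero] at this
    exact le_antisymm this (hv m s hs hne).1
  · refine le_antisymm ?_ ?_
    · have := ((hfil m _ _).1 ((F.mem_Fil_iff m _ i).2 le_rfl)).2.resolve_left (F.ne_zero m i)
      linarith
    · exact (F.mem_Fil_iff m _ i).1 ((hfil m _ _).2 ⟨F.mem m i, Or.inr (by linarith)⟩)
  · have hA' := hcut q g hg h0 ε hε
    rw [hg0, zero_add] at hA'
    obtain ⟨k, hk1, hk2, hk3, hk4⟩ := ((hA'.top.eventually_ge_atTop T).and ((hA'.vol ε hε).and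
      ((hA'.loc _ (ball_mem_nhds 0 one_pos)).and (hA'.sub ε hε M)))).exists
    exact ⟨t k, hk1, hk2.trans (measure_mono fun p hp => ⟨⟨hk3 hp, hk4 hp⟩, hp.2⟩)⟩

end Fuj
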