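import Vale.Agent.P271.FMin
import Vale.Agent.P271.FSlice
import Vale.Agent.P271.FU4
import Vale.Agent.P271.FLsc
import Vale.Agent.P271.FU2
import Vale.Agent.P271.FU3
import Vale.Agent.P271.FNum
import Vale.Agent.P271.FChart
import Vale.Agent.P271.FV3
import Vale.Agent.P271.FKLm
import Vale.Agent.P271.FF5c
import Vale.Agent.P271.FExt
import Vale.Agent.P271.FPsi
import Vale.Agent.P271.FDown
import Vale.Agent.P271.FV1
import Vale.Agent.P271.FPtw
import Vale.Agent.P271.FU5a
import Vale.Agent.P271.FF0n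
import Vale.Agent.P271.FF5b
import Vale.Agent.P271.FOm
import Vale.Agent.P271.FU5b
import Vale.Agent.P271.FJet
import Vale.Agent.P271.FF0a
import Vale.Agent.P271.FVal
import Vale.Agent.P271.FSlab
import Vale.Agent.P271.FV2
import Vale.Agent.P271.FV1b
import Vale.Agent.P271.FF4
import Vale.Agent.P271.FF2
import Vale.Agent.P271.FPsiA
import Vale.Agent.P271.FHomL
import Vale.Agent.P271.FLim
import Vale.Agent.P271.FJet12
import Vale.Agent.P271.FCard
import Vale.Agent.P271.FIn
import Vale.Agent.P271.FShift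
import Vale.Agent.P271.FLb
import Vale.Agent.P271.FAdapt
import Vale.Agent.P271.FFilAd
import Vale.Agent.P271.FPerm
import Vale.Agent.P271.FCmp
import Vale.Agent.P271.FMono
import Vale.Agent.P271.FGS
import Vale.Agent.P271.FKL0
import Vale.Agent.P271.FTest
import Vale.Agent.P271.FOrdB
import Vale.Agent.P271.FF0
import Vale.Agent.P271.FNumIn
import Vale.Agent.P271.FMain

/-! Problem P271, part F: the variational argument. -/

namespace Fuj

theorem partF : PartF := by
  intro hKL hI n hn L
  have mk := fMk fAdapt fFilAd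
  have cmp := fCmp fPerm
  have pp := fPermP fPerm fFilAd
  have klm := fKLm hKL
  have cpt := fCpt (fExt fGS) (fLsc (fKL0 klm)) (fMono fElem)
  have j1 := fJet1 fCard fIn
  have j2 := fJet2 fIn (fHomL fCard fPoly) fLim
  have hb := fHb j1
  have psi := fPsi fPsiAbs
  have v1 := fV1 hI
  have v1b := fV1b v1
  have v2 := fV2 v1 v1b mk cmp
  have f5a := fF5a (fF4 psi) (fSlab (fSlice klm fChart) fChart) (fPtw fElem)
  exact partF_of (fF0 (fOrdB mk) (fF0a hI) fF0n j1 j2 (fJet fCard fPoly) hb)
    (fNum fU2 fU3 fU4 fU5a fU5b) fGrIn (fMin fLb1 (fLb2 hI) fTest hb cpt) (fF2 psi) (fOm fDown)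
    (fVal v1 v1b v2 (fV3 v1 v2)) (fNumIn fTest) (fF5b (fF5c f5a cpt pp) pp) fShift n hn L

end Fuj
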