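import Vale.Agent.P271.Geo

/-! Manifold layer: holomorphic functions, cocycles, Jacobians. -/

set_option linter.unusedSectionVars false

open MeasureTheory Set Filter Topology Metric
open scoped ENNReal ContDiff

noncomputable section
namespace Fuj

theorem analyticAt_det {n : ℕ} {F : Type*} [NormedAddCommGroup F] [NormedSpace ℂ F]
    {f : F → E n →L[ℂ] E n} {z : F} (hf : AnalyticAt ℂ f z) :
    AnalyticAt ℂ (fun y => (f y).det) z := by
  have e : (fun y => (f y).det) = fun y => ∑ σ : Equiv.Perm (Fin n), ((Equiv.Perm.sign σ : ℤ) : ℂ) *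
      ∏ i, f y (Pi.single i 1) (σ i) := funext fun y => by
    rw [ContinuousLinearMap.det, ← LinearMap.det_toMatrix', Matrix.det_apply']
    simp [LinearMap.toMatrix'_apply]
  rw [e]
  refine Finset.analyticAt_fun_sum _ fun σ _ => analyticAt_const.mul ?_
  refine Finset.analyticAt_fun_prod _ fun i _ => ?_
  exact analyticAt_pi_iff.1
    (((ContinuousLinearMap.apply ℂ (E n) (Pi.single i 1)).analyticAt _).comp hf) (σ i)

namespace Atl

variable {n : ℕ} {X : Type*} [TopologicalSpace X] [MeasurableSpace X] {A : Atl n X}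
  {F F' : Type*} [NormedAddCommGroup F] [NormedSpace ℂ F] [NormedAddCommGroup F'] [NormedSpace ℂ F']
  {i j : A.I} {p : X} {θ θ' : A.I → X → ℂ}

theorem mem_src (A : Atl n X) (p : X) : p ∈ (A.e (A.idx p)).source := A.K_sub _ (A.idx_mem p)

theorem tendsto_symm (hi : p ∈ (A.e i).source) : Tendsto (A.e i).symm (𝓝 (A.e i p)) (𝓝 p) :=
  (A.e i).tendsto_symm hi

theorem ev_src (hi : p ∈ (A.e i).source) : ∀ᶠ x in 𝓝 p, x ∈ (A.e i).source :=
  (A.e i).open_source.mem_nhds hi

theorem an_aux {f : X → F} (hi : p ∈ (A.e i).source) (hj : p ∈ (A.e j).source)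
    (h : AnalyticAt ℂ (fun z => f ((A.e j).symm z)) (A.e j p)) :
    AnalyticAt ℂ (fun z => f ((A.e i).symm z)) (A.e i p) := by
  have h1 := h.comp_of_eq (A.hol i j p hi hj) (by rw [(A.e i).left_inv hi])
  refine h1.congr ?_
  filter_upwards [(tendsto_symm hi).eventually (ev_src hj)] with z hz
  simp only [Function.comp, (A.e j).left_inv hz]

theorem an_iff {f : X → F} (hi : p ∈ (A.e i).source) :
    A.An p f ↔ AnalyticAt ℂ (fun z => f ((A.e i).symm z)) (A.e i p) :=
  ⟨an_aux hi (A.mem_src p), an_aux (A.mem_src p) hi⟩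

theorem an_iff' {f : X → F} {z : E n} (hz : z ∈ (A.e i).target) :
    A.An ((A.e i).symm z) f ↔ AnalyticAt ℂ (fun z => f ((A.e i).symm z)) z := by
  rw [an_iff ((A.e i).map_target hz), (A.e i).right_inv hz]

theorem An.congr {f g : X → F} (h : A.An p f) (e : f =ᶠ[𝓝 p] g) : A.An p g :=
  AnalyticAt.congr h ((tendsto_symm (A.mem_src p)).eventually e)

theorem An.cont {f : X → F} (h : A.An p f) : ContinuousAt f p := by
  have h1 := ContinuousAt.comp (f := A.e (A.idx p)) (AnalyticAt.continuousAt h)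
    ((A.e _).continuousAt (A.mem_src p))
  refine h1.congr ?_
  filter_upwards [ev_src (A.mem_src p)] with x hx
  simp only [Function.comp, (A.e _).left_inv hx]

theorem An.eventually [CompleteSpace F] {f : X → F} (h : A.An p f) : ∀ᶠ x in 𝓝 p, A.An x f := by
  filter_upwards [ev_src (A.mem_src p), ((A.e _).continuousAt (A.mem_src p)).eventually
    (AnalyticAt.eventually_analyticAt h)] with x h1 h2
  exact (an_iff h1).2 h2

theorem An.comp {f : X → F} {g : F → F'} (h : A.An p f) (hg : AnalyticAt ℂ g (f p)) :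
    A.An p fun x => g (f x) :=
  hg.comp_of_eq h (by rw [(A.e _).left_inv (A.mem_src p)])

theorem an_const (c : F) : A.An p fun _ => c := analyticAt_const

theorem An.add {f g : X → F} (h : A.An p f) (h' : A.An p g) : A.An p fun x => f x + g x :=
  AnalyticAt.add h h'

theorem An.sub {f g : X → F} (h : A.An p f) (h' : A.An p g) : A.An p fun x => f x - g x :=
  AnalyticAt.sub h h'

theorem An.mul {f g : X → ℂ} (h : A.An p f) (h' : A.An p g) : A.An p fun x => f x * g x :=
  AnalyticAt.mul h h'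

theorem An.pow {f : X → ℂ} (h : A.An p f) (k : ℕ) : A.An p fun x => f x ^ k :=
  AnalyticAt.pow h k

theorem An.div {f g : X → ℂ} (h : A.An p f) (h' : A.An p g) (h0 : g p ≠ 0) :
    A.An p fun x => f x / g x :=
  AnalyticAt.div h h' (by rwa [(A.e _).left_inv (A.mem_src p)])

theorem An.inv {g : X → ℂ} (h' : A.An p g) (h0 : g p ≠ 0) : A.An p fun x => (g x)⁻¹ :=
  AnalyticAt.inv h' (by rwa [(A.e _).left_inv (A.mem_src p)])

theorem an_sum {ι : Type*} (s : Finset ι) {f : ι → X → F} (h : ∀ a ∈ s, A.An p (f a)) :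
    A.An p fun x => ∑ a ∈ s, f a x := Finset.analyticAt_fun_sum s h

theorem an_prod {ι : Type*} (s : Finset ι) {f : ι → X → ℂ} (h : ∀ a ∈ s, A.An p (f a)) :
    A.An p fun x => ∏ a ∈ s, f a x := Finset.analyticAt_fun_prod s h

theorem an_pi {ι : Type*} [Fintype ι] {f : X → ι → F} :
    A.An p f ↔ ∀ a, A.An p fun x => f x a := analyticAt_pi_iff

theorem an_e (hj : p ∈ (A.e j).source) : A.An p (A.e j) := A.hol _ j p (A.mem_src p) hj

theorem rep_apply (θ : A.I → X → ℂ) (s : X → ℂ) (hi : p ∈ (A.e i).source) :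
    A.rep θ i s (A.e i p) = θ i p * s p := by rw [rep, (A.e i).left_inv hi]

theorem mem_Sec {s : X → ℂ} :
    s ∈ A.Sec θ ↔ ∀ i, ∀ p ∈ (A.e i).source, A.An p fun x => θ i x * s x :=
  ⟨fun h i _ hp => (an_iff hp).2 (h i _ ((A.e i).map_source hp)),
    fun h i _ hz => (an_iff' hz).1 (h i _ ((A.e i).map_target hz))⟩

theorem Coc.an (h : A.Coc θ) (hi : p ∈ (A.e i).source) (hj : p ∈ (A.e j).source) :
    A.An p fun x => θ j x / θ i x := (an_iff hi).2 (h.hol i j p hi hj)

theorem coc_of (h1 : ∀ i, Measurable (θ i)) (h2 : ∀ i, ∀ p ∈ (A.e i).source, θ i p ≠ 0)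
    (h3 : ∀ i j p, p ∈ (A.e i).source → p ∈ (A.e j).source → A.An p fun x => θ j x / θ i x) :
    A.Coc θ := ⟨h1, h2, fun i j p hi hj => (an_iff hi).1 (h3 i j p hi hj)⟩

theorem Coc.an_chg (h : A.Coc θ) {s : X → ℂ} (hi : p ∈ (A.e i).source) (hj : p ∈ (A.e j).source)
    (hs : A.An p fun x => θ i x * s x) : A.An p fun x => θ j x * s x := by
  refine ((h.an hi hj).mul hs).congr ?_
  filter_upwards [ev_src hi] with x hx
  have := h.ne i x hx
  field_simp

theorem Coc.mem_of_local (h : A.Coc θ) {s : X → ℂ}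
    (hs : ∀ p, ∃ i, p ∈ (A.e i).source ∧ A.An p fun x => θ i x * s x) : s ∈ A.Sec θ :=
  mem_Sec.2 fun _ p hp => let ⟨_, hi, h1⟩ := hs p; h.an_chg hi hp h1

theorem Coc.mul (h : A.Coc θ) (h' : A.Coc θ') : A.Coc (θ * θ') :=
  coc_of (fun i => (h.meas i).mul (h'.meas i)) (fun i p hp => mul_ne_zero (h.ne i p hp) (h'.ne i p hp))
    fun _ _ _ hi hj => ((h.an hi hj).mul (h'.an hi hj)).congr
      (Eventually.of_forall fun _ => by simp [div_mul_div_comm])

theorem Coc.pow (h : A.Coc θ) (m : ℕ) : A.Coc (θ ^ m) :=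
  coc_of (fun i => (h.meas i).pow_const m) (fun i p hp => pow_ne_zero m (h.ne i p hp))
    fun _ _ _ hi hj => ((h.an hi hj).pow m).congr (Eventually.of_forall fun _ => by simp [div_pow])

theorem Sec_mul {s s' : X → ℂ} (h : s ∈ A.Sec θ) (h' : s' ∈ A.Sec θ') : s * s' ∈ A.Sec (θ * θ') :=
  mem_Sec.2 fun i p hp => ((mem_Sec.1 h i p hp).mul (mem_Sec.1 h' i p hp)).congr
    (Eventually.of_forall fun _ => by simp [mul_mul_mul_comm])

theorem Coc.an_ratio (h : A.Coc θ) {s s' : X → ℂ} (hs : s ∈ A.Sec θ) (hs' : s' ∈ A.Sec θ)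
    (h0 : s' p ≠ 0) : A.An p fun x => s x / s' x := by
  have hp := A.mem_src p
  refine ((mem_Sec.1 hs _ p hp).div (mem_Sec.1 hs' _ p hp) (mul_ne_zero (h.ne _ p hp) h0)).congr ?_
  filter_upwards [ev_src hp] with x hx
  exact mul_div_mul_left _ _ (h.ne _ x hx)

theorem Coc.isOpen_ne (h : A.Coc θ) {s : X → ℂ} (hs : s ∈ A.Sec θ) : IsOpen {p | s p ≠ 0} := by
  refine isOpen_iff_mem_nhds.2 fun p hp => ?_
  have hi := A.mem_src p
  filter_upwards [(mem_Sec.1 hs _ p hi).cont.eventually_ne (mul_ne_zero (h.ne _ p hi) hp)] with x hx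
  exact right_ne_zero_of_mul hx

/-- The identity theorem. -/
theorem Coc.ident [PreconnectedSpace X] (h : A.Coc θ) {s : X → ℂ} (hs : s ∈ A.Sec θ)
    (h0 : ∀ᶠ x in 𝓝 p, s x = 0) : s = 0 := by
  have ho : IsOpen {p | ∀ᶠ x in 𝓝 p, s x = 0} := isOpen_setOfPred_eventually_nhds
  have hc : IsClosed {p | ∀ᶠ x in 𝓝 p, s x = 0} := by
    refine isClosed_of_closure_subset fun y hy => ?_
    have hi := A.mem_src y
    generalize A.idx y = i at hi
    obtain ⟨r, hr, hb⟩ := Metric.isOpen_iff.1 (A.e i).open_target _ ((A.e i).map_source hi)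
    have hn : (A.e i).source ∩ A.e i ⁻¹' ball (A.e i y) r ∈ 𝓝 y :=
      inter_mem (ev_src hi) (((A.e i).continuousAt hi).preimage_mem_nhds (ball_mem_nhds _ hr))
    obtain ⟨x, ⟨hx1, hx2⟩, hx3⟩ := mem_closure_iff_nhds.1 hy _ hn
    have h2 := ((hs i).mono hb).eqOn_zero_of_preconnected_of_eventuallyEq_zero
      (convex_ball _ _).isPreconnected hx2 (by
        filter_upwards [(tendsto_symm hx1).eventually hx3] with z hz
        simp [rep, hz])
    filter_upwards [hn] with u hu
    have := h2 hu.2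
    rw [rep_apply θ s hu.1] at this
    exact (mul_eq_zero.1 this).resolve_left (h.ne i u hu.1)
  have := IsClopen.eq_univ ⟨hc, ho⟩ ⟨p, h0⟩
  exact funext fun x => (eq_univ_iff_forall.1 this x).self_of_nhds

theorem Coc.dense_ne [PreconnectedSpace X] (h : A.Coc θ) {s : X → ℂ} (hs : s ∈ A.Sec θ)
    (h0 : s ≠ 0) : Dense {p | s p ≠ 0} := fun p => by
  by_contra hp
  refine h0 (h.ident (p := p) hs ?_)
  filter_upwards [isClosed_closure.isOpen_compl.mem_nhds hp] with x hx
  by_contra h1
  exact hx (subset_closure h1)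

theorem fderiv_chain {f : X → F} (hi : p ∈ (A.e i).source) (hj : p ∈ (A.e j).source)
    (hf : A.An p f) : fderiv ℂ (fun z => f ((A.e i).symm z)) (A.e i p) =
      (fderiv ℂ (fun z => f ((A.e j).symm z)) (A.e j p)).comp
        (fderiv ℂ (fun z => A.e j ((A.e i).symm z)) (A.e i p)) := by
  have h1 := ((an_iff hj).1 hf).differentiableAt
  have e : A.e j p = A.e j ((A.e i).symm (A.e i p)) := by rw [(A.e i).left_inv hi]
  rw [e] at h1 ⊢
  rw [← fderiv_fun_comp (f := fun z => A.e j ((A.e i).symm z)) (A.e i p) h1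
    (A.hol i j p hi hj).differentiableAt]
  refine Filter.EventuallyEq.fderiv_eq ?_
  filter_upwards [(tendsto_symm hi).eventually (ev_src hj)] with z hz
  rw [(A.e j).left_inv hz]

theorem jd_chain {f : X → E n} (hi : p ∈ (A.e i).source) (hj : p ∈ (A.e j).source)
    (hf : A.An p f) : A.jd i f p = A.jd j f p * A.jac i j p := by
  rw [jd, fderiv_chain hi hj hf]
  exact LinearMap.det_comp _ _

theorem jac_self (hi : p ∈ (A.e i).source) : A.jac i i p = 1 := by
  have : (fun z => A.e i ((A.e i).symm z)) =ᶠ[𝓝 (A.e i p)] id := by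
    filter_upwards [(A.e i).open_target.mem_nhds ((A.e i).map_source hi)] with z hz
    exact (A.e i).right_inv hz
  rw [jac, jd, this.fderiv_eq, fderiv_id]
  exact LinearMap.det_id

theorem jac_ne (hi : p ∈ (A.e i).source) (hj : p ∈ (A.e j).source) : A.jac i j p ≠ 0 := by
  have := jd_chain hj hi (an_e hj)
  rw [show A.jd j (A.e j) p = 1 from jac_self hj] at this
  exact left_ne_zero_of_mul_eq_one this.symm

theorem An.jd {f : X → E n} (hf : A.An p f) (hi : p ∈ (A.e i).source) : A.An p (A.jd i f) := by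
  refine (an_iff hi).2 ((analyticAt_det ((an_iff hi).1 hf).fderiv).congr ?_)
  filter_upwards [(A.e i).open_target.mem_nhds ((A.e i).map_source hi)] with z hz
  rw [Atl.jd, (A.e i).right_inv hz]

theorem an_jac (hi : p ∈ (A.e i).source) (hj : p ∈ (A.e j).source) : A.An p (A.jac i j) :=
  (an_e hj).jd hi

theorem kap_eq (hi : p ∈ (A.e i).source) (hj : p ∈ (A.e j).source) :
    A.kap i p = A.kap j p * A.jac i j p := by
  rw [kap, kap, indicator_of_mem hi, indicator_of_mem hj]
  exact jd_chain hi hj (an_e (A.mem_src p))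

end Atl

/-- A function that is continuous on the members of a countable measurable cover. -/
theorem measurable_of_pieces {X Y ι : Type*} [TopologicalSpace X] [MeasurableSpace X]
    [OpensMeasurableSpace X] [TopologicalSpace Y] [MeasurableSpace Y] [BorelSpace Y] [Countable ι]
    {f : X → Y} (s : ι → Set X) (hs : ∀ a, MeasurableSet (s a)) (hc : ∀ x, ∃ a, x ∈ s a)
    (hf : ∀ a, ContinuousOn f (s a)) : Measurable f := by
  refine measurable_of_isOpen fun U hU => ?_
  choose V hV using fun a => (continuousOn_iff'.1 (hf a)) U hU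
  have : f ⁻¹' U = ⋃ a, V a ∩ s a := by
    simp only [← fun a => (hV a).2, ← inter_iUnion, eq_univ_of_forall fun x => mem_iUnion.2 (hc x),
      inter_univ]
  rw [this]
  exact MeasurableSet.iUnion fun a => (hV a).1.measurableSet.inter (hs a)

/-- Extension by zero of a function that is continuous on a measurable set. -/
theorem measurable_indicator_of_contOn {X Y : Type*} [TopologicalSpace X] [MeasurableSpace X]
    [OpensMeasurableSpace X] [TopologicalSpace Y] [MeasurableSpace Y] [BorelSpace Y] [Zero Y]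
    {f : X → Y} {s : Set X} (hs : MeasurableSet s) (hf : ContinuousOn f s) :
    Measurable (s.indicator f) := by
  classical
  exact hf.measurable_piecewise continuousOn_const hs

namespace Atl

variable {n : ℕ} {X : Type*} [TopologicalSpace X] [MeasurableSpace X] [BorelSpace X]

theorem coc_kap (A : Atl n X) : A.Coc A.kap := by
  have hne : ∀ i, ∀ p ∈ (A.e i).source, A.kap i p ≠ 0 := fun i p hp => by
    rw [kap, indicator_of_mem hp]
    exact jac_ne hp (A.mem_src p)
  refine coc_of (fun i => ?_) hne fun i j p hi hj => ?_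
  · have e : A.kap i = fun p => ∑ j, ((A.e i).source ∩ A.idx ⁻¹' {j}).indicator (A.jac i j) p :=
      funext fun p => by
        rw [Finset.sum_eq_single (A.idx p) (fun j _ hj => indicator_of_notMem
          (fun h => hj (Eq.symm h.2)) _) (by simp)]
        by_cases hp : p ∈ (A.e i).source
        · rw [kap, indicator_of_mem hp,
            indicator_of_mem (mem_inter hp (mem_preimage.2 (mem_singleton _)))]
        · rw [kap, indicator_of_notMem hp, indicator_of_notMem fun h => hp h.1]
    rw [e]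
    refine Finset.measurable_sum _ fun j _ => measurable_indicator_of_contOn
      ((A.e i).open_source.measurableSet.inter (A.idx_meas j)) fun p hp => ?_
    exact (an_jac hp.1 (hp.2 ▸ A.mem_src p)).cont.continuousWithinAt
  · refine (an_jac hj hi).congr ?_
    filter_upwards [ev_src hi, ev_src hj] with x h1 h2
    rw [kap_eq h2 h1, mul_div_cancel_left₀ _ (hne i x h1)]

end Atl

end Fuj
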