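import Vale.Agent.P271.GBase

/-! Manifold layer: the graded ring of sections. -/

set_option linter.unusedSectionVars false

open MeasureTheory Set Filter Topology Metric
open scoped ENNReal ContDiff

noncomputable section
namespace Fuj
namespace Geo

open Atl

variable {n : ℕ} {X : Type*} [TopologicalSpace X] [MeasurableSpace X] {G : Geo n X}
  {m m' : ℕ} {s s' : X → ℂ} {i j : G.I} {p : X}

theorem cocR (G : Geo n X) (m : ℕ) : G.Coc (G.τ ^ m) := G.coc.pow m

theorem mem_R : s ∈ G.R m ↔ ∀ i, ∀ p ∈ (G.e i).source, G.An p fun x => G.τ i x ^ m * s x :=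
  mem_Sec

theorem rp_eq (m : ℕ) (i : G.I) (s : X → ℂ) (z : E n) :
    G.rp m i s z = G.τ i ((G.e i).symm z) ^ m * s ((G.e i).symm z) := rfl

theorem rp_apply (m : ℕ) (s : X → ℂ) (hi : p ∈ (G.e i).source) :
    G.rp m i s (G.e i p) = G.τ i p ^ m * s p := rep_apply _ s hi

theorem rp_an (h : s ∈ G.R m) (i : G.I) : AnalyticOnNhd ℂ (G.rp m i s) (G.e i).target := h i

theorem R_mul (h : s ∈ G.R m) (h' : s' ∈ G.R m') : s * s' ∈ G.R (m + m') := by
  rw [R, pow_add]
  exact Sec_mul h h'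

theorem rp_mul (m m' : ℕ) (i : G.I) (s s' : X → ℂ) (z : E n) :
    G.rp (m + m') i (s * s') z = G.rp m i s z * G.rp m' i s' z := by
  simp only [rp_eq, pow_add, Pi.mul_apply]
  ring

theorem const_mem (G : Geo n X) (c : ℂ) : (fun _ => c) ∈ G.R 0 :=
  mem_R.2 fun _ _ _ => (an_const c).congr (Eventually.of_forall fun _ => by simp)

theorem one_mem (G : Geo n X) : (1 : X → ℂ) ∈ G.R 0 := G.const_mem 1

theorem R_pow (h : s ∈ G.R m) (k : ℕ) : s ^ k ∈ G.R (k * m) := by
  induction k with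
  | zero => simpa using G.one_mem
  | succ k ih => rw [pow_succ, Nat.succ_mul]; exact R_mul ih h

theorem R_prod {ι : Type*} (u : Finset ι) {f : ι → X → ℂ} {d : ι → ℕ}
    (h : ∀ a ∈ u, f a ∈ G.R (d a)) : ∏ a ∈ u, f a ∈ G.R (∑ a ∈ u, d a) := by
  classical
  induction u using Finset.induction_on with
  | empty => simpa using G.one_mem
  | insert a u ha ih =>
    rw [Finset.prod_insert ha, Finset.sum_insert ha]
    exact R_mul (h a (Finset.mem_insert_self _ _))
      (ih fun b hb => h b (Finset.mem_insert_of_mem hb))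

theorem t_mem' (G : Geo n X) (a : Fin (G.N + 1)) : G.t a ∈ G.R G.q := G.t_mem a

theorem span_le (G : Geo n X) : Submodule.span ℂ (range G.t) ≤ G.R G.q :=
  Submodule.span_le.2 (range_subset_iff.2 G.t_mem')

/-- Homogeneous polynomials in sections are sections. -/
theorem hom_mem {ι : Type*} [Fintype ι] {y : ι → X → ℂ} (hy : ∀ a, y a ∈ G.R m)
    {F : MvPolynomial ι ℂ} {k : ℕ} (hF : F.IsHomogeneous k) :
    (fun p => MvPolynomial.eval (fun a => y a p) F) ∈ G.R (k * m) := by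
  have e : (fun p => MvPolynomial.eval (fun a => y a p) F) =
      ∑ d ∈ F.support, F.coeff d • ∏ a, y a ^ d a := funext fun p => by
    simp [MvPolynomial.eval_eq']
  rw [e]
  refine Submodule.sum_mem _ fun d hd => Submodule.smul_mem _ _ ?_
  have h1 := R_prod (G := G) Finset.univ (f := fun a => y a ^ d a) (d := fun a => d a * m)
    fun a _ => R_pow (hy a) (d a)
  have h2 : ∑ a, d a = k := by
    rw [← Finsupp.degree_eq_sum, Finsupp.degree_eq_weight_one]
    exact hF (MvPolynomial.mem_support_iff.1 hd)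
  rwa [← Finset.sum_mul, h2] at h1

theorem exists_t (G : Geo n X) (p : X) : ∃ a, G.t a p ≠ 0 := by
  by_contra h
  push Not at h
  have := G.unit p
  simp [h] at this

theorem an_ratio (h : s ∈ G.R m) (h' : s' ∈ G.R m) (h0 : s' p ≠ 0) :
    G.An p fun x => s x / s' x := (G.cocR m).an_ratio h h' h0

theorem isOpen_ne (h : s ∈ G.R m) : IsOpen {p | s p ≠ 0} := (G.cocR m).isOpen_ne h

theorem ident [PreconnectedSpace X] (h : s ∈ G.R m) (h0 : ∀ᶠ x in 𝓝 p, s x = 0) : s = 0 :=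
  (G.cocR m).ident h h0

theorem dense_ne [PreconnectedSpace X] (h : s ∈ G.R m) (h0 : s ≠ 0) : Dense {p | s p ≠ 0} :=
  (G.cocR m).dense_ne h h0

/-- The ring of sections is a domain. -/
theorem dom [PreconnectedSpace X] (h : s ∈ G.R m) (h' : s' ∈ G.R m') (h0 : s * s' = 0) :
    s = 0 ∨ s' = 0 := by
  refine or_iff_not_imp_left.2 fun hs => ?_
  obtain ⟨p, hp⟩ := Function.ne_iff.1 hs
  refine ident (p := p) h' ?_
  filter_upwards [(isOpen_ne h).mem_nhds hp] with x hx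
  exact (mul_eq_zero.1 (congrFun h0 x)).resolve_left hx

theorem sum_rp_t (hi : p ∈ (G.e i).source) :
    ∑ a, ‖G.rp G.q i (G.t a) (G.e i p)‖ ^ 2 = (‖G.τ i p‖ ^ 2) ^ G.q := by
  simp only [rp_apply _ _ hi, norm_mul, mul_pow, norm_pow, ← Finset.mul_sum, G.unit p, mul_one]
  ring

theorem cont_τ (hi : p ∈ (G.e i).source) : ContinuousAt (fun x => ‖G.τ i x‖) p := by
  have h1 : ContinuousAt (fun x => (∑ a, ‖G.τ i x ^ G.q * G.t a x‖ ^ 2) ^ (((2 * G.q : ℕ) : ℝ)⁻¹)) p :=
    (tendsto_finsetSum _ fun a _ => ((mem_R.1 (G.t_mem' a) i p hi).cont.norm.pow 2)).rpow_const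
      (Or.inr (by positivity))
  refine h1.congr (Eventually.of_forall fun x => ?_)
  have hq := G.q_pos
  simp only [norm_mul, mul_pow, norm_pow, ← Finset.mul_sum, G.unit x, mul_one]
  rw [← pow_mul, mul_comm G.q, Real.pow_rpow_inv_natCast (norm_nonneg _) (by omega)]

/-- The pointwise norm of a section is continuous. -/
theorem cont_norm (h : s ∈ G.R m) : Continuous fun p => ‖s p‖ := by
  refine continuous_iff_continuousAt.2 fun p => ?_
  have hi := G.mem_src p
  have h1 := ((mem_R.1 h _ p hi).cont.norm).div ((cont_τ hi).pow m)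
    (pow_ne_zero _ (norm_ne_zero_iff.2 (G.coc.ne _ p hi)))
  refine h1.congr ?_
  filter_upwards [ev_src hi] with x hx
  have := norm_ne_zero_iff.2 (G.coc.ne _ x hx)
  simp only [Pi.div_apply, norm_mul, norm_pow, Pi.pow_apply]
  field_simp

/-- The immersion property on the cone. -/
theorem imm' (hi : p ∈ (G.e i).source) {v : E n} {c : ℂ}
    (h : ∀ a, fderiv ℂ (G.rp G.q i (G.t a)) (G.e i p) v = c * G.rp G.q i (G.t a) (G.e i p)) :
    v = 0 := by
  obtain ⟨a, ha⟩ := G.exists_t p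
  have hz := (G.e i).map_source hi
  have hd := fun b => (rp_an (G.t_mem' b) i _ hz).differentiableAt.hasFDerivAt
  have h0 : G.rp G.q i (G.t a) (G.e i p) ≠ 0 := by
    rw [rp_apply _ _ hi]
    exact mul_ne_zero (pow_ne_zero _ (G.coc.ne i p hi)) ha
  have h1 := hasFDerivAt_pi.2 fun b => (hd b).mul ((hasFDerivAt_inv h0).comp _ (hd a))
  have h2 : (fun z b => G.t b ((G.e i).symm z) / G.t a ((G.e i).symm z)) =ᶠ[𝓝 (G.e i p)]
      fun z b => G.rp G.q i (G.t b) z * (G.rp G.q i (G.t a) z)⁻¹ := by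
    filter_upwards [(G.e i).open_target.mem_nhds hz] with z hz
    funext b
    rw [← div_eq_mul_inv, rp_eq, rp_eq,
      mul_div_mul_left _ _ (pow_ne_zero _ (G.coc.ne i _ ((G.e i).map_target hz)))]
  refine G.imm i p hi a ha ?_
  rw [(h1.congr_of_eventuallyEq h2).fderiv, map_zero]
  funext b
  simp [h]
  field_simp
  ring

theorem free_of_sec [BorelSpace X] {F : X → ℂ} (hF : F ∈ G.Sec (G.kap * G.τ ^ m)) {x : X}
    (hx : F x ≠ 0) : G.Free m x := by
  refine ⟨fun i => G.rep (G.kap * G.τ ^ m) i F, hF, fun i j p hi hj => ?_, G.idx x, G.mem_src x, ?_⟩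
  · simp only [rep_apply _ _ hi, rep_apply _ _ hj, Pi.mul_apply, Pi.pow_apply, kap_eq hi hj]
    ring
  · simp only [rep_apply _ _ (G.mem_src x)]
    exact mul_ne_zero ((G.coc_kap.mul (G.cocR m)).ne _ x (G.mem_src x)) hx

namespace Nrm

variable (ν : G.Nrm)

theorem y_R (a : Fin (n + 1)) : ν.y a ∈ G.R G.q := G.span_le (ν.y_mem a)

theorem cs_R : ν.cs ∈ G.R (ν.k * G.q) := hom_mem ν.y_R ν.hom

theorem eval_smul {ι : Type*} [Fintype ι] {F : MvPolynomial ι ℂ} {k : ℕ} (hF : F.IsHomogeneous k)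
    (l : ℂ) (T : ι → ℂ) :
    MvPolynomial.eval (fun a => l * T a) F = l ^ k * MvPolynomial.eval T F := by
  simp only [MvPolynomial.eval_eq', Finset.mul_sum]
  refine Finset.sum_congr rfl fun d hd => ?_
  have h2 : ∑ a, d a = k := by
    rw [← Finsupp.degree_eq_sum, Finsupp.degree_eq_weight_one]
    exact hF (MvPolynomial.mem_support_iff.1 hd)
  simp only [mul_pow, Finset.prod_mul_distrib, Finset.prod_pow_eq_pow_sum, h2]
  ring

theorem cs_ne : ν.cs ≠ 0 := fun h => ν.ne (ν.indep _ fun p l => by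
  rw [eval_smul ν.hom, show MvPolynomial.eval (fun a => ν.y a p) ν.C = 0 from congrFun h p,
    mul_zero])

theorem isOpen_W : IsOpen ν.W := isOpen_ne ν.cs_R

theorem dense_W [PreconnectedSpace X] : Dense ν.W := dense_ne ν.cs_R ν.cs_ne

theorem y0_ne (hp : p ∈ ν.W) : ν.y 0 p ≠ 0 := ν.c0 _ hp

theorem cons_w (hp : ν.y 0 p ≠ 0) (a : Fin (n + 1)) :
    ν.y a p = ν.y 0 p * (Fin.cons 1 (ν.w p) : Fin (n + 1) → ℂ) a := by
  refine Fin.cases (by simp) (fun j => ?_) a
  simp only [Fin.cons_succ, w]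
  field_simp

theorem cs_eq (hp : ν.y 0 p ≠ 0) : ν.cs p = ν.y 0 p ^ ν.k * ν.c (ν.w p) := by
  rw [cs, c, ← eval_smul ν.hom]
  exact congrArg (fun T => MvPolynomial.eval T ν.C) (funext (ν.cons_w hp))

theorem mem_W : p ∈ ν.W ↔ ν.y 0 p ≠ 0 ∧ ν.c (ν.w p) ≠ 0 :=
  ⟨fun h => ⟨ν.y0_ne h, right_ne_zero_of_mul ((ν.cs_eq (ν.y0_ne h)).symm.trans_ne h)⟩,
    fun h => by
      show ν.cs p ≠ 0
      rw [ν.cs_eq h.1]
      exact mul_ne_zero (pow_ne_zero _ h.1) h.2⟩

theorem an_w (hp : ν.y 0 p ≠ 0) : G.An p ν.w :=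
  an_pi.2 fun j => an_ratio (ν.y_R j.succ) (ν.y_R 0) hp

theorem jd_ne (hi : p ∈ (G.e i).source) (hp : p ∈ ν.W) : G.jd i ν.w p ≠ 0 := ν.et i p hi hp

theorem an_c : AnalyticOnNhd ℂ ν.c univ := fun z _ =>
  (AnalyticOnNhd.eval_mvPolynomial ν.C _ (mem_univ _)).comp (analyticAt_pi_iff.2 fun a =>
    Fin.cases analyticAt_const (fun j => (ContinuousLinearMap.proj (R := ℂ) (φ := fun _ => ℂ)
      j).analyticAt z) a)

end Nrm

end Geo
end Fuj
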