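import Vale.Agent.P271.Geo

/-! Taylor polynomials, Schwarz lemma, Liouville theorem. -/

set_option linter.unusedSectionVars false

open MeasureTheory Set Filter Topology Metric
open scoped ENNReal ContDiff

noncomputable section
namespace Fuj

variable {n : ℕ}

theorem gtay_term {k : ℕ} (p : ContinuousMultilinearMap ℂ (fun _ : Fin k => E n) ℂ) :
    ∃ Q : MvPolynomial (Fin n) ℂ, Q.totalDegree ≤ k ∧
      ∀ v : E n, (p fun _ => v) = MvPolynomial.eval v Q := by
  refine ⟨∑ β : Fin k → Fin n, MvPolynomial.C (p fun l => Pi.single (β l) 1) *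
    ∏ l, MvPolynomial.X (β l), ?_, fun v => ?_⟩
  · refine MvPolynomial.totalDegree_finsetSum_le fun β _ => ?_
    refine (MvPolynomial.totalDegree_mul _ _).trans ?_
    rw [MvPolynomial.totalDegree_C, zero_add]
    refine (MvPolynomial.totalDegree_finsetProd _ _).trans ?_
    simp
  · have hv : (fun _ : Fin k => v) = fun _ : Fin k => ∑ i, v i • (Pi.single i 1 : E n) := by
      funext l j
      simp [Finset.sum_apply, Pi.single_apply]
    rw [hv, ContinuousMultilinearMap.map_sum, map_sum]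
    refine Finset.sum_congr rfl fun β _ => ?_
    rw [ContinuousMultilinearMap.map_smul_univ]
    simp [mul_comm]

/-- `hf` gives a series `p`; `HasFPowerSeriesAt.isBigO_sub_partialSum_pow`. The term of degree `k`
is `p k (fun _ => v) = ∑ β : Fin k → Fin n, (∏ l, v (β l)) * p k (fun l => Pi.single (β l) 1)`
(`v = ∑ i, v i • Pi.single i 1`, `ContinuousMultilinearMap.map_sum`, `map_smul_univ`), the value of
the polynomial `∑ β, C (..) * ∏ l, X (β l)` of total degree at most `k`. -/
theorem exists_taylor {f : E n → ℂ} {y : E n} (hf : AnalyticAt ℂ f y) (d : ℕ) :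
    ∃ P : MvPolynomial (Fin n) ℂ, P.totalDegree ≤ d ∧
      Ord y (d + 1) fun z => f z - MvPolynomial.eval (z - y) P := by
  obtain ⟨p, hp⟩ := hf
  choose Q hQ hQ' using fun k => gtay_term (p k)
  refine ⟨∑ k ∈ Finset.range (d + 1), Q k, ?_, ?_⟩
  · exact MvPolynomial.totalDegree_finsetSum_le fun k hk =>
      (hQ k).trans (Nat.lt_succ_iff.1 (Finset.mem_range.1 hk))
  · have ht : Tendsto (fun z : E n => z - y) (𝓝 y) (𝓝 0) := tendsto_sub_nhds_zero_iff.2 tendsto_id
    refine ((hp.isBigO_sub_partialSum_pow (d + 1)).comp_tendsto ht).congr_left fun z => ?_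
    simp [FormalMultilinearSeries.partialSum, hQ']

/-- Choose Taylor polynomials `P a`; the vectors `fun α : Fin n → Fin (d + 1) => coeff α (P a)` are
linearly independent (a polynomial of total degree at most `d` with these coefficients zero is
zero); `LinearIndependent.fintype_card_le_finrank`. -/
theorem card_le_of_ord {ι : Type*} [Fintype ι] {f : ι → E n → ℂ} {y : E n} {d : ℕ}
    (hf : ∀ a, AnalyticAt ℂ (f a) y)
    (h : ∀ c : ι → ℂ, Ord y (d + 1) (fun z => ∑ a, c a * f a z) → c = 0) :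
    Fintype.card ι ≤ (d + 1) ^ n := by
  choose P hP hP' using fun a => exists_taylor (hf a) d
  have hli : LinearIndependent ℂ fun (a : ι) (α : Fin n → Fin (d + 1)) =>
      (P a).coeff (Finsupp.equivFunOnFinite.symm fun i => (α i : ℕ)) := by
    rw [Fintype.linearIndependent_iff]
    intro c hc
    have h0 : ∑ a, c a • P a = 0 := by
      ext m
      rw [MvPolynomial.coeff_sum, MvPolynomial.coeff_zero]
      by_cases hm : ∀ i, m i < d + 1
      · have := congrFun hc fun i => ⟨m i, hm i⟩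
        simpa [Finset.sum_apply] using this
      · obtain ⟨i, hi⟩ := not_forall.1 hm
        refine Finset.sum_eq_zero fun a _ => ?_
        have : m ∉ (P a).support := fun hs => hi (Nat.lt_succ_of_le
          (((MvPolynomial.monomial_le_degreeOf i hs).trans
            (MvPolynomial.degreeOf_le_totalDegree _ _)).trans (hP a)))
        rw [MvPolynomial.coeff_smul, MvPolynomial.notMem_support_iff.1 this, smul_zero]
    have h1 : Ord y (d + 1) fun z => ∑ a, c a * (f a z - MvPolynomial.eval (z - y) (P a)) :=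
      Asymptotics.IsBigO.fun_sum fun a _ => (hP' a).const_mul_left (c a)
    refine congrFun (h c (h1.congr_left fun z => ?_))
    have h2 := congrArg (MvPolynomial.eval (z - y)) h0
    simp only [map_sum, MvPolynomial.smul_eval, map_zero] at h2
    simp only [mul_sub, Finset.sum_sub_distrib, h2, sub_zero]
  simpa using hli.fintype_card_le_finrank

/-- For `j = i + 1`: `f y = 0` and `Complex.dist_le_mul_div_pow_of_mapsTo_ball_of_isLittleO`. -/
theorem schwarz_ord {f : E n → ℂ} {y : E n} {R M : ℝ} {j : ℕ} (hf : DifferentiableOn ℂ f (ball y R))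
    (hM : ∀ z ∈ ball y R, ‖f z‖ ≤ M) (ho : Ord y j f) :
    ∀ z ∈ ball y R, ‖f z‖ ≤ M * (‖z - y‖ / R) ^ j := by
  intro z hz
  cases j with
  | zero => simpa using hM z hz
  | succ i =>
    have h0 : f y = 0 := by
      obtain ⟨C, hC⟩ := Asymptotics.IsBigO.bound ho
      simpa using hC.self_of_nhds
    have ht : Tendsto (fun z : E n => z - y) (𝓝 y) (𝓝 0) := tendsto_sub_nhds_zero_iff.2 tendsto_id
    have h1 : (fun w => f w - f y) =o[𝓝 y] fun w => ‖w - y‖ ^ i := by
      simp only [h0, sub_zero]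
      exact Asymptotics.IsBigO.trans_isLittleO ho
        ((Asymptotics.isLittleO_norm_pow_norm_pow (Nat.lt_succ_self i)).comp_tendsto ht)
    have h2 := Complex.dist_le_mul_div_pow_of_mapsTo_ball_of_isLittleO (R₂ := M) hf
      (fun w hw => by rw [h0, mem_closedBall_zero_iff]; exact hM w hw) h1 hz
    rwa [h0, dist_zero_right, dist_eq_norm] at h2

/-- `schwarz_ord` on a small ball, `j → ∞`. -/
theorem ev_zero_of_ord {f : E n → ℂ} {y : E n} (hf : AnalyticAt ℂ f y) (h : ∀ j, Ord y j f) :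
    ∀ᶠ z in 𝓝 y, f z = 0 := by
  have h1 : ∀ᶠ z in 𝓝 y, ‖f z‖ ≤ ‖f y‖ + 1 :=
    hf.continuousAt.norm.eventually (ge_mem_nhds (lt_add_one _))
  obtain ⟨R, hR, hb⟩ := Metric.eventually_nhds_iff_ball.1 (hf.eventually_analyticAt.and h1)
  filter_upwards [ball_mem_nhds y hR] with z hz
  have h2 := fun j => schwarz_ord (fun w hw => (hb w hw).1.differentiableAt.differentiableWithinAt)
    (fun w hw => (hb w hw).2) (h j) z hz
  have h3 : Tendsto (fun j : ℕ => (‖f y‖ + 1) * (‖z - y‖ / R) ^ j) atTop (𝓝 ((‖f y‖ + 1) * 0)) :=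
    (tendsto_pow_atTop_nhds_zero_of_lt_one (by positivity)
      ((div_lt_one hR).2 (mem_ball_iff_norm.1 hz))).const_mul _
  rw [mul_zero] at h3
  exact norm_le_zero_iff.1 (ge_of_tendsto' h3 h2)

/-- `MvPolynomial.eval_eq'`; `‖z i‖ ≤ 1 + ‖z‖`. -/
theorem poly_growth {ι : Type*} [Fintype ι] (P : MvPolynomial ι ℂ) {d : ℕ} (h : P.totalDegree ≤ d) :
    ∃ A : ℝ, 0 ≤ A ∧ ∀ z : ι → ℂ, ‖MvPolynomial.eval z P‖ ≤ A * (1 + ‖z‖) ^ d := by
  refine ⟨∑ m ∈ P.support, ‖P.coeff m‖, by positivity, fun z => ?_⟩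
  rw [MvPolynomial.eval_eq', Finset.sum_mul]
  refine norm_sum_le_of_le _ fun m hm => ?_
  rw [norm_mul, norm_prod]
  refine mul_le_mul_of_nonneg_left ?_ (norm_nonneg _)
  have h1 : ∑ i, m i ≤ d := by
    have := MvPolynomial.le_totalDegree hm
    rw [Finsupp.sum_fintype _ _ fun _ => rfl] at this
    exact this.trans h
  calc ∏ i, ‖z i ^ m i‖ ≤ ∏ i, (1 + ‖z‖) ^ m i := by
        refine Finset.prod_le_prod (fun _ _ => norm_nonneg _) fun i _ => ?_
        rw [norm_pow]
        exact pow_le_pow_left₀ (norm_nonneg _) (by linarith [norm_le_pi_norm z i]) _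
    _ = (1 + ‖z‖) ^ ∑ i, m i := Finset.prod_pow_eq_pow_sum _ _ _
    _ ≤ _ := pow_le_pow_right₀ (by linarith [norm_nonneg z]) h1

/-- `P` the Taylor polynomial at `0` (`P274.analyticOnNhd_of_differentiable`); `schwarz_ord` for
`f - P` on the ball of radius `R` gives `A' (1 + R) ^ d (‖z‖ / R) ^ (d + 1) → 0`. -/
theorem liouville_poly {f : E n → ℂ} (hf : Differentiable ℂ f) {A : ℝ} {d : ℕ}
    (h : ∀ z, ‖f z‖ ≤ A * (1 + ‖z‖) ^ d) :
    ∃ P : MvPolynomial (Fin n) ℂ, P.totalDegree ≤ d ∧ ∀ z, f z = MvPolynomial.eval z P := by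
  obtain ⟨P, hP, ho⟩ := exists_taylor
    (Vale.Agent.P274.analyticOnNhd_of_differentiable hf 0 (mem_univ _)) d
  obtain ⟨B, hB, hb⟩ := poly_growth P hP
  have hA : 0 ≤ A := by simpa using (norm_nonneg _).trans (h 0)
  simp only [sub_zero] at ho
  have hd : Differentiable ℂ fun z : E n => MvPolynomial.eval z P := by
    simp only [MvPolynomial.eval_eq']
    fun_prop
  refine ⟨P, hP, fun z => ?_⟩
  have h1 : ∀ᶠ R : ℝ in atTop,
      ‖f z - MvPolynomial.eval z P‖ ≤ (A + B) * 2 ^ d * ‖z‖ ^ (d + 1) / R := by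
    filter_upwards [eventually_gt_atTop ‖z‖, eventually_ge_atTop 1] with R hz hR
    have hR0 : 0 < R := by linarith
    have h2 := schwarz_ord (R := R) (M := (A + B) * (2 * R) ^ d) (hf.sub hd).differentiableOn
      (fun w hw => ?_) ho z (mem_ball_zero_iff.2 hz)
    · refine h2.trans (le_of_eq ?_)
      rw [sub_zero, mul_pow, div_pow]
      field_simp
      ring
    · have h3 : (1 + ‖w‖) ^ d ≤ (2 * R) ^ d :=
        pow_le_pow_left₀ (by positivity) (by linarith [mem_ball_zero_iff.1 hw]) _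
      calc _ ≤ ‖f w‖ + ‖MvPolynomial.eval w P‖ := norm_sub_le _ _
        _ ≤ A * (1 + ‖w‖) ^ d + B * (1 + ‖w‖) ^ d := add_le_add (h w) (hb w)
        _ = (A + B) * (1 + ‖w‖) ^ d := by ring
        _ ≤ _ := mul_le_mul_of_nonneg_left h3 (by positivity)
  exact sub_eq_zero.1 (norm_le_zero_iff.1
    (ge_of_tendsto (tendsto_const_nhds.div_atTop tendsto_id) h1))

/-- `Q = ∑ k ∈ range (d + 1), X 0 ^ (d - k) * rename Fin.succ (homogeneousComponent k P)`. -/
theorem exists_homog (P : MvPolynomial (Fin n) ℂ) {d : ℕ} (h : P.totalDegree ≤ d) :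
    ∃ Q : MvPolynomial (Fin (n + 1)) ℂ, Q.IsHomogeneous d ∧
      ∀ z : E n, MvPolynomial.eval (Fin.cons 1 z) Q = MvPolynomial.eval z P := by
  refine ⟨∑ k ∈ Finset.range (P.totalDegree + 1), MvPolynomial.X 0 ^ (d - k) *
    MvPolynomial.rename Fin.succ (MvPolynomial.homogeneousComponent k P), ?_, fun z => ?_⟩
  · refine MvPolynomial.IsHomogeneous.sum _ _ _ fun k hk => ?_
    have hk' : k ≤ d := (Nat.lt_succ_iff.1 (Finset.mem_range.1 hk)).trans h
    have := (MvPolynomial.isHomogeneous_X_pow (R := ℂ) (0 : Fin (n + 1)) (d - k)).mul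
      ((MvPolynomial.homogeneousComponent_isHomogeneous k P).rename_isHomogeneous (f := Fin.succ))
    rwa [Nat.sub_add_cancel hk'] at this
  · conv_rhs => rw [← MvPolynomial.sum_homogeneousComponent P]
    rw [map_sum, map_sum]
    refine Finset.sum_congr rfl fun k _ => ?_
    rw [map_mul, map_pow, MvPolynomial.eval_X, Fin.cons_zero, one_pow, one_mul,
      MvPolynomial.eval_rename]
    rfl

end Fuj
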