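import Vale.Agent.P271.GSieg0
import Vale.Agent.P271.GTay

/-! The Siegel lemma. -/

set_option linter.unusedSectionVars false

open MeasureTheory Set Filter Topology Metric
open scoped ENNReal ContDiff

noncomputable section
namespace Fuj
namespace Geo

open Atl

variable {n : ℕ} {X : Type*} [TopologicalSpace X] [T2Space X] [CompactSpace X] [ConnectedSpace X]
  [SecondCountableTopology X] [MeasurableSpace X] [BorelSpace X] {G : Geo n X}

theorem gsieg_pos (G : Geo n X) (i : G.I) {p : X} (hp : p ∈ (G.e i).source) :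
    ∃ C₀ : ℕ, ∀ m, 1 ≤ m → ∀ s ∈ G.R m, s ≠ 0 → ¬ Ord (G.e i p) (C₀ * m + 1) (G.rp m i s) := by
  obtain ⟨R, hR, hsub⟩ := nhds_basis_closedBall.mem_iff.1
    ((G.e i).open_target.mem_nhds ((G.e i).map_source hp))
  obtain ⟨B, -, hB⟩ := τ_bound i (isCompact_closedBall _ R) hsub
  have hr : 0 < R * Real.exp (-1) := by positivity
  have hr' : R * Real.exp (-1) ≤ R :=
    mul_le_of_le_one_right hR.le (Real.exp_le_one_iff.2 (by norm_num))
  obtain ⟨c, hc⟩ := G.ctl
    ((G.e i).isOpen_inter_preimage (isOpen_ball (x := G.e i p) (ε := R * Real.exp (-1))))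
    ⟨p, hp, mem_ball_self hr⟩
  refine ⟨⌈c + 2 * B⌉₊, fun m hm s hs h0 ho => ?_⟩
  obtain ⟨p0, -, hp0⟩ := isCompact_univ.exists_isMaxOn ⟨p, mem_univ p⟩ (cont_norm hs).continuousOn
  have hM : 0 < ‖s p0‖ := by
    obtain ⟨x, hx⟩ := Function.ne_iff.1 h0
    exact (norm_pos_iff.2 hx).trans_le (hp0 (mem_univ x))
  have hs' : (s p0)⁻¹ • s ∈ G.R m := (G.R m).smul_mem _ hs
  have h1 : ∀ x, ‖((s p0)⁻¹ • s) x‖ ≤ 1 := fun x => by
    rw [Pi.smul_apply, norm_smul, norm_inv, ← div_eq_inv_mul, div_le_one hM]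
    exact hp0 (mem_univ x)
  have h2 : ‖((s p0)⁻¹ • s) p0‖ = 1 := by
    rw [Pi.smul_apply, norm_smul, norm_inv, inv_mul_cancel₀ hM.ne']
  have ho' : Ord (G.e i p) (⌈c + 2 * B⌉₊ * m + 1) (G.rp m i ((s p0)⁻¹ • s)) :=
    (Asymptotics.IsBigO.const_mul_left ho (s p0)⁻¹).congr_left fun z => by
      simp only [rp_eq, Pi.smul_apply, smul_eq_mul]; ring
  generalize (s p0)⁻¹ • s = u at hs' h1 h2 ho'
  have hsch := schwarz_ord (R := R) (M := Real.exp B ^ m)
    ((rp_an hs' i).mono (ball_subset_closedBall.trans hsub)).differentiableOn (fun z hz => by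
      rw [rp_eq, norm_mul, norm_pow]
      exact (mul_le_of_le_one_right (by positivity) (h1 _)).trans
        (pow_le_pow_left₀ (norm_nonneg _) (hB z (ball_subset_closedBall hz)).1 m)) ho'
  have h3 := hc m u hs' h1 (fun x hx => ?_) p0
  · have h4 : Real.exp (-(m : ℝ)) < 1 :=
      Real.exp_lt_one_iff.2 (neg_lt_zero.2 (by exact_mod_cast hm))
    linarith
  · have hz : G.e i x ∈ ball (G.e i p) R := ball_subset_ball hr' hx.2
    have h4 := hsch _ hz
    have h5 := (hB _ (ball_subset_closedBall hz)).2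
    rw [(G.e i).left_inv hx.1] at h5
    rw [rp_apply _ _ hx.1, norm_mul, norm_pow] at h4
    have h6 : ‖G.e i x - G.e i p‖ / R ≤ Real.exp (-1) := by
      rw [div_le_iff₀' hR, ← dist_eq_norm]
      exact le_of_lt hx.2
    have h7 := (mul_le_mul_of_nonneg_right (pow_le_pow_left₀ (Real.exp_pos _).le h5 m)
      (norm_nonneg (u x))).trans (h4.trans (mul_le_mul_of_nonneg_left
        (pow_le_pow_left₀ (by positivity) h6 _) (by positivity)))
    rw [← le_div_iff₀' (by positivity), ← Real.exp_nat_mul, ← Real.exp_nat_mul,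
      ← Real.exp_nat_mul, ← Real.exp_add, ← Real.exp_sub] at h7
    refine h7.trans (Real.exp_le_exp.2 ?_)
    have h8 := mul_le_mul_of_nonneg_right (Nat.le_ceil (c + 2 * B)) (Nat.cast_nonneg (α := ℝ) m)
    push_cast
    linarith

theorem gsieg_pow {s : X → ℂ} (hs : s ≠ 0) (h : s ∈ G.R 0) (j : ℕ) : s ^ j ∈ G.R 0 ∧ s ^ j ≠ 0 := by
  refine ⟨by simpa using R_pow h j, ?_⟩
  obtain ⟨x, hx⟩ := Function.ne_iff.1 hs
  exact Function.ne_iff.2 ⟨x, pow_ne_zero j hx⟩

/-- `closedBall (e p) (2 R) ⊆ target`, `V = source ∩ e ⁻¹' ball (e p) (R / exp 1)`, `c` from `ctl`, `B`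
from `τ_bound`, `C₁ ≥ c + 2 B`. For `m ≥ 1` scale `s` so that the maximum of `‖s‖` (`cont_norm`) is
`1`; `schwarz_ord` gives `‖s‖ ≤ exp (2 B m - C₁ m)` on `V`, so `1 ≤ exp (-m)`. For `m = 0`: if
`Ord 1` holds for `s ≠ 0` in `R 0` then `s ^ j * t a ∈ R q` is nonzero (`dom`) and has `Ord j` for
every `j`, contradicting the case `m = q`. -/
theorem siegel (G : Geo n X) : G.SiegelS := by
  intro i p hp
  obtain ⟨C₀, hC⟩ := G.gsieg_pos i hp
  refine ⟨C₀, fun m s hs h0 ho => ?_⟩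
  rcases Nat.eq_zero_or_pos m with rfl | hm
  swap
  · exact hC m hm s hs h0 ho
  obtain ⟨a, ha⟩ := G.exists_t p
  obtain ⟨h1, h2⟩ := gsieg_pow h0 hs (C₀ * G.q + 1)
  have h3 := R_mul h1 (G.t_mem' a)
  rw [zero_add] at h3
  refine hC G.q G.q_pos _ h3 (fun h => ?_) ?_
  · rcases dom h1 (G.t_mem' a) h with h | h
    · exact h2 h
    · exact ha (congrFun h p)
  · have h4 : G.rp G.q i (G.t a) =O[𝓝 (G.e i p)] fun _ => (1 : ℝ) :=
      (rp_an (G.t_mem' a) i _ ((G.e i).map_source hp)).continuousAt.isBigO_one ℝ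
    have h5 := (Asymptotics.IsBigO.pow ho (C₀ * G.q + 1)).mul h4
    refine h5.congr (fun z => ?_) fun z => ?_
    · simp only [rp_eq, Pi.mul_apply, Pi.pow_apply]; ring
    · simp

/-- `s - s p` vanishes at `p`, so its local form has `Ord 1` (differentiability). -/
theorem R_zero {s : X → ℂ} (hs : s ∈ G.R 0) (p p' : X) : s p = s p' := by
  have hp := G.mem_src p
  obtain ⟨C₀, hC⟩ := G.siegel _ p hp
  have h1 : s - (fun _ => s p) ∈ G.R 0 := (G.R 0).sub_mem hs (G.const_mem _)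
  by_contra hne
  refine hC 0 _ h1 (fun h => hne (sub_eq_zero.1 (congrFun h p')).symm) ?_
  have h2 := (rp_an h1 _ _ ((G.e _).map_source hp)).differentiableAt.isBigO_sub
  rw [rp_apply _ _ hp] at h2
  refine h2.norm_right.congr (fun z => ?_) fun z => ?_ <;> simp

/-- `card_le_of_ord` bounds the size of every linearly independent finite family in `R m` by
`(C₀ m + 1) ^ n ≤ (C₀ + 1) ^ n (m + 1) ^ n`; `rank_le`, `Module.finite_of_rank_eq_nat` /
`Module.rank_lt_aleph0_iff`, `Module.finrank_le_of_rank_le`. -/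
theorem grow (G : Geo n X) : G.GrowS := by
  obtain ⟨p⟩ : Nonempty X := inferInstance
  have hp := G.mem_src p
  obtain ⟨C₀, hC⟩ := G.siegel _ p hp
  have h1 : ∀ m, Module.rank ℂ (G.R m) ≤ ((C₀ * m + 1) ^ n : ℕ) := fun m => by
    refine rank_le fun S hS => ?_
    rw [← Fintype.card_coe]
    refine card_le_of_ord (f := fun a : S => G.rp m (G.idx p) (a.1 : G.R m).1)
      (y := G.e (G.idx p) p) (fun a => rp_an a.1.2 _ _ ((G.e _).map_source hp)) fun c hc => ?_
    have h2 : ∑ a : S, c a • (a.1 : G.R m) = 0 := by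
      by_contra hne
      refine hC m _ (∑ a : S, c a • (a.1 : G.R m)).2 (fun h => hne (Subtype.ext h)) ?_
      refine Asymptotics.IsBigO.congr_left hc fun z => ?_
      simp only [rp_eq, AddSubmonoidClass.coe_finsetSum, SetLike.val_smul, Finset.sum_apply,
        Pi.smul_apply, smul_eq_mul, Finset.mul_sum, mul_left_comm]
    exact funext (Fintype.linearIndependent_iff.1 hS c h2)
  refine ⟨fun m => Module.rank_lt_aleph0_iff.1 ((h1 m).trans_lt (Cardinal.natCast_lt_aleph0)),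
    (C₀ + 1) ^ n, fun m => (Module.finrank_le_of_rank_le (h1 m)).trans ?_⟩
  rw [← mul_pow]
  exact Nat.pow_le_pow_left (by nlinarith) n

end Geo
end Fuj
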