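import Vale.Agent.P271.GNrm0
import Vale.Agent.P271.GSieg

/-! Existence of the normalisation. -/

set_option linter.unusedSectionVars false

open MeasureTheory Set Filter Topology Metric
open scoped ENNReal ContDiff

noncomputable section
namespace Fuj
namespace Geo

open Atl

variable {n : ℕ} {X : Type*} [TopologicalSpace X] [T2Space X] [CompactSpace X] [ConnectedSpace X]
  [SecondCountableTopology X] [MeasurableSpace X] [BorelSpace X] {G : Geo n X}

theorem gnrm_mv {ι : Type*} {T : ℂ → ι → ℂ} {ζ : ℂ} (hT : ∀ i, HasDerivAt (fun x => T x i) 0 ζ)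
    (c : MvPolynomial ι ℂ) : HasDerivAt (fun x => MvPolynomial.eval (T x) c) 0 ζ := by
  induction c using MvPolynomial.induction_on with
  | C c => simpa using hasDerivAt_const ζ c
  | add a b ha hb => simpa using ha.fun_add hb
  | mul_X a i ha => simpa using ha.fun_mul (hT i)

theorem gnrm_poly {ι : Type*} {T : ℂ → ι → ℂ} {Y : ℂ → ℂ} {ζ Y' : ℂ}
    (hT : ∀ i, HasDerivAt (fun x => T x i) 0 ζ) (hY : HasDerivAt Y Y' ζ)
    (μ : Polynomial (MvPolynomial ι ℂ)) :
    HasDerivAt (fun x => μ.eval₂ (MvPolynomial.eval (T x)) (Y x))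
      (μ.derivative.eval₂ (MvPolynomial.eval (T ζ)) (Y ζ) * Y') ζ := by
  induction μ using Polynomial.induction_on' with
  | add a b ha hb =>
    simp only [Polynomial.eval₂_add, map_add, add_mul]
    exact ha.fun_add hb
  | monomial k c =>
    simp only [Polynomial.derivative_monomial, Polynomial.eval₂_monomial, map_mul, map_natCast]
    refine ((gnrm_mv hT c).fun_mul (hY.fun_pow k)).congr_deriv ?_
    ring

theorem gnrm_line {F : Type*} [NormedAddCommGroup F] [NormedSpace ℂ F] {g : E n → F} {z : E n}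
    (hg : DifferentiableAt ℂ g z) (v : E n) :
    HasDerivAt (fun ζ : ℂ => g (z + ζ • v)) (fderiv ℂ g z v) 0 := by
  have h1 : HasDerivAt (fun ζ : ℂ => z + ζ • v) v 0 := by
    simpa using ((hasDerivAt_id (0 : ℂ)).smul_const v).const_add z
  exact hg.hasFDerivAt.comp_hasDerivAt_of_eq 0 h1 (by simp)

/-- Put `l₀ = l * y 0 p`, `w x = (y j.succ x / y 0 x)_j`, `f a x = t a x / y 0 x`. Near `p`,
`μ (l₀ (1, w x); l₀ f a x) = 0` (take `l' = l₀ / y 0 x`). Write `μ.eval₂ (eval T) Y` as
`∑ j, eval T (coeff j) * Y ^ j` and differentiate along the line `e p + ζ v` where the derivative of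
`w` vanishes in the direction `v`: `μ' * l₀ * d f a (v) = 0`. Then
`rp (t a) = f a * rp (y 0)` near `e p` and `imm'`. -/
theorem et_inj {d : ℕ} {y : Fin (d + 1) → X → ℂ} (hy : ∀ i, y i ∈ G.R G.q) {p : X} {i : G.I}
    (hi : p ∈ (G.e i).source) (h0 : y 0 p ≠ 0) {l : ℂ} (hl : l ≠ 0)
    (h : ∀ a, ∃ μ : Polynomial (MvPolynomial (Fin (d + 1)) ℂ),
      (∀ (p' : X) (l' : ℂ), μ.eval₂ (MvPolynomial.eval fun i => l' * y i p') (l' * G.t a p') = 0) ∧
      μ.derivative.eval₂ (MvPolynomial.eval fun i => l * y i p) (l * G.t a p) ≠ 0) :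
    Function.Injective (fderiv ℂ
      (fun z (j : Fin d) => y j.succ ((G.e i).symm z) / y 0 ((G.e i).symm z)) (G.e i p)) := by
  refine (injective_iff_map_eq_zero _).2 fun v hv => ?_
  have hr : ∀ {s : X → ℂ}, s ∈ G.R G.q → AnalyticAt ℂ
      (fun z => s ((G.e i).symm z) / y 0 ((G.e i).symm z)) (G.e i p) := fun hs =>
    (an_iff hi).1 (an_ratio hs (hy 0) h0)
  have hev : ∀ᶠ z in 𝓝 (G.e i p), y 0 ((G.e i).symm z) ≠ 0 :=
    (tendsto_symm hi).eventually ((isOpen_ne (hy 0)).mem_nhds h0)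
  have hp : (G.e i).symm (G.e i p) = p := (G.e i).left_inv hi
  have hd : ∀ j, fderiv ℂ (fun z => y j ((G.e i).symm z) / y 0 ((G.e i).symm z)) (G.e i p) v = 0 := by
    intro j
    refine Fin.cases ?_ (fun j => ?_) j
    · have e : (fun z => y 0 ((G.e i).symm z) / y 0 ((G.e i).symm z)) =ᶠ[𝓝 (G.e i p)]
          fun _ => 1 := hev.mono fun z hz => div_self hz
      rw [e.fderiv_eq]
      simp
    · rw [fderiv_pi fun j : Fin d => (hr (hy j.succ)).differentiableAt] at hv
      exact congrFun hv j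
  have hf : ∀ a, fderiv ℂ (fun z => G.t a ((G.e i).symm z) / y 0 ((G.e i).symm z))
      (G.e i p) v = 0 := by
    intro a
    obtain ⟨μ, h1, h2⟩ := h a
    have h3 := gnrm_poly
      (T := fun ζ j => l * y 0 p * (y j ((G.e i).symm (G.e i p + ζ • v)) /
        y 0 ((G.e i).symm (G.e i p + ζ • v))))
      (fun j => by
        simpa only [hd j, mul_zero] using
          (gnrm_line (hr (hy j)).differentiableAt v).const_mul (l * y 0 p))
      ((gnrm_line (hr (G.t_mem' a)).differentiableAt v).const_mul (l * y 0 p)) μ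
    have e : ∀ u w : ℂ, l * y 0 p * (u / w) = l * y 0 p / w * u := fun u w => by ring
    simp only [e, h1, zero_smul, add_zero, hp, mul_div_cancel_right₀ l h0] at h3
    have h4 := h3.unique (hasDerivAt_const _ _)
    exact (mul_eq_zero.1 ((mul_eq_zero.1 h4).resolve_left h2)).resolve_left (mul_ne_zero hl h0)
  have hz : G.e i p ∈ (G.e i).target := (G.e i).map_source hi
  have hτ : G.τ i p ^ G.q ≠ 0 := pow_ne_zero _ (G.coc.ne i p hi)
  refine imm' hi (c := fderiv ℂ (G.rp G.q i (y 0)) (G.e i p) v / (G.τ i p ^ G.q * y 0 p))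
    fun a => ?_
  have e : G.rp G.q i (G.t a) =ᶠ[𝓝 (G.e i p)] fun z =>
      G.t a ((G.e i).symm z) / y 0 ((G.e i).symm z) * G.rp G.q i (y 0) z :=
    hev.mono fun z hz => by
      simp only [rp_eq]
      field_simp
  rw [e.fderiv_eq, fderiv_fun_mul (hr (G.t_mem' a)).differentiableAt
    (rp_an (hy 0) i _ hz).differentiableAt]
  simp only [add_apply, smul_apply, hf, smul_eq_mul,
    mul_zero, add_zero, hp, rp_apply _ _ hi]
  field_simp

/-- The monomials `y 0 ^ (k d - |α|) ∏ y j.succ ^ α j`, `α : Fin d → Fin (k + 1)`, are linearly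
independent in `R (k d q)` (`Nrm.eval_smul`), so `(k + 1) ^ d ≤ C (k d q + 1) ^ n` for all `k`. -/
theorem dim_le {d : ℕ} {y : Fin (d + 1) → X → ℂ} (hy : ∀ i, y i ∈ G.R G.q)
    (h : ∀ F : MvPolynomial (Fin (d + 1)) ℂ,
      (∀ (p : X) (l : ℂ), MvPolynomial.eval (fun i => l * y i p) F = 0) → F = 0) : d ≤ n := by
  obtain ⟨hfd, C, hC⟩ := grow G
  have key : ∀ k : ℕ, (k + 1) ^ d ≤ C * (k * d * G.q + 1) ^ n := by
    intro k
    have := hfd (k * d * G.q)
    obtain ⟨ex, hex⟩ : ∃ ex : (Fin d → Fin (k + 1)) → Fin (d + 1) →₀ ℕ, ∀ α, ex α =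
        Finsupp.cons (k * d - ∑ j, (α j : ℕ)) (Finsupp.equivFunOnFinite.symm fun j => (α j : ℕ)) :=
      ⟨_, fun _ => rfl⟩
    have hinj : Function.Injective ex := by
      intro α β hαβ
      funext j
      have := DFunLike.congr_fun hαβ j.succ
      rw [hex, hex, Finsupp.cons_succ, Finsupp.cons_succ] at this
      exact Fin.ext this
    have hhom : ∀ α (c : ℂ), (MvPolynomial.monomial (ex α) c).IsHomogeneous (k * d) := by
      intro α c
      refine MvPolynomial.isHomogeneous_monomial _ ?_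
      have h1 : ∑ j, (α j : ℕ) ≤ k * d := by
        calc ∑ j, (α j : ℕ) ≤ ∑ _j : Fin d, k :=
              Finset.sum_le_sum fun j _ => Nat.lt_succ_iff.1 (α j).2
          _ = k * d := by simp [mul_comm]
      rw [Finsupp.degree_eq_sum, Fin.sum_univ_succ, hex]
      simp only [Finsupp.cons_zero, Finsupp.cons_succ, Finsupp.coe_equivFunOnFinite_symm]
      omega
    have hli : LinearIndependent ℂ fun α : Fin d → Fin (k + 1) =>
        (⟨_, hom_mem hy (hhom α 1)⟩ : G.R (k * d * G.q)) := by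
      refine Fintype.linearIndependent_iff.2 fun g hg α => ?_
      have hF : ∑ β, MvPolynomial.monomial (ex β) (g β) = 0 := by
        refine h _ fun p l => ?_
        have h1 := congrFun (congrArg Subtype.val hg) p
        simp only [AddSubmonoidClass.coe_finsetSum, SetLike.val_smul, Finset.sum_apply,
          Pi.smul_apply, smul_eq_mul, ZeroMemClass.coe_zero, Pi.zero_apply,
          MvPolynomial.eval_monomial, one_mul] at h1
        rw [Nrm.eval_smul (MvPolynomial.IsHomogeneous.sum _ _ _ fun β _ => hhom β (g β)), map_sum]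
        simp only [MvPolynomial.eval_monomial, h1, mul_zero]
      have h2 := congrArg (MvPolynomial.coeff (ex α)) hF
      classical
      simpa [MvPolynomial.coeff_sum, MvPolynomial.coeff_monomial, hinj.eq_iff] using h2
    have h3 := hli.fintype_card_le_finrank.trans (hC _)
    simpa using h3
  by_contra hd
  have h1 := key (C * (d * G.q + 1) ^ n)
  generalize hk : C * (d * G.q + 1) ^ n = k at h1
  have h2 : (k + 1) ^ (n + 1) ≤ (k + 1) ^ d := Nat.pow_le_pow_right k.succ_pos (by omega)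
  have h3 : (k * d * G.q + 1) ^ n ≤ ((d * G.q + 1) * (k + 1)) ^ n :=
    Nat.pow_le_pow_left (by nlinarith [Nat.zero_le (d * G.q)]) n
  have h4 := h2.trans (h1.trans (Nat.mul_le_mul_left C h3))
  rw [mul_pow, ← mul_assoc, hk, pow_succ'] at h4
  have h5 := Nat.le_of_mul_le_mul_right h4 (by positivity)
  omega

/-- `pre_nrm`; `n ≤ d` by `et_inj` at a point where `C (y) ≠ 0`
(`LinearMap.finrank_le_finrank_of_injective`); `subst`; an injective endomorphism has nonzero
determinant (`LinearMap.bot_lt_ker_of_det_eq_zero`). -/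
theorem exists_nrm (G : Geo n X) : Nonempty G.Nrm := by
  obtain ⟨d, y, h1, h2, h3, ⟨D₀, h4⟩, k, C, h5, h6, h7, h8⟩ := pre_nrm G
  have hy : ∀ i, y i ∈ G.R G.q := fun i => G.span_le (h1 i)
  have hinj : ∀ i, ∀ p ∈ (G.e i).source, MvPolynomial.eval (fun j => y j p) C ≠ 0 →
      Function.Injective (fderiv ℂ
        (fun z (j : Fin d) => y j.succ ((G.e i).symm z) / y 0 ((G.e i).symm z)) (G.e i p)) := by
    intro i p hi hp
    obtain ⟨l, hl, h⟩ := h8 p hp
    exact et_inj hy hi (h7 _ hp) hl h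
  obtain ⟨p, hp⟩ : ∃ p, MvPolynomial.eval (fun j => y j p) C ≠ 0 := by
    by_contra hc
    push Not at hc
    exact h6 (h3 C fun p l => by rw [Nrm.eval_smul h5, hc, mul_zero])
  have hnd : n ≤ d := by
    have := LinearMap.finrank_le_finrank_of_injective
      (f := (fderiv ℂ (fun z (j : Fin d) => y j.succ ((G.e (G.idx p)).symm z) /
        y 0 ((G.e (G.idx p)).symm z)) (G.e (G.idx p) p)).toLinearMap)
      (hinj _ p (G.mem_src p) hp)
    simpa using this
  obtain rfl : d = n := le_antisymm (dim_le hy h3) hnd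
  refine ⟨⟨y, h1, h2, h3, k, C, h5, h6, h7, fun i p hi hp h0 => ?_, D₀, h4⟩⟩
  exact (LinearMap.bot_lt_ker_of_det_eq_zero h0).ne' (LinearMap.ker_eq_bot.2 (hinj i p hi hp))

end Geo
end Fuj
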