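import Vale.Agent.P271.GRoots
import Vale.Agent.P271.GNrm

/-! Characters are evaluations. -/

set_option linter.unusedSectionVars false

open MeasureTheory Set Filter Topology Metric
open scoped ENNReal ContDiff

noncomputable section
namespace Fuj
namespace Geo

open Atl

variable {n : ℕ} {X : Type*} [TopologicalSpace X] [T2Space X] [CompactSpace X] [ConnectedSpace X]
  [SecondCountableTopology X] [MeasurableSpace X] [BorelSpace X] {G : Geo n X}

/-- A character of the graded ring. -/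
structure gchow_Ch (G : Geo n X) (φ : ℕ → (X → ℂ) → ℂ) : Prop where
  add : ∀ k, ∀ s ∈ G.R (k * G.q), ∀ s' ∈ G.R (k * G.q), φ k (s + s') = φ k s + φ k s'
  smul : ∀ k, ∀ s ∈ G.R (k * G.q), ∀ c : ℂ, φ k (c • s) = c * φ k s
  mul : ∀ k k', ∀ s ∈ G.R (k * G.q), ∀ s' ∈ G.R (k' * G.q),
    φ (k + k') (s * s') = φ k s * φ k' s'
  one : φ 0 1 = 1

/-- `s` has degree `k` and value `c`. -/
def gchow_Rel (G : Geo n X) (φ : ℕ → (X → ℂ) → ℂ) (k : ℕ) (s : X → ℂ) (c : ℂ) : Prop :=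
  s ∈ G.R (k * G.q) ∧ φ k s = c

section
variable {φ : ℕ → (X → ℂ) → ℂ} (H : gchow_Ch G φ) {k k' : ℕ} {s s' : X → ℂ} {c c' : ℂ}
include H

theorem gchow_add (h : gchow_Rel G φ k s c) (h' : gchow_Rel G φ k s' c') :
    gchow_Rel G φ k (s + s') (c + c') :=
  ⟨Submodule.add_mem _ h.1 h'.1, by rw [H.add k s h.1 s' h'.1, h.2, h'.2]⟩

theorem gchow_smul (a : ℂ) (h : gchow_Rel G φ k s c) : gchow_Rel G φ k (a • s) (a * c) :=
  ⟨Submodule.smul_mem _ a h.1, by rw [H.smul k s h.1, h.2]⟩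

theorem gchow_zero (k : ℕ) : gchow_Rel G φ k 0 0 := by
  have := gchow_smul H 0 (k := k) ⟨Submodule.zero_mem _, rfl⟩
  rwa [zero_smul, zero_mul] at this

theorem gchow_sum {ι : Type*} (u : Finset ι) {f : ι → X → ℂ} {a : ι → ℂ}
    (h : ∀ j ∈ u, gchow_Rel G φ k (f j) (a j)) :
    gchow_Rel G φ k (∑ j ∈ u, f j) (∑ j ∈ u, a j) := by
  classical
  induction u using Finset.induction_on with
  | empty => simpa using gchow_zero H k
  | insert j u hj ih =>
    rw [Finset.sum_insert hj, Finset.sum_insert hj]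
    exact gchow_add H (h j (Finset.mem_insert_self _ _))
      (ih fun i hi => h i (Finset.mem_insert_of_mem hi))

theorem gchow_mul (h : gchow_Rel G φ k s c) (h' : gchow_Rel G φ k' s' c') :
    gchow_Rel G φ (k + k') (s * s') (c * c') :=
  ⟨by rw [add_mul]; exact R_mul h.1 h'.1, by rw [H.mul k k' s h.1 s' h'.1, h.2, h'.2]⟩

theorem gchow_one : gchow_Rel G φ 0 1 1 := ⟨by rw [zero_mul]; exact G.one_mem, H.one⟩

theorem gchow_pow (h : gchow_Rel G φ k s c) (j : ℕ) :
    gchow_Rel G φ (j * k) (s ^ j) (c ^ j) := by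
  induction j with
  | zero => simpa using gchow_one H
  | succ j ih => rw [pow_succ, pow_succ, Nat.succ_mul]; exact gchow_mul H ih h

theorem gchow_prod {ι : Type*} (u : Finset ι) {f : ι → X → ℂ} {a : ι → ℂ} {d : ι → ℕ}
    (h : ∀ j ∈ u, gchow_Rel G φ (d j) (f j) (a j)) :
    gchow_Rel G φ (∑ j ∈ u, d j) (∏ j ∈ u, f j) (∏ j ∈ u, a j) := by
  classical
  induction u using Finset.induction_on with
  | empty => simpa using gchow_one H
  | insert j u hj ih =>
    rw [Finset.sum_insert hj, Finset.prod_insert hj, Finset.prod_insert hj]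
    exact gchow_mul H (h j (Finset.mem_insert_self _ _))
      (ih fun i hi => h i (Finset.mem_insert_of_mem hi))

theorem gchow_hom {ι : Type*} [Fintype ι] {y : ι → X → ℂ} {T : ι → ℂ}
    (hy : ∀ a, gchow_Rel G φ 1 (y a) (T a)) {F : MvPolynomial ι ℂ} (hF : F.IsHomogeneous k) :
    gchow_Rel G φ k (fun p => MvPolynomial.eval (fun a => y a p) F) (MvPolynomial.eval T F) := by
  have e : (fun p => MvPolynomial.eval (fun a => y a p) F) =
      ∑ d ∈ F.support, F.coeff d • ∏ a, y a ^ d a := funext fun p => by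
    simp [MvPolynomial.eval_eq']
  rw [e, MvPolynomial.eval_eq']
  refine gchow_sum H _ fun d hd => gchow_smul H _ ?_
  have h1 := gchow_prod H Finset.univ (f := fun a => y a ^ d a) (d := fun a => d a * 1)
    fun a _ => gchow_pow H (hy a) (d a)
  have h2 : ∑ a, d a = k := by
    rw [← Finsupp.degree_eq_sum, Finsupp.degree_eq_weight_one]
    exact hF (MvPolynomial.mem_support_iff.1 hd)
  rwa [← Finset.sum_mul, h2, mul_one] at h1

theorem gchow_root {y : Fin (n + 1) → X → ℂ} {T : Fin (n + 1) → ℂ} (hr : G.RootsS y)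
    (hy : ∀ a, gchow_Rel G φ 1 (y a) (T a)) (h : gchow_Rel G φ k s c) :
    ∃ (p : X) (l : ℂ), (∀ i, T i = l * y i p) ∧ c = l ^ k * s p := by
  obtain ⟨D, hD⟩ := hr
  obtain ⟨χ, -, hdeg, hhom, h0, hroot⟩ := hD k s h.1
  refine hroot T c ?_
  have h1 : gchow_Rel G φ (D * k)
      (∑ j ∈ Finset.range (D + 1), (fun p => MvPolynomial.eval (fun a => y a p) (χ.coeff j)) * s ^ j)
      (∑ j ∈ Finset.range (D + 1), MvPolynomial.eval T (χ.coeff j) * c ^ j) := by
    refine gchow_sum H _ fun j hj => ?_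
    have := gchow_mul H (gchow_hom H hy (hhom j)) (gchow_pow H h j)
    rwa [← add_mul, Nat.sub_add_cancel (Nat.lt_succ_iff.1 (Finset.mem_range.1 hj))] at this
  have h2 : ∑ j ∈ Finset.range (D + 1),
      (fun p => MvPolynomial.eval (fun a => y a p) (χ.coeff j)) * s ^ j = 0 := by
    funext p
    have := h0 p 1
    rw [Polynomial.eval₂_eq_sum_range, hdeg] at this
    simpa using this
  rw [h2] at h1
  rw [Polynomial.eval₂_eq_sum_range, hdeg, ← h1.2, (gchow_zero H _).2]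

end

/-- First: `φ (j k) (s ^ j) = φ k s ^ j`, products, and `φ k (F (y)) = F (φ 1 y)` for `F` homogeneous
of degree `k` (expand as in `hom_mem`); hence `χ (T, φ k s) = 0` for `T i = φ 1 (y i)` and the `χ` of
`roots` (write the equation as a sum over `j ≤ D` of `coeff j (y) * s ^ j` in degree `D k`).
`T ≠ 0`: else the root `φ 1 (t a) ≠ 0` would be `l * t a p` with `l * y p = 0`. The fibre
`{p | T = l_p y p}` is finite (`fib`), `l_p ≠ 0`. If for every `p` in it there is `s_p` with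
`φ s_p ≠ l_p ^ k s_p p`, put `s'_p = s_p - (s_p p / y i p ^ k) • y i ^ k` (`T i ≠ 0`), which vanishes
at `p` and has `φ s'_p ≠ 0`; the product `s` of the `s'_p` has `φ s ≠ 0`, but `φ s = l ^ k s p = 0`
for a point `p` of the fibre by the last clause of `roots`. -/
theorem chow (G : Geo n X) : G.ChowS := by
  intro φ h1 h2 h3 h4 ⟨a, ha⟩
  have H : gchow_Ch G φ := ⟨h1, h2, h3, h4⟩
  obtain ⟨ν⟩ := G.exists_nrm
  have hy : ∀ i, gchow_Rel G φ 1 (ν.y i) (φ 1 (ν.y i)) := fun i =>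
    ⟨by rw [one_mul]; exact ν.y_R i, rfl⟩
  obtain ⟨i₀, hi₀⟩ : ∃ i, φ 1 (ν.y i) ≠ 0 := by
    obtain ⟨p, l, hl, e⟩ := gchow_root H ν.roots hy (k := 1) (s := G.t a)
      ⟨by rw [one_mul]; exact G.t_mem' a, rfl⟩
    obtain ⟨i, hi⟩ := ν.nz p
    rw [e, pow_one] at ha
    exact ⟨i, by rw [hl]; exact mul_ne_zero (left_ne_zero_of_mul ha) hi⟩
  have hZ := finite_of_encard_le_coe
    (ν.fib (fun i => φ 1 (ν.y i)) fun h => hi₀ (congrFun h i₀))
  by_contra hc
  push Not at hc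
  have key : ∀ p ∈ {p | ∃ l : ℂ, ∀ i, φ 1 (ν.y i) = l * ν.y i p},
      ∃ (k : ℕ) (s : X → ℂ) (c : ℂ), gchow_Rel G φ k s c ∧ s p = 0 ∧ c ≠ 0 := by
    rintro p ⟨l, hl⟩
    have h0 := hi₀
    rw [hl] at h0
    have hy0 := right_ne_zero_of_mul h0
    obtain ⟨k, s, hs, hne⟩ := hc p l (left_ne_zero_of_mul h0)
    have h5 := gchow_pow H (hy i₀) k
    rw [mul_one] at h5
    refine ⟨k, _, _, gchow_add H ⟨hs, rfl⟩ (gchow_smul H (-(s p / ν.y i₀ p ^ k)) h5), ?_, ?_⟩
    · simp only [Pi.add_apply, Pi.smul_apply, Pi.pow_apply, smul_eq_mul]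
      field_simp
      ring
    · have e : -(s p / ν.y i₀ p ^ k) * φ 1 (ν.y i₀) ^ k = -(l ^ k * s p) := by
        rw [hl, mul_pow]
        field_simp
      rw [e, ← sub_eq_add_neg]
      exact sub_ne_zero.2 hne
  choose! k s c hrel hs0 hc0 using key
  have h6 := gchow_prod H hZ.toFinset fun p hp => hrel p (hZ.mem_toFinset.1 hp)
  obtain ⟨p, l, hl, e⟩ := gchow_root H ν.roots hy h6
  have hp : p ∈ {p | ∃ l : ℂ, ∀ i, φ 1 (ν.y i) = l * ν.y i p} := ⟨l, hl⟩
  rw [Finset.prod_apply, Finset.prod_eq_zero (f := fun j => s j p) (hZ.mem_toFinset.2 hp)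
    (hs0 p hp), mul_zero] at e
  exact Finset.prod_ne_zero_iff.2 (fun p hp => hc0 p (hZ.mem_toFinset.1 hp)) e

end Geo
end Fuj
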