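import Vale.Agent.P271.GSh

/-! Change of variables on the etale domain. -/

set_option linter.unusedSectionVars false

open MeasureTheory Set Filter Topology Metric
open scoped ENNReal ContDiff

noncomputable section
namespace Fuj
namespace Geo

open Atl

variable {n : ℕ} {X : Type*} [TopologicalSpace X] [T2Space X] [CompactSpace X] [ConnectedSpace X]
  [SecondCountableTopology X] [MeasurableSpace X] [BorelSpace X] {G : Geo n X}

namespace Nrm

variable (ν : G.Nrm)

/-- `LinearMap.det_restrictScalars`, `Algebra.norm_complex_apply`. -/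
theorem det_real (L : E n →L[ℂ] E n) : (L.restrictScalars ℝ).det = ‖L.det‖ ^ 2 := by
  have h := LinearMap.det_restrictScalars (R := ℝ) (f := (L : E n →ₗ[ℂ] E n))
  rw [Algebra.norm_complex_apply, Complex.normSq_eq_norm_sq] at h
  exact h

theorem gcov_pieces {Y ι : Type*} [MeasurableSpace Y] [Countable ι] {s : ι → Set Y}
    (hs : ∀ k, MeasurableSet (s k)) (hc : ∀ p, ∃ k, p ∈ s k) :
    ∃ D : ι → Set Y, (∀ k, MeasurableSet (D k)) ∧ (∀ k, D k ⊆ s k) ∧ (∀ p, ∃ k, p ∈ D k) ∧
      Pairwise (Function.onFun Disjoint D) := by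
  classical
  obtain ⟨f, hf⟩ := exists_injective_nat ι
  have key : ∀ k l, f k < f l →
      Disjoint (s k \ ⋃ j, ⋃ _ : f j < f k, s j) (s l \ ⋃ j, ⋃ _ : f j < f l, s j) :=
    fun k l h => disjoint_left.2 fun p h1 h2 => h2.2 (mem_iUnion₂.2 ⟨k, h, h1.1⟩)
  refine ⟨fun k => s k \ ⋃ j, ⋃ _ : f j < f k, s j, fun k => (hs k).diff (MeasurableSet.iUnion
    fun j => MeasurableSet.iUnion fun _ => hs j), fun k => sdiff_subset, fun p => ?_,
    fun k l h => (lt_or_gt_of_ne (hf.ne h)).elim (key k l) fun h => (key l k h).symm⟩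
  have h1 : ∃ m, ∃ k, f k = m ∧ p ∈ s k := let ⟨k, hk⟩ := hc p; ⟨_, k, rfl, hk⟩
  obtain ⟨k, h2, h3⟩ := Nat.find_spec h1
  refine ⟨k, h3, fun h => ?_⟩
  obtain ⟨j, h4, h5⟩ := mem_iUnion₂.1 h
  exact Nat.find_min h1 (h2 ▸ h4) ⟨j, rfl, h5⟩

theorem gcov_meas {Y Z : Type*} [TopologicalSpace Y] [MeasurableSpace Y] [BorelSpace Y]
    [TopologicalSpace Z] [MeasurableSpace Z] [BorelSpace Z] (e : OpenPartialHomeomorph Y Z)
    {S : Set Y} (hS : MeasurableSet S) : MeasurableSet (e.target ∩ e.symm ⁻¹' S) := by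
  have := (MeasurableEmbedding.subtype_coe e.open_target.measurableSet).measurableSet_image.2
    (e.continuousOn_symm.domRestrict.measurable hS)
  rwa [show e.target.domRestrict e.symm ⁻¹' S = Subtype.val ⁻¹' (e.symm ⁻¹' S) from rfl,
    Subtype.image_preimage_coe] at this

theorem Shs.gcov_piece {θ : G.I → X → ℂ} {ν : G.Nrm} (T : ν.Shs θ) (i : G.I) {g : E n → ℝ≥0∞}
    (hg : Measurable g) (k : T.S.ι) {S : Set ν.W} (hS : MeasurableSet S)
    (h1 : S ⊆ (T.S.e k).source) (h2 : ∀ p ∈ S, (p : X) ∈ (G.e i).source) :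
    ∫⁻ p in S, g (G.e i p) ∂T.S.μ = ∫⁻ z in (G.e i).target ∩ (G.e i).symm ⁻¹' (Subtype.val '' S),
      ENNReal.ofReal (‖G.jd i ν.w ((G.e i).symm z)‖ ^ 2) * g z := by
  have m1 : Measurable fun p : ν.W => g ((G.e i).source.indicator (G.e i) p) :=
    hg.comp ((measurable_indicator_of_contOn (G.e i).open_source.measurableSet
      (G.e i).continuousOn).comp measurable_subtype_coe)
  have m2 := gcov_meas (G.e i) ((MeasurableEmbedding.subtype_coe
    ν.isOpen_W.measurableSet).measurableSet_image.2 hS)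
  have e1 : ∀ p ∈ S, T.S.e k p = ν.w p := fun p hp => by rw [T.S.e_eq k p (h1 hp), T.π_eq]
  have e2 : (fun z => ν.w ((G.e i).symm z)) ''
      ((G.e i).target ∩ (G.e i).symm ⁻¹' (Subtype.val '' S)) =
      (T.S.e k).target ∩ (T.S.e k).symm ⁻¹' S := by
    ext u
    constructor
    · rintro ⟨z, ⟨-, p, hp, e⟩, rfl⟩
      simp only [← e, ← e1 p hp]
      exact ⟨(T.S.e k).map_source (h1 hp), by
        rw [mem_preimage, (T.S.e k).left_inv (h1 hp)]; exact hp⟩
    · rintro ⟨hu, hp⟩
      refine ⟨G.e i ((T.S.e k).symm u), ⟨(G.e i).map_source (h2 _ hp), _, hp,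
        ((G.e i).left_inv (h2 _ hp)).symm⟩, ?_⟩
      simp only [(G.e i).left_inv (h2 _ hp), ← e1 _ hp, (T.S.e k).right_inv hu]
  have e3 := lintegral_image_eq_lintegral_abs_det_fderiv_mul volume m2
    (f := fun z => ν.w ((G.e i).symm z))
    (f' := fun z => (fderiv ℂ (fun z => ν.w ((G.e i).symm z)) z).restrictScalars ℝ)
    (by
      rintro z ⟨hz, p, -, e⟩
      exact (((an_iff' hz).1 (ν.an_w (ν.y0_ne (e ▸ p.2)))).differentiableAt.hasFDerivAt.restrictScalars
        ℝ).hasFDerivWithinAt)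
    (by
      rintro z ⟨hz, p, hp, e⟩ z' ⟨hz', p', hp', e'⟩ h
      simp only [← e, ← e', ← e1 p hp, ← e1 p' hp'] at h
      refine (G.e i).symm.injOn hz hz' ?_
      rw [← e, ← e', (T.S.e k).injOn (h1 hp) (h1 hp') h])
    fun u => g ((G.e i).source.indicator (G.e i) ((T.S.e k).symm u))
  rw [setLIntegral_congr_fun hS (f := fun p : ν.W => g (G.e i p))
      (g := fun p : ν.W => g ((G.e i).source.indicator (G.e i) p))
      fun p hp => by simp only [indicator_of_mem (h2 p hp)],
    ← Measure.restrict_restrict_of_subset h1, ← T.S.μ_eq k, ← lintegral_indicator hS,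
    lintegral_map' (m1.indicator hS).aemeasurable ((T.S.e k).continuousOn_symm.aemeasurable
      (T.S.e k).open_target.measurableSet),
    setLIntegral_congr_fun (T.S.e k).open_target.measurableSet
      (g := ((T.S.e k).target ∩ (T.S.e k).symm ⁻¹' S).indicator
        fun u => g ((G.e i).source.indicator (G.e i) ((T.S.e k).symm u))) fun u hu => by
      by_cases h : (T.S.e k).symm u ∈ S
      · rw [indicator_of_mem h, indicator_of_mem (mem_inter hu h)]
      · rw [indicator_of_notMem h, indicator_of_notMem fun h' => h h'.2],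
    lintegral_indicator (gcov_meas _ hS), Measure.restrict_restrict_of_subset inter_subset_left,
    ← e2, e3]
  refine setLIntegral_congr_fun m2 ?_
  rintro z ⟨hz, p, hp, e⟩
  simp only [det_real, Atl.jd, (G.e i).right_inv hz]
  rw [← e, ← e1 p hp, (T.S.e k).left_inv (h1 hp), indicator_of_mem (h2 p hp), e,
    (G.e i).right_inv hz, abs_of_nonneg (sq_nonneg _)]

/-- Cut `W ∩ source i` into countably many disjoint measurable pieces `D k ⊆ source (S.e k)`
(`disjointed` after `Encodable.ofCountable`, or `exists_subordinate_pairwise_disjoint`; alternatively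
compare two measures with `Measure.ext_of_iUnion_eq_univ`). On a piece the left side is
`∫⁻ u in w '' D k, g (e i (ε.symm u))` (`μ_eq`, `lintegral_map'`), which is the right side over
`e i '' D k` by `lintegral_image_eq_lintegral_abs_det_fderiv_mul` for `w ∘ (e i).symm` and `det_real`. -/
theorem Shs.cov {θ : G.I → X → ℂ} (T : ν.Shs θ) (i : G.I) {g : E n → ℝ≥0∞} (hg : Measurable g) :
    ∫⁻ p in {p : ν.W | (p : X) ∈ (G.e i).source}, g (G.e i p) ∂T.S.μ =
      ∫⁻ z in (G.e i).target ∩ (G.e i).symm ⁻¹' ν.W,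
        ENNReal.ofReal (‖G.jd i ν.w ((G.e i).symm z)‖ ^ 2) * g z := by
  have := T.S.cnt
  obtain ⟨D, h1, h2, h3, h4⟩ := gcov_pieces (fun k => (T.S.e k).open_source.measurableSet) T.S.cover
  have hA : MeasurableSet {p : ν.W | (p : X) ∈ (G.e i).source} :=
    measurable_subtype_coe (G.e i).open_source.measurableSet
  have e1 : {p : ν.W | (p : X) ∈ (G.e i).source} =
      ⋃ k, {p : ν.W | (p : X) ∈ (G.e i).source} ∩ D k := by
    rw [← inter_iUnion, eq_univ_of_forall fun p => mem_iUnion.2 (h3 p), inter_univ]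
  have e2 : (G.e i).target ∩ (G.e i).symm ⁻¹' ν.W = ⋃ k, (G.e i).target ∩ (G.e i).symm ⁻¹'
      (Subtype.val '' ({p : ν.W | (p : X) ∈ (G.e i).source} ∩ D k)) := by
    rw [← inter_iUnion, ← preimage_iUnion, ← image_iUnion, ← e1]
    ext z
    exact ⟨fun h => ⟨h.1, ⟨_, h.2⟩, (G.e i).map_target h.1, rfl⟩,
      fun ⟨h, p, _, e⟩ => ⟨h, show (G.e i).symm z ∈ ν.W from e ▸ p.2⟩⟩
  rw [e2, lintegral_iUnion (fun k => gcov_meas _ ((MeasurableEmbedding.subtype_coe
    ν.isOpen_W.measurableSet).measurableSet_image.2 (hA.inter (h1 k)))) fun k l h =>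
      disjoint_left.2 fun z ⟨_, p, hp, e⟩ ⟨_, p', hp', e'⟩ =>
        disjoint_left.1 (h4 h) hp.2 (Subtype.ext (e'.trans e.symm) ▸ hp'.2)]
  conv_lhs => rw [e1]
  rw [lintegral_iUnion (fun k => hA.inter (h1 k)) fun k l h =>
    (h4 h).mono inter_subset_right inter_subset_right]
  exact tsum_congr fun k => T.gcov_piece i hg k (hA.inter (h1 k))
    (inter_subset_right.trans (h2 k)) fun p hp => hp.1

end Nrm
end Geo
end Fuj
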