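import Vale.Agent.P271.HKL

/-! Integrability of negative powers of holomorphic functions. -/

namespace Fuj

open MeasureTheory Set Filter Topology Complex
open scoped ENNReal ContDiff ComplexConjugate

noncomputable section

theorem HInt1_pt (w : ℂ) {c s : ℝ} (hc : 0 ≤ c) (hs : 0 ≤ s) :
    ‖w‖ₑ ^ (-(2 * c)) ≤ ENNReal.ofReal (Real.exp c) + ENNReal.ofReal (2 ^ s * Real.exp c) *
      ∫⁻ t in Ioi (0 : ℝ), ENNReal.ofReal (Real.exp (c * t)) *
        ENNReal.ofReal ((‖w‖ ^ 2 * Real.exp t + 1) ^ (-s)) := by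
  by_cases h0 : w = 0
  · have : ∫⁻ t in Ioi (0 : ℝ), ENNReal.ofReal (Real.exp (c * t)) *
        ENNReal.ofReal ((‖w‖ ^ 2 * Real.exp t + 1) ^ (-s)) = ⊤ := by
      refine top_unique (le_trans ?_ (setLIntegral_mono' (f := fun _ => 1) measurableSet_Ioi
        fun t ht => ?_))
      · simp
      · simp only [h0, norm_zero, ne_eq, OfNat.ofNat_ne_zero, not_false_eq_true, zero_pow,
          zero_mul, zero_add, Real.one_rpow, ENNReal.ofReal_one, mul_one, ENNReal.one_le_ofReal]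
        exact Real.one_le_exp (mul_nonneg hc (le_of_lt ht))
    rw [this, ENNReal.mul_top (ENNReal.ofReal_pos.2 (by positivity)).ne', add_top]
    exact le_top
  have hw : 0 < ‖w‖ := norm_pos_iff.2 h0
  set T := -Real.log (‖w‖ ^ 2) with hT
  have e1 : ‖w‖ₑ ^ (-(2 * c)) = ENNReal.ofReal (Real.exp (c * T)) := by
    rw [← ofReal_norm, ENNReal.ofReal_rpow_of_pos hw, Real.rpow_def_of_pos hw, hT, Real.log_pow]
    congr 2
    push_cast
    ring
  rw [e1]
  by_cases h1 : T ≤ 1
  · exact le_add_right (ENNReal.ofReal_le_ofReal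
      (Real.exp_le_exp.2 (mul_le_of_le_one_right hc h1)))
  refine le_add_left (le_trans ?_ (mul_le_mul_right ((setLIntegral_mono'
    (f := fun _ => ENNReal.ofReal (Real.exp (c * (T - 1)) * 2 ^ (-s))) (s := Ioc (T - 1) T)
    measurableSet_Ioc fun t ht => ?_).trans (lintegral_mono_set fun t ht => ?_)) _))
  · rw [setLIntegral_const, Real.volume_Ioc, sub_sub_cancel, ENNReal.ofReal_one, mul_one,
      ← ENNReal.ofReal_mul (by positivity)]
    refine ENNReal.ofReal_le_ofReal (le_of_eq ?_)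
    rw [Real.rpow_neg zero_le_two, mul_sub, mul_one, Real.exp_sub]
    field_simp
  · rw [← ENNReal.ofReal_mul (by positivity)]
    refine ENNReal.ofReal_le_ofReal (mul_le_mul (Real.exp_le_exp.2
      (mul_le_mul_of_nonneg_left ht.1.le hc)) ?_ (by positivity) (by positivity))
    refine Real.rpow_le_rpow_of_nonpos (by positivity) ?_ (neg_nonpos.2 hs)
    have : ‖w‖ ^ 2 * Real.exp T = 1 := by
      rw [hT, Real.exp_neg, Real.exp_log (by positivity), mul_inv_cancel₀ (by positivity)]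
    have h2 := mul_le_mul_of_nonneg_left (Real.exp_le_exp.2 ht.2) (sq_nonneg ‖w‖)
    linarith
  · have := ht.1
    exact mem_Ioi.2 (by linarith [not_le.1 h1])

theorem HInt1_slice {g : ℂ → ℂ} {r : ℕ} {m ρ s : ℝ} (hm : 0 < m) (hs : 0 ≤ s) (hsr : s * r < 1)
    (hg : ∀ t : ℂ, ‖t‖ < ρ → m * ‖t‖ ^ r ≤ ‖g t‖) : ∃ C : ℝ, ∀ t₀ : ℝ,
      ∫⁻ y in Metric.ball 0 ρ, ENNReal.ofReal ((‖g y‖ ^ 2 * Real.exp t₀ + 1) ^ (-s)) ≤
        ENNReal.ofReal (C * Real.exp (-s * t₀)) := by
  have hI : IntegrableOn (fun y : ℂ => (m ^ 2) ^ (-s) * ‖y‖ ^ (-(2 * r * s))) (Metric.ball 0 ρ) :=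
    integrableOn_ball_of_norm_le_rpow (by simp) (C := (m ^ 2) ^ (-s)) (α := 2 * r * s)
      (by simp only [finrank_real_complex, Nat.cast_ofNat]; linarith)
      (Eventually.of_forall fun y => (Real.norm_of_nonneg (by positivity)).le)
      (Measurable.aestronglyMeasurable (by fun_prop))
  refine ⟨∫ y in Metric.ball (0 : ℂ) ρ, (m ^ 2) ^ (-s) * ‖y‖ ^ (-(2 * r * s)), fun t₀ => ?_⟩
  rw [ENNReal.ofReal_mul' (by positivity), ofReal_integral_eq_lintegral_ofReal hI
    (Eventually.of_forall fun y => by positivity), ← lintegral_mul_const' _ _ ENNReal.ofReal_ne_top]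
  refine lintegral_mono_ae ?_
  filter_upwards [ae_restrict_mem Metric.isOpen_ball.measurableSet,
    ae_restrict_of_ae (Measure.ae_ne volume (0 : ℂ))] with y hy hy0
  rw [← ENNReal.ofReal_mul (by positivity)]
  refine ENNReal.ofReal_le_ofReal ?_
  have hy' : 0 < ‖y‖ := norm_pos_iff.2 hy0
  have h1 := pow_le_pow_left₀ (by positivity) (hg y (mem_ball_zero_iff.1 hy)) 2
  have h2 := mul_le_mul_of_nonneg_right h1 (Real.exp_pos t₀).le
  refine (Real.rpow_le_rpow_of_nonpos (by positivity) (h2.trans (le_add_of_nonneg_right zero_le_one))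
    (neg_nonpos.2 hs)).trans_eq ?_
  rw [Real.mul_rpow (by positivity) (by positivity), mul_pow,
    Real.mul_rpow (by positivity) (by positivity), ← pow_mul, ← Real.rpow_natCast ‖y‖,
    ← Real.rpow_mul hy'.le, ← Real.exp_mul, mul_comm t₀]
  congr 3
  push_cast
  ring

/-- If r = 0 then f 0 ≠ 0 and the integrand is bounded near 0. Let r ≥ 1 (so c < 1). kl with E₂ = ℂ, J = Fin 2 (or Bool), σ = (f, 1), b = (1, 0), μ = 2, β = 1, z₁ = 0, y₀ = 0,
η with (c + 2η) r ≤ 1. On the slice kw t₀ ≤ (m² |τ|^(2r) exp t₀ + 1)^(-2) ≤ min 1 (..), whose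
integral over the disc is at most C exp (-(c + 2η) t₀) (split at |τ|² = exp (-(c + 2η) t₀·) or use
(x + 1)^(-2) ≤ x^(-s) for 0 ≤ s ≤ 2 with s r < 1, s > c + η, and integrability of |τ|^(-2rs) in the
plane). Conversely ∫_0^∞ exp (c t) (|f|² exp t + 1)^(-2) dt ≥ const |f|^(-2c) when |f|² ≤ 1/e
(t in [T - 1, T], T = -log |f|²; the integral is infinite when f = 0), and |f|^(-2c) is bounded
otherwise. -/
theorem int_prod {E₁ : Type} [NormedAddCommGroup E₁] [NormedSpace ℝ E₁] [InnerProductSpace ℂ E₁]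
    [IsScalarTower ℝ ℂ E₁] [FiniteDimensional ℂ E₁] [MeasurableSpace E₁] [BorelSpace E₁]
    [SecondCountableTopology E₁] (v₁ : Measure E₁) [v₁.IsAddHaarMeasure] {f : E₁ × ℂ → ℂ}
    (hf : ∀ᶠ z in 𝓝 0, DifferentiableAt ℂ f z) {r : ℕ} {m : ℝ} (hm : 0 < m)
    (hr : ∀ᶠ t : ℂ in 𝓝 0, m * ‖t‖ ^ r ≤ ‖f (0, t)‖) {c : ℝ} (hc : 0 ≤ c) (hcr : c * r < 1) :
    ∃ V ∈ 𝓝 (0 : E₁ × ℂ), ∫⁻ z in V, ‖f z‖ₑ ^ (-(2 * c)) ∂(v₁.prod volume) ≠ ⊤ := by
  have := FiniteDimensional.proper ℂ E₁
  obtain ⟨s, hcs, hsr⟩ : ∃ s > c, s * r < 1 :=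
    ((continuous_mul_const (r : ℝ)).continuousAt.eventually_lt continuousAt_const hcr).exists_gt
  have hs : 0 ≤ s := hc.trans hcs.le
  have hb : ∀ᶠ z in 𝓝 0, ‖f z‖ < ‖f 0‖ + 1 :=
    hf.self_of_nhds.continuousAt.norm.eventually_lt continuousAt_const (lt_add_one _)
  obtain ⟨ρ, hρ, hρ1⟩ := Metric.eventually_nhds_iff_ball.1 ((hf.and hb).and
    ((continuous_snd.tendsto' (0 : E₁ × ℂ) 0 rfl).eventually hr))
  rw [← Prod.mk_zero_zero, ← ball_prod_same] at hρ1
  obtain ⟨C, hC⟩ := HInt1_slice (g := fun t => f (0, t)) (ρ := ρ) hm hs hsr fun t ht =>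
    (hρ1 (0, t) ⟨Metric.mem_ball_self hρ, mem_ball_zero_iff.2 ht⟩).2
  have hη : 0 < (s - c) / 2 := half_pos (sub_pos.2 hcs)
  obtain ⟨t₁, ht₁⟩ := kl v₁ (volume : Measure ℂ) (A := (‖f 0‖ + 1) ^ 2 + 1) 1 c hρ hρ
    (by positivity) hs hη
  have hkw : ∀ t p, kw (fun j : Bool => cond j f fun _ => 1) (fun j => cond j 1 0) s t p =
      (‖f p‖ ^ 2 * Real.exp t + 1) ^ (-s) := fun t p => by simp [kw]
  obtain ⟨t₀, h1, h2⟩ := ((eventually_ge_atTop t₁).and ((Real.tendsto_exp_atTop.comp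
    (tendsto_id.const_mul_atTop hη)).eventually_ge_atTop C)).exists
  obtain ⟨V, hV, hVP, hfin⟩ := ht₁ Bool (fun j => cond j f fun _ => 1) (fun j => cond j 1 0)
    ⟨fun j => by
      cases j
      · exact differentiableOn_const _
      · exact fun z hz => (hρ1 z hz).1.1.differentiableWithinAt,
    fun p hp => by
      simp only [Fintype.sum_bool, cond_true, cond_false, norm_one, one_pow]
      exact (inv_le_one_of_one_le₀ (le_add_of_nonneg_left (by positivity))).trans
        (le_add_of_nonneg_left (by positivity)),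
    fun p hp => by
      simp only [Fintype.sum_bool, cond_true, cond_false, norm_one, one_pow]
      gcongr
      exact (hρ1 p hp).1.2.le,
    fun j => by cases j <;> simp⟩ t₀ h1 0 (by simpa using (half_pos hρ).le) 0
    (by simpa using (half_pos hρ).le) (by
      simp only [hkw]
      refine (hC t₀).trans (ENNReal.ofReal_le_ofReal ?_)
      refine (mul_le_mul_of_nonneg_right h2 (by positivity)).trans_eq ?_
      simp only [Function.comp, id]
      rw [← Real.exp_add]
      congr 1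
      ring)
  simp only [hkw] at hfin
  refine ⟨interior V, interior_mem_nhds.2 hV, ?_⟩
  have hm' : AEMeasurable f ((v₁.prod volume).restrict (interior V)) :=
    ContinuousOn.aemeasurable (fun z hz => (hρ1 z (hVP (interior_subset hz))).1.1.continuousAt
      |>.continuousWithinAt) isOpen_interior.measurableSet
  have hm2 : AEMeasurable (fun q : (E₁ × ℂ) × ℝ => f q.1)
      (((v₁.prod volume).restrict (interior V)).prod (volume.restrict (Ioi 0))) := hm'.comp_fst
  refine ne_top_of_le_ne_top ?_ (lintegral_mono fun z => HInt1_pt (f z) hc hs)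
  rw [lintegral_add_left measurable_const, lintegral_const_mul' _ _ ENNReal.ofReal_ne_top,
    setLIntegral_const, lintegral_lintegral_swap (by unfold Function.uncurry; fun_prop)]
  refine ENNReal.add_ne_top.2 ⟨ENNReal.mul_ne_top ENNReal.ofReal_ne_top (ne_top_of_le_ne_top ?_
    (measure_mono (interior_subset.trans hVP))), ENNReal.mul_ne_top ENNReal.ofReal_ne_top
    (ne_top_of_le_ne_top hfin (lintegral_mono fun t => ?_))⟩
  · rw [PP, Measure.prod_prod]
    exact ENNReal.mul_ne_top measure_ball_lt_top.ne measure_ball_lt_top.ne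
  · rw [lintegral_const_mul' _ _ ENNReal.ofReal_ne_top]
    exact mul_le_mul_right (lintegral_mono_set interior_subset) _

end

end Fuj
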