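import Vale.Agent.P271.HInt0
import Vale.Agent.P271.HInt1

/-! Integrability of negative powers of holomorphic functions. -/

namespace Fuj

open MeasureTheory Set Filter Topology Complex
open scoped ENNReal ContDiff ComplexConjugate

noncomputable section

namespace HIntX

theorem exists_equiv {E : Type*} [NormedAddCommGroup E] [NormedSpace ℂ E] [FiniteDimensional ℂ E]
    {ξ : E} (hξ : ξ ≠ 0) : ∃ (d : ℕ) (L : (EuclideanSpace ℂ (Fin d) × ℂ) ≃L[ℂ] E),
      ∀ t : ℂ, L (0, t) = t • ξ := by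
  obtain ⟨q, hq⟩ := Submodule.exists_isCompl (Submodule.span ℂ {ξ})
  let e₁ : EuclideanSpace ℂ (Fin (Module.finrank ℂ q)) ≃ₗ[ℂ] q :=
    LinearEquiv.ofFinrankEq _ _ (by simp)
  refine ⟨_, ((e₁.prodCongr (LinearEquiv.toSpanNonzeroSingleton ℂ E ξ hξ)).trans
    (Submodule.prodEquivOfIsCompl _ _ hq.symm)).toContinuousLinearEquiv, fun t => ?_⟩
  simp

theorem of_ne {E : Type*} [NormedAddCommGroup E] [ProperSpace E]
    [MeasurableSpace E] [BorelSpace E] (vol : Measure E) [vol.IsAddHaarMeasure] {f : E → ℂ} {y : E}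
    (hf : ContinuousAt f y) (h : f y ≠ 0) {c : ℝ} (hc : 0 ≤ c) :
    ∃ V ∈ 𝓝 y, ∫⁻ z in V, ‖f z‖ₑ ^ (-(2 * c)) ∂vol ≠ ⊤ := by
  have h0 : 0 < ‖f y‖ := norm_pos_iff.2 h
  have h1 : ∀ᶠ z in 𝓝 y, ‖f y‖ / 2 < ‖f z‖ :=
    continuousAt_const.eventually_lt hf.norm (half_lt_self h0)
  obtain ⟨ε, hε, h2⟩ := Metric.eventually_nhds_iff_ball.1 h1
  refine ⟨Metric.ball y ε, Metric.ball_mem_nhds y hε, ne_of_lt ?_⟩
  have h3 : ∫⁻ z in Metric.ball y ε, ‖f z‖ₑ ^ (-(2 * c)) ∂vol ≤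
      ∫⁻ _ in Metric.ball y ε, ENNReal.ofReal (‖f y‖ / 2) ^ (-(2 * c)) ∂vol := by
    refine lintegral_mono_ae ?_
    filter_upwards [ae_restrict_mem measurableSet_ball] with z hz
    rw [ENNReal.rpow_neg, ENNReal.rpow_neg]
    refine ENNReal.inv_le_inv.2 (ENNReal.rpow_le_rpow ?_ (by linarith))
    rw [← ofReal_norm]
    exact ENNReal.ofReal_le_ofReal (h2 z hz).le
  refine h3.trans_lt ?_
  rw [setLIntegral_const]
  refine ENNReal.mul_lt_top ?_ measure_ball_lt_top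
  exact lt_top_iff_ne_top.2 (ENNReal.rpow_ne_top_of_ne_zero
    (ENNReal.ofReal_pos.2 (half_pos h0)).ne' ENNReal.ofReal_ne_top)

end HIntX
open HIntX

/-- exists_dir. If ξ = 0 then f y ≠ 0 or r = 0 gives f y ≠ 0 anyway (t small: m |t|^r ≤ |f y|), and
the integrand is bounded near y. Else take a continuous linear equivalence
L : EuclideanSpace ℂ (Fin d) × ℂ ≃ E with L (0, 1) = ξ (complement of the span of ξ), apply int_prod
to z ↦ f (y + L z); the image of the product measure under L is a Haar measure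
(isAddLeftInvariant_eq_smul). -/
theorem int_neg_pow {E : Type*} [NormedAddCommGroup E] [NormedSpace ℂ E] [FiniteDimensional ℂ E]
    [MeasurableSpace E] [BorelSpace E] (vol : Measure E) [vol.IsAddHaarMeasure] {f : E → ℂ} {y : E}
    (hf : ∀ᶠ z in 𝓝 y, DifferentiableAt ℂ f z) {r : ℕ}
    (hr : ¬ f =O[𝓝 y] (fun z => ‖z - y‖ ^ (r + 1))) {c : ℝ} (hc : 0 ≤ c) (hcr : c * r < 1) :
    ∃ V ∈ 𝓝 y, ∫⁻ z in V, ‖f z‖ₑ ^ (-(2 * c)) ∂vol ≠ ⊤ := by
  have : ProperSpace E := FiniteDimensional.proper ℂ E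
  obtain ⟨ξ, m, hm, h⟩ := exists_dir hf hr
  by_cases hξ : ξ = 0
  · obtain ⟨t, h1, h2⟩ := ((h.filter_mono (nhdsWithin_le_nhds (s := {0}ᶜ))).and
      self_mem_nhdsWithin).exists
    rw [hξ, smul_zero, add_zero] at h1
    refine of_ne vol hf.self_of_nhds.continuousAt (norm_pos_iff.1 (lt_of_lt_of_le ?_ h1)) hc
    exact mul_pos hm (pow_pos (norm_pos_iff.2 h2) r)
  obtain ⟨d, L, hL⟩ := exists_equiv hξ
  let T : (EuclideanSpace ℂ (Fin d) × ℂ) ≃ₜ E := L.toHomeomorph.trans (Homeomorph.addLeft y)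
  have hT : ∀ z, T z = y + L z := fun z => rfl
  have hT0 : T 0 = y := by rw [hT, map_zero, add_zero]
  have hd : ∀ᶠ z in 𝓝 0, DifferentiableAt ℂ (fun z => f (T z)) z := by
    have h1 : Tendsto T (𝓝 0) (𝓝 y) := hT0 ▸ T.continuous.tendsto 0
    filter_upwards [h1.eventually hf] with z hz
    exact hz.comp z ((differentiableAt_const y).add L.differentiableAt)
  obtain ⟨V, hV, hI⟩ := int_prod (Measure.addHaar : Measure (EuclideanSpace ℂ (Fin d))) hd hm
    (by simpa only [hT, hL] using h) hc hcr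
  set μ : Measure (EuclideanSpace ℂ (Fin d) × ℂ) := Measure.addHaar.prod volume with hμ
  have : μ.IsAddHaarMeasure := Measure.prod.instIsAddHaarMeasure _ _
  have : (μ.map L).IsAddHaarMeasure := L.isAddHaarMeasure_map μ
  have e1 : μ.map T = μ.map L := by
    rw [← map_add_left_eq_self (μ.map L) y,
      Measure.map_map (measurable_const_add y) L.continuous.measurable]
    rfl
  refine ⟨T '' V, hT0 ▸ T.isOpenMap.image_mem_nhds hV, ?_⟩
  obtain ⟨a, ha⟩ : ∃ a : NNReal, vol = a • μ.map L := ⟨_, Measure.isAddLeftInvariant_eq_smul _ _⟩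
  rw [ha, ← e1, Measure.restrict_smul,
    lintegral_smul_measure, T.measurableEmbedding.restrict_map, T.measurableEmbedding.lintegral_map,
    T.injective.preimage_image]
  exact ENNReal.mul_ne_top ENNReal.coe_ne_top hI

end

end Fuj
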