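import Vale.Agent.P271.HNorm0

/-! Elementary facts on the weighted norm and scalar product; projection and Riesz lemmas. -/

namespace Fuj

open MeasureTheory Set Filter Topology Complex
open scoped ENNReal ContDiff ComplexConjugate

noncomputable section

section
variable {X : Type*} [MeasurableSpace X] (ν : Measure X)

theorem hnrm_cs {h : X → ℂ} {a c : X → ℝ} (ha : Measurable a) (hc : Measurable c)
    (ha0 : ∀ x, 0 ≤ a x) (hc0 : ∀ x, 0 ≤ c x) (hle : ∀ x, ‖h x‖ ^ 2 ≤ a x * c x) :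
    (∫⁻ x, ‖h x‖ₑ ∂ν) ^ 2 ≤
      (∫⁻ x, ENNReal.ofReal (a x) ∂ν) * ∫⁻ x, ENNReal.ofReal (c x) ∂ν := by
  have h1 := ENNReal.lintegral_mul_le_Lp_mul_Lq ν Real.HolderConjugate.two_two
    (f := fun x => ENNReal.ofReal (Real.sqrt (a x)))
    (g := fun x => ENNReal.ofReal (Real.sqrt (c x)))
    ha.sqrt.ennreal_ofReal.aemeasurable hc.sqrt.ennreal_ofReal.aemeasurable
  have e : ∀ y : ℝ, 0 ≤ y → ENNReal.ofReal (Real.sqrt y) ^ (2 : ℝ) = ENNReal.ofReal y := by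
    intro y hy
    rw [ENNReal.rpow_two, ← ENNReal.ofReal_pow (Real.sqrt_nonneg _), Real.sq_sqrt hy]
  simp only [e _ (ha0 _), e _ (hc0 _)] at h1
  have h2 : ∫⁻ x, ‖h x‖ₑ ∂ν ≤ _ := (lintegral_mono fun x => ?_).trans h1
  · refine (pow_le_pow_left' h2 2).trans_eq ?_
    rw [← ENNReal.mul_rpow_of_nonneg _ _ (by norm_num), ← ENNReal.rpow_two, ← ENNReal.rpow_mul]
    norm_num
  · simp only [Pi.mul_apply]
    rw [← ENNReal.ofReal_mul (Real.sqrt_nonneg _), ← ofReal_norm, ← Real.sqrt_mul (ha0 x)]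
    exact ENNReal.ofReal_le_ofReal (Real.le_sqrt_of_sq_le (hle x))

/-- Cauchy-Schwarz (ENNReal.lintegral_mul_le_Lp_mul_Lq). -/
theorem cs_lintegral {h : X → ℂ} {a c : X → ℝ} (ha : Measurable a) (hc : Measurable c)
    (ha0 : ∀ x, 0 ≤ a x) (hc0 : ∀ x, 0 ≤ c x) (hle : ∀ x, ‖h x‖ ^ 2 ≤ a x * c x) :
    ENNReal.ofReal (‖∫ x, h x ∂ν‖ ^ 2) ≤
      (∫⁻ x, ENNReal.ofReal (a x) ∂ν) * ∫⁻ x, ENNReal.ofReal (c x) ∂ν := by
  refine le_trans ?_ (hnrm_cs ν ha hc ha0 hc0 hle)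
  rw [ENNReal.ofReal_pow (norm_nonneg _), ofReal_norm]
  exact pow_le_pow_left' (enorm_integral_le_lintegral_enorm h) 2

theorem integrable_of_cs {h : X → ℂ} (hh : AEStronglyMeasurable h ν) {a c : X → ℝ}
    (ha : Measurable a) (hc : Measurable c) (ha0 : ∀ x, 0 ≤ a x) (hc0 : ∀ x, 0 ≤ c x)
    (hle : ∀ x, ‖h x‖ ^ 2 ≤ a x * c x) (h1 : ∫⁻ x, ENNReal.ofReal (a x) ∂ν ≠ ⊤)
    (h2 : ∫⁻ x, ENNReal.ofReal (c x) ∂ν ≠ ⊤) : Integrable h ν := by
  refine ⟨hh, lt_top_iff_ne_top.2 fun ht => ?_⟩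
  have h3 := hnrm_cs ν ha hc ha0 hc0 hle
  rw [ht, ENNReal.top_pow two_ne_zero, top_le_iff] at h3
  exact ENNReal.mul_ne_top h1 h2 h3

end

theorem normSq_add_le (x y : ℂ) {t : ℝ} (ht : 0 < t) :
    ‖x + y‖ ^ 2 ≤ (1 + t) * ‖x‖ ^ 2 + (1 + t⁻¹) * ‖y‖ ^ 2 := by
  have h1 : ‖x + y‖ ^ 2 ≤ (‖x‖ + ‖y‖) ^ 2 := by gcongr; exact norm_add_le x y
  have h2 : 0 ≤ t⁻¹ * (t * ‖x‖ - ‖y‖) ^ 2 := by positivity
  have h3 : t⁻¹ * (t * ‖x‖ - ‖y‖) ^ 2 = t * ‖x‖ ^ 2 - 2 * ‖x‖ * ‖y‖ + t⁻¹ * ‖y‖ ^ 2 := by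
    field_simp; ring
  nlinarith

namespace Sheets

variable {E W : Type*} [NormedAddCommGroup E] [NormedSpace ℝ E] [NormedSpace ℂ E]
  [MeasurableSpace E] [TopologicalSpace W] [MeasurableSpace W] {vol : Measure E}
  (S : Sheets E W vol)

theorem hnrm_meas {φ : W → ℝ} (hφ : Measurable φ) {f : W → ℂ} (hf : Measurable f) :
    Measurable fun p => ‖f p‖ ^ 2 * Real.exp (-φ p) :=
  (hf.norm.pow_const 2).mul hφ.neg.exp

theorem nn_add_le {φ : W → ℝ} (hφ : Measurable φ) {f : W → ℂ} (hf : Measurable f) (g : W → ℂ)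
    {t : ℝ} (ht : 0 < t) : S.nn φ (fun p => f p + g p) ≤
      ENNReal.ofReal (1 + t) * S.nn φ f + ENNReal.ofReal (1 + t⁻¹) * S.nn φ g := by
  unfold nn
  rw [← lintegral_const_mul' _ _ ENNReal.ofReal_ne_top,
    ← lintegral_const_mul' _ _ ENNReal.ofReal_ne_top,
    ← lintegral_add_left ((hnrm_meas hφ hf).ennreal_ofReal.const_mul _)]
  refine lintegral_mono fun p => ?_
  rw [← ENNReal.ofReal_mul (by positivity), ← ENNReal.ofReal_mul (by positivity),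
    ← ENNReal.ofReal_add (by positivity) (by positivity)]
  refine ENNReal.ofReal_le_ofReal ?_
  have := mul_le_mul_of_nonneg_right (normSq_add_le (f p) (g p) ht) (Real.exp_pos (-φ p)).le
  linarith

theorem nn_sum_le {φ : W → ℝ} (hφ : Measurable φ) {α : Type*} (s : Finset α) {f : α → W → ℂ}
    (hf : ∀ a ∈ s, Measurable (f a)) :
    S.nn φ (fun p => ∑ a ∈ s, f a p) ≤ s.card * ∑ a ∈ s, S.nn φ (f a) := by
  unfold nn
  rw [← lintegral_finsetSum s fun a ha => (hnrm_meas hφ (hf a ha)).ennreal_ofReal,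
    ← lintegral_const_mul' _ _ (ENNReal.natCast_ne_top _)]
  refine lintegral_mono fun p => ?_
  rw [← ENNReal.ofReal_sum_of_nonneg fun a _ => by positivity, ← ENNReal.ofReal_natCast,
    ← ENNReal.ofReal_mul (Nat.cast_nonneg _), ← Finset.sum_mul, ← mul_assoc]
  refine ENNReal.ofReal_le_ofReal (mul_le_mul_of_nonneg_right ?_ (Real.exp_pos _).le)
  calc ‖∑ a ∈ s, f a p‖ ^ 2 ≤ (∑ a ∈ s, ‖f a p‖) ^ 2 := by gcongr; exact norm_sum_le _ _
    _ ≤ _ := sq_sum_le_card_mul_sum_sq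

theorem nn_mono (φ : W → ℝ) {f g : W → ℂ} {C : ℝ} (hC : 0 ≤ C)
    (h : ∀ p, ‖f p‖ ^ 2 ≤ C * ‖g p‖ ^ 2) : S.nn φ f ≤ ENNReal.ofReal C * S.nn φ g := by
  unfold nn
  rw [← lintegral_const_mul' _ _ ENNReal.ofReal_ne_top]
  refine lintegral_mono fun p => ?_
  rw [← ENNReal.ofReal_mul hC, ← mul_assoc]
  exact ENNReal.ofReal_le_ofReal (mul_le_mul_of_nonneg_right (h p) (Real.exp_pos _).le)

theorem nn_neg (φ : W → ℝ) (f : W → ℂ) : S.nn φ (fun p => -f p) = S.nn φ f := by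
  simp only [nn, norm_neg]

theorem hnrm_pair (φ : W → ℝ) (f g : W → ℂ) (p : W) :
    ‖f p * conj (g p) * (Real.exp (-φ p) : ℝ)‖ ^ 2 ≤
      ‖f p‖ ^ 2 * Real.exp (-φ p) * (‖g p‖ ^ 2 * Real.exp (-φ p)) := by
  rw [norm_mul, norm_mul, Complex.norm_conj, Complex.norm_real, Real.norm_eq_abs,
    abs_of_pos (Real.exp_pos _)]
  exact le_of_eq (by ring)

theorem integrable_pair {φ : W → ℝ} (hφ : Measurable φ) {f g : W → ℂ} (hf : Measurable f)
    (hg : Measurable g) (h1 : S.nn φ f ≠ ⊤) (h2 : S.nn φ g ≠ ⊤) :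
    Integrable (fun p => f p * conj (g p) * (Real.exp (-φ p) : ℝ)) S.μ :=
  integrable_of_cs S.μ ((hf.mul (Complex.continuous_conj.measurable.comp hg)).mul
    (Complex.measurable_ofReal.comp hφ.neg.exp)).aestronglyMeasurable (hnrm_meas hφ hf)
    (hnrm_meas hφ hg) (fun _ => by positivity) (fun _ => by positivity) (hnrm_pair φ f g) h1 h2

theorem ip_sq_le {φ : W → ℝ} (hφ : Measurable φ) {f g : W → ℂ} (hf : Measurable f)
    (hg : Measurable g) : ENNReal.ofReal (‖S.ip φ f g‖ ^ 2) ≤ S.nn φ f * S.nn φ g :=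
  cs_lintegral S.μ (hnrm_meas hφ hf) (hnrm_meas hφ hg) (fun _ => by positivity)
    (fun _ => by positivity) (hnrm_pair φ f g)

theorem ip_conj (φ : W → ℝ) (f g : W → ℂ) : conj (S.ip φ f g) = S.ip φ g f := by
  unfold ip
  rw [← integral_conj]
  refine integral_congr_ae (ae_of_all _ fun p => ?_)
  simp only [map_mul, Complex.conj_conj, Complex.conj_ofReal]
  ring

theorem nn_eq_ip {φ : W → ℝ} (hφ : Measurable φ) {f : W → ℂ} (hf : Measurable f)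
    (h : S.nn φ f ≠ ⊤) : S.nn φ f = ENNReal.ofReal (S.ip φ f f).re := by
  have e : S.ip φ f f = ((∫ p, ‖f p‖ ^ 2 * Real.exp (-φ p) ∂S.μ : ℝ) : ℂ) := by
    unfold ip
    rw [← integral_complex_ofReal]
    refine integral_congr_ae (ae_of_all _ fun p => ?_)
    simp only [Complex.mul_conj, Complex.normSq_eq_norm_sq, Complex.ofReal_mul]
  rw [e, Complex.ofReal_re, integral_eq_lintegral_of_nonneg_ae
    (ae_of_all _ fun p => by positivity) (hnrm_meas hφ hf).aestronglyMeasurable]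
  exact (ENNReal.ofReal_toReal h).symm

end Sheets

end

end Fuj
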