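import Vale.Agent.P271.HRS0
import Vale.Agent.P271.HWeyl
import Vale.Agent.P271.HNorm

/-! Removable singularities for square integrable holomorphic functions. -/

namespace Fuj

open MeasureTheory Set Filter Topology Complex
open scoped ENNReal ContDiff ComplexConjugate

noncomputable section

variable {E : Type*} [NormedAddCommGroup E] [NormedSpace ℝ E] [NormedSpace ℂ E]
  [IsScalarTower ℝ ℂ E] [FiniteDimensional ℂ E] [MeasurableSpace E] [BorelSpace E]
  {vol : Measure E} [vol.IsAddHaarMeasure]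

namespace HRS

omit [NormedSpace ℝ E] [NormedSpace ℂ E] [IsScalarTower ℝ ℂ E] [FiniteDimensional ℂ E]
  [BorelSpace E] [vol.IsAddHaarMeasure] in
/-- The error term tends to zero. -/
theorem err_zero {K : Set E} (hK : MeasurableSet K) {g : E → ℂ} (hg : Measurable g)
    (h1 : IntegrableOn g K vol) (h2 : ∫⁻ z in K, ENNReal.ofReal (‖g z‖ ^ 2) ∂vol ≠ ⊤)
    {A : ℕ → Set E} (hA : ∀ n, MeasurableSet (A n))
    (hA0 : ∀ z, g z ≠ 0 → ∀ᶠ n in atTop, z ∉ A n) {a : E → ℂ} {M : ℝ} (hM : 0 ≤ M)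
    (ha : ∀ z, ‖a z‖ ≤ M) {d : ℕ → E → ℂ} {C : ℝ}
    (hd : ∀ k, ∫⁻ z in K, ENNReal.ofReal (‖d k z‖ ^ 2) ∂vol ≤ ENNReal.ofReal C)
    (hu : ∀ n, ∀ ε : ℝ, 0 < ε → ∀ᶠ k in atTop, ∀ z ∈ K, z ∉ A n → ‖d k z‖ ≤ ε) :
    Tendsto (fun k => ∫ z in K, a z * (conj (d k z) * g z) ∂vol) atTop (𝓝 0) := by
  have hm : ∀ n, Measurable fun z => ENNReal.ofReal ((A n).indicator (fun z => ‖g z‖ ^ 2) z) :=
    fun n => ((hg.norm.pow_const 2).indicator (hA n)).ennreal_ofReal
  have hP : Tendsto (fun n => ∫⁻ z in K, ENNReal.ofReal ((A n).indicator (fun z => ‖g z‖ ^ 2) z)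
      ∂vol) atTop (𝓝 (∫⁻ _ in K, 0 ∂vol)) := by
    refine tendsto_lintegral_of_dominated_convergence _ hm (fun n => ae_of_all _ fun z =>
      ENNReal.ofReal_le_ofReal (indicator_le_self' (fun _ _ => sq_nonneg _) z)) h2
      (ae_of_all _ fun z => tendsto_const_nhds.congr' ?_)
    by_cases hz : g z = 0
    · refine Eventually.of_forall fun n => ?_
      by_cases hn : z ∈ A n <;> simp [hn, hz]
    · filter_upwards [hA0 z hz] with n hn
      simp [hn]
  rw [lintegral_zero] at hP
  set J : ℝ := (∫⁻ z in K, ‖g z‖ₑ ∂vol).toReal with hJ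
  have hJ0 : 0 ≤ J := ENNReal.toReal_nonneg
  have hJ1 : ∫⁻ z in K, ENNReal.ofReal ‖g z‖ ∂vol = ENNReal.ofReal J := by
    rw [hJ, ENNReal.ofReal_toReal h1.2.ne]
    simp only [ofReal_norm]
  refine Metric.tendsto_nhds.2 fun η hη => ?_
  set t : ℝ := η / (4 * (|C| + 1)) with ht
  have ht0 : 0 < t := by positivity
  set δ : ℝ := t * η / (4 * (M ^ 2 + 1)) with hδ
  have hδ0 : 0 < δ := by positivity
  set ε : ℝ := η / (4 * (M * J + 1)) with hε
  have hε0 : 0 < ε := by positivity
  obtain ⟨n, hn⟩ := (hP.eventually (eventually_le_nhds (ENNReal.ofReal_pos.2 hδ0))).exists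
  filter_upwards [hu n ε hε0] with k hk
  rw [dist_zero_right]
  have key : ENNReal.ofReal ‖∫ z in K, a z * (conj (d k z) * g z) ∂vol‖ ≤
      ENNReal.ofReal (t * |C| + M ^ 2 / t * δ + ε * M * J) := by
    rw [ofReal_norm]
    refine (enorm_integral_le_lintegral_enorm _).trans ?_
    refine (setLIntegral_mono' (g := fun z => ENNReal.ofReal t * ENNReal.ofReal (‖d k z‖ ^ 2) +
      ENNReal.ofReal (M ^ 2 / t) * ENNReal.ofReal ((A n).indicator (fun z => ‖g z‖ ^ 2) z) +
      ENNReal.ofReal (ε * M) * ENNReal.ofReal ‖g z‖) hK fun z hz => ?_).trans ?_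
    · have i0 : 0 ≤ (A n).indicator (fun z => ‖g z‖ ^ 2) z :=
        indicator_nonneg (fun _ _ => sq_nonneg _) z
      rw [← ofReal_norm, ← ENNReal.ofReal_mul ht0.le, ← ENNReal.ofReal_mul (by positivity),
        ← ENNReal.ofReal_mul (by positivity), ← ENNReal.ofReal_add (by positivity) (by positivity),
        ← ENNReal.ofReal_add (by positivity) (by positivity)]
      refine ENNReal.ofReal_le_ofReal ?_
      rw [norm_mul, norm_mul, Complex.norm_conj]
      have b1 : ‖a z‖ * (‖d k z‖ * ‖g z‖) ≤ M * (‖d k z‖ * ‖g z‖) :=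
        mul_le_mul_of_nonneg_right (ha z) (by positivity)
      by_cases hzA : z ∈ A n
      · rw [indicator_of_mem hzA]
        have b2 : M * (‖d k z‖ * ‖g z‖) ≤ t * ‖d k z‖ ^ 2 + M ^ 2 / t * ‖g z‖ ^ 2 := by
          rw [← mul_le_mul_iff_right₀ ht0]
          have b3 : t * (M ^ 2 / t) = M ^ 2 := mul_div_cancel₀ _ ht0.ne'
          have b4 : 0 ≤ t * (M * (‖d k z‖ * ‖g z‖)) := by positivity
          have b5 : t * (t * ‖d k z‖ ^ 2 + M ^ 2 / t * ‖g z‖ ^ 2) =
              (t * ‖d k z‖) ^ 2 + (t * (M ^ 2 / t)) * ‖g z‖ ^ 2 := by ring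
          rw [b5, b3]
          nlinarith [sq_nonneg (t * ‖d k z‖ - M * ‖g z‖)]
        have b6 : 0 ≤ ε * M * ‖g z‖ := by positivity
        linarith
      · have b2 : M * (‖d k z‖ * ‖g z‖) ≤ M * (ε * ‖g z‖) :=
          mul_le_mul_of_nonneg_left (mul_le_mul_of_nonneg_right (hk z hz hzA) (norm_nonneg _)) hM
        have b3 : 0 ≤ t * ‖d k z‖ ^ 2 := by positivity
        have b4 : 0 ≤ M ^ 2 / t * (A n).indicator (fun z => ‖g z‖ ^ 2) z := by positivity
        nlinarith
    · rw [lintegral_add_right _ (hg.norm.ennreal_ofReal.const_mul _),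
        lintegral_add_right _ ((hm n).const_mul _),
        lintegral_const_mul' _ _ ENNReal.ofReal_ne_top,
        lintegral_const_mul' _ _ ENNReal.ofReal_ne_top,
        lintegral_const_mul' _ _ ENNReal.ofReal_ne_top, hJ1,
        ENNReal.ofReal_add (by positivity) (by positivity),
        ENNReal.ofReal_add (by positivity) (by positivity), ENNReal.ofReal_mul ht0.le,
        ENNReal.ofReal_mul (p := M ^ 2 / t) (by positivity),
        ENNReal.ofReal_mul (p := ε * M) (by positivity)]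
      gcongr
      exact (hd k).trans (ENNReal.ofReal_le_ofReal (le_abs_self C))
  have k2 := (ENNReal.ofReal_le_ofReal_iff (by positivity)).1 key
  have c1 : t * |C| ≤ η / 4 := by
    rw [ht, div_mul_eq_mul_div, div_le_div_iff₀ (by positivity) (by positivity)]
    nlinarith [abs_nonneg C]
  have c2 : M ^ 2 / t * δ ≤ η / 4 := by
    have : M ^ 2 / t * δ = M ^ 2 * η / (4 * (M ^ 2 + 1)) := by
      rw [hδ]
      field_simp
    rw [this, div_le_div_iff₀ (by positivity) (by positivity)]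
    nlinarith [sq_nonneg M]
  have c3 : ε * M * J ≤ η / 4 := by
    rw [hε, mul_assoc, div_mul_eq_mul_div, div_le_div_iff₀ (by positivity) (by positivity)]
    nlinarith [mul_nonneg hM hJ0]
  linarith

end HRS

/-- Let g = F on V ∩ {c ≠ 0}, 0 elsewhere. For a test function ζ, ζ χ_k g is C¹ on V, so
∫ conj(dzr ζ) χ_k g = -∫ ζ conj (dzr χ_k) g (setIntegral_db_zero, db F = 0). The left side tends to
∫ conj (dzr ζ) g (dominated convergence), the right side to 0: on {|c| < r} Cauchy-Schwarz and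
∫_{K, |c| < r} |g|² → 0 as r → 0, on {|c| ≥ r} uniform convergence. Then weyl, and
Measure.eqOn_open_of_ae_eq on the open set V ∩ {c ≠ 0}. -/
theorem rs {V : Set E} (hV : IsOpen V) {c F : E → ℂ} (hc : DifferentiableOn ℂ c V)
    (hF : DifferentiableOn ℂ F (V ∩ {z | c z ≠ 0}))
    (h2 : ∀ K, IsCompact K → K ⊆ V →
      ∫⁻ z in K ∩ {z | c z ≠ 0}, ENNReal.ofReal (‖F z‖ ^ 2) ∂vol ≠ ⊤) :
    ∃ G : E → ℂ, DifferentiableOn ℂ G V ∧ EqOn G F (V ∩ {z | c z ≠ 0}) := by
  classical
  haveI : FiniteDimensional ℝ E := Module.Finite.trans ℂ E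
  haveI : ProperSpace E := FiniteDimensional.proper ℝ E
  set U : Set E := V ∩ {z | c z ≠ 0} with hUdef
  have hU : IsOpen U := hc.continuousOn.isOpen_inter_preimage hV isOpen_ne
  set g : E → ℂ := U.indicator F with hgdef
  have hg : Measurable g := by
    rw [hgdef, ← piecewise_eq_indicator]
    exact hF.continuousOn.measurable_piecewise continuousOn_const hU.measurableSet
  have hgF : ∀ z ∈ U, g =ᶠ[𝓝 z] F := fun z hz =>
    (eqOn_indicator (s := U) (f := F)).eventuallyEq_of_mem (hU.mem_nhds hz)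
  have hg0 : ∀ z, c z = 0 → g z = 0 := fun z hz => indicator_of_notMem (fun h => h.2 hz) F
  have hg2 : ∀ K, IsCompact K → K ⊆ V → ∫⁻ z in K, ENNReal.ofReal (‖g z‖ ^ 2) ∂vol ≠ ⊤ := by
    intro K hK hKV
    have e : (fun z => ENNReal.ofReal (‖g z‖ ^ 2)) =
        U.indicator fun z => ENNReal.ofReal (‖F z‖ ^ 2) := by
      funext z
      by_cases hz : z ∈ U <;> simp [hgdef, hz]
    have e2 : U ∩ K = K ∩ {z | c z ≠ 0} := by
      ext z
      exact ⟨fun h => ⟨h.2, h.1.2⟩, fun h => ⟨⟨hKV h.1, h.2⟩, h.1⟩⟩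
    rw [e, lintegral_indicator hU.measurableSet, Measure.restrict_restrict hU.measurableSet, e2]
    exact h2 K hK hKV
  have hg1 : ∀ K, IsCompact K → K ⊆ V → IntegrableOn g K vol := fun K hK hKV =>
    integrable_of_cs _ (a := fun z => ‖g z‖ ^ 2) (c := fun _ => 1) hg.aestronglyMeasurable
      (hg.norm.pow_const 2) measurable_const (fun _ => sq_nonneg _) (fun _ => zero_le_one)
      (fun _ => (mul_one _).ge) (hg2 K hK hKV) (by simpa using hK.measure_lt_top.ne)
  obtain ⟨χ, hχ, hχ0, hχ1, hχb⟩ := rs_cut (vol := vol) hV hc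
  have hz0 : ∀ k, ∀ z ∈ V, c z = 0 → (fun y => (χ k y : ℂ) * g y) =ᶠ[𝓝 z] fun _ => 0 := by
    intro k z hz h0
    have h1 : ContinuousAt (fun y => ‖c y‖ ^ 2) z :=
      (hc.continuousOn.continuousAt (hV.mem_nhds hz)).norm.pow 2
    have h3 : ‖c z‖ ^ 2 < Real.exp (-((k : ℝ) + 1)) := by
      rw [h0, norm_zero, zero_pow two_ne_zero]
      exact Real.exp_pos _
    filter_upwards [h1.eventually_lt continuousAt_const h3, hV.mem_nhds hz] with y hy hyV
    rw [hχ0 k y hyV hy, Complex.ofReal_zero, zero_mul]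
  have hχC : ∀ k, ∀ z ∈ V, ContDiffAt ℝ 1 (fun y => (χ k y : ℂ)) z := fun k z hz =>
    Complex.ofRealCLM.contDiff.contDiffAt.comp z
      (((hχ k).contDiffAt (hV.mem_nhds hz)).of_le (by norm_num))
  have hgC : ∀ z ∈ U, ContDiffAt ℝ 1 g z := fun z hz =>
    (((contDiffOn_of_hol hU hF).contDiffAt (hU.mem_nhds hz)).of_le (by simp)).congr_of_eventuallyEq
      (hgF z hz)
  have hG : ∀ k, ContDiffOn ℝ 1 (fun y => (χ k y : ℂ) * g y) V := fun k z hz => by
    by_cases h0 : c z = 0
    · exact (contDiffAt_const.congr_of_eventuallyEq (hz0 k z hz h0)).contDiffWithinAt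
    · exact ((hχC k z hz).mul (hgC z ⟨hz, h0⟩)).contDiffWithinAt
  have hdb : ∀ k ξ, ∀ z ∈ V,
      db (fun y => (χ k y : ℂ) * g y) z ξ = conj (dzr (χ k) z ξ) * g z := fun k ξ z hz => by
    by_cases h0 : c z = 0
    · rw [db_congr (hz0 k z hz h0), db_const, hg0 z h0, mul_zero]
    · rw [db_mul ((hχC k z hz).differentiableAt one_ne_zero)
        ((hgC z ⟨hz, h0⟩).differentiableAt one_ne_zero), db_ofReal, db_congr (hgF z ⟨hz, h0⟩),
        db_hol (hF.differentiableAt (hU.mem_nhds ⟨hz, h0⟩)), mul_zero, add_zero]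
  obtain ⟨G, hGd, hGe⟩ := weyl (vol := vol) hV (g := g)
    ((locallyIntegrableOn_iff hV.isLocallyClosed).2 fun K hKV hK => hg1 K hK hKV)
    fun ζ hζ ξ => by
      have hK : IsCompact (tsupport ζ) := hζ.2.1
      obtain ⟨C, hC1, hC2, hC3⟩ := hχb _ hK hζ.2.2 ξ
      have hcz : Continuous fun z => conj (dzr ζ z ξ) :=
        Complex.continuous_conj.comp (hζ.continuous_dzr ξ)
      have hi : IntegrableOn (fun z => conj (dzr ζ z ξ) * g z) V vol :=
        integrableOn_mul_of_supp hV hK hζ.2.2 hcz.continuousOn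
          (fun z _ hz => by rw [hζ.dzr_eq_zero hz, map_zero]) hg.aestronglyMeasurable
          (hg2 _ hK hζ.2.2)
      have l1 : Tendsto (fun k => ∫ z in V, conj (dzr ζ z ξ) * ((χ k z : ℂ) * g z) ∂vol) atTop
          (𝓝 (∫ z in V, conj (dzr ζ z ξ) * g z ∂vol)) := by
        refine tendsto_integral_of_dominated_convergence
          (fun z => C * ‖conj (dzr ζ z ξ) * g z‖)
          (fun k => (hcz.continuousOn.mul (hG k).continuousOn).aestronglyMeasurable
            hV.measurableSet) (hi.norm.const_mul C) (fun k => ae_of_all _ fun z => ?_)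
          ((ae_restrict_iff' hV.measurableSet).2 (ae_of_all _ fun z hz => ?_))
        · by_cases hz : z ∈ tsupport ζ
          · rw [mul_left_comm, norm_mul, Complex.norm_real, Real.norm_eq_abs]
            exact mul_le_mul_of_nonneg_right (hC1 k z hz) (norm_nonneg _)
          · simp [hζ.dzr_eq_zero hz]
        · by_cases h0 : c z = 0
          · simp only [hg0 z h0, mul_zero]
            exact tendsto_const_nhds
          · have h1 := ((Complex.continuous_ofReal.tendsto 1).comp (hχ1 z hz h0)).mul_const (g z)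
            rw [Complex.ofReal_one, one_mul] at h1
            exact h1.const_mul _
      obtain ⟨M, hM⟩ := hζ.1.continuous.bounded_above_of_compact_support hζ.2.1
      have l2 := HRS.err_zero (vol := vol) hK.measurableSet hg (hg1 _ hK hζ.2.2) (hg2 _ hK hζ.2.2)
        (A := fun n => V ∩ c ⁻¹' Metric.ball 0 (1 / ((n : ℝ) + 1)))
        (fun n => (hc.continuousOn.isOpen_inter_preimage hV Metric.isOpen_ball).measurableSet)
        (fun z hz => by
          have h0 : 0 < ‖c z‖ := norm_pos_iff.2 fun h => hz (hg0 z h)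
          filter_upwards [tendsto_one_div_add_atTop_nhds_zero_nat.eventually
            (eventually_le_nhds h0)] with n hn h
          exact (mem_ball_zero_iff.1 h.2).not_ge hn)
        (a := fun z => (ζ z : ℂ)) ((norm_nonneg _).trans (hM 0))
        (fun z => by rw [Complex.norm_real]; exact hM z) (d := fun k z => dzr (χ k) z ξ) hC2
        (fun n ε hε => by
          filter_upwards [hC3 (1 / ((n : ℝ) + 1)) (by positivity) ε hε] with k hk z hz hzA
          exact hk z hz (not_lt.1 fun h => hzA ⟨hζ.2.2 hz, mem_ball_zero_iff.2 h⟩))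
      have l3 := l2.neg
      rw [neg_zero] at l3
      refine tendsto_nhds_unique l1 (l3.congr fun k => ?_)
      rw [ibp_db hV hζ (hG k) ξ, setIntegral_congr_fun hV.measurableSet
        (g := fun z => (ζ z : ℂ) * (conj (dzr (χ k) z ξ) * g z)) fun z hz => by
          simp only [hdb k ξ z hz]]
      rw [setIntegral_eq_of_subset_of_forall_diff_eq_zero hV.measurableSet hζ.2.2 fun z hz => by
        rw [image_eq_zero_of_notMem_tsupport hz.2, Complex.ofReal_zero, zero_mul]]
  refine ⟨G, hGd, Measure.eqOn_open_of_ae_eq (μ := vol) ?_ hU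
    (hGd.continuousOn.mono inter_subset_left) hF.continuousOn⟩
  filter_upwards [ae_restrict_of_ae_restrict_of_subset inter_subset_left hGe,
    ae_restrict_mem hU.measurableSet] with z hz hzU
  rw [hz, hgdef, indicator_of_mem hzU]

end

end Fuj
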