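import Vale.Agent.P271.GTay
import Vale.Agent.P271.HRS
import Vale.Agent.P271.HInt

/-! Null sets, extension of functions of polynomial growth. -/

set_option linter.unusedSectionVars false

open MeasureTheory Set Filter Topology Metric
open scoped ENNReal ContDiff

noncomputable section
namespace Fuj

variable {n : ℕ}

theorem gext_mono {y : E n} {r : ℕ} {f : E n → ℂ} (h : Ord y (r + 1) f) : Ord y r f := by
  refine Asymptotics.IsBigO.trans h (Asymptotics.IsBigO.of_bound 1 ?_)
  filter_upwards [ball_mem_nhds y one_pos] with z hz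
  rw [mem_ball_iff_norm] at hz
  rw [one_mul, Real.norm_of_nonneg (by positivity), Real.norm_of_nonneg (by positivity)]
  exact pow_le_pow_of_le_one (norm_nonneg _) hz.le (Nat.le_succ r)

/-- At `y ∈ V` some `Ord y j f` fails (`ev_zero_of_ord`; if `Ord y 0` fails so does `Ord y 1`, or use
`Ord y (r + 1) f → Ord y r f`); `int_neg_pow` with `c = 1 / (2 (r + 1))`: the integrand is `⊤` on the
zero set (`ae_lt_top'` or `measure_eq_top_of_lintegral_ne_top`; directly:
`⊤ * volume (U ∩ Z) ≤ ∫⁻`). Conclude by `measure_null_of_locally_null`. -/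
theorem null_zero {f : E n → ℂ} {V : Set (E n)} (hV : IsOpen V) (hf : AnalyticOnNhd ℂ f V)
    (h : ∀ y ∈ V, ¬ ∀ᶠ z in 𝓝 y, f z = 0) : volume (V ∩ {z | f z = 0}) = 0 := by
  have hm : MeasurableSet (V ∩ {z | f z = 0}) := by
    have h1 := hf.continuousOn.isOpen_inter_preimage hV (isOpen_compl_singleton (x := (0 : ℂ)))
    have h2 : V ∩ {z | f z = 0} = V \ (V ∩ f ⁻¹' {0}ᶜ) := by
      ext z; simp
    rw [h2]
    exact hV.measurableSet.diff h1.measurableSet
  refine measure_null_of_locally_null _ fun y hy => ?_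
  obtain ⟨j, hj⟩ : ∃ j, ¬ Ord y j f := by
    by_contra hc
    exact h y hy.1 (ev_zero_of_ord (hf y hy.1) fun j => by_contra fun hj => hc ⟨j, hj⟩)
  have hc : (0 : ℝ) < 1 / (j + 1) := by positivity
  obtain ⟨W, hW, hI⟩ := int_neg_pow volume
    ((hf y hy.1).eventually_analyticAt.mono fun z hz => hz.differentiableAt) (r := j)
    (fun h => hj (gext_mono h)) hc.le (by
      rw [div_mul_eq_mul_div, one_mul, div_lt_one (by positivity)]; exact lt_add_one _)
  refine ⟨interior W ∩ (V ∩ {z | f z = 0}),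
    inter_mem (mem_nhdsWithin_of_mem_nhds (interior_mem_nhds.2 hW)) self_mem_nhdsWithin, ?_⟩
  by_contra hne
  refine hI (top_le_iff.1 (le_trans ?_
    (lintegral_mono_set (s := interior W ∩ (V ∩ {z | f z = 0}))
      (inter_subset_left.trans interior_subset))))
  rw [← ENNReal.top_mul hne, ← setLIntegral_const]
  refine setLIntegral_mono' (isOpen_interior.measurableSet.inter hm) fun z hz => ?_
  rw [show f z = 0 from hz.2.2, enorm_zero, ENNReal.zero_rpow_of_neg (by linarith)]

/-- `rs` with `V = univ` (bounded on compact sets, which have finite measure); the extension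
satisfies the same bound since `{c ≠ 0}` is dense (identity theorem); `liouville_poly`,
`exists_homog`. -/
theorem ext_poly {c F : E n → ℂ} (hc : AnalyticOnNhd ℂ c univ) (hc0 : ∃ z, c z ≠ 0)
    (hF : DifferentiableOn ℂ F {z | c z ≠ 0}) {A : ℝ} {d : ℕ}
    (h : ∀ z, c z ≠ 0 → ‖F z‖ ≤ A * (1 + ‖z‖) ^ d) :
    ∃ Q : MvPolynomial (Fin (n + 1)) ℂ, Q.IsHomogeneous d ∧
      ∀ z, c z ≠ 0 → F z = MvPolynomial.eval (Fin.cons 1 z) Q := by
  have hcc : Continuous c := continuousOn_univ.1 hc.continuousOn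
  obtain ⟨G, hG, hGF⟩ := rs (vol := (volume : Measure (E n))) isOpen_univ
    hc.differentiableOn (F := F) (by rwa [univ_inter]) (fun K hK _ => by
      obtain ⟨R, hR⟩ := hK.isBounded.subset_closedBall 0
      refine (setLIntegral_lt_top_of_le_nnreal
        ((measure_mono inter_subset_left).trans_lt hK.measure_lt_top).ne
        ⟨((|A| * (1 + R) ^ d) ^ 2).toNNReal, fun z hz => ENNReal.ofReal_le_ofReal ?_⟩).ne
      have h1 := mem_closedBall_zero_iff.1 (hR hz.1)
      refine pow_le_pow_left₀ (norm_nonneg _) ((h z hz.2).trans ?_) 2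
      gcongr
      exact le_abs_self A)
  have hG' : Differentiable ℂ G := differentiableOn_univ.1 hG
  have hb : ∀ z, ‖G z‖ ≤ A * (1 + ‖z‖) ^ d := by
    intro y
    have hcl : IsClosed {z : E n | ‖G z‖ ≤ A * (1 + ‖z‖) ^ d} :=
      isClosed_le hG'.continuous.norm (by fun_prop)
    refine hcl.closure_subset (mem_closure_iff_frequently.2 ?_)
    have hfr : ∃ᶠ z in 𝓝 y, c z ≠ 0 := by
      intro hev
      obtain ⟨z, hz⟩ := hc0
      exact hz (hc.eqOn_zero_of_preconnected_of_eventuallyEq_zero isPreconnected_univ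
        (mem_univ y) (hev.mono fun w hw => not_not.1 hw) (mem_univ z))
    refine hfr.mono fun z hz => ?_
    show ‖G z‖ ≤ _
    rw [hGF ⟨mem_univ z, hz⟩]
    exact h z hz
  obtain ⟨P, hP, hPe⟩ := liouville_poly hG' hb
  obtain ⟨Q, hQ, hQe⟩ := exists_homog P hP
  exact ⟨Q, hQ, fun z hz => by rw [hQe, ← hPe, hGF ⟨mem_univ z, hz⟩]⟩

/-- Restrict to `U ∩ {g ≤ C f}` (take a measurable (open) subset); `lintegral_const_mul'`. -/
theorem IntAt.of_le {y : E n} {f g : E n → ℝ≥0∞} (h : IntAt y f) {C : ℝ≥0∞} (hC : C ≠ ⊤)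
    (hle : ∀ᶠ z in 𝓝 y, g z ≤ C * f z) : IntAt y g := by
  obtain ⟨U, hU, hI⟩ := h
  refine ⟨interior (U ∩ {z | g z ≤ C * f z}), interior_mem_nhds.2 (inter_mem hU hle), ?_⟩
  refine ne_top_of_le_ne_top (ENNReal.mul_ne_top hC hI) ?_
  refine (setLIntegral_mono' isOpen_interior.measurableSet
    fun z hz => (interior_subset hz).2).trans ?_
  rw [lintegral_const_mul' _ _ hC]
  exact mul_le_mul_right (lintegral_mono_set (interior_subset.trans inter_subset_left)) _

/-- If `ball y r ⊆ U` and the bound holds there then the integral over `U` is at least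
`c r ^ (-2 (n + 1)) * volume (ball y r) = c r ^ (-2) * volume (ball 0 1)` (`Measure.addHaar_ball`,
real dimension `2 n`); let `r → 0`. -/
theorem not_intAt {y : E n} {f : E n → ℝ≥0∞} {c : ℝ} (hc : 0 < c)
    (h : ∀ᶠ z in 𝓝 y, ∀ r : ℝ, 0 < r → ‖z - y‖ < r → ENNReal.ofReal (c / r ^ (2 * (n + 1))) ≤ f z) :
    ¬ IntAt y f := by
  rintro ⟨U, hU, hI⟩
  obtain ⟨r₀, hr₀, hb⟩ := Metric.mem_nhds_iff.1 (inter_mem hU h)
  have hB0 : 0 < volume (ball (0 : E n) 1) := measure_ball_pos _ _ one_pos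
  have hB1 : volume (ball (0 : E n) 1) ≠ ⊤ := measure_ball_lt_top.ne
  have hd : Module.finrank ℝ (E n) = 2 * n := by
    simp [Module.finrank_pi_fintype, mul_comm]
  have key : ∀ r ∈ Ioo 0 r₀, c * (volume (ball (0 : E n) 1)).toReal ≤
      (∫⁻ p in U, f p).toReal * r ^ 2 := by
    intro r hr
    have h0 := hr.1
    have hs := (ball_subset_ball hr.2.le).trans hb
    have h1 : ENNReal.ofReal (c / r ^ (2 * (n + 1))) * volume (ball y r) ≤ ∫⁻ p in U, f p := by
      rw [← setLIntegral_const]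
      refine (setLIntegral_mono' measurableSet_ball fun z hz => ?_).trans
        (lintegral_mono_set (hs.trans inter_subset_left))
      exact (hs hz).2 r h0 (mem_ball_iff_norm.1 hz)
    rw [Measure.addHaar_ball_of_pos _ _ h0, hd, ← mul_assoc,
      ← ENNReal.ofReal_mul (by positivity)] at h1
    have h2 := ENNReal.toReal_mono hI h1
    rw [ENNReal.toReal_mul, ENNReal.toReal_ofReal (by positivity)] at h2
    have e : c / r ^ (2 * (n + 1)) * r ^ (2 * n) = c / r ^ 2 := by
      field_simp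
      ring
    rw [e, div_mul_eq_mul_div, div_le_iff₀ (by positivity)] at h2
    exact h2
  have ht : Tendsto (fun r : ℝ => (∫⁻ p in U, f p).toReal * r ^ 2) (𝓝[>] 0)
      (𝓝 ((∫⁻ p in U, f p).toReal * 0 ^ 2)) :=
    (Continuous.tendsto (by fun_prop) 0).mono_left nhdsWithin_le_nhds
  have h3 := ge_of_tendsto ht (mem_of_superset (Ioo_mem_nhdsGT hr₀) key)
  have h4 := mul_pos hc (ENNReal.toReal_pos hB0.ne' hB1)
  simp only [ne_eq, OfNat.ofNat_ne_zero, not_false_eq_true, zero_pow, mul_zero] at h3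
  linarith

/-- A compact set all of whose points are points of integrability has an open neighbourhood with
finite integral (finite subcover, `lintegral_biUnion_finset_le` or `lintegral_union_le`). -/
theorem exists_open_int {S : Set (E n)} (hS : IsCompact S) {f : E n → ℝ≥0∞}
    (h : ∀ z ∈ S, IntAt z f) : ∃ U, IsOpen U ∧ S ⊆ U ∧ ∫⁻ z in U, f z ≠ ⊤ := by
  refine hS.induction_on (p := fun T => ∃ U, IsOpen U ∧ T ⊆ U ∧ ∫⁻ z in U, f z ≠ ⊤)
    ⟨∅, isOpen_empty, Subset.rfl, by simp⟩ ?_ ?_ ?_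
  · rintro s t hst ⟨U, h1, h2, h3⟩
    exact ⟨U, h1, hst.trans h2, h3⟩
  · rintro s t ⟨U, h1, h2, h3⟩ ⟨U', h1', h2', h3'⟩
    exact ⟨U ∪ U', h1.union h1', union_subset_union h2 h2',
      ne_top_of_le_ne_top (ENNReal.add_ne_top.2 ⟨h3, h3'⟩) (lintegral_union_le _ _ _)⟩
  · intro z hz
    obtain ⟨U, hU, hI⟩ := h z hz
    exact ⟨interior U, mem_nhdsWithin_of_mem_nhds (interior_mem_nhds.2 hU), interior U,
      isOpen_interior, Subset.rfl, ne_top_of_le_ne_top hI (lintegral_mono_set interior_subset)⟩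

end Fuj
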