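import Vale.Agent.P271.HCalc2a

/-! Calculus of Levi forms. -/

namespace Fuj

open MeasureTheory Set Filter Topology Complex
open scoped ENNReal ContDiff ComplexConjugate

noncomputable section

variable {E : Type*} [NormedAddCommGroup E] [NormedSpace ℝ E] [NormedSpace ℂ E]
  [IsScalarTower ℝ ℂ E]

variable [FiniteDimensional ℂ E]

omit [NormedSpace ℝ E] [IsScalarTower ℝ ℂ E] in
theorem c2_fd {F : Type*} [NormedAddCommGroup F] [NormedSpace ℂ F] [FiniteDimensional ℂ F]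
    {f : E → F} {z : E} (hf : ∀ᶠ y in 𝓝 z, DifferentiableAt ℂ f y) (ξ : E) :
    DifferentiableAt ℂ (fun y => fderiv ℂ f y ξ) z := by
  have : CompleteSpace F := FiniteDimensional.complete ℂ F
  have h := Vale.Agent.P274.analyticAt_of_eventually_differentiableAt hf
  exact h.fderiv.differentiableAt.clm_apply (differentiableAt_const ξ)

theorem c2_cd {f : E → ℂ} {z : E} (hf : ∀ᶠ y in 𝓝 z, DifferentiableAt ℂ f y) :
    ContDiffAt ℝ 2 (fun y => ‖f y‖ ^ 2) z := by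
  have h : ContDiffAt ℝ 2 f z :=
    ((Vale.Agent.P274.analyticAt_of_eventually_differentiableAt hf).contDiffAt
      (n := 2)).restrict_scalars ℝ
  exact h.norm_sq ℂ

omit [FiniteDimensional ℂ E] in
theorem c2_dzr_sum {J : Type*} (s : Finset J) {g : J → E → ℝ} {z : E}
    (hg : ∀ j ∈ s, DifferentiableAt ℝ (g j) z) (ξ : E) :
    dzr (fun y => ∑ j ∈ s, g j y) z ξ = ∑ j ∈ s, dzr (g j) z ξ := by
  unfold dzr
  simp only [Complex.ofReal_sum]
  exact dz_sum s (f := fun j y => ((g j y : ℝ) : ℂ))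
    (fun j hj => Complex.ofRealCLM.differentiableAt.comp z (hg j hj)) ξ

/-- Near z, dzr is f' ξ / f (dzr_log_normSq), which is holomorphic (P274.SCV1Aux.fderiv_apply). -/
theorem leviC_log_normSq {f : E → ℂ} {z : E} (hf : ∀ᶠ y in 𝓝 z, DifferentiableAt ℂ f y)
    (h0 : f z ≠ 0) (ξ ζ : E) : leviC (fun y => Real.log (‖f y‖ ^ 2)) z ξ ζ = 0 := by
  have h1 : (fun y => dzr (fun y => Real.log (‖f y‖ ^ 2)) y ξ) =ᶠ[𝓝 z]
      fun y => fderiv ℂ f y ξ / f y := by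
    filter_upwards [hf, hf.self_of_nhds.continuousAt.eventually_ne h0] with y h1 h2
    exact dzr_log_normSq h1 h2 ξ
  rw [leviC, db_congr h1]
  simp only [div_eq_mul_inv]
  exact db_hol ((c2_fd hf ξ).mul (hf.self_of_nhds.inv h0)) ζ

theorem levi_normSq {f : E → ℂ} {z : E} (hf : ∀ᶠ y in 𝓝 z, DifferentiableAt ℂ f y) (ξ : E) :
    levi (fun y => ‖f y‖ ^ 2) z ξ = ‖fderiv ℂ f z ξ‖ ^ 2 := by
  have h1 : (fun y => dzr (fun y => ‖f y‖ ^ 2) y ξ) =ᶠ[𝓝 z]
      fun y => fderiv ℂ f y ξ * conj (f y) := hf.mono fun y h => dzr_normSq h ξ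
  have h2 : DifferentiableAt ℝ (fun y => conj (f y)) z :=
    Complex.conjCLE.differentiableAt.comp z (hf.self_of_nhds.restrictScalars ℝ)
  rw [levi, leviC, db_congr h1, db_mul ((c2_fd hf ξ).restrictScalars ℝ) h2, db_hol (c2_fd hf ξ),
    db_conj, dz_hol hf.self_of_nhds, zero_mul, zero_add, Complex.mul_conj, Complex.ofReal_re,
    Complex.normSq_eq_norm_sq]

/-- levi_comp with log; Cauchy-Schwarz |Σ f_j' conj f_j|² ≤ (Σ|f_j'|²)(Σ|f_j|²). -/
theorem levi_log_sum_ge {J : Type*} [Fintype J] {f : J → E → ℂ} {z : E} {c : ℝ}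
    (hf : ∀ j, ∀ᶠ y in 𝓝 z, DifferentiableAt ℂ (f j) y) (hc : 0 ≤ c)
    (h0 : 0 < (∑ j, ‖f j z‖ ^ 2) + c) (ξ : E) :
    c * (∑ j, ‖fderiv ℂ (f j) z ξ‖ ^ 2) / ((∑ j, ‖f j z‖ ^ 2) + c) ^ 2 ≤
      levi (fun y => Real.log ((∑ j, ‖f j y‖ ^ 2) + c)) z ξ := by
  have hS : ContDiffAt ℝ 2 (fun y => ∑ j, ‖f j y‖ ^ 2) z := ContDiffAt.sum fun j _ => c2_cd (hf j)
  have hψ : ContDiffAt ℝ 2 (fun y => (∑ j, ‖f j y‖ ^ 2) + c) z := hS.add contDiffAt_const
  have h1 : ∀ᶠ s in 𝓝 ((∑ j, ‖f j z‖ ^ 2) + c), HasDerivAt Real.log s⁻¹ s :=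
    (eventually_ne_nhds h0.ne').mono fun s hs => Real.hasDerivAt_log hs
  have h2 := levi_comp (h := Real.log) (h' := fun s => s⁻¹) hψ h1 (hasDerivAt_inv h0.ne') ξ
  have h3 : levi (fun y => (∑ j, ‖f j y‖ ^ 2) + c) z ξ = ∑ j, ‖fderiv ℂ (f j) z ξ‖ ^ 2 := by
    rw [levi_add hS contDiffAt_const, levi_const, add_zero,
      levi_sum _ (f := fun j y => ‖f j y‖ ^ 2) fun j _ => c2_cd (hf j)]
    exact Finset.sum_congr rfl fun j _ => levi_normSq (hf j) ξ
  have h4 : dzr (fun y => (∑ j, ‖f j y‖ ^ 2) + c) z ξ =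
      ∑ j, fderiv ℂ (f j) z ξ * conj (f j z) := by
    rw [dzr_add (hS.differentiableAt (by simp)) (differentiableAt_const c), dzr_const, add_zero,
      c2_dzr_sum _ (g := fun j y => ‖f j y‖ ^ 2)
        fun j _ => (c2_cd (hf j)).differentiableAt (by simp)]
    exact Finset.sum_congr rfl fun j _ => dzr_normSq (hf j).self_of_nhds ξ
  have h5 : ‖∑ j, fderiv ℂ (f j) z ξ * conj (f j z)‖ ^ 2 ≤
      (∑ j, ‖fderiv ℂ (f j) z ξ‖ ^ 2) * ∑ j, ‖f j z‖ ^ 2 := by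
    refine le_trans ?_ (Finset.sum_mul_sq_le_sq_mul_sq _ _ _)
    gcongr
    refine (norm_sum_le _ _).trans (le_of_eq ?_)
    simp
  rw [h2, h3, h4]
  set A := ∑ j, ‖fderiv ℂ (f j) z ξ‖ ^ 2
  set B := ∑ j, ‖f j z‖ ^ 2
  set D := ‖∑ j, fderiv ℂ (f j) z ξ * conj (f j z)‖ ^ 2
  have e : (B + c)⁻¹ * A + -((B + c) ^ 2)⁻¹ * D = ((B + c) * A - D) / (B + c) ^ 2 := by
    field_simp
    ring
  rw [e]
  gcongr
  nlinarith

/-- Holomorphic change of variables. Near z, dzr (ψ ∘ Φ) y ξ = Σ_j a_j(y) dzr ψ (Φ y) b_j where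
a_j(y) are the (holomorphic) coordinates of Φ'(y) ξ in a basis b of E'; db_mul, db_comp_hol. -/
theorem leviC_comp_hol {E' : Type*} [NormedAddCommGroup E'] [NormedSpace ℝ E'] [NormedSpace ℂ E']
    [IsScalarTower ℝ ℂ E'] [FiniteDimensional ℂ E'] {ψ : E' → ℝ} {Φ : E → E'} {z : E}
    (hψ : ContDiffAt ℝ 2 ψ (Φ z)) (hΦ : ∀ᶠ y in 𝓝 z, DifferentiableAt ℂ Φ y) (ξ ζ : E) :
    leviC (fun y => ψ (Φ y)) z ξ ζ = leviC ψ (Φ z) (fderiv ℂ Φ z ξ) (fderiv ℂ Φ z ζ) := by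
  let b := Module.finBasis ℂ E'
  have hs : ∀ w v : E', dzr ψ w v = ∑ j, b.repr v j * dzr ψ w (b j) := fun w v => by
    conv_lhs => rw [← b.sum_repr v]
    exact dz_sum_dir _ _ _ _ _
  have hΦ0 := hΦ.self_of_nhds
  have hd : ∀ᶠ w in 𝓝 (Φ z), DifferentiableAt ℝ ψ w :=
    (hψ.eventually (by simp)).mono fun w hw => hw.differentiableAt (by simp)
  have h1 : (fun y => dzr (fun y => ψ (Φ y)) y ξ) =ᶠ[𝓝 z]
      fun y => ∑ j, b.repr (fderiv ℂ Φ y ξ) j * dzr ψ (Φ y) (b j) := by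
    filter_upwards [hΦ, hΦ0.continuousAt.eventually hd] with y h1 h2
    rw [← hs]
    exact dz_comp_hol (f := fun w => (ψ w : ℂ))
      (Complex.ofRealCLM.differentiableAt.comp _ h2) h1 ξ
  have ha : ∀ j, DifferentiableAt ℂ (fun y => b.repr (fderiv ℂ Φ y ξ) j) z := fun j =>
    (LinearMap.toContinuousLinearMap (b.coord j)).differentiableAt.comp z (c2_fd hΦ ξ)
  have hb : ∀ j, DifferentiableAt ℝ (fun y => dzr ψ (Φ y) (b j)) z := fun j =>
    (differentiableAt_dzr hψ (b j)).comp z (hΦ0.restrictScalars ℝ)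
  have h2 : (fun w => dzr ψ w (fderiv ℂ Φ z ξ)) =
      fun w => ∑ j, b.repr (fderiv ℂ Φ z ξ) j * dzr ψ w (b j) := funext fun w => hs _ _
  rw [leviC, leviC, db_congr h1, h2,
    db_sum _ (f := fun j y => b.repr (fderiv ℂ Φ y ξ) j * dzr ψ (Φ y) (b j))
      fun j _ => ((ha j).restrictScalars ℝ).mul (hb j),
    db_sum _ (f := fun j w => b.repr (fderiv ℂ Φ z ξ) j * dzr ψ w (b j))
      fun j _ => (differentiableAt_const _).mul (differentiableAt_dzr hψ (b j))]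
  refine Finset.sum_congr rfl fun j _ => ?_
  rw [db_mul ((ha j).restrictScalars ℝ) (hb j), db_hol (ha j),
    db_mul (differentiableAt_const _) (differentiableAt_dzr hψ (b j)), db_const,
    db_comp_hol (f := fun w => dzr ψ w (b j)) (differentiableAt_dzr hψ (b j)) hΦ0]

theorem levi_comp_hol {E' : Type*} [NormedAddCommGroup E'] [NormedSpace ℝ E'] [NormedSpace ℂ E']
    [IsScalarTower ℝ ℂ E'] [FiniteDimensional ℂ E'] {ψ : E' → ℝ} {Φ : E → E'} {z : E}
    (hψ : ContDiffAt ℝ 2 ψ (Φ z)) (hΦ : ∀ᶠ y in 𝓝 z, DifferentiableAt ℂ Φ y) (ξ : E) :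
    levi (fun y => ψ (Φ y)) z ξ = levi ψ (Φ z) (fderiv ℂ Φ z ξ) := by
  rw [levi, levi, leviC_comp_hol hψ hΦ]

end

noncomputable section

variable {F : Type*} [NormedAddCommGroup F] [NormedSpace ℝ F] [InnerProductSpace ℂ F]
  [IsScalarTower ℝ ℂ F]

theorem c2_smul (c : ℝ) (x : F) : c • x = (c : ℂ) • x := by
  rw [← smul_one_smul ℂ c x, Complex.real_smul, mul_one]

theorem c2_bil : IsBoundedBilinearMap ℝ fun p : F × F => inner ℂ p.1 p.2 where
  add_left := fun x y z => inner_add_left x y z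
  smul_left := fun c x y => by
    rw [c2_smul, inner_smul_left, Complex.conj_ofReal, Complex.real_smul]
  add_right := fun x y z => inner_add_right x y z
  smul_right := fun c x y => by rw [c2_smul, inner_smul_right, Complex.real_smul]
  bound := ⟨1, one_pos, fun x y => by simpa using norm_inner_le_norm (𝕜 := ℂ) x y⟩

theorem contDiff_normSq : ContDiff ℝ ∞ (fun y : F => ‖y‖ ^ 2) := by
  have e : (fun y : F => ‖y‖ ^ 2) = fun y : F => Complex.reCLM (inner ℂ y y) := by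
    funext y
    rw [inner_self_eq_norm_sq_to_K]
    simp [← Complex.ofReal_pow]
  rw [e]
  exact Complex.reCLM.contDiff.comp (c2_bil.contDiff.comp (contDiff_id.prodMk contDiff_id))

theorem dzr_normSq_id (z ξ : F) : dzr (fun y : F => ‖y‖ ^ 2) z ξ = inner ℂ z ξ := by
  have e : (fun y : F => ((‖y‖ ^ 2 : ℝ) : ℂ)) = fun y : F => inner ℂ y y := by
    funext y
    rw [inner_self_eq_norm_sq_to_K]
    simp
  have h := HasFDerivAt.comp (f := fun x : F => (id x, id x)) z (c2_bil.hasFDerivAt (z, z))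
    ((hasFDerivAt_id z).prodMk (hasFDerivAt_id z))
  have h2 : ∀ v, fderiv ℝ (fun y : F => inner ℂ y y) z v = inner ℂ z v + inner ℂ v z := fun v => by
    have := h.fderiv
    rw [show (fun y : F => inner ℂ y y) = (fun p : F × F => inner ℂ p.1 p.2) ∘
      fun x => (id x, id x) from rfl, this]
    simp [IsBoundedBilinearMap.deriv_apply]
  rw [dzr, e, dz, h2, h2, inner_smul_left, inner_smul_right, Complex.conj_I]
  linear_combination (-inner ℂ z ξ + inner ℂ ξ z) / 2 * Complex.I_mul_I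

theorem levi_normSq_id (z ξ : F) : levi (fun y : F => ‖y‖ ^ 2) z ξ = ‖ξ‖ ^ 2 := by
  have h := HasFDerivAt.comp (f := fun x : F => (id x, ξ)) z (c2_bil.hasFDerivAt (z, ξ))
    ((hasFDerivAt_id z).prodMk (hasFDerivAt_const ξ z))
  have h2 : ∀ v, fderiv ℝ (fun y : F => inner ℂ y ξ) z v = inner ℂ v ξ := fun v => by
    have := h.fderiv
    rw [show (fun y : F => inner ℂ y ξ) = (fun p : F × F => inner ℂ p.1 p.2) ∘
      fun x => (id x, ξ) from rfl, this]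
    simp [IsBoundedBilinearMap.deriv_apply]
  have h3 : db (fun y : F => inner ℂ y ξ) z ξ = inner ℂ ξ ξ := by
    rw [db, h2, h2, inner_smul_left, Complex.conj_I]
    linear_combination (-inner ℂ ξ ξ) / 2 * Complex.I_mul_I
  simp only [levi, leviC, dzr_normSq_id]
  rw [h3, inner_self_eq_norm_sq_to_K]
  simp [← Complex.ofReal_pow]

end

end Fuj
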