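import Vale.Agent.P271.Geo
import Vale.Agent.P271.HCalc2

/-! Levi forms: changes of variables and uniform bounds. -/

set_option linter.unusedSectionVars false

open MeasureTheory Set Filter Topology Metric
open scoped ENNReal ContDiff

noncomputable section
namespace Fuj

variable {n : ℕ}

theorem contDiffAt_of_an {F : Type*} [NormedAddCommGroup F] [NormedSpace ℝ F] [NormedSpace ℂ F]
    [IsScalarTower ℝ ℂ F] [CompleteSpace F] {f : E n → F} {z : E n} (h : AnalyticAt ℂ f z) :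
    ContDiffAt ℝ ∞ f z := by
  exact (h.contDiffAt (n := ∞)).restrict_scalars ℝ

theorem ev_diff_of_an {F : Type*} [NormedAddCommGroup F] [NormedSpace ℂ F] [CompleteSpace F]
    {f : E n → F} {z : E n} (h : AnalyticAt ℂ f z) : ∀ᶠ y in 𝓝 z, DifferentiableAt ℂ f y :=
  h.eventually_analyticAt.mono fun _ h => h.differentiableAt

theorem contDiffAt_normSq {f : E n → ℂ} {z : E n} (h : AnalyticAt ℂ f z) :
    ContDiffAt ℝ ∞ (fun y => ‖f y‖ ^ 2) z := by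
  exact (contDiffAt_of_an h).norm_sq ℂ

theorem contDiffAt_log_sum {J : Type*} [Fintype J] {f : J → E n → ℂ} {z : E n}
    (h : ∀ j, AnalyticAt ℂ (f j) z) (h0 : 0 < ∑ j, ‖f j z‖ ^ 2) :
    ContDiffAt ℝ ∞ (fun y => Real.log (∑ j, ‖f j y‖ ^ 2)) z := by
  exact (ContDiffAt.sum fun j _ => contDiffAt_normSq (h j)).log h0.ne'

/-- `levi_log_sum_ge` with `c = 0`. -/
theorem levi_log_sum_nonneg {J : Type*} [Fintype J] {f : J → E n → ℂ} {z : E n}
    (h : ∀ j, AnalyticAt ℂ (f j) z) (h0 : 0 < ∑ j, ‖f j z‖ ^ 2) (ξ : E n) :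
    0 ≤ levi (fun y => Real.log (∑ j, ‖f j y‖ ^ 2)) z ξ := by
  simpa using levi_log_sum_ge (c := 0) (fun j => ev_diff_of_an (h j)) le_rfl (by simpa using h0) ξ

/-- `levi_congr`, `levi_add`, `levi_const_mul`, `levi_comp_hol`, `leviC_log_normSq`. -/
theorem levi_tr {φ₁ φ₂ : E n → ℝ} {Φ : E n → E n} {η : E n → ℂ} {z : E n}
    (h2 : ContDiffAt ℝ 2 φ₂ (Φ z)) (hΦ : AnalyticAt ℂ Φ z) (hη : AnalyticAt ℂ η z) (h0 : η z ≠ 0)
    (c : ℝ) (h : φ₁ =ᶠ[𝓝 z] fun y => φ₂ (Φ y) + c * Real.log (‖η y‖ ^ 2)) (ξ : E n) :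
    levi φ₁ z ξ = levi φ₂ (Φ z) (fderiv ℂ Φ z ξ) := by
  have h3 : ContDiffAt ℝ 2 (fun y => Real.log (‖η y‖ ^ 2)) z :=
    ((contDiffAt_normSq hη).log (pow_ne_zero 2 (norm_ne_zero_iff.2 h0))).of_le (by norm_cast)
  have h4 : ContDiffAt ℝ 2 (fun y => φ₂ (Φ y)) z :=
    h2.comp z ((contDiffAt_of_an hΦ).of_le (by norm_cast))
  rw [levi_congr h, levi_add h4 (contDiffAt_const.mul h3), levi_const_mul h3,
    levi_comp_hol h2 (ev_diff_of_an hΦ), levi, levi, leviC_log_normSq (ev_diff_of_an hη) h0]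
  simp

/-- Pick `a` with `f a z ≠ 0`; near `z` the function is `log (∑ ‖g b‖ ^ 2 + 1) + log ‖f a‖ ^ 2` with
`g b = f b / f a` for `b ≠ a`, `g a = 0` (`levi_tr` with `Φ = id`); `levi_log_sum_ge` with `c = 1`.
If all `d g b (ξ)` vanish then `d f b (ξ) = (d f a (ξ) / f a) f b`. -/
theorem levi_log_sum_pos {J : Type*} [Fintype J] {f : J → E n → ℂ} {z : E n}
    (h : ∀ j, AnalyticAt ℂ (f j) z) (h0 : 0 < ∑ j, ‖f j z‖ ^ 2) {ξ : E n}
    (hξ : ∀ c : ℂ, ¬ ∀ j, fderiv ℂ (f j) z ξ = c * f j z) :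
    0 < levi (fun y => Real.log (∑ j, ‖f j y‖ ^ 2)) z ξ := by
  classical
  obtain ⟨a, ha⟩ : ∃ a, f a z ≠ 0 := by
    by_contra hn
    simp only [ne_eq, not_exists, not_not] at hn
    simp [hn] at h0
  let g : J → E n → ℂ := fun b y => if b = a then 0 else f b y / f a y
  have hg : ∀ b, AnalyticAt ℂ (g b) z := fun b => by
    by_cases hb : b = a
    · simpa only [g, hb, if_true] using analyticAt_const
    · simpa only [g, hb, if_false] using (h b).fun_div (h a) ha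
  have p : ∀ y, 0 < (∑ b, ‖g b y‖ ^ 2) + 1 := fun y => by positivity
  have ev := (h a).continuousAt.eventually_ne ha
  have e : (fun y => Real.log (∑ j, ‖f j y‖ ^ 2)) =ᶠ[𝓝 z] fun y =>
      Real.log ((∑ b, ‖g b y‖ ^ 2) + 1) + 1 * Real.log (‖f a y‖ ^ 2) := by
    filter_upwards [ev] with y hy
    have n0 : ‖f a y‖ ≠ 0 := norm_ne_zero_iff.2 hy
    have e1 : ∀ b, ‖f b y‖ ^ 2 = (‖g b y‖ ^ 2 + if b = a then 1 else 0) * ‖f a y‖ ^ 2 := fun b => by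
      by_cases hb : b = a
      · simp [g, hb]
      · simp only [g, hb, if_false, norm_div, add_zero]
        field_simp
    rw [one_mul, ← Real.log_mul (p y).ne' (pow_ne_zero 2 n0), Finset.sum_congr rfl fun b _ => e1 b,
      ← Finset.sum_mul, Finset.sum_add_distrib, Finset.sum_ite_eq', if_pos (Finset.mem_univ a)]
  rw [levi_tr (φ₂ := fun y => Real.log ((∑ b, ‖g b y‖ ^ 2) + 1)) (Φ := fun y => y)
    ((((ContDiffAt.sum fun j _ => contDiffAt_normSq (hg j)).add contDiffAt_const).log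
      (p z).ne').of_le (by norm_cast)) analyticAt_id (h a) ha 1 e, fderiv_fun_id,
    ContinuousLinearMap.id_apply]
  refine lt_of_lt_of_le (div_pos ?_ (pow_pos (p z) 2))
    (levi_log_sum_ge (fun j => ev_diff_of_an (hg j)) zero_le_one (p z) ξ)
  rw [one_mul]
  refine lt_of_le_of_ne (Finset.sum_nonneg fun _ _ => sq_nonneg _) fun h1 => ?_
  have h2 := (Finset.sum_eq_zero_iff_of_nonneg fun _ _ => sq_nonneg _).1 h1.symm
  refine hξ (fderiv ℂ (f a) z ξ / f a z) fun b => ?_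
  by_cases hb : b = a
  · rw [hb, div_mul_cancel₀ _ ha]
  · have e2 : f b =ᶠ[𝓝 z] fun y => g b y * f a y := ev.mono fun y hy => by
      simp only [g, hb, if_false, div_mul_cancel₀ _ hy]
    have e3 : fderiv ℂ (g b) z ξ = 0 := by simpa using h2 b (Finset.mem_univ b)
    rw [e2.fderiv_eq, fderiv_fun_mul (hg b).differentiableAt (h a).differentiableAt]
    simp only [add_apply, smul_apply, e3, smul_eq_mul]
    simp only [g, hb, if_false]
    ring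

/-- `ξ = ∑ j, ξ j • Pi.single j 1`, `leviC_sum`, `contDiffOn_leviC`. -/
theorem levi_contOn {ψ : E n → ℝ} {U : Set (E n)} (hU : IsOpen U) (h : ContDiffOn ℝ ∞ ψ U) :
    ContinuousOn (fun x : E n × E n => levi ψ x.1 x.2) (U ×ˢ univ) := by
  have e : ∀ x ∈ U ×ˢ (univ : Set (E n)), levi ψ x.1 x.2 = (∑ j, ∑ k, x.2 j * star (x.2 k) *
      leviC ψ x.1 (Pi.single j 1) (Pi.single k 1)).re := fun x hx => by
    have := leviC_sum ((h.contDiffAt (hU.mem_nhds hx.1)).of_le (by norm_cast)) x.2 x.2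
      fun j => (Pi.single j 1 : E n)
    rw [← pi_eq_sum_univ' x.2] at this
    rw [levi, this]
    rfl
  refine ContinuousOn.congr (Complex.continuous_re.comp_continuousOn ?_) e
  refine continuousOn_finsetSum _ fun j _ => continuousOn_finsetSum _ fun k _ => ?_
  exact ContinuousOn.mul (by fun_prop) ((contDiffOn_leviC hU h _ _).continuousOn.comp
    continuousOn_fst fun x hx => hx.1)

theorem glevi_unit {ψ : E n → ℝ} {z : E n} (h : ContDiffAt ℝ 2 ψ z) (ξ : E n) :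
    ∃ ζ, (‖ξ‖ = 0 ∨ ζ ∈ sphere (0 : E n) 1) ∧ levi ψ z ξ = ‖ξ‖ ^ 2 * levi ψ z ζ := by
  by_cases h0 : ‖ξ‖ = 0
  · refine ⟨ξ, Or.inl h0, ?_⟩
    simpa [norm_eq_zero.1 h0] using levi_smul h 0 ξ
  · have h1 : (‖ξ‖ : ℂ) ≠ 0 := Complex.ofReal_ne_zero.2 h0
    refine ⟨(‖ξ‖ : ℂ)⁻¹ • ξ, Or.inr (by simp [norm_smul, h0]), ?_⟩
    simpa [smul_smul, h1] using levi_smul h (‖ξ‖ : ℂ) ((‖ξ‖ : ℂ)⁻¹ • ξ)

/-- Minimum on `Q ×ˢ sphere 0 1` (which may be empty), `levi_smul`. -/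
theorem levi_lower {ψ : E n → ℝ} {U Q : Set (E n)} (hU : IsOpen U) (h : ContDiffOn ℝ ∞ ψ U)
    (hQ : IsCompact Q) (hs : Q ⊆ U) (hp : ∀ z ∈ Q, ∀ ξ, ξ ≠ 0 → 0 < levi ψ z ξ) :
    ∃ c : ℝ, 0 < c ∧ ∀ z ∈ Q, ∀ ξ, c * ‖ξ‖ ^ 2 ≤ levi ψ z ξ := by
  obtain ⟨c, hc, H⟩ := (hQ.prod (isCompact_sphere (0 : E n) 1)).exists_forall_le' (a := 0)
    ((levi_contOn hU h).mono (prod_mono hs (subset_univ _))) fun x hx =>
      hp _ hx.1 _ (ne_of_mem_sphere hx.2 one_ne_zero)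
  refine ⟨c, hc, fun z hz ξ => ?_⟩
  obtain ⟨ζ, h1, h2⟩ := glevi_unit ((h.contDiffAt (hU.mem_nhds (hs hz))).of_le (by norm_cast)) ξ
  rcases h1 with h1 | h1
  · rw [h2, h1]
    simp
  · rw [h2, mul_comm]
    exact mul_le_mul_of_nonneg_left (H (z, ζ) ⟨hz, h1⟩) (sq_nonneg _)

theorem levi_upper {ψ : E n → ℝ} {U Q : Set (E n)} (hU : IsOpen U) (h : ContDiffOn ℝ ∞ ψ U)
    (hQ : IsCompact Q) (hs : Q ⊆ U) :
    ∃ C : ℝ, 0 ≤ C ∧ ∀ z ∈ Q, ∀ ξ, levi ψ z ξ ≤ C * ‖ξ‖ ^ 2 := by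
  obtain ⟨C, H⟩ := (hQ.prod (isCompact_sphere (0 : E n) 1)).exists_bound_of_continuousOn
    ((levi_contOn hU h).mono (prod_mono hs (subset_univ _)))
  refine ⟨|C|, abs_nonneg C, fun z hz ξ => ?_⟩
  obtain ⟨ζ, h1, h2⟩ := glevi_unit ((h.contDiffAt (hU.mem_nhds (hs hz))).of_le (by norm_cast)) ξ
  rcases h1 with h1 | h1
  · rw [h2, h1]
    simp
  · rw [h2, mul_comm]
    exact mul_le_mul_of_nonneg_right (((le_abs_self _).trans (H (z, ζ) ⟨hz, h1⟩)).trans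
      (le_abs_self C)) (sq_nonneg _)

end Fuj
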