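import Vale.Agent.P271.GBase2
import Vale.Agent.P271.GLevi

/-! The standard weights. -/

set_option linter.unusedSectionVars false

open MeasureTheory Set Filter Topology Metric
open scoped ENNReal ContDiff

noncomputable section
namespace Fuj

/-- The terms increase and converge by continuity of powers on the extended half line. -/
theorem sup_reg {S T κ : ℝ} {q : ℕ} (hS : 0 ≤ S) (hT : 0 < T) (hκ : 0 ≤ κ) (hq : 1 ≤ q) :
    ⨆ k : ℕ, ENNReal.ofReal (Real.exp (-(κ / q * Real.log (S ^ q + ((k : ℝ) + 1)⁻¹ * T)))) =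
      ENNReal.ofReal S ^ (-κ) := by
  have q0 : (0 : ℝ) < q := by exact_mod_cast hq
  have hp : ∀ k : ℕ, 0 < S ^ q + ((k : ℝ) + 1)⁻¹ * T := fun k => by positivity
  refine iSup_eq_of_tendsto (fun k l hkl => ENNReal.ofReal_le_ofReal (Real.exp_le_exp.2
    (neg_le_neg (mul_le_mul_of_nonneg_left (Real.log_le_log (hp l) ?_) (by positivity))))) ?_
  · gcongr
  · have h1 : Tendsto (fun k : ℕ => S ^ q + ((k : ℝ) + 1)⁻¹ * T) atTop (𝓝 (S ^ q)) := by
      simpa using (((tendsto_one_div_add_atTop_nhds_zero_nat (𝕜 := ℝ)).mul_const T).const_add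
        (S ^ q))
    have h2 := ((ENNReal.continuous_rpow_const (y := -(κ / q))).tendsto _).comp
      (ENNReal.tendsto_ofReal h1)
    rw [ENNReal.ofReal_pow hS, ← ENNReal.rpow_natCast, ← ENNReal.rpow_mul,
      show (q : ℝ) * -(κ / q) = -κ by field_simp] at h2
    refine h2.congr fun k => ?_
    rw [Function.comp_apply, ENNReal.ofReal_rpow_of_pos (hp k), Real.rpow_def_of_pos (hp k),
      mul_neg, mul_comm]

theorem gwt_pow {J : Type*} [Fintype J] (f : J → ℂ) (k : ℕ) :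
    ∑ u : Fin k → J, ‖∏ l, f (u l)‖ ^ 2 = (∑ j, ‖f j‖ ^ 2) ^ k := by
  classical
  rw [Finset.sum_pow', Fintype.piFinset_univ]
  exact Finset.sum_congr rfl fun u _ => by rw [norm_prod, Finset.prod_pow]

namespace Geo

open Atl

variable {n : ℕ} {X : Type*} [TopologicalSpace X] [MeasurableSpace X] {G : Geo n X}
  {i : G.I} {z : E n} {p : X} {J : Type*} [Fintype J] {M : ℕ} {ρ : J → X → ℂ} {ε : ℝ}

theorem gwt_τ (hi : p ∈ (G.e i).source) : 0 < ‖G.τ i p‖ ^ 2 :=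
  pow_pos (norm_pos_iff.2 (G.coc.ne i p hi)) 2

theorem sum_t_pos (hz : z ∈ (G.e i).target) : 0 < ∑ a, ‖G.rp G.q i (G.t a) z‖ ^ 2 := by
  have hi := (G.e i).map_target hz
  rw [← (G.e i).right_inv hz, sum_rp_t hi]
  exact pow_pos (gwt_τ hi) _

theorem lt_apply (hi : p ∈ (G.e i).source) :
    G.lt i (G.e i p) = G.q * Real.log (‖G.τ i p‖ ^ 2) := by
  rw [lt, sum_rp_t hi, Real.log_pow]

theorem lt_sm (hz : z ∈ (G.e i).target) : ContDiffAt ℝ ∞ (G.lt i) z :=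
  contDiffAt_log_sum (fun a => rp_an (G.t_mem' a) i z hz) (sum_t_pos hz)

theorem lt_psh (hz : z ∈ (G.e i).target) (ξ : E n) : 0 ≤ levi (G.lt i) z ξ :=
  levi_log_sum_nonneg (fun a => rp_an (G.t_mem' a) i z hz) (sum_t_pos hz) ξ

/-- `levi_lower`, `levi_log_sum_pos`, `imm'`. -/
theorem lt_lower (i : G.I) {Q : Set (E n)} (hQ : IsCompact Q) (hs : Q ⊆ (G.e i).target) :
    ∃ c : ℝ, 0 < c ∧ ∀ z ∈ Q, ∀ ξ, c * ‖ξ‖ ^ 2 ≤ levi (G.lt i) z ξ :=
  levi_lower (G.e i).open_target (fun _ hz => (lt_sm hz).contDiffWithinAt) hQ hs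
    fun z hz ξ h0 => levi_log_sum_pos (fun a => rp_an (G.t_mem' a) i z (hs hz))
      (sum_t_pos (hs hz)) fun c hc => h0 (imm' ((G.e i).map_target (hs hz)) (c := c) (by
        rw [(G.e i).right_inv (hs hz)]
        exact hc))

theorem reg_apply (hε : 0 < ε) (hi : p ∈ (G.e i).source) : G.reg M ρ ε i (G.e i p) =
    M * G.q * Real.log (‖G.τ i p‖ ^ 2) + Real.log ((∑ j, ‖ρ j p‖ ^ 2) ^ G.q + ε) := by
  have h0 := gwt_τ hi
  have e : ∑ j, ‖G.rp M i (ρ j) (G.e i p)‖ ^ 2 = (‖G.τ i p‖ ^ 2) ^ M * ∑ j, ‖ρ j p‖ ^ 2 := by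
    rw [Finset.mul_sum]
    refine Finset.sum_congr rfl fun j _ => ?_
    rw [rp_apply _ _ hi, norm_mul, norm_pow]
    ring
  rw [reg, sum_rp_t hi, e, ← Nat.cast_mul, ← Real.log_pow,
    ← Real.log_mul (by positivity) (by positivity)]
  congr 1
  ring

/-- `reg = log ∑ ‖f j'‖ ^ 2` over `(Fin q → J) ⊕ (Fin M → Fin (N + 1))`. -/
theorem reg_sm (hρ : ∀ j, ρ j ∈ G.R M) (hε : 0 < ε) (hz : z ∈ (G.e i).target) :
    ContDiffAt ℝ ∞ (G.reg M ρ ε i) z ∧ ∀ ξ, 0 ≤ levi (G.reg M ρ ε i) z ξ := by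
  let f : (Fin G.q → J) ⊕ (Fin M → Fin (G.N + 1)) → E n → ℂ := Sum.elim
    (fun u y => ∏ l, G.rp M i (ρ (u l)) y) fun u y => √ε * ∏ l, G.rp G.q i (G.t (u l)) y
  have e : ∀ y, ∑ j, ‖f j y‖ ^ 2 = (∑ j, ‖G.rp M i (ρ j) y‖ ^ 2) ^ G.q +
      ε * (∑ a, ‖G.rp G.q i (G.t a) y‖ ^ 2) ^ M := fun y => by
    rw [Fintype.sum_sum_type, ← gwt_pow, ← gwt_pow, Finset.mul_sum]
    simp [f, mul_pow, Real.sq_sqrt hε.le]
  have hf : ∀ j, AnalyticAt ℂ (f j) z := by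
    rintro (u | u)
    · exact Finset.analyticAt_fun_prod _ fun l _ => rp_an (hρ _) i z hz
    · exact analyticAt_const.mul
        (Finset.analyticAt_fun_prod _ fun l _ => rp_an (G.t_mem' _) i z hz)
  have h0 : 0 < ∑ j, ‖f j z‖ ^ 2 := by
    have := sum_t_pos hz
    rw [e]
    positivity
  rw [show G.reg M ρ ε i = fun y => Real.log (∑ j, ‖f j y‖ ^ 2) from funext fun y => by
    rw [e, reg]]
  exact ⟨contDiffAt_log_sum hf h0, levi_log_sum_nonneg hf h0⟩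

theorem reg_mono {ε' : ℝ} (hε : 0 < ε) (h : ε ≤ ε') (hz : z ∈ (G.e i).target) :
    G.reg M ρ ε i z ≤ G.reg M ρ ε' i z := by
  have := sum_t_pos hz
  refine Real.log_le_log (by positivity) ?_
  gcongr

/-- `sup_reg`. -/
theorem reg_sup {κ : ℝ} (hκ : 0 ≤ κ) (hz : z ∈ (G.e i).target) :
    ⨆ k : ℕ, ENNReal.ofReal (Real.exp (-(κ / G.q * G.reg M ρ ((k : ℝ) + 1)⁻¹ i z))) =
      Psi (fun j => G.rp M i (ρ j)) κ z :=
  sup_reg (by positivity) (pow_pos (sum_t_pos hz) M) hκ G.q_pos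

end Geo

end Fuj
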