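import Vale.Agent.P271.GGG
import Vale.Agent.P271.GWt

/-! Sections of the adjoint bundle. -/

set_option linter.unusedSectionVars false

open MeasureTheory Set Filter Topology Metric
open scoped ENNReal ContDiff

noncomputable section
namespace Fuj
namespace Geo

open Atl

variable {n : ℕ} {X : Type*} [TopologicalSpace X] [T2Space X] [CompactSpace X] [ConnectedSpace X]
  [SecondCountableTopology X] [MeasurableSpace X] [BorelSpace X] {G : Geo n X}

theorem gg1_levi {β κ ε : ℝ} {M : ℕ} {J : Type*} [Fintype J] {ρ : J → X → ℂ}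
    (hρ : ∀ j, ρ j ∈ G.R M) (hκ : 0 ≤ κ) (hε : 0 < ε) {j : G.I} {z : E n}
    (hz : z ∈ (G.e j).target) (ξ : E n) : β * levi (G.lt j) z ξ ≤
      levi (fun z => κ / G.q * G.reg M ρ ε j z + β * G.lt j z) z ξ := by
  have hq : (0 : ℝ) < G.q := Nat.cast_pos.2 G.q_pos
  have h2 : (2 : WithTop ℕ∞) ≤ ((⊤ : ℕ∞) : WithTop ℕ∞) := by norm_cast
  obtain ⟨a1, a2⟩ := reg_sm hρ hε hz
  have d1 := (lt_sm hz).of_le h2
  rw [levi_add (contDiffAt_const.mul (a1.of_le h2)) (contDiffAt_const.mul d1),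
    levi_const_mul (a1.of_le h2), levi_const_mul d1]
  have e1 := mul_nonneg (div_nonneg hκ hq.le) (a2 ξ)
  linarith

theorem gg1_wt {β κ ε : ℝ} {m M : ℕ} {J : Type*} [Fintype J] {ρ : J → X → ℂ}
    (hρ : ∀ j, ρ j ∈ G.R M) (hκ : 0 ≤ κ) (hε : 0 < ε) (hβ : 0 ≤ β)
    (hm : κ * M + β * G.q = m) :
    G.Wt (G.kap * G.τ ^ m) fun j z => κ / G.q * G.reg M ρ ε j z + β * G.lt j z := by
  have hq : (0 : ℝ) < G.q := Nat.cast_pos.2 G.q_pos
  refine ⟨fun j z hz => ?_, fun i j p hi hj => ?_, fun j z hz ξ =>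
    (mul_nonneg hβ (lt_psh hz ξ)).trans (gg1_levi hρ hκ hε hz ξ)⟩
  · exact ((contDiffAt_const.mul (reg_sm hρ hε hz).1).add
      (contDiffAt_const.mul (lt_sm hz))).contDiffWithinAt
  · have e : ∀ i, p ∈ (G.e i).source → Real.log (‖(G.kap * G.τ ^ m) i p‖ ^ 2) =
        Real.log (‖G.kap i p‖ ^ 2) + m * Real.log (‖G.τ i p‖ ^ 2) := fun i hi => by
      rw [Pi.mul_apply, Pi.mul_apply, norm_mul, mul_pow, Real.log_mul
        (pow_ne_zero 2 (norm_ne_zero_iff.2 (G.coc_kap.ne i p hi)))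
        (pow_ne_zero 2 (norm_ne_zero_iff.2 ((G.cocR m).ne i p hi))), Pi.pow_apply, Pi.pow_apply,
        norm_pow, ← pow_mul, mul_comm m 2, pow_mul, Real.log_pow _ m]
    rw [reg_apply hε hi, reg_apply hε hj, lt_apply hi, lt_apply hj, e i hi, e j hj, kap_eq hi hj,
      norm_mul, mul_pow, Real.log_mul (pow_ne_zero 2 (norm_ne_zero_iff.2 (G.coc_kap.ne j p hj)))
        (pow_ne_zero 2 (norm_ne_zero_iff.2 (jac_ne hi hj))), ← hm]
    field_simp
    ring

theorem gg1_sup {β κ : ℝ} {M : ℕ} {J : Type*} [Fintype J] {ρ : J → X → ℂ} (hκ : 0 ≤ κ) {j : G.I}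
    {z : E n} (hz : z ∈ (G.e j).target) :
    ⨆ k : ℕ, ENNReal.ofReal (Real.exp (-(κ / G.q * G.reg M ρ ((k : ℝ) + 1)⁻¹ j z + β * G.lt j z))) =
      ENNReal.ofReal (Real.exp (-(β * G.lt j z))) * Psi (fun a => G.rp M j (ρ a)) κ z := by
  rw [← reg_sup hκ hz, ENNReal.mul_iSup]
  refine iSup_congr fun k => ?_
  rw [← ENNReal.ofReal_mul (Real.exp_pos _).le, ← Real.exp_add]
  congr 2
  ring

theorem gg1_int {f g : E n → ℝ≥0∞} {w : E n → ℝ} {y : E n} (hw : ContinuousAt w y)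
    (h : ∀ᶠ z in 𝓝 y, g z = ENNReal.ofReal (Real.exp (w z)) * f z) : IntAt y f ↔ IntAt y g := by
  constructor
  · intro hf
    refine hf.of_le (C := ENNReal.ofReal (Real.exp (w y + 1))) ENNReal.ofReal_ne_top ?_
    filter_upwards [h, hw.eventually (Iio_mem_nhds (lt_add_one (w y)))] with z hz hz'
    rw [hz]
    gcongr
  · intro hg
    refine hg.of_le (C := ENNReal.ofReal (Real.exp (1 - w y))) ENNReal.ofReal_ne_top ?_
    filter_upwards [h, hw.eventually (Ioi_mem_nhds (sub_one_lt (w y)))] with z hz hz'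
    rw [hz, ← mul_assoc, ← ENNReal.ofReal_mul (Real.exp_pos _).le, ← Real.exp_add]
    refine le_mul_of_one_le_left' (ENNReal.one_le_ofReal.2 (Real.one_le_exp ?_))
    have : w y - 1 < w z := hz'
    linarith

/-- `gg` for `θ = kap * τ ^ m`, `φ k j = (κ / q) reg M ρ (k + 1)⁻¹ j + β lt j`, `κ = lam / M`,
`β = (m - lam) / q`. `Wt`: `reg_sm`, `lt_sm`, `reg_apply`, `lt_apply`, `kap_eq`, `levi_add`,
`levi_const_mul`; `pos`: `lt_lower`. The supremum is `Psi * ofReal (exp (-β lt))` on the target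
(`reg_sup`, `ENNReal.iSup_mul`), the second factor is locally bounded above and below
(`IntAt.of_le`). `free_of_sec`. -/
theorem g1 (G : Geo n X) : G.G1S := by
  intro m M J ρ lam r i x hx hM hρ hl hlm hr hb hS h0
  have hq : (0 : ℝ) < G.q := Nat.cast_pos.2 G.q_pos
  have hM' : (0 : ℝ) < M := Nat.cast_pos.2 hM
  have hκ : 0 ≤ lam / M := by positivity
  have hβ : 0 < (m - lam) / G.q := div_pos (sub_pos.2 hlm) hq
  have hε : ∀ k : ℕ, 0 < ((k : ℝ) + 1)⁻¹ := fun k => by positivity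
  obtain ⟨c, hc, hc'⟩ := lt_lower i (isCompact_closedBall _ _) hb
  have hint : ∀ z ∈ (G.e i).target, IntAt z (Psi (fun j => G.rp M i (ρ j)) (lam / M)) ↔
      IntAt z fun z => ⨆ k : ℕ, ENNReal.ofReal (Real.exp (-(lam / M / G.q *
        G.reg M ρ ((k : ℝ) + 1)⁻¹ i z + (m - lam) / G.q * G.lt i z))) := fun z hz => by
    refine gg1_int (w := fun z => -((m - lam) / G.q * G.lt i z))
      (continuousAt_const.mul (lt_sm hz).continuousAt).neg ?_
    filter_upwards [(G.e i).open_target.mem_nhds hz] with y hy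
    exact gg1_sup hκ hy
  obtain ⟨C, χ, -, -, -, -, h⟩ := gg (G.coc_kap.mul (G.cocR m))
    (φ := fun k j z => lam / M / G.q * G.reg M ρ ((k : ℝ) + 1)⁻¹ j z + (m - lam) / G.q * G.lt j z)
    (fun k => gg1_wt hρ hκ (hε k) hβ.le (by field_simp; ring)) i hr hb
    (fun z hz k k' hk => by
      have : G.reg M ρ ((k' : ℝ) + 1)⁻¹ i z ≤ G.reg M ρ ((k : ℝ) + 1)⁻¹ i z :=
        reg_mono (hε k') (by gcongr) hz
      have := mul_le_mul_of_nonneg_left this (div_nonneg hκ hq.le)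
      simp only
      linarith)
    (mul_pos hβ hc)
    (fun k z hz ξ => by
      refine le_trans ?_ (gg1_levi hρ hκ (hε k) (hb hz) ξ)
      rw [mul_assoc]
      exact mul_le_mul_of_nonneg_left (hc' z hz ξ) hβ.le)
    (fun z hz => (hint z (hb (sphere_subset_closedBall hz))).1 (hS z (mem_sphere_iff_norm.1 hz)))
    (fun h => h0 ((hint _ ((G.e i).map_source hx)).2 h))
  obtain ⟨k, F, hF, hF', -⟩ := h.exists
  refine free_of_sec hF fun hx0 => ?_
  rw [rep_apply _ _ hx, hx0] at hF'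
  norm_num at hF'

end Geo
end Fuj
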