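import Vale.Agent.P271.GG2a

/-! Sections in a multiplier ideal. -/

set_option linter.unusedSectionVars false

open MeasureTheory Set Filter Topology Metric
open scoped ENNReal ContDiff

noncomputable section
namespace Fuj
namespace Geo

open Atl

variable {n : ℕ} {X : Type*} [TopologicalSpace X] [T2Space X] [CompactSpace X] [ConnectedSpace X]
  [SecondCountableTopology X] [MeasurableSpace X] [BorelSpace X] {G : Geo n X}

theorem gg2_rp_sum {r m : ℕ} (i : G.I) (b : Fin r → G.R m) (c : Fin r → ℂ) (z : E n) :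
    ∑ a, c a * G.rp m i (b a) z = G.rp m i ((∑ a, c a • b a : G.R m) : X → ℂ) z := by
  simp only [rp_eq, Submodule.coe_sum, Submodule.coe_smul, Finset.sum_apply, Pi.smul_apply,
    smul_eq_mul, Finset.mul_sum]
  exact Finset.sum_congr rfl fun a _ => by ring

theorem gg2_zero {m : ℕ} {s : X → ℂ} (hs : s ∈ G.R m) {i : G.I} {y : X} (hy : y ∈ (G.e i).source)
    {r : ℝ} (hr : 0 < r) (hb : ball (G.e i y) r ⊆ (G.e i).target)
    (h : ∀ᵐ z ∂volume.restrict (ball (G.e i y) r), G.rp m i s z = 0) : s = 0 := by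
  have h1 : EqOn (G.rp m i s) (fun _ => 0) (ball (G.e i y) r) :=
    Measure.eqOn_open_of_ae_eq h isOpen_ball
      (fun z hz => (rp_an hs i z (hb hz)).continuousAt.continuousWithinAt) continuousOn_const
  refine ident hs (p := y) ?_
  have h2 : ∀ᶠ x in 𝓝 y, G.e i x ∈ ball (G.e i y) r :=
    ((G.e i).continuousAt hy).eventually (ball_mem_nhds _ hr)
  filter_upwards [h2, (G.e i).open_source.mem_nhds hy] with x hx hx'
  have h3 := h1 hx
  rw [rp_apply _ _ hx'] at h3
  exact (mul_eq_zero.1 h3).resolve_left (pow_ne_zero _ (G.coc.ne i x hx'))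

/-- Enlarge `Q` by a closed ball round `e i y`; `g2a`, a basis of `R m` (`grow`), `fin_lim`
(`inj`: a continuous function that vanishes almost everywhere on a ball vanishes there,
`Measure.eqOn_open_of_ae_eq`, then `ident`), `reg_sup`, `reg_mono`, `reg_sm`. -/
theorem g2 (G : Geo n X) : G.G2S := by
  intro lam hlam
  obtain ⟨q₁, h⟩ := g2a G hlam
  refine ⟨q₁, fun m hm M J ρ i y Q hy hM hρ hQ hQt hI => ?_⟩
  obtain ⟨r, hr, hb⟩ := Metric.nhds_basis_closedBall.mem_iff.1
    ((G.e i).open_target.mem_nhds ((G.e i).map_source hy))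
  set Q' := Q ∪ closedBall (G.e i y) r with hQ'def
  have hQ' : IsCompact Q' := hQ.union (isCompact_closedBall _ _)
  have hQt' : Q' ⊆ (G.e i).target := union_subset hQt hb
  obtain ⟨C, hC, hev⟩ := h m hm M J ρ i y Q' hy hM hρ hQ' hQt' hI
  have hfd := (grow G).1 m
  set b := Module.finBasis ℂ (G.R m) with hbdef
  have hq : (0 : ℝ) < G.q := Nat.cast_pos.2 G.q_pos
  have hM0 : (0 : ℝ) < M := Nat.cast_pos.2 hM
  have hκ : 0 ≤ lam / M := div_nonneg hlam hM0.le
  have hε : ∀ k : ℕ, 0 < ((k : ℝ) + 1)⁻¹ := fun k => by positivity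
  obtain ⟨c, hc1, hc2⟩ := fin_lim (b := fun a => G.rp m i (b a)) hQ'.measurableSet
    (fun a => ContinuousOn.aemeasurable
      (fun z hz => (rp_an (b a).2 i z (hQt' hz)).continuousAt.continuousWithinAt)
      hQ'.measurableSet)
    (fun c hc => by
      have h1 : ((∑ a, c a • b a : G.R m) : X → ℂ) = 0 := by
        refine gg2_zero (∑ a, c a • b a : G.R m).2 hy hr (ball_subset_closedBall.trans hb) ?_
        refine (ae_restrict_of_ae_restrict_of_subset
          (ball_subset_closedBall.trans subset_union_right) hc).mono fun z hz => ?_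
        rw [← gg2_rp_sum]
        exact hz
      exact funext (Fintype.linearIndependent_iff.1 b.linearIndependent c (Subtype.ext h1)))
    (fun a => G.rp m i (b a) (G.e i y))
    (w := fun k z => ENNReal.ofReal
      (Real.exp (-(lam / M / G.q * G.reg M ρ ((k : ℝ) + 1)⁻¹ i z))))
    (fun k => (ContinuousOn.aemeasurable (fun z hz => (continuousAt_const.mul
      (reg_sm hρ (hε k) (hQt' hz)).1.continuousAt).neg.rexp.continuousWithinAt)
      hQ'.measurableSet).ennreal_ofReal)
    (fun z hz k k' hk => ENNReal.ofReal_le_ofReal (Real.exp_le_exp.2 (neg_le_neg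
      (mul_le_mul_of_nonneg_left (reg_mono (hε k') (inv_anti₀ (by positivity) (by simpa using hk))
        (hQt' hz)) (div_nonneg hκ hq.le)))))
    (fun z _ => (ENNReal.ofReal_pos.2 (Real.exp_pos _)).ne') hC
    (hev.mono fun k ⟨g, hg, h1, h2⟩ => by
      have h3 : ∀ z, ∑ a, b.repr ⟨g, hg⟩ a * G.rp m i (b a) z = G.rp m i g z := fun z => by
        rw [gg2_rp_sum, b.sum_repr]
      refine ⟨fun a => b.repr ⟨g, hg⟩ a, ?_, ?_⟩
      · rw [h3]
        exact h1
      · simp only [h3]
        exact h2)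
  refine ⟨((∑ a, c a • b a : G.R m) : X → ℂ), (∑ a, c a • b a : G.R m).2, fun h0 => hc1 ?_, ?_⟩
  · rw [gg2_rp_sum, rp_apply _ _ hy, h0, mul_zero]
  · refine ne_top_of_le_ne_top hc2 (le_trans (le_of_eq ?_) (lintegral_mono_set subset_union_left))
    refine setLIntegral_congr_fun hQ.measurableSet fun z hz => ?_
    rw [gg2_rp_sum, reg_sup hκ (hQt hz)]

/-- `g2` with `lam = 0`, `M = 1`, `J = 0`, `Q = ∅`. -/
theorem bpf (G : Geo n X) : G.BpfS := by
  obtain ⟨q₁, h⟩ := g2 G 0 le_rfl
  refine ⟨q₁, fun m hm y => ?_⟩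
  obtain ⟨g, hg, h1, -⟩ := h m hm 1 0 (fun j => j.elim0) (G.idx y) y ∅ (mem_src _ y) le_rfl
    (fun j => j.elim0) isCompact_empty (empty_subset _)
    ⟨ball _ 1, ball_mem_nhds _ one_pos, by
      simp only [Psi, zero_div, neg_zero, ENNReal.rpow_zero, lintegral_const, one_mul,
        Measure.restrict_apply MeasurableSet.univ, univ_inter]
      exact measure_ball_lt_top.ne⟩
  exact ⟨g, hg, h1⟩

end Geo
end Fuj
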