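import Vale.Agent.P271.GWt

/-! A smooth volume form with bounded curvature. -/

set_option linter.unusedSectionVars false

open MeasureTheory Set Filter Topology Metric
open scoped ENNReal ContDiff

noncomputable section
namespace Fuj
namespace Geo

open Atl

variable {n : ℕ} {X : Type*} [TopologicalSpace X] [T2Space X] [CompactSpace X] [ConnectedSpace X]
  [SecondCountableTopology X] [MeasurableSpace X] [BorelSpace X] {G : Geo n X}

theorem gvol_bump (G : Geo n X) (j : G.I) : ∃ (b : E n → ℝ) (L : Set X), ContDiff ℝ ∞ b ∧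
    (∀ z, 0 ≤ b z) ∧ (∀ p ∈ G.K j, 0 < b (G.e j p)) ∧ IsClosed L ∧ L ⊆ (G.e j).source ∧
    ∀ p ∈ (G.e j).source, p ∉ L → b (G.e j p) = 0 := by
  have h1 : IsCompact (G.e j '' G.K j) :=
    (G.K_cpt j).image_of_continuousOn ((G.e j).continuousOn.mono (G.K_sub j))
  have h2 : G.e j '' G.K j ⊆ (G.e j).target := by
    rintro _ ⟨p, hp, rfl⟩
    exact (G.e j).map_source (G.K_sub j hp)
  obtain ⟨Q, q1, q2, q3⟩ := exists_compact_between h1 (G.e j).open_target h2
  obtain ⟨b, b1, b2, b3⟩ := IsOpen.exists_contDiff_support_eq (n := ⊤) (isOpen_interior (s := Q))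
  have b0 : ∀ z, 0 ≤ b z := fun z => (b3 (mem_range_self z)).1
  refine ⟨b, (G.e j).symm '' Q, b2, b0, fun p hp => ?_,
    (q1.image_of_continuousOn ((G.e j).continuousOn_symm.mono q3)).isClosed, ?_,
    fun p hp hp' => ?_⟩
  · have h3 : G.e j p ∈ Function.support b := b1 ▸ q2 (mem_image_of_mem _ hp)
    exact lt_of_le_of_ne (b0 _) (Ne.symm h3)
  · rintro _ ⟨z, hz, rfl⟩
    exact (G.e j).map_target (q3 hz)
  · by_contra h3
    have h4 : G.e j p ∈ interior Q := b1 ▸ (h3 : G.e j p ∈ Function.support b)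
    exact hp' ⟨_, interior_subset h4, (G.e j).left_inv hp⟩

/-- A smooth positive volume form, glued from bump functions in the charts. -/
theorem exists_vol0 (G : Geo n X) : ∃ v : G.I → E n → ℝ,
    (∀ i, ∀ z ∈ (G.e i).target, ContDiffAt ℝ ∞ (v i) z ∧ 0 < v i z) ∧
    ∀ i j p, p ∈ (G.e i).source → p ∈ (G.e j).source →
      v i (G.e i p) = v j (G.e j p) * ‖G.jac i j p‖ ^ 2 := by
  choose b L b1 b0 b2 l1 l2 l3 using gvol_bump G
  obtain ⟨χ, hχ⟩ : ∃ χ : G.I → X → ℝ,
      χ = fun j => (G.e j).source.indicator fun p => b j (G.e j p) := ⟨_, rfl⟩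
  have c1 : ∀ j, ∀ p ∈ (G.e j).source, χ j p = b j (G.e j p) := fun j p hp => by
    rw [hχ]; exact indicator_of_mem hp _
  have c2 : ∀ j p, p ∉ (G.e j).source → χ j p = 0 := fun j p hp => by
    rw [hχ]; exact indicator_of_notMem hp _
  have c3 : ∀ j p, p ∉ L j → χ j p = 0 := fun j p hp => by
    by_cases h : p ∈ (G.e j).source
    · rw [c1 j p h, l3 j p h hp]
    · exact c2 j p h
  have c0 : ∀ j p, 0 ≤ χ j p := fun j p => by
    by_cases h : p ∈ (G.e j).source
    · rw [c1 j p h]; exact b0 j _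
    · exact (c2 j p h).ge
  refine ⟨fun i z => ∑ j, χ j ((G.e i).symm z) * ‖G.jac i j ((G.e i).symm z)‖ ^ 2,
    fun i z hz => ?_, fun i j p hi hj => ?_⟩
  · obtain ⟨p, hi, rfl⟩ : ∃ p ∈ (G.e i).source, G.e i p = z :=
      ⟨_, (G.e i).map_target hz, (G.e i).right_inv hz⟩
    refine ⟨ContDiffAt.sum fun j _ => ?_, ?_⟩
    · by_cases hj : p ∈ (G.e j).source
      · refine ContDiffAt.mul ?_ (contDiffAt_normSq ((an_iff hi).1 (an_jac hi hj)))
        refine ((b1 j).contDiffAt.comp _ (contDiffAt_of_an (G.hol i j p hi hj))).congr_of_eventuallyEq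
          ?_
        filter_upwards [(tendsto_symm hi).eventually (ev_src hj)] with y hy
        exact c1 j _ hy
      · refine (contDiffAt_const (c := (0 : ℝ))).congr_of_eventuallyEq ?_
        have h1 : ∀ᶠ x in 𝓝 p, x ∉ L j := (l1 j).isOpen_compl.mem_nhds fun h => hj (l2 j h)
        filter_upwards [(tendsto_symm hi).eventually h1] with y hy
        rw [c3 j _ hy, zero_mul]
    · refine Finset.sum_pos' (fun j _ => mul_nonneg (c0 _ _) (sq_nonneg _))
        ⟨G.idx p, Finset.mem_univ _, ?_⟩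
      rw [(G.e i).left_inv hi, c1 _ p (G.mem_src p)]
      exact mul_pos (b2 _ p (G.idx_mem p))
        (pow_pos (norm_pos_iff.2 (jac_ne hi (G.mem_src p))) 2)
  · simp only [(G.e i).left_inv hi, (G.e j).left_inv hj]
    rw [Finset.sum_mul]
    refine Finset.sum_congr rfl fun k _ => ?_
    by_cases hk : p ∈ (G.e k).source
    · have h1 : G.jac i k p = G.jac j k p * G.jac i j p := jd_chain hi hj (an_e hk)
      rw [h1, norm_mul]
      ring
    · rw [c2 k p hk, zero_mul, zero_mul, zero_mul]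

/-- The curvature of the volume form is bounded by a multiple of the curvature of `q L`. -/
theorem exists_vol (G : Geo n X) : ∃ (v : G.I → E n → ℝ) (β₀ : ℝ), 0 ≤ β₀ ∧
    (∀ i, ∀ z ∈ (G.e i).target, ContDiffAt ℝ ∞ (v i) z ∧ 0 < v i z ∧
      ∀ ξ, levi (fun y => Real.log (v i y)) z ξ ≤ β₀ * levi (G.lt i) z ξ) ∧
    ∀ i j p, p ∈ (G.e i).source → p ∈ (G.e j).source →
      v i (G.e i p) = v j (G.e j p) * ‖G.jac i j p‖ ^ 2 := by
  obtain ⟨v, v1, v2⟩ := exists_vol0 G
  have h1 : ∀ j, IsCompact (G.e j '' G.K j) := fun j =>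
    (G.K_cpt j).image_of_continuousOn ((G.e j).continuousOn.mono (G.K_sub j))
  have h2 : ∀ j, G.e j '' G.K j ⊆ (G.e j).target := by
    rintro j _ ⟨p, hp, rfl⟩
    exact (G.e j).map_source (G.K_sub j hp)
  have h3 : ∀ j, ∀ z ∈ (G.e j).target, ContDiffAt ℝ ∞ (fun y => Real.log (v j y)) z :=
    fun j z hz => (v1 j z hz).1.log (v1 j z hz).2.ne'
  choose C C0 hC using fun j => levi_upper (G.e j).open_target
    (fun z hz => (h3 j z hz).contDiffWithinAt) (h1 j) (h2 j)
  choose c c0 hc using fun j => lt_lower j (h1 j) (h2 j)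
  have d0 : ∀ j, 0 ≤ C j / c j := fun j => div_nonneg (C0 j) (c0 j).le
  refine ⟨v, ∑ j, C j / c j, Finset.sum_nonneg fun j _ => d0 j,
    fun i z hz => ⟨(v1 i z hz).1, (v1 i z hz).2, fun ξ => ?_⟩, v2⟩
  refine le_trans ?_ (mul_le_mul_of_nonneg_right
    (Finset.single_le_sum (fun j _ => d0 j) (Finset.mem_univ (G.idx ((G.e i).symm z))))
    (lt_psh hz ξ))
  obtain ⟨p, hi, rfl⟩ : ∃ p ∈ (G.e i).source, G.e i p = z :=
    ⟨_, (G.e i).map_target hz, (G.e i).right_inv hz⟩
  rw [(G.e i).left_inv hi]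
  have hK := G.idx_mem p
  have hj := G.mem_src p
  generalize G.idx p = j at hK hj
  have e0 : (G.e i).symm (G.e i p) = p := (G.e i).left_inv hi
  have two : (2 : WithTop ℕ∞) ≤ ((⊤ : ℕ∞) : WithTop ℕ∞) := WithTop.coe_le_coe.2 le_top
  have ev : ∀ᶠ y in 𝓝 (G.e i p), y ∈ (G.e i).target ∧ (G.e i).symm y ∈ (G.e j).source :=
    ((G.e i).open_target.eventually_mem hz).and ((tendsto_symm hi).eventually (ev_src hj))
  have e1 := levi_tr (φ₁ := fun y => Real.log (v i y)) (φ₂ := fun y => Real.log (v j y))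
    (by rw [e0]; exact (h3 j _ ((G.e j).map_source hj)).of_le two) (G.hol i j p hi hj)
    ((an_iff hi).1 (an_jac hi hj)) (by rw [e0]; exact jac_ne hi hj) 1 (by
      filter_upwards [ev] with y hy
      have h4 := (G.e i).map_target hy.1
      have h5 := v2 i j _ h4 hy.2
      rw [(G.e i).right_inv hy.1] at h5
      rw [h5, one_mul, Real.log_mul (v1 j _ ((G.e j).map_source hy.2)).2.ne'
        (pow_ne_zero 2 (norm_ne_zero_iff.2 (jac_ne h4 hy.2)))]) ξ
  have e2 := levi_tr (φ₁ := G.lt i) (φ₂ := G.lt j)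
    (by rw [e0]; exact (lt_sm ((G.e j).map_source hj)).of_le two) (G.hol i j p hi hj)
    ((an_iff hi).1 (G.coc.an hj hi))
    (by rw [e0]; exact div_ne_zero (G.coc.ne i p hi) (G.coc.ne j p hj)) G.q (by
      filter_upwards [ev] with y hy
      have h4 := (G.e i).map_target hy.1
      have h5 := lt_apply h4
      rw [(G.e i).right_inv hy.1] at h5
      rw [h5, lt_apply hy.2, norm_div, div_pow,
        Real.log_div (pow_ne_zero 2 (norm_ne_zero_iff.2 (G.coc.ne i _ h4)))
          (pow_ne_zero 2 (norm_ne_zero_iff.2 (G.coc.ne j _ hy.2)))]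
      ring) ξ
  rw [e1, e2, e0]
  refine (hC j _ (mem_image_of_mem _ hK) _).trans (le_trans (le_of_eq ?_)
    (mul_le_mul_of_nonneg_left (hc j _ (mem_image_of_mem _ hK) _) (d0 j)))
  rw [← mul_assoc, div_mul_cancel₀ _ (c0 j).ne']

end Geo
end Fuj
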