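import Vale.Agent.P271.GGG
import Vale.Agent.P271.GVol

/-! Approximate sections in a multiplier ideal. -/

set_option linter.unusedSectionVars false

open MeasureTheory Set Filter Topology Metric
open scoped ENNReal ContDiff

noncomputable section
namespace Fuj
namespace Geo

open Atl

variable {n : ℕ} {X : Type*} [TopologicalSpace X] [T2Space X] [CompactSpace X] [ConnectedSpace X]
  [SecondCountableTopology X] [MeasurableSpace X] [BorelSpace X] {G : Geo n X}

/-- the part of the weight that does not depend on the regularization -/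
def gg2a_D (G : Geo n X) (v : G.I → E n → ℝ) (β : ℝ) (j : G.I) (z : E n) : ℝ :=
  β * G.lt j z + (-1) * Real.log (v j z)

theorem gg2a_Dsm {v : G.I → E n → ℝ} {j : G.I} {z : E n} (hz : z ∈ (G.e j).target)
    (h1 : ContDiffAt ℝ ∞ (v j) z) (h2 : 0 < v j z) (β : ℝ) :
    ContDiffAt ℝ ∞ (gg2a_D G v β j) z :=
  (contDiffAt_const.mul (lt_sm hz)).add (contDiffAt_const.mul (h1.log h2.ne'))

theorem gg2a_wt {v : G.I → E n → ℝ} {β₀ β κ κ' ε : ℝ} {m M : ℕ} {J J' : Type*} [Fintype J]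
    [Fintype J'] {ρ : J → X → ℂ} {s : J' → X → ℂ}
    (hv : ∀ i, ∀ z ∈ (G.e i).target, ContDiffAt ℝ ∞ (v i) z ∧ 0 < v i z ∧
      ∀ ξ, levi (fun y => Real.log (v i y)) z ξ ≤ β₀ * levi (G.lt i) z ξ)
    (hv' : ∀ i j p, p ∈ (G.e i).source → p ∈ (G.e j).source →
      v i (G.e i p) = v j (G.e j p) * ‖G.jac i j p‖ ^ 2)
    (hρ : ∀ j, ρ j ∈ G.R M) (hs : ∀ j, s j ∈ G.R G.q) (hκ : 0 ≤ κ) (hκ' : 0 ≤ κ') (hε : 0 < ε)
    (hβ : β₀ + 1 ≤ β) (hm : κ * M + κ' * G.q + β * G.q = m) :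
    G.Wt (G.τ ^ m) (fun j z => κ / G.q * G.reg M ρ ε j z + κ' / G.q * G.reg G.q s ε j z +
      gg2a_D G v β j z) ∧ ∀ j, ∀ z ∈ (G.e j).target, ∀ ξ, levi (G.lt j) z ξ ≤
      levi (fun z => κ / G.q * G.reg M ρ ε j z + κ' / G.q * G.reg G.q s ε j z +
        gg2a_D G v β j z) z ξ := by
  have hq : (0 : ℝ) < G.q := Nat.cast_pos.2 G.q_pos
  have h2 : (2 : WithTop ℕ∞) ≤ ((⊤ : ℕ∞) : WithTop ℕ∞) := by norm_cast
  have key : ∀ j, ∀ z ∈ (G.e j).target, ∀ ξ, levi (G.lt j) z ξ ≤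
      levi (fun z => κ / G.q * G.reg M ρ ε j z + κ' / G.q * G.reg G.q s ε j z +
        gg2a_D G v β j z) z ξ := fun j z hz ξ => by
    obtain ⟨a1, a2⟩ := reg_sm hρ hε hz
    obtain ⟨b1, b2⟩ := reg_sm hs hε hz
    obtain ⟨c1, c2, c3⟩ := hv j z hz
    have d1 := (lt_sm hz).of_le h2
    have d2 := (c1.log c2.ne').of_le h2
    unfold gg2a_D
    rw [levi_add ((contDiffAt_const.mul (a1.of_le h2)).add (contDiffAt_const.mul (b1.of_le h2)))
        ((contDiffAt_const.mul d1).add (contDiffAt_const.mul d2)),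
      levi_add (contDiffAt_const.mul (a1.of_le h2)) (contDiffAt_const.mul (b1.of_le h2)),
      levi_add (contDiffAt_const.mul d1) (contDiffAt_const.mul d2), levi_const_mul (a1.of_le h2),
      levi_const_mul (b1.of_le h2), levi_const_mul d1, levi_const_mul d2]
    have e1 := mul_nonneg (div_nonneg hκ hq.le) (a2 ξ)
    have e2 := mul_nonneg (div_nonneg hκ' hq.le) (b2 ξ)
    have e3 := mul_le_mul_of_nonneg_right hβ (lt_psh hz ξ)
    linarith [c3 ξ]
  refine ⟨⟨fun j z hz => ?_, fun i j p hi hj => ?_, fun j z hz ξ =>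
    (lt_psh hz ξ).trans (key j z hz ξ)⟩, key⟩
  · exact (((contDiffAt_const.mul (reg_sm hρ hε hz).1).add
      (contDiffAt_const.mul (reg_sm hs hε hz).1)).add
      (gg2a_Dsm hz (hv j z hz).1 (hv j z hz).2.1 β)).contDiffWithinAt
  · have e : ∀ i, Real.log (‖(G.τ ^ m) i p‖ ^ 2) = m * Real.log (‖G.τ i p‖ ^ 2) := fun i => by
      rw [Pi.pow_apply, Pi.pow_apply, norm_pow, ← pow_mul, mul_comm m 2, pow_mul, Real.log_pow]
    unfold gg2a_D
    rw [reg_apply hε hi, reg_apply hε hj, reg_apply hε hi, reg_apply hε hj, lt_apply hi,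
      lt_apply hj, e, e, hv' i j p hi hj, Real.log_mul (hv j _ ((G.e j).map_source hj)).2.1.ne'
        (pow_ne_zero 2 (norm_ne_zero_iff.2 (jac_ne hi hj))), ← hm]
    field_simp
    ring

/-- sections that vanish simultaneously only at `y` -/
def gg2a_s (G : Geo n X) (y : X) (c : Fin (G.N + 1) × Fin (G.N + 1)) : X → ℂ :=
  G.t c.2 y • G.t c.1 - G.t c.1 y • G.t c.2

theorem gg2a_s_mem (y : X) (c : Fin (G.N + 1) × Fin (G.N + 1)) : gg2a_s G y c ∈ G.R G.q :=
  Submodule.sub_mem _ (Submodule.smul_mem _ _ (G.t_mem' _)) (Submodule.smul_mem _ _ (G.t_mem' _))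

theorem gg2a_pos {i : G.I} {y : X} {z : E n} (hz : z ∈ (G.e i).target) (hne : z ≠ G.e i y) :
    0 < ∑ c, ‖G.rp G.q i (gg2a_s G y c) z‖ ^ 2 := by
  refine lt_of_le_of_ne (Finset.sum_nonneg fun _ _ => sq_nonneg _) fun h => hne ?_
  have h1 := (Finset.sum_eq_zero_iff_of_nonneg fun _ _ => sq_nonneg _).1 h.symm
  obtain ⟨b, hb⟩ := G.exists_t y
  have h2 : (G.e i).symm z = y := by
    refine G.sep _ y (G.t b ((G.e i).symm z) / G.t b y) fun a => ?_
    have h3 := norm_eq_zero.1 (pow_eq_zero_iff two_ne_zero |>.1 (h1 (a, b) (Finset.mem_univ _)))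
    rw [rp_eq, mul_eq_zero] at h3
    have h4 := h3.resolve_left (pow_ne_zero _ (G.coc.ne i _ ((G.e i).map_target hz)))
    simp only [gg2a_s, Pi.sub_apply, Pi.smul_apply, smul_eq_mul] at h4
    field_simp
    linear_combination h4
  rw [← h2, (G.e i).right_inv hz]

theorem gg2a_quad {i : G.I} {y : X} (hy : y ∈ (G.e i).source) : ∃ L : ℝ, 0 < L ∧
    ∀ᶠ z in 𝓝 (G.e i y), ∑ c, ‖G.rp G.q i (gg2a_s G y c) z‖ ^ 2 ≤ L * ‖z - G.e i y‖ ^ 2 := by
  have h : (fun z => ∑ c, ‖G.rp G.q i (gg2a_s G y c) z‖ ^ 2) =O[𝓝 (G.e i y)]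
      fun z => ‖z - G.e i y‖ ^ 2 := by
    refine Asymptotics.IsBigO.fun_sum fun c _ => ?_
    have h1 := (rp_an (gg2a_s_mem y c) i _ ((G.e i).map_source hy)).differentiableAt.isBigO_sub
    have h2 : G.rp G.q i (gg2a_s G y c) (G.e i y) = 0 := by
      rw [rp_apply _ _ hy]
      simp [gg2a_s, mul_comm]
    simp only [h2, sub_zero] at h1
    exact h1.norm_norm.pow 2
  obtain ⟨L, hL, h1⟩ := h.exists_pos
  refine ⟨L, hL, h1.bound.mono fun z hz => (le_abs_self _).trans ?_⟩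
  rwa [Real.norm_of_nonneg (r := ‖z - G.e i y‖ ^ 2) (sq_nonneg _)] at hz

theorem gg2a_low {J : Type*} [Fintype J] {s : J → X → ℂ} {ε : ℝ} (hε : 0 < ε) {i : G.I} {z : E n}
    (h : 0 < ∑ c, ‖G.rp G.q i (s c) z‖ ^ 2) :
    G.q * Real.log (∑ c, ‖G.rp G.q i (s c) z‖ ^ 2) ≤ G.reg G.q s ε i z := by
  rw [← Real.log_pow]
  exact Real.log_le_log (pow_pos h _) (le_add_of_nonneg_right (by positivity))

theorem gg2a_psi {S L r c : ℝ} (hL : 0 < L) (hr : 0 < r) (hc : 0 < c) (h : S ≤ L * r ^ 2) :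
    ENNReal.ofReal (c / L ^ (n + 1) / r ^ (2 * (n + 1))) ≤
      ENNReal.ofReal c * ENNReal.ofReal S ^ (-((n : ℝ) + 1)) := by
  rw [div_div, pow_mul, ← mul_pow, div_eq_mul_inv, ENNReal.ofReal_mul hc.le,
    ENNReal.ofReal_inv_of_pos (by positivity), ENNReal.ofReal_pow (by positivity),
    ENNReal.rpow_neg, ← Nat.cast_succ, ENNReal.rpow_natCast]
  gcongr

/-- `v`, `β₀` from `exists_vol`, `q₁ ≥ lam + (n + 1) q + (β₀ + 1) q`. `s (a, b) = t b y • t a - t a y • t b`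
in `R q` vanish simultaneously only at `y` (`sep`, `unit`). `gg` for `θ = τ ^ m`,
`φ k j = (κ / q) reg M ρ + ((n + 1) / q) reg q s + β lt - log v`, `β = (m - lam - (n + 1) q) / q`, and
`r` so small that `closedBall z₀ r` lies in the target and in the set where `Psi` is integrable. On
the target `exp (-φ k) = w k * w' k * exp (-β lt) * v` with `w k ≤ Psi ρ κ`, `w' k ≤ Psi s (n + 1)`
(`reg_sup`), the latter locally bounded off `z₀`. At `z₀`: `w k ≥ w 0 ≥ c`, and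
`∑ ‖rp s z‖ ^ 2 ≤ L ‖z - z₀‖ ^ 2` gives `not_intAt`. On the compact `Q`,
`exp (-φ k) ≥ c w k` (`reg_mono`, continuity), and `‖F‖ ^ 2 ≤ 2 ‖F - χ‖ ^ 2 + 2 χ ^ 2`. -/
theorem g2a (G : Geo n X) {lam : ℝ} (hlam : 0 ≤ lam) : ∃ q₁ : ℕ, ∀ m, q₁ ≤ m →
    ∀ (M J : ℕ) (ρ : Fin J → X → ℂ) (i : G.I) (y : X) (Q : Set (E n)),
    y ∈ (G.e i).source → 1 ≤ M → (∀ j, ρ j ∈ G.R M) → IsCompact Q → Q ⊆ (G.e i).target →
    IntAt (G.e i y) (Psi (fun j => G.rp M i (ρ j)) (lam / M)) →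
    ∃ C : ℝ≥0∞, C ≠ ⊤ ∧ ∀ᶠ k : ℕ in atTop, ∃ g ∈ G.R m, ‖G.rp m i g (G.e i y) - 1‖ ≤ 1 / 2 ∧
      ∫⁻ z in Q, ENNReal.ofReal (‖G.rp m i g z‖ ^ 2) *
        ENNReal.ofReal (Real.exp (-(lam / M / G.q * G.reg M ρ ((k : ℝ) + 1)⁻¹ i z))) ≤ C := by
  obtain ⟨v, β₀, hβ₀, hv, hv'⟩ := G.exists_vol
  have hq : (0 : ℝ) < G.q := Nat.cast_pos.2 G.q_pos
  refine ⟨⌈lam + (n + 1) * G.q + (β₀ + 1) * G.q⌉₊, fun m hm M J ρ i y Q hy hM hρ hQ hQt hI => ?_⟩
  have hM0 : (0 : ℝ) < M := Nat.cast_pos.2 hM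
  have hκ : 0 ≤ lam / M := div_nonneg hlam hM0.le
  have hn : (0 : ℝ) ≤ (n : ℝ) + 1 := by positivity
  have hε : ∀ k : ℕ, 0 < ((k : ℝ) + 1)⁻¹ := fun k => by positivity
  set β : ℝ := (m - lam - (n + 1) * G.q) / G.q with hβdef
  have hβ : β₀ + 1 ≤ β := by
    rw [hβdef, le_div_iff₀ hq]
    linarith [Nat.ceil_le.1 hm]
  set s := gg2a_s G y with hs
  set A : ℕ → E n → ℝ := fun k z => lam / M / G.q * G.reg M ρ ((k : ℝ) + 1)⁻¹ i z with hA
  set B : ℕ → E n → ℝ := fun k z => (n + 1) / G.q * G.reg G.q s ((k : ℝ) + 1)⁻¹ i z with hB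
  set D : E n → ℝ := gg2a_D G v β i with hD
  set S : E n → ℝ := fun z => ∑ c, ‖G.rp G.q i (s c) z‖ ^ 2 with hS
  set P : E n → ℝ≥0∞ := Psi (fun j => G.rp M i (ρ j)) (lam / M) with hP
  have hw := fun k : ℕ => gg2a_wt (m := m) hv hv' hρ (gg2a_s_mem y) hκ hn (hε k) hβ (by
    rw [hβdef]
    field_simp
    ring)
  have hz₀ := (G.e i).map_source hy
  have hle : ∀ {k k' : ℕ}, k ≤ k' → ((k' : ℝ) + 1)⁻¹ ≤ ((k : ℝ) + 1)⁻¹ := fun h =>
    inv_anti₀ (by positivity) (by simpa using h)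
  have aA : ∀ z ∈ (G.e i).target, Antitone fun k => A k z := fun z hz k k' h =>
    mul_le_mul_of_nonneg_left (reg_mono (hε k') (hle h) hz) (div_nonneg hκ hq.le)
  have aB : ∀ z ∈ (G.e i).target, Antitone fun k => B k z := fun z hz k k' h =>
    mul_le_mul_of_nonneg_left (reg_mono (hε k') (hle h) hz) (div_nonneg hn hq.le)
  have cA : ∀ k, ∀ z ∈ (G.e i).target, ContinuousAt (A k) z := fun k z hz =>
    continuousAt_const.mul (reg_sm hρ (hε k) hz).1.continuousAt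
  have cB : ∀ k, ∀ z ∈ (G.e i).target, ContinuousAt (B k) z := fun k z hz =>
    continuousAt_const.mul (reg_sm (gg2a_s_mem y) (hε k) hz).1.continuousAt
  have cD : ∀ z ∈ (G.e i).target, ContinuousAt D z := fun z hz =>
    (gg2a_Dsm hz (hv i z hz).1 (hv i z hz).2.1 β).continuousAt
  have cS : ∀ z ∈ (G.e i).target, ContinuousAt S z := fun z hz =>
    tendsto_finsetSum _ fun c _ => ((rp_an (gg2a_s_mem y c) i z hz).continuousAt.norm.pow 2).tendsto
  have hAP : ∀ k, ∀ z ∈ (G.e i).target, ENNReal.ofReal (Real.exp (-A k z)) ≤ P z := fun k z hz =>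
    (le_iSup (fun k => ENNReal.ofReal (Real.exp (-A k z))) k).trans_eq (reg_sup hκ hz)
  obtain ⟨U, hU, hUI⟩ := hI
  obtain ⟨r, hr, hb⟩ := Metric.nhds_basis_closedBall.mem_iff.1
    (inter_mem (interior_mem_nhds.2 hU) ((G.e i).open_target.mem_nhds hz₀))
  have hbt : closedBall (G.e i y) r ⊆ (G.e i).target := fun z hz => (hb hz).2
  obtain ⟨c₀, hc₀, hlow⟩ := lt_lower i (isCompact_closedBall _ r) hbt
  obtain ⟨C, χ, hC, hχc, hχ1, hχ0, hev⟩ := gg (G.cocR m) (fun k => (hw k).1) i hr hbt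
    (fun z hz k k' h => add_le_add (add_le_add (aA z hz h) (aB z hz h)) le_rfl) hc₀
    (fun k z hz ξ => (hlow z hz ξ).trans ((hw k).2 i z (hbt hz) ξ))
    (fun z hz => by
      have hzb := sphere_subset_closedBall hz
      have hzt := hbt hzb
      have h0 : 0 < S z := gg2a_pos hzt fun h => by
        rw [h, mem_sphere, dist_self] at hz
        exact hr.ne hz
      have hc : ContinuousAt (fun w => Real.exp (-((n + 1) * Real.log (S w) + D w))) z :=
        ((continuousAt_const.mul ((cS z hzt).log h0.ne')).add (cD z hzt)).neg.rexp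
      refine IntAt.of_le (f := P) ⟨U, mem_interior_iff_mem_nhds.1 (hb hzb).1, hUI⟩
        (C := ENNReal.ofReal (Real.exp (-((n + 1) * Real.log (S z) + D z)) + 1))
        ENNReal.ofReal_ne_top ?_
      filter_upwards [hc.eventually_lt continuousAt_const (lt_add_one _),
        (cS z hzt).eventually (lt_mem_nhds h0), (G.e i).open_target.mem_nhds hzt] with w h1 h2 h3
      refine iSup_le fun k => le_trans ?_ (mul_le_mul_right (hAP k w h3) _)
      rw [← ENNReal.ofReal_mul (by positivity)]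
      refine ENNReal.ofReal_le_ofReal (le_trans ?_
        (mul_le_mul_of_nonneg_right h1.le (Real.exp_pos _).le))
      rw [← Real.exp_add]
      have h4 := mul_le_mul_of_nonneg_left (gg2a_low (hε k) h2) (div_nonneg hn hq.le)
      rw [← mul_assoc, div_mul_cancel₀ _ hq.ne'] at h4
      refine Real.exp_le_exp.2 ?_
      change -(A k w + B k w + D w) ≤ _
      change _ ≤ B k w at h4
      linarith)
    (by
      obtain ⟨L, hL, h1⟩ := gg2a_quad hy
      have hc : ContinuousAt (fun w => Real.exp (-(A 0 w + D w))) (G.e i y) :=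
        ((cA 0 _ hz₀).add (cD _ hz₀)).neg.rexp
      have hp := half_pos (Real.exp_pos (-(A 0 (G.e i y) + D (G.e i y))))
      refine not_intAt (div_pos hp (pow_pos hL (n + 1))) ?_
      filter_upwards [h1, continuousAt_const.eventually_lt hc (half_lt_self (Real.exp_pos _)),
        (G.e i).open_target.mem_nhds hz₀] with w h2 h3 h4 t ht hwt
      refine (gg2a_psi (S := S w) hL ht hp (h2.trans (by gcongr))).trans ?_
      have h5 : ENNReal.ofReal (S w) ^ (-((n : ℝ) + 1)) =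
          ⨆ k, ENNReal.ofReal (Real.exp (-B k w)) := (reg_sup (ρ := s) hn h4).symm
      rw [h5, ENNReal.mul_iSup]
      refine iSup_mono fun k => ?_
      rw [← ENNReal.ofReal_mul hp.le]
      refine ENNReal.ofReal_le_ofReal ((mul_le_mul_of_nonneg_right h3.le
        (Real.exp_pos _).le).trans ?_)
      rw [← Real.exp_add]
      refine Real.exp_le_exp.2 ?_
      change _ ≤ -(A k w + B k w + D w)
      linarith [aA w h4 (Nat.zero_le k)])
  obtain ⟨c, hc, hcQ⟩ := hQ.exists_forall_le' (f := fun w => Real.exp (-(B 0 w + D w))) (a := 0)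
    (fun z hz => ((cB 0 z (hQt hz)).add (cD z (hQt hz))).neg.rexp.continuousWithinAt)
    fun _ _ => Real.exp_pos _
  refine ⟨ENNReal.ofReal (2 / c) * C + 2 * ∫⁻ z in U, P z, ENNReal.add_ne_top.2
    ⟨ENNReal.mul_ne_top ENNReal.ofReal_ne_top hC, ENNReal.mul_ne_top (by simp) hUI⟩, ?_⟩
  filter_upwards [hev] with k ⟨F, hF, hF1, hF2⟩
  refine ⟨F, hF, hF1, ?_⟩
  set f : E n → ℝ := fun z => ‖G.rp m i F z - χ z‖ ^ 2 * Real.exp (-(A k z + B k z + D z))
    with hf
  have hfm : AEMeasurable (fun z => ENNReal.ofReal (f z)) (volume.restrict Q) := by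
    refine (ContinuousOn.aemeasurable (fun z hz => ContinuousAt.continuousWithinAt ?_)
      hQ.measurableSet).ennreal_ofReal
    exact (((rp_an hF i z (hQt hz)).continuousAt.sub
      (Complex.continuous_ofReal.comp hχc).continuousAt).norm.pow 2).mul
      (((cA k z (hQt hz)).add (cB k z (hQt hz))).add (cD z (hQt hz))).neg.rexp
  refine (setLIntegral_mono' (g := fun z => ENNReal.ofReal (2 / c) * ENNReal.ofReal (f z) +
    2 * (ball (G.e i y) r).indicator P z) hQ.measurableSet fun z hz => ?_).trans ?_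
  · have h1 : ‖G.rp m i F z‖ ^ 2 ≤ 2 * ‖G.rp m i F z - χ z‖ ^ 2 + 2 * χ z ^ 2 := by
      have h2 : ‖G.rp m i F z‖ ≤ ‖G.rp m i F z - χ z‖ + |χ z| := by
        have := norm_add_le (G.rp m i F z - χ z) (χ z)
        rwa [sub_add_cancel, Complex.norm_real] at this
      have h3 := pow_le_pow_left₀ (norm_nonneg _) h2 2
      nlinarith [sq_nonneg (‖G.rp m i F z - χ z‖ - |χ z|), sq_abs (χ z)]
    have h2 : c * Real.exp (-A k z) ≤ Real.exp (-(A k z + B k z + D z)) := by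
      refine (mul_le_mul_of_nonneg_right (hcQ z hz) (Real.exp_pos _).le).trans ?_
      rw [← Real.exp_add]
      exact Real.exp_le_exp.2 (by linarith [aB z (hQt hz) (Nat.zero_le k)])
    have h3 : 2 * ‖G.rp m i F z - χ z‖ ^ 2 * Real.exp (-A k z) ≤ 2 / c * f z := by
      rw [div_mul_eq_mul_div, le_div_iff₀ hc]
      nlinarith [mul_le_mul_of_nonneg_left h2 (sq_nonneg ‖G.rp m i F z - χ z‖)]
    have h4 : ENNReal.ofReal (2 * χ z ^ 2 * Real.exp (-A k z)) ≤
        2 * (ball (G.e i y) r).indicator P z := by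
      by_cases hzb : z ∈ ball (G.e i y) r
      · rw [indicator_of_mem hzb, ENNReal.ofReal_mul (by positivity)]
        refine mul_le_mul' ?_ (hAP k z (hQt hz))
        rw [← ENNReal.ofReal_ofNat]
        exact ENNReal.ofReal_le_ofReal (by nlinarith [(sq_le_one_iff_abs_le_one _).2 (hχ1 z)])
      · simp [hχ0 z hzb]
    change _ * ENNReal.ofReal (Real.exp (-A k z)) ≤ _
    rw [← ENNReal.ofReal_mul (sq_nonneg _), ← ENNReal.ofReal_mul (by positivity)]
    refine le_trans ?_ (add_le_add_right h4 _)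
    refine le_trans (ENNReal.ofReal_le_ofReal ?_) ENNReal.ofReal_add_le
    nlinarith [mul_le_mul_of_nonneg_right h1 (Real.exp_pos (-A k z)).le]
  · rw [lintegral_add_left' (hfm.const_mul _), lintegral_const_mul' _ _ ENNReal.ofReal_ne_top,
      lintegral_const_mul' _ _ (by simp)]
    refine add_le_add (mul_le_mul_right ((lintegral_mono_set hQt).trans hF2) _)
      (mul_le_mul_right ((setLIntegral_le_lintegral _ _).trans ?_) _)
    rw [lintegral_indicator measurableSet_ball]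
    exact lintegral_mono_set fun z hz => interior_subset (hb (ball_subset_closedBall hz)).1

end Geo
end Fuj
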