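import Vale.Agent.P271.HCalc1

/-! Mean value inequalities. -/

namespace Fuj

open MeasureTheory Set Filter Topology Complex
open scoped ENNReal ContDiff ComplexConjugate

noncomputable section

variable {E : Type*} [NormedAddCommGroup E] [NormedSpace ℝ E] [NormedSpace ℂ E]
  [IsScalarTower ℝ ℂ E] [FiniteDimensional ℂ E] [MeasurableSpace E] [BorelSpace E]
  {vol : Measure E} [vol.IsAddHaarMeasure]

/-- The image of vol is a Haar measure a • vol (isAddHaarMeasure_map, uniqueness); the unit ball is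
invariant, so a = 1. -/
theorem rot_mp {c : ℂ} (hc : ‖c‖ = 1) : MeasurePreserving (fun y : E => c • y) vol vol := by
  haveI : ProperSpace E := FiniteDimensional.proper ℂ E
  have c0 : c ≠ 0 := fun h => by simp [h] at hc
  have hm : Measurable fun y : E => c • y := (continuous_const_smul c).measurable
  haveI : (vol.map fun y : E => c • y).IsAddHaarMeasure :=
    (DistribMulAction.toAddEquiv E (Units.mk0 c c0)).isAddHaarMeasure_map vol
      (continuous_const_smul c) (continuous_const_smul (Units.mk0 c c0)⁻¹)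
  have h := Measure.isAddLeftInvariant_eq_smul (vol.map fun y : E => c • y) vol
  have e : (fun y : E => c • y) ⁻¹' Metric.ball 0 1 = Metric.ball 0 1 := by
    ext y; simp [norm_smul, hc]
  have h1 := congrArg (fun μ : Measure E => μ (Metric.ball 0 1)) h
  simp only [Measure.map_apply hm measurableSet_ball, e, Measure.smul_apply, ENNReal.smul_def,
    smul_eq_mul] at h1
  have h2 := (ENNReal.mul_left_inj (Metric.measure_ball_pos vol (0 : E) one_pos).ne'
    measure_ball_lt_top.ne).1 ((one_mul _).trans h1)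
  refine ⟨hm, ?_⟩
  rw [h, ENNReal.coe_eq_one.1 h2.symm, one_smul]

omit [NormedSpace ℝ E] [IsScalarTower ℝ ℂ E] [FiniteDimensional ℂ E] [MeasurableSpace E]
  [BorelSpace E] in
theorem mv_circle {U : Set E} (hU : IsOpen U) {F : E → ℂ} (hF : DifferentiableOn ℂ F U) {p y : E}
    (h : ∀ c : ℂ, ‖c‖ ≤ 1 → p + c • y ∈ U) : ENNReal.ofReal (2 * Real.pi) * ‖F p‖ₑ ≤
      ∫⁻ θ in Ioc 0 (2 * Real.pi), ‖F (p + circleMap 0 1 θ • y)‖ₑ := by
  have hd : DifferentiableOn ℂ (fun t : ℂ => F (p + t • y)) (closure (Metric.ball 0 |(1 : ℝ)|)) :=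
    hF.comp (by fun_prop) fun t ht => h t (by
      simpa using Metric.closure_ball_subset_closedBall ht)
  have h1 := hd.diffContOnCl.circleAverage
  rw [Real.circleAverage_def, zero_smul, add_zero,
    intervalIntegral.integral_of_le Real.two_pi_pos.le] at h1
  refine le_trans (le_of_eq ?_) (enorm_integral_le_lintegral_enorm _)
  rw [← h1, enorm_smul, ← mul_assoc, Real.enorm_eq_ofReal (by positivity),
    ← ENNReal.ofReal_mul (by positivity), mul_inv_cancel₀ Real.two_pi_pos.ne', ENNReal.ofReal_one,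
    one_mul]

/-- For y ∈ B the function t ↦ F (p + t y) is holomorphic near the closed unit disc, so
F p is its circle average; integrate over y ∈ B, Tonelli, rot_mp (B is invariant). F is continuous
on U, which gives the measurability on B. -/
theorem mv_one {U : Set E} (hU : IsOpen U) {F : E → ℂ} (hF : DifferentiableOn ℂ F U) {B : Set E}
    (hB : MeasurableSet B) (hb : ∀ y ∈ B, ∀ c : ℂ, ‖c‖ ≤ 1 → c • y ∈ B) {p : E}
    (hp : ∀ y ∈ B, p + y ∈ U) : ‖F p‖ₑ * vol B ≤ ∫⁻ y in B, ‖F (p + y)‖ₑ ∂vol := by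
  classical
  haveI : ProperSpace E := FiniteDimensional.proper ℂ E
  obtain ⟨G, hG, eG⟩ : ∃ G : E → ℂ, Measurable G ∧ ∀ z ∈ U, G z = F z :=
    ⟨U.piecewise F 0, hF.continuousOn.measurable_piecewise continuousOn_const hU.measurableSet,
      fun z hz => piecewise_eq_of_mem _ _ _ hz⟩
  have hc : ∀ θ, ‖circleMap 0 1 θ‖ = 1 := fun θ => by simp
  have m1 : Measurable fun y : E => ‖G (p + y)‖ₑ := (hG.comp (measurable_const_add p)).enorm
  have m2 : Measurable fun q : E × ℝ => ‖G (p + circleMap 0 1 q.2 • q.1)‖ₑ :=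
    (hG.comp (Continuous.measurable (by fun_prop))).enorm
  refine (ENNReal.mul_le_mul_iff_right (a := ENNReal.ofReal (2 * Real.pi))
    (by simpa using Real.pi_pos) ENNReal.ofReal_ne_top).1 ?_
  calc ENNReal.ofReal (2 * Real.pi) * (‖F p‖ₑ * vol B)
      = ∫⁻ _ in B, ENNReal.ofReal (2 * Real.pi) * ‖F p‖ₑ ∂vol := by
        rw [setLIntegral_const, mul_assoc]
    _ ≤ ∫⁻ y in B, (∫⁻ θ in Ioc 0 (2 * Real.pi), ‖G (p + circleMap 0 1 θ • y)‖ₑ) ∂vol := by
        refine setLIntegral_mono' hB fun y hy => ?_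
        refine (mv_circle hU hF fun c hc => hp _ (hb y hy c hc)).trans (le_of_eq ?_)
        exact lintegral_congr fun θ => by rw [eG _ (hp _ (hb y hy _ (hc θ).le))]
    _ = ∫⁻ θ in Ioc 0 (2 * Real.pi), ∫⁻ y in B, ‖G (p + circleMap 0 1 θ • y)‖ₑ ∂vol :=
        lintegral_lintegral_swap m2.aemeasurable
    _ ≤ ∫⁻ _ in Ioc 0 (2 * Real.pi), ∫⁻ y in B, ‖G (p + y)‖ₑ ∂vol := by
        refine lintegral_mono fun θ => ?_
        rw [← (rot_mp (hc θ)).setLIntegral_comp_preimage hB m1]
        exact lintegral_mono_set fun y hy => hb y hy _ (hc θ).le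
    _ = ENNReal.ofReal (2 * Real.pi) * ∫⁻ y in B, ‖F (p + y)‖ₑ ∂vol := by
        rw [setLIntegral_const, Real.volume_Ioc, sub_zero, mul_comm,
          setLIntegral_congr_fun hB fun y hy => by rw [eG _ (hp y hy)]]

/-- mv_one for F². -/
theorem mv_two {U : Set E} (hU : IsOpen U) {F : E → ℂ} (hF : DifferentiableOn ℂ F U) {B : Set E}
    (hB : MeasurableSet B) (hb : ∀ y ∈ B, ∀ c : ℂ, ‖c‖ ≤ 1 → c • y ∈ B) {p : E}
    (hp : ∀ y ∈ B, p + y ∈ U) : ENNReal.ofReal (‖F p‖ ^ 2) * vol B ≤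
      ∫⁻ y in B, ENNReal.ofReal (‖F (p + y)‖ ^ 2) ∂vol := by
  simpa only [← ofReal_norm_eq_enorm, norm_pow, Pi.pow_apply] using
    mv_one (vol := vol) hU (hF.pow 2) hB hb hp

theorem mv_ball {U : Set E} (hU : IsOpen U) {F : E → ℂ} (hF : DifferentiableOn ℂ F U) {p : E}
    {r : ℝ} (hp : Metric.ball p r ⊆ U) : ENNReal.ofReal (‖F p‖ ^ 2) * vol (Metric.ball 0 r) ≤
      ∫⁻ z in Metric.ball p r, ENNReal.ofReal (‖F z‖ ^ 2) ∂vol := by
  haveI : ProperSpace E := FiniteDimensional.proper ℂ E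
  have e : (fun y : E => p + y) ⁻¹' Metric.ball p r = Metric.ball 0 r := by
    ext y; simp [dist_eq_norm]
  rw [← (measurePreserving_add_left vol p).setLIntegral_comp_preimage_emb
    (measurableEmbedding_addLeft p), e]
  refine mv_two hU hF measurableSet_ball (fun y hy c hc => ?_) fun y hy => hp (e.ge hy)
  rw [mem_ball_zero_iff] at hy ⊢
  rw [norm_smul]
  exact (mul_le_of_le_one_left (norm_nonneg _) hc).trans_lt hy

end

end Fuj
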