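import Vale.Agent.P271.GExt
import Vale.Agent.P271.HMV

/-! Two limiting arguments. -/

set_option linter.unusedSectionVars false

open MeasureTheory Set Filter Topology Metric
open scoped ENNReal ContDiff

noncomputable section
namespace Fuj

variable {n : ℕ}

theorem gloc_bd {z₀ : E n} {ρ c : ℝ} (hρ : 0 < ρ) (hc : 0 < c) {w : ℕ → E n → ℝ≥0∞}
    (mono : ∀ z ∈ ball z₀ ρ, Monotone fun k => w k z)
    (hl : ∀ z ∈ ball z₀ ρ, ENNReal.ofReal c ≤ w 0 z) {C : ℝ≥0∞} (hC : C ≠ ⊤) :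
    ∃ B : ℝ, 1 ≤ B ∧ ∀ k, ∀ h : E n → ℂ, DifferentiableOn ℂ h (ball z₀ ρ) →
      ∫⁻ z in ball z₀ ρ, ENNReal.ofReal (‖h z‖ ^ 2) * w k z ≤ C →
        ∀ z ∈ ball z₀ (ρ / 2), ‖h z‖ ≤ B := by
  have h1 : volume (ball (0 : E n) (ρ / 2)) * ENNReal.ofReal c ≠ 0 :=
    mul_ne_zero (measure_ball_pos _ _ (half_pos hρ)).ne' (ENNReal.ofReal_pos.2 hc).ne'
  refine ⟨(C / (volume (ball (0 : E n) (ρ / 2)) * ENNReal.ofReal c)).toReal + 1,
    le_add_of_nonneg_left ENNReal.toReal_nonneg, fun k h hd hi z hz => ?_⟩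
  have h2 : ball z (ρ / 2) ⊆ ball z₀ ρ := ball_subset_ball' (by linarith [mem_ball.1 hz])
  have h3 : ENNReal.ofReal (‖h z‖ ^ 2) * (volume (ball (0 : E n) (ρ / 2)) * ENNReal.ofReal c) ≤
      C := by
    rw [← mul_assoc]
    refine le_trans ?_ ((lintegral_mono_set h2).trans hi)
    refine (mul_le_mul_left (mv_ball isOpen_ball hd h2) _).trans ?_
    rw [← lintegral_mul_const' _ _ ENNReal.ofReal_ne_top]
    exact setLIntegral_mono' measurableSet_ball fun y hy =>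
      mul_le_mul_right ((hl y (h2 hy)).trans (mono y (h2 hy) k.zero_le)) _
  have h4 := (ENNReal.ofReal_le_iff_le_toReal (ENNReal.div_ne_top hC h1)).1
    ((ENNReal.le_div_iff_mul_le (.inl h1) (.inr hC)).2 h3)
  nlinarith [sq_nonneg (‖h z‖ - 1)]

/-- `mv_ball` bounds `‖h‖` by some `B` on `ball z₀ (ρ / 2)`, uniformly; the Schwarz lemma
(`Complex.dist_le_div_mul_dist_of_mapsTo_ball`) gives `ρ'` with `‖h z - h z₀‖ ≤ 1 / 4` on
`ball z₀ ρ'`. If `‖h z₀‖ > 1 / 2` then `∫⁻ ball z₀ ρ', w k ≤ 16 C`, but these integrals increase to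
`⊤` (`lintegral_iSup'`, `tendsto_atTop_iSup`). -/
theorem loc_val {z₀ : E n} {ρ c : ℝ} (hρ : 0 < ρ) (hc : 0 < c) {w : ℕ → E n → ℝ≥0∞}
    (hm : ∀ k, AEMeasurable (w k) (volume.restrict (ball z₀ ρ)))
    (mono : ∀ z ∈ ball z₀ ρ, Monotone fun k => w k z)
    (hl : ∀ z ∈ ball z₀ ρ, ENNReal.ofReal c ≤ w 0 z) (h0 : ¬ IntAt z₀ fun z => ⨆ k, w k z)
    {C : ℝ≥0∞} (hC : C ≠ ⊤) : ∀ᶠ k in atTop, ∀ h : E n → ℂ, DifferentiableOn ℂ h (ball z₀ ρ) →
      ∫⁻ z in ball z₀ ρ, ENNReal.ofReal (‖h z‖ ^ 2) * w k z ≤ C → ‖h z₀‖ ≤ 1 / 2 := by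
  obtain ⟨B, hB1, hB⟩ := gloc_bd hρ hc mono hl hC
  have h1 : 0 < ρ / (16 * B) := by positivity
  have h2 : ρ / (16 * B) ≤ ρ / 2 := div_le_div_of_nonneg_left hρ.le two_pos (by linarith)
  have h3 : ball z₀ (ρ / (16 * B)) ⊆ ball z₀ ρ := ball_subset_ball (h2.trans (half_le_self hρ.le))
  have h4 := lintegral_tendsto_of_tendsto_of_monotone
    (fun k => (hm k).mono_measure (Measure.restrict_mono h3 le_rfl))
    (ae_restrict_of_forall_mem measurableSet_ball fun z hz => mono z (h3 hz))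
    (ae_restrict_of_forall_mem measurableSet_ball fun z hz => tendsto_atTop_iSup (mono z (h3 hz)))
  rw [not_ne_iff.1 fun h => h0 ⟨_, ball_mem_nhds z₀ h1, h⟩] at h4
  filter_upwards [h4.eventually_const_lt
    (ENNReal.mul_lt_top (ENNReal.ofReal_lt_top (r := 16)) hC.lt_top)] with k hk h hd hi
  refine le_of_not_gt fun h5 => hk.not_ge (le_trans ?_
    (mul_le_mul_right ((lintegral_mono_set h3).trans hi) _))
  rw [← lintegral_const_mul' _ _ ENNReal.ofReal_ne_top]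
  refine setLIntegral_mono' measurableSet_ball fun z hz => ?_
  have h6 := Complex.dist_le_div_mul_dist_of_mapsTo_ball (R₂ := 2 * B)
    (hd.mono (ball_subset_ball (half_le_self hρ.le))) (fun y hy => by
      rw [mem_closedBall, dist_eq_norm, two_mul]
      exact (norm_sub_le _ _).trans (add_le_add (hB k h hd hi y hy)
        (hB k h hd hi z₀ (mem_ball_self (half_pos hρ))))) (ball_subset_ball h2 hz)
  have h7 : 2 * B / (ρ / 2) * dist z z₀ ≤ 1 / 4 :=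
    (mul_le_mul_of_nonneg_left (mem_ball.1 hz).le (by positivity)).trans_eq (by field_simp; ring)
  have h8 := norm_sub_norm_le (h z₀) (h z)
  rw [← dist_eq_norm, dist_comm] at h8
  rw [← mul_assoc, ← ENNReal.ofReal_mul (by norm_num)]
  exact le_mul_of_one_le_left zero_le (ENNReal.one_le_ofReal.2 (by nlinarith))

/-- Fatou (`lintegral_liminf_le'`): if `c k → c` along a subsequence then
`∫⁻ ‖∑ c b‖ ^ 2 * ⨆ w ≤ liminf ∫⁻ ‖∑ c k b‖ ^ 2 * w k` (pointwise: trivial where `∑ c b = 0`, else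
`ENNReal.Tendsto.mul`). If `‖c k‖ → ∞` normalise: a limit `d` of `c k / ‖c k‖` has norm `1` and
integral `0`, contradicting `inj`. So a subsequence is bounded and has a convergent subsequence. -/
theorem fin_lim {r : ℕ} {Q : Set (E n)} (hQ : MeasurableSet Q) {b : Fin r → E n → ℂ}
    (hb : ∀ a, AEMeasurable (b a) (volume.restrict Q))
    (inj : ∀ c : Fin r → ℂ, (∀ᵐ z ∂volume.restrict Q, ∑ a, c a * b a z = 0) → c = 0)
    (ev : Fin r → ℂ) {w : ℕ → E n → ℝ≥0∞} (hm : ∀ k, AEMeasurable (w k) (volume.restrict Q))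
    (mono : ∀ z ∈ Q, Monotone fun k => w k z) (pos : ∀ z ∈ Q, w 0 z ≠ 0) {C : ℝ≥0∞} (hC : C ≠ ⊤)
    (h : ∀ᶠ k in atTop, ∃ c : Fin r → ℂ, ‖∑ a, c a * ev a - 1‖ ≤ 1 / 2 ∧
      ∫⁻ z in Q, ENNReal.ofReal (‖∑ a, c a * b a z‖ ^ 2) * w k z ≤ C) :
    ∃ c : Fin r → ℂ, ∑ a, c a * ev a ≠ 0 ∧
      ∫⁻ z in Q, ENNReal.ofReal (‖∑ a, c a * b a z‖ ^ 2) * ⨆ k, w k z ≠ ⊤ := by
  have h1 : ∀ᶠ k in atTop, ∃ x : ℝ × (Fin r → ℂ),
      (x.1 + ‖x.2‖ = 1 ∧ ‖∑ a, x.2 a * ev a - x.1‖ ≤ x.1 / 2) ∧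
      ∫⁻ z in Q, ENNReal.ofReal (‖∑ a, x.2 a * b a z‖ ^ 2) * w k z ≤
        ENNReal.ofReal (x.1 ^ 2) * C := by
    filter_upwards [h] with k ⟨c, h1, h2⟩
    have ht : 0 < (1 + ‖c‖)⁻¹ := by positivity
    have e : ∀ v : Fin r → ℂ, ∑ a, ((((1 + ‖c‖)⁻¹ : ℝ) : ℂ) • c) a * v a =
        ((1 + ‖c‖)⁻¹ : ℝ) * ∑ a, c a * v a := fun v => by
      simp only [Pi.smul_apply, smul_eq_mul, Finset.mul_sum, mul_assoc]
    refine ⟨((1 + ‖c‖)⁻¹, (((1 + ‖c‖)⁻¹ : ℝ) : ℂ) • c), ⟨?_, ?_⟩, ?_⟩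
    · rw [norm_smul, Complex.norm_of_nonneg ht.le]
      field_simp
    · rw [e, ← mul_sub_one, norm_mul, Complex.norm_of_nonneg ht.le, div_eq_mul_one_div]
      exact mul_le_mul_of_nonneg_left h1 ht.le
    · refine le_trans ?_ (mul_le_mul_right h2 _)
      rw [← lintegral_const_mul' _ _ ENNReal.ofReal_ne_top]
      refine lintegral_mono fun z => le_of_eq ?_
      rw [e, norm_mul, Complex.norm_of_nonneg ht.le, mul_pow, ENNReal.ofReal_mul (sq_nonneg _),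
        mul_assoc]
  obtain ⟨x, hx⟩ := h1.choice
  obtain ⟨y, -, φ, hφ, hy⟩ := tendsto_subseq_of_frequently_bounded (x := x)
    (isBounded_closedBall (x := 0) (r := 1)) (hx.mono fun k hk => by
      have h2 := (norm_nonneg _).trans hk.1.2
      have h3 := norm_nonneg (x k).2
      rw [mem_closedBall_zero_iff, norm_prod_le_iff, Real.norm_of_nonneg (by linarith)]
      exact ⟨by linarith [hk.1.1], by linarith [hk.1.1]⟩).frequently
  replace hx := hφ.tendsto_atTop.eventually hx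
  obtain ⟨h2, h3⟩ : y ∈ {x : ℝ × (Fin r → ℂ) | x.1 + ‖x.2‖ = 1} ∩
      {x | ‖∑ a, x.2 a * ev a - x.1‖ ≤ x.1 / 2} :=
    ((isClosed_eq (by fun_prop) continuous_const).inter
      (isClosed_le (by fun_prop) (by fun_prop))).mem_of_tendsto hy (hx.mono fun k hk => hk.1)
  have hM : ∀ c : Fin r → ℂ, AEMeasurable (fun z => ENNReal.ofReal (‖∑ a, c a * b a z‖ ^ 2))
      (volume.restrict Q) := fun c => by fun_prop
  have h4 : ∫⁻ z in Q, ENNReal.ofReal (‖∑ a, y.2 a * b a z‖ ^ 2) * ⨆ k, w k z ≤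
      ENNReal.ofReal (y.1 ^ 2) * C := by
    have t1 : Tendsto (fun k => ENNReal.ofReal ((x (φ k)).1 ^ 2) * C) atTop
        (𝓝 (ENNReal.ofReal (y.1 ^ 2) * C)) := ENNReal.Tendsto.mul_const
      (ENNReal.tendsto_ofReal (((continuous_fst.tendsto y).comp hy).pow 2)) (.inr hC)
    rw [← t1.liminf_eq]
    refine le_trans ?_ ((lintegral_liminf_le' fun k => (hM _).mul (hm (φ k))).trans
      (liminf_le_liminf (hx.mono fun k hk => hk.2)))
    refine setLIntegral_mono' hQ fun z hz => ?_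
    by_cases h0 : ENNReal.ofReal (‖∑ a, y.2 a * b a z‖ ^ 2) = 0
    · rw [h0, zero_mul]
      exact zero_le
    exact (ENNReal.Tendsto.mul (ENNReal.tendsto_ofReal (((by fun_prop : Continuous
      fun x : ℝ × (Fin r → ℂ) => ‖∑ a, x.2 a * b a z‖ ^ 2).tendsto y).comp hy)) (.inl h0)
      ((tendsto_atTop_iSup (mono z hz)).comp hφ.tendsto_atTop)
      (.inr ENNReal.ofReal_ne_top)).liminf_eq.ge
  refine ⟨y.2, fun h5 => ?_, ne_top_of_le_ne_top (ENNReal.mul_ne_top ENNReal.ofReal_ne_top hC) h4⟩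
  simp only [mem_ofPred_eq, h5, zero_sub, norm_neg, Complex.norm_real, Real.norm_eq_abs] at h2 h3
  have h6 : y.1 = 0 := by linarith [abs_nonneg y.1, le_abs_self y.1]
  rw [h6, zero_pow two_ne_zero, ENNReal.ofReal_zero, zero_mul, nonpos_iff_eq_zero] at h4
  rw [h6, inj y.2 ?_] at h2
  · simp at h2
  filter_upwards [(lintegral_eq_zero_iff' ((hM _).mul (.iSup hm))).1 h4, ae_restrict_mem hQ]
    with z h7 hz
  have h8 := (mul_eq_zero.1 h7).resolve_right fun h => pos z hz (ENNReal.iSup_eq_zero.1 h 0)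
  simpa using h8

end Fuj
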