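import Vale.Agent.P271.GHX
import Vale.Agent.P271.GLoc
import Vale.Agent.P271.GNrm

/-! Sections from an isolated singularity of the weight. -/

set_option linter.unusedSectionVars false

open MeasureTheory Set Filter Topology Metric
open scoped ENNReal ContDiff

noncomputable section
namespace Fuj
namespace Geo

open Atl

variable {n : ℕ} {X : Type*} [TopologicalSpace X] [T2Space X] [CompactSpace X] [ConnectedSpace X]
  [SecondCountableTopology X] [MeasurableSpace X] [BorelSpace X] {G : Geo n X}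

theorem ggg_shell {z₀ : E n} {r : ℝ} (hr : 0 < r) {U : Set (E n)} (hU : IsOpen U)
    (hS : sphere z₀ r ⊆ U) : ∃ ρ, 0 < ρ ∧ ρ < r ∧ closedBall z₀ r \ ball z₀ ρ ⊆ U := by
  have hK : IsCompact (closedBall z₀ r \ U) := (isCompact_closedBall z₀ r).diff hU
  rcases (closedBall z₀ r \ U).eq_empty_or_nonempty with h | h
  · refine ⟨r / 2, by linarith, by linarith, fun z hz => ?_⟩
    by_contra hzU
    have : z ∈ closedBall z₀ r \ U := ⟨hz.1, hzU⟩
    rw [h] at this
    exact this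
  · obtain ⟨w, hw, hmax⟩ := hK.exists_isMaxOn h (f := fun z => dist z z₀) (by fun_prop)
    have h1 : dist w z₀ < r := lt_of_le_of_ne hw.1 fun e => hw.2 (hS e)
    have h2 : 0 ≤ dist w z₀ := dist_nonneg
    refine ⟨(dist w z₀ + r) / 2, by linarith, by linarith, fun z hz => ?_⟩
    by_contra hzU
    have h3 : dist z z₀ ≤ dist w z₀ := hmax (⟨hz.1, hzU⟩ : z ∈ closedBall z₀ r \ U)
    have h4 : ¬ dist z z₀ < (dist w z₀ + r) / 2 := hz.2
    exact h4 (by linarith)

theorem ggg_bump (z₀ : E n) {ρ r : ℝ} (hρ : 0 < ρ) (hr : ρ < r) :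
    ∃ (χ : E n → ℝ) (L : ℝ), Continuous χ ∧ (∀ z, |χ z| ≤ 1) ∧ (∀ z, z ∉ ball z₀ r → χ z = 0) ∧
      (∀ z ∈ ball z₀ ρ, χ z = 1) ∧ ContDiff ℝ ∞ (fun z => (χ z : ℂ)) ∧
      HasCompactSupport (fun z => (χ z : ℂ)) ∧ tsupport (fun z => (χ z : ℂ)) ⊆ closedBall z₀ r ∧
      (∀ z ξ, ‖db (fun z => (χ z : ℂ)) z ξ‖ ^ 2 ≤ L * ‖ξ‖ ^ 2) ∧ 0 ≤ L ∧
      ∀ z, z ∉ closedBall z₀ r \ ball z₀ ρ → ∀ ξ, db (fun z => (χ z : ℂ)) z ξ = 0 := by
  let b : ContDiffBump z₀ := ⟨ρ, r, hρ, hr⟩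
  have h0 : ∀ z, z ∉ ball z₀ r → b z = 0 := fun z hz => b.zero_of_le_dist (not_lt.1 hz)
  have h1 : ∀ z ∈ ball z₀ ρ, b z = 1 := fun z hz => b.one_of_mem_closedBall (ball_subset_closedBall hz)
  have hg : ContDiff ℝ ∞ fun z => (b z : ℂ) := Complex.ofRealCLM.contDiff.comp b.contDiff
  have hts : tsupport (fun z => (b z : ℂ)) ⊆ closedBall z₀ r := by
    refine closure_minimal (fun z hz => ?_) isClosed_closedBall
    by_contra hc
    exact hz (by simp [h0 z fun h => hc (ball_subset_closedBall h)])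
  have hc : HasCompactSupport fun z => (b z : ℂ) :=
    (isCompact_closedBall z₀ r).of_isClosed_subset (isClosed_tsupport _) hts
  obtain ⟨L, hL⟩ := (hg.continuous_fderiv (by simp)).bounded_above_of_compact_support (hc.fderiv ℝ)
  refine ⟨b, L ^ 2, b.continuous, fun z => ?_, h0, h1, hg, hc, hts, fun z ξ => ?_, sq_nonneg _,
    fun z hz ξ => ?_⟩
  · rw [abs_of_nonneg b.nonneg]
    exact b.le_one
  · rw [← mul_pow]
    exact pow_le_pow_left₀ (norm_nonneg _) ((norm_db_le _ z ξ).trans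
      (mul_le_mul_of_nonneg_right (hL z) (norm_nonneg _))) 2
  · have h2 : fderiv ℝ (fun z => (b z : ℂ)) z = 0 := by
      by_cases h : z ∈ ball z₀ ρ
      · have : (fun z => (b z : ℂ)) =ᶠ[𝓝 z] fun _ => 1 := by
          filter_upwards [isOpen_ball.mem_nhds h] with w hw
          rw [h1 w hw, Complex.ofReal_one]
        rw [this.fderiv_eq]
        simp
      · have h' : z ∉ closedBall z₀ r := fun h' => hz ⟨h', h⟩
        have : (fun z => (b z : ℂ)) =ᶠ[𝓝 z] fun _ => 0 := by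
          filter_upwards [isClosed_closedBall.isOpen_compl.mem_nhds h'] with w hw
          rw [h0 w fun h => hw (ball_subset_closedBall h), Complex.ofReal_zero]
        rw [this.fderiv_eq]
        simp
    simp [db, h2]

/-- `exists_open_int` gives an open `U ⊇ sphere z₀ r`; for some `ρ < r` the shell
`closedBall z₀ r \ ball z₀ ρ` lies in `U` (`IsCompact.exists_thickening_subset_open`, or the maximum
of the norm on the compact set `closedBall \ U`). `χ : ContDiffBump z₀` with `rIn = ρ`, `rOut = r`;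
`‖fderiv χ‖ ≤ L`, `db χ = 0` outside the shell, `a = indicator shell (L ^ 2 / c₀)` (`norm_db_le`,
`hφ.psh`). `hx` for each `k`, `C = 2 L ^ 2 / c₀ * ∫⁻ U`; `loc_val` for `h = rep F - 1` on
`ball z₀ ρ`. -/
theorem gg {θ : G.I → X → ℂ} (hθ : G.Coc θ) {φ : ℕ → G.I → E n → ℝ} (hφ : ∀ k, G.Wt θ (φ k))
    (i : G.I) {z₀ : E n} {r c₀ : ℝ} (hr : 0 < r) (hb : closedBall z₀ r ⊆ (G.e i).target)
    (anti : ∀ z ∈ (G.e i).target, Antitone fun k => φ k i z) (hc : 0 < c₀)
    (pos : ∀ k, ∀ z ∈ closedBall z₀ r, ∀ ξ, c₀ * ‖ξ‖ ^ 2 ≤ levi (φ k i) z ξ)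
    (hS : ∀ z ∈ sphere z₀ r, IntAt z fun z => ⨆ k, ENNReal.ofReal (Real.exp (-φ k i z)))
    (h0 : ¬ IntAt z₀ fun z => ⨆ k, ENNReal.ofReal (Real.exp (-φ k i z))) :
    ∃ (C : ℝ≥0∞) (χ : E n → ℝ), C ≠ ⊤ ∧ Continuous χ ∧ (∀ z, |χ z| ≤ 1) ∧
      (∀ z, z ∉ ball z₀ r → χ z = 0) ∧ ∀ᶠ k in atTop, ∃ F ∈ G.Sec θ,
        ‖G.rep θ i F z₀ - 1‖ ≤ 1 / 2 ∧ ∫⁻ z in (G.e i).target,
          ENNReal.ofReal (‖G.rep θ i F z - χ z‖ ^ 2 * Real.exp (-φ k i z)) ≤ C := by
  obtain ⟨ν⟩ := exists_nrm G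
  obtain ⟨U, hU, hSU, hUi⟩ := exists_open_int (isCompact_sphere z₀ r) hS
  obtain ⟨ρ, hρ, hρr, hsh⟩ := ggg_shell hr hU hSU
  obtain ⟨χ, L, c1, c2, c3, c4, c5, c6, c7, c8, hL, c9⟩ := ggg_bump z₀ hρ hρr
  have hbb : ball z₀ ρ ⊆ (G.e i).target :=
    (ball_subset_closedBall.trans (closedBall_subset_closedBall hρr.le)).trans hb
  set C : ℝ≥0∞ := 2 * (ENNReal.ofReal (L / c₀) *
    ∫⁻ z in U, ⨆ k, ENNReal.ofReal (Real.exp (-φ k i z))) with hC
  have hCt : C ≠ ⊤ := ENNReal.mul_ne_top (by simp) (ENNReal.mul_ne_top ENNReal.ofReal_ne_top hUi)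
  have hall : ∀ k, ∃ F ∈ G.Sec θ, ∫⁻ z in (G.e i).target,
      ENNReal.ofReal (‖G.rep θ i F z - χ z‖ ^ 2 * Real.exp (-φ k i z)) ≤ C := by
    intro k
    obtain ⟨F, hF, hF'⟩ := hx ν hθ (hφ k) i c5 c6 (c7.trans hb)
      (a := (closedBall z₀ r \ ball z₀ ρ).indicator fun _ => L / c₀)
      (measurable_const.indicator (measurableSet_closedBall.diff measurableSet_ball))
      (fun z => indicator_nonneg (fun _ _ => by positivity) z) (by
        intro z _ ξ
        by_cases hz : z ∈ closedBall z₀ r \ ball z₀ ρ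
        · rw [indicator_of_mem hz]
          refine (c8 z ξ).trans ?_
          have h1 := mul_le_mul_of_nonneg_left (pos k z hz.1 ξ) (show 0 ≤ L / c₀ by positivity)
          refine le_trans (le_of_eq ?_) h1
          field_simp
        · rw [indicator_of_notMem hz, c9 z hz]
          simp)
    refine ⟨F, hF, hF'.trans ?_⟩
    rw [hC]
    gcongr
    rw [← lintegral_const_mul' _ _ ENNReal.ofReal_ne_top, ← lintegral_indicator hU.measurableSet]
    refine (setLIntegral_le_lintegral _ _).trans (lintegral_mono fun z => ?_)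
    by_cases hz : z ∈ closedBall z₀ r \ ball z₀ ρ
    · rw [indicator_of_mem hz, indicator_of_mem (hsh hz), ENNReal.ofReal_mul (by positivity)]
      gcongr
      exact le_iSup (fun k => ENNReal.ofReal (Real.exp (-φ k i z))) k
    · rw [indicator_of_notMem hz]
      simp
  obtain ⟨B, hB⟩ := ((isCompact_closedBall z₀ r).image_of_continuousOn
    (((hφ 0).sm i).continuousOn.mono hb)).bddAbove
  have hlv := loc_val (w := fun k z => ENNReal.ofReal (Real.exp (-φ k i z))) hρ (Real.exp_pos (-B))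
    (fun k => (ENNReal.continuous_ofReal.comp_continuousOn (Real.continuous_exp.comp_continuousOn
      (((hφ k).sm i).continuousOn.mono hbb).neg)).aemeasurable measurableSet_ball)
    (fun z hz k k' hk => ENNReal.ofReal_le_ofReal
      (Real.exp_le_exp.2 (neg_le_neg (anti z (hbb hz) hk))))
    (fun z hz => ENNReal.ofReal_le_ofReal (Real.exp_le_exp.2 (neg_le_neg (hB ⟨z,
      (ball_subset_closedBall.trans (closedBall_subset_closedBall hρr.le)) hz, rfl⟩)))) h0 hCt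
  refine ⟨C, χ, hCt, c1, c2, c3, ?_⟩
  filter_upwards [hlv] with k hk
  obtain ⟨F, hF, hF'⟩ := hall k
  refine ⟨F, hF, hk (fun z => G.rep θ i F z - 1) ?_ (le_trans ?_ hF'), hF'⟩
  · exact (((hF i).mono hbb).differentiableOn).sub_const 1
  · refine le_trans (le_of_eq ?_) (lintegral_mono_set hbb)
    refine setLIntegral_congr_fun measurableSet_ball fun z hz => ?_
    rw [c4 z hz, ENNReal.ofReal_mul (by positivity), Complex.ofReal_one]

end Geo
end Fuj
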