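import Vale.Agent.P271.GSh
import Vale.Agent.P271.GLevi

/-! Weights and data on the etale domain. -/

set_option linter.unusedSectionVars false

open MeasureTheory Set Filter Topology Metric
open scoped ENNReal ContDiff

noncomputable section
namespace Fuj
namespace Geo

open Atl

variable {n : ℕ} {X : Type*} [TopologicalSpace X] [T2Space X] [CompactSpace X] [ConnectedSpace X]
  [SecondCountableTopology X] [MeasurableSpace X] [BorelSpace X] {G : Geo n X}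

namespace Nrm

variable (ν : G.Nrm)

variable {θ : G.I → X → ℂ} {φ : G.I → E n → ℝ}

/-- The weight as a function on `W`. -/
def gw (θ : G.I → X → ℂ) (φ : G.I → E n → ℝ) (p : ν.W) : ℝ :=
  φ (G.idx p) (G.e (G.idx p) p) - Real.log (‖θ (G.idx p) p / G.jd (G.idx p) ν.w p‖ ^ 2)

/-- The section with local form `g`. -/
def gf (θ : G.I → X → ℂ) (i : G.I) (g : E n → ℂ) : X → ℂ :=
  (G.e i).source.indicator fun p => g (G.e i p) / θ i p

/-- The bound for its dbar derivative. -/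
def ga (θ : G.I → X → ℂ) (i : G.I) (a : E n → ℝ) : X → ℝ :=
  (G.e i).source.indicator fun p => a (G.e i p) / ‖θ i p‖ ^ 2

theorem ghx1_log_div {a b : ℂ} (ha : a ≠ 0) (hb : b ≠ 0) :
    Real.log (‖a / b‖ ^ 2) = Real.log (‖a‖ ^ 2) - Real.log (‖b‖ ^ 2) := by
  rw [norm_div, div_pow, Real.log_div (pow_ne_zero _ (norm_ne_zero_iff.2 ha))
    (pow_ne_zero _ (norm_ne_zero_iff.2 hb))]

theorem ghx1_log_mul {a b : ℂ} (ha : a ≠ 0) (hb : b ≠ 0) :
    Real.log (‖a * b‖ ^ 2) = Real.log (‖a‖ ^ 2) + Real.log (‖b‖ ^ 2) := by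
  rw [norm_mul, mul_pow, Real.log_mul (pow_ne_zero _ (norm_ne_zero_iff.2 ha))
    (pow_ne_zero _ (norm_ne_zero_iff.2 hb))]

/-- `hφ.cmp`, `jd_chain`. -/
theorem gw_eq (hθ : G.Coc θ) (hφ : G.Wt θ φ) {i : G.I} {p : ν.W} (hi : (p : X) ∈ (G.e i).source) :
    ν.gw θ φ p = φ i (G.e i p) - Real.log (‖θ i p / G.jd i ν.w p‖ ^ 2) := by
  have hj := G.mem_src (p : X)
  have h1 := hφ.cmp i (G.idx p) p hi hj
  have h2 := jd_chain hi hj (ν.an_w (ν.y0_ne p.2))
  rw [gw, ghx1_log_div (hθ.ne _ _ hj) (ν.jd_ne hj p.2), ghx1_log_div (hθ.ne _ _ hi) (ν.jd_ne hi p.2),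
    h2, ghx1_log_mul (ν.jd_ne hj p.2) (jac_ne hi hj)]
  linarith

variable {ν} (T : ν.Shs θ)

theorem ghx1_src {k : T.S.ι} {z : E n} (hz : z ∈ (T.ε k).target) :
    (T.ε k).symm z ∈ ν.W ∧ (T.ε k).symm z ∈ (G.e (T.ch k)).source :=
  (T.sht k).sub ((T.ε k).map_target hz)

theorem ghx1_τ {k : T.S.ι} {z : E n} (hz : z ∈ (T.ε k).target) :
    T.S.τ k ((T.S.e k).symm z) =
      θ (T.ch k) ((T.ε k).symm z) / G.jd (T.ch k) ν.w ((T.ε k).symm z) := by
  rw [T.τ_eq k _ (by rw [T.symm k z hz]; exact (T.ε k).map_target hz), T.symm k z hz]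

theorem ghx1_wt (hθ : G.Coc θ) (hφ : G.Wt θ φ) {k : T.S.ι} {z : E n} (hz : z ∈ (T.ε k).target)
    {j : G.I} (hj : (T.ε k).symm z ∈ (G.e j).source) :
    T.S.wt k (ν.gw θ φ) z = φ j (G.e j ((T.ε k).symm z)) +
      (Real.log (‖θ (T.ch k) ((T.ε k).symm z) / G.jd (T.ch k) ν.w ((T.ε k).symm z)‖ ^ 2) -
        Real.log (‖θ j ((T.ε k).symm z) / G.jd j ν.w ((T.ε k).symm z)‖ ^ 2)) := by
  rw [Sheets.wt, ghx1_τ T hz, ν.gw_eq hθ hφ (i := j) (by rwa [T.symm k z hz]), T.symm k z hz]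
  ring

theorem ghx1_ev {k : T.S.ι} {z : E n} (hz : z ∈ (T.ε k).target) {O : Set X} (hO : IsOpen O)
    (h : (T.ε k).symm z ∈ O) : ∀ᶠ y in 𝓝 z, y ∈ (T.ε k).target ∧ (T.ε k).symm y ∈ O :=
  ((T.ε k).open_target.eventually_mem hz).and
    (((T.ε k).continuousAt_symm hz).eventually_mem (hO.mem_nhds h))

/-- On the target `wt k gw = φ (ch k) ∘ e (ch k) ∘ (ε k).symm`. -/
theorem Shs.smW (hθ : G.Coc θ) (hφ : G.Wt θ φ) : T.S.SmW (ν.gw θ φ) := by
  intro k
  rw [T.tgt k]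
  have h1 : ContDiffOn ℝ ∞ (fun z => G.e (T.ch k) ((T.ε k).symm z)) (T.ε k).target :=
    fun z hz => (contDiffAt_of_an ((T.sht k).an z hz)).contDiffWithinAt
  refine ((hφ.sm (T.ch k)).comp h1 fun z hz => (G.e _).map_source (ghx1_src T hz).2).congr
    fun z hz => ?_
  rw [ghx1_wt T hθ hφ hz (ghx1_src T hz).2, sub_self, add_zero]
  rfl

/-- Near `z`, `wt k gw = φ j ∘ e j ∘ (ε k).symm + log ‖η‖ ^ 2` with `η` from `an_τ`; `levi_tr`. -/
theorem Shs.levi_wt (hθ : G.Coc θ) (hφ : G.Wt θ φ) {k : T.S.ι} {z : E n} (hz : z ∈ (T.S.e k).target)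
    {j : G.I} (hj : (T.ε k).symm z ∈ (G.e j).source) (ξ : E n) :
    levi (T.S.wt k (ν.gw θ φ)) z ξ = levi (φ j) (G.e j ((T.ε k).symm z))
      (fderiv ℂ (fun u => G.e j ((T.ε k).symm u)) z ξ) := by
  rw [T.tgt k] at hz
  obtain ⟨h1, h2⟩ := ghx1_src T hz
  have h3 : ContDiffAt ℝ 2 (φ j) (G.e j ((T.ε k).symm z)) :=
    ((hφ.sm j).contDiffAt ((G.e j).open_target.mem_nhds ((G.e j).map_source hj))).of_le
      (ENat.natCast_le_of_coe_top_le_withTop le_rfl 2)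
  refine levi_tr (Φ := fun u => G.e j ((T.ε k).symm u)) h3 ((T.sht k).an_comp hz (an_e hj))
    ((T.sht k).an_comp hz (ν.an_τ hθ h1 hj h2))
    (div_ne_zero (div_ne_zero (hθ.ne _ _ h2) (ν.jd_ne h2 h1))
      (div_ne_zero (hθ.ne _ _ hj) (ν.jd_ne hj h1))) 1 ?_ ξ
  filter_upwards [ghx1_ev T hz (G.e j).open_source hj] with y hy
  obtain ⟨k1, k2⟩ := ghx1_src T hy.1
  rw [ghx1_wt T hθ hφ hy.1 hy.2, one_mul,
    ghx1_log_div (div_ne_zero (hθ.ne _ _ k2) (ν.jd_ne k2 k1))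
      (div_ne_zero (hθ.ne _ _ hy.2) (ν.jd_ne hy.2 k1))]

theorem ghx1_an (hθ : G.Coc θ) {k : T.S.ι} {z : E n} (hz : z ∈ (T.ε k).target) {i : G.I}
    (hi : (T.ε k).symm z ∈ (G.e i).source) :
    AnalyticAt ℂ (fun y => θ (T.ch k) ((T.ε k).symm y) / θ i ((T.ε k).symm y) /
      G.jd (T.ch k) ν.w ((T.ε k).symm y)) z := by
  obtain ⟨h1, h2⟩ := ghx1_src T hz
  exact (T.sht k).an_comp hz
    ((hθ.an hi h2).div ((ν.an_w (ν.y0_ne h1)).jd h2) (ν.jd_ne h2 h1))

theorem ghx1_rep (g : E n → ℂ) {k : T.S.ι} {z : E n} (hz : z ∈ (T.ε k).target) {i : G.I}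
    (hi : (T.ε k).symm z ∈ (G.e i).source) :
    (T.S.rep k fun p => gf θ i g p) =ᶠ[𝓝 z] fun y =>
      θ (T.ch k) ((T.ε k).symm y) / θ i ((T.ε k).symm y) / G.jd (T.ch k) ν.w ((T.ε k).symm y) *
        g (G.e i ((T.ε k).symm y)) := by
  filter_upwards [ghx1_ev T hz (G.e i).open_source hi] with y hy
  rw [Sheets.rep, ghx1_τ T hy.1, T.symm k y hy.1, gf, indicator_of_mem hy.2]
  ring

theorem ghx1_rep0 {g : E n → ℂ} {i : G.I} (hc : HasCompactSupport g)
    (hs : tsupport g ⊆ (G.e i).target) {k : T.S.ι} {z : E n} (hz : z ∈ (T.ε k).target)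
    (hi : (T.ε k).symm z ∉ (G.e i).source) :
    (T.S.rep k fun p => gf θ i g p) =ᶠ[𝓝 z] fun _ => 0 := by
  have hK : IsCompact ((G.e i).symm '' tsupport g) :=
    hc.isCompact.image_of_continuousOn ((G.e i).continuousOn_symm.mono hs)
  have h1 : (T.ε k).symm z ∈ ((G.e i).symm '' tsupport g)ᶜ := by
    rintro ⟨u, hu, e⟩
    exact hi (e ▸ (G.e i).map_target (hs hu))
  filter_upwards [ghx1_ev T hz hK.isClosed.isOpen_compl h1] with y hy
  rw [Sheets.rep, T.symm k y hy.1, gf]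
  by_cases h2 : (T.ε k).symm y ∈ (G.e i).source
  · rw [indicator_of_mem h2, image_eq_zero_of_notMem_tsupport (f := g) fun h3 =>
      hy.2 ⟨_, h3, (G.e i).left_inv h2⟩, zero_div, mul_zero]
  · rw [indicator_of_notMem h2, mul_zero]

/-- Either `(ε k).symm z ∈ source i`, where `rep k gf = (τ k / θ i) * g ∘ e i ∘ (ε k).symm` near `z`,
or it lies outside the compact set `(e i).symm '' tsupport g` and `rep k gf = 0` near `z`. -/
theorem Shs.smS (hθ : G.Coc θ) {i : G.I} {g : E n → ℂ} (hg : ContDiff ℝ ∞ g)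
    (hc : HasCompactSupport g) (hs : tsupport g ⊆ (G.e i).target) :
    T.S.SmS fun p => gf θ i g p := by
  intro k z hz
  rw [T.tgt k] at hz
  refine ContDiffAt.contDiffWithinAt ?_
  by_cases hi : (T.ε k).symm z ∈ (G.e i).source
  · refine ContDiffAt.congr_of_eventuallyEq ?_ (ghx1_rep T g hz hi)
    exact (contDiffAt_of_an (ghx1_an T hθ hz hi)).mul
      (hg.contDiffAt.comp z (contDiffAt_of_an ((T.sht k).an_comp hz (an_e hi))))
  · exact contDiffAt_const.congr_of_eventuallyEq (ghx1_rep0 T hc hs hz hi)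

/-- The same two cases; `db_congr`, `db_mul`, `db_hol`, `db_comp_hol`, `levi_wt`. -/
theorem Shs.db_le (hθ : G.Coc θ) (hφ : G.Wt θ φ) {i : G.I} {g : E n → ℂ} (hg : ContDiff ℝ ∞ g)
    (hc : HasCompactSupport g) (hs : tsupport g ⊆ (G.e i).target) {a : E n → ℝ}
    (hga : ∀ z ∈ (G.e i).target, ∀ ξ, ‖db g z ξ‖ ^ 2 ≤ a z * levi (φ i) z ξ) (k : T.S.ι) :
    ∀ z ∈ (T.S.e k).target, ∀ ξ, ‖db (T.S.rep k fun p => gf θ i g p) z ξ‖ ^ 2 ≤
      ‖T.S.τ k ((T.S.e k).symm z)‖ ^ 2 * T.S.loc k (fun p => ga θ i a p) z *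
        levi (T.S.wt k (ν.gw θ φ)) z ξ := by
  intro z hz ξ
  have hz' := hz
  rw [T.tgt k] at hz
  by_cases hi : (T.ε k).symm z ∈ (G.e i).source
  · have h1 := ghx1_an T hθ hz hi
    have h2 : AnalyticAt ℂ (fun u => G.e i ((T.ε k).symm u)) z := (T.sht k).an_comp hz (an_e hi)
    have h3 : DifferentiableAt ℝ g (G.e i ((T.ε k).symm z)) := hg.differentiable (by simp) _
    have h4 : DifferentiableAt ℝ (fun u => g (G.e i ((T.ε k).symm u))) z :=
      h3.comp z (h2.differentiableAt.restrictScalars ℝ)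
    rw [db_congr (ghx1_rep T g hz hi), db_mul (h1.differentiableAt.restrictScalars ℝ) h4,
      db_hol h1.differentiableAt, zero_mul, zero_add,
      db_comp_hol (Φ := fun u => G.e i ((T.ε k).symm u)) h3 h2.differentiableAt,
      T.levi_wt hθ hφ hz' hi, ghx1_τ T hz, Sheets.loc, T.symm k z hz, ga, indicator_of_mem hi,
      norm_mul, mul_pow]
    refine (mul_le_mul_of_nonneg_left (hga _ ((G.e i).map_source hi) _) (sq_nonneg _)).trans
      (le_of_eq ?_)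
    rw [norm_div, norm_div, norm_div]
    ring
  · rw [db_congr (ghx1_rep0 T hc hs hz hi), db_const, Sheets.loc, T.symm k z hz, ga,
      indicator_of_notMem hi]
    simp

/-- `a (e i p) = a (indicator source (e i) p)` on the source. -/
theorem meas_ga (hθ : G.Coc θ) (i : G.I) {a : E n → ℝ} (ha : Measurable a) :
    Measurable (ga θ i a) := by
  have h1 : Measurable ((G.e i).source.indicator (G.e i)) :=
    measurable_indicator_of_contOn (G.e i).open_source.measurableSet (G.e i).continuousOn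
  have h2 : ga θ i a = (G.e i).source.indicator
      fun p => a ((G.e i).source.indicator (G.e i) p) / ‖θ i p‖ ^ 2 := by
    funext p
    by_cases hp : p ∈ (G.e i).source
    · rw [ga, indicator_of_mem hp, indicator_of_mem hp, indicator_of_mem hp]
    · rw [ga, indicator_of_notMem hp, indicator_of_notMem hp]
  rw [h2]
  exact ((ha.comp h1).div ((hθ.meas i).norm.pow_const 2)).indicator
    (G.e i).open_source.measurableSet

end Nrm
end Geo
end Fuj
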