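import Vale.Agent.P271.GCov
import Vale.Agent.P271.GHX1

/-! Integrals on the etale domain. -/

set_option linter.unusedSectionVars false

open MeasureTheory Set Filter Topology Metric
open scoped ENNReal ContDiff

noncomputable section
namespace Fuj
namespace Geo

open Atl

variable {n : ℕ} {X : Type*} [TopologicalSpace X] [T2Space X] [CompactSpace X] [ConnectedSpace X]
  [SecondCountableTopology X] [MeasurableSpace X] [BorelSpace X] {G : Geo n X}

namespace Nrm

variable (ν : G.Nrm)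

variable {θ : G.I → X → ℂ} {φ : G.I → E n → ℝ} {ν} (T : ν.Shs θ)

/-- `cov` for the function `indicator (target ∩ symm ⁻¹' W)` of
`ofReal (h z * exp (-φ i z) / ‖jd‖ ^ 2)`; measurability: `h` measurable, the other factors are
continuous on that open set (`measurable_indicator_of_contOn`); `gw_eq`. -/
theorem Shs.int_eq (hθ : G.Coc θ) (hφ : G.Wt θ φ) (i : G.I) {h : E n → ℝ} (hh : Measurable h)
    {H : ν.W → ℝ} (e : ∀ p : ν.W, (p : X) ∈ (G.e i).source → ‖θ i p‖ ^ 2 * H p = h (G.e i p)) :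
    ∫⁻ p in {p : ν.W | (p : X) ∈ (G.e i).source},
      ENNReal.ofReal (H p * Real.exp (-ν.gw θ φ p)) ∂T.S.μ =
      ∫⁻ z in (G.e i).target ∩ (G.e i).symm ⁻¹' ν.W, ENNReal.ofReal (h z * Real.exp (-φ i z)) := by
  have hO : IsOpen ((G.e i).target ∩ (G.e i).symm ⁻¹' ν.W) :=
    (G.e i).continuousOn_symm.isOpen_inter_preimage (G.e i).open_target ν.isOpen_W
  set O := (G.e i).target ∩ (G.e i).symm ⁻¹' ν.W with hOdef
  set u : E n → ℝ := fun z => Real.exp (-φ i z) / ‖G.jd i ν.w ((G.e i).symm z)‖ ^ 2 with hu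
  have hne : ∀ z ∈ O, G.jd i ν.w ((G.e i).symm z) ≠ 0 := fun z hz =>
    ν.jd_ne ((G.e i).map_target hz.1) hz.2
  have hc : ContinuousOn u O := by
    intro z hz
    have h1 : ContinuousAt (φ i) z :=
      ((hφ.sm i).continuousOn z hz.1).continuousAt ((G.e i).open_target.mem_nhds hz.1)
    have h2 : ContinuousAt (fun z => G.jd i ν.w ((G.e i).symm z)) z :=
      ((an_iff' hz.1).1 ((ν.an_w (ν.y0_ne hz.2)).jd ((G.e i).map_target hz.1))).continuousAt
    exact (h1.neg.rexp.div (h2.norm.pow 2)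
      (pow_ne_zero 2 (norm_ne_zero_iff.2 (hne z hz)))).continuousWithinAt
  have hg : Measurable fun z => ENNReal.ofReal (h z * O.indicator u z) :=
    (hh.mul (measurable_indicator_of_contOn hO.measurableSet hc)).ennreal_ofReal
  have hcov := Shs.cov ν T i hg
  have hm : MeasurableSet {p : ν.W | (p : X) ∈ (G.e i).source} :=
    ((G.e i).open_source.preimage continuous_subtype_val).measurableSet
  refine Eq.trans (setLIntegral_congr_fun hm ?_) (hcov.trans ?_)
  swap
  · refine setLIntegral_congr_fun hO.measurableSet fun z hz => ?_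
    have h1 := norm_ne_zero_iff.2 (hne z hz)
    rw [← ENNReal.ofReal_mul (sq_nonneg _), indicator_of_mem hz, hu]
    congr 1
    field_simp
  · intro p hp
    have hp' : (p : X) ∈ (G.e i).source := hp
    have h0 : G.e i p ∈ O := ⟨(G.e i).map_source hp', by
      rw [mem_preimage, (G.e i).left_inv hp']
      exact p.2⟩
    have h1 := norm_ne_zero_iff.2 (ν.jd_ne hp' p.2)
    have h2 := norm_ne_zero_iff.2 (hθ.ne i _ hp')
    simp only
    rw [indicator_of_mem h0, ν.gw_eq hθ hφ hp', ← e p hp', hu]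
    simp only
    rw [(G.e i).left_inv hp', neg_sub, Real.exp_sub, Real.exp_log (by
      rw [norm_div]
      positivity), Real.exp_neg, norm_div]
    congr 1
    field_simp

/-- Take a sheet `k` at `p`; near `p`,
`θ i x * F₀ x = (θ i / θ (ch k)) x * jd (ch k) w x * rep k F (w x)`. -/
theorem Shs.an_ext (hθ : G.Coc θ) {F : ν.W → ℂ} (hF : T.S.HolS F) {F₀ : X → ℂ}
    (e : ∀ p : ν.W, F₀ p = F p) (i : G.I) :
    ∀ p ∈ ν.W, p ∈ (G.e i).source → G.An p fun x => θ i x * F₀ x := by
  intro p hp hi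
  obtain ⟨k, hk⟩ := T.S.cover ⟨p, hp⟩
  have hk' : p ∈ (T.ε k).source := (T.src k _).1 hk
  have hj : p ∈ (G.e (T.ch k)).source := ((T.sht k).sub hk').2
  refine hθ.an_chg hj hi ?_
  have hw := ν.an_w (ν.y0_ne hp)
  have h1 : AnalyticAt ℂ (T.S.rep k F) (ν.w p) := by
    refine Vale.Agent.P274.analyticOnNhd_of_differentiableOn (T.S.e k).open_target (hF k) _ ?_
    rw [T.tgt, ← (T.sht k).eq p hk']
    exact (T.ε k).map_source hk'
  refine ((hw.jd hj).mul (hw.comp h1)).congr ?_
  filter_upwards [(T.ε k).open_source.mem_nhds hk'] with x hx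
  have hxW : x ∈ ν.W := ((T.sht k).sub hx).1
  have hx' : (⟨x, hxW⟩ : ν.W) ∈ (T.S.e k).source := (T.src k _).2 hx
  have h2 : (T.S.e k).symm (ν.w x) = ⟨x, hxW⟩ := by
    have h3 : ν.w x = T.S.e k ⟨x, hxW⟩ := by rw [T.S.e_eq k _ hx', T.π_eq]
    rw [h3, (T.S.e k).left_inv hx']
  have h4 := ν.jd_ne ((T.sht k).sub hx).2 hxW
  rw [Sheets.rep, h2, T.τ_eq k _ hx, ← e]
  field_simp

end Nrm
end Geo
end Fuj
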