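import Vale.Agent.P271.GLevi

/-! The exhaustion function. -/

set_option linter.unusedSectionVars false

open MeasureTheory Set Filter Topology Metric
open scoped ENNReal ContDiff

noncomputable section
namespace Fuj

theorem gu_one_le {n : ℕ} (z : E n) : 1 ≤ ∑ j, ‖z j‖ ^ 2 + 1 :=
  le_add_of_nonneg_left (Finset.sum_nonneg fun _ _ => sq_nonneg _)

theorem gu_sq_le {n : ℕ} (z : E n) : ‖z‖ ^ 2 ≤ ∑ j, ‖z j‖ ^ 2 := by
  have h0 : 0 ≤ ∑ j, ‖z j‖ ^ 2 := Finset.sum_nonneg fun _ _ => sq_nonneg _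
  rw [← Real.le_sqrt (norm_nonneg _) h0, pi_norm_le_iff_of_nonneg (Real.sqrt_nonneg _)]
  exact fun j => Real.le_sqrt_of_sq_le (Finset.single_le_sum (f := fun j => ‖z j‖ ^ 2)
    (fun _ _ => sq_nonneg _) (Finset.mem_univ j))

theorem gu_norm_le {n : ℕ} (z : E n) : ‖z‖ ≤ ∑ j, ‖z j‖ ^ 2 + 1 := by
  nlinarith [gu_sq_le z, sq_nonneg (‖z‖ - 1), norm_nonneg z]

theorem gu_pow_le {n : ℕ} (z : E n) (k : ℕ) :
    ((2 + ‖z‖) ^ k) ^ 2 ≤ 6 ^ k * (∑ j, ‖z j‖ ^ 2 + 1) ^ k := by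
  rw [← mul_pow, ← pow_mul, mul_comm k, pow_mul]
  gcongr
  nlinarith [gu_sq_le z, sq_nonneg (‖z‖ - 1), norm_nonneg z]

theorem gu_an {n : ℕ} (j : Fin n) (z : E n) : AnalyticAt ℂ (fun y : E n => y j) z :=
  (ContinuousLinearMap.proj (R := ℂ) (φ := fun _ => ℂ) j).analyticAt z

theorem gu_cd {n : ℕ} (z : E n) : ContDiffAt ℝ ∞ (fun y : E n => ∑ j, ‖y j‖ ^ 2 + 1) z :=
  (ContDiffAt.sum fun j _ => contDiffAt_normSq (gu_an j z)).add contDiffAt_const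

theorem gu_cdl {n : ℕ} (z : E n) :
    ContDiffAt ℝ ∞ (fun y : E n => Real.log (∑ j, ‖y j‖ ^ 2 + 1)) z :=
  (gu_cd z).log (one_pos.trans_le (gu_one_le z)).ne'

theorem gu_dzr {n : ℕ} (z ξ : E n) :
    ‖dzr (fun y : E n => Real.log (∑ j, ‖y j‖ ^ 2 + 1)) z ξ‖ ≤ n * ‖ξ‖ := by
  have h0 := one_pos.trans_le (gu_one_le z)
  have hd : ∀ j, DifferentiableAt ℝ (fun y : E n => ‖y j‖ ^ 2) z := fun j =>
    (contDiffAt_normSq (gu_an j z)).differentiableAt (by simp)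
  rw [dzr_comp ((gu_cd z).differentiableAt (by simp)) (Real.hasDerivAt_log h0.ne'),
    dzr_add (DifferentiableAt.fun_sum fun j _ => hd j) (differentiableAt_const _), dzr_const,
    add_zero, c2_dzr_sum _ fun j _ => hd j, norm_mul, Complex.norm_real, Real.norm_eq_abs,
    abs_of_pos (inv_pos.2 h0), inv_mul_le_iff₀ h0]
  refine (norm_sum_le _ _).trans ?_
  calc ∑ j, ‖dzr (fun y : E n => ‖y j‖ ^ 2) z ξ‖ ≤ ∑ _j : Fin n, ‖ξ‖ * (∑ j, ‖z j‖ ^ 2 + 1) := by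
        refine Finset.sum_le_sum fun j _ => ?_
        rw [dzr_normSq (gu_an j z).differentiableAt, norm_mul, Complex.norm_conj]
        have e : fderiv ℂ (fun y : E n => y j) z ξ = ξ j := congrArg (fun L => L ξ)
          (ContinuousLinearMap.proj (R := ℂ) (φ := fun _ : Fin n => ℂ) j).fderiv
        rw [e]
        exact mul_le_mul (norm_le_pi_norm ξ j) ((norm_le_pi_norm z j).trans (gu_norm_le z))
          (norm_nonneg _) (norm_nonneg _)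
    _ = _ := by rw [Finset.sum_const, Finset.card_univ, Fintype.card_fin, nsmul_eq_mul]; ring

theorem gu_exp {N x : ℝ} (hN : 0 < N) (hx : 0 < x) (k : ℕ) :
    Real.exp (((k + 1 : ℕ) : ℝ) * Real.log N + -1 * Real.log x) = N ^ (k + 1) / x := by
  rw [Real.exp_add, Real.exp_nat_mul, Real.exp_log hN, neg_one_mul, Real.exp_neg, Real.exp_log hx,
    div_eq_mul_inv]

/-- `u z = (k + 1) log (∑ ‖z j‖ ^ 2 + 1) - log (‖c z‖ ^ 2)`. Levi form: `levi_tr` with `Φ = id`,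
`levi_log_sum_ge`. Gradient: `dzr_log_normSq`, `dzr_comp`, `dzr_normSq`; the Cauchy estimate
(`Complex.norm_fderiv_le_div_of_mapsTo_ball` on `ball z 1`) gives
`‖fderiv c z‖ ≤ 2 A (2 + ‖z‖) ^ k`, and `(1 + ‖z‖) ^ 2 ≤ 2 (∑ ‖z j‖ ^ 2 + 1)`. Sublevel sets: they equal
`{z | (∑ ‖z j‖ ^ 2 + 1) ^ (k + 1) ≤ exp b * ‖c z‖ ^ 2}`, closed and bounded. -/
theorem exists_u {n : ℕ} {c : E n → ℂ} (hc : AnalyticOnNhd ℂ c univ) {A : ℝ} {k : ℕ}
    (hg : ∀ z, ‖c z‖ ≤ A * (1 + ‖z‖) ^ k) : ∃ (u : E n → ℝ) (C₀ : ℝ),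
    (∀ z, c z ≠ 0 → ContDiffAt ℝ ∞ u z ∧ ∀ ξ, 0 ≤ levi u z ξ ∧
      ‖dzr u z ξ‖ ^ 2 ≤ C₀ * (1 + Real.exp (u z)) * ‖ξ‖ ^ 2) ∧
    ∀ b, IsCompact {z | c z ≠ 0 ∧ u z ≤ b} := by
  have hA : 0 ≤ A := by simpa using (norm_nonneg _).trans (hg 0)
  have hN : ∀ z : E n, 0 < ∑ j, ‖z j‖ ^ 2 + 1 := fun z => one_pos.trans_le (gu_one_le z)
  refine ⟨fun z => ((k + 1 : ℕ) : ℝ) * Real.log (∑ j, ‖z j‖ ^ 2 + 1) + -1 * Real.log (‖c z‖ ^ 2),
    2 * ((k + 1) * n) ^ 2 + 8 * A ^ 2 * 6 ^ k, fun z hz => ?_, fun b => ?_⟩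
  · have hcz := hc z (mem_univ z)
    have hp : 0 < ‖c z‖ ^ 2 := by positivity
    have h1 : ContDiffAt ℝ ∞ (fun y : E n => ((k + 1 : ℕ) : ℝ) * Real.log (∑ j, ‖y j‖ ^ 2 + 1)) z :=
      contDiffAt_const.mul (gu_cdl z)
    have h2 : ContDiffAt ℝ ∞ (fun y => Real.log (‖c y‖ ^ 2)) z := (contDiffAt_normSq hcz).log hp.ne'
    have h3 : ContDiffAt ℝ ∞ (fun y => -1 * Real.log (‖c y‖ ^ 2)) z := contDiffAt_const.mul h2
    have two : (2 : WithTop ℕ∞) ≤ ((⊤ : ℕ∞) : WithTop ℕ∞) :=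
      WithTop.coe_le_coe.2 (le_top : (2 : ℕ∞) ≤ ⊤)
    refine ⟨h1.add h3, fun ξ => ⟨?_, ?_⟩⟩
    · rw [levi_add (h1.of_le two) (h3.of_le two), levi_const_mul ((gu_cdl z).of_le two),
        levi_const_mul (h2.of_le two)]
      have e : levi (fun y => Real.log (‖c y‖ ^ 2)) z ξ = 0 := by
        rw [levi, leviC_log_normSq (ev_diff_of_an hcz) hz, Complex.zero_re]
      rw [e, mul_zero, add_zero]
      refine mul_nonneg (Nat.cast_nonneg _) (le_trans ?_ (levi_log_sum_ge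
        (f := fun j (y : E n) => y j) (fun j => ev_diff_of_an (gu_an j z)) zero_le_one (hN z) ξ))
      positivity
    · rw [dzr_add (h1.differentiableAt (by simp)) (h3.differentiableAt (by simp)),
        dzr_const_mul ((gu_cdl z).differentiableAt (by simp)),
        dzr_const_mul (h2.differentiableAt (by simp)), dzr_log_normSq hcz.differentiableAt hz,
        gu_exp (hN z) hp]
      have b1 := gu_dzr z ξ
      have b2 : ‖fderiv ℂ c z‖ ≤ 2 * (A * (2 + ‖z‖) ^ k) / 1 :=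
        Vale.Agent.P274.norm_fderiv_le_of_bdd one_pos (hc.differentiableOn.mono (subset_univ _))
          fun y hy => (hg y).trans (by
            have := norm_le_norm_add_norm_sub' y z
            rw [mem_ball_iff_norm] at hy
            exact mul_le_mul_of_nonneg_left (pow_le_pow_left₀ (by positivity) (by linarith) k) hA)
      have b3 : ‖fderiv ℂ c z ξ‖ ≤ 2 * A * (2 + ‖z‖) ^ k * ‖ξ‖ :=
        ((fderiv ℂ c z).le_opNorm ξ).trans (by gcongr; linarith)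
      have b4 : ‖fderiv ℂ c z ξ‖ ^ 2 ≤
          4 * A ^ 2 * 6 ^ k * (∑ j, ‖z j‖ ^ 2 + 1) ^ (k + 1) * ‖ξ‖ ^ 2 :=
        calc ‖fderiv ℂ c z ξ‖ ^ 2 ≤ (2 * A * (2 + ‖z‖) ^ k * ‖ξ‖) ^ 2 := by gcongr
          _ = 4 * A ^ 2 * ((2 + ‖z‖) ^ k) ^ 2 * ‖ξ‖ ^ 2 := by ring
          _ ≤ 4 * A ^ 2 * (6 ^ k * (∑ j, ‖z j‖ ^ 2 + 1) ^ (k + 1)) * ‖ξ‖ ^ 2 := by
              gcongr
              refine (gu_pow_le z k).trans ?_
              gcongr
              · exact gu_one_le z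
              · exact k.le_succ
          _ = _ := by ring
      generalize dzr (fun y : E n => Real.log (∑ j, ‖y j‖ ^ 2 + 1)) z ξ = a at b1
      have b5 : ‖((((k + 1 : ℕ) : ℝ)) : ℂ) * a‖ ^ 2 ≤ ((k + 1) * n) ^ 2 * ‖ξ‖ ^ 2 := by
        rw [← mul_pow, norm_mul, Complex.norm_real, Real.norm_natCast, mul_assoc]
        push_cast
        gcongr
      have b6 : ‖(((-1 : ℝ)) : ℂ) * (fderiv ℂ c z ξ / c z)‖ ^ 2 ≤ 4 * A ^ 2 * 6 ^ k *
          ((∑ j, ‖z j‖ ^ 2 + 1) ^ (k + 1) / ‖c z‖ ^ 2) * ‖ξ‖ ^ 2 := by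
        rw [norm_mul, Complex.norm_real, norm_neg, norm_one, one_mul, norm_div, div_pow,
          div_le_iff₀ hp]
        refine b4.trans_eq ?_
        field_simp
      have b7 : 0 ≤ (∑ j, ‖z j‖ ^ 2 + 1) ^ (k + 1) / ‖c z‖ ^ 2 := by have := hN z; positivity
      generalize (∑ j, ‖z j‖ ^ 2 + 1) ^ (k + 1) / ‖c z‖ ^ 2 = e at b6 b7 ⊢
      generalize ((((k + 1 : ℕ) : ℝ)) : ℂ) * a = x at b5 ⊢
      generalize (((-1 : ℝ)) : ℂ) * (fderiv ℂ c z ξ / c z) = y at b6 ⊢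
      have b8 : ‖x + y‖ ^ 2 ≤ (‖x‖ + ‖y‖) ^ 2 := by gcongr; exact norm_add_le x y
      have b9 : 0 ≤ ((k + 1 : ℝ) * n) ^ 2 * e * ‖ξ‖ ^ 2 := by positivity
      have b10 : 0 ≤ A ^ 2 * 6 ^ k * ‖ξ‖ ^ 2 := by positivity
      nlinarith [sq_nonneg (‖x‖ - ‖y‖)]
  · have e : {z : E n | c z ≠ 0 ∧ ((k + 1 : ℕ) : ℝ) * Real.log (∑ j, ‖z j‖ ^ 2 + 1) +
        -1 * Real.log (‖c z‖ ^ 2) ≤ b} =
        {z | (∑ j, ‖z j‖ ^ 2 + 1) ^ (k + 1) ≤ Real.exp b * ‖c z‖ ^ 2} := by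
      ext z
      simp only [mem_ofPred_eq]
      by_cases hz : c z = 0
      · have := pow_pos (hN z) (k + 1)
        simp only [hz, ne_eq, not_true, false_and, norm_zero, false_iff, not_le]
        simpa using this
      · have hp : 0 < ‖c z‖ ^ 2 := by positivity
        rw [and_iff_right hz, ← Real.exp_le_exp, gu_exp (hN z) hp, div_le_iff₀ hp]
    rw [e]
    have hcc : Continuous c := continuousOn_univ.1 hc.continuousOn
    refine Metric.isCompact_of_isClosed_isBounded (isClosed_le (by fun_prop) (by fun_prop))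
      ((isBounded_closedBall (x := 0) (r := Real.exp b * (A ^ 2 * 6 ^ k))).subset fun z hz => ?_)
    rw [mem_closedBall_zero_iff]
    refine (gu_norm_le z).trans (le_of_mul_le_mul_left ?_ (pow_pos (hN z) k))
    rw [← pow_succ]
    refine le_trans hz ?_
    have h1 : ‖c z‖ ≤ A * (2 + ‖z‖) ^ k := (hg z).trans (by gcongr; norm_num)
    calc Real.exp b * ‖c z‖ ^ 2 ≤ Real.exp b * (A * (2 + ‖z‖) ^ k) ^ 2 := by gcongr
      _ ≤ Real.exp b * (A ^ 2 * (6 ^ k * (∑ j, ‖z j‖ ^ 2 + 1) ^ k)) := by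
          rw [mul_pow]; gcongr; exact gu_pow_le z k
      _ = _ := by ring

end Fuj
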