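import Vale.Agent.P271.HSh3
import Vale.Agent.P271.HNorm

/-! Adjointness and the Bochner-Kodaira inequality for test forms. -/

namespace Fuj

open MeasureTheory Set Filter Topology Complex
open scoped ENNReal ContDiff ComplexConjugate

noncomputable section

namespace Sheets

variable {E W : Type*} [NormedAddCommGroup E] [NormedSpace ℝ E] [NormedSpace ℂ E]
  [IsScalarTower ℝ ℂ E] [FiniteDimensional ℂ E] [MeasurableSpace E] [BorelSpace E]
  [TopologicalSpace W] [T2Space W] [MeasurableSpace W] [BorelSpace W]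
  {vol : Measure E} [vol.IsAddHaarMeasure] (S : Sheets E W vol)
  {κ : Type*} [Fintype κ] (b : Module.Basis κ ℂ E)

theorem hAdj0_zero {φ : W → ℝ} {f g : W → ℂ} {i : S.ι} {K : Set W}
    (h0 : ∀ p, p ∉ K → f p * conj (g p) = 0) (z : E) (hz : z ∈ (S.e i).target)
    (hz' : z ∉ S.e i '' K) :
    S.rep i f z * conj (S.rep i g z) * (Real.exp (-S.wt i φ z) : ℝ) = 0 := by
  have := h0 ((S.e i).symm z) fun h => hz' ⟨_, h, (S.e i).right_inv hz⟩
  simp only [rep, map_mul]
  linear_combination (S.τ i ((S.e i).symm z) * conj (S.τ i ((S.e i).symm z)) *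
    (Real.exp (-S.wt i φ z) : ℝ)) * this

theorem hAdj0_smooth {φ : W → ℝ} (hφ : S.SmW φ) {f g : W → ℂ} (hf : S.SmS f) (hg : S.SmS g)
    (i : S.ι) : ContDiffOn ℝ ∞ (fun z => S.rep i f z * conj (S.rep i g z) *
      (Real.exp (-S.wt i φ z) : ℝ)) (S.e i).target :=
  ((hf i).mul (Complex.conjCLE.contDiff.comp_contDiffOn (hg i))).mul
    (Complex.ofRealCLM.contDiff.comp_contDiffOn (hφ i).neg.exp)

/-- One of the two sections is supported in a compact subset of a chart: ip_chart, then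
setIntegral_db_zero for rep σ * conj (rep ρ) * exp (-wt) (db_mul, db_conj, db_ofReal, dzr_comp). -/
theorem adj_chart {φ : W → ℝ} (hφ : S.SmW φ) {σ ρ : W → ℂ} (hσ : S.SmS σ) (hρ : S.SmS ρ)
    {i : S.ι} {K : Set W} (hK : IsCompact K) (hKi : K ⊆ (S.e i).source)
    (h : tsupport σ ⊆ K ∨ tsupport ρ ⊆ K) (ξ : E) :
    S.ip φ (S.Db ξ σ) ρ = -S.ip φ σ (S.Dl φ ξ ρ) := by
  have hU := (S.e i).open_target
  have hK' : IsCompact (S.e i '' K) := hK.image_of_continuousOn ((S.e i).continuousOn.mono hKi)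
  have hKU : S.e i '' K ⊆ (S.e i).target := by
    rintro _ ⟨p, hp, rfl⟩
    exact (S.e i).map_source (hKi hp)
  have z0 : ∀ p, p ∉ K → σ p * conj (ρ p) = 0 := fun p hp => by
    rcases h with h | h <;> simp [image_eq_zero_of_notMem_tsupport fun k => hp (h k)]
  have z1 : ∀ p, p ∉ K → S.Db ξ σ p * conj (ρ p) = 0 := fun p hp => by
    rcases h with h | h
    · simp [S.Db_eq_zero fun k => hp (h k)]
    · simp [image_eq_zero_of_notMem_tsupport fun k => hp (h k)]
  have z2 : ∀ p, p ∉ K → σ p * conj (S.Dl φ ξ ρ p) = 0 := fun p hp => by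
    rcases h with h | h
    · simp [image_eq_zero_of_notMem_tsupport fun k => hp (h k)]
    · simp [S.Dl_eq_zero φ fun k => hp (h k)]
  have s1 := SmS.Db S hσ ξ
  have s2 := SmS.Dl S hφ hρ ξ
  rw [S.ip_chart hφ (SmS.measurable S s1) (SmS.measurable S hρ) fun p hp => z1 p fun k => hp (hKi k),
    S.ip_chart hφ (SmS.measurable S hσ) (SmS.measurable S s2) fun p hp => z2 p fun k => hp (hKi k),
    eq_neg_iff_add_eq_zero, ← integral_add
      (integrableOn_of_supp hU hK' hKU (S.hAdj0_smooth hφ s1 hρ i).continuousOn (S.hAdj0_zero z1))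
      (integrableOn_of_supp hU hK' hKU (S.hAdj0_smooth hφ hσ s2 i).continuousOn (S.hAdj0_zero z2)),
    ← setIntegral_db_zero (vol := vol) hU hK' hKU
      ((S.hAdj0_smooth hφ hσ hρ i).of_le (by simp)) (S.hAdj0_zero z0) ξ]
  refine setIntegral_congr_fun hU.measurableSet fun z hz => ?_
  have d1 : DifferentiableAt ℝ (S.rep i σ) z :=
    ((hσ i).contDiffAt (hU.mem_nhds hz)).differentiableAt (by simp)
  have d2 : DifferentiableAt ℝ (fun y => conj (S.rep i ρ y)) z :=
    Complex.conjCLE.differentiableAt.comp z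
      (((hρ i).contDiffAt (hU.mem_nhds hz)).differentiableAt (by simp))
  have d3 : DifferentiableAt ℝ (S.wt i φ) z :=
    ((hφ i).contDiffAt (hU.mem_nhds hz)).differentiableAt (by simp)
  have d4 : DifferentiableAt ℝ (fun y => ((Real.exp (-S.wt i φ y) : ℝ) : ℂ)) z :=
    Complex.ofRealCLM.differentiableAt.comp z d3.neg.exp
  have d5 := dzr_comp (h := fun s => Real.exp (-s)) d3 (hasDerivAt_neg (S.wt i φ z)).exp ξ
  rw [db_mul (f := fun y => S.rep i σ y * conj (S.rep i ρ y)) (d1.mul d2) d4, db_mul d1 d2,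
    db_conj, db_ofReal (fun y => Real.exp (-S.wt i φ y)), d5, S.rep_Db hσ hz, S.rep_Dl hφ hρ hz]
  simp only [map_mul, map_sub, Complex.conj_ofReal, Complex.ofReal_mul, Complex.ofReal_neg,
    Complex.ofReal_one, map_neg, map_one]
  ring

theorem integrable_test_left {φ : W → ℝ} (hφ : S.SmW φ) {σ ρ : W → ℂ} (hσ : S.Test σ)
    (hρ : S.SmS ρ) : Integrable (fun p => σ p * conj (ρ p) * (Real.exp (-φ p) : ℝ)) S.μ := by
  have := S.finiteOnCompacts
  refine (S.continuous_pair hφ hσ.1 hρ).integrable_of_hasCompactSupport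
    (HasCompactSupport.intro hσ.2 fun p hp => ?_)
  simp [image_eq_zero_of_notMem_tsupport hp]

theorem integrable_test_right {φ : W → ℝ} (hφ : S.SmW φ) {σ ρ : W → ℂ} (hσ : S.SmS σ)
    (hρ : S.Test ρ) : Integrable (fun p => σ p * conj (ρ p) * (Real.exp (-φ p) : ℝ)) S.μ := by
  have := S.finiteOnCompacts
  refine (S.continuous_pair hφ hσ hρ.1).integrable_of_hasCompactSupport
    (HasCompactSupport.intro hρ.2 fun p hp => ?_)
  simp [image_eq_zero_of_notMem_tsupport hp]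

theorem hAdj0_left {φ : W → ℝ} (hφ : S.SmW φ) {n : ℕ} {f : Fin n → W → ℂ}
    (hf : ∀ a, S.Test (f a)) {g : W → ℂ} (hg : S.SmS g) :
    S.ip φ (fun p => ∑ a, f a p) g = ∑ a, S.ip φ (f a) g := by
  simp only [ip, Finset.sum_mul]
  exact integral_finsetSum _ fun a _ => S.integrable_test_left hφ (hf a) hg

theorem hAdj0_right {φ : W → ℝ} (hφ : S.SmW φ) {n : ℕ} {f : Fin n → W → ℂ}
    (hf : ∀ a, S.Test (f a)) {g : W → ℂ} (hg : S.SmS g) :
    S.ip φ g (fun p => ∑ a, f a p) = ∑ a, S.ip φ g (f a) := by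
  simp only [ip, map_sum, Finset.mul_sum, Finset.sum_mul]
  exact integral_finsetSum _ fun a _ => S.integrable_test_right hφ hg (hf a)

theorem hAdj0_split {σ : W → ℂ} (hσ : S.SmS σ) (hc : HasCompactSupport σ) :
    ∃ (n : ℕ) (i : Fin n → S.ι) (f : Fin n → W → ℂ), (∀ a, S.Test (f a) ∧
      tsupport (f a) ⊆ (S.e (i a)).source) ∧ σ = fun p => ∑ a, f a p := by
  obtain ⟨n, i, θ, h1, h2⟩ := S.pu hc.isCompact
  refine ⟨n, i, fun a p => (θ a p : ℂ) * σ p, fun a => ⟨S.test_cut (h1 a).1 (h1 a).2.1 hσ,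
    (closure_mono fun p hp => ?_).trans (h1 a).2.2⟩, funext fun p => ?_⟩
  · intro h0
    exact hp (by simp [h0])
  · by_cases hp : p ∈ tsupport σ
    · rw [← Finset.sum_mul, ← Complex.ofReal_sum, (h2 p hp).self_of_nhds]; simp
    · simp [image_eq_zero_of_notMem_tsupport hp]

/-- Write the compactly supported section as Σ θ_a σ (pu), use Db_sum or Dl_sum. -/
theorem adj {φ : W → ℝ} (hφ : S.SmW φ) {σ ρ : W → ℂ} (hσ : S.SmS σ) (hρ : S.SmS ρ)
    (hc : HasCompactSupport σ ∨ HasCompactSupport ρ) (ξ : E) :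
    S.ip φ (S.Db ξ σ) ρ = -S.ip φ σ (S.Dl φ ξ ρ) := by
  rcases hc with hc | hc
  · obtain ⟨n, i, f, h1, rfl⟩ := S.hAdj0_split hσ hc
    rw [funext (S.Db_sum Finset.univ (fun a _ => (h1 a).1.1) ξ),
      S.hAdj0_left hφ (fun a => Test.Db S (h1 a).1 ξ) hρ,
      S.hAdj0_left hφ (fun a => (h1 a).1) (SmS.Dl S hφ hρ ξ), ← Finset.sum_neg_distrib]
    exact Finset.sum_congr rfl fun a _ =>
      S.adj_chart hφ (h1 a).1.1 hρ (h1 a).1.2.isCompact (h1 a).2 (Or.inl subset_rfl) ξ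
  · obtain ⟨n, i, f, h1, rfl⟩ := S.hAdj0_split hρ hc
    rw [funext (S.Dl_sum φ Finset.univ (fun a _ => (h1 a).1.1) ξ),
      S.hAdj0_right hφ (fun a => Test.Dl S hφ (h1 a).1 ξ) hσ,
      S.hAdj0_right hφ (fun a => (h1 a).1) (SmS.Db S hσ ξ), ← Finset.sum_neg_distrib]
    exact Finset.sum_congr rfl fun a _ =>
      S.adj_chart hφ hσ (h1 a).1.1 (h1 a).1.2.isCompact (h1 a).2 (Or.inr subset_rfl) ξ

end Sheets

end

end Fuj
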