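import Vale.Agent.P271.HTw

/-! The a priori inequality on a domain with a plurisubharmonic exhaustion. -/

namespace Fuj

open MeasureTheory Set Filter Topology Complex
open scoped ENNReal ContDiff ComplexConjugate

noncomputable section

theorem HAp_st : ∃ B : ℝ, ∀ s, ‖deriv Real.smoothTransition s‖ ≤ B := by
  have hc : Continuous (deriv Real.smoothTransition) :=
    (Real.smoothTransition.contDiff (n := 1)).continuous_deriv le_rfl
  obtain ⟨B, hB⟩ := (isCompact_Icc (a := (0 : ℝ)) (b := 1)).exists_bound_of_continuousOn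
    hc.continuousOn
  refine ⟨max B 0, fun s => ?_⟩
  by_cases h0 : s < 0
  · have : Real.smoothTransition =ᶠ[𝓝 s] fun _ => 0 := by
      filter_upwards [Iio_mem_nhds h0] with x hx
      exact Real.smoothTransition.zero_of_nonpos (le_of_lt hx)
    rw [this.deriv_eq]
    simp
  by_cases h1 : 1 < s
  · have : Real.smoothTransition =ᶠ[𝓝 s] fun _ => 1 := by
      filter_upwards [Ioi_mem_nhds h1] with x hx
      exact Real.smoothTransition.one_of_one_le (le_of_lt hx)
    rw [this.deriv_eq]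
    simp
  exact (hB s ⟨not_lt.1 h0, not_lt.1 h1⟩).trans (le_max_left _ _)

namespace Sheets

variable {E W : Type*} [NormedAddCommGroup E] [NormedSpace ℝ E] [NormedSpace ℂ E]
  [IsScalarTower ℝ ℂ E] [FiniteDimensional ℂ E] [MeasurableSpace E] [BorelSpace E]
  [TopologicalSpace W] [T2Space W] [MeasurableSpace W] [BorelSpace W]
  {vol : Measure E} [vol.IsAddHaarMeasure] (S : Sheets E W vol)
  {κ : Type*} [Fintype κ] (b : Module.Basis κ ℂ E)

theorem HAp_cut {u : W → ℝ} (hu : S.SmF u) (huc : ∀ c, IsCompact {p | u p ≤ c}) {C₀ : ℝ}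
    (hug : ∀ p ξ, ‖S.Dz u p ξ‖ ^ 2 ≤ C₀ * (1 + Real.exp (u p)) * ‖ξ‖ ^ 2) :
    ∃ (χ : ℕ → W → ℝ) (c : ℕ → ℝ),
      (∀ k, S.SmF (χ k) ∧ HasCompactSupport (χ k) ∧ ∀ p, 0 ≤ χ k p ∧ χ k p ≤ 1) ∧
      (∀ K, IsCompact K → ∀ᶠ k in atTop, ∀ p ∈ K, χ k p = 1) ∧
      (∀ k p, ∑ j, ‖S.Dz (χ k) p (b j)‖ ^ 2 ≤ c k * (1 + Real.exp (u p))) ∧
      (∀ k, 0 ≤ c k) ∧ Tendsto c atTop (𝓝 0) := by
  obtain ⟨B, hB⟩ := HAp_st
  have hB0 : 0 ≤ B := (norm_nonneg _).trans (hB 0)
  refine ⟨fun k p => Real.smoothTransition (2 - u p * (1 / ((k : ℝ) + 1))),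
    fun k => (1 / ((k : ℝ) + 1)) ^ 2 * (B ^ 2 * |C₀| * ∑ j, ‖b j‖ ^ 2), fun k => ⟨?_, ?_, fun p =>
      ⟨Real.smoothTransition.nonneg _, Real.smoothTransition.le_one _⟩⟩, fun K hK => ?_,
      fun k p => ?_, fun k => by positivity, ?_⟩
  · exact SmF.comp S (g := fun s => Real.smoothTransition (2 - s * (1 / ((k : ℝ) + 1))))
      (Real.smoothTransition.contDiff.comp (by fun_prop)) hu
  · refine HasCompactSupport.intro (huc (2 * ((k : ℝ) + 1))) fun p hp => ?_
    refine Real.smoothTransition.zero_of_nonpos ?_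
    have hk : (0 : ℝ) < k + 1 := by positivity
    rw [mem_ofPred_eq, not_le] at hp
    rw [mul_one_div, sub_nonpos, le_div_iff₀ hk]
    exact hp.le
  · obtain ⟨m, hm⟩ := hK.exists_bound_of_continuousOn (SmF.continuous S hu).continuousOn
    filter_upwards [tendsto_natCast_atTop_atTop.eventually_ge_atTop m] with k hk p hp
    refine Real.smoothTransition.one_of_one_le ?_
    have hk' : (0 : ℝ) < k + 1 := by positivity
    have : u p * (1 / ((k : ℝ) + 1)) ≤ 1 := by
      rw [mul_one_div, div_le_one hk']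
      linarith [le_abs_self (u p), hm p hp, Real.norm_eq_abs (u p)]
    linarith
  · have hd : ∀ s, HasDerivAt (fun s => Real.smoothTransition (2 - s * (1 / ((k : ℝ) + 1))))
        (deriv Real.smoothTransition (2 - s * (1 / ((k : ℝ) + 1))) * -(1 / ((k : ℝ) + 1))) s :=
      fun s => by
        have h1 : HasDerivAt (fun s : ℝ => 2 - s * (1 / ((k : ℝ) + 1))) (-(1 / ((k : ℝ) + 1))) s := by
          simpa using ((hasDerivAt_id s).mul_const (1 / ((k : ℝ) + 1))).const_sub 2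
        exact ((Real.smoothTransition.contDiff (n := 1)).differentiable one_ne_zero _).hasDerivAt.comp
          s h1
    beta_reduce
    rw [Finset.mul_sum, Finset.mul_sum, Finset.sum_mul]
    refine Finset.sum_le_sum fun j _ => ?_
    rw [S.Dz_comp hd hu, norm_mul, mul_pow, Complex.norm_real, norm_mul, mul_pow, norm_neg,
      Real.norm_of_nonneg (by positivity : (0 : ℝ) ≤ 1 / ((k : ℝ) + 1))]
    calc _ ≤ B ^ 2 * (1 / ((k : ℝ) + 1)) ^ 2 * (|C₀| * (1 + Real.exp (u p)) * ‖b j‖ ^ 2) := by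
          gcongr
          · exact hB _
          · refine (hug p _).trans ?_
            gcongr
            exact le_abs_self _
      _ = _ := by ring
  · have := ((tendsto_one_div_add_atTop_nhds_zero_nat (𝕜 := ℝ)).pow 2).mul_const
      (B ^ 2 * |C₀| * ∑ j, ‖b j‖ ^ 2)
    simpa using this

/-- For 0 < δ ≤ 1 apply tw with φ + 2 δ exp u, ψ = log (1 + δ exp u),
χ_k = smoothTransition (2 - u / (k+1)), and the test form exp (2 δ exp u) γ. With y = δ exp u:
Lv_add, LvF_comp, Dz_comp give Lv (φ + 2y + ψ) - 2|Dz ψ|² ≥ Lv φ, since LvF (2y) ≥ 2y|Dz u|²,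
LvF ψ ≥ 0, |Dz ψ|² = (y/(1+y))² |Dz u|² ≤ y|Dz u|². (1 + y) exp (-2y) ≤ 1, and
exp (-ψ) (1 + exp u) ≤ 1/δ. Div (φ + 2y) (exp (2y) γ) = exp (2y) Div φ γ (Dl_weight, Dl_mulF), and
exp (2y) ≤ exp (2 δ exp m), m = max of u on the supports of the γ_j. Let δ → 0. -/
theorem ap {u φ : W → ℝ} (hu : S.SmF u) (hup : ∀ p ξ, 0 ≤ S.LvF u p ξ)
    (huc : ∀ c, IsCompact {p | u p ≤ c}) {C₀ : ℝ}
    (hug : ∀ p ξ, ‖S.Dz u p ξ‖ ^ 2 ≤ C₀ * (1 + Real.exp (u p)) * ‖ξ‖ ^ 2)
    (hφ : S.SmW φ) (hφp : ∀ p ξ, 0 ≤ S.Lv φ p ξ) {f : W → ℂ} (hf : S.SmS f) (hf2 : S.nn φ f ≠ ⊤)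
    {A : W → ℝ} (hA : Measurable A) (hA0 : ∀ p, 0 ≤ A p)
    (hfA : ∀ p ξ, ‖S.Db ξ f p‖ ^ 2 ≤ A p * S.Lv φ p ξ)
    (hM : ∫⁻ p, ENNReal.ofReal (A p * Real.exp (-φ p)) ∂S.μ ≠ ⊤)
    {γ : κ → W → ℂ} (hγ : ∀ j, S.Test (γ j)) :
    ENNReal.ofReal (‖∑ j, S.ip φ (S.Db (b j) f) (γ j)‖ ^ 2) ≤
      2 * (∫⁻ p, ENNReal.ofReal (A p * Real.exp (-φ p)) ∂S.μ) * S.nn φ (S.Div b φ γ) := by
  obtain ⟨χ, c, hχ, hχ1, hc, hc0, hcl⟩ := S.HAp_cut b hu huc hug
  have hD := S.test_Div b hφ hγ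
  obtain ⟨a, ha⟩ := hD.2.isCompact.exists_bound_of_continuousOn (SmF.continuous S hu).continuousOn
  have key : ∀ x : ℝ≥0∞, x ≠ ⊤ → ∃ r : ℝ, 0 ≤ r ∧ x = ENNReal.ofReal r := fun x hx =>
    ⟨x.toReal, ENNReal.toReal_nonneg, (ENNReal.ofReal_toReal hx).symm⟩
  obtain ⟨m, hm0, hm⟩ := key _ hM
  obtain ⟨n, hn0, hn⟩ := key _ (Test.nn_ne_top S hφ hD)
  have main : ∀ δ : ℝ, δ ∈ Ioc (0 : ℝ) 1 → ‖∑ j, S.ip φ (S.Db (b j) f) (γ j)‖ ^ 2 ≤
      2 * m * (Real.exp (2 * δ * Real.exp a) * n) := by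
    rintro δ ⟨hδ, hδ1⟩
    have d1 : ∀ s, HasDerivAt (fun s => 2 * δ * Real.exp s) (2 * δ * Real.exp s) s := fun s =>
      (Real.hasDerivAt_exp s).const_mul _
    have d0 : ∀ s, HasDerivAt (fun s => 1 + δ * Real.exp s) (δ * Real.exp s) s := fun s =>
      ((Real.hasDerivAt_exp s).const_mul δ).const_add 1
    have p0 : ∀ s, 0 < 1 + δ * Real.exp s := fun s => by positivity
    have d2 : ∀ s, HasDerivAt (fun s => Real.log (1 + δ * Real.exp s))
        (δ * Real.exp s / (1 + δ * Real.exp s)) s := fun s => (d0 s).log (p0 s).ne'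
    have d3 : ∀ s, HasDerivAt (fun s => δ * Real.exp s / (1 + δ * Real.exp s))
        (δ * Real.exp s / (1 + δ * Real.exp s) ^ 2) s := fun s => by
      refine (((Real.hasDerivAt_exp s).const_mul δ).div (d0 s) (p0 s).ne').congr_deriv ?_
      ring
    have hy : S.SmF fun q => 2 * δ * Real.exp (u q) :=
      SmF.comp S (g := fun s => 2 * δ * Real.exp s) (by fun_prop) hu
    have hψ : S.SmF fun q => Real.log (1 + δ * Real.exp (u q)) :=
      SmF.comp S (g := fun s => Real.log (1 + δ * Real.exp s))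
        (ContDiff.log (by fun_prop) fun s => (p0 s).ne') hu
    have hφ' := SmW.add S hφ hy
    have hL : ∀ p ξ, S.Lv φ p ξ ≤ S.Lv (fun q => (φ q + 2 * δ * Real.exp (u q)) +
        Real.log (1 + δ * Real.exp (u q))) p ξ -
        2 * ‖S.Dz (fun q => Real.log (1 + δ * Real.exp (u q))) p ξ‖ ^ 2 := fun p ξ => by
      rw [S.Lv_add hφ' hψ, S.Lv_add hφ hy, S.LvF_comp d1 d1 hu, S.LvF_comp d2 d3 hu,
        S.Dz_comp d2 hu, norm_mul, mul_pow, Complex.norm_real, Real.norm_eq_abs, sq_abs]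
      have q0 := hup p ξ
      have q1 : (δ * Real.exp (u p) / (1 + δ * Real.exp (u p))) ^ 2 ≤ δ * Real.exp (u p) := by
        have : 0 < δ * Real.exp (u p) := by positivity
        rw [div_pow, div_le_iff₀ (by positivity)]
        nlinarith [mul_pos this this, mul_pos this (mul_pos this this)]
      have q2 := mul_le_mul_of_nonneg_right q1 (sq_nonneg ‖S.Dz u p ξ‖)
      have q3 : 0 ≤ 2 * δ * Real.exp (u p) * S.LvF u p ξ := by positivity
      have q4 : 0 ≤ δ * Real.exp (u p) / (1 + δ * Real.exp (u p)) * S.LvF u p ξ := by positivity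
      have q5 : 0 ≤ δ * Real.exp (u p) / (1 + δ * Real.exp (u p)) ^ 2 * ‖S.Dz u p ξ‖ ^ 2 := by
        positivity
      linarith
    have hψy : ∀ p, Real.log (1 + δ * Real.exp (u p)) ≤ 2 * δ * Real.exp (u p) := fun p => by
      have := Real.log_le_sub_one_of_pos (p0 (u p))
      have : 0 < δ * Real.exp (u p) := by positivity
      linarith
    have hψ0 : ∀ p, 0 ≤ Real.log (1 + δ * Real.exp (u p)) := fun p =>
      Real.log_nonneg (le_add_of_nonneg_right (by positivity))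
    have hM' : ∫⁻ p, ENNReal.ofReal (A p * Real.exp (Real.log (1 + δ * Real.exp (u p)) -
        (φ p + 2 * δ * Real.exp (u p)))) ∂S.μ ≤ ENNReal.ofReal m := by
      rw [← hm]
      refine lintegral_mono fun p => ENNReal.ofReal_le_ofReal ?_
      exact mul_le_mul_of_nonneg_left (Real.exp_le_exp.2 (by linarith [hψy p])) (hA0 p)
    have hE : S.SmF fun q => Real.exp (2 * δ * Real.exp (u q)) := SmF.comp S Real.contDiff_exp hy
    have T := S.tw b hφ' hψ (fun p ξ => by linarith [hL p ξ, hφp p ξ]) (c := fun k => c k * δ⁻¹)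
      hχ hχ1 (fun k p => by
        refine (mul_le_mul_of_nonneg_right (hc k p) (by positivity)).trans ?_
        rw [mul_assoc]
        refine mul_le_mul_of_nonneg_left ?_ (hc0 k)
        rw [Real.exp_neg, Real.exp_log (p0 _), ← div_eq_mul_inv, div_le_iff₀ (p0 _),
          mul_add, ← mul_assoc, inv_mul_cancel₀ hδ.ne', mul_one, one_mul]
        have := one_le_inv₀ hδ |>.2 hδ1
        linarith)
      (by simpa using hcl.mul_const δ⁻¹) hf
      (ne_top_of_le_ne_top hf2 (lintegral_mono fun p => ENNReal.ofReal_le_ofReal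
        (mul_le_mul_of_nonneg_left (Real.exp_le_exp.2 (by linarith [hψy p])) (by positivity))))
      hA hA0 (fun p ξ => (hfA p ξ).trans (mul_le_mul_of_nonneg_left (hL p ξ) (hA0 p)))
      (ne_top_of_le_ne_top ENNReal.ofReal_ne_top hM') (fun j => Test.mulF S hE (hγ j))
    have e1 : ∀ j, S.ip (fun q => φ q + 2 * δ * Real.exp (u q)) (S.Db (b j) f)
        (fun p => (Real.exp (2 * δ * Real.exp (u p)) : ℂ) * γ j p) =
        S.ip φ (S.Db (b j) f) (γ j) := fun j => by
      refine integral_congr_ae (Eventually.of_forall fun p => ?_)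
      have : Real.exp (-φ p) = Real.exp (2 * δ * Real.exp (u p)) *
          Real.exp (-(φ p + 2 * δ * Real.exp (u p))) := by
        rw [← Real.exp_add]
        congr 1
        ring
      simp only [this, map_mul, Complex.conj_ofReal, Complex.ofReal_mul]
      ring
    have e2 : ∀ p, S.Div b (fun q => φ q + 2 * δ * Real.exp (u q))
        (fun j p => (Real.exp (2 * δ * Real.exp (u p)) : ℂ) * γ j p) p =
        (Real.exp (2 * δ * Real.exp (u p)) : ℂ) * S.Div b φ γ p := fun p => by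
      unfold Div
      rw [Finset.mul_sum]
      refine Finset.sum_congr rfl fun j _ => ?_
      rw [S.Dl_weight hφ hy, S.Dl_mulF φ hE (hγ j).1, S.Dz_comp Real.hasDerivAt_exp hy]
      ring
    have e3 : S.nn (fun q => (φ q + 2 * δ * Real.exp (u q)) + Real.log (1 + δ * Real.exp (u q)))
        (S.Div b (fun q => φ q + 2 * δ * Real.exp (u q))
          (fun j p => (Real.exp (2 * δ * Real.exp (u p)) : ℂ) * γ j p)) ≤
        ENNReal.ofReal (Real.exp (2 * δ * Real.exp a) * n) := by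
      rw [ENNReal.ofReal_mul (by positivity), ← hn]
      unfold nn
      rw [← lintegral_const_mul' _ _ ENNReal.ofReal_ne_top]
      refine lintegral_mono fun p => ?_
      rw [← ENNReal.ofReal_mul (by positivity), e2]
      refine ENNReal.ofReal_le_ofReal ?_
      by_cases hp : p ∈ tsupport (S.Div b φ γ)
      · have h1 : u p ≤ a := (le_abs_self _).trans (ha p hp)
        have h2 : 2 * δ * Real.exp (u p) ≤ 2 * δ * Real.exp a := by gcongr
        rw [norm_mul, mul_pow, Complex.norm_real, Real.norm_eq_abs, sq_abs, mul_right_comm,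
          mul_left_comm, mul_comm, sq (Real.exp _), ← Real.exp_add, ← Real.exp_add,
          ← Real.exp_add]
        exact mul_le_mul_of_nonneg_left (Real.exp_le_exp.2 (by linarith [hψ0 p])) (by positivity)
      · simp [image_eq_zero_of_notMem_tsupport hp]
    simp only [e1] at T
    have T2 := T.trans (mul_le_mul' (mul_le_mul_right hM' _) e3)
    rwa [← ENNReal.ofReal_ofNat 2, ← ENNReal.ofReal_mul zero_le_two,
      ← ENNReal.ofReal_mul (by positivity), ENNReal.ofReal_le_ofReal_iff (by positivity)] at T2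
  have lim : ‖∑ j, S.ip φ (S.Db (b j) f) (γ j)‖ ^ 2 ≤ 2 * m * n := by
    have : Tendsto (fun δ : ℝ => 2 * m * (Real.exp (2 * δ * Real.exp a) * n)) (𝓝[>] 0)
        (𝓝 (2 * m * (Real.exp (2 * 0 * Real.exp a) * n))) :=
      (Continuous.tendsto (by fun_prop) _).mono_left nhdsWithin_le_nhds
    have := ge_of_tendsto this (mem_of_superset (Ioc_mem_nhdsGT one_pos) main)
    simpa using this
  rw [hm, hn, ← ENNReal.ofReal_ofNat 2, ← ENNReal.ofReal_mul zero_le_two,
    ← ENNReal.ofReal_mul (by positivity)]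
  exact ENNReal.ofReal_le_ofReal lim

end Sheets

end

end Fuj
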