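import Vale.Agent.P271.HMain0
import Vale.Agent.P271.HAp
import Vale.Agent.P271.HAdj0

/-! The L² existence theorem. -/

namespace Fuj

open MeasureTheory Set Filter Topology Complex
open scoped ENNReal ContDiff ComplexConjugate

noncomputable section

namespace Sheets

variable {E W : Type*} [NormedAddCommGroup E] [NormedSpace ℝ E] [NormedSpace ℂ E]
  [IsScalarTower ℝ ℂ E] [FiniteDimensional ℂ E] [MeasurableSpace E] [BorelSpace E]
  [TopologicalSpace W] [T2Space W] [MeasurableSpace W] [BorelSpace W]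
  {vol : Measure E} [vol.IsAddHaarMeasure] (S : Sheets E W vol)
  {κ : Type*} [Fintype κ] (b : Module.Basis κ ℂ E)

/-- If the right side is infinite take F = 0. Else l2_riesz with
G = {(Div γ, Σ_j ip γ_j (Db_j f)) | γ test}, M = the right side (ap, ip_conj), b = Module.finBasis;
adj gives ip γ_j (Db_j f) = -ip (Dl_j γ_j) f, so F₀ = f + u satisfies hol_of_weak (γ = Pi.single). -/
theorem hormander' {u φ : W → ℝ} (hu : S.SmF u) (hup : ∀ p ξ, 0 ≤ S.LvF u p ξ)
    (huc : ∀ c, IsCompact {p | u p ≤ c}) {C₀ : ℝ}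
    (hug : ∀ p ξ, ‖S.Dz u p ξ‖ ^ 2 ≤ C₀ * (1 + Real.exp (u p)) * ‖ξ‖ ^ 2)
    (hφ : S.SmW φ) (hφp : ∀ p ξ, 0 ≤ S.Lv φ p ξ) {f : W → ℂ} (hf : S.SmS f) (hf2 : S.nn φ f ≠ ⊤)
    {A : W → ℝ} (hA : Measurable A) (hA0 : ∀ p, 0 ≤ A p)
    (hfA : ∀ p ξ, ‖S.Db ξ f p‖ ^ 2 ≤ A p * S.Lv φ p ξ) :
    ∃ F, S.HolS F ∧ S.nn φ (fun p => F p - f p) ≤
      2 * ∫⁻ p, ENNReal.ofReal (A p * Real.exp (-φ p)) ∂S.μ := by
  classical
  by_cases hM : ∫⁻ p, ENNReal.ofReal (A p * Real.exp (-φ p)) ∂S.μ = ⊤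
  · refine ⟨fun _ => 0, fun i => (differentiableOn_const 0).congr fun z _ => mul_zero _, ?_⟩
    rw [hM, ENNReal.mul_top two_ne_zero]
    exact le_top
  let b := Module.finBasis ℂ E
  have mφ := SmW.measurable S hφ
  let G : Submodule ℂ ((W → ℂ) × ℂ) :=
    { carrier := {t | ∃ γ, (∀ j, S.Test (γ j)) ∧ (S.Div b φ γ, -S.ip φ (S.Div b φ γ) f) = t}
      add_mem' := by
        rintro _ _ ⟨γ, hγ, rfl⟩ ⟨γ', hγ', rfl⟩
        have e : S.Div b φ (fun j p => γ j p + γ' j p) = S.Div b φ γ + S.Div b φ γ' := by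
          funext p
          simp only [Div, Pi.add_apply, Dl_add S φ (hγ _).1 (hγ' _).1, Finset.sum_add_distrib]
        refine ⟨fun j p => γ j p + γ' j p, fun j => Test.add S (hγ j) (hγ' j), Prod.ext e ?_⟩
        simp only [e, ip, Prod.snd_add, Pi.add_apply, add_mul]
        rw [integral_add (integrable_test_left S hφ (test_Div S b hφ hγ) hf)
          (integrable_test_left S hφ (test_Div S b hφ hγ') hf), neg_add]
      zero_mem' := by
        have e : S.Div b φ (fun _ _ => 0) = 0 := funext fun p =>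
          Finset.sum_eq_zero fun j _ => Dl_eq_zero S φ (by simp [tsupport]) _
        exact ⟨fun _ _ => 0, fun _ => test_zero S, Prod.ext e (by simp [e, ip])⟩
      smul_mem' := by
        rintro c _ ⟨γ, hγ, rfl⟩
        have e : S.Div b φ (fun j p => c * γ j p) = c • S.Div b φ γ := by
          funext p
          simp only [Div, Pi.smul_apply, smul_eq_mul, Dl_const_mul S φ (hγ _).1, Finset.mul_sum]
        refine ⟨fun j p => c * γ j p, fun j => Test.const_mul S (hγ j) c, Prod.ext e ?_⟩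
        simp only [e, ip, Prod.smul_snd, Pi.smul_apply, smul_eq_mul, mul_assoc,
          integral_const_mul, mul_neg] }
  have hM2 := ENNReal.mul_ne_top (ENNReal.ofNat_ne_top (n := 2)) hM
  obtain ⟨v, mv, hv, hG⟩ := l2_riesz S.μ (w := fun p => Real.exp (-φ p)) mφ.neg.exp
    (fun p => Real.exp_pos _) G hM2 (by
      rintro _ ⟨γ, hγ, rfl⟩
      have ht := test_Div S b hφ hγ
      refine ⟨SmS.measurable S ht.1, Test.nn_ne_top S hφ ht,
        le_trans (le_of_eq ?_) (ap S b hu hup huc hug hφ hφp hf hf2 hA hA0 hfA hM hγ)⟩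
      simp only [fun j => adj S hφ hf (hγ j).1 (.inr (hγ j).2) (b j), Finset.sum_neg_distrib,
        norm_neg]
      rw [← ip_conj, Complex.norm_conj]
      simp only [ip, Div, map_sum, Finset.mul_sum, Finset.sum_mul]
      rw [integral_finsetSum _ fun j _ => integrable_test_right S hφ hf (Test.Dl S hφ (hγ j) _)])
  have hv' : S.nn φ v ≠ ⊤ := ne_top_of_le_ne_top hM2 hv
  obtain ⟨F, hF, e⟩ := hol_of_weak S b hφ
    (LocL2.add S (SmS.locL2 S hf) (locL2_of_nn S hφ mv hv')) fun σ hσ j => by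
      have ht := Test.Dl S hφ hσ (b j)
      have e : S.Div b φ (fun k => if k = j then σ else fun _ => 0) = S.Dl φ (b j) σ := by
        funext p
        rw [Div, Finset.sum_eq_single j (fun k _ hk => by
          rw [if_neg hk]
          exact Dl_eq_zero S φ (by simp [tsupport]) _) (by simp), if_pos rfl]
      have h1 := hG _ ⟨fun k => if k = j then σ else fun _ => 0, fun k => by
        beta_reduce
        split_ifs
        exacts [hσ, test_zero S], rfl⟩
      simp only [e, ip, map_add, mul_add, add_mul] at h1 ⊢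
      rw [integral_add (integrable_test_left S hφ ht hf)
        (integrable_pair S mφ (SmS.measurable S ht.1) mv (Test.nn_ne_top S hφ ht) hv'), ← h1,
        add_neg_cancel]
  refine ⟨F, hF, le_trans (le_of_eq (lintegral_congr_ae (e.mono fun p hp => ?_))) hv⟩
  simp only [hp, add_sub_cancel_left]

/-- The same with hypotheses in the charts (use the chart idx p, Db_eq, τ_ne). -/
theorem hormander {u φ : W → ℝ} (hu : S.SmF u)
    (hup : ∀ i, ∀ z ∈ (S.e i).target, ∀ ξ, 0 ≤ levi (S.loc i u) z ξ)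
    (huc : ∀ c, IsCompact {p | u p ≤ c}) {C₀ : ℝ}
    (hug : ∀ i, ∀ z ∈ (S.e i).target, ∀ ξ,
      ‖dzr (S.loc i u) z ξ‖ ^ 2 ≤ C₀ * (1 + Real.exp (S.loc i u z)) * ‖ξ‖ ^ 2)
    (hφ : S.SmW φ) (hφp : ∀ i, ∀ z ∈ (S.e i).target, ∀ ξ, 0 ≤ levi (S.wt i φ) z ξ)
    {f : W → ℂ} (hf : S.SmS f) (hf2 : S.nn φ f ≠ ⊤)
    {A : W → ℝ} (hA : Measurable A) (hA0 : ∀ p, 0 ≤ A p)
    (hfA : ∀ i, ∀ z ∈ (S.e i).target, ∀ ξ, ‖db (S.rep i f) z ξ‖ ^ 2 ≤
      ‖S.τ i ((S.e i).symm z)‖ ^ 2 * S.loc i A z * levi (S.wt i φ) z ξ) :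
    ∃ F, S.HolS F ∧ S.nn φ (fun p => F p - f p) ≤
      2 * ∫⁻ p, ENNReal.ofReal (A p * Real.exp (-φ p)) ∂S.μ := by
  have hm := fun p => S.π_mem (S.idx_mem p)
  refine hormander' S hu (fun p ξ => hup _ _ (hm p) ξ) huc (C₀ := C₀) (fun p ξ => ?_) hφ
    (fun p ξ => hφp _ _ (hm p) ξ) hf hf2 hA hA0 fun p ξ => ?_
  · have h1 := hug _ _ (hm p) ξ
    rwa [S.loc_π (S.idx_mem p)] at h1
  · have h1 := hfA _ _ (hm p) ξ
    rw [S.loc_π (S.idx_mem p), S.symm_π (S.idx_mem p), ← Db_eq S hf (S.idx_mem p), norm_mul,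
      mul_pow, mul_assoc] at h1
    exact le_of_mul_le_mul_left h1 (pow_pos (norm_pos_iff.2 (S.τ_ne _ _ (S.idx_mem p))) 2)

end Sheets

end

end Fuj
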