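import Vale.Agent.P271.GHX2
import Vale.Agent.P271.GHX3
import Vale.Agent.P271.GU
import Vale.Agent.P271.GTay
import Vale.Agent.P271.HMain

/-! The L² existence theorem on `X`. -/

set_option linter.unusedSectionVars false

open MeasureTheory Set Filter Topology Metric
open scoped ENNReal ContDiff

noncomputable section
namespace Fuj
namespace Geo

open Atl

variable {n : ℕ} {X : Type*} [TopologicalSpace X] [T2Space X] [CompactSpace X] [ConnectedSpace X]
  [SecondCountableTopology X] [MeasurableSpace X] [BorelSpace X] {G : Geo n X}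

theorem ghx_u (ν : G.Nrm) : ∃ (u : E n → ℝ) (C₀ : ℝ),
    (∀ z, ν.c z ≠ 0 → ContDiffAt ℝ ∞ u z ∧ ∀ ξ, 0 ≤ levi u z ξ ∧
      ‖dzr u z ξ‖ ^ 2 ≤ C₀ * (1 + Real.exp (u z)) * ‖ξ‖ ^ 2) ∧
    ∀ b, IsCompact {p : ν.W | u (ν.w p) ≤ b} := by
  obtain ⟨A, hA, h⟩ := poly_growth ν.C ν.hom.totalDegree_le
  obtain ⟨u, C₀, h1, h2⟩ := exists_u ν.an_c (A := A * 2 ^ ν.k) (k := ν.k) fun z => by
    refine (h _).trans ?_
    rw [mul_assoc, ← mul_pow]
    have : ‖(Fin.cons 1 z : Fin (n + 1) → ℂ)‖ ≤ 1 + ‖z‖ :=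
      (pi_norm_le_iff_of_nonneg (by positivity)).2 fun a => Fin.cases (by simp)
        (fun j => (norm_le_pi_norm z j).trans (by simp)) a
    gcongr
    linarith [norm_nonneg z]
  refine ⟨u, C₀, h1, fun b => Subtype.isCompact_iff.2 ?_⟩
  have e : Subtype.val '' {p : ν.W | u (ν.w p) ≤ b} =
      {p | ν.y 0 p ≠ 0 ∧ ν.w p ∈ {z | ν.c z ≠ 0 ∧ u z ≤ b}} := by
    ext p
    constructor
    · rintro ⟨x, hx, rfl⟩
      exact ⟨(ν.mem_W.1 x.2).1, (ν.mem_W.1 x.2).2, hx⟩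
    · exact fun hp => ⟨⟨p, ν.mem_W.2 ⟨hp.1, hp.2.1⟩⟩, hp.2.2, rfl⟩
  rw [e]
  exact ν.isCompact_w (h2 b)

theorem ghx_open (ν : G.Nrm) (i : G.I) : IsOpen ((G.e i).target ∩ (G.e i).symm ⁻¹' ν.W) :=
  (G.e i).isOpen_inter_preimage_symm ν.isOpen_W

/-- The existence theorem on the etale domain. -/
theorem ghx_W {ν : G.Nrm} {θ : G.I → X → ℂ} {φ : G.I → E n → ℝ} (T : ν.Shs θ) (hθ : G.Coc θ)
    (hφ : G.Wt θ φ) (i : G.I) {g : E n → ℂ} (hg : ContDiff ℝ ∞ g) (hc : HasCompactSupport g)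
    (hs : tsupport g ⊆ (G.e i).target) {a : E n → ℝ} (ha : Measurable a) (ha0 : ∀ z, 0 ≤ a z)
    (hga : ∀ z ∈ (G.e i).target, ∀ ξ, ‖db g z ξ‖ ^ 2 ≤ a z * levi (φ i) z ξ) :
    ∃ F, T.S.HolS F ∧ T.S.nn (ν.gw θ φ) (fun p => F p - Nrm.gf θ i g p) ≤
      2 * ∫⁻ z in (G.e i).target, ENNReal.ofReal (a z * Real.exp (-φ i z)) := by
  obtain ⟨u, C₀, h1, h2⟩ := ghx_u ν
  have k1 : ∀ k, ∀ z ∈ (T.S.e k).target, T.S.loc k (fun p => u (ν.w p)) z = u z := fun k z hz => by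
    rw [T.tgt] at hz
    rw [Sheets.loc, T.symm k z hz, (T.sht k).w_symm hz]
  have k2 : ∀ k, ∀ z ∈ (T.S.e k).target, T.S.loc k (fun p => u (ν.w p)) =ᶠ[𝓝 z] u := fun k z hz =>
    Filter.eventually_of_mem ((T.S.e k).open_target.mem_nhds hz) (k1 k)
  have k3 : ∀ k, ∀ z ∈ (T.S.e k).target, ν.c z ≠ 0 := fun k z hz => by
    rw [T.tgt] at hz
    have := (ν.mem_W.1 ((T.sht k).sub ((T.ε k).map_target hz)).1).2
    rwa [(T.sht k).w_symm hz] at this
  have k4 : T.S.nn (ν.gw θ φ) (fun p => Nrm.gf θ i g p) ≠ ⊤ := by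
    rw [Sheets.nn, ← setLIntegral_eq_of_support_subset
      (s := {p : ν.W | (p : X) ∈ (G.e i).source}) fun p hp => by
        by_contra h
        exact hp (by simp [Nrm.gf, indicator_of_notMem (show (p : X) ∉ (G.e i).source from h)]),
      T.int_eq hθ hφ i (h := fun z => ‖g z‖ ^ 2) (hg.continuous.norm.pow 2).measurable
        fun p hp => by
          have := norm_ne_zero_iff.2 (hθ.ne i p hp)
          rw [Nrm.gf, indicator_of_mem hp, norm_div]
          field_simp]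
    refine ne_top_of_le_ne_top ?_ (setLIntegral_le_lintegral _ _)
    rw [← setLIntegral_eq_of_support_subset (s := tsupport g) fun z hz => by
      by_contra h
      exact hz (by simp [image_eq_zero_of_notMem_tsupport h])]
    exact (ContinuousOn.integrableOn_compact hc ((hg.continuous.norm.pow 2).continuousOn.mul
      (((hφ.sm i).continuousOn.mono hs).neg.rexp))).setLIntegral_lt_top.ne
  obtain ⟨F, hF, hle⟩ := T.S.hormander (u := fun p => u (ν.w p)) (C₀ := C₀)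
    (fun k z hz => ((h1 z (k3 k z hz)).1.congr_of_eventuallyEq (k2 k z hz)).contDiffWithinAt)
    (fun k z hz ξ => by rw [levi_congr (k2 k z hz)]; exact ((h1 z (k3 k z hz)).2 ξ).1) h2
    (fun k z hz ξ => by rw [dzr_congr (k2 k z hz), k1 k z hz]; exact ((h1 z (k3 k z hz)).2 ξ).2)
    (T.smW hθ hφ)
    (fun k z hz ξ => by
      have h3 := ((T.sht k).sub ((T.ε k).map_target (T.tgt k ▸ hz))).2
      rw [T.levi_wt hθ hφ hz h3]
      exact hφ.psh _ _ ((G.e _).map_source h3) _)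
    (T.smS hθ hg hc hs) k4 (A := fun p => Nrm.ga θ i a p)
    ((Nrm.meas_ga hθ i ha).comp measurable_subtype_coe)
    (fun p => indicator_nonneg (fun x _ => div_nonneg (ha0 _) (sq_nonneg _)) _)
    (T.db_le hθ hφ hg hc hs hga)
  refine ⟨F, hF, hle.trans (mul_le_mul_right ?_ 2)⟩
  rw [← setLIntegral_eq_of_support_subset (s := {p : ν.W | (p : X) ∈ (G.e i).source}) fun p hp => by
      by_contra h
      exact hp (by simp [Nrm.ga, indicator_of_notMem (show (p : X) ∉ (G.e i).source from h)]),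
    T.int_eq hθ hφ i ha fun p hp => by
      have := norm_ne_zero_iff.2 (hθ.ne i p hp)
      rw [Nrm.ga, indicator_of_mem hp]
      field_simp]
  exact lintegral_mono_set inter_subset_left

theorem ghx_chart {ν : G.Nrm} {θ : G.I → X → ℂ} {φ : G.I → E n → ℝ} (T : ν.Shs θ) (hθ : G.Coc θ)
    (hφ : G.Wt θ φ) (j : G.I) {F f : X → ℂ}
    (hF : ∀ p ∈ ν.W, p ∈ (G.e j).source → G.An p fun x => θ j x * F x)
    (hf : ContinuousOn (G.rep θ j f) (G.e j).target) :
    ∫⁻ z in (G.e j).target ∩ (G.e j).symm ⁻¹' ν.W,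
      ENNReal.ofReal (‖G.rep θ j F z - G.rep θ j f z‖ ^ 2 * Real.exp (-φ j z)) ≤
      T.S.nn (ν.gw θ φ) fun p => F p - f p := by
  have hm := (ghx_open ν j).measurableSet
  have hc : ContinuousOn (fun z => ‖G.rep θ j F z - G.rep θ j f z‖ ^ 2)
      ((G.e j).target ∩ (G.e j).symm ⁻¹' ν.W) := by
    refine (ContinuousOn.sub (fun z hz => ?_) (hf.mono inter_subset_left)).norm.pow 2
    exact ((an_iff' hz.1).1 (hF _ hz.2 ((G.e j).map_target hz.1))).continuousAt.continuousWithinAt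
  have := T.int_eq hθ hφ j (measurable_indicator_of_contOn hm hc)
    (H := fun p => ‖F p - f p‖ ^ 2) fun p hp => by
      rw [indicator_of_mem (mem_inter ((G.e j).map_source hp)
        (by rw [mem_preimage, (G.e j).left_inv hp]; exact p.2)), rep_apply _ _ hp,
        rep_apply _ _ hp, ← mul_sub, norm_mul, mul_pow]
  refine le_trans (le_of_eq ?_) (this.symm.trans_le (setLIntegral_le_lintegral _ _))
  exact setLIntegral_congr_fun hm fun z hz => by simp only [indicator_of_mem hz]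

theorem ghx_loc {U S K : Set (E n)} (hS : MeasurableSet S) {u v : E n → ℂ} {ψ : E n → ℝ}
    (hK : IsCompact K) (hKU : K ⊆ U) (hv : ContinuousOn v U) (hψ : ContinuousOn ψ U)
    (h : ∫⁻ z in U ∩ S, ENNReal.ofReal (‖u z - v z‖ ^ 2 * Real.exp (-ψ z)) ≠ ⊤) :
    ∫⁻ z in K ∩ S, ENNReal.ofReal (‖u z‖ ^ 2) ≠ ⊤ := by
  obtain ⟨B, hB⟩ := hK.exists_bound_of_continuousOn (hψ.mono hKU)
  obtain ⟨M, hM⟩ := hK.exists_bound_of_continuousOn (hv.mono hKU)
  have h1 : ∫⁻ z in K ∩ S, ENNReal.ofReal (‖u z‖ ^ 2) ≤ ∫⁻ z in K ∩ S,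
      (ENNReal.ofReal (2 * Real.exp B) * ENNReal.ofReal (‖u z - v z‖ ^ 2 * Real.exp (-ψ z)) +
        ENNReal.ofReal (2 * M ^ 2)) := by
    refine setLIntegral_mono' (hK.measurableSet.inter hS) fun z hz => ?_
    rw [← ENNReal.ofReal_mul (by positivity), ← ENNReal.ofReal_add (by positivity) (by positivity)]
    refine ENNReal.ofReal_le_ofReal ?_
    have e1 : 1 ≤ Real.exp B * Real.exp (-ψ z) := by
      rw [← Real.exp_add]
      exact Real.one_le_exp (by linarith [(abs_le.1 (hB z hz.1)).2])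
    have e2 := pow_le_pow_left₀ (norm_nonneg _) (norm_le_norm_sub_add (u z) (v z)) 2
    have e3 := pow_le_pow_left₀ (norm_nonneg _) (hM z hz.1) 2
    nlinarith [sq_nonneg (‖u z - v z‖ - ‖v z‖), mul_le_mul_of_nonneg_left e1 (sq_nonneg ‖u z - v z‖)]
  refine ne_top_of_le_ne_top ?_ h1
  rw [lintegral_add_right _ measurable_const, lintegral_const_mul' _ _ ENNReal.ofReal_ne_top,
    setLIntegral_const]
  exact ENNReal.add_ne_top.2 ⟨ENNReal.mul_ne_top ENNReal.ofReal_ne_top (ne_top_of_le_ne_top h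
    (lintegral_mono_set (inter_subset_inter_left _ hKU))), ENNReal.mul_ne_top ENNReal.ofReal_ne_top
    (ne_top_of_le_ne_top hK.measure_ne_top (measure_mono inter_subset_left))⟩

/-- The existence theorem on `X`. -/
theorem hx (ν : G.Nrm) {θ : G.I → X → ℂ} {φ : G.I → E n → ℝ} (hθ : G.Coc θ) (hφ : G.Wt θ φ)
    (i : G.I) {g : E n → ℂ} (hg : ContDiff ℝ ∞ g) (hc : HasCompactSupport g)
    (hs : tsupport g ⊆ (G.e i).target) {a : E n → ℝ} (ha : Measurable a) (ha0 : ∀ z, 0 ≤ a z)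
    (hga : ∀ z ∈ (G.e i).target, ∀ ξ, ‖db g z ξ‖ ^ 2 ≤ a z * levi (φ i) z ξ) :
    ∃ F ∈ G.Sec θ, ∫⁻ z in (G.e i).target,
      ENNReal.ofReal (‖G.rep θ i F z - g z‖ ^ 2 * Real.exp (-φ i z)) ≤
        2 * ∫⁻ z in (G.e i).target, ENNReal.ofReal (a z * Real.exp (-φ i z)) := by
  by_cases ht : ∫⁻ z in (G.e i).target, ENNReal.ofReal (a z * Real.exp (-φ i z)) = ⊤
  · exact ⟨0, zero_mem _, by simp [ht]⟩
  obtain ⟨T⟩ := ν.exists_shs hθ
  obtain ⟨F', hF', hle⟩ := ghx_W T hθ hφ i hg hc hs ha ha0 hga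
  have e : ∀ p : ν.W, Function.extend Subtype.val F' 0 p = F' p :=
    Subtype.val_injective.extend_apply F' 0
  generalize Function.extend Subtype.val F' 0 = F₀ at e
  have h1 := T.an_ext hθ hF' e
  have h2 := fun j => Nrm.cont_rep hθ hg.continuous hc hs j
  have h3 := fun j => (ghx_chart T hθ hφ j (h1 j) (h2 j)).trans (le_of_eq_of_le
    (congrArg (T.S.nn (ν.gw θ φ)) (funext fun p => by rw [e p]; rfl)) hle)
  obtain ⟨F, hF, hF0⟩ := ν.ext_sec hθ h1 fun j K hK hKs => by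
    have h4 : K ∩ (G.e j).symm ⁻¹' ν.W = K ∩ ((G.e j).target ∩ (G.e j).symm ⁻¹' ν.W) := by
      rw [← inter_assoc, inter_eq_left.2 hKs]
    rw [h4]
    refine ghx_loc (ghx_open ν j).measurableSet hK hKs (h2 j) (hφ.sm j).continuousOn ?_
    rw [← inter_assoc, inter_self]
    exact ne_top_of_le_ne_top (ENNReal.mul_ne_top ENNReal.ofNat_ne_top ht) (h3 j)
  refine ⟨F, hF, le_trans (le_of_eq ?_) (h3 i)⟩
  have h5 : ((G.e i).target : Set (E n)) =ᵐ[volume]
      ((G.e i).target ∩ (G.e i).symm ⁻¹' ν.W : Set (E n)) :=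
    ae_eq_set.2 ⟨by rw [sdiff_self_inter]; exact ν.null_W i,
      by rw [sdiff_eq_empty.2 inter_subset_left, measure_empty]⟩
  rw [setLIntegral_congr h5]
  refine setLIntegral_congr_fun (ghx_open ν i).measurableSet fun z hz => ?_
  have h6 := (G.e i).map_target hz.1
  simp only [Atl.rep, hF0 _ hz.2, indicator_of_mem h6, (G.e i).right_inv hz.1,
    mul_div_cancel₀ _ (hθ.ne i _ h6)]

end Geo
end Fuj
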