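import Vale.Agent.P271.GSht
import Vale.Agent.P271.GExt

/-! Extension of sections from the etale domain. -/

set_option linter.unusedSectionVars false

open MeasureTheory Set Filter Topology Metric
open scoped ENNReal ContDiff

noncomputable section
namespace Fuj
namespace Geo

open Atl

variable {n : ℕ} {X : Type*} [TopologicalSpace X] [T2Space X] [CompactSpace X] [ConnectedSpace X]
  [SecondCountableTopology X] [MeasurableSpace X] [BorelSpace X] {G : Geo n X}

namespace Nrm

variable (ν : G.Nrm)

variable {θ : G.I → X → ℂ}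

theorem ghx2_ne {i : G.I} {z : E n} (hz : z ∈ (G.e i).target) :
    G.rp (ν.k * G.q) i ν.cs z ≠ 0 ↔ (G.e i).symm z ∈ ν.W := by
  rw [rp_eq, mul_ne_zero_iff, and_iff_right (pow_ne_zero _ (G.coc.ne i _ ((G.e i).map_target hz)))]
  rfl

/-- `null_zero` for `rp i cs` (`ident`, `cs_ne`). -/
theorem null_W (i : G.I) : volume ((G.e i).target \ (G.e i).symm ⁻¹' ν.W) = 0 := by
  have h := null_zero (G.e i).open_target (rp_an ν.cs_R i) fun y hy h0 => by
    have hp := (G.e i).map_target hy
    have h1 : Tendsto (G.e i) (𝓝 ((G.e i).symm y)) (𝓝 y) := by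
      have h2 := ((G.e i).continuousAt hp).tendsto
      rwa [(G.e i).right_inv hy] at h2
    refine ν.cs_ne (ident (p := (G.e i).symm y) ν.cs_R ?_)
    filter_upwards [h1.eventually h0, ev_src hp] with x hx hxs
    rw [rp_apply _ _ hxs] at hx
    exact (mul_eq_zero.1 hx).resolve_left (pow_ne_zero _ (G.coc.ne i x hxs))
  refine measure_mono_null (fun z hz => ?_) h
  exact ⟨hz.1, not_not.1 fun h0 => hz.2 ((ν.ghx2_ne hz.1).1 h0)⟩

/-- `rs` on `V = target i` with `c = rp i cs` gives `H i`. Put `F p = H (idx p) (e p) / θ (idx p) p`.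
For `p` in two sources `H j (e j x) = (θ j x / θ i x) * H i (e i x)` holds on the dense set `W`, both
sides are continuous at `p`, so it holds at `p`. Hence `rep θ i F = H i` on the target
(`P274.analyticOnNhd_of_differentiableOn`). -/
theorem ext_sec (hθ : G.Coc θ) {F₀ : X → ℂ}
    (h1 : ∀ i, ∀ p ∈ ν.W, p ∈ (G.e i).source → G.An p fun x => θ i x * F₀ x)
    (h2 : ∀ i, ∀ K, IsCompact K → K ⊆ (G.e i).target →
      ∫⁻ z in K ∩ (G.e i).symm ⁻¹' ν.W, ENNReal.ofReal (‖G.rep θ i F₀ z‖ ^ 2) ≠ ⊤) :
    ∃ F ∈ G.Sec θ, ∀ p ∈ ν.W, F p = F₀ p := by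
  have key : ∀ i, ∃ H : E n → ℂ, AnalyticOnNhd ℂ H (G.e i).target ∧
      ∀ p ∈ ν.W, p ∈ (G.e i).source → H (G.e i p) = θ i p * F₀ p := by
    intro i
    obtain ⟨H, hH, he⟩ := rs (vol := volume) (c := G.rp (ν.k * G.q) i ν.cs) (F := G.rep θ i F₀)
      (G.e i).open_target (rp_an ν.cs_R i).differentiableOn
      (fun z hz => (((an_iff' hz.1).1 (h1 i _ ((ν.ghx2_ne hz.1).1 hz.2)
        ((G.e i).map_target hz.1))).differentiableAt).differentiableWithinAt)
      fun K hK hKs => ne_top_of_le_ne_top (h2 i K hK hKs)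
        (lintegral_mono_set fun z hz => ⟨hz.1, (ν.ghx2_ne (hKs hz.1)).1 hz.2⟩)
    refine ⟨H, Vale.Agent.P274.analyticOnNhd_of_differentiableOn (G.e i).open_target hH,
      fun p hp hi => ?_⟩
    have hz := (G.e i).map_source hi
    rw [he ⟨hz, (ν.ghx2_ne hz).2 (by rwa [(G.e i).left_inv hi])⟩, rep_apply _ _ hi]
  choose H hH he using key
  have han : ∀ i, ∀ p ∈ (G.e i).source, G.An p fun x => H i (G.e i x) := fun i p hi =>
    (an_e hi).comp (hH i _ ((G.e i).map_source hi))
  have hc : ∀ i j p, p ∈ (G.e i).source → p ∈ (G.e j).source →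
      H j (G.e j p) = θ j p / θ i p * H i (G.e i p) := by
    intro i j p hi hj
    refine tendsto_nhds_unique_of_frequently_eq (han j p hj).cont
      ((hθ.an hi hj).mul (han i p hi)).cont ?_
    refine ((mem_closure_iff_frequently.1 (ν.dense_W p)).and_eventually
      ((ev_src hi).and (ev_src hj))).mono fun x hx => ?_
    have h0 := hθ.ne i x hx.2.1
    rw [he j x hx.1 hx.2.2, he i x hx.1 hx.2.1]
    field_simp
  refine ⟨fun p => H (G.idx p) (G.e (G.idx p) p) / θ (G.idx p) p, mem_Sec.2 fun i p hi => ?_,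
    fun p hp => ?_⟩
  · refine (han i p hi).congr ?_
    filter_upwards [ev_src hi] with x hx
    rw [hc _ i x (G.mem_src x) hx]
    ring
  · have h0 := hθ.ne _ p (G.mem_src p)
    beta_reduce
    rw [he _ p hp (G.mem_src p)]
    field_simp

/-- In both cases of `Shs.smS`: the local form of `indicator source (g (e i ·) / θ i)` in the chart
`j` is continuous. -/
theorem cont_rep (hθ : G.Coc θ) {i : G.I} {g : E n → ℂ} (hg : Continuous g)
    (hc : HasCompactSupport g) (hs : tsupport g ⊆ (G.e i).target) (j : G.I) :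
    ContinuousOn (G.rep θ j ((G.e i).source.indicator fun p => g (G.e i p) / θ i p))
      (G.e j).target := by
  intro z hz
  have hp := (G.e j).map_target hz
  refine (ContinuousAt.comp (g := fun x => θ j x *
    (G.e i).source.indicator (fun p => g (G.e i p) / θ i p) x) ?_
    ((G.e j).continuousAt_symm hz)).continuousWithinAt
  generalize (G.e j).symm z = p at hp
  by_cases hi : p ∈ (G.e i).source
  · refine ((hθ.an hi hp).cont.mul (hg.continuousAt.comp ((G.e i).continuousAt hi))).congr ?_
    filter_upwards [ev_src hi] with x hx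
    rw [indicator_of_mem hx]
    simp only [Pi.mul_apply, Function.comp_apply]
    ring
  · have hL : IsCompact ((G.e i).symm '' tsupport g) :=
      hc.isCompact.image_of_continuousOn ((G.e i).continuousOn_symm.mono hs)
    have hpL : p ∉ (G.e i).symm '' tsupport g := by
      rintro ⟨w, hw, rfl⟩
      exact hi ((G.e i).map_target (hs hw))
    refine (continuousAt_const (y := (0 : ℂ))).congr ?_
    filter_upwards [hL.isClosed.isOpen_compl.mem_nhds hpL] with x hx
    by_cases hxi : x ∈ (G.e i).source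
    · rw [indicator_of_mem hxi, image_eq_zero_of_notMem_tsupport
        fun h => hx ⟨_, h, (G.e i).left_inv hxi⟩, zero_div, mul_zero]
    · rw [indicator_of_notMem hxi, mul_zero]

end Nrm
end Geo
end Fuj
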