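import Vale.Agent.P271.Geo

/-! Linear Noether normalisation. -/

set_option linter.unusedSectionVars false

open MeasureTheory Set Filter Topology Metric
open scoped ENNReal ContDiff

noncomputable section
namespace Fuj

section Aux

open MvPolynomial

variable {A : Type*} [CommRing A] [Algebra ℂ A] {d : ℕ}

theorem glin_map (y : Fin d → A) (k : ℕ) :
    Submodule.map (aeval y : MvPolynomial (Fin d) ℂ →ₐ[ℂ] A).toLinearMap
      (homogeneousSubmodule (Fin d) ℂ k) = Submodule.span ℂ (range y) ^ k := by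
  rw [← homogeneousSubmodule_one_pow, Submodule.map_pow, homogeneousSubmodule_one_eq_span_X,
    Submodule.map_span, ← range_comp]
  simp [Function.comp_def]

theorem glin_cong {y : Fin d → A} {a : Fin d → ℂ} {τ : A} {Y' : Submodule ℂ A}
    (hτ : τ ∈ Submodule.span ℂ (range y)) (hy : ∀ i, y i - a i • τ ∈ Y') {k : ℕ}
    {F : MvPolynomial (Fin d) ℂ} (hF : F ∈ homogeneousSubmodule (Fin d) ℂ k) :
    τ * aeval y F - eval a F • τ ^ (k + 1) ∈ Y' * Submodule.span ℂ (range y) ^ k := by
  rw [← homogeneousSubmodule_one_pow] at hF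
  induction hF using Submodule.pow_induction_on_left' with
  | algebraMap r => simp [Algebra.smul_def, mul_comm]
  | add u v i _ _ hu hv =>
    have := add_mem hu hv
    rw [map_add, map_add, mul_add, add_smul]
    rwa [sub_add_sub_comm] at this
  | mem_mul m hm i F hF ih =>
    have h1 : aeval y m - eval a m • τ ∈ Y' := by
      rw [homogeneousSubmodule_one_eq_span_X] at hm
      induction hm using Submodule.span_induction with
      | mem u hu => obtain ⟨j, rfl⟩ := hu; simpa using hy j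
      | zero => simp
      | add u v _ _ hu hv =>
        have := add_mem hu hv
        rw [map_add, map_add, add_smul]
        rwa [sub_add_sub_comm] at this
      | smul c u _ hu =>
        have := Y'.smul_mem c hu
        rwa [map_smul, smul_eval, mul_smul, ← smul_sub]
    have h2 : aeval y F ∈ Submodule.span ℂ (range y) ^ i := by
      rw [← glin_map]
      exact ⟨F, by rwa [homogeneousSubmodule_one_pow] at hF, rfl⟩
    have h3 := Submodule.mul_mem_mul h1 (Submodule.mul_mem_mul h2 hτ)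
    have h4 := Submodule.smul_mem _ (eval a m) (Submodule.mul_mem_mul ih hτ)
    rw [mul_assoc, ← pow_succ] at h4
    rw [← pow_succ] at h3
    have e : τ * aeval y (m * F) - eval a (m * F) • τ ^ (i.succ + 1) =
        (aeval y m - eval a m • τ) * (aeval y F * τ) +
          eval a m • ((τ * aeval y F - eval a F • τ ^ (i + 1)) * τ) := by
      simp only [map_mul, Algebra.smul_def, Nat.succ_eq_add_one]
      ring
    rw [e]
    exact add_mem h3 h4

theorem glin_iter {V Y : Submodule ℂ A} {r : ℕ} (h : V ^ (r + 1) ≤ Y * V ^ r) (j : ℕ) :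
    V ^ (r + j) ≤ Y ^ j * V ^ r := by
  induction j with
  | zero => simp
  | succ j ih =>
    calc V ^ (r + (j + 1)) = V ^ (r + 1) * V ^ j := by ring
      _ ≤ Y * V ^ r * V ^ j := mul_le_mul_left h _
      _ = Y * V ^ (r + j) := by ring
      _ ≤ Y * (Y ^ j * V ^ r) := mul_le_mul_right ih _
      _ = _ := by ring

theorem glin_step {V : Submodule ℂ A} {y : Fin (d + 1) → A} (hy : ∀ i, y i ∈ V) {r k : ℕ}
    (h : V ^ (r + 1) ≤ Submodule.span ℂ (range y) * V ^ r) {F : MvPolynomial (Fin (d + 1)) ℂ}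
    (hF : F.IsHomogeneous k) (h0 : aeval y F = 0) (hne : F ≠ 0) :
    ∃ y' : Fin d → A, (∀ i, y' i ∈ V) ∧ ∃ r', V ^ (r' + 1) ≤ Submodule.span ℂ (range y') * V ^ r' := by
  obtain ⟨a, ha⟩ : ∃ a, eval a (X 0 * F) ≠ 0 := by
    by_contra hc
    push Not at hc
    exact mul_ne_zero (X_ne_zero 0) hne (MvPolynomial.funext fun a => by rw [hc a, map_zero])
  rw [map_mul, eval_X] at ha
  have ha0 := left_ne_zero_of_mul ha
  have haF := right_ne_zero_of_mul ha
  set Y := Submodule.span ℂ (range y) with hY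
  have hYV : Y ≤ V := Submodule.span_le.2 (range_subset_iff.2 hy)
  set τ := (a 0)⁻¹ • y 0 with hτ
  have hτY : τ ∈ Y := Y.smul_mem _ (Submodule.subset_span ⟨0, rfl⟩)
  refine ⟨fun j => y j.succ - a j.succ • τ, fun j => sub_mem (hy _) (V.smul_mem _ (hYV hτY)),
    r + k, ?_⟩
  set Y' := Submodule.span ℂ (range fun j : Fin d => y j.succ - a j.succ • τ) with hY'
  have h1 : ∀ i, y i - a i • τ ∈ Y' := by
    refine Fin.cases ?_ fun j => Submodule.subset_span ⟨j, rfl⟩
    rw [hτ, smul_smul, mul_inv_cancel₀ ha0, one_smul, sub_self]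
    exact zero_mem _
  have h2 : τ ^ (k + 1) ∈ Y' * Y ^ k := by
    have := glin_cong hτY h1 ((mem_homogeneousSubmodule _ _).2 hF)
    rw [h0, mul_zero, zero_sub, neg_mem_iff] at this
    exact (Submodule.smul_mem_iff _ haF).1 this
  have h3 : Y * Y ^ k ≤ Y' * Y ^ k := by
    refine Submodule.mul_le.2 fun m hm u hu => ?_
    have h4 : τ * u ∈ Y' * Y ^ k := by
      rw [hY, ← glin_map] at hu
      obtain ⟨G, hG, rfl⟩ := hu
      simpa using add_mem (glin_cong hτY h1 hG) (Submodule.smul_mem _ (eval a G) h2)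
    induction hm using Submodule.span_induction with
    | mem v hv =>
      obtain ⟨i, rfl⟩ := hv
      simpa [sub_mul] using add_mem (Submodule.mul_mem_mul (h1 i) hu)
        (Submodule.smul_mem _ (a i) h4)
    | zero => simp
    | add v w _ _ hv hw => rw [add_mul]; exact add_mem hv hw
    | smul c v _ hv => rw [smul_mul_assoc]; exact Submodule.smul_mem _ _ hv
  calc V ^ (r + k + 1) = V ^ (r + (k + 1)) := by ring
    _ ≤ Y ^ (k + 1) * V ^ r := glin_iter h _
    _ = Y * Y ^ k * V ^ r := by ring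
    _ ≤ Y' * Y ^ k * V ^ r := mul_le_mul_left h3 _
    _ ≤ Y' * V ^ k * V ^ r := by gcongr
    _ = _ := by ring

end Aux

/-- `V = span (range x)`. Call `Y ≤ V` a reduction if `V ^ (r + 1) ≤ Y * V ^ r` for some `r`. Take a
reduction `Y` of minimal `finrank` and a basis `y` of it. If `F ≠ 0` is homogeneous of degree `k`
with `aeval y F = 0` then `k ≥ 1`; take `a` with `eval a F ≠ 0` (`MvPolynomial.funext`), `lam` the
linear form on `Y` with `lam (y i) = a i` (nonzero), `τ ∈ Y` with `lam τ = 1`, `Y' = ker lam`. A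
product `u₁ ⋯ u_k` of elements of `Y` is `(∏ lam u_i) • τ ^ k` modulo `Y' * Y ^ (k - 1)`. Hence
`τ ^ k ∈ Y' * Y ^ (k - 1)`, `Y ^ k ≤ Y' * Y ^ (k - 1)` and `V ^ (r + k) ≤ Y ^ k * V ^ r ≤ Y' * V ^ (r + k - 1)`,
contradicting minimality. -/
theorem lin_red {A : Type*} [CommRing A] [Nontrivial A] [Algebra ℂ A] {N : ℕ} (x : Fin N → A) :
    ∃ (d : ℕ) (y : Fin d → A), (∀ i, y i ∈ Submodule.span ℂ (range x)) ∧
      (∀ (k : ℕ) (F : MvPolynomial (Fin d) ℂ), F.IsHomogeneous k → MvPolynomial.aeval y F = 0 →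
        F = 0) ∧
      ∃ r : ℕ, Submodule.span ℂ (range x) ^ (r + 1) ≤
        Submodule.span ℂ (range y) * Submodule.span ℂ (range x) ^ r := by
  classical
  have hex : ∃ d : ℕ, ∃ y : Fin d → A, (∀ i, y i ∈ Submodule.span ℂ (range x)) ∧
      ∃ r : ℕ, Submodule.span ℂ (range x) ^ (r + 1) ≤
        Submodule.span ℂ (range y) * Submodule.span ℂ (range x) ^ r :=
    ⟨N, x, fun i => Submodule.subset_span ⟨i, rfl⟩, 0, by simp⟩
  obtain ⟨y, hy, r, hr⟩ := Nat.find_spec hex
  have hmin := fun m => Nat.find_min hex (m := m)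
  generalize Nat.find hex = d at y hy hr hmin
  refine ⟨d, y, hy, fun k F hF h0 => ?_, r, hr⟩
  by_contra hne
  cases d with
  | zero =>
    rw [MvPolynomial.eq_C_of_isEmpty F] at h0 hne
    rw [MvPolynomial.aeval_C, map_eq_zero_iff _ (algebraMap ℂ A).injective] at h0
    exact hne (by rw [h0, map_zero])
  | succ d => exact hmin d d.lt_succ_self (glin_step hy hr hF h0 hne)

/-- Make `A` an algebra over `T = MvPolynomial (Fin d) ℂ` by `aeval y`. The `T`-span `S` of
`V ^ 0 + ⋯ + V ^ r` is finitely generated and contains every `V ^ j` (induction), so it is (the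
submodule of) the subalgebra `adjoin T (range x)`; `IsIntegral.of_mem_of_fg`. -/
theorem lin_int {A : Type*} [CommRing A] [Algebra ℂ A] {N d r : ℕ} {x : Fin N → A} {y : Fin d → A}
    (h : Submodule.span ℂ (range x) ^ (r + 1) ≤
      Submodule.span ℂ (range y) * Submodule.span ℂ (range x) ^ r) (a : Fin N) :
    ∃ χ : Polynomial (MvPolynomial (Fin d) ℂ), χ.Monic ∧
      χ.eval₂ (MvPolynomial.aeval y : MvPolynomial (Fin d) ℂ →ₐ[ℂ] A).toRingHom (x a) = 0 := by
  let : Algebra (MvPolynomial (Fin d) ℂ) A :=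
    (MvPolynomial.aeval y : MvPolynomial (Fin d) ℂ →ₐ[ℂ] A).toRingHom.toAlgebra
  have : IsScalarTower ℂ (MvPolynomial (Fin d) ℂ) A :=
    IsScalarTower.of_algebraMap_eq fun c =>
      ((MvPolynomial.aeval y : MvPolynomial (Fin d) ℂ →ₐ[ℂ] A).commutes c).symm
  set V := Submodule.span ℂ (range x) with hV
  have hfg : (⨆ j : Fin (r + 1), V ^ (j : ℕ)).FG :=
    Submodule.fg_iSup _ fun j => (Submodule.fg_span (finite_range x)).pow _
  obtain ⟨s, hs⟩ := hfg
  set S := Submodule.span (MvPolynomial (Fin d) ℂ) (s : Set A) with hS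
  have h1 : ∀ j, V ^ j ≤ S.restrictScalars ℂ := by
    intro j
    induction j with
    | zero =>
      refine le_trans (le_iSup (fun j : Fin (r + 1) => V ^ (j : ℕ)) 0) ?_
      rw [← hs]
      exact Submodule.span_le_restrictScalars _ _ _
    | succ j ih =>
      rcases lt_or_ge j r with hj | hj
      · refine le_trans (le_iSup (fun j : Fin (r + 1) => V ^ (j : ℕ)) ⟨j + 1, by omega⟩) ?_
        rw [← hs]
        exact Submodule.span_le_restrictScalars _ _ _
      · obtain ⟨i, rfl⟩ := Nat.exists_eq_add_of_le hj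
        calc V ^ (r + i + 1) = V ^ (r + 1) * V ^ i := by ring
          _ ≤ Submodule.span ℂ (range y) * V ^ r * V ^ i := mul_le_mul_left h _
          _ = Submodule.span ℂ (range y) ^ 1 * V ^ (r + i) := by ring
          _ ≤ _ := by
            refine Submodule.mul_le.2 fun m hm u hu => ?_
            rw [← glin_map] at hm
            obtain ⟨G, -, rfl⟩ := hm
            exact S.smul_mem G (ih hu)
  have h2 : (Algebra.adjoin (MvPolynomial (Fin d) ℂ) {x a}).toSubmodule ≤ S := by
    rw [Algebra.adjoin_eq_span, Submodule.span_le]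
    intro u hu
    obtain ⟨j, rfl⟩ := Submonoid.mem_closure_singleton.1 hu
    exact h1 j (Submodule.pow_mem_pow V (Submodule.subset_span (mem_range_self a)) j)
  exact IsIntegral.of_mem_of_fg _ (Submodule.FG.of_le ⟨s, rfl⟩ h2) _
    (Algebra.self_mem_adjoin_singleton _ _)

/-- Take a nonzero `μ` of minimal degree vanishing at `x`; its degree is positive by injectivity, so
`μ'` is nonzero of smaller degree and `μ' (x) ≠ 0`. `μ' (x)` is integral (a polynomial in `x`), so
`IsAlgebraic.exists_nonzero_dvd` applies. -/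
theorem sep_norm {A : Type*} [CommRing A] [IsDomain A] [Algebra ℂ A] {d : ℕ} {y : Fin d → A}
    (hy : ∀ F : MvPolynomial (Fin d) ℂ, MvPolynomial.aeval y F = 0 → F = 0) {x : A}
    {χ : Polynomial (MvPolynomial (Fin d) ℂ)} (hm : χ.Monic)
    (h0 : χ.eval₂ (MvPolynomial.aeval y : MvPolynomial (Fin d) ℂ →ₐ[ℂ] A).toRingHom x = 0) :
    ∃ (μ : Polynomial (MvPolynomial (Fin d) ℂ)) (c : MvPolynomial (Fin d) ℂ) (x' : A), c ≠ 0 ∧
      μ.eval₂ (MvPolynomial.aeval y : MvPolynomial (Fin d) ℂ →ₐ[ℂ] A).toRingHom x = 0 ∧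
      μ.derivative.eval₂ (MvPolynomial.aeval y : MvPolynomial (Fin d) ℂ →ₐ[ℂ] A).toRingHom x * x' =
        MvPolynomial.aeval y c := by
  let : Algebra (MvPolynomial (Fin d) ℂ) A :=
    (MvPolynomial.aeval y : MvPolynomial (Fin d) ℂ →ₐ[ℂ] A).toRingHom.toAlgebra
  have : FaithfulSMul (MvPolynomial (Fin d) ℂ) A :=
    (faithfulSMul_iff_algebraMap_injective _ _).2 ((injective_iff_map_eq_zero _).2 hy)
  have hx : IsIntegral (MvPolynomial (Fin d) ℂ) x := ⟨χ, hm, h0⟩
  set μ := minpoly (MvPolynomial (Fin d) ℂ) x with hμ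
  have h1 : μ.derivative ≠ 0 := fun h =>
    (minpoly.natDegree_pos hx).ne' (Polynomial.derivative_eq_zero.1 h)
  have h2 : Polynomial.aeval x μ.derivative ≠ 0 := fun h =>
    (minpoly.IsIntegrallyClosed.degree_le_of_ne_zero h1 h).not_gt
      (Polynomial.degree_derivative_lt (minpoly.ne_zero hx))
  have h3 : IsIntegral (MvPolynomial (Fin d) ℂ) (Polynomial.aeval x μ.derivative) :=
    IsIntegral.of_mem_of_fg _ hx.fg_adjoin_singleton _ (Polynomial.aeval_mem_adjoin_singleton _ _)
  obtain ⟨c, hc, x', hx'⟩ := h3.isAlgebraic.exists_nonzero_dvd (mem_nonZeroDivisors_of_ne_zero h2)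
  exact ⟨μ, c, x', hc, minpoly.aeval _ x, hx'.symm⟩

end Fuj
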