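import Vale.Agent.P271.GRoots0

/-! Integral equations. -/

set_option linter.unusedSectionVars false

open MeasureTheory Set Filter Topology Metric
open scoped ENNReal ContDiff

noncomputable section
namespace Fuj
namespace Geo

open Atl

variable {n : ℕ} {X : Type*} [TopologicalSpace X] [T2Space X] [CompactSpace X] [ConnectedSpace X]
  [SecondCountableTopology X] [MeasurableSpace X] [BorelSpace X] {G : Geo n X}

namespace Nrm

variable (ν : G.Nrm)

/-- Sequences (or an ultrafilter): `p_j → p`, `|l_j|` is bounded since `∑ ‖y a p‖ ≥ δ`; in a chart `i`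
at `p` put `l'_j = l_j / τ i p_j ^ q`, which is bounded (`cont_τ`), pass to a limit `l'`; the functions
`τ i ^ q * y a`, `τ i ^ (k q) * s` are continuous at `p` (`mem_R`, `An.cont`). `X` is metrizable or at
least first countable (`IsCompact.tendsto_subseq`). -/
theorem isClosed_cone {k : ℕ} {s : X → ℂ} (hs : s ∈ G.R (k * G.q)) :
    IsClosed {u : (Fin (n + 1) → ℂ) × ℂ | ∃ (p : X) (l : ℂ), (∀ i, u.1 i = l * ν.y i p) ∧
      u.2 = l ^ k * s p} := by
  let Ψ : G.I → X × ℂ → (Fin (n + 1) → ℂ) × ℂ := fun i x =>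
    (x.2 • fun a => G.τ i x.1 ^ G.q * ν.y a x.1, x.2 ^ k * (G.τ i x.1 ^ (k * G.q) * s x.1))
  have e : {u : (Fin (n + 1) → ℂ) × ℂ | ∃ (p : X) (l : ℂ), (∀ i, u.1 i = l * ν.y i p) ∧
      u.2 = l ^ k * s p} = ⋃ i, Ψ i '' (G.K i ×ˢ univ) := by
    ext u
    simp only [mem_setOf_eq, mem_iUnion]
    constructor
    · rintro ⟨p, l, h1, h2⟩
      have h3 := pow_ne_zero G.q (G.coc.ne _ p (G.mem_src p))
      refine ⟨G.idx p, (p, l / G.τ (G.idx p) p ^ G.q), ⟨G.idx_mem p, trivial⟩,
        Prod.ext (funext fun a => ?_) ?_⟩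
      · simp only [Ψ, Pi.smul_apply, smul_eq_mul, h1]
        field_simp
      · simp only [Ψ, h2, mul_comm k, pow_mul, div_pow]
        field_simp
    · rintro ⟨i, ⟨p, l⟩, -, rfl⟩
      refine ⟨p, l * G.τ i p ^ G.q, fun a => ?_, ?_⟩
      · simp only [Ψ, Pi.smul_apply, smul_eq_mul]
        ring
      · simp only [Ψ]
        ring
  rw [e]
  refine isClosed_iUnion_of_finite fun i => isClosed_of_closure_subset fun u hu => ?_
  have c1 : ContinuousOn (fun p a => G.τ i p ^ G.q * ν.y a p) (G.K i) := fun p hp =>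
    (continuousAt_pi.2 fun a => (mem_R.1 (ν.y_R a) i p (G.K_sub i hp)).cont).continuousWithinAt
  have c2 : ContinuousOn (fun p => G.τ i p ^ (k * G.q) * s p) (G.K i) := fun p hp =>
    (mem_R.1 hs i p (G.K_sub i hp)).cont.continuousWithinAt
  obtain ⟨δ, hδ, h1⟩ := (G.K_cpt i).exists_forall_le' c1.norm (a := 0) fun p hp => by
    obtain ⟨a, ha⟩ := ν.nz p
    exact norm_pos_iff.2 fun h =>
      mul_ne_zero (pow_ne_zero _ (G.coc.ne i p (G.K_sub i hp))) ha (congrFun h a)
  have h2 : IsCompact (Ψ i '' (G.K i ×ˢ closedBall 0 ((‖u.1‖ + 1) / δ))) :=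
    ((G.K_cpt i).prod (isCompact_closedBall _ _)).image_of_continuousOn
      ((continuousOn_snd.smul (c1.comp continuousOn_fst fun _ h => h.1)).prodMk
        ((continuousOn_snd.pow k).mul (c2.comp continuousOn_fst fun _ h => h.1)))
  refine image_mono (prod_mono_right (subset_univ _)) (h2.isClosed.closure_subset
    (closure_mono ?_ (isOpen_ball.inter_closure ⟨mem_ball_self one_pos, hu⟩)))
  rintro _ ⟨h3, ⟨p, l⟩, ⟨hp, -⟩, rfl⟩
  refine ⟨(p, l), ⟨hp, mem_closedBall_zero_iff.2 ((le_div_iff₀ hδ).2 ?_)⟩, rfl⟩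
  have h4 : ‖(Ψ i (p, l)).1 - u.1‖ < 1 :=
    (norm_fst_le (Ψ i (p, l) - u)).trans_lt (mem_ball_iff_norm.1 h3)
  have h5 := norm_sub_norm_le (Ψ i (p, l)).1 u.1
  have h6 : ‖l‖ * δ ≤ ‖(Ψ i (p, l)).1‖ := by
    simp only [Ψ, norm_smul]
    exact mul_le_mul_of_nonneg_left (h1 p hp) (norm_nonneg _)
  change ‖l‖ * δ ≤ _
  linarith

theorem groots_freq {d : ℕ} {a : MvPolynomial (Fin d) ℂ} (ha : a ≠ 0) (ζ₀ : E d) :
    ∃ᶠ ζ in 𝓝 ζ₀, MvPolynomial.eval ζ a ≠ 0 := by
  rw [Filter.Frequently]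
  intro h
  refine ha (MvPolynomial.funext fun x => ?_)
  have := (AnalyticOnNhd.eval_mvPolynomial a).eqOn_zero_of_preconnected_of_eventuallyEq_zero
    isPreconnected_univ (mem_univ ζ₀) (h.mono fun ζ h => not_not.1 h) (mem_univ x)
  simpa using this

/-- the value of the equation -/
def groots_P (D : ℕ) (Q : ℕ → MvPolynomial (Fin (n + 1)) ℂ) (T : Fin (n + 1) → ℂ) (Y : ℂ) : ℂ :=
  Y ^ D + ∑ j ∈ Finset.range D, MvPolynomial.eval T (Q j) * Y ^ j

theorem groots_hom {D k : ℕ} {Q : ℕ → MvPolynomial (Fin (n + 1)) ℂ}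
    (hQ : ∀ j, (Q j).IsHomogeneous ((D - j) * k)) (T : Fin (n + 1) → ℂ) (Y l : ℂ) :
    groots_P D Q (fun a => l * T a) (l ^ k * Y) = (l ^ k) ^ D * groots_P D Q T Y := by
  simp only [groots_P, mul_add, Finset.mul_sum, mul_pow]
  refine congrArg _ (Finset.sum_congr rfl fun j hj => ?_)
  obtain ⟨r, rfl⟩ := Nat.exists_eq_add_of_le (Finset.mem_range.1 hj).le
  rw [eval_smul (hQ j), Nat.add_sub_cancel_left]
  ring

/-- `χ = X ^ D + ∑ j < D, monomial j (Q j)`. For `C (T) ≠ 0`, `z = T.succ / T 0`: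
`χ (T, Y) = ∏ p ∈ fibre z, (Y - (T 0 / y 0 p) ^ k * s p)` (homogeneity `eval_smul`; `fp` is monic of
degree `D`). Fourth clause: by homogeneity `χ (l y p, l ^ k s p) = l ^ (D k) χ (y p, s p)`, and
`p ↦ χ (y p, s p)` is a section in `R (D k q)` vanishing on the nonempty open set `W` (`ident`).
Fifth clause: `{C ≠ 0}` is dense; if `χ (T, Y) = 0` and `T' → T` then the product
`∏ (Y - root) = χ (T', Y) → 0`, so some root tends to `Y` (if `D = 0` there is no root);
`isClosed_cone`. -/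
theorem roots : G.RootsS ν.y := by
  obtain ⟨D, hD⟩ := ν.card_const
  refine ⟨D, fun k s hs => ?_⟩
  choose Q hQ hQ' using ν.coeff_poly hD hs
  have hdeg : (∑ j ∈ Finset.range D, Polynomial.monomial j (Q j)).degree < D :=
    (Polynomial.degree_sum_le _ _).trans_lt ((Finset.sup_lt_iff (WithBot.bot_lt_coe D)).2
      fun j hj => (Polynomial.degree_monomial_le _ _).trans_lt
        (WithBot.coe_lt_coe.2 (Finset.mem_range.1 hj)))
  have hev : ∀ T Y, (Polynomial.X ^ D + ∑ j ∈ Finset.range D, Polynomial.monomial j (Q j)).eval₂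
      (MvPolynomial.eval T) Y = groots_P D Q T Y := fun T Y => by
    simp only [groots_P, Polynomial.eval₂_add, Polynomial.eval₂_X_pow, Polynomial.eval₂_finsetSum,
      Polynomial.eval₂_monomial]
  have hfp : ∀ z, ν.c z ≠ 0 → ∀ Y, groots_P D Q (Fin.cons 1 z) Y =
      ∏ p ∈ (ν.fibre_finite z).toFinset, (Y - s p / ν.y 0 p ^ k) := fun z hz Y => by
    have h1 : (ν.fp k s z).Monic :=
      Polynomial.monic_prod_of_monic _ _ fun p _ => Polynomial.monic_X_sub_C _
    have h2 : (ν.fp k s z).natDegree = D := by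
      rw [fp, Polynomial.natDegree_finsetProd_X_sub_C_eq_card, hD z hz]
    have h3 := Polynomial.eval_eq_sum_range (p := ν.fp k s z) Y
    rw [Finset.sum_range_succ, h1.coeff_natDegree, h2] at h3
    simp only [hQ' _ z hz] at h3
    rw [groots_P, add_comm, ← one_mul (Y ^ D), ← h3, fp, Polynomial.eval_prod]
    simp
  refine ⟨_, Polynomial.monic_X_pow_add hdeg, ?_, fun j => ?_, fun p l => ?_, fun T Y h => ?_⟩
  · rw [Polynomial.natDegree_add_eq_left_of_degree_lt (by rwa [Polynomial.degree_X_pow]),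
      Polynomial.natDegree_X_pow]
  · simp only [Polynomial.coeff_add, Polynomial.coeff_X_pow, Polynomial.finsetSum_coeff,
      Polynomial.coeff_monomial, Finset.sum_ite_eq', Finset.mem_range]
    rcases lt_trichotomy j D with h | rfl | h
    · rw [if_neg h.ne, if_pos h, zero_add]
      exact hQ j
    · rw [if_pos rfl, if_neg (lt_irrefl _), add_zero, Nat.sub_self, zero_mul]
      exact MvPolynomial.isHomogeneous_one _ _
    · rw [if_neg h.ne', if_neg h.not_gt, add_zero]
      exact MvPolynomial.isHomogeneous_zero _ _ _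
  · have h1 : (fun p => groots_P D Q (fun a => ν.y a p) (s p)) ∈ G.R (D * (k * G.q)) := by
      have e : (fun p => groots_P D Q (fun a => ν.y a p) (s p)) = s ^ D +
          ∑ j ∈ Finset.range D, (fun p => MvPolynomial.eval (fun a => ν.y a p) (Q j)) * s ^ j :=
        funext fun p => by simp [groots_P]
      rw [e]
      refine add_mem (R_pow hs D) (Submodule.sum_mem _ fun j hj => ?_)
      obtain ⟨r, rfl⟩ := Nat.exists_eq_add_of_le (Finset.mem_range.1 hj).le
      have := R_mul (hom_mem ν.y_R (hQ j)) (R_pow hs j)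
      rwa [Nat.add_sub_cancel_left,
        show r * k * G.q + j * (k * G.q) = (j + r) * (k * G.q) by ring] at this
    obtain ⟨p₀, hp₀⟩ := ν.dense_W.nonempty
    have h2 := ident (p := p₀) h1 (by
      filter_upwards [ν.isOpen_W.mem_nhds hp₀] with x hx
      obtain ⟨h3, h4⟩ := ν.mem_W.1 hx
      have h5 : s x = ν.y 0 x ^ k * (s x / ν.y 0 x ^ k) := by field_simp
      rw [funext (ν.cons_w h3), h5, groots_hom hQ, hfp _ h4,
        Finset.prod_eq_zero (i := x) ((Finite.mem_toFinset (ν.fibre_finite (ν.w x))).2 ⟨h3, rfl⟩)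
          (sub_self _), mul_zero])
    rw [hev, groots_hom hQ, congrFun h2 p]
    exact mul_zero _
  · rw [hev] at h
    refine (ν.isClosed_cone hs).closure_subset (a := (T, Y)) (Metric.mem_closure_iff.2 fun ε hε => ?_)
    have c1 : Continuous fun T' => groots_P D Q T' Y :=
      continuous_const.add (continuous_finsetSum _ fun j _ =>
        (MvPolynomial.continuous_eval _).mul continuous_const)
    have h1 : ∀ᶠ T' in 𝓝 T, ‖groots_P D Q T' Y‖ < ε ^ D :=
      c1.norm.continuousAt.eventually_lt continuousAt_const (by simpa [h] using pow_pos hε D)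
    obtain ⟨T', h2, h3, h4⟩ :=
      ((groots_freq ν.ne T).and_eventually (h1.and (ball_mem_nhds T hε))).exists
    have h5 := ν.c0 T' h2
    have h6 : T' = fun a => T' 0 * (Fin.cons 1 (fun j => T' j.succ / T' 0) : Fin (n + 1) → ℂ) a :=
      funext fun a => Fin.cases (by simp) (fun j => by simp only [Fin.cons_succ]; field_simp) a
    have h7 : ν.c (fun j => T' j.succ / T' 0) ≠ 0 := fun h7 => h2 (by
      rw [h6, eval_smul ν.hom]
      exact mul_eq_zero_of_right _ h7)
    have h8 : groots_P D Q T' Y = ∏ p ∈ (ν.fibre_finite fun j => T' j.succ / T' 0).toFinset,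
        (Y - (T' 0 / ν.y 0 p) ^ k * s p) := by
      have h9 := groots_hom hQ (Fin.cons 1 fun j => T' j.succ / T' 0) (Y / T' 0 ^ k) (T' 0)
      rw [← h6, mul_div_cancel₀ _ (pow_ne_zero k h5), hfp _ h7] at h9
      rw [h9, ← hD _ h7, ← Finset.prod_const, ← Finset.prod_mul_distrib]
      refine Finset.prod_congr rfl fun p _ => ?_
      rw [div_pow]
      field_simp
    by_contra h9
    refine absurd h3 (not_lt.2 ?_)
    rw [h8, norm_prod, ← hD _ h7, ← Finset.prod_const]
    refine Finset.prod_le_prod (fun _ _ => hε.le) fun p hp => not_lt.1 fun h10 => h9 ?_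
    obtain ⟨h11, h12⟩ := (Finite.mem_toFinset _).1 hp
    refine ⟨(T', (T' 0 / ν.y 0 p) ^ k * s p), ⟨p, T' 0 / ν.y 0 p, fun a => ?_, rfl⟩, ?_⟩
    · rw [ν.cons_w h11 a, h12, ← mul_assoc, div_mul_cancel₀ _ h11]
      exact congrFun h6 a
    · rw [Prod.dist_eq, max_lt_iff, dist_comm T]
      exact ⟨h4, by rwa [dist_eq_norm]⟩

end Nrm
end Geo
end Fuj
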