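import Vale.Agent.P271.TTop
import Vale.Agent.P271.GSieg
import Vale.Agent.P271.GNrm
import Vale.Agent.P271.GRoots
import Vale.Agent.P271.GChow
import Vale.Agent.P271.GG1
import Vale.Agent.P271.GG2

/-! The manifold layer, collected. -/

namespace Fuj

universe u

theorem g_PartG : PartG.{u} := fun _ _ _ _ _ _ _ _ _ G _ =>
  ⟨G.siegel, G.grow, G.exists_nrm.elim fun ν => ⟨ν, ν.roots⟩, G.chow, G.g1, G.g2, G.bpf⟩

end Fuj
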