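import Vale.Agent.P271.GBase2
import Vale.Agent.P271.GLin

/-! The normalisation on the cone. -/

set_option linter.unusedSectionVars false

open MeasureTheory Set Filter Topology Metric
open scoped ENNReal ContDiff

noncomputable section
namespace Fuj
namespace Geo

open Atl

variable {n : ℕ} {X : Type*} [TopologicalSpace X] [T2Space X] [CompactSpace X] [ConnectedSpace X]
  [SecondCountableTopology X] [MeasurableSpace X] [BorelSpace X] {G : Geo n X}

theorem gnrm0_poly {ι : Type*} [Fintype ι] (F : MvPolynomial ι ℂ) (T : ι → ℂ) :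
    ∃ P : Polynomial ℂ, (∀ l, P.eval l = MvPolynomial.eval (fun a => l * T a) F) ∧
      ∀ k, P.coeff k = MvPolynomial.eval T (MvPolynomial.homogeneousComponent k F) := by
  refine ⟨∑ k ∈ Finset.range (F.totalDegree + 1),
    Polynomial.monomial k (MvPolynomial.eval T (MvPolynomial.homogeneousComponent k F)),
    fun l => ?_, fun k => ?_⟩
  · conv_rhs => rw [← MvPolynomial.sum_homogeneousComponent F]
    rw [Polynomial.eval_finsetSum, map_sum]
    refine Finset.sum_congr rfl fun k _ => ?_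
    rw [Polynomial.eval_monomial,
      Nrm.eval_smul (MvPolynomial.homogeneousComponent_isHomogeneous k F), mul_comm]
  · rw [Polynomial.finsetSum_coeff]
    simp only [Polynomial.coeff_monomial, Finset.sum_ite_eq', Finset.mem_range]
    split_ifs with h
    · rfl
    · rw [MvPolynomial.homogeneousComponent_eq_zero k F (by omega), map_zero]

/-- Expand in homogeneous components: `eval (l • T) F = ∑ k, l ^ k * eval T (F_k)`
(`Nrm.eval_smul`, `sum_homogeneousComponent`) is a polynomial in `l`. -/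
theorem cone_comp {ι : Type*} [Fintype ι] (F : MvPolynomial ι ℂ) (T : ι → ℂ) :
    (∀ l : ℂ, l ≠ 0 → MvPolynomial.eval (fun a => l * T a) F = 0) ↔
      ∀ k, MvPolynomial.eval T (MvPolynomial.homogeneousComponent k F) = 0 := by
  obtain ⟨P, h1, h2⟩ := gnrm0_poly F T
  constructor
  · intro h k
    have hP : P = 0 := by
      apply Polynomial.eq_zero_of_infinite_isRoot
      refine (Set.Finite.infinite_compl (Set.finite_singleton (0 : ℂ))).mono fun l hl => ?_
      change P.eval l = 0
      rw [h1]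
      exact h l hl
    rw [← h2, hP, Polynomial.coeff_zero]
  · intro h l _
    have hP : P = 0 := Polynomial.ext fun k => by rw [h2, h, Polynomial.coeff_zero]
    rw [← h1, hP, Polynomial.eval_zero]

theorem gnrm0_aeval {ι Z : Type*} (x : ι → Z → ℂ) (F : MvPolynomial ι ℂ) (z : Z) :
    MvPolynomial.aeval x F z = MvPolynomial.eval (fun a => x a z) F := by
  induction F using MvPolynomial.induction_on with
  | C c => simp
  | add a b ha hb => simp [ha, hb]
  | mul_X a i ha => simp [ha]

theorem gnrm0_comp {ι : Type*} [Fintype ι] {F : MvPolynomial ι ℂ} {T : ι → ℂ} {l : ℂ}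
    (h : MvPolynomial.eval (fun a => l * T a) F ≠ 0) :
    ∃ k, MvPolynomial.eval T (MvPolynomial.homogeneousComponent k F) ≠ 0 := by
  obtain ⟨P, h1, h2⟩ := gnrm0_poly F T
  by_contra hk
  push Not at hk
  have hP : P = 0 := Polynomial.ext fun k => by rw [h2, hk, Polynomial.coeff_zero]
  rw [← h1, hP, Polynomial.eval_zero] at h
  exact h rfl

/-- The functions `(p, l) ↦ l * t a p` generate a domain. Elements are `aeval t F`. If `F`, `F'` do
not vanish on the cone, some components `F_k (t)`, `F'_j (t)` are nonzero sections (`hom_mem`), so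
they are both nonzero at some point `p` (`dom`); two nonzero polynomials in `l` have a common
non-root. -/
theorem cone_dom (G : Geo n X) :
    IsDomain (Algebra.adjoin ℂ (range fun a (x : X × ℂ) => x.2 * G.t a x.1)) := by
  set A := Algebra.adjoin ℂ (range fun a (x : X × ℂ) => x.2 * G.t a x.1) with hA
  have hrep : ∀ u : A, ∃ F : MvPolynomial (Fin (G.N + 1)) ℂ, ∀ (p : X) (l : ℂ),
      (u : X × ℂ → ℂ) (p, l) = MvPolynomial.eval (fun a => l * G.t a p) F := by
    rintro ⟨u, hu⟩
    rw [hA, Algebra.adjoin_range_eq_range_aeval] at hu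
    obtain ⟨F, rfl⟩ := hu
    exact ⟨F, fun p l => gnrm0_aeval _ F (p, l)⟩
  have hne : ∀ u : A, u ≠ 0 → ∃ p l, (u : X × ℂ → ℂ) (p, l) ≠ 0 := by
    intro u hu
    by_contra hc
    push Not at hc
    exact hu (Subtype.ext (funext fun z => hc z.1 z.2))
  have : Nontrivial (X × ℂ → ℂ) :=
    ⟨⟨0, 1, fun e => by simpa using congrFun e (Classical.arbitrary X, 0)⟩⟩
  have : NoZeroDivisors A := ⟨by
    intro a b hab
    by_contra hc
    push Not at hc
    obtain ⟨F, hF⟩ := hrep a
    obtain ⟨F', hF'⟩ := hrep b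
    obtain ⟨p, l, h1⟩ := hne a hc.1
    obtain ⟨p', l', h1'⟩ := hne b hc.2
    rw [hF] at h1
    rw [hF'] at h1'
    obtain ⟨k, hk⟩ := gnrm0_comp h1
    obtain ⟨k', hk'⟩ := gnrm0_comp h1'
    have hs := hom_mem (G.t_mem') (MvPolynomial.homogeneousComponent_isHomogeneous k F)
    have hs' := hom_mem (G.t_mem') (MvPolynomial.homogeneousComponent_isHomogeneous k' F')
    have h2 : ∃ z, MvPolynomial.eval (fun a => G.t a z) (MvPolynomial.homogeneousComponent k F) *
        MvPolynomial.eval (fun a => G.t a z) (MvPolynomial.homogeneousComponent k' F') ≠ 0 := by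
      by_contra hz
      push Not at hz
      rcases dom hs hs' (funext hz) with h | h
      · exact hk (congrFun h p)
      · exact hk' (congrFun h p')
    obtain ⟨z, hz⟩ := h2
    obtain ⟨P, hP1, hP2⟩ := gnrm0_poly F fun a => G.t a z
    obtain ⟨P', hP1', hP2'⟩ := gnrm0_poly F' fun a => G.t a z
    have h3 : P * P' = 0 := by
      apply Polynomial.funext
      intro w
      rw [Polynomial.eval_mul, hP1, hP1', ← hF, ← hF', Polynomial.eval_zero]
      exact congrFun (congrArg Subtype.val hab) (z, w)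
    rcases mul_eq_zero.1 h3 with h | h
    · apply left_ne_zero_of_mul hz
      rw [← hP2, h, Polynomial.coeff_zero]
    · apply right_ne_zero_of_mul hz
      rw [← hP2', h, Polynomial.coeff_zero]⟩
  exact NoZeroDivisors.to_isDomain A

/-- the cone algebra -/
def gnrm0_A (G : Geo n X) : Subalgebra ℂ (X × ℂ → ℂ) :=
  Algebra.adjoin ℂ (range fun a (x : X × ℂ) => x.2 * G.t a x.1)

/-- its generators -/
def gnrm0_x (G : Geo n X) (a : Fin (G.N + 1)) : gnrm0_A G :=
  ⟨fun z => z.2 * G.t a z.1, Algebra.subset_adjoin ⟨a, rfl⟩⟩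

/-- evaluation at a point of the cone -/
def gnrm0_ev (G : Geo n X) (p : X) (l : ℂ) : gnrm0_A G →+* ℂ :=
  (Pi.evalRingHom (fun _ : X × ℂ => ℂ) (p, l)).comp (gnrm0_A G).val.toRingHom

theorem gnrm0_ev_x (p : X) (l : ℂ) (a : Fin (G.N + 1)) :
    gnrm0_ev G p l (gnrm0_x G a) = l * G.t a p := rfl

theorem gnrm0_ev_zero {u : gnrm0_A G} (h : ∀ p l, gnrm0_ev G p l u = 0) : u = 0 :=
  Subtype.ext (funext fun z => h z.1 z.2)

theorem gnrm0_ev_smul (p : X) (l c : ℂ) (u : gnrm0_A G) :
    gnrm0_ev G p l (c • u) = c * gnrm0_ev G p l u := rfl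

theorem gnrm0_span {u : gnrm0_A G} (hu : u ∈ Submodule.span ℂ (range (gnrm0_x G))) :
    (fun p => gnrm0_ev G p 1 u) ∈ Submodule.span ℂ (range G.t) ∧
      ∀ p l, gnrm0_ev G p l u = l * gnrm0_ev G p 1 u := by
  induction hu using Submodule.span_induction with
  | mem u hu =>
    obtain ⟨a, rfl⟩ := hu
    refine ⟨Submodule.subset_span ⟨a, funext fun p => ?_⟩, fun p l => ?_⟩
    · rw [gnrm0_ev_x, one_mul]
    · rw [gnrm0_ev_x, gnrm0_ev_x, one_mul]
  | zero =>
    refine ⟨?_, fun p l => by simp⟩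
    simp only [map_zero]
    exact Submodule.zero_mem _
  | add a b _ _ ha hb =>
    refine ⟨?_, fun p l => by rw [map_add, map_add, ha.2, hb.2 p l, mul_add]⟩
    simp only [map_add]
    exact Submodule.add_mem _ ha.1 hb.1
  | smul c a _ ha =>
    refine ⟨?_, fun p l => by rw [gnrm0_ev_smul, gnrm0_ev_smul, ha.2, mul_left_comm]⟩
    simp only [gnrm0_ev_smul]
    exact Submodule.smul_mem _ c ha.1

theorem gnrm0_ev_comp {d : ℕ} {y : Fin d → gnrm0_A G}
    (hy : ∀ i, y i ∈ Submodule.span ℂ (range (gnrm0_x G))) (p : X) (l : ℂ) :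
    (gnrm0_ev G p l).comp
      (MvPolynomial.aeval y : MvPolynomial (Fin d) ℂ →ₐ[ℂ] gnrm0_A G).toRingHom =
      MvPolynomial.eval fun i => l * gnrm0_ev G p 1 (y i) := by
  apply MvPolynomial.ringHom_ext
  · intro r
    simp [gnrm0_ev]
  · intro i
    simp only [RingHom.comp_apply, MvPolynomial.eval_X]
    rw [← (gnrm0_span (hy i)).2]
    simp

theorem gnrm0_fib {d : ℕ} {y : Fin d → X → ℂ} {χ : Fin (G.N + 1) → Polynomial (MvPolynomial (Fin d) ℂ)}
    (hm : ∀ a, (χ a).Monic)
    (h0 : ∀ a p l, (χ a).eval₂ (MvPolynomial.eval fun i => l * y i p) (l * G.t a p) = 0)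
    (T : Fin d → ℂ) (hT : T ≠ 0) :
    {p | ∃ l : ℂ, ∀ i, T i = l * y i p}.encard ≤ (∏ a, (χ a).natDegree : ℕ) := by
  classical
  have hl : ∀ p : X, ∃ l : ℂ, (∃ l : ℂ, ∀ i, T i = l * y i p) → ∀ i, T i = l * y i p := by
    intro p
    by_cases h : ∃ l : ℂ, ∀ i, T i = l * y i p
    · obtain ⟨l, hl⟩ := h
      exact ⟨l, fun _ => hl⟩
    · exact ⟨0, fun h' => (h h').elim⟩
  choose l hl using hl
  let S : Finset (Fin (G.N + 1) → ℂ) :=
    Fintype.piFinset fun a => ((χ a).map (MvPolynomial.eval T)).roots.toFinset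
  have h1 : {p | ∃ l : ℂ, ∀ i, T i = l * y i p}.encard ≤ (S : Set (Fin (G.N + 1) → ℂ)).encard := by
    refine Set.encard_le_encard_of_injOn (f := fun p a => l p * G.t a p) ?_ ?_
    · intro p hp
      simp only [S, Finset.mem_coe, Fintype.mem_piFinset, Multiset.mem_toFinset]
      intro a
      rw [Polynomial.mem_roots ((hm a).map _).ne_zero, Polynomial.IsRoot.def, Polynomial.eval_map]
      have : T = fun i => l p * y i p := funext (hl p hp)
      rw [this]
      exact h0 a p (l p)
    · intro p hp p' _ h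
      have hp0 : l p ≠ 0 := by
        intro e
        apply hT
        funext i
        rw [hl p hp i, e, zero_mul, Pi.zero_apply]
      refine G.sep p p' (l p' / l p) fun a => ?_
      have := congrFun h a
      simp only at this
      field_simp
      linear_combination this
  refine h1.trans ?_
  rw [Set.encard_coe_eq_coe_finsetCard, Nat.cast_le, Fintype.card_piFinset]
  refine Finset.prod_le_prod' fun a _ => ?_
  exact (Multiset.toFinset_card_le _).trans ((Polynomial.card_roots' _).trans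
    Polynomial.natDegree_map_le)

theorem gnrm0_nz {d : ℕ} {y : Fin d → X → ℂ} {χ : Fin (G.N + 1) → Polynomial (MvPolynomial (Fin d) ℂ)}
    (hm : ∀ a, (χ a).Monic)
    (h0 : ∀ a p l, (χ a).eval₂ (MvPolynomial.eval fun i => l * y i p) (l * G.t a p) = 0)
    (p : X) : ∃ i, y i p ≠ 0 := by
  by_contra hc
  push Not at hc
  obtain ⟨a, ha⟩ := G.exists_t p
  apply ((hm a).map (MvPolynomial.eval (0 : Fin d → ℂ))).ne_zero
  apply Polynomial.funext
  intro w
  have h1 := h0 a p (w / G.t a p)
  have h2 : (fun i => w / G.t a p * y i p) = (0 : Fin d → ℂ) := funext fun i => by simp [hc i]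
  rw [h2, div_mul_cancel₀ _ ha] at h1
  rw [Polynomial.eval_map, h1, Polynomial.eval_zero]

/-- `lin_red`, `lin_int`, `sep_norm` in the domain of `cone_dom`, `y i p = (y-hat i) (p, 1)` and
`(y-hat i) (p, l) = l * y i p`. Evaluate at `(p, l)` (`Polynomial.hom_eval₂`). No common zero: if
`y p = 0` the monic `χ a` at `T = 0` has the roots `l * t a p` for all `l`, so `t a p = 0` for all `a`;
in particular the number of the `y i` is positive. Fibres: `p ↦ (l * t a p)_a` maps the fibre
injectively (`sep`) into the product of the root sets of the `χ a` at `T`. `C = X 0 * C'` with `C'` a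
nonzero homogeneous component of the product of the `c a` (`cone_comp` gives `l`). -/
theorem pre_nrm (G : Geo n X) : ∃ (d : ℕ) (y : Fin (d + 1) → X → ℂ),
    (∀ i, y i ∈ Submodule.span ℂ (range G.t)) ∧ (∀ p, ∃ i, y i p ≠ 0) ∧
    (∀ F : MvPolynomial (Fin (d + 1)) ℂ,
      (∀ (p : X) (l : ℂ), MvPolynomial.eval (fun i => l * y i p) F = 0) → F = 0) ∧
    (∃ D₀ : ℕ, ∀ T : Fin (d + 1) → ℂ, T ≠ 0 → {p | ∃ l : ℂ, ∀ i, T i = l * y i p}.encard ≤ D₀) ∧
    ∃ (k : ℕ) (C : MvPolynomial (Fin (d + 1)) ℂ), C.IsHomogeneous k ∧ C ≠ 0 ∧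
      (∀ T : Fin (d + 1) → ℂ, MvPolynomial.eval T C ≠ 0 → T 0 ≠ 0) ∧
      ∀ p, MvPolynomial.eval (fun i => y i p) C ≠ 0 → ∃ l : ℂ, l ≠ 0 ∧ ∀ a,
        ∃ μ : Polynomial (MvPolynomial (Fin (d + 1)) ℂ),
          (∀ (p' : X) (l' : ℂ), μ.eval₂ (MvPolynomial.eval fun i => l' * y i p') (l' * G.t a p') = 0) ∧
          μ.derivative.eval₂ (MvPolynomial.eval fun i => l * y i p) (l * G.t a p) ≠ 0 := by
  have : IsDomain (gnrm0_A G) := cone_dom G
  obtain ⟨d, yh, hy, hind, r, hr⟩ := lin_red (gnrm0_x G)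
  choose χ hm h0 using lin_int hr
  have h0' : ∀ a p l, (χ a).eval₂ (MvPolynomial.eval fun i => l * gnrm0_ev G p 1 (yh i))
      (l * G.t a p) = 0 := by
    intro a p l
    have := congrArg (gnrm0_ev G p l) (h0 a)
    rwa [Polynomial.hom_eval₂, gnrm0_ev_comp hy, gnrm0_ev_x, map_zero] at this
  have hnz := gnrm0_nz (y := fun i p => gnrm0_ev G p 1 (yh i)) hm h0'
  have hev : ∀ p l (F : MvPolynomial (Fin d) ℂ), gnrm0_ev G p l (MvPolynomial.aeval yh F) =
      MvPolynomial.eval (fun i => l * gnrm0_ev G p 1 (yh i)) F := fun p l F =>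
    RingHom.congr_fun (gnrm0_ev_comp hy p l) F
  have hind' : ∀ F : MvPolynomial (Fin d) ℂ,
      (∀ (p : X) (l : ℂ), MvPolynomial.eval (fun i => l * gnrm0_ev G p 1 (yh i)) F = 0) → F = 0 := by
    intro F hF
    rw [← MvPolynomial.sum_homogeneousComponent F]
    refine Finset.sum_eq_zero fun k _ => ?_
    refine hind k _ (MvPolynomial.homogeneousComponent_isHomogeneous k F) (gnrm0_ev_zero ?_)
    intro p l
    rw [hev, Nrm.eval_smul (MvPolynomial.homogeneousComponent_isHomogeneous k F),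
      (cone_comp F _).1 (fun l _ => hF p l) k, mul_zero]
  have hinj : ∀ F : MvPolynomial (Fin d) ℂ, MvPolynomial.aeval yh F = 0 → F = 0 := by
    intro F hF
    refine hind' F fun p l => ?_
    rw [← hev, hF, map_zero]
  choose μ c x' hc hμ hμ' using fun a => sep_norm hinj (hm a) (h0 a)
  obtain ⟨k, hk⟩ : ∃ k, MvPolynomial.homogeneousComponent k (∏ a, c a) ≠ 0 := by
    by_contra hk
    push Not at hk
    apply Finset.prod_ne_zero_iff.2 fun a (_ : a ∈ Finset.univ) => hc a
    rw [← MvPolynomial.sum_homogeneousComponent (∏ a, c a)]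
    exact Finset.sum_eq_zero fun k _ => hk k
  cases d with
  | zero =>
    obtain ⟨i, -⟩ := hnz (Classical.arbitrary X)
    exact i.elim0
  | succ d =>
    refine ⟨d, fun i p => gnrm0_ev G p 1 (yh i), fun i => (gnrm0_span (hy i)).1, hnz, hind',
      ⟨_, gnrm0_fib (y := fun i p => gnrm0_ev G p 1 (yh i)) hm h0'⟩, 1 + k,
      MvPolynomial.X 0 * MvPolynomial.homogeneousComponent k (∏ a, c a),
      (MvPolynomial.isHomogeneous_X _ _).mul (MvPolynomial.homogeneousComponent_isHomogeneous k _),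
      mul_ne_zero (MvPolynomial.X_ne_zero _) hk, fun T hT => ?_, fun p hp => ?_⟩
    · rw [map_mul, MvPolynomial.eval_X] at hT
      exact left_ne_zero_of_mul hT
    · rw [map_mul] at hp
      have h1 := right_ne_zero_of_mul hp
      have h2 : ∃ l : ℂ, l ≠ 0 ∧
          MvPolynomial.eval (fun i => l * gnrm0_ev G p 1 (yh i)) (∏ a, c a) ≠ 0 := by
        by_contra h
        push Not at h
        exact h1 ((cone_comp _ _).1 h k)
      obtain ⟨l, hl, h2⟩ := h2
      refine ⟨l, hl, fun a => ⟨μ a, fun p' l' => ?_, ?_⟩⟩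
      · have := congrArg (gnrm0_ev G p' l') (hμ a)
        rwa [Polynomial.hom_eval₂, gnrm0_ev_comp hy, gnrm0_ev_x, map_zero] at this
      · have h3 := congrArg (gnrm0_ev G p l) (hμ' a)
        rw [map_mul, Polynomial.hom_eval₂, gnrm0_ev_comp hy, gnrm0_ev_x, hev] at h3
        rw [map_prod] at h2
        have h4 := Finset.prod_ne_zero_iff.1 h2 a (Finset.mem_univ a)
        rw [← h3] at h4
        exact left_ne_zero_of_mul h4

end Geo
end Fuj
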