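import Vale.Agent.P271.GSht
import Vale.Agent.P271.GExt

/-! Symmetric functions on the fibres. -/

set_option linter.unusedSectionVars false

open MeasureTheory Set Filter Topology Metric
open scoped ENNReal ContDiff

noncomputable section
namespace Fuj
namespace Geo

open Atl

variable {n : ℕ} {X : Type*} [TopologicalSpace X] [T2Space X] [CompactSpace X] [ConnectedSpace X]
  [SecondCountableTopology X] [MeasurableSpace X] [BorelSpace X] {G : Geo n X}

namespace Nrm

variable (ν : G.Nrm)

/-- The polynomial whose roots are the values of `s / y 0 ^ k` on the fibre. -/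
def fp (k : ℕ) (s : X → ℂ) (z : E n) : Polynomial ℂ :=
  ∏ p ∈ (ν.fibre_finite z).toFinset, (Polynomial.X - Polynomial.C (s p / ν.y 0 p ^ k))

/-- `W` is nonempty (`dense_W`, `mem_W`). -/
theorem exists_c : ∃ z, ν.c z ≠ 0 := by
  obtain ⟨p, hp⟩ := ν.dense_W.nonempty
  exact ⟨_, (ν.mem_W.1 hp).2⟩

open Classical in
theorem groots0_cover {z₀ : E n} (h : ν.c z₀ ≠ 0) :
    ∃ (ε : X → OpenPartialHomeomorph X (E n)),
      (∀ p ∈ ν.fibre z₀, z₀ ∈ (ε p).target ∧ ∃ i, ν.Sht i (ε p)) ∧
      ∀ᶠ z in 𝓝 z₀, InjOn (fun p => (ε p).symm z) (ν.fibre_finite z₀).toFinset ∧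
        (ν.fibre_finite z).toFinset = (ν.fibre_finite z₀).toFinset.image fun p => (ε p).symm z := by
  obtain ⟨ε, h1, h2⟩ := ν.cover h
  refine ⟨ε, fun p hp => ⟨h2.self_of_nhds.1 p hp, h1 p hp⟩, h2.mono fun z hz => ⟨?_, ?_⟩⟩
  · rw [Finite.coe_toFinset]
    exact hz.2.1
  · rw [← Finset.coe_inj, Finset.coe_image, Finite.coe_toFinset, Finite.coe_toFinset]
    exact hz.2.2

theorem groots0_diff {u : Finset X} {g : X → E n → ℂ} {z₀ : E n}
    (hg : ∀ p ∈ u, DifferentiableAt ℂ (g p) z₀) (j : ℕ) : DifferentiableAt ℂ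
      (fun z => (∏ p ∈ u, (Polynomial.X - Polynomial.C (g p z))).coeff j) z₀ := by
  classical
  induction u using Finset.induction_on generalizing j with
  | empty => simp
  | insert a u ha ih =>
    have h1 := hg a (Finset.mem_insert_self _ _)
    have h2 := ih fun p hp => hg p (Finset.mem_insert_of_mem hp)
    simp only [Finset.prod_insert ha]
    cases j with
    | zero =>
      simp only [Polynomial.mul_coeff_zero, Polynomial.coeff_sub, Polynomial.coeff_X_zero,
        Polynomial.coeff_C_zero]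
      exact ((differentiableAt_const _).sub h1).mul (h2 0)
    | succ j =>
      simp only [Polynomial.coeff_X_sub_C_mul]
      exact (h2 j).sub (h1.mul (h2 (j + 1)))

/-- The cardinality is locally constant on `{c ≠ 0}` (`cover`) and bounded by `D₀`; `ext_poly` with
`d = 0`, a homogeneous polynomial of degree `0` is constant. -/
theorem card_const : ∃ D : ℕ, ∀ z, ν.c z ≠ 0 → (ν.fibre_finite z).toFinset.card = D := by
  classical
  obtain ⟨Q, hQ, h⟩ := ext_poly (F := fun z => ((ν.fibre_finite z).toFinset.card : ℂ)) ν.an_c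
    ν.exists_c (A := ν.D₀) (d := 0) (fun z₀ hz => by
      obtain ⟨ε, -, h⟩ := ν.groots0_cover hz
      refine ((differentiableAt_const ((ν.fibre_finite z₀).toFinset.card : ℂ)).congr_of_eventuallyEq
        (h.mono fun z hz => ?_)).differentiableWithinAt
      simp only [hz.2, Finset.card_image_of_injOn hz.1]) fun z _ => by
      have := ν.fibre_encard z
      rw [(ν.fibre_finite z).encard_eq_coe_toFinset_card] at this
      simpa using this
  have h1 : ∀ T, MvPolynomial.eval T Q = MvPolynomial.eval (fun _ => 0) Q := fun T => by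
    simpa using (eval_smul hQ 0 T).symm
  obtain ⟨z₁, h2⟩ := ν.exists_c
  refine ⟨(ν.fibre_finite z₁).toFinset.card, fun z hz => Nat.cast_injective (R := ℂ) ?_⟩
  rw [h z hz, h z₁ h2, h1, h1 (Fin.cons 1 z₁)]

/-- Near `z₀`, `fp k s z = ∏ p ∈ fibre z₀, (X - C (g p z))` with `g p` analytic (`cover`,
`Sht.an_comp`, `an_ratio`, `R_pow`); coefficients of such products are analytic (induction on the
finite set, or `Finset.prod_X_sub_C_coeff`-like formulas with `esymm`), and bounded by
`2 ^ D * (A (1 + ‖z‖) ^ k) ^ (D - j)` (`bound_ratio`). `ext_poly`. For `j > D` take `Q = 0`. -/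
theorem coeff_poly {D : ℕ} (hD : ∀ z, ν.c z ≠ 0 → (ν.fibre_finite z).toFinset.card = D) {k : ℕ}
    {s : X → ℂ} (hs : s ∈ G.R (k * G.q)) (j : ℕ) :
    ∃ Q : MvPolynomial (Fin (n + 1)) ℂ, Q.IsHomogeneous ((D - j) * k) ∧
      ∀ z, ν.c z ≠ 0 → (ν.fp k s z).coeff j = MvPolynomial.eval (Fin.cons 1 z) Q := by
  classical
  obtain ⟨A, hA, hb⟩ := ν.bound_ratio hs
  refine ext_poly ν.an_c ν.exists_c (A := A ^ (D - j) * D.choose j) (fun z₀ hz => ?_) fun z hz => ?_
  · obtain ⟨ε, h1, h⟩ := ν.groots0_cover hz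
    refine ((groots0_diff (u := (ν.fibre_finite z₀).toFinset)
      (g := fun p z => s ((ε p).symm z) / ν.y 0 ((ε p).symm z) ^ k) (fun p hp => ?_)
      j).congr_of_eventuallyEq (h.mono fun z hz => ?_)).differentiableWithinAt
    · obtain ⟨h2, i, h3⟩ := h1 p ((Finite.mem_toFinset _).1 hp)
      exact (h3.an_comp h2 (an_ratio hs (R_pow (ν.y_R 0) k)
        (pow_ne_zero k (ν.y0_ne (h3.sub ((ε p).map_target h2)).1)))).differentiableAt
    · simp only [fp, hz.2, Finset.prod_image hz.1]
  · have h1 : (ν.fp k s z).Monic :=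
      Polynomial.monic_prod_of_monic _ _ fun p _ => Polynomial.monic_X_sub_C _
    have h2 : (ν.fp k s z).natDegree = D := by
      rw [fp, Polynomial.natDegree_finsetProd_X_sub_C_eq_card, hD z hz]
    have h3 := Polynomial.coeff_le_of_roots_le (f := RingHom.id ℂ) (B := A * (1 + ‖z‖) ^ k) j h1
      (IsAlgClosed.splits _) fun x hx => by
        rw [Polynomial.map_id] at hx
        have h4 := Polynomial.isRoot_of_mem_roots hx
        rw [Polynomial.IsRoot, fp, Polynomial.eval_prod, Finset.prod_eq_zero_iff] at h4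
        obtain ⟨p, hp, h4⟩ := h4
        obtain ⟨h5, h6⟩ := (Finite.mem_toFinset _).1 hp
        rw [Polynomial.eval_sub, Polynomial.eval_X, Polynomial.eval_C, sub_eq_zero] at h4
        rw [h4, ← h6]
        exact hb p h5
    rw [Polynomial.map_id, h2] at h3
    refine h3.trans (le_of_eq ?_)
    ring

end Nrm
end Geo
end Fuj
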