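import Vale.Agent.P271.HDefs

/-! The L² existence theorem on an open set; the lifted measure. -/

namespace Fuj

open MeasureTheory Set Filter Topology Complex
open scoped ENNReal ContDiff ComplexConjugate

noncomputable section

theorem meas_exists_disj {W : Type*} [MeasurableSpace W] {ι : Type} [Countable ι] (S : ι → Set W)
    (hS : ∀ i, MeasurableSet (S i)) :
    ∃ D : ι → Set W, (∀ i, MeasurableSet (D i)) ∧ Pairwise (Function.onFun Disjoint D) ∧
      (∀ i, D i ⊆ S i) ∧ ∀ i, S i ⊆ ⋃ j, D j := by
  classical
  obtain ⟨c, hc⟩ := exists_injective_nat ι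
  refine ⟨fun j => S j \ ⋃ k, ⋃ (_ : c k < c j), S k, fun j => (hS j).diff
    (MeasurableSet.iUnion fun k => MeasurableSet.iUnion fun _ => hS k), fun j k hjk => ?_,
    fun j => sdiff_subset, fun i x hx => ?_⟩
  · refine Set.disjoint_left.2 fun x h1 h2 => ?_
    rcases lt_or_gt_of_ne (hc.ne hjk) with h | h
    · exact h2.2 (mem_iUnion₂.2 ⟨j, h, h1.1⟩)
    · exact h1.2 (mem_iUnion₂.2 ⟨k, h, h2.1⟩)
  · have hex : ∃ n, ∃ j, c j = n ∧ x ∈ S j := ⟨c i, i, rfl, hx⟩
    obtain ⟨j, hj, hxj⟩ := Nat.find_spec hex
    refine mem_iUnion.2 ⟨j, hxj, fun h => ?_⟩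
    obtain ⟨k, hk, hxk⟩ := mem_iUnion₂.1 h
    exact Nat.find_min hex (hj ▸ hk) ⟨k, rfl, hxk⟩

variable {E : Type*} [NormedAddCommGroup E] [NormedSpace ℝ E] [NormedSpace ℂ E]
  [IsScalarTower ℝ ℂ E] [FiniteDimensional ℂ E] [MeasurableSpace E] [BorelSpace E]
  {vol : Measure E} [vol.IsAddHaarMeasure]

/-- ν_i = map (e i).symm (vol.restrict target); ν_i and ν_j agree on measurable subsets of
source i ∩ source j (both give vol (π '' A)). μ = Measure.sum of ν_i restricted to a measurable
partition D_i ⊆ source i of the union (disjointed after Encodable.ofCountable, or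
exists_subordinate_pairwise_disjoint). -/
theorem exists_sheet_measure {W : Type*} [TopologicalSpace W] [MeasurableSpace W] [BorelSpace W]
    {ι : Type} [Countable ι] (π : W → E) (e : ι → OpenPartialHomeomorph W E)
    (he : ∀ i, ∀ p ∈ (e i).source, e i p = π p) :
    ∃ μ : Measure W,
      ∀ i, Measure.map (e i).symm (vol.restrict (e i).target) = μ.restrict (e i).source := by
  have hν : ∀ i (A : Set W), MeasurableSet A →
      Measure.map (e i).symm (vol.restrict (e i).target) A = vol (π '' ((e i).source ∩ A)) := by
    intro i A hA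
    rw [Measure.map_apply_of_aemeasurable
      ((e i).continuousOn_symm.aemeasurable (e i).open_target.measurableSet) hA,
      Measure.restrict_apply' (e i).open_target.measurableSet, inter_comm,
      ← (e i).image_source_inter_eq', image_congr fun p hp => he i p hp.1]
  obtain ⟨D, hD, hdis, hsub, hcov⟩ :=
    meas_exists_disj (fun i => (e i).source) fun i => (e i).open_source.measurableSet
  refine ⟨Measure.sum fun j => (Measure.map (e j).symm (vol.restrict (e j).target)).restrict (D j),
    fun i => Measure.ext fun A hA => ?_⟩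
  have hS := (e i).open_source.measurableSet
  rw [Measure.restrict_apply hA, Measure.sum_apply _ (hA.inter hS)]
  have h1 : ∀ j, ((Measure.map (e j).symm (vol.restrict (e j).target)).restrict (D j))
      (A ∩ (e i).source) =
      Measure.map (e i).symm (vol.restrict (e i).target) (A ∩ (e i).source ∩ D j) := fun j => by
    rw [Measure.restrict_apply (hA.inter hS), hν j _ ((hA.inter hS).inter (hD j)),
      hν i _ ((hA.inter hS).inter (hD j)),
      (inter_eq_right (s := (e j).source) (t := A ∩ (e i).source ∩ D j)).2
        fun p hp => hsub j hp.2,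
      (inter_eq_right (s := (e i).source) (t := A ∩ (e i).source ∩ D j)).2 fun p hp => hp.1.2]
  simp only [h1]
  rw [← measure_iUnion (fun j k hjk => (hdis hjk).mono inter_subset_right inter_subset_right)
    (fun j => (hA.inter hS).inter (hD j)), ← inter_iUnion,
    (inter_eq_left (s := A ∩ (e i).source)).2 fun p hp => hcov i hp.2, hν i _ hA, hν i _ (hA.inter hS), inter_comm A,
    ← inter_assoc, inter_self]

end

end Fuj
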