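import Vale.Agent.P271.GSht
import Vale.Agent.P271.HMeas

/-! The etale domain as a space of sheets. -/

set_option linter.unusedSectionVars false

open MeasureTheory Set Filter Topology Metric
open scoped ENNReal ContDiff

noncomputable section
namespace Fuj

open Classical in
/-- Restriction of a chart to a subset that contains its source. -/
def gsh_res {X Y : Type*} [TopologicalSpace X] [TopologicalSpace Y] {W : Set X} (p₀ : W)
    (ε : OpenPartialHomeomorph X Y) (h : ε.source ⊆ W) : OpenPartialHomeomorph W Y where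
  toFun p := ε p
  invFun z := if hz : z ∈ ε.target then ⟨ε.symm z, h (ε.map_target hz)⟩ else p₀
  source := Subtype.val ⁻¹' ε.source
  target := ε.target
  map_source' _ hp := ε.map_source hp
  map_target' z hz := by
    simp only [hz, dif_pos, mem_preimage]
    exact ε.map_target hz
  left_inv' p hp := by
    have : ε p ∈ ε.target := ε.map_source hp
    simp only [this, dif_pos]
    exact Subtype.ext (ε.left_inv hp)
  right_inv' z hz := by
    simp only [hz, dif_pos]
    exact ε.right_inv hz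
  open_source := ε.open_source.preimage continuous_subtype_val
  open_target := ε.open_target
  continuousOn_toFun := ε.continuousOn.comp continuous_subtype_val.continuousOn fun _ hp => hp
  continuousOn_invFun := by
    rw [Topology.IsInducing.subtypeVal.continuousOn_iff]
    refine ε.continuousOn_symm.congr fun z hz => ?_
    simp only [Function.comp, hz, dif_pos]

theorem gsh_res_symm {X Y : Type*} [TopologicalSpace X] [TopologicalSpace Y] {W : Set X} (p₀ : W)
    (ε : OpenPartialHomeomorph X Y) (h : ε.source ⊆ W) {z : Y} (hz : z ∈ ε.target) :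
    ((gsh_res p₀ ε h).symm z : X) = ε.symm z := by
  classical
  change ((if hz : z ∈ ε.target then (⟨ε.symm z, h (ε.map_target hz)⟩ : W) else p₀ : W) : X) = _
  rw [dif_pos hz]

namespace Geo

open Atl

variable {n : ℕ} {X : Type*} [TopologicalSpace X] [T2Space X] [CompactSpace X] [ConnectedSpace X]
  [SecondCountableTopology X] [MeasurableSpace X] [BorelSpace X] {G : Geo n X}

namespace Nrm

variable (ν : G.Nrm)

/-- The sheets of `W` for the cocycle `θ i / jd i w`. -/
structure Shs (θ : G.I → X → ℂ) where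
  S : Sheets (E n) ν.W volume
  ch : S.ι → G.I
  ε : S.ι → OpenPartialHomeomorph X (E n)
  sht : ∀ k, ν.Sht (ch k) (ε k)
  π_eq : ∀ p, S.π p = ν.w p
  src : ∀ k p, p ∈ (S.e k).source ↔ (p : X) ∈ (ε k).source
  tgt : ∀ k, (S.e k).target = (ε k).target
  symm : ∀ k, ∀ z ∈ (ε k).target, ((S.e k).symm z : X) = (ε k).symm z
  τ_eq : ∀ k (p : ν.W), (p : X) ∈ (ε k).source → S.τ k p = θ (ch k) p / G.jd (ch k) ν.w p

/-- Near `p` the function is `(θ j / θ i) * jac i j` (`jd_chain`). -/
theorem an_τ {θ : G.I → X → ℂ} (hθ : G.Coc θ) {i j : G.I} {p : X} (hp : p ∈ ν.W)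
    (hi : p ∈ (G.e i).source) (hj : p ∈ (G.e j).source) :
    G.An p fun x => θ j x / G.jd j ν.w x / (θ i x / G.jd i ν.w x) := by
  refine ((hθ.an hi hj).mul (an_jac hi hj)).congr ?_
  filter_upwards [ν.isOpen_W.mem_nhds hp, ev_src hi, ev_src hj] with x hx hxi hxj
  have h1 := jd_chain hxi hxj (ν.an_w (ν.y0_ne hx))
  have h2 := ν.jd_ne hxj hx
  have h3 := jac_ne hxi hxj
  have h4 := hθ.ne i x hxi
  rw [h1]
  field_simp

/-- Sheets at all points of `W` (`exists_sht` with `i = idx p`), a countable subcover indexed by `ℕ`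
(`TopologicalSpace.countable_cover_nhds`, `Set.Countable.exists_eq_range`),
`OpenPartialHomeomorph.subtypeRestr`; `τ k p = θ (ch k) p / indicator (W ∩ source) (jd ..) p`
(`measurable_indicator_of_contOn`, `An.jd`); `an_τ`, `Sht.an_comp`; `exists_sheet_measure`. -/
theorem exists_shs {θ : G.I → X → ℂ} (hθ : G.Coc θ) : Nonempty (ν.Shs θ) := by
  obtain ⟨x₀, hx₀⟩ := ν.dense_W.nonempty
  have h1 : ∀ p : ν.W, ∃ ε, ν.Sht (G.idx p) ε ∧ (p : X) ∈ ε.source := fun p => by
    obtain ⟨ε, h1, h2, -⟩ := ν.exists_sht p.2 (mem_src G.toAtl (p : X)) univ_mem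
    exact ⟨ε, h1, h2⟩
  choose ε₀ hε₀ hm₀ using h1
  obtain ⟨s, hs, hcov⟩ := TopologicalSpace.countable_cover_nhds
    (f := fun p : ν.W => (Subtype.val ⁻¹' (ε₀ p).source : Set ν.W))
    (fun p => ((ε₀ p).open_source.preimage continuous_subtype_val).mem_nhds (hm₀ p))
  have hne : s.Nonempty := by
    have : (⟨x₀, hx₀⟩ : ν.W) ∈ ⋃ p ∈ s, (Subtype.val ⁻¹' (ε₀ p).source : Set ν.W) := by
      rw [hcov]; trivial
    obtain ⟨p, hp, -⟩ := mem_iUnion₂.1 this
    exact ⟨p, hp⟩
  obtain ⟨a, ha⟩ := hs.exists_eq_range hne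
  let ch : ℕ → G.I := fun k => G.idx (a k)
  let ε : ℕ → OpenPartialHomeomorph X (E n) := fun k => ε₀ (a k)
  have sht : ∀ k, ν.Sht (ch k) (ε k) := fun k => hε₀ (a k)
  have hsub : ∀ k, (ε k).source ⊆ ν.W := fun k p hp => ((sht k).sub hp).1
  let e : ℕ → OpenPartialHomeomorph ν.W (E n) := fun k => gsh_res ⟨x₀, hx₀⟩ (ε k) (hsub k)
  have he : ∀ k, ∀ p ∈ (e k).source, e k p = ν.w p := fun k p hp => (sht k).eq p hp
  have hsymm : ∀ k, ∀ z ∈ (ε k).target, ((e k).symm z : X) = (ε k).symm z := fun k z hz =>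
    gsh_res_symm _ _ _ hz
  let τ : ℕ → ν.W → ℂ := fun k p =>
    θ (ch k) p / (ν.W ∩ (G.e (ch k)).source).indicator (G.jd (ch k) ν.w) p
  have hτ : ∀ k (p : ν.W), (p : X) ∈ (ε k).source →
      τ k p = θ (ch k) p / G.jd (ch k) ν.w p := fun k p hp => by
    simp only [τ]
    rw [indicator_of_mem ((sht k).sub hp)]
  obtain ⟨μ, hμ⟩ := exists_sheet_measure (vol := (volume : Measure (E n)))
    (fun p : ν.W => ν.w p) e he
  refine ⟨⟨⟨ℕ, inferInstance, fun p => ν.w p, e, he, fun p => ?_, τ, fun k => ?_,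
    fun k p hp => ?_, fun k l => ?_, μ, hμ⟩, ch, ε, sht, fun _ => rfl, fun _ _ => Iff.rfl,
    fun _ => rfl, hsymm, hτ⟩⟩
  · have : p ∈ ⋃ q ∈ s, (Subtype.val ⁻¹' (ε₀ q).source : Set ν.W) := by
      rw [hcov]; trivial
    obtain ⟨q, hq, hp⟩ := mem_iUnion₂.1 this
    rw [ha] at hq
    obtain ⟨k, rfl⟩ := hq
    exact ⟨k, hp⟩
  · refine ((hθ.meas _).comp measurable_subtype_coe).div
      ((measurable_indicator_of_contOn
        (ν.isOpen_W.inter (G.e (ch k)).open_source).measurableSet fun x hx => ?_).comp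
        measurable_subtype_coe)
    exact ((ν.an_w (ν.y0_ne hx.1)).jd hx.2).cont.continuousWithinAt
  · have hp' := (sht k).sub hp
    rw [hτ k p hp]
    exact div_ne_zero (hθ.ne _ _ hp'.2) (ν.jd_ne hp'.2 hp'.1)
  · have key : ∀ z ∈ (e k).target ∩ (e k).symm ⁻¹' (e l).source,
        (ε k).symm z ∈ (ε k).source ∧ (ε k).symm z ∈ (ε l).source := fun z hz => by
      refine ⟨(ε k).map_target hz.1, ?_⟩
      rw [← hsymm k z hz.1]
      exact hz.2
    refine DifferentiableOn.congr (f := fun z => θ (ch l) ((ε k).symm z) /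
      G.jd (ch l) ν.w ((ε k).symm z) / (θ (ch k) ((ε k).symm z) /
      G.jd (ch k) ν.w ((ε k).symm z))) (fun z hz => ?_) (fun z hz => ?_)
    · have h1 := (sht k).sub (key z hz).1
      have h2 := (sht l).sub (key z hz).2
      exact ((sht k).an_comp hz.1
        (ν.an_τ hθ h1.1 h1.2 h2.2)).differentiableAt.differentiableWithinAt
    · have h0 := hsymm k z hz.1
      rw [hτ l _ (by rw [h0]; exact (key z hz).2), hτ k _ (by rw [h0]; exact (key z hz).1), h0]

end Nrm
end Geo
end Fuj
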