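import Vale.Agent.P271.GBase2

/-! Sheets of the etale domain. -/

set_option linter.unusedSectionVars false

open MeasureTheory Set Filter Topology Metric
open scoped ENNReal ContDiff

noncomputable section
namespace Fuj
namespace Geo

open Atl

variable {n : ℕ} {X : Type*} [TopologicalSpace X] [T2Space X] [CompactSpace X] [ConnectedSpace X]
  [SecondCountableTopology X] [MeasurableSpace X] [BorelSpace X] {G : Geo n X}

namespace Nrm

variable (ν : G.Nrm)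

/-- The fibre of `w`. -/
def fibre (z : E n) : Set X := {p | ν.y 0 p ≠ 0 ∧ ν.w p = z}

/-- `ν.fib` for `T = cons 1 z`, `cons_w`. -/
theorem fibre_encard (z : E n) : (ν.fibre z).encard ≤ ν.D₀ := by
  refine le_trans (encard_le_encard fun p hp => ?_) (ν.fib (Fin.cons 1 z) fun h => ?_)
  · refine ⟨(ν.y 0 p)⁻¹, fun a => ?_⟩
    rw [ν.cons_w hp.1 a, hp.2, inv_mul_cancel_left₀ hp.1]
  · simpa using congrFun h 0

theorem fibre_finite (z : E n) : (ν.fibre z).Finite :=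
  finite_of_encard_le_coe (ν.fibre_encard z)

/-- The continuous function `p ↦ ∑ a, ‖y a p‖` (`cont_norm`) has a positive minimum `δ'`, and
`‖y a p‖ ≤ ‖y 0 p‖ (1 + ‖w p‖)` (`cons_w`). -/
theorem y0_lower : ∃ δ : ℝ, 0 < δ ∧ ∀ p, ν.y 0 p ≠ 0 → δ ≤ ‖ν.y 0 p‖ * (1 + ‖ν.w p‖) := by
  have hc : Continuous fun p => ∑ a, ‖ν.y a p‖ :=
    continuous_finsetSum _ fun a _ => cont_norm (ν.y_R a)
  obtain ⟨p₀, -, h0⟩ := isCompact_univ.exists_isMinOn univ_nonempty hc.continuousOn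
  have hpos : 0 < ∑ a, ‖ν.y a p₀‖ := by
    obtain ⟨a, ha⟩ := ν.nz p₀
    exact Finset.sum_pos' (fun _ _ => norm_nonneg _) ⟨a, Finset.mem_univ _, norm_pos_iff.2 ha⟩
  refine ⟨(∑ a, ‖ν.y a p₀‖) / (n + 1), by positivity, fun p hp => ?_⟩
  have h1 : ∀ a ∈ Finset.univ, ‖ν.y a p‖ ≤ ‖ν.y 0 p‖ * (1 + ‖ν.w p‖) := by
    intro a _
    rw [ν.cons_w hp a, norm_mul]
    refine mul_le_mul_of_nonneg_left ?_ (norm_nonneg _)
    refine Fin.cases ?_ (fun j => ?_) a
    · simp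
    · rw [Fin.cons_succ]
      linarith [norm_le_pi_norm (ν.w p) j]
  have h2 := Finset.sum_le_card_nsmul _ _ _ h1
  rw [Finset.card_univ, Fintype.card_fin, nsmul_eq_mul] at h2
  have h3 : ∑ a, ‖ν.y a p₀‖ ≤ ∑ a, ‖ν.y a p‖ := h0 (mem_univ p)
  rw [div_le_iff₀ (by positivity)]
  push_cast at h2
  linarith

theorem bound_ratio {k : ℕ} {s : X → ℂ} (hs : s ∈ G.R (k * G.q)) : ∃ A : ℝ, 0 ≤ A ∧
    ∀ p, ν.y 0 p ≠ 0 → ‖s p / ν.y 0 p ^ k‖ ≤ A * (1 + ‖ν.w p‖) ^ k := by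
  obtain ⟨δ, hδ, h⟩ := ν.y0_lower
  obtain ⟨B, hB⟩ := (isCompact_range (cont_norm hs)).bddAbove
  have hB' : ∀ p, ‖s p‖ ≤ max B 0 := fun p => (hB ⟨p, rfl⟩).trans (le_max_left _ _)
  refine ⟨max B 0 / δ ^ k, by positivity, fun p hp => ?_⟩
  have h0 : 0 < ‖ν.y 0 p‖ := norm_pos_iff.2 hp
  have h1 := pow_le_pow_left₀ hδ.le (h p hp) k
  rw [norm_div, norm_pow, div_mul_eq_mul_div, div_le_div_iff₀ (by positivity) (by positivity),
    mul_assoc, ← mul_pow, mul_comm (1 + _)]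
  exact mul_le_mul (hB' p) h1 (by positivity) (le_max_right _ _)

/-- The set lies in the closed set `{δ' ≤ ‖y 0 p‖}`, on which `w` is continuous (`an_w`). -/
theorem isCompact_w {Q : Set (E n)} (hQ : IsCompact Q) :
    IsCompact {p | ν.y 0 p ≠ 0 ∧ ν.w p ∈ Q} := by
  obtain ⟨δ, hδ, h⟩ := ν.y0_lower
  obtain ⟨R, hR0, hR⟩ := hQ.isBounded.exists_pos_norm_le
  have hδ' : 0 < δ / (1 + R) := by positivity
  have h1 : IsClosed {p | δ / (1 + R) ≤ ‖ν.y 0 p‖} :=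
    isClosed_le continuous_const (cont_norm (ν.y_R 0))
  have h2 : ContinuousOn ν.w {p | δ / (1 + R) ≤ ‖ν.y 0 p‖} := fun p hp =>
    (ν.an_w (norm_pos_iff.1 (hδ'.trans_le hp))).cont.continuousWithinAt
  have h3 := h2.preimage_isClosed_of_isClosed h1 hQ.isClosed
  have e : {p | ν.y 0 p ≠ 0 ∧ ν.w p ∈ Q} = {p | δ / (1 + R) ≤ ‖ν.y 0 p‖} ∩ ν.w ⁻¹' Q := by
    ext p
    refine ⟨fun hp => ⟨?_, hp.2⟩, fun hp => ⟨norm_pos_iff.1 (hδ'.trans_le hp.1), hp.2⟩⟩
    show δ / (1 + R) ≤ ‖ν.y 0 p‖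
    rw [div_le_iff₀ (by positivity)]
    exact (h p hp.1).trans (mul_le_mul_of_nonneg_left (by linarith [hR _ hp.2]) (norm_nonneg _))
  rw [e]
  exact h3.isCompact

/-- `Ψ = w ∘ (e i).symm` is analytic at `e i p` with invertible derivative (`jd_ne`,
`ContinuousLinearMap.toContinuousLinearEquivOfDetNeZero`); take
`HasStrictFDerivAt.toOpenPartialHomeomorph`, precompose with `e i` and restrict to an open subset of
`W ∩ O` (`trans`, `restrOpen`). The inverse is analytic at every point of the target by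
`OpenPartialHomeomorph.analyticAt_symm'`. -/
theorem exists_sht {p : X} {i : G.I} (hp : p ∈ ν.W) (hi : p ∈ (G.e i).source) {O : Set X}
    (hO : O ∈ 𝓝 p) : ∃ ε, ν.Sht i ε ∧ p ∈ ε.source ∧ ε.source ⊆ O := by
  have han : ∀ x ∈ ν.W, x ∈ (G.e i).source →
      AnalyticAt ℂ (fun z => ν.w ((G.e i).symm z)) (G.e i x) := fun x hx hxi =>
    (an_iff hxi).1 (ν.an_w (ν.y0_ne hx))
  have hd : (fderiv ℂ (fun z => ν.w ((G.e i).symm z)) (G.e i p)).det ≠ 0 := ν.jd_ne hi hp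
  have hs : HasStrictFDerivAt (fun z => ν.w ((G.e i).symm z))
      (((fderiv ℂ (fun z => ν.w ((G.e i).symm z)) (G.e i p)).toContinuousLinearEquivOfDetNeZero
        hd : E n ≃L[ℂ] E n) : E n →L[ℂ] E n) (G.e i p) := by
    rw [ContinuousLinearMap.coe_toContinuousLinearEquivOfDetNeZero]
    exact (han p hp hi).hasStrictFDerivAt
  obtain ⟨Φ, hΦ, hm⟩ : ∃ Φ : OpenPartialHomeomorph (E n) (E n),
      (Φ : E n → E n) = (fun z => ν.w ((G.e i).symm z)) ∧ G.e i p ∈ Φ.source :=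
    ⟨hs.toOpenPartialHomeomorph _, hs.toOpenPartialHomeomorph_coe,
      hs.mem_toOpenPartialHomeomorph_source⟩
  have hU : IsOpen (ν.W ∩ interior O) := ν.isOpen_W.inter isOpen_interior
  refine ⟨((G.e i).trans Φ).restrOpen _ hU, ⟨fun x hx => ⟨hx.2.1, hx.1.1⟩, fun x hx => ?_,
    fun z hz => ?_⟩, ⟨⟨hi, hm⟩, hp, mem_interior_iff_mem_nhds.2 hO⟩,
    fun x hx => interior_subset hx.2.2⟩
  · show Φ (G.e i x) = ν.w x
    rw [hΦ]
    simp only [(G.e i).left_inv hx.1.1]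
  · have h1 : z ∈ Φ.target := hz.1.1
    have h2 : Φ.symm z ∈ (G.e i).target := hz.1.2
    have h3 : (G.e i).symm (Φ.symm z) ∈ ν.W := hz.2.1
    have h4 := (G.e i).map_target h2
    have h5 := han _ h3 h4
    have h6 : (fderiv ℂ (fun z => ν.w ((G.e i).symm z))
      (G.e i ((G.e i).symm (Φ.symm z)))).det ≠ 0 := ν.jd_ne h4 h3
    rw [(G.e i).right_inv h2, ← hΦ] at h5 h6
    have h7 := Φ.analyticAt_symm h1 h5
      (ContinuousLinearMap.coe_toContinuousLinearEquivOfDetNeZero _ h6).symm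
    refine h7.congr ?_
    filter_upwards [((G.e i).trans Φ).open_target.mem_nhds hz.1] with y hy
    exact ((G.e i).right_inv hy.2).symm

variable {ν} {i : G.I} {ε : OpenPartialHomeomorph X (E n)} {z : E n}

theorem Sht.w_symm (h : ν.Sht i ε) (hz : z ∈ ε.target) : ν.w (ε.symm z) = z := by
  rw [← h.eq _ (ε.map_target hz), ε.right_inv hz]

/-- Near `z`, `f (ε.symm ·) = (f ∘ (e i).symm) (e i (ε.symm ·))`. -/
theorem Sht.an_comp {F : Type*} [NormedAddCommGroup F] [NormedSpace ℂ F] (h : ν.Sht i ε)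
    (hz : z ∈ ε.target) {f : X → F} (hf : G.An (ε.symm z) f) :
    AnalyticAt ℂ (fun z => f (ε.symm z)) z := by
  have h1 := (an_iff (h.sub (ε.map_target hz)).2).1 hf
  refine (h1.comp_of_eq (h.an z hz) rfl).congr ?_
  filter_upwards [ε.open_target.mem_nhds hz] with y hy
  simp only [Function.comp, (G.e i).left_inv (h.sub (ε.map_target hy)).2]

variable (ν)

/-- Separate the finitely many points of the fibre by disjoint neighbourhoods (`Set.Finite.t2_separation`),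
take sheets inside them. The compact set `{y 0 ≠ 0, w ∈ closedBall z₀ 1}` minus the sources has a
compact image under `w` that does not contain `z₀`. -/
theorem cover {z₀ : E n} (h : ν.c z₀ ≠ 0) :
    ∃ (ε : X → OpenPartialHomeomorph X (E n)),
      (∀ p ∈ ν.fibre z₀, ∃ i, ν.Sht i (ε p)) ∧
      ∀ᶠ z in 𝓝 z₀, (∀ p ∈ ν.fibre z₀, z ∈ (ε p).target) ∧
        InjOn (fun p => (ε p).symm z) (ν.fibre z₀) ∧
        ν.fibre z = (fun p => (ε p).symm z) '' ν.fibre z₀ := by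
  have hfin := ν.fibre_finite z₀
  obtain ⟨U, hU, hd⟩ := hfin.t2_separation
  have hex : ∀ p, ∃ ε : OpenPartialHomeomorph X (E n), p ∈ ν.fibre z₀ →
      ν.Sht (G.idx p) ε ∧ p ∈ ε.source ∧ ε.source ⊆ U p := by
    intro p
    by_cases hp : p ∈ ν.fibre z₀
    · obtain ⟨ε, hε⟩ := ν.exists_sht (ν.mem_W.2 ⟨hp.1, by rwa [hp.2]⟩) (G.mem_src p)
        ((hU p).2.mem_nhds (hU p).1)
      exact ⟨ε, fun _ => hε⟩
    · exact ⟨G.e (G.idx p), fun h' => absurd h' hp⟩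
  choose ε hε using hex
  refine ⟨ε, fun p hp => ⟨_, (hε p hp).1⟩, ?_⟩
  have h1 : ∀ᶠ z in 𝓝 z₀, ∀ p ∈ ν.fibre z₀, z ∈ (ε p).target := by
    refine (eventually_all_finite hfin).2 fun p hp => (ε p).open_target.mem_nhds ?_
    have h2 := (ε p).map_source (hε p hp).2.1
    rwa [(hε p hp).1.eq p (hε p hp).2.1, hp.2] at h2
  have hK : IsCompact ({p | ν.y 0 p ≠ 0 ∧ ν.w p ∈ closedBall z₀ 1} \
      ⋃ p ∈ ν.fibre z₀, (ε p).source) :=
    (ν.isCompact_w (isCompact_closedBall z₀ 1)).diff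
      (isOpen_biUnion fun p _ => (ε p).open_source)
  have hI := (hK.image_of_continuousOn (f := ν.w) fun p hp =>
    (ν.an_w hp.1.1).cont.continuousWithinAt).isClosed
  have h3 := hI.isOpen_compl.mem_nhds (show z₀ ∉ _ by
    rintro ⟨p, hp, hpz⟩
    exact hp.2 (mem_iUnion₂.2 ⟨p, ⟨hp.1.1, hpz⟩, (hε p ⟨hp.1.1, hpz⟩).2.1⟩))
  filter_upwards [h1, h3, closedBall_mem_nhds z₀ one_pos] with z hz hz1 hz2
  refine ⟨hz, fun p hp p' hp' he => ?_, ?_⟩
  · by_contra hne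
    refine disjoint_left.1 (hd hp hp' hne) ((hε p hp).2.2 ((ε p).map_target (hz p hp))) ?_
    have he' : (ε p).symm z = (ε p').symm z := he
    rw [he']
    exact (hε p' hp').2.2 ((ε p').map_target (hz p' hp'))
  · ext x
    constructor
    · intro hx
      by_contra hne
      refine hz1 ⟨x, ⟨⟨hx.1, by rwa [hx.2]⟩, fun hx' => hne ?_⟩, hx.2⟩
      obtain ⟨p, hp, hxp⟩ := mem_iUnion₂.1 hx'
      refine ⟨p, hp, ?_⟩
      show (ε p).symm z = x
      rw [← hx.2, ← (hε p hp).1.eq x hxp, (ε p).left_inv hxp]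
    · rintro ⟨p, hp, rfl⟩
      exact ⟨ν.y0_ne ((hε p hp).1.sub ((ε p).map_target (hz p hp))).1,
        (hε p hp).1.w_symm (hz p hp)⟩

end Nrm
end Geo
end Fuj
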