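import Vale.Agent.P271.GBase2

/-! Propagation of smallness. -/

set_option linter.unusedSectionVars false

open MeasureTheory Set Filter Topology Metric
open scoped ENNReal ContDiff

noncomputable section
namespace Fuj

/-- Apply `Complex.HadamardThreeLines.norm_le_interp_of_mem_verticalClosedStrip'` (strip
`log (a / b) ≤ re ≤ log (R / b)`, point `0`) to `ζ ↦ f (y + exp ζ • (z - y))`;
`θ = log (R / b) / log (R / a)`. -/
theorem three_balls {n : ℕ} {a b R : ℝ} (ha : 0 < a) (hab : a < b) (hb : b < R) :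
    ∃ θ : ℝ, 0 < θ ∧ θ < 1 ∧ ∀ (f : E n → ℂ) (y : E n) (ε M : ℝ),
      DifferentiableOn ℂ f (ball y (2 * R)) → (∀ z ∈ closedBall y R, ‖f z‖ ≤ M) →
      (∀ z ∈ closedBall y a, ‖f z‖ ≤ ε) → ∀ z ∈ closedBall y b, ‖f z‖ ≤ ε ^ θ * M ^ (1 - θ) := by
  have hb0 : 0 < b := ha.trans hab
  have hl : Real.log (a / b) < 0 := Real.log_neg (by positivity) ((div_lt_one hb0).2 hab)
  have hu : 0 < Real.log (R / b) := Real.log_pos ((one_lt_div hb0).2 hb)
  set l := Real.log (a / b) with hl'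
  set u := Real.log (R / b) with hu'
  refine ⟨1 - (0 - l) / (u - l), ?_, ?_, fun f y ε M hf hM hε z hz => ?_⟩
  · rw [sub_pos, div_lt_one (by linarith)]; linarith
  · have : 0 < (0 - l) / (u - l) := div_pos (by linarith) (by linarith)
    linarith
  have key : ∀ (ζ : ℂ) (c : ℝ), 0 < c → ζ.re ≤ Real.log (c / b) →
      y + Complex.exp ζ • (z - y) ∈ closedBall y c := by
    intro ζ c hc h
    rw [mem_closedBall, dist_eq_norm, add_sub_cancel_left, norm_smul, Complex.norm_exp]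
    have h1 : Real.exp ζ.re ≤ c / b := by
      rw [← Real.exp_log (show 0 < c / b by positivity)]
      exact Real.exp_le_exp.2 h
    have h2 : ‖z - y‖ ≤ b := by rwa [mem_closedBall, dist_eq_norm] at hz
    calc _ ≤ c / b * b := by gcongr
      _ = c := by field_simp
  have hR : 0 < R := hb0.trans hb
  have h := Complex.HadamardThreeLines.norm_le_interp_of_mem_verticalClosedStrip'
    (f := fun ζ => f (y + Complex.exp ζ • (z - y))) (z := 0) (a := ε) (b := M) (hl.trans hu)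
    ⟨hl.le, hu.le⟩ (DifferentiableOn.diffContOnCl fun ζ hζ => ?_) ⟨M, ?_⟩
    (fun ζ hζ => hε _ (key ζ a ha (le_of_eq hζ))) (fun ζ hζ => hM _ (key ζ R hR (le_of_eq hζ)))
  · simpa using h
  · have h1 : ζ ∈ Complex.re ⁻¹' Icc l u := closure_minimal (preimage_mono Ioo_subset_Icc_self)
      (isClosed_Icc.preimage Complex.continuous_re) hζ
    have h2 := hf.differentiableAt
      (isOpen_ball.mem_nhds (closedBall_subset_ball (by linarith) (key ζ R hR h1.2)))
    refine DifferentiableAt.differentiableWithinAt ?_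
    exact h2.comp ζ (f := fun ζ => y + Complex.exp ζ • (z - y)) (by fun_prop)
  · rintro _ ⟨ζ, hζ, rfl⟩
    exact hM _ (key ζ R hR hζ.2)

namespace Geo

open Atl

variable {n : ℕ} {X : Type*} [TopologicalSpace X] [T2Space X] [CompactSpace X] [ConnectedSpace X]
  [SecondCountableTopology X] [MeasurableSpace X] [BorelSpace X] {G : Geo n X}

/-- `cont_τ`, `coc.ne`, compactness of `(G.e i).symm '' Q`. -/
theorem τ_bound (i : G.I) {Q : Set (E n)} (hQ : IsCompact Q) (hs : Q ⊆ (G.e i).target) :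
    ∃ B : ℝ, 0 ≤ B ∧ ∀ z ∈ Q, ‖G.τ i ((G.e i).symm z)‖ ≤ Real.exp B ∧
      Real.exp (-B) ≤ ‖G.τ i ((G.e i).symm z)‖ := by
  have hc : ContinuousOn (fun z => Real.log ‖G.τ i ((G.e i).symm z)‖) Q := fun z hz => by
    have h1 := (G.e i).map_target (hs hz)
    refine ContinuousAt.continuousWithinAt (ContinuousAt.log ?_
      (norm_ne_zero_iff.2 (G.coc.ne i _ h1)))
    exact (cont_τ h1).comp (f := (G.e i).symm) ((G.e i).continuousAt_symm (hs hz))
  obtain ⟨B, hB⟩ := hQ.exists_bound_of_continuousOn hc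
  refine ⟨max B 0, le_max_right _ _, fun z hz => ?_⟩
  have h1 := norm_pos_iff.2 (G.coc.ne i _ ((G.e i).map_target (hs hz)))
  have h2 := abs_le.1 ((Real.norm_eq_abs _ ▸ hB z hz).trans (le_max_left B 0))
  rw [← Real.exp_log h1]
  exact ⟨Real.exp_le_exp.2 h2.2, Real.exp_le_exp.2 h2.1⟩

/-- controlled sets -/
def gsieg0_ctl (G : Geo n X) (V N : Set X) : Prop := ∀ c : ℝ, ∃ c' : ℝ, ∀ m, ∀ s ∈ G.R m,
  (∀ p, ‖s p‖ ≤ 1) → (∀ p ∈ V, ‖s p‖ ≤ Real.exp (-(c' * m))) →
    ∀ p ∈ N, ‖s p‖ ≤ Real.exp (-(c * m))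

theorem gsieg0_step {V : Set X} {p : X} (hp : p ∈ closure {p | ∃ N ∈ 𝓝 p, gsieg0_ctl G V N}) :
    ∃ N ∈ 𝓝 p, gsieg0_ctl G V N := by
  have hi := G.mem_src p
  generalize G.idx p = i at hi
  obtain ⟨r, hr, hrb⟩ := nhds_basis_closedBall.mem_iff.1
    ((G.e i).open_target.mem_nhds ((G.e i).map_source hi))
  set b := r / 10 with hb
  have hb0 : 0 < b := by positivity
  have hn : (G.e i).source ∩ G.e i ⁻¹' ball (G.e i p) (b / 2) ∈ 𝓝 p :=
    inter_mem (ev_src hi) (((G.e i).continuousAt hi).preimage_mem_nhds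
      (ball_mem_nhds _ (by positivity)))
  obtain ⟨p', ⟨h1, h2⟩, N, hN, hc⟩ := mem_closure_iff_nhds.1 hp _ hn
  obtain ⟨a₀, ha₀, hab⟩ := nhds_basis_closedBall.mem_iff.1 ((tendsto_symm h1) hN)
  have h2' : dist (G.e i p') (G.e i p) < b / 2 := h2
  obtain ⟨θ, hθ, -, h3⟩ := three_balls (n := n) (a := min a₀ (b / 2)) (b := b) (R := 2 * b)
    (lt_min ha₀ (by positivity)) ((min_le_right _ _).trans_lt (by linarith)) (by linarith)
  obtain ⟨B, -, hB⟩ := τ_bound i (isCompact_closedBall _ r) hrb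
  have hsub : closedBall (G.e i p') (2 * (2 * b)) ⊆ closedBall (G.e i p) r :=
    closedBall_subset_closedBall' (by linarith)
  refine ⟨_, hn, fun c => ?_⟩
  obtain ⟨c', hc'⟩ := hc ((c + 2 * B) / θ)
  refine ⟨c', fun m s hs hs1 hsV q hq => ?_⟩
  have hup : ∀ z ∈ closedBall (G.e i p) r, ∀ t, ‖s ((G.e i).symm z)‖ ≤ Real.exp t →
      ‖G.rp m i s z‖ ≤ Real.exp (B * m + t) := by
    intro z hz t ht
    rw [rp_eq, norm_mul, norm_pow, Real.exp_add, mul_comm B, Real.exp_nat_mul]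
    have := (hB z hz).1
    gcongr
  have hq2 : dist (G.e i q) (G.e i p) < b / 2 := hq.2
  have h4 := h3 (G.rp m i s) (G.e i p') (Real.exp (B * m + -((c + 2 * B) / θ * m)))
    (Real.exp (B * m + 0))
    (((rp_an hs i).mono ((ball_subset_closedBall.trans hsub).trans hrb)).differentiableOn)
    (fun z hz => hup z (hsub (closedBall_subset_closedBall (by linarith) hz)) 0
      (by rw [Real.exp_zero]; exact hs1 _))
    (fun z hz => hup z (hsub (closedBall_subset_closedBall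
        ((min_le_right _ _).trans (by linarith)) hz)) _
      (hc' m s hs hs1 hsV _ (hab (closedBall_subset_closedBall (min_le_left _ _) hz))))
    (G.e i q) (by
      rw [mem_closedBall]
      linarith [dist_triangle_right (G.e i q) (G.e i p') (G.e i p)])
  have h5 := (hB (G.e i q) (by rw [mem_closedBall]; linarith)).2
  rw [(G.e i).left_inv hq.1] at h5
  rw [rp_apply m s hq.1, norm_mul, norm_pow, ← Real.exp_mul, ← Real.exp_mul, ← Real.exp_add] at h4
  have h6 : Real.exp (-B) ^ m * ‖s q‖ ≤ ‖G.τ i q‖ ^ m * ‖s q‖ := by gcongr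
  refine le_of_mul_le_mul_left ((h6.trans h4).trans (le_of_eq ?_)) (by positivity)
  rw [← Real.exp_nat_mul, ← Real.exp_add]
  congr 1
  field_simp
  ring

/-- Call `N` controlled if for every `c` there is `c'` such that `‖s‖ ≤ 1` on `X` and
`‖s‖ ≤ exp (-c' m)` on `V` imply `‖s‖ ≤ exp (-c m)` on `N`. The set of points with a controlled
neighbourhood is open, contains `V`, and is closed: if `p` is in its closure, `i = idx p`,
`closedBall (e p) (10 b) ⊆ target`, pick such a point `p'` with `dist (e p') (e p) < b / 2`, a ball of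
radius `a < b` round `e p'` inside the image of its controlled neighbourhood, and use `three_balls`
(`R = 2 b`) for `rp m i s` with `τ_bound`: `ε = exp (B m - c₁ m)`, `M = exp (B m)`. Finite unions of
controlled sets are controlled (`IsCompact.induction_on` or a finite subcover); take `c = 1`. -/
theorem ctl (G : Geo n X) {V : Set X} (hV : IsOpen V) (hne : V.Nonempty) :
    ∃ c : ℝ, ∀ m, ∀ s ∈ G.R m, (∀ p, ‖s p‖ ≤ 1) → (∀ p ∈ V, ‖s p‖ ≤ Real.exp (-(c * m))) →
      ∀ p, ‖s p‖ ≤ Real.exp (-(m : ℝ)) := by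
  have ho : IsOpen {p | ∃ N ∈ 𝓝 p, gsieg0_ctl G V N} := by
    refine isOpen_iff_mem_nhds.2 ?_
    rintro p ⟨N, hN, hc⟩
    filter_upwards [eventually_mem_nhds_iff.2 hN] with q hq using ⟨N, hq, hc⟩
  obtain ⟨v, hv⟩ := hne
  have hall := IsClopen.eq_univ ⟨isClosed_of_closure_subset fun p hp => gsieg0_step hp, ho⟩
    ⟨v, V, hV.mem_nhds hv, fun c => ⟨c, fun _ _ _ _ h => h⟩⟩
  have h : gsieg0_ctl G V univ := by
    refine isCompact_univ.induction_on (fun c => ⟨0, fun _ _ _ _ _ _ h => h.elim⟩)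
      (fun s t hst ht c => ?_) (fun s t hs ht c => ?_) (fun x _ => ?_)
    · obtain ⟨c', h⟩ := ht c
      exact ⟨c', fun m u hu h1 h2 p hp => h m u hu h1 h2 p (hst hp)⟩
    · obtain ⟨c₁, h₁⟩ := hs c
      obtain ⟨c₂, h₂⟩ := ht c
      refine ⟨max c₁ c₂, fun m u hu h1 h2 p hp => ?_⟩
      have h3 : ∀ d ≤ max c₁ c₂, ∀ p ∈ V, ‖u p‖ ≤ Real.exp (-(d * m)) := fun d hd p hp =>
        (h2 p hp).trans (by gcongr)
      exact hp.elim (h₁ m u hu h1 (h3 _ (le_max_left _ _)) p)
        (h₂ m u hu h1 (h3 _ (le_max_right _ _)) p)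
    · rw [nhdsWithin_univ]
      exact eq_univ_iff_forall.1 hall x
  obtain ⟨c, hc⟩ := h 1
  exact ⟨c, fun m s hs h1 h2 p => by simpa using hc m s hs h1 h2 p (mem_univ p)⟩

end Geo

end Fuj
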