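import Vale.Agent.P274.SCV1

/-!
Part H: definitions. Complex derivatives of real differentiable functions, Levi forms,
line bundles on etale domains (sheets), weighted norms.
-/

namespace Fuj

open MeasureTheory Set Filter Topology Complex
open scoped ENNReal ContDiff ComplexConjugate

noncomputable section

section Calc

variable {E : Type*} [NormedAddCommGroup E] [NormedSpace ℝ E] [NormedSpace ℂ E]

/-- The complex linear part of the real derivative, evaluated at ξ. -/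
def dz (f : E → ℂ) (z ξ : E) : ℂ := (fderiv ℝ f z ξ - I * fderiv ℝ f z (I • ξ)) / 2

/-- The complex antilinear part of the real derivative, evaluated at ξ. -/
def db (f : E → ℂ) (z ξ : E) : ℂ := (fderiv ℝ f z ξ + I * fderiv ℝ f z (I • ξ)) / 2

/-- `dz` of a real function. -/
def dzr (ψ : E → ℝ) (z ξ : E) : ℂ := dz (fun y => (ψ y : ℂ)) z ξ

/-- The complex Hessian, linear in ξ and antilinear in ζ. -/
def leviC (ψ : E → ℝ) (z ξ ζ : E) : ℂ := db (fun y => dzr ψ y ξ) z ζ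

/-- The Levi form. -/
def levi (ψ : E → ℝ) (z ξ : E) : ℝ := (leviC ψ z ξ ξ).re

/-- Real test functions supported in U. -/
def TestOn (U : Set E) (ζ : E → ℝ) : Prop :=
  ContDiff ℝ ∞ ζ ∧ HasCompactSupport ζ ∧ tsupport ζ ⊆ U

end Calc

/-- A line bundle on an etale domain over E: charts that are restrictions of one map π,
local trivializations τ with holomorphic transition functions, and the lifted measure. -/
structure Sheets (E W : Type*) [NormedAddCommGroup E] [NormedSpace ℂ E] [MeasurableSpace E]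
    [TopologicalSpace W] [MeasurableSpace W] (vol : Measure E) where
  ι : Type
  cnt : Countable ι
  π : W → E
  e : ι → OpenPartialHomeomorph W E
  e_eq : ∀ i, ∀ p ∈ (e i).source, e i p = π p
  cover : ∀ p, ∃ i, p ∈ (e i).source
  τ : ι → W → ℂ
  τ_meas : ∀ i, Measurable (τ i)
  τ_ne : ∀ i, ∀ p ∈ (e i).source, τ i p ≠ 0
  hol : ∀ i j, DifferentiableOn ℂ (fun z => τ j ((e i).symm z) / τ i ((e i).symm z))
    ((e i).target ∩ (e i).symm ⁻¹' (e j).source)
  μ : Measure W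
  μ_eq : ∀ i, Measure.map (e i).symm (vol.restrict (e i).target) = μ.restrict (e i).source

namespace Sheets

variable {E W : Type*} [NormedAddCommGroup E] [NormedSpace ℝ E] [NormedSpace ℂ E]
  [MeasurableSpace E] [TopologicalSpace W] [MeasurableSpace W] {vol : Measure E}
  (S : Sheets E W vol)

/-- Local form of a section. -/
def rep (i : S.ι) (f : W → ℂ) (z : E) : ℂ := S.τ i ((S.e i).symm z) * f ((S.e i).symm z)

/-- Local form of a real function. -/
def loc (i : S.ι) (h : W → ℝ) (z : E) : ℝ := h ((S.e i).symm z)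

/-- Local form of a weight. -/
def wt (i : S.ι) (φ : W → ℝ) (z : E) : ℝ :=
  φ ((S.e i).symm z) + Real.log (‖S.τ i ((S.e i).symm z)‖ ^ 2)

/-- Smooth sections. -/
def SmS (f : W → ℂ) : Prop := ∀ i, ContDiffOn ℝ ∞ (S.rep i f) (S.e i).target

/-- Smooth real functions. -/
def SmF (h : W → ℝ) : Prop := ∀ i, ContDiffOn ℝ ∞ (S.loc i h) (S.e i).target

/-- Smooth weights. -/
def SmW (φ : W → ℝ) : Prop := ∀ i, ContDiffOn ℝ ∞ (S.wt i φ) (S.e i).target

/-- Holomorphic sections. -/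
def HolS (f : W → ℂ) : Prop := ∀ i, DifferentiableOn ℂ (S.rep i f) (S.e i).target

/-- Test sections. -/
def Test (f : W → ℂ) : Prop := S.SmS f ∧ HasCompactSupport f

/-- A chart at p. -/
def idx (p : W) : S.ι := (S.cover p).choose

/-- The dbar derivative of a section in the direction ξ. -/
def Db (ξ : E) (f : W → ℂ) (p : W) : ℂ := db (S.rep (S.idx p) f) (S.π p) ξ / S.τ (S.idx p) p

/-- The Chern derivative of a section in the direction ξ. -/
def Dl (φ : W → ℝ) (ξ : E) (f : W → ℂ) (p : W) : ℂ :=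
  (dz (S.rep (S.idx p) f) (S.π p) ξ -
    dzr (S.wt (S.idx p) φ) (S.π p) ξ * S.rep (S.idx p) f (S.π p)) / S.τ (S.idx p) p

/-- The d derivative of a real function. -/
def Dz (h : W → ℝ) (p : W) (ξ : E) : ℂ := dzr (S.loc (S.idx p) h) (S.π p) ξ

/-- Curvature of a weight. -/
def LvC (φ : W → ℝ) (p : W) (ξ ζ : E) : ℂ := leviC (S.wt (S.idx p) φ) (S.π p) ξ ζ

/-- Curvature of a weight, as a quadratic form. -/
def Lv (φ : W → ℝ) (p : W) (ξ : E) : ℝ := levi (S.wt (S.idx p) φ) (S.π p) ξ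

/-- Levi form of a real function. -/
def LvF (h : W → ℝ) (p : W) (ξ : E) : ℝ := levi (S.loc (S.idx p) h) (S.π p) ξ

open Classical in
/-- The section with local form g in the chart i, extended by zero. -/
def ext (i : S.ι) (g : E → ℂ) (p : W) : ℂ :=
  if p ∈ (S.e i).source then g (S.π p) / S.τ i p else 0

open Classical in
/-- The real function with local form g in the chart i, extended by zero. -/
def extF (i : S.ι) (g : E → ℝ) (p : W) : ℝ := if p ∈ (S.e i).source then g (S.π p) else 0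

/-- Squared weighted norm. -/
def nn (φ : W → ℝ) (f : W → ℂ) : ℝ≥0∞ :=
  ∫⁻ p, ENNReal.ofReal (‖f p‖ ^ 2 * Real.exp (-φ p)) ∂S.μ

/-- Weighted scalar product. -/
def ip (φ : W → ℝ) (f g : W → ℂ) : ℂ := ∫ p, f p * conj (g p) * (Real.exp (-φ p) : ℝ) ∂S.μ

/-- Locally square integrable sections. -/
def LocL2 (f : W → ℂ) : Prop :=
  Measurable f ∧ ∀ i, ∀ K, IsCompact K → K ⊆ (S.e i).target →
    ∫⁻ z in K, ENNReal.ofReal (‖S.rep i f z‖ ^ 2) ∂vol ≠ ⊤

variable {κ : Type*} [Fintype κ]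

/-- The formal adjoint (up to sign) of dbar on forms. -/
def Div (b : Module.Basis κ ℂ E) (φ : W → ℝ) (γ : κ → W → ℂ) (p : W) : ℂ :=
  ∑ j, S.Dl φ (b j) (γ j) p

/-- The components of dbar of a form. -/
def Curl (b : Module.Basis κ ℂ E) (γ : κ → W → ℂ) (j k : κ) (p : W) : ℂ :=
  S.Db (b j) (γ k) p - S.Db (b k) (γ j) p

/-- Div γ = g and Curl γ = h in the weak sense. -/
structure Wk (b : Module.Basis κ ℂ E) (φ : W → ℝ) (γ : κ → W → ℂ) (g : W → ℂ)
    (h : κ → κ → W → ℂ) : Prop where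
  lγ : ∀ j, S.LocL2 (γ j)
  lg : S.LocL2 g
  lh : ∀ j k, S.LocL2 (h j k)
  div : ∀ i ζ, TestOn (S.e i).target ζ →
    ∫ z in (S.e i).target, ∑ j, dzr ζ z (b j) * S.rep i (γ j) z ∂vol =
      -∫ z in (S.e i).target, (ζ z : ℂ) *
        (S.rep i g z + ∑ j, dzr (S.wt i φ) z (b j) * S.rep i (γ j) z) ∂vol
  curl : ∀ i ζ, TestOn (S.e i).target ζ → ∀ j k,
    ∫ z in (S.e i).target, (conj (dzr ζ z (b j)) * S.rep i (γ k) z -
      conj (dzr ζ z (b k)) * S.rep i (γ j) z) ∂vol =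
      -∫ z in (S.e i).target, (ζ z : ℂ) * S.rep i (h j k) z ∂vol

end Sheets

/-- The vector with components γ j p. -/
def vec {E W κ : Type*} [AddCommGroup E] [Module ℂ E] [Fintype κ] (b : Module.Basis κ ℂ E)
    (γ : κ → W → ℂ) (p : W) : E := ∑ j, γ j p • b j

/-- The integrand exp (-λ φ_t) of the key lemma, with μ = λ / N. -/
def kw {X J : Type*} [Fintype J] (σ : J → X → ℂ) (b : J → ℝ) (μ t : ℝ) (p : X) : ℝ :=
  (∑ j, ‖σ j p‖ ^ 2 * Real.exp (b j * t)) ^ (-μ)

/-- The weight on X × (punctured disc), t = -log |τ|². -/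
def ew {X J : Type*} [Fintype J] (σ : J → X → ℂ) (b : J → ℝ) (μ c : ℝ) (q : X × ℂ) : ℝ :=
  kw σ b μ (-Real.log (‖q.2‖ ^ 2)) q.1 * Real.exp (c * -Real.log (‖q.2‖ ^ 2))

/-- The product of two balls. -/
def PP (E₁ E₂ : Type*) [NormedAddCommGroup E₁] [NormedAddCommGroup E₂] (r₁ r₂ : ℝ) :
    Set (E₁ × E₂) := Metric.ball 0 r₁ ×ˢ Metric.ball 0 r₂

/-- The product of two balls and the punctured unit disc. -/
def OO (E₁ E₂ : Type*) [NormedAddCommGroup E₁] [NormedAddCommGroup E₂] (r₁ r₂ : ℝ) :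
    Set ((E₁ × E₂) × ℂ) := PP E₁ E₂ r₁ r₂ ×ˢ (Metric.ball 0 1 \ {0})

/-- Data of the key lemma. -/
structure KD {X J : Type*} [NormedAddCommGroup X] [NormedSpace ℂ X] [Fintype J] (P : Set X)
    (A β : ℝ) (σ : J → X → ℂ) (b : J → ℝ) : Prop where
  hol : ∀ j, DifferentiableOn ℂ (σ j) P
  lo : ∀ p ∈ P, A⁻¹ ≤ ∑ j, ‖σ j p‖ ^ 2
  hi : ∀ p ∈ P, ∑ j, ‖σ j p‖ ^ 2 ≤ A
  bd : ∀ j, |b j| ≤ β

end

end Fuj
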