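import Vale.Agent.P271.FDefs
import Vale.Agent.P271.HDefs

/-! Problem P271, manifold layer: the working structure. Sections of line bundles are functions
on `X` (read in a measurable trivialization). -/

open MeasureTheory Set Filter Topology Metric
open scoped ENNReal ContDiff

noncomputable section
namespace Fuj

/-- A finite holomorphic atlas with a compact shrinking. -/
structure Atl (n : ℕ) (X : Type*) [TopologicalSpace X] [MeasurableSpace X] where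
  I : Type
  [fI : Fintype I]
  e : I → OpenPartialHomeomorph X (E n)
  K : I → Set X
  K_cpt : ∀ i, IsCompact (K i)
  K_sub : ∀ i, K i ⊆ (e i).source
  idx : X → I
  idx_meas : ∀ i, MeasurableSet (idx ⁻¹' {i})
  idx_mem : ∀ p, p ∈ K (idx p)
  hol : ∀ i j p, p ∈ (e i).source → p ∈ (e j).source →
    AnalyticAt ℂ (fun z => e j ((e i).symm z)) (e i p)

attribute [instance] Atl.fI

namespace Atl

variable {n : ℕ} {X : Type*} [TopologicalSpace X] [MeasurableSpace X] (A : Atl n X)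

/-- Jacobian determinant of `f` read in the chart `i`. -/
def jd (i : A.I) (f : X → E n) (p : X) : ℂ :=
  (fderiv ℂ (fun z => f ((A.e i).symm z)) (A.e i p)).det

/-- Jacobian determinant of the transition map. -/
def jac (i j : A.I) (p : X) : ℂ := A.jd i (A.e j) p

/-- Local form of a section. -/
def rep (θ : A.I → X → ℂ) (i : A.I) (s : X → ℂ) (z : E n) : ℂ :=
  θ i ((A.e i).symm z) * s ((A.e i).symm z)

/-- Holomorphic sections. -/
def Sec (θ : A.I → X → ℂ) : Submodule ℂ (X → ℂ) where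
  carrier := {s | ∀ i, AnalyticOnNhd ℂ (A.rep θ i s) (A.e i).target}
  add_mem' := fun {a b} ha hb i => by
    have : A.rep θ i (a + b) = fun z => A.rep θ i a z + A.rep θ i b z :=
      funext fun z => by simp [rep, mul_add]
    rw [this]
    exact (ha i).add (hb i)
  zero_mem' := fun i => by
    have : A.rep θ i 0 = fun _ => 0 := funext fun z => by simp [rep]
    rw [this]
    exact analyticOnNhd_const
  smul_mem' := fun c {a} ha i => by
    have : A.rep θ i (c • a) = fun z => c * A.rep θ i a z :=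
      funext fun z => by simp [rep, mul_left_comm]
    rw [this]
    exact analyticOnNhd_const.mul (ha i)

/-- Local trivializations of a holomorphic line bundle. -/
structure Coc (θ : A.I → X → ℂ) : Prop where
  meas : ∀ i, Measurable (θ i)
  ne : ∀ i, ∀ p ∈ (A.e i).source, θ i p ≠ 0
  hol : ∀ i j p, p ∈ (A.e i).source → p ∈ (A.e j).source →
    AnalyticAt ℂ (fun z => θ j ((A.e i).symm z) / θ i ((A.e i).symm z)) (A.e i p)

/-- The canonical bundle. -/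
def kap (i : A.I) : X → ℂ := (A.e i).source.indicator fun p => A.jac i (A.idx p) p

/-- `f` is holomorphic near `p`. -/
def An {F : Type*} [NormedAddCommGroup F] [NormedSpace ℂ F] (p : X) (f : X → F) : Prop :=
  AnalyticAt ℂ (fun z => f ((A.e (A.idx p)).symm z)) (A.e (A.idx p) p)

/-- Smooth plurisubharmonic weights: `‖rep θ i s‖ ^ 2 * exp (-φ i)` times Lebesgue measure does
not depend on the chart. -/
structure Wt (θ : A.I → X → ℂ) (φ : A.I → E n → ℝ) : Prop where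
  sm : ∀ i, ContDiffOn ℝ ∞ (φ i) (A.e i).target
  cmp : ∀ i j p, p ∈ (A.e i).source → p ∈ (A.e j).source →
    φ i (A.e i p) - Real.log (‖θ i p‖ ^ 2) =
      φ j (A.e j p) - Real.log (‖θ j p‖ ^ 2) - Real.log (‖A.jac i j p‖ ^ 2)
  psh : ∀ i, ∀ z ∈ (A.e i).target, ∀ ξ, 0 ≤ levi (φ i) z ξ

end Atl

/-- A compact complex manifold with a line bundle `τ` and an embedding by sections `t` of
`q L`; the trivialization is unitary. -/
structure Geo (n : ℕ) (X : Type*) [TopologicalSpace X] [MeasurableSpace X] extends Atl n X where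
  τ : I → X → ℂ
  coc : toAtl.Coc τ
  q : ℕ
  q_pos : 1 ≤ q
  N : ℕ
  t : Fin (N + 1) → X → ℂ
  t_mem : ∀ a, t a ∈ toAtl.Sec (τ ^ q)
  unit : ∀ p, ∑ a, ‖t a p‖ ^ 2 = 1
  sep : ∀ (p p' : X) (c : ℂ), (∀ a, t a p = c * t a p') → p = p'
  imm : ∀ i, ∀ p ∈ (e i).source, ∀ a, t a p ≠ 0 → Function.Injective
    (fderiv ℂ (fun z b => t b ((e i).symm z) / t a ((e i).symm z)) (e i p))

namespace Geo

variable {n : ℕ} {X : Type*} [TopologicalSpace X] [MeasurableSpace X] (G : Geo n X)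

/-- Sections of `m L`. -/
def R (m : ℕ) : Submodule ℂ (X → ℂ) := G.Sec (G.τ ^ m)

/-- Local form of a section of `m L`. -/
def rp (m : ℕ) (i : G.I) (s : X → ℂ) : E n → ℂ := G.rep (G.τ ^ m) i s

/-- Some section of `K + m L` does not vanish at `x`. -/
def Free (m : ℕ) (x : X) : Prop := ∃ σ : G.I → E n → ℂ,
  (∀ i, AnalyticOnNhd ℂ (σ i) (G.e i).target) ∧
  (∀ i j p, p ∈ (G.e i).source → p ∈ (G.e j).source →
    σ i (G.e i p) * G.τ j p ^ m = σ j (G.e j p) * G.τ i p ^ m * G.jac i j p) ∧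
  ∃ i, x ∈ (G.e i).source ∧ σ i (G.e i x) ≠ 0

/-- The local weight of the metric of `q L`. -/
def lt (i : G.I) (z : E n) : ℝ := Real.log (∑ a, ‖G.rp G.q i (G.t a) z‖ ^ 2)

/-- Regularization of `q log ∑ |ρ j|²`. -/
def reg {J : Type*} [Fintype J] (M : ℕ) (ρ : J → X → ℂ) (ε : ℝ) (i : G.I) (z : E n) : ℝ :=
  Real.log ((∑ j, ‖G.rp M i (ρ j) z‖ ^ 2) ^ G.q + ε * (∑ a, ‖G.rp G.q i (G.t a) z‖ ^ 2) ^ M)

/-- A linear Noether normalisation, etale outside the hypersurface `C = 0`. -/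
structure Nrm where
  y : Fin (n + 1) → X → ℂ
  y_mem : ∀ i, y i ∈ Submodule.span ℂ (range G.t)
  nz : ∀ p, ∃ i, y i p ≠ 0
  indep : ∀ F : MvPolynomial (Fin (n + 1)) ℂ,
    (∀ (p : X) (l : ℂ), MvPolynomial.eval (fun i => l * y i p) F = 0) → F = 0
  k : ℕ
  C : MvPolynomial (Fin (n + 1)) ℂ
  hom : C.IsHomogeneous k
  ne : C ≠ 0
  c0 : ∀ T : Fin (n + 1) → ℂ, MvPolynomial.eval T C ≠ 0 → T 0 ≠ 0
  et : ∀ i, ∀ p ∈ (G.e i).source, MvPolynomial.eval (fun j => y j p) C ≠ 0 →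
    G.jd i (fun p j => y j.succ p / y 0 p) p ≠ 0
  D₀ : ℕ
  fib : ∀ T : Fin (n + 1) → ℂ, T ≠ 0 → {p | ∃ l : ℂ, ∀ i, T i = l * y i p}.encard ≤ D₀

namespace Nrm

variable {G} (ν : G.Nrm)

/-- The section `C (y)`. -/
def cs (p : X) : ℂ := MvPolynomial.eval (fun j => ν.y j p) ν.C

/-- The etale domain. -/
def W : Set X := {p | ν.cs p ≠ 0}

/-- The affine coordinates. -/
def w (p : X) : E n := fun j => ν.y j.succ p / ν.y 0 p

/-- The polynomial `C (1, w)`. -/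
def c (z : E n) : ℂ := MvPolynomial.eval (Fin.cons 1 z) ν.C

/-- A sheet inside the chart `i`. -/
structure Sht (i : G.I) (ε : OpenPartialHomeomorph X (E n)) : Prop where
  sub : ε.source ⊆ ν.W ∩ (G.e i).source
  eq : ∀ p ∈ ε.source, ε p = ν.w p
  an : AnalyticOnNhd ℂ (fun z => G.e i (ε.symm z)) ε.target

end Nrm

/-! The statements of the manifold layer. -/

/-- Siegel's lemma. -/
def SiegelS : Prop := ∀ i, ∀ p ∈ (G.e i).source, ∃ C₀ : ℕ, ∀ m, ∀ s ∈ G.R m, s ≠ 0 →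
  ¬ Ord (G.e i p) (C₀ * m + 1) (G.rp m i s)

/-- Growth of the dimension. -/
def GrowS : Prop := (∀ m, FiniteDimensional ℂ (G.R m)) ∧
  ∃ C : ℕ, ∀ m, Module.finrank ℂ (G.R m) ≤ C * (m + 1) ^ n

/-- Integral equations all of whose roots are values. -/
def RootsS (y : Fin (n + 1) → X → ℂ) : Prop := ∃ D : ℕ, ∀ k, ∀ s ∈ G.R (k * G.q),
  ∃ χ : Polynomial (MvPolynomial (Fin (n + 1)) ℂ), χ.Monic ∧ χ.natDegree = D ∧
    (∀ j, (χ.coeff j).IsHomogeneous ((D - j) * k)) ∧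
    (∀ (p : X) (l : ℂ), χ.eval₂ (MvPolynomial.eval fun i => l * y i p) (l ^ k * s p) = 0) ∧
    ∀ (T : Fin (n + 1) → ℂ) (Y : ℂ), χ.eval₂ (MvPolynomial.eval T) Y = 0 →
      ∃ (p : X) (l : ℂ), (∀ i, T i = l * y i p) ∧ Y = l ^ k * s p

/-- Characters of the ring of sections of the multiples of `q L` are evaluations. -/
def ChowS : Prop := ∀ φ : ℕ → (X → ℂ) → ℂ,
  (∀ k, ∀ s ∈ G.R (k * G.q), ∀ s' ∈ G.R (k * G.q), φ k (s + s') = φ k s + φ k s') →
  (∀ k, ∀ s ∈ G.R (k * G.q), ∀ c : ℂ, φ k (c • s) = c * φ k s) →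
  (∀ k k', ∀ s ∈ G.R (k * G.q), ∀ s' ∈ G.R (k' * G.q), φ (k + k') (s * s') = φ k s * φ k' s') →
  φ 0 1 = 1 → (∃ a, φ 1 (G.t a) ≠ 0) →
  ∃ (p : X) (l : ℂ), l ≠ 0 ∧ ∀ k, ∀ s ∈ G.R (k * G.q), φ k s = l ^ k * s p

/-- Sections of `K + m L` from an isolated singularity. -/
def G1S : Prop := ∀ (m M J : ℕ) (ρ : Fin J → X → ℂ) (lam r : ℝ) (i : G.I) (x : X),
  x ∈ (G.e i).source → 1 ≤ M → (∀ j, ρ j ∈ G.R M) → 0 < lam → lam < m → 0 < r →
  closedBall (G.e i x) r ⊆ (G.e i).target →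
  (∀ z, ‖z - G.e i x‖ = r → IntAt z (Psi (fun j => G.rp M i (ρ j)) (lam / M))) →
  ¬ IntAt (G.e i x) (Psi (fun j => G.rp M i (ρ j)) (lam / M)) → G.Free m x

/-- Sections of `q L` in a multiplier ideal. -/
def G2S : Prop := ∀ lam : ℝ, 0 ≤ lam → ∃ q₁ : ℕ, ∀ m, q₁ ≤ m →
  ∀ (M J : ℕ) (ρ : Fin J → X → ℂ) (i : G.I) (y : X) (Q : Set (E n)),
  y ∈ (G.e i).source → 1 ≤ M → (∀ j, ρ j ∈ G.R M) → IsCompact Q → Q ⊆ (G.e i).target →
  IntAt (G.e i y) (Psi (fun j => G.rp M i (ρ j)) (lam / M)) →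
  ∃ g ∈ G.R m, g y ≠ 0 ∧ ∫⁻ z in Q, ENNReal.ofReal (‖G.rp m i g z‖ ^ 2) *
    Psi (fun j => G.rp M i (ρ j)) (lam / M) z ≠ ⊤

/-- Large multiples of `L` are base point free. -/
def BpfS : Prop := ∃ q₁ : ℕ, ∀ m, q₁ ≤ m → ∀ y : X, ∃ g ∈ G.R m, g y ≠ 0

end Geo

end Fuj
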