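import Vale.Agent.P271.HAdj0

/-! Adjointness and the Bochner-Kodaira inequality for test forms. -/

namespace Fuj

open MeasureTheory Set Filter Topology Complex
open scoped ENNReal ContDiff ComplexConjugate

noncomputable section

namespace Sheets

variable {E W : Type*} [NormedAddCommGroup E] [NormedSpace ℝ E] [NormedSpace ℂ E]
  [IsScalarTower ℝ ℂ E] [FiniteDimensional ℂ E] [MeasurableSpace E] [BorelSpace E]
  [TopologicalSpace W] [T2Space W] [MeasurableSpace W] [BorelSpace W]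
  {vol : Measure E} [vol.IsAddHaarMeasure] (S : Sheets E W vol)
  {κ : Type*} [Fintype κ] (b : Module.Basis κ ℂ E)

theorem HAdj_pt (a : κ → κ → ℂ) :
    -(∑ j, ∑ k, a k j * conj (a j k)).re ≤ ∑ j, ∑ k, ‖a j k - a k j‖ ^ 2 := by
  have h1 : ∀ x y : ℂ, ‖x - y‖ ^ 2 = ‖x‖ ^ 2 + ‖y‖ ^ 2 - 2 * (y * conj x).re := by
    intro x y
    simp only [Complex.sq_norm, Complex.normSq_apply, sub_re, sub_im, mul_re, conj_re, conj_im]
    ring
  have h2 : ∀ x y : ℂ, -(y * conj x).re ≤ ‖x - y‖ ^ 2 := by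
    intro x y
    rw [h1]
    simp only [Complex.sq_norm, Complex.normSq_apply, mul_re, conj_re, conj_im]
    nlinarith [sq_nonneg (x.re - y.re), sq_nonneg (x.im - y.im), sq_nonneg x.re, sq_nonneg x.im,
      sq_nonneg y.re, sq_nonneg y.im]
  rw [re_sum, ← Finset.sum_neg_distrib]
  refine Finset.sum_le_sum fun j _ => ?_
  rw [re_sum, ← Finset.sum_neg_distrib]
  exact Finset.sum_le_sum fun k _ => h2 _ _

theorem HAdj_self (x : ℂ) (w : ℝ) : (x * conj x * (w : ℂ)).re = ‖x‖ ^ 2 * w := by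
  rw [Complex.mul_conj, ← ofReal_mul, ofReal_re, Complex.sq_norm]

theorem HAdj_int {φ : W → ℝ} (hφ : S.SmW φ) {f : W → ℂ} (hf : S.Test f) :
    Integrable (fun p => ‖f p‖ ^ 2 * Real.exp (-φ p)) S.μ :=
  (S.integrable_test_left hφ hf hf.1).re.congr (Eventually.of_forall fun _ => HAdj_self _ _)

theorem HAdj_nn {φ : W → ℝ} (hφ : S.SmW φ) {f : W → ℂ} (hf : S.Test f) :
    S.nn φ f = ENNReal.ofReal (∫ p, ‖f p‖ ^ 2 * Real.exp (-φ p) ∂S.μ) :=
  (ofReal_integral_eq_lintegral_ofReal (S.HAdj_int hφ hf)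
    (Eventually.of_forall fun _ => by positivity)).symm

theorem HAdj_L {φ : W → ℝ} (hφ : S.SmW φ) {f g : W → ℂ} (hf : S.Test f) (hg : S.Test g)
    (ξ ζ : E) :
    Integrable (fun p => f p * conj (g p) * S.LvC φ p ξ ζ * (Real.exp (-φ p) : ℝ)) S.μ ∧
    ∫ p, f p * conj (g p) * S.LvC φ p ξ ζ * (Real.exp (-φ p) : ℝ) ∂S.μ =
      S.ip φ (S.Dl φ ξ f) (S.Dl φ ζ g) - S.ip φ (S.Db ζ f) (S.Db ξ g) := by
  have t1 := Test.Dl S hφ hf ξ
  have t2 := Test.Db S hf ζ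
  have i1 := S.integrable_test_left hφ (Test.Dl S hφ t2 ξ) hg.1
  have i2 := S.integrable_test_left hφ (Test.Db S t1 ζ) hg.1
  have e : (fun p => f p * conj (g p) * S.LvC φ p ξ ζ * (Real.exp (-φ p) : ℝ)) = fun p =>
      S.Dl φ ξ (S.Db ζ f) p * conj (g p) * (Real.exp (-φ p) : ℝ) -
        S.Db ζ (S.Dl φ ξ f) p * conj (g p) * (Real.exp (-φ p) : ℝ) := by
    funext p
    rw [← sub_mul, ← sub_mul, S.comm hφ hf.1]
    ring
  rw [e]
  refine ⟨i1.sub i2, ?_⟩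
  rw [integral_sub i1 i2]
  have a1 := S.adj hφ t1.1 hg.1 (Or.inl t1.2) ζ
  have a2 := congrArg conj (S.adj hφ hg.1 t2.1 (Or.inl hg.2) ξ)
  rw [map_neg, S.ip_conj, S.ip_conj] at a2
  change S.ip φ (S.Dl φ ξ (S.Db ζ f)) g - S.ip φ (S.Db ζ (S.Dl φ ξ f)) g = _
  rw [a1, a2]
  ring

/-- ‖Div γ‖² = Σ_jk ip (Dl_j γ_j) (Dl_k γ_k) = -Σ ip (Db_k Dl_j γ_j) γ_k
= Σ ip (LvC_jk γ_j) γ_k - Σ ip (Dl_j Db_k γ_j) γ_k = ∫ Lv + Σ ip (Db_k γ_j) (Db_j γ_k) (adj,
ip_conj, comm, Lv_vec), and Σ_jk |Curl_jk|² = 2 Σ|Db_k γ_j|² - 2 Re Σ Db_k γ_j conj (Db_j γ_k), so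
-Re Σ Db_k γ_j conj (Db_j γ_k) ≤ Σ |Curl_jk|² pointwise (for x = Σ|a_jk|², y = Re Σ a_jk conj a_kj:
|y| ≤ x, so -y ≤ 2 x - 2 y). -/
theorem bkn {φ : W → ℝ} (hφ : S.SmW φ) (hpos : ∀ p ξ, 0 ≤ S.Lv φ p ξ) {γ : κ → W → ℂ}
    (hγ : ∀ j, S.Test (γ j)) :
    ∫⁻ p, ENNReal.ofReal (S.Lv φ p (vec b γ p) * Real.exp (-φ p)) ∂S.μ ≤
      S.nn φ (S.Div b φ γ) + ∑ j, ∑ k, S.nn φ (S.Curl b γ j k) := by
  let w : W → ℝ := fun p => Real.exp (-φ p)
  have hL := fun j k => S.HAdj_L hφ (hγ j) (hγ k) (b j) (b k)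
  have iD : ∀ j k, Integrable (fun p => S.Dl φ (b j) (γ j) p * conj (S.Dl φ (b k) (γ k) p) *
      (w p : ℝ)) S.μ := fun j k =>
    S.integrable_test_left hφ (Test.Dl S hφ (hγ j) _) (Test.Dl S hφ (hγ k) _).1
  have iB : ∀ j k, Integrable (fun p => S.Db (b k) (γ j) p * conj (S.Db (b j) (γ k) p) *
      (w p : ℝ)) S.μ := fun j k =>
    S.integrable_test_left hφ (Test.Db S (hγ j) _) (Test.Db S (hγ k) _).1
  have eL : (fun p => ((S.Lv φ p (vec b γ p) * w p : ℝ) : ℂ)) = fun p =>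
      ∑ j, ∑ k, γ j p * conj (γ k p) * S.LvC φ p (b j) (b k) * (w p : ℝ) := by
    funext p
    rw [ofReal_mul, S.Lv_vec b hφ]
    simp only [Finset.sum_mul]
  have iL : Integrable (fun p => ((S.Lv φ p (vec b γ p) * w p : ℝ) : ℂ)) S.μ := by
    rw [eL]
    exact integrable_finsetSum _ fun j _ => integrable_finsetSum _ fun k _ => (hL j k).1
  have iL' : Integrable (fun p => S.Lv φ p (vec b γ p) * w p) S.μ :=
    iL.re.congr (Eventually.of_forall fun _ => ofReal_re _)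
  have eD : (fun p => ((‖S.Div b φ γ p‖ ^ 2 * w p : ℝ) : ℂ)) = fun p =>
      ∑ j, ∑ k, S.Dl φ (b j) (γ j) p * conj (S.Dl φ (b k) (γ k) p) * (w p : ℝ) := by
    funext p
    rw [ofReal_mul, Complex.sq_norm, ← Complex.mul_conj, Div, map_sum, Finset.sum_mul_sum]
    simp only [Finset.sum_mul]
  have iS : Integrable (fun p => ∑ j, ∑ k,
      S.Db (b k) (γ j) p * conj (S.Db (b j) (γ k) p) * (w p : ℝ)) S.μ :=
    integrable_finsetSum _ fun j _ => integrable_finsetSum _ fun k _ => iB j k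
  have key : ((∫ p, S.Lv φ p (vec b γ p) * w p ∂S.μ : ℝ) : ℂ) =
      ((∫ p, ‖S.Div b φ γ p‖ ^ 2 * w p ∂S.μ : ℝ) : ℂ) - ∫ p, ∑ j, ∑ k,
        S.Db (b k) (γ j) p * conj (S.Db (b j) (γ k) p) * (w p : ℝ) ∂S.μ := by
    rw [← integral_complex_ofReal, ← integral_complex_ofReal, eL, eD, integral_finsetSum _ fun j _ => integrable_finsetSum _ fun k _ => (hL j k).1,
      integral_finsetSum _ fun j _ => integrable_finsetSum _ fun k _ => iD j k,
      integral_finsetSum _ fun j _ => integrable_finsetSum _ fun k _ => iB j k,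
      ← Finset.sum_sub_distrib]
    refine Finset.sum_congr rfl fun j _ => ?_
    rw [integral_finsetSum _ fun k _ => (hL j k).1, integral_finsetSum _ fun k _ => iD j k,
      integral_finsetSum _ fun k _ => iB j k, ← Finset.sum_sub_distrib]
    exact Finset.sum_congr rfl fun k _ => (hL j k).2
  have iC := fun j k => S.HAdj_int hφ (S.test_Curl b hγ j k)
  have hle : -(∫ p, ∑ j, ∑ k, S.Db (b k) (γ j) p * conj (S.Db (b j) (γ k) p) *
      (w p : ℝ) ∂S.μ).re ≤ ∑ j, ∑ k, ∫ p, ‖S.Curl b γ j k p‖ ^ 2 * w p ∂S.μ := by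
    have e1 := integral_re iS
    simp only [RCLike.re_to_complex] at e1
    have e2 : ∑ j, ∑ k, ∫ p, ‖S.Curl b γ j k p‖ ^ 2 * w p ∂S.μ =
        ∫ p, ∑ j, ∑ k, ‖S.Curl b γ j k p‖ ^ 2 * w p ∂S.μ := by
      rw [integral_finsetSum _ fun j _ => integrable_finsetSum _ fun k _ => iC j k]
      exact Finset.sum_congr rfl fun j _ => (integral_finsetSum _ fun k _ => iC j k).symm
    rw [← e1, ← integral_neg, e2]
    refine integral_mono iS.re.neg
      (integrable_finsetSum _ fun j _ => integrable_finsetSum _ fun k _ => iC j k) fun p => ?_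
    have h1 := mul_le_mul_of_nonneg_right (HAdj_pt fun j k => S.Db (b j) (γ k) p)
      (Real.exp_pos (-φ p)).le
    simp only [← Finset.sum_mul, Curl]
    rw [re_mul_ofReal, ← neg_mul]
    exact h1
  have hre := congrArg Complex.re key
  rw [ofReal_re, sub_re, ofReal_re] at hre
  rw [← ofReal_integral_eq_lintegral_ofReal iL'
    (Eventually.of_forall fun p => mul_nonneg (hpos _ _) (Real.exp_pos _).le),
    S.HAdj_nn hφ (S.test_Div b hφ hγ)]
  simp only [fun j k => S.HAdj_nn hφ (S.test_Curl b hγ j k)]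
  have n1 : ∀ f : W → ℂ, 0 ≤ ∫ p, ‖f p‖ ^ 2 * Real.exp (-φ p) ∂S.μ := fun f =>
    integral_nonneg fun _ => by positivity
  simp only [← ENNReal.ofReal_sum_of_nonneg fun _ _ => n1 _]
  rw [← ENNReal.ofReal_sum_of_nonneg fun _ _ => Finset.sum_nonneg fun _ _ => n1 _,
    ← ENNReal.ofReal_add (n1 _) (Finset.sum_nonneg fun _ _ => Finset.sum_nonneg fun _ _ => n1 _)]
  exact ENNReal.ofReal_le_ofReal (by linarith)

end Sheets

end

end Fuj
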