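import Vale.Agent.P271.HDefs

/-! Calculus of dz and db. -/

namespace Fuj

open MeasureTheory Set Filter Topology Complex
open scoped ENNReal ContDiff ComplexConjugate

noncomputable section

variable {E : Type*} [NormedAddCommGroup E] [NormedSpace ℝ E] [NormedSpace ℂ E]
  [IsScalarTower ℝ ℂ E]

theorem c0_smul (L : E →L[ℝ] ℂ) (c : ℂ) (ξ : E) :
    L (c • ξ) = c.re * L ξ + c.im * L (I • ξ) := by
  have h : c • ξ = c.re • ξ + c.im • (I • ξ) := by
    rw [← smul_assoc, ← algebraMap_smul ℂ c.re ξ, ← add_smul]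
    congr 1
    simp
  rw [h, map_add, map_smul, map_smul, real_smul, real_smul]

theorem c0_smul' (L : E →L[ℝ] ℂ) (c : ℂ) (ξ : E) :
    L (I • c • ξ) = c.re * L (I • ξ) - c.im * L ξ := by
  rw [smul_smul, c0_smul]
  simp only [mul_re, mul_im, I_re, I_im, zero_mul, one_mul, zero_sub, zero_add, ofReal_neg]
  ring

theorem c0_conj (f : E → ℂ) (z ξ : E) :
    fderiv ℝ (fun y => conj (f y)) z ξ = conj (fderiv ℝ f z ξ) := by
  have := conjCLE.comp_fderiv (f := f) (x := z)
  exact congrArg (fun L : E →L[ℝ] ℂ => L ξ) this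

theorem dz_add_dir (f : E → ℂ) (z ξ ζ : E) : dz f z (ξ + ζ) = dz f z ξ + dz f z ζ := by
  simp only [dz, smul_add, map_add]
  ring

/-- Write c = a + b I, use real linearity (IsScalarTower: a • ξ = (a : ℂ) • ξ). -/
theorem dz_smul_dir (f : E → ℂ) (z ξ : E) (c : ℂ) : dz f z (c • ξ) = c * dz f z ξ := by
  rw [dz, dz, c0_smul', c0_smul]
  conv_rhs => rw [← re_add_im c]
  linear_combination (c.im * fderiv ℝ f z (I • ξ) / 2) * I_mul_I

theorem db_add_dir (f : E → ℂ) (z ξ ζ : E) : db f z (ξ + ζ) = db f z ξ + db f z ζ := by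
  simp only [db, smul_add, map_add]
  ring

theorem db_smul_dir (f : E → ℂ) (z ξ : E) (c : ℂ) : db f z (c • ξ) = conj c * db f z ξ := by
  rw [db, db, c0_smul', c0_smul]
  conv_rhs => rw [← re_add_im c, map_add, map_mul, conj_ofReal, conj_ofReal, conj_I]
  linear_combination (c.im * fderiv ℝ f z (I • ξ) / 2) * I_mul_I

theorem dz_sum_dir {κ : Type*} (s : Finset κ) (f : E → ℂ) (z : E) (c : κ → ℂ) (v : κ → E) :
    dz f z (∑ j ∈ s, c j • v j) = ∑ j ∈ s, c j * dz f z (v j) := by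
  classical
  induction s using Finset.induction_on with
  | empty => simp [dz]
  | insert a s ha ih => rw [Finset.sum_insert ha, Finset.sum_insert ha, dz_add_dir, ih, dz_smul_dir]

theorem db_sum_dir {κ : Type*} (s : Finset κ) (f : E → ℂ) (z : E) (c : κ → ℂ) (v : κ → E) :
    db f z (∑ j ∈ s, c j • v j) = ∑ j ∈ s, conj (c j) * db f z (v j) := by
  classical
  induction s using Finset.induction_on with
  | empty => simp [db]
  | insert a s ha ih => rw [Finset.sum_insert ha, Finset.sum_insert ha, db_add_dir, ih, db_smul_dir]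

theorem dz_add_db (f : E → ℂ) (z ξ : E) : dz f z ξ + db f z ξ = fderiv ℝ f z ξ := by
  rw [dz, db]
  ring

theorem dz_congr {f g : E → ℂ} {z : E} (h : f =ᶠ[𝓝 z] g) (ξ : E) : dz f z ξ = dz g z ξ := by
  rw [dz, dz, h.fderiv_eq]

theorem db_congr {f g : E → ℂ} {z : E} (h : f =ᶠ[𝓝 z] g) (ξ : E) : db f z ξ = db g z ξ := by
  rw [db, db, h.fderiv_eq]

theorem dzr_congr {f g : E → ℝ} {z : E} (h : f =ᶠ[𝓝 z] g) (ξ : E) : dzr f z ξ = dzr g z ξ :=
  dz_congr (h.mono fun _ hy => congrArg ofReal hy) ξ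

theorem dz_const (c : ℂ) (z ξ : E) : dz (fun _ => c) z ξ = 0 := by
  simp [dz]

theorem db_const (c : ℂ) (z ξ : E) : db (fun _ => c) z ξ = 0 := by
  simp [db]

theorem dzr_const (c : ℝ) (z ξ : E) : dzr (fun _ => c) z ξ = 0 := dz_const _ z ξ

theorem dz_add {f g : E → ℂ} {z : E} (hf : DifferentiableAt ℝ f z) (hg : DifferentiableAt ℝ g z)
    (ξ : E) : dz (fun y => f y + g y) z ξ = dz f z ξ + dz g z ξ := by
  simp only [dz, fderiv_fun_add hf hg, add_apply]
  ring

theorem db_add {f g : E → ℂ} {z : E} (hf : DifferentiableAt ℝ f z) (hg : DifferentiableAt ℝ g z)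
    (ξ : E) : db (fun y => f y + g y) z ξ = db f z ξ + db g z ξ := by
  simp only [db, fderiv_fun_add hf hg, add_apply]
  ring

theorem dz_sub {f g : E → ℂ} {z : E} (hf : DifferentiableAt ℝ f z) (hg : DifferentiableAt ℝ g z)
    (ξ : E) : dz (fun y => f y - g y) z ξ = dz f z ξ - dz g z ξ := by
  simp only [dz, fderiv_fun_sub hf hg, sub_apply]
  ring

theorem db_sub {f g : E → ℂ} {z : E} (hf : DifferentiableAt ℝ f z) (hg : DifferentiableAt ℝ g z)
    (ξ : E) : db (fun y => f y - g y) z ξ = db f z ξ - db g z ξ := by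
  simp only [db, fderiv_fun_sub hf hg, sub_apply]
  ring

theorem dz_mul {f g : E → ℂ} {z : E} (hf : DifferentiableAt ℝ f z) (hg : DifferentiableAt ℝ g z)
    (ξ : E) : dz (fun y => f y * g y) z ξ = dz f z ξ * g z + f z * dz g z ξ := by
  simp only [dz, fderiv_fun_mul hf hg, add_apply, smul_apply, smul_eq_mul]
  ring

theorem db_mul {f g : E → ℂ} {z : E} (hf : DifferentiableAt ℝ f z) (hg : DifferentiableAt ℝ g z)
    (ξ : E) : db (fun y => f y * g y) z ξ = db f z ξ * g z + f z * db g z ξ := by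
  simp only [db, fderiv_fun_mul hf hg, add_apply, smul_apply, smul_eq_mul]
  ring

theorem dz_sum {κ : Type*} (s : Finset κ) {f : κ → E → ℂ} {z : E}
    (hf : ∀ j ∈ s, DifferentiableAt ℝ (f j) z) (ξ : E) :
    dz (fun y => ∑ j ∈ s, f j y) z ξ = ∑ j ∈ s, dz (f j) z ξ := by
  simp only [dz, fderiv_fun_sum hf, sum_apply, Finset.mul_sum, ← Finset.sum_sub_distrib,
    Finset.sum_div]

theorem db_sum {κ : Type*} (s : Finset κ) {f : κ → E → ℂ} {z : E}
    (hf : ∀ j ∈ s, DifferentiableAt ℝ (f j) z) (ξ : E) :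
    db (fun y => ∑ j ∈ s, f j y) z ξ = ∑ j ∈ s, db (f j) z ξ := by
  simp only [db, fderiv_fun_sum hf, sum_apply, Finset.mul_sum, ← Finset.sum_add_distrib,
    Finset.sum_div]

/-- conjCLE.comp_fderiv -/
theorem dz_conj (f : E → ℂ) (z ξ : E) : dz (fun y => conj (f y)) z ξ = conj (db f z ξ) := by
  simp only [dz, db, c0_conj, map_div₀, map_add, map_mul, conj_I, map_ofNat]
  ring

theorem db_conj (f : E → ℂ) (z ξ : E) : db (fun y => conj (f y)) z ξ = conj (dz f z ξ) := by
  simp only [dz, db, c0_conj, map_div₀, map_sub, map_mul, conj_I, map_ofNat]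
  ring

theorem db_ofReal (ψ : E → ℝ) (z ξ : E) : db (fun y => (ψ y : ℂ)) z ξ = conj (dzr ψ z ξ) := by
  rw [dzr, ← db_conj]
  simp only [conj_ofReal]

end

end Fuj
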