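import Vale.Agent.P271.HCalc0

/-! Calculus of dz and db. -/

namespace Fuj

open MeasureTheory Set Filter Topology Complex
open scoped ENNReal ContDiff ComplexConjugate

noncomputable section

variable {E : Type*} [NormedAddCommGroup E] [NormedSpace ℝ E] [NormedSpace ℂ E]
  [IsScalarTower ℝ ℂ E]

omit [NormedSpace ℂ E] [IsScalarTower ℝ ℂ E] in
theorem hCalc1_re {ψ : E → ℝ} {z : E} (h : DifferentiableAt ℝ ψ z) :
    HasFDerivAt (fun y => (ψ y : ℂ)) (ofRealCLM.comp (fderiv ℝ ψ z)) z :=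
  ofRealCLM.hasFDerivAt.comp z h.hasFDerivAt

theorem hCalc1_res {F : Type*} [NormedAddCommGroup F] [NormedSpace ℝ F] [NormedSpace ℂ F]
    [IsScalarTower ℝ ℂ F] {f : E → F} {z : E} (hf : DifferentiableAt ℂ f z) (ξ : E) :
    fderiv ℝ f z ξ = fderiv ℂ f z ξ := by
  rw [hf.fderiv_restrictScalars ℝ]; rfl

omit [NormedSpace ℂ E] [IsScalarTower ℝ ℂ E] in
theorem hCalc1_snd {f : E → ℂ} {z : E} (hf : ContDiffAt ℝ 2 f z) (a b : E) (c : ℂ) (v : E) :
    fderiv ℝ (fun y => (fderiv ℝ f y a + c * fderiv ℝ f y b) / 2) z v =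
      (fderiv ℝ (fderiv ℝ f) z v a + c * fderiv ℝ (fderiv ℝ f) z v b) / 2 := by
  have hd : HasFDerivAt (fderiv ℝ f) (fderiv ℝ (fderiv ℝ f) z) z :=
    ((hf.fderiv_right (m := 1) (by norm_num)).differentiableAt one_ne_zero).hasFDerivAt
  have h1 : ∀ a : E, HasFDerivAt (fun y => fderiv ℝ f y a)
      ((ContinuousLinearMap.apply ℝ ℂ a).comp (fderiv ℝ (fderiv ℝ f) z)) z := fun a =>
    (ContinuousLinearMap.apply ℝ ℂ a).hasFDerivAt.comp z hd
  have h2 := ((h1 a).add ((h1 b).const_mul c)).mul_const (2⁻¹ : ℂ)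
  simp only [div_eq_mul_inv]
  refine (congrArg (fun L : E →L[ℝ] ℂ => L v) h2.fderiv).trans ?_
  simp
  ring

theorem dzr_eq {ψ : E → ℝ} {z : E} (h : DifferentiableAt ℝ ψ z) (ξ : E) :
    dzr ψ z ξ = ((fderiv ℝ ψ z ξ : ℝ) - I * (fderiv ℝ ψ z (I • ξ) : ℝ)) / 2 := by
  simp [dzr, dz, (hCalc1_re h).fderiv]

theorem dzr_add {f g : E → ℝ} {z : E} (hf : DifferentiableAt ℝ f z) (hg : DifferentiableAt ℝ g z)
    (ξ : E) : dzr (fun y => f y + g y) z ξ = dzr f z ξ + dzr g z ξ := by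
  simp only [dzr, ofReal_add]
  exact dz_add (hCalc1_re hf).differentiableAt (hCalc1_re hg).differentiableAt ξ

theorem dzr_mul {f g : E → ℝ} {z : E} (hf : DifferentiableAt ℝ f z) (hg : DifferentiableAt ℝ g z)
    (ξ : E) : dzr (fun y => f y * g y) z ξ = dzr f z ξ * g z + f z * dzr g z ξ := by
  simp only [dzr, ofReal_mul]
  exact dz_mul (hCalc1_re hf).differentiableAt (hCalc1_re hg).differentiableAt ξ

theorem dzr_const_mul {f : E → ℝ} {z : E} (hf : DifferentiableAt ℝ f z) (c : ℝ) (ξ : E) :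
    dzr (fun y => c * f y) z ξ = c * dzr f z ξ := by
  rw [dzr_mul (differentiableAt_const c) hf, dzr_const]; simp

theorem dzr_comp {ψ : E → ℝ} {h : ℝ → ℝ} {h' : ℝ} {z : E} (hψ : DifferentiableAt ℝ ψ z)
    (hh : HasDerivAt h h' (ψ z)) (ξ : E) : dzr (fun y => h (ψ y)) z ξ = h' * dzr ψ z ξ := by
  have h1 : HasFDerivAt (fun y => h (ψ y)) (h' • fderiv ℝ ψ z) z :=
    hh.comp_hasFDerivAt z hψ.hasFDerivAt
  rw [dzr_eq h1.differentiableAt, dzr_eq hψ, h1.fderiv]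
  simp only [_root_.smul_apply, smul_eq_mul, ofReal_mul]
  ring

theorem db_hol {f : E → ℂ} {z : E} (hf : DifferentiableAt ℂ f z) (ξ : E) : db f z ξ = 0 := by
  simp only [db, hCalc1_res hf, map_smul, smul_eq_mul]
  linear_combination (fderiv ℂ f z ξ / 2) * I_mul_I

theorem dz_hol {f : E → ℂ} {z : E} (hf : DifferentiableAt ℂ f z) (ξ : E) :
    dz f z ξ = fderiv ℂ f z ξ := by
  simp only [dz, hCalc1_res hf, map_smul, smul_eq_mul]
  linear_combination (-fderiv ℂ f z ξ / 2) * I_mul_I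

/-- Cauchy-Riemann: fderiv ℝ f z commutes with I, so it is the restriction of a complex linear
map (differentiableAt_iff_restrictScalars). -/
theorem differentiableAt_of_db {f : E → ℂ} {z : E} (hf : DifferentiableAt ℝ f z)
    (h : ∀ ξ, db f z ξ = 0) : DifferentiableAt ℂ f z := by
  have e : ∀ ξ, fderiv ℝ f z ξ = dz f z ξ := fun ξ => by rw [← dz_add_db, h, add_zero]
  let L : E →L[ℂ] ℂ :=
    { toFun := fderiv ℝ f z
      map_add' := map_add _
      map_smul' := fun c ξ => by rw [e, e, dz_smul_dir]; rfl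
      cont := (fderiv ℝ f z).continuous }
  exact (differentiableAt_iff_restrictScalars ℝ hf).2 ⟨L, by ext; rfl⟩

theorem dzr_normSq {f : E → ℂ} {z : E} (hf : DifferentiableAt ℂ f z) (ξ : E) :
    dzr (fun y => ‖f y‖ ^ 2) z ξ = fderiv ℂ f z ξ * conj (f z) := by
  have hr : DifferentiableAt ℝ f z := hf.restrictScalars ℝ
  have e : (fun y => ((‖f y‖ ^ 2 : ℝ) : ℂ)) = fun y => f y * conj (f y) :=
    funext fun y => by rw [mul_conj, normSq_eq_norm_sq]
  rw [dzr, e, dz_mul (g := fun y => conj (f y)) hr (conjCLE.differentiableAt.comp z hr), dz_conj,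
    db_hol hf, dz_hol hf]
  simp

theorem dzr_log_normSq {f : E → ℂ} {z : E} (hf : DifferentiableAt ℂ f z) (h0 : f z ≠ 0) (ξ : E) :
    dzr (fun y => Real.log (‖f y‖ ^ 2)) z ξ = fderiv ℂ f z ξ / f z := by
  have hr : DifferentiableAt ℝ f z := hf.restrictScalars ℝ
  have hn : ‖f z‖ ^ 2 ≠ 0 := pow_ne_zero 2 (norm_ne_zero_iff.2 h0)
  rw [dzr_comp (ψ := fun y => ‖f y‖ ^ 2) (hr.norm_sq ℂ) (Real.hasDerivAt_log hn), dzr_normSq hf,
    ofReal_inv, ← normSq_eq_norm_sq, ← mul_conj]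
  have : conj (f z) ≠ 0 := by simpa using h0
  field_simp

theorem norm_dz_le (f : E → ℂ) (z ξ : E) : ‖dz f z ξ‖ ≤ ‖fderiv ℝ f z‖ * ‖ξ‖ := by
  have h1 := (fderiv ℝ f z).le_opNorm ξ
  have h2 := (fderiv ℝ f z).le_opNorm (I • ξ)
  have h3 := norm_sub_le (fderiv ℝ f z ξ) (I * fderiv ℝ f z (I • ξ))
  simp only [norm_smul, norm_mul, norm_I, one_mul] at h2 h3
  rw [dz, norm_div, Complex.norm_two]
  linarith

theorem norm_db_le (f : E → ℂ) (z ξ : E) : ‖db f z ξ‖ ≤ ‖fderiv ℝ f z‖ * ‖ξ‖ := by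
  have h1 := (fderiv ℝ f z).le_opNorm ξ
  have h2 := (fderiv ℝ f z).le_opNorm (I • ξ)
  have h3 := norm_add_le (fderiv ℝ f z ξ) (I * fderiv ℝ f z (I • ξ))
  simp only [norm_smul, norm_mul, norm_I, one_mul] at h2 h3
  rw [db, norm_div, Complex.norm_two]
  linarith

theorem norm_dzr_le {ψ : E → ℝ} {z : E} (h : DifferentiableAt ℝ ψ z) (ξ : E) :
    ‖dzr ψ z ξ‖ ≤ ‖fderiv ℝ ψ z‖ * ‖ξ‖ := by
  have h1 := (fderiv ℝ ψ z).le_opNorm ξ
  have h2 := (fderiv ℝ ψ z).le_opNorm (I • ξ)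
  have h3 := norm_sub_le ((fderiv ℝ ψ z ξ : ℝ) : ℂ) (I * (fderiv ℝ ψ z (I • ξ) : ℝ))
  simp only [norm_smul, norm_mul, norm_I, one_mul, Complex.norm_real] at h2 h3
  rw [dzr_eq h, norm_div, Complex.norm_two]
  linarith

theorem contDiffOn_dz {f : E → ℂ} {U : Set E} (hU : IsOpen U) (hf : ContDiffOn ℝ ∞ f U) (ξ : E) :
    ContDiffOn ℝ ∞ (fun z => dz f z ξ) U := by
  have h := hf.fderiv_of_isOpen hU (m := ∞) (by simp)
  exact ((h.clm_apply contDiffOn_const).sub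
    (contDiffOn_const.mul (h.clm_apply contDiffOn_const))).div_const 2

theorem contDiffOn_db {f : E → ℂ} {U : Set E} (hU : IsOpen U) (hf : ContDiffOn ℝ ∞ f U) (ξ : E) :
    ContDiffOn ℝ ∞ (fun z => db f z ξ) U := by
  have h := hf.fderiv_of_isOpen hU (m := ∞) (by simp)
  exact ((h.clm_apply contDiffOn_const).add
    (contDiffOn_const.mul (h.clm_apply contDiffOn_const))).div_const 2

theorem contDiffOn_dzr {f : E → ℝ} {U : Set E} (hU : IsOpen U) (hf : ContDiffOn ℝ ∞ f U) (ξ : E) :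
    ContDiffOn ℝ ∞ (fun z => dzr f z ξ) U :=
  contDiffOn_dz hU (ofRealCLM.contDiff.comp_contDiffOn hf) ξ

theorem contDiffOn_leviC {f : E → ℝ} {U : Set E} (hU : IsOpen U) (hf : ContDiffOn ℝ ∞ f U)
    (ξ ζ : E) : ContDiffOn ℝ ∞ (fun z => leviC f z ξ ζ) U :=
  contDiffOn_db hU (contDiffOn_dzr hU hf ξ) ζ

/-- Symmetry of second derivatives (ContDiffAt.isSymmSndFDerivAt). -/
theorem dz_db_comm {f : E → ℂ} {z : E} (hf : ContDiffAt ℝ 2 f z) (ξ ζ : E) :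
    dz (fun y => db f y ζ) z ξ = db (fun y => dz f y ξ) z ζ := by
  have hs := hf.isSymmSndFDerivAt (by simp)
  simp only [dz, db, sub_eq_add_neg, ← neg_mul, hCalc1_snd hf, hs.eq ζ, hs.eq (I • ζ)]
  ring

theorem db_db_comm {f : E → ℂ} {z : E} (hf : ContDiffAt ℝ 2 f z) (ξ ζ : E) :
    db (fun y => db f y ζ) z ξ = db (fun y => db f y ξ) z ζ := by
  have hs := hf.isSymmSndFDerivAt (by simp)
  simp only [db, hCalc1_snd hf]
  rw [hs.eq ζ ξ, hs.eq ζ (I • ξ), hs.eq (I • ζ) ξ, hs.eq (I • ζ) (I • ξ)]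
  ring

theorem dz_comp_hol {E' : Type*} [NormedAddCommGroup E'] [NormedSpace ℝ E'] [NormedSpace ℂ E']
    [IsScalarTower ℝ ℂ E'] {f : E' → ℂ} {Φ : E → E'} {z : E} (hf : DifferentiableAt ℝ f (Φ z))
    (hΦ : DifferentiableAt ℂ Φ z) (ξ : E) :
    dz (fun y => f (Φ y)) z ξ = dz f (Φ z) (fderiv ℂ Φ z ξ) := by
  simp only [dz, fderiv_fun_comp z hf (hΦ.restrictScalars ℝ), ContinuousLinearMap.comp_apply,
    hCalc1_res hΦ, map_smul]

theorem db_comp_hol {E' : Type*} [NormedAddCommGroup E'] [NormedSpace ℝ E'] [NormedSpace ℂ E']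
    [IsScalarTower ℝ ℂ E'] {f : E' → ℂ} {Φ : E → E'} {z : E} (hf : DifferentiableAt ℝ f (Φ z))
    (hΦ : DifferentiableAt ℂ Φ z) (ξ : E) :
    db (fun y => f (Φ y)) z ξ = db f (Φ z) (fderiv ℂ Φ z ξ) := by
  simp only [db, fderiv_fun_comp z hf (hΦ.restrictScalars ℝ), ContinuousLinearMap.comp_apply,
    hCalc1_res hΦ, map_smul]

/-- Vale.Agent.P274.analyticOnNhd_of_differentiableOn, then restrict scalars. -/
theorem contDiffOn_of_hol {F : Type*} [NormedAddCommGroup F] [NormedSpace ℝ F] [NormedSpace ℂ F]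
    [IsScalarTower ℝ ℂ F] [CompleteSpace F] [FiniteDimensional ℂ E] {f : E → F} {U : Set E}
    (hU : IsOpen U) (hf : DifferentiableOn ℂ f U) : ContDiffOn ℝ ∞ f U :=
  ((Vale.Agent.P274.analyticOnNhd_of_differentiableOn hU hf).contDiffOn_of_completeSpace
    (n := ∞)).restrict_scalars ℝ

end

end Fuj
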