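import Vale.Agent.P271.HCalc1

/-! Calculus of Levi forms. -/

namespace Fuj

open MeasureTheory Set Filter Topology Complex
open scoped ENNReal ContDiff ComplexConjugate

noncomputable section

variable {E : Type*} [NormedAddCommGroup E] [NormedSpace ℝ E] [NormedSpace ℂ E]
  [IsScalarTower ℝ ℂ E]

theorem leviC_congr {f g : E → ℝ} {z : E} (h : f =ᶠ[𝓝 z] g) (ξ ζ : E) :
    leviC f z ξ ζ = leviC g z ξ ζ :=
  db_congr (h.eventuallyEq_nhds.mono fun _ hy => dzr_congr hy ξ) ζ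

theorem levi_congr {f g : E → ℝ} {z : E} (h : f =ᶠ[𝓝 z] g) (ξ : E) :
    levi f z ξ = levi g z ξ := congrArg re (leviC_congr h ξ ξ)

omit [NormedSpace ℂ E] [IsScalarTower ℝ ℂ E] in
theorem hcalc2a_ofReal {ψ : E → ℝ} {z : E} (h : ContDiffAt ℝ 2 ψ z) :
    ContDiffAt ℝ 2 (fun y => (ψ y : ℂ)) z := ofRealCLM.contDiff.contDiffAt.comp z h

omit [NormedSpace ℂ E] [IsScalarTower ℝ ℂ E] in
theorem hcalc2a_ev {ψ : E → ℝ} {z : E} (h : ContDiffAt ℝ 2 ψ z) :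
    ∀ᶠ y in 𝓝 z, DifferentiableAt ℝ ψ y :=
  (h.eventually (by simp)).mono fun _ hy => hy.differentiableAt (by simp)

theorem differentiableAt_dzr {ψ : E → ℝ} {z : E} (h : ContDiffAt ℝ 2 ψ z) (ξ : E) :
    DifferentiableAt ℝ (fun y => dzr ψ y ξ) z := by
  have h1 : DifferentiableAt ℝ (fderiv ℝ fun y => (ψ y : ℂ)) z :=
    ((hcalc2a_ofReal h).fderiv_right (m := 1) (by norm_num)).differentiableAt (by simp)
  have h2 : ∀ v, DifferentiableAt ℝ (fun y => fderiv ℝ (fun y => (ψ y : ℂ)) y v) z := fun v =>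
    h1.clm_apply (differentiableAt_const v)
  simp only [dzr, dz, div_eq_mul_inv]
  exact ((h2 ξ).sub ((h2 _).const_mul I)).mul_const _

/-- dz_db_comm, db_ofReal, dz_conj. -/
theorem leviC_herm {ψ : E → ℝ} {z : E} (h : ContDiffAt ℝ 2 ψ z) (ξ ζ : E) :
    leviC ψ z ζ ξ = conj (leviC ψ z ξ ζ) := by
  rw [leviC, leviC, ← dz_conj]
  simp only [← db_ofReal]
  exact (dz_db_comm (hcalc2a_ofReal h) ζ ξ).symm

theorem hcalc2a_db_cmul {f : E → ℂ} {z : E} (hf : DifferentiableAt ℝ f z) (c : ℂ) (ξ : E) :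
    db (fun y => c * f y) z ξ = c * db f z ξ := by
  rw [db_mul (differentiableAt_const c) hf, db_const, zero_mul, zero_add]

theorem leviC_add_left {ψ : E → ℝ} {z : E} (h : ContDiffAt ℝ 2 ψ z) (ξ ξ' ζ : E) :
    leviC ψ z (ξ + ξ') ζ = leviC ψ z ξ ζ + leviC ψ z ξ' ζ := by
  rw [leviC, leviC, leviC, ← db_add (differentiableAt_dzr h ξ) (differentiableAt_dzr h ξ')]
  simp only [dzr, dz_add_dir]

theorem leviC_smul_left {ψ : E → ℝ} {z : E} (h : ContDiffAt ℝ 2 ψ z) (c : ℂ) (ξ ζ : E) :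
    leviC ψ z (c • ξ) ζ = c * leviC ψ z ξ ζ := by
  rw [leviC, leviC, ← hcalc2a_db_cmul (differentiableAt_dzr h ξ)]
  simp only [dzr, dz_smul_dir]

theorem leviC_add_right (ψ : E → ℝ) (z ξ ζ ζ' : E) :
    leviC ψ z ξ (ζ + ζ') = leviC ψ z ξ ζ + leviC ψ z ξ ζ' := db_add_dir _ _ _ _

theorem leviC_smul_right (ψ : E → ℝ) (z : E) (c : ℂ) (ξ ζ : E) :
    leviC ψ z ξ (c • ζ) = conj c * leviC ψ z ξ ζ := db_smul_dir _ _ _ _

theorem leviC_sum {κ : Type*} [Fintype κ] {ψ : E → ℝ} {z : E} (h : ContDiffAt ℝ 2 ψ z)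
    (c d : κ → ℂ) (v : κ → E) :
    leviC ψ z (∑ j, c j • v j) (∑ k, d k • v k) =
      ∑ j, ∑ k, c j * conj (d k) * leviC ψ z (v j) (v k) := by
  have e : (fun y => dzr ψ y (∑ j, c j • v j)) = fun y => ∑ j, c j * dzr ψ y (v j) :=
    funext fun y => dz_sum_dir _ _ _ _ _
  rw [leviC, e, db_sum _ fun j _ => (differentiableAt_dzr h (v j)).const_mul (c j)]
  refine Finset.sum_congr rfl fun j _ => ?_
  rw [hcalc2a_db_cmul (differentiableAt_dzr h (v j)), db_sum_dir, Finset.mul_sum]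
  exact Finset.sum_congr rfl fun k _ => (mul_assoc _ _ _).symm

theorem levi_ofReal {ψ : E → ℝ} {z : E} (h : ContDiffAt ℝ 2 ψ z) (ξ : E) :
    (levi ψ z ξ : ℂ) = leviC ψ z ξ ξ := conj_eq_iff_re.1 (leviC_herm h ξ ξ).symm

theorem levi_smul {ψ : E → ℝ} {z : E} (h : ContDiffAt ℝ 2 ψ z) (c : ℂ) (ξ : E) :
    levi ψ z (c • ξ) = ‖c‖ ^ 2 * levi ψ z ξ := by
  rw [levi, leviC_smul_left h, leviC_smul_right, ← mul_assoc, mul_conj, re_ofReal_mul,
    normSq_eq_norm_sq, levi]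

theorem levi_add_dir {ψ : E → ℝ} {z : E} (h : ContDiffAt ℝ 2 ψ z) (ξ ζ : E) :
    levi ψ z (ξ + ζ) = levi ψ z ξ + levi ψ z ζ + 2 * (leviC ψ z ξ ζ).re := by
  rw [levi, leviC_add_left h, leviC_add_right, leviC_add_right, leviC_herm h ξ ζ, levi, levi]
  simp only [add_re, conj_re]
  ring

/-- Expand levi (t ξ - ζ) ≥ 0. -/
theorem levi_add_le {ψ : E → ℝ} {z : E} (h : ContDiffAt ℝ 2 ψ z) (hp : ∀ ξ, 0 ≤ levi ψ z ξ)
    {t : ℝ} (ht : 0 < t) (ξ ζ : E) :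
    levi ψ z (ξ + ζ) ≤ (1 + t) * levi ψ z ξ + (1 + t⁻¹) * levi ψ z ζ := by
  have h1 := hp ((t : ℂ) • ξ + (-1 : ℂ) • ζ)
  rw [levi_add_dir h, levi_smul h, levi_smul h, leviC_smul_left h, leviC_smul_right,
    re_ofReal_mul, norm_real, Real.norm_eq_abs, sq_abs] at h1
  simp only [norm_neg, norm_one, map_neg, map_one, neg_mul, one_mul, neg_re, one_pow] at h1
  have h2 := mul_nonneg (inv_pos.2 ht).le h1
  have e : t⁻¹ * (t ^ 2 * levi ψ z ξ + levi ψ z ζ + 2 * (t * -(leviC ψ z ξ ζ).re)) =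
      t * levi ψ z ξ + t⁻¹ * levi ψ z ζ - 2 * (leviC ψ z ξ ζ).re := by
    field_simp
    ring
  rw [levi_add_dir h]
  linarith

theorem leviC_add {f g : E → ℝ} {z : E} (hf : ContDiffAt ℝ 2 f z) (hg : ContDiffAt ℝ 2 g z)
    (ξ ζ : E) : leviC (fun y => f y + g y) z ξ ζ = leviC f z ξ ζ + leviC g z ξ ζ := by
  rw [leviC, leviC, leviC, ← db_add (differentiableAt_dzr hf ξ) (differentiableAt_dzr hg ξ)]
  refine db_congr ?_ ζ
  filter_upwards [hcalc2a_ev hf, hcalc2a_ev hg] with y h1 h2 using dzr_add h1 h2 ξ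

theorem levi_add {f g : E → ℝ} {z : E} (hf : ContDiffAt ℝ 2 f z) (hg : ContDiffAt ℝ 2 g z)
    (ξ : E) : levi (fun y => f y + g y) z ξ = levi f z ξ + levi g z ξ := by
  rw [levi, leviC_add hf hg, add_re, levi, levi]

theorem leviC_const_mul {f : E → ℝ} {z : E} (hf : ContDiffAt ℝ 2 f z) (c : ℝ) (ξ ζ : E) :
    leviC (fun y => c * f y) z ξ ζ = c * leviC f z ξ ζ := by
  rw [leviC, leviC, ← hcalc2a_db_cmul (differentiableAt_dzr hf ξ)]
  refine db_congr ?_ ζ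
  filter_upwards [hcalc2a_ev hf] with y h1 using dzr_const_mul h1 c ξ

theorem levi_const_mul {f : E → ℝ} {z : E} (hf : ContDiffAt ℝ 2 f z) (c : ℝ) (ξ : E) :
    levi (fun y => c * f y) z ξ = c * levi f z ξ := by
  rw [levi, leviC_const_mul hf, re_ofReal_mul, levi]

theorem levi_const (c : ℝ) (z ξ : E) : levi (fun _ => c) z ξ = 0 := by
  simp only [levi, leviC, dzr_const, db_const, zero_re]

theorem levi_sum {κ : Type*} (s : Finset κ) {f : κ → E → ℝ} {z : E}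
    (hf : ∀ j ∈ s, ContDiffAt ℝ 2 (f j) z) (ξ : E) :
    levi (fun y => ∑ j ∈ s, f j y) z ξ = ∑ j ∈ s, levi (f j) z ξ := by
  classical
  induction s using Finset.induction_on with
  | empty => simpa using levi_const (0 : ℝ) z ξ
  | insert a s ha ih =>
    have h2 : ∀ j ∈ s, ContDiffAt ℝ 2 (f j) z := fun j hj => hf j (Finset.mem_insert_of_mem hj)
    simp only [Finset.sum_insert ha]
    rw [levi_add (hf a (Finset.mem_insert_self a s)) (ContDiffAt.sum h2), ih h2]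

/-- Chain rule. -/
theorem levi_comp {ψ : E → ℝ} {h h' : ℝ → ℝ} {h'' : ℝ} {z : E} (hψ : ContDiffAt ℝ 2 ψ z)
    (h1 : ∀ᶠ s in 𝓝 (ψ z), HasDerivAt h (h' s) s) (h2 : HasDerivAt h' h'' (ψ z)) (ξ : E) :
    levi (fun y => h (ψ y)) z ξ = h' (ψ z) * levi ψ z ξ + h'' * ‖dzr ψ z ξ‖ ^ 2 := by
  have d := hψ.differentiableAt (by simp)
  have e : (fun y => dzr (fun y => h (ψ y)) y ξ) =ᶠ[𝓝 z] fun y => (h' (ψ y) : ℂ) * dzr ψ y ξ := by
    filter_upwards [hcalc2a_ev hψ, d.continuousAt.eventually h1] with y a b using dzr_comp a b ξ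
  have d' : DifferentiableAt ℝ (fun y => (h' (ψ y) : ℂ)) z :=
    ofRealCLM.differentiableAt.comp z (h2.differentiableAt.comp z d)
  rw [levi, leviC, db_congr e, db_mul d' (differentiableAt_dzr hψ ξ),
    db_ofReal (fun y => h' (ψ y)), dzr_comp d h2, map_mul, conj_ofReal, mul_assoc, conj_mul',
    add_re, re_ofReal_mul, re_ofReal_mul, add_comm, ← ofReal_pow, ofReal_re, levi, leviC]

end

end Fuj
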