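import Vale.Agent.P271.HMoll0

/-! Mollification. -/

namespace Fuj

open MeasureTheory Set Filter Topology Complex
open scoped ENNReal ContDiff ComplexConjugate

noncomputable section

variable {E V V' : Type*} [NormedAddCommGroup E] [NormedSpace ℝ E] [FiniteDimensional ℝ E]
  [MeasurableSpace E] [BorelSpace E] {vol : Measure E} [vol.IsAddHaarMeasure]
  [NormedAddCommGroup V] [NormedSpace ℝ V] [FiniteDimensional ℝ V]
  [NormedAddCommGroup V'] [NormedSpace ℝ V'] [FiniteDimensional ℝ V']

theorem moll_deriv {g : E → V} (hg : MemLp g 2 vol) {η : E → ℝ} (hη : ContDiff ℝ ∞ η)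
    (hc : HasCompactSupport η) (P : (E →L[ℝ] V) →L[ℝ] V') :
    ContDiff ℝ ∞ (fun z => ∫ y, η (z - y) • g y ∂vol) ∧
      ∀ z, P (fderiv ℝ (fun z => ∫ y, η (z - y) • g y ∂vol) z) =
        ∫ y, P ((fderiv ℝ η (z - y)).smulRight (g y)) ∂vol := by
  have : CompleteSpace V := FiniteDimensional.complete ℝ V
  have : CompleteSpace V' := FiniteDimensional.complete ℝ V'
  have hl : LocallyIntegrable g vol := hg.locallyIntegrable (by norm_num)
  set L : V →L[ℝ] ℝ →L[ℝ] V := (ContinuousLinearMap.lsmul ℝ ℝ).flip with hL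
  have e : (fun z => ∫ y, η (z - y) • g y ∂vol) = convolution g η L vol := rfl
  rw [e]
  refine ⟨hc.contDiff_convolution_right L hl hη, fun z => ?_⟩
  have h1 : ContDiff ℝ 1 η := hη.of_le (by simp)
  rw [(hc.hasFDerivAt_convolution_right L hl h1 z).fderiv, convolution_def,
    ← P.integral_comp_comm ((hc.fderiv ℝ).convolutionExists_right (L.precompR E) hl
      (h1.continuous_fderiv one_ne_zero) z)]
  refine integral_congr_ae (ae_of_all _ fun y => ?_)
  simp only
  congr 1

theorem moll_fd {η : E → ℝ} (hη : ContDiff ℝ ∞ η) (z y : E) :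
    fderiv ℝ (fun y => η (z - y)) y = -fderiv ℝ η (z - y) := by
  have h1 := ((hη.differentiable (by simp)) (z - y)).hasFDerivAt.comp y
    ((hasFDerivAt_id y).const_sub z)
  rw [show (fun y => η (z - y)) = η ∘ HSub.hSub z from rfl, h1.fderiv]
  ext v
  simp

/-- Friedrichs lemma for constant coefficients. K' = cthickening δ K with cthickening (2 δ) K ⊆ U,
g' z = ∫ ρ(z - y) g y with rOut ≤ δ / 2 (smooth: HasCompactSupport.contDiff_convolution_left,
hasFDerivAt_convolution_left). If z ∈ K', test with ζ y = ρ(z - y) to get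
P (fderiv g' z) = ∫ ρ(z - y) h y; otherwise both sides vanish. Then moll_l2. -/
theorem moll (P : (E →L[ℝ] V) →L[ℝ] V') {U K : Set E} (hU : IsOpen U) (hK : IsCompact K)
    (hKU : K ⊆ U) {g : E → V} {h : E → V'} (hg : MemLp g 2 vol) (hh : MemLp h 2 vol)
    (g0 : ∀ z, z ∉ K → g z = 0) (h0 : ∀ z, z ∉ K → h z = 0)
    (hw : ∀ ζ : E → ℝ, TestOn U ζ →
      ∫ z, P ((fderiv ℝ ζ z).smulRight (g z)) ∂vol = -∫ z, ζ z • h z ∂vol) :
    ∃ K', IsCompact K' ∧ K' ⊆ U ∧ ∀ ε : ℝ, 0 < ε → ∃ g' : E → V, ContDiff ℝ ∞ g' ∧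
      (∀ z, z ∉ K' → g' z = 0) ∧ ∫⁻ z, ‖g' z - g z‖ₑ ^ 2 ∂vol ≤ ENNReal.ofReal ε ∧
      ∫⁻ z, ‖P (fderiv ℝ g' z) - h z‖ₑ ^ 2 ∂vol ≤ ENNReal.ofReal ε := by
  have : ProperSpace E := FiniteDimensional.proper ℝ E
  obtain ⟨δ, hδ, hU2⟩ := hK.exists_cthickening_subset_open hU hKU
  have hd : 0 < δ / 2 := half_pos hδ
  refine ⟨Metric.cthickening (δ / 2) K, hK.cthickening,
    (Metric.cthickening_mono (half_le_self hδ.le) K).trans hU2, fun ε hε => ?_⟩
  obtain ⟨r₁, hr₁, H₁⟩ := moll_l2 hg hε
  obtain ⟨r₂, hr₂, H₂⟩ := moll_l2 hh hε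
  have hr : 0 < min (δ / 2) (min r₁ r₂) := lt_min hd (lt_min hr₁ hr₂)
  let ρ : ContDiffBump (0 : E) := ⟨min (δ / 2) (min r₁ r₂) / 2, min (δ / 2) (min r₁ r₂),
    half_pos hr, half_lt_self hr⟩
  have hρ : ρ.rOut ≤ δ / 2 := min_le_left _ _
  have hsm : ContDiff ℝ ∞ (ρ.normed vol) := ρ.contDiff_normed
  obtain ⟨D1, D2⟩ := moll_deriv hg hsm ρ.hasCompactSupport_normed P
  have hout : ∀ z, z ∉ Metric.cthickening (δ / 2) K → ∀ y ∈ K,
      z - y ∉ tsupport (ρ.normed vol) := by
    intro z hz y hy hm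
    rw [ρ.tsupport_normed_eq, mem_closedBall_zero_iff, ← dist_eq_norm] at hm
    exact hz (Metric.mem_cthickening_of_dist_le z y _ K hy (hm.trans hρ))
  have key : ∀ z, P (fderiv ℝ (fun z => ∫ y, ρ.normed vol (z - y) • g y ∂vol) z) =
      ∫ y, ρ.normed vol (z - y) • h y ∂vol := by
    intro z
    rw [D2]
    by_cases hz : z ∈ Metric.cthickening (δ / 2) K
    · have hs : ∀ y, y ∉ Metric.closedBall z ρ.rOut → ρ.normed vol (z - y) = 0 := by
        intro y hy
        refine image_eq_zero_of_notMem_tsupport fun hm => hy ?_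
        rwa [ρ.tsupport_normed_eq, mem_closedBall_zero_iff, ← dist_eq_norm, dist_comm] at hm
      have ht : TestOn U fun y => ρ.normed vol (z - y) := by
        refine ⟨hsm.comp (contDiff_const.sub contDiff_id),
          HasCompactSupport.intro (isCompact_closedBall z ρ.rOut) hs, ?_⟩
        have hsp : Function.support (fun y => ρ.normed vol (z - y)) ⊆
            Metric.closedBall z ρ.rOut := fun y hy => by_contra fun hc => hy (hs y hc)
        refine (closure_minimal hsp Metric.isClosed_closedBall).trans ?_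
        refine (Metric.closedBall_subset_closedBall hρ).trans ?_
        refine (Metric.closedBall_subset_cthickening hz _).trans ?_
        refine (Metric.cthickening_cthickening_subset hd.le hd.le K).trans ?_
        rwa [add_halves]
      have h1 := hw _ ht
      have h2 : ∀ y, P ((fderiv ℝ (fun y => ρ.normed vol (z - y)) y).smulRight (g y)) =
          -P ((fderiv ℝ (ρ.normed vol) (z - y)).smulRight (g y)) := by
        intro y
        rw [moll_fd hsm, ← map_neg]
        congr 1
        ext v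
        simp
      simp only [h2, integral_neg, neg_inj] at h1
      exact h1
    · refine integral_congr_ae (ae_of_all _ fun y => ?_)
      simp only
      by_cases hy : y ∈ K
      · have h1 := hout z hz y hy
        rw [image_eq_zero_of_notMem_tsupport h1, fderiv_of_notMem_tsupport ℝ h1, zero_smul,
          ← P.map_zero]
        congr 1
        ext v
        simp
      · rw [g0 y hy, h0 y hy, smul_zero, ← P.map_zero]
        congr 1
        ext v
        simp
  refine ⟨_, D1, fun z hz => ?_, H₁ ρ ((min_le_right _ _).trans (min_le_left _ _)), ?_⟩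
  · refine integral_eq_zero_of_ae (ae_of_all _ fun y => ?_)
    by_cases hy : y ∈ K
    · simp [image_eq_zero_of_notMem_tsupport (hout z hz y hy)]
    · simp [g0 y hy]
  · simp only [key]
    exact H₂ ρ ((min_le_right _ _).trans (min_le_right _ _))

end

end Fuj
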