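import Vale.Agent.P271.HWk
import Vale.Agent.P271.HMoll

/-! Density of test forms in the graph norm, in one chart. -/

namespace Fuj

open MeasureTheory Set Filter Topology Complex
open scoped ENNReal ContDiff ComplexConjugate

noncomputable section

namespace Sheets

variable {E W : Type*} [NormedAddCommGroup E] [NormedSpace ℝ E] [NormedSpace ℂ E]
  [IsScalarTower ℝ ℂ E] [FiniteDimensional ℂ E] [MeasurableSpace E] [BorelSpace E]
  [TopologicalSpace W] [T2Space W] [MeasurableSpace W] [BorelSpace W]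
  {vol : Measure E} [vol.IsAddHaarMeasure] (S : Sheets E W vol)
  {κ : Type*} [Fintype κ] (b : Module.Basis κ ℂ E)

theorem HDens1_P : ∃ P : (E →L[ℝ] κ → ℂ) →L[ℝ] ℂ × (κ → κ → ℂ), ∀ T, P T =
    (∑ j, (T (b j) j - I * T (I • b j) j) / 2, fun j k =>
      (T (b j) k + I * T (I • b j) k) / 2 - (T (b k) j + I * T (I • b k) j) / 2) := by
  let ev : E → κ → (E →L[ℝ] κ → ℂ) →L[ℝ] ℂ := fun v j =>
    (ContinuousLinearMap.proj j).comp (ContinuousLinearMap.apply ℝ (κ → ℂ) v)
  refine ⟨(∑ j, (1 / 2 : ℂ) • (ev (b j) j - I • ev (I • b j) j)).prod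
    (ContinuousLinearMap.pi fun j => ContinuousLinearMap.pi fun k =>
      (1 / 2 : ℂ) • (ev (b j) k + I • ev (I • b j) k) -
        (1 / 2 : ℂ) • (ev (b k) j + I • ev (I • b k) j)), fun T => Prod.ext ?_ ?_⟩
  · simp only [ContinuousLinearMap.prod_apply, sum_apply]
    refine Finset.sum_congr rfl fun j _ => ?_
    simp [ev]
    ring
  · funext j k
    simp [ev]
    ring

theorem HDens1_z {i : S.ι} {K : Set W} {f : W → ℂ} (h0 : ∀ p, p ∉ K → f p = 0) {z : E}
    (hz : z ∈ (S.e i).target) (hK : z ∉ S.π '' K) : S.rep i f z = 0 := by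
  have : (S.e i).symm z ∉ K := fun h => hK ⟨_, h, S.π_symm hz⟩
  simp [rep, h0 _ this]

theorem HDens1_L2 {i : S.ι} {K : Set W} (hK : IsCompact K) (hKi : K ⊆ (S.e i).source)
    {f : W → ℂ} (hf : S.LocL2 f) (h0 : ∀ p, p ∉ K → f p = 0) :
    MemLp (S.rep i f) 2 (vol.restrict (S.e i).target) := by
  have hK0 := hK.image S.continuous_π
  have hU := (S.e i).open_target.measurableSet
  have hm := S.aesm_rep hf.1 i
  rw [memLp_two_iff_integrable_sq_norm hm]
  refine ⟨hm.norm.pow 2, ?_⟩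
  rw [hasFiniteIntegral_iff_ofReal (Eventually.of_forall fun z => by positivity)]
  refine lt_of_le_of_lt ?_ (hf.2 i _ hK0 ?_).lt_top
  · rw [← lintegral_indicator hU, ← lintegral_indicator hK0.measurableSet]
    refine lintegral_mono fun z => ?_
    by_cases hz : z ∈ (S.e i).target
    · by_cases hz' : z ∈ S.π '' K
      · simp [hz, hz']
      · simp [hz, S.HDens1_z h0 hz hz']
    · simp [hz]
  · rintro _ ⟨p, hp, rfl⟩
    exact S.π_mem (hKi hp)

/-- moll with V = κ → ℂ, V' = ℂ × (κ → κ → ℂ), P T = (Σ_j (T (b j) j - I T (I b j) j) / 2,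
(j, k) ↦ (T (b j) k + I T (I b j) k) / 2 - (T (b k) j + I T (I b k) j) / 2), U = target,
g = indicator of the target of (rep γ_j)_j, h = indicator of (rep g + Σ dzr wt b_j rep γ_j, rep h),
K replaced by π '' K. Then γ'_j = ext i (g' · j) (ext_test), nn_chart; exp (-wt) and dzr wt are
bounded on the compact set K' ∪ π '' K. -/
theorem dens_chart {φ : W → ℝ} (hφ : S.SmW φ) {γ : κ → W → ℂ} {g : W → ℂ} {h : κ → κ → W → ℂ}
    (hw : S.Wk b φ γ g h) {i : S.ι} {K : Set W} (hK : IsCompact K) (hKi : K ⊆ (S.e i).source)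
    (h0 : ∀ p, p ∉ K → (∀ j, γ j p = 0) ∧ g p = 0 ∧ ∀ j k, h j k p = 0) :
    ∃ K', IsCompact K' ∧ ∀ ε : ℝ, 0 < ε → ∃ γ' : κ → W → ℂ,
      (∀ j, S.Test (γ' j) ∧ ∀ p, p ∉ K' → γ' j p = 0) ∧
      (∀ j, S.nn φ (fun p => γ' j p - γ j p) ≤ ENNReal.ofReal ε) ∧
      S.nn φ (fun p => S.Div b φ γ' p - g p) ≤ ENNReal.ofReal ε ∧
      ∀ j k, S.nn φ (fun p => S.Curl b γ' j k p - h j k p) ≤ ENNReal.ofReal ε := by
  have : FiniteDimensional ℝ E := Module.Finite.trans ℂ E
  obtain ⟨P, hP⟩ := HDens1_P b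
  have hUo := (S.e i).open_target
  have hU := hUo.measurableSet
  have hK0 := hK.image S.continuous_π
  have hKU : S.π '' K ⊆ (S.e i).target := by
    rintro _ ⟨p, hp, rfl⟩
    exact S.π_mem (hKi hp)
  have cw : ∀ j, ContinuousOn (fun z => dzr (S.wt i φ) z (b j)) (S.e i).target := fun j =>
    (contDiffOn_dzr hUo (hφ i) _).continuousOn
  have zγ : ∀ j, ∀ z ∈ (S.e i).target, z ∉ S.π '' K → S.rep i (γ j) z = 0 := fun j z hz hz' =>
    S.HDens1_z (fun p hp => (h0 p hp).1 j) hz hz'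
  have zg : ∀ z ∈ (S.e i).target, z ∉ S.π '' K → S.rep i g z = 0 := fun z hz hz' =>
    S.HDens1_z (fun p hp => (h0 p hp).2.1) hz hz'
  have zh : ∀ j k, ∀ z ∈ (S.e i).target, z ∉ S.π '' K → S.rep i (h j k) z = 0 :=
    fun j k z hz hz' => S.HDens1_z (fun p hp => (h0 p hp).2.2 j k) hz hz'
  have Lγ := fun j => S.HDens1_L2 hK hKi (hw.lγ j) fun p hp => (h0 p hp).1 j
  set g₀ : E → κ → ℂ := (S.e i).target.indicator fun z j => S.rep i (γ j) z with hg₀
  set h₀ : E → ℂ × (κ → κ → ℂ) := (S.e i).target.indicator fun z =>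
    (S.rep i g z + ∑ j, dzr (S.wt i φ) z (b j) * S.rep i (γ j) z,
      fun j k => S.rep i (h j k) z) with hh₀
  have Mg : MemLp g₀ 2 vol := (memLp_indicator_iff_restrict hU).2 (MemLp.of_eval Lγ)
  have Mh : MemLp h₀ 2 vol := by
    refine (memLp_indicator_iff_restrict hU).2 (MemLp.of_fst_snd ⟨?_, MemLp.of_eval fun j =>
      MemLp.of_eval fun k => S.HDens1_L2 hK hKi (hw.lh j k) fun p hp => (h0 p hp).2.2 j k⟩)
    refine (S.HDens1_L2 hK hKi hw.lg fun p hp => (h0 p hp).2.1).add
      (memLp_finsetSum _ fun j _ => ?_)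
    obtain ⟨C, hC⟩ := hK0.exists_bound_of_continuousOn ((cw j).mono hKU)
    refine (Lγ j).of_le_mul (c := C) (((cw j).aestronglyMeasurable hU).mul (Lγ j).1)
      ((ae_restrict_iff' hU).2 (Eventually.of_forall fun z hz => ?_))
    by_cases hz' : z ∈ S.π '' K
    · rw [norm_mul]
      exact mul_le_mul_of_nonneg_right (hC z hz') (norm_nonneg _)
    · simp [zγ j z hz hz']
  have Zg : ∀ z, z ∉ S.π '' K → g₀ z = 0 := fun z hz' => by
    by_cases hz : z ∈ (S.e i).target
    · funext j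
      simp [hg₀, hz, zγ j z hz hz']
    · simp [hg₀, hz]
  have Zh : ∀ z, z ∉ S.π '' K → h₀ z = 0 := fun z hz' => by
    by_cases hz : z ∈ (S.e i).target
    · refine Prod.ext ?_ (funext fun j => funext fun k => ?_)
      · simp [hh₀, hz, zγ _ z hz hz', zg z hz hz']
      · simp [hh₀, hz, zh j k z hz hz']
    · simp [hh₀, hz]
  obtain ⟨K', hK', hK'U, H⟩ := moll P hUo hK0 hKU Mg Mh Zg Zh fun ζ hζ => by
    have I1 : Integrable (fun z => P ((fderiv ℝ ζ z).smulRight (g₀ z))) vol :=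
      P.integrable_comp (memLp_one_iff_integrable.1
        ((ContinuousLinearMap.smulRightL ℝ E (κ → ℂ)).memLp_of_bilin 1
          (((hζ.1.continuous_fderiv (by simp)).memLp_of_hasCompactSupport (p := 2)
            (hζ.2.1.fderiv ℝ))) Mg))
    have I2 : Integrable (fun z => ζ z • h₀ z) vol :=
      memLp_one_iff_integrable.1
        (Mh.smul (hζ.1.continuous.memLp_of_hasCompactSupport (p := 2) hζ.2.1))
    have dζ := fun z => dzr_eq (hζ.1.differentiable (by simp) z)
    have key : ∀ (L : (ℂ × (κ → κ → ℂ)) →L[ℝ] ℂ) (a c : E → ℂ),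
        (∀ z ∈ (S.e i).target, L (P ((fderiv ℝ ζ z).smulRight (g₀ z))) = a z) →
        (∀ z ∈ (S.e i).target, L (ζ z • h₀ z) = c z) →
        ∫ z in (S.e i).target, a z ∂vol = -∫ z in (S.e i).target, c z ∂vol →
        L (∫ z, P ((fderiv ℝ ζ z).smulRight (g₀ z)) ∂vol) = L (-∫ z, ζ z • h₀ z ∂vol) := by
      intro L a c ha hc e
      rw [map_neg, ← L.integral_comp_comm I1, ← L.integral_comp_comm I2,
        ← setIntegral_eq_integral_of_forall_compl_eq_zero (s := (S.e i).target)
          fun z hz => by simp [hg₀, hz],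
        ← setIntegral_eq_integral_of_forall_compl_eq_zero (s := (S.e i).target)
          (f := fun z => L (ζ z • h₀ z)) fun z hz => by simp [hh₀, hz],
        setIntegral_congr_fun hU ha, setIntegral_congr_fun hU hc, e]
    refine Prod.ext (key (ContinuousLinearMap.fst ℝ _ _) _ _ (fun z hz => ?_) (fun z hz => ?_)
      (hw.div i ζ hζ)) (funext fun j => funext fun k => key
        ((ContinuousLinearMap.proj (R := ℝ) (φ := fun _ : κ => ℂ) k).comp
        ((ContinuousLinearMap.proj (R := ℝ) (φ := fun _ : κ => κ → ℂ) j).comp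
        (ContinuousLinearMap.snd ℝ ℂ (κ → κ → ℂ)))) _ _ (fun z hz => ?_)
        (fun z hz => ?_) (hw.curl i ζ hζ j k))
    · rw [hP]
      refine Finset.sum_congr rfl fun j _ => ?_
      simp [hg₀, hz, dζ]
      ring
    · simp [hh₀, hz, mul_add]
    · rw [hP]
      simp [hg₀, hz, dζ, Complex.conj_ofNat]
      ring
    · simp [hh₀, hz]
  have hKb := hK'.union hK0
  have hKbU := union_subset hK'U hKU
  obtain ⟨C₁, hC₁⟩ := hKb.exists_bound_of_continuousOn
    (f := fun z => Real.exp (-S.wt i φ z)) (((hφ i).continuousOn.mono hKbU).neg.rexp)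
  obtain ⟨C₂, hC₂⟩ := hKb.exists_bound_of_continuousOn
    (f := fun z => ∑ j, ‖dzr (S.wt i φ) z (b j)‖)
    (continuousOn_finsetSum _ fun j _ => ((cw j).mono hKbU).norm)
  have hS : (S.e i).symm '' K' ⊆ (S.e i).source := by
    rintro _ ⟨z, hz, rfl⟩
    exact (S.e i).map_target (hK'U hz)
  refine ⟨(S.e i).symm '' K', hK'.image_of_continuousOn ((S.e i).continuousOn_symm.mono hK'U),
    fun ε hε => ?_⟩
  set M : ℝ := 2 * (1 + C₂ ^ 2) with hM
  obtain ⟨g', sg, zg', e1, e2⟩ := H (ε / (2 * (|C₁| * M + 1))) (by positivity)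
  have sj : ∀ j, ContDiff ℝ ∞ fun z => g' z j := fun j => contDiff_pi.1 sg j
  have hT := fun j => S.ext_test hK' hK'U (sj j).contDiffOn fun z _ hz => by simp [zg' z hz]
  have zd : ∀ z, z ∉ K' → fderiv ℝ g' z = 0 := fun z hz => by
    have : g' =ᶠ[𝓝 z] fun _ => 0 := by
      filter_upwards [hK'.isClosed.isOpen_compl.mem_nhds hz] with y hy using zg' y hy
    rw [this.fderiv_eq]
    simp
  have fin : ∀ f : W → ℂ, Measurable f → (∀ p, p ∉ (S.e i).source → f p = 0) →
      (∀ z ∈ (S.e i).target, ‖S.rep i f z‖ ^ 2 ≤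
        M * (‖g' z - g₀ z‖ ^ 2 + ‖P (fderiv ℝ g' z) - h₀ z‖ ^ 2)) →
      S.nn φ f ≤ ENNReal.ofReal ε := by
    intro f mf f0 hf
    rw [S.nn_chart hφ mf f0]
    calc _ ≤ ∫⁻ z in (S.e i).target, ENNReal.ofReal (|C₁| * M) *
          (‖g' z - g₀ z‖ₑ ^ 2 + ‖P (fderiv ℝ g' z) - h₀ z‖ₑ ^ 2) ∂vol := by
          refine setLIntegral_mono' hU fun z hz => ?_
          rw [← ofReal_norm, ← ofReal_norm, ← ENNReal.ofReal_pow (norm_nonneg _),
            ← ENNReal.ofReal_pow (norm_nonneg _),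
            ← ENNReal.ofReal_add (by positivity) (by positivity),
            ← ENNReal.ofReal_mul (by positivity)]
          refine ENNReal.ofReal_le_ofReal ?_
          by_cases hz' : z ∈ K' ∪ S.π '' K
          · rw [mul_assoc, mul_comm |C₁|]
            exact mul_le_mul (hf z hz) (((le_abs_self _).trans (hC₁ z hz')).trans (le_abs_self _))
              (by positivity) (by positivity)
          · rw [mem_union, not_or] at hz'
            have := hf z hz
            rw [zg' z hz'.1, Zg z hz'.2, zd z hz'.1, Zh z hz'.2] at this ⊢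
            simp only [sub_zero, map_zero, norm_zero, ne_eq, OfNat.ofNat_ne_zero,
              not_false_eq_true, zero_pow, add_zero, mul_zero] at this ⊢
            exact mul_nonpos_of_nonpos_of_nonneg this (by positivity)
      _ ≤ ENNReal.ofReal (|C₁| * M) * (ENNReal.ofReal (ε / (2 * (|C₁| * M + 1))) +
          ENNReal.ofReal (ε / (2 * (|C₁| * M + 1)))) := by
          refine (setLIntegral_le_lintegral _ _).trans ?_
          rw [lintegral_const_mul' _ _ ENNReal.ofReal_ne_top, lintegral_add_left'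
            (f := fun z => ‖g' z - g₀ z‖ₑ ^ 2) ((sg.continuous.aestronglyMeasurable.sub Mg.1).enorm.pow_const 2)]
          gcongr
      _ ≤ _ := by
          rw [← ENNReal.ofReal_add (by positivity) (by positivity),
            ← ENNReal.ofReal_mul (by positivity)]
          refine ENNReal.ofReal_le_ofReal ?_
          rw [← two_mul, mul_div_assoc', mul_div_assoc', div_le_iff₀ (by positivity)]
          nlinarith
  have M1 : ∀ x y : ℝ, x ^ 2 ≤ M * (x ^ 2 + y ^ 2) := fun x y => by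
    rw [hM]
    nlinarith [sq_nonneg x, sq_nonneg y, mul_nonneg (sq_nonneg C₂) (sq_nonneg x),
      mul_nonneg (sq_nonneg C₂) (sq_nonneg y)]
  have rs : ∀ (f f' : W → ℂ) z, S.rep i (fun p => f p - f' p) z = S.rep i f z - S.rep i f' z :=
    fun f f' z => mul_sub _ _ _
  have ev : ∀ j, ∀ z ∈ (S.e i).target,
      S.rep i (S.ext i fun z => g' z j) =ᶠ[𝓝 z] fun z => g' z j := fun j z hz => by
    filter_upwards [hUo.mem_nhds hz] with y hy using S.rep_ext _ hy
  have fd : ∀ j z v, fderiv ℝ (fun z => g' z j) z v = fderiv ℝ g' z v j := fun j z v => by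
    rw [fderiv_apply (sg.differentiable (by simp) z)]
    rfl
  have nK : ∀ p, p ∉ (S.e i).source → p ∉ K := fun p hp h => hp (hKi h)
  have nT : ∀ j p, p ∉ (S.e i).source → p ∉ tsupport (S.ext i fun z => g' z j) :=
    fun j p hp h => hp (hS ((hT j).2 h))
  refine ⟨fun j => S.ext i fun z => g' z j, fun j => ⟨(hT j).1, fun p hp =>
    image_eq_zero_of_notMem_tsupport fun h => hp ((hT j).2 h)⟩, fun j => ?_, ?_, fun j k => ?_⟩
  · refine fin _ ((SmS.measurable S (hT j).1.1).sub (hw.lγ j).1) (fun p hp => ?_) fun z hz => ?_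
    · beta_reduce
      rw [image_eq_zero_of_notMem_tsupport (nT j p hp), (h0 p (nK p hp)).1 j, sub_zero]
    · refine le_trans ?_ (M1 _ _)
      rw [rs, S.rep_ext _ hz]
      refine pow_le_pow_left₀ (norm_nonneg _) (le_of_eq_of_le ?_ (norm_le_pi_norm _ j)) 2
      simp [hg₀, hz]
  · refine fin _ ((SmS.measurable S (S.test_Div b hφ fun j => (hT j).1).1).sub hw.lg.1)
      (fun p hp => ?_) fun z hz => ?_
    · simp [Div, S.Dl_eq_zero φ (nT _ p hp), (h0 p (nK p hp)).2.1]
    · have a1 : S.rep i (S.Div b φ fun j => S.ext i fun z => g' z j) z =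
          ∑ j, S.rep i (S.Dl φ (b j) (S.ext i fun z => g' z j)) z := Finset.mul_sum _ _ _
      have a2 : S.rep i (fun p => S.Div b φ (fun j => S.ext i fun z => g' z j) p - g p) z =
          (P (fderiv ℝ g' z) - h₀ z).1 + -∑ j, dzr (S.wt i φ) z (b j) * (g' z - g₀ z) j := by
        rw [rs, a1, hP]
        simp only [S.rep_Dl hφ (hT _).1.1 hz, dz_congr (ev _ z hz), S.rep_ext _ hz, hh₀, hg₀,
          indicator_of_mem hz, Prod.fst_sub, Pi.sub_apply, mul_sub, Finset.sum_sub_distrib]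
        simp only [dz, fd]
        ring
      have a3 : ‖-∑ j, dzr (S.wt i φ) z (b j) * (g' z - g₀ z) j‖ ^ 2 ≤
          C₂ ^ 2 * ‖g' z - g₀ z‖ ^ 2 := by
        by_cases hz' : z ∈ K' ∪ S.π '' K
        · rw [norm_neg, ← mul_pow]
          refine pow_le_pow_left₀ (norm_nonneg _) ((norm_sum_le _ _).trans (le_trans ?_
            (mul_le_mul_of_nonneg_right ((le_abs_self _).trans (hC₂ z hz')) (norm_nonneg _)))) 2
          rw [Finset.sum_mul]
          refine Finset.sum_le_sum fun j _ => ?_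
          rw [norm_mul]
          exact mul_le_mul_of_nonneg_left (norm_le_pi_norm _ j) (norm_nonneg _)
        · rw [mem_union, not_or] at hz'
          simp [zg' z hz'.1, Zg z hz'.2]
      have a4 := pow_le_pow_left₀ (norm_nonneg _) (norm_fst_le (P (fderiv ℝ g' z) - h₀ z)) 2
      rw [a2]
      refine (normSq_add_le _ _ one_pos).trans ?_
      rw [hM, inv_one]
      nlinarith [sq_nonneg ‖g' z - g₀ z‖,
        mul_nonneg (sq_nonneg C₂) (sq_nonneg ‖P (fderiv ℝ g' z) - h₀ z‖)]
  · refine fin _ ((SmS.measurable S (S.test_Curl b (fun j => (hT j).1) j k).1).sub (hw.lh j k).1)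
      (fun p hp => ?_) fun z hz => ?_
    · simp [Curl, S.Db_eq_zero (nT _ p hp), (h0 p (nK p hp)).2.2]
    · have a1 : S.rep i (fun p => S.Curl b (fun j => S.ext i fun z => g' z j) j k p - h j k p) z =
          (P (fderiv ℝ g' z) - h₀ z).2 j k := by
        rw [rs, hP]
        unfold Curl
        rw [rs]
        simp only [S.rep_Db (hT _).1.1 hz, db_congr (ev _ z hz), hh₀, indicator_of_mem hz,
          Prod.snd_sub, Pi.sub_apply]
        simp only [db, fd]
      rw [a1, add_comm]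
      exact (pow_le_pow_left₀ (norm_nonneg _) ((norm_le_pi_norm _ k).trans
        ((norm_le_pi_norm _ j).trans (norm_snd_le _))) 2).trans (M1 _ _)

end Sheets

end

end Fuj
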