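import Vale.Agent.P271.HDens2a
import Vale.Agent.P271.HAdj

/-! Density of test forms in the graph norm; the inequality for weak forms. -/

namespace Fuj

open MeasureTheory Set Filter Topology Complex
open scoped ENNReal ContDiff ComplexConjugate

noncomputable section

theorem hdens2_lim {A B : ℝ≥0∞} (h : ∀ t : ℝ, 0 < t → ∃ c : ℝ≥0∞, c ≠ ⊤ ∧ ∀ ε : ℝ, 0 < ε →
    A ≤ ENNReal.ofReal (1 + t) * (ENNReal.ofReal (1 + t) * B) + c * ENNReal.ofReal ε) :
    A ≤ B := by
  have h1 : ∀ t : ℝ, 0 < t → A ≤ ENNReal.ofReal ((1 + t) * (1 + t)) * B := by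
    intro t ht
    obtain ⟨c, hc, h⟩ := h t ht
    have t0 : Tendsto (fun ε : ℝ => ENNReal.ofReal ε) (𝓝[>] 0) (𝓝 0) := by
      have := (ENNReal.continuous_ofReal.tendsto 0).mono_left (nhdsWithin_le_nhds (s := Ioi 0))
      simpa using this
    have t1 := (ENNReal.Tendsto.const_mul t0 (Or.inr hc)).const_add
      (ENNReal.ofReal (1 + t) * (ENNReal.ofReal (1 + t) * B))
    rw [mul_zero, add_zero] at t1
    rw [ENNReal.ofReal_mul (by linarith), mul_assoc]
    exact ge_of_tendsto t1 (eventually_nhdsWithin_of_forall fun ε hε => h ε hε)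
  have t0 : Tendsto (fun t : ℝ => ENNReal.ofReal ((1 + t) * (1 + t))) (𝓝[>] 0) (𝓝 1) := by
    have hc : Continuous fun t : ℝ => ENNReal.ofReal ((1 + t) * (1 + t)) :=
      ENNReal.continuous_ofReal.comp (by fun_prop)
    have := (hc.tendsto 0).mono_left (nhdsWithin_le_nhds (s := Ioi 0))
    simpa using this
  have t1 := ENNReal.Tendsto.mul_const (b := B) t0 (Or.inl one_ne_zero)
  rw [one_mul] at t1
  exact ge_of_tendsto t1 (eventually_nhdsWithin_of_forall fun t ht => h1 t ht)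

namespace Sheets

variable {E W : Type*} [NormedAddCommGroup E] [NormedSpace ℝ E] [NormedSpace ℂ E]
  [IsScalarTower ℝ ℂ E] [FiniteDimensional ℂ E] [MeasurableSpace E] [BorelSpace E]
  [TopologicalSpace W] [T2Space W] [MeasurableSpace W] [BorelSpace W]
  {vol : Measure E} [vol.IsAddHaarMeasure] (S : Sheets E W vol)
  {κ : Type*} [Fintype κ] (b : Module.Basis κ ℂ E)

/-- vec γ = vec γ' + vec (γ - γ'), Lv_add_le, Lv_le_on on K ∪ K', bkn, nn_add_le; ε → 0, then
t → 0. -/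
theorem bkn_weak {φ : W → ℝ} (hφ : S.SmW φ) (hpos : ∀ p ξ, 0 ≤ S.Lv φ p ξ) {γ : κ → W → ℂ}
    {g : W → ℂ} {h : κ → κ → W → ℂ} (hw : S.Wk b φ γ g h) {K : Set W} (hK : IsCompact K)
    (h0 : ∀ p, p ∉ K → (∀ j, γ j p = 0) ∧ g p = 0 ∧ ∀ j k, h j k p = 0) :
    ∫⁻ p, ENNReal.ofReal (S.Lv φ p (vec b γ p) * Real.exp (-φ p)) ∂S.μ ≤
      S.nn φ g + ∑ j, ∑ k, S.nn φ (h j k) := by
  obtain ⟨K', hK', hd⟩ := S.dens b hφ hw hK h0
  obtain ⟨C, hC, hCK⟩ := S.Lv_le_on b hφ (hK.union hK')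
  have mφ := SmW.measurable S hφ
  refine hdens2_lim fun t ht => ?_
  have ht' : 0 ≤ 1 + t⁻¹ := by positivity
  set a := ENNReal.ofReal (1 + t) with ha
  set a' := ENNReal.ofReal (1 + t⁻¹) with ha'
  refine ⟨a * (a' + ∑ _j : κ, ∑ _k : κ, a') + ∑ _j : κ, ENNReal.ofReal ((1 + t⁻¹) * C), ?_,
    fun ε hε => ?_⟩
  · refine ENNReal.add_ne_top.2 ⟨ENNReal.mul_ne_top ENNReal.ofReal_ne_top (ENNReal.add_ne_top.2
      ⟨ENNReal.ofReal_ne_top, ?_⟩), ?_⟩
    · exact ENNReal.sum_ne_top.2 fun _ _ => ENNReal.sum_ne_top.2 fun _ _ => ENNReal.ofReal_ne_top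
    · exact ENNReal.sum_ne_top.2 fun _ _ => ENNReal.ofReal_ne_top
  obtain ⟨γ', h1, h2, h3, h4⟩ := hd ε hε
  have mγ' : ∀ j, Measurable (γ' j) := fun j => SmS.measurable S (h1 j).1.1
  have pw : ∀ p, S.Lv φ p (vec b γ p) ≤ (1 + t) * S.Lv φ p (vec b γ' p) +
      ∑ j, (1 + t⁻¹) * C * ‖γ' j p - γ j p‖ ^ 2 := by
    intro p
    have e : vec b γ p = vec b γ' p + vec b (fun j q => γ j q - γ' j q) p := by
      simp only [vec, ← Finset.sum_add_distrib, ← add_smul, add_sub_cancel]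
    have e2 : S.Lv φ p (vec b (fun j q => γ j q - γ' j q) p) ≤ C * ∑ j, ‖γ' j p - γ j p‖ ^ 2 := by
      by_cases hp : p ∈ K ∪ K'
      · simpa only [norm_sub_rev (γ _ p)] using hCK p hp fun j q => γ j q - γ' j q
      · rw [mem_union, not_or] at hp
        have z : vec b (fun j q => γ j q - γ' j q) p = (0 : ℂ) • (0 : E) := by
          simp [vec, (h0 p hp.1).1, fun j => (h1 j).2 p hp.2]
        rw [z, S.Lv_smul hφ, norm_zero]
        have : 0 ≤ C * ∑ j, ‖γ' j p - γ j p‖ ^ 2 := by positivity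
        linarith
    rw [e, ← Finset.mul_sum, mul_assoc]
    exact (S.Lv_add_le hφ (hpos p) ht _ _).trans
      (add_le_add le_rfl (mul_le_mul_of_nonneg_left e2 ht'))
  have s1 : ∫⁻ p, ENNReal.ofReal (S.Lv φ p (vec b γ p) * Real.exp (-φ p)) ∂S.μ ≤
      a * ∫⁻ p, ENNReal.ofReal (S.Lv φ p (vec b γ' p) * Real.exp (-φ p)) ∂S.μ +
        ∑ j, ENNReal.ofReal ((1 + t⁻¹) * C) * S.nn φ (fun p => γ' j p - γ j p) := by
    have m1 : Measurable fun p => ENNReal.ofReal (S.Lv φ p (vec b γ' p) * Real.exp (-φ p)) :=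
      ((S.measurable_Lv_vec b hφ mγ').mul mφ.neg.exp).ennreal_ofReal
    have m2 : ∀ j, Measurable fun p =>
        ENNReal.ofReal (‖γ' j p - γ j p‖ ^ 2 * Real.exp (-φ p)) := fun j =>
      ((((mγ' j).sub (hw.lγ j).1).norm.pow_const 2).mul mφ.neg.exp).ennreal_ofReal
    simp only [nn]
    simp only [← lintegral_const_mul _ (m2 _)]
    rw [← lintegral_const_mul _ m1,
      ← lintegral_finsetSum _ fun j _ => (m2 j).const_mul _,
      ← lintegral_add_left (m1.const_mul _)]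
    refine lintegral_mono fun p => ?_
    have hE := Real.exp_pos (-φ p)
    have hL := hpos p (vec b γ' p)
    simp only [← ENNReal.ofReal_mul (mul_nonneg ht' hC)]
    rw [ha, ← ENNReal.ofReal_mul (by linarith),
      ← ENNReal.ofReal_sum_of_nonneg fun j _ => by positivity,
      ← ENNReal.ofReal_add (by positivity) (Finset.sum_nonneg fun j _ => by positivity)]
    refine ENNReal.ofReal_le_ofReal ?_
    refine (mul_le_mul_of_nonneg_right (pw p) hE.le).trans (le_of_eq ?_)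
    rw [add_mul, Finset.sum_mul]
    simp only [mul_assoc]
  have s2 : ∀ {f f' : W → ℂ}, Measurable f → S.nn φ (fun p => f' p - f p) ≤ ENNReal.ofReal ε →
      S.nn φ f' ≤ a * S.nn φ f + a' * ENNReal.ofReal ε := by
    intro f f' hf hf'
    have := S.nn_add_le mφ hf (fun p => f' p - f p) ht
    simp only [add_sub_cancel] at this
    exact this.trans (add_le_add le_rfl (mul_le_mul_right hf' _))
  have s3 : ∫⁻ p, ENNReal.ofReal (S.Lv φ p (vec b γ' p) * Real.exp (-φ p)) ∂S.μ ≤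
      a * (S.nn φ g + ∑ j, ∑ k, S.nn φ (h j k)) +
        (a' + ∑ _j : κ, ∑ _k : κ, a') * ENNReal.ofReal ε := by
    refine (S.bkn b hφ hpos fun j => (h1 j).1).trans ((add_le_add (s2 hw.lg.1 h3)
      (Finset.sum_le_sum fun j _ => Finset.sum_le_sum fun k _ =>
        s2 (hw.lh j k).1 (h4 j k))).trans (le_of_eq ?_))
    simp only [Finset.sum_add_distrib, mul_add, add_mul, Finset.mul_sum, Finset.sum_mul]
    ring
  refine s1.trans ((add_le_add (mul_le_mul_right s3 _)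
    (Finset.sum_le_sum fun j _ => mul_le_mul_right (h2 j) _)).trans (le_of_eq ?_))
  rw [← Finset.sum_mul]
  ring

end Sheets

end

end Fuj
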