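import Vale.Agent.P271.HDens1

/-! Density of test forms in the graph norm; the inequality for weak forms. -/

namespace Fuj

open MeasureTheory Set Filter Topology Complex
open scoped ENNReal ContDiff ComplexConjugate

noncomputable section

namespace Sheets

variable {E W : Type*} [NormedAddCommGroup E] [NormedSpace ℝ E] [NormedSpace ℂ E]
  [IsScalarTower ℝ ℂ E] [FiniteDimensional ℂ E] [MeasurableSpace E] [BorelSpace E]
  [TopologicalSpace W] [T2Space W] [MeasurableSpace W] [BorelSpace W]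
  {vol : Measure E} [vol.IsAddHaarMeasure] (S : Sheets E W vol)
  {κ : Type*} [Fintype κ] (b : Module.Basis κ ℂ E)

theorem dens_Dz_sum {α : Type*} (s : Finset α) {θ : α → W → ℝ} (hθ : ∀ a ∈ s, S.SmF (θ a))
    (p : W) (ξ : E) : S.Dz (fun q => ∑ a ∈ s, θ a q) p ξ = ∑ a ∈ s, S.Dz (θ a) p ξ := by
  have hm := S.π_mem (S.idx_mem p)
  have hd : ∀ a ∈ s, DifferentiableAt ℝ (fun y => ((S.loc (S.idx p) (θ a) y : ℝ) : ℂ)) (S.π p) := by
    intro a ha
    have h1 : DifferentiableAt ℝ (S.loc (S.idx p) (θ a)) (S.π p) :=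
      ((hθ a ha (S.idx p)).contDiffAt ((S.e _).open_target.mem_nhds hm)).differentiableAt
        (by simp)
    exact Complex.ofRealCLM.differentiableAt.comp _ h1
  unfold Dz dzr
  rw [← dz_sum s hd ξ]
  refine dz_congr (Eventually.of_forall fun y => ?_) ξ
  simp [loc]

theorem dens_nn_sum {φ : W → ℝ} (hφ : S.SmW φ) {n : ℕ} {f : Fin n → W → ℂ}
    (hf : ∀ a, Measurable (f a)) {ε : ℝ} (hε : 0 < ε)
    (h : ∀ a, S.nn φ (f a) ≤ ENNReal.ofReal (ε / (n + 1) ^ 2)) {F : W → ℂ}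
    (hF : ∀ p, F p = ∑ a, f a p) : S.nn φ F ≤ ENNReal.ofReal ε := by
  have e : F = fun p => ∑ a, f a p := funext hF
  rw [e]
  refine (S.nn_sum_le (SmW.measurable S hφ) Finset.univ fun a _ => hf a).trans ?_
  have h1 : ∑ a, S.nn φ (f a) ≤ ∑ _a : Fin n, ENNReal.ofReal (ε / (n + 1) ^ 2) :=
    Finset.sum_le_sum fun a _ => h a
  refine (mul_le_mul_right h1 _).trans ?_
  simp only [Finset.sum_const, Finset.card_univ, Fintype.card_fin, nsmul_eq_mul]
  rw [← ENNReal.ofReal_natCast n, ← ENNReal.ofReal_mul (Nat.cast_nonneg n),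
    ← ENNReal.ofReal_mul (Nat.cast_nonneg n)]
  refine ENNReal.ofReal_le_ofReal ?_
  have hn : (0 : ℝ) ≤ n := Nat.cast_nonneg n
  rw [← mul_assoc, mul_div_assoc', div_le_iff₀ (by positivity)]
  nlinarith

/-- pu for K; Wk.mul with θ_a, dens_chart on tsupport θ_a; sum (Dl_sum, Db_sum, nn_sum_le). The
sums of the data are γ, g, h: on K, Σ θ_a = 1 near p so Σ_a Dz θ_a p = 0 (Dz_congr; Dz of a finite
sum), off K everything vanishes. -/
theorem dens {φ : W → ℝ} (hφ : S.SmW φ) {γ : κ → W → ℂ} {g : W → ℂ} {h : κ → κ → W → ℂ}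
    (hw : S.Wk b φ γ g h) {K : Set W} (hK : IsCompact K)
    (h0 : ∀ p, p ∉ K → (∀ j, γ j p = 0) ∧ g p = 0 ∧ ∀ j k, h j k p = 0) :
    ∃ K', IsCompact K' ∧ ∀ ε : ℝ, 0 < ε → ∃ γ' : κ → W → ℂ,
      (∀ j, S.Test (γ' j) ∧ ∀ p, p ∉ K' → γ' j p = 0) ∧
      (∀ j, S.nn φ (fun p => γ' j p - γ j p) ≤ ENNReal.ofReal ε) ∧
      S.nn φ (fun p => S.Div b φ γ' p - g p) ≤ ENNReal.ofReal ε ∧
      ∀ j k, S.nn φ (fun p => S.Curl b γ' j k p - h j k p) ≤ ENNReal.ofReal ε := by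
  obtain ⟨n, i, θ, hθ, h1⟩ := S.pu hK
  have hw' := fun a => Wk.mul S b hφ hw (hθ a).1
  have hθ0 : ∀ a p, p ∉ tsupport (θ a) → θ a p = 0 := fun a p hp =>
    image_eq_zero_of_notMem_tsupport hp
  have hc := fun a => S.dens_chart b hφ (hw' a) (i := i a) (K := tsupport (θ a)) (hθ a).2.1
    (hθ a).2.2 (fun p hp => by
      simp [hθ0 a p hp, S.Dz_eq_zero hp])
  choose K' hK' hap using hc
  have hs1 : ∀ p ∈ K, ∑ a, (θ a p : ℂ) = 1 := fun p hp => by
    have := (h1 p hp).self_of_nhds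
    exact_mod_cast this
  have hs2 : ∀ p ∈ K, ∀ ξ, ∑ a, S.Dz (θ a) p ξ = 0 := fun p hp ξ => by
    rw [← S.dens_Dz_sum Finset.univ (fun a _ => (hθ a).1), S.Dz_congr (g := fun _ => 1) (h1 p hp)]
    exact dzr_const 1 _ _
  have hs3 : ∀ p ∈ K, ∀ ξ, ∑ a, conj (S.Dz (θ a) p ξ) = 0 := fun p hp ξ => by
    rw [← map_sum, hs2 p hp, map_zero]
  have e1 : ∀ j p, ∑ a, (θ a p : ℂ) * γ j p = γ j p := fun j p => by
    by_cases hp : p ∈ K
    · rw [← Finset.sum_mul, hs1 p hp, one_mul]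
    · simp [(h0 p hp).1 j]
  have e2 : ∀ p, ∑ a, ((θ a p : ℂ) * g p + ∑ j, S.Dz (θ a) p (b j) * γ j p) = g p := fun p => by
    by_cases hp : p ∈ K
    · rw [Finset.sum_add_distrib, ← Finset.sum_mul, hs1 p hp, one_mul, Finset.sum_comm]
      simp [← Finset.sum_mul, hs2 p hp]
    · simp [(h0 p hp).1, (h0 p hp).2.1]
  have e3 : ∀ j k p, ∑ a, ((θ a p : ℂ) * h j k p +
      (conj (S.Dz (θ a) p (b j)) * γ k p - conj (S.Dz (θ a) p (b k)) * γ j p)) = h j k p :=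
    fun j k p => by
    by_cases hp : p ∈ K
    · rw [Finset.sum_add_distrib, ← Finset.sum_mul, hs1 p hp, one_mul, Finset.sum_sub_distrib,
        ← Finset.sum_mul, ← Finset.sum_mul, hs3 p hp, hs3 p hp]
      simp
    · simp [(h0 p hp).1, (h0 p hp).2.2]
  refine ⟨⋃ a, K' a, isCompact_iUnion hK', fun ε hε => ?_⟩
  choose γ' hγ1 hγ2 hγ3 hγ4 using fun a => hap a (ε / (n + 1) ^ 2) (by positivity)
  have hsm : ∀ j, ∀ a ∈ (Finset.univ : Finset (Fin n)), S.SmS (γ' a j) :=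
    fun j a _ => (hγ1 a j).1.1
  refine ⟨fun j p => ∑ a, γ' a j p, fun j => ⟨S.test_sum _ fun a _ => (hγ1 a j).1, fun p hp => ?_⟩,
    fun j => ?_, ?_, fun j k => ?_⟩
  · exact Finset.sum_eq_zero fun a _ => (hγ1 a j).2 p fun hp' => hp (mem_iUnion.2 ⟨a, hp'⟩)
  · refine S.dens_nn_sum hφ (fun a => ?_) hε (fun a => hγ2 a j) fun p => ?_
    · exact (SmS.measurable S (hγ1 a j).1.1).sub ((hw' a).lγ j).1
    · rw [Finset.sum_sub_distrib, e1]
  · refine S.dens_nn_sum hφ (fun a => ?_) hε (fun a => hγ3 a) fun p => ?_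
    · exact (SmS.measurable S (S.test_Div b hφ fun j => (hγ1 a j).1).1).sub (hw' a).lg.1
    · rw [Finset.sum_sub_distrib, e2]
      unfold Div
      rw [Finset.sum_comm]
      simp only [S.Dl_sum φ Finset.univ (hsm _)]
  · refine S.dens_nn_sum hφ (fun a => ?_) hε (fun a => hγ4 a j k) fun p => ?_
    · exact (SmS.measurable S (S.test_Curl b (fun j => (hγ1 a j).1) j k).1).sub ((hw' a).lh j k).1
    · rw [Finset.sum_sub_distrib, e3]
      unfold Curl
      rw [Finset.sum_sub_distrib]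
      simp only [S.Db_sum Finset.univ (hsm _)]

end Sheets

end

end Fuj
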