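import Vale.Agent.P271.HCalc2

/-! Integration by parts on E. FiniteDimensional ℝ E follows from
FiniteDimensional.trans ℝ ℂ E (Module.Finite.trans). -/

namespace Fuj

open MeasureTheory Set Filter Topology Complex
open scoped ENNReal ContDiff ComplexConjugate

noncomputable section

variable {E : Type*} [NormedAddCommGroup E] [NormedSpace ℝ E] [NormedSpace ℂ E]
  [IsScalarTower ℝ ℂ E] [FiniteDimensional ℂ E] [MeasurableSpace E] [BorelSpace E]
  {vol : Measure E} [vol.IsAddHaarMeasure]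

/-- integral_bilinear_hasFDerivAt_right_eq_neg_left_of_integrable with the constant 1, or
integral_mul_fderiv_eq_neg_fderiv_mul_of_integrable with a bump equal to 1 near the support. -/
theorem integral_fderiv_zero {h : E → ℂ} (hh : ContDiff ℝ 1 h) (hc : HasCompactSupport h) (v : E) :
    ∫ z, fderiv ℝ h z v ∂vol = 0 := by
  have : FiniteDimensional ℝ E := Module.Finite.trans ℂ E
  have h1 : Integrable (fun z => fderiv ℝ h z v) vol :=
    ((hh.continuous_fderiv one_ne_zero).clm_apply continuous_const).integrable_of_hasCompactSupport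
      (hc.fderiv_apply ℝ v)
  have h2 := integral_mul_fderiv_eq_neg_fderiv_mul_of_integrable (μ := vol)
    (f := fun _ => (1 : ℂ)) (g := h) (v := v) (by simp) (by simpa using h1)
    (by simpa using hh.continuous.integrable_of_hasCompactSupport hc)
    (fun _ _ => differentiableAt_const _) (fun z _ => hh.differentiable one_ne_zero z)
  simpa using h2

/-- Extension by zero of a function that vanishes outside a compact subset of U. -/
theorem contDiff_indicator {F : Type*} [NormedAddCommGroup F] [NormedSpace ℝ F] {n : WithTop ℕ∞}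
    {U K : Set E} (hU : IsOpen U) (hK : IsCompact K) (hKU : K ⊆ U) {h : E → F}
    (hh : ContDiffOn ℝ n h U) (h0 : ∀ z ∈ U, z ∉ K → h z = 0) :
    ContDiff ℝ n (U.indicator h) ∧ HasCompactSupport (U.indicator h) ∧
      tsupport (U.indicator h) ⊆ K := by
  have h1 : tsupport (U.indicator h) ⊆ K := by
    refine closure_minimal (fun z hz => ?_) hK.isClosed
    by_contra h2
    by_cases h3 : z ∈ U
    · exact hz ((indicator_of_mem h3 h).trans (h0 z h3 h2))
    · exact hz (indicator_of_notMem h3 h)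
  refine ⟨contDiff_iff_contDiffAt.2 fun z => ?_, hK.of_isClosed_subset (isClosed_tsupport _) h1, h1⟩
  by_cases h3 : z ∈ U
  · refine (hh.contDiffAt (hU.mem_nhds h3)).congr_of_eventuallyEq ?_
    filter_upwards [hU.mem_nhds h3] with y hy using indicator_of_mem hy h
  · exact contDiffAt_const.congr_of_eventuallyEq
      (notMem_tsupport_iff_eventuallyEq.1 fun h4 => h3 (hKU (h1 h4)))

theorem hibp_zero {U K : Set E} (hU : IsOpen U) (hK : IsCompact K) (hKU : K ⊆ U)
    {h : E → ℂ} (hh : ContDiffOn ℝ 1 h U) (h0 : ∀ z ∈ U, z ∉ K → h z = 0) (c : ℂ) (ξ ζ : E) :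
    ∫ z in U, (fderiv ℝ h z ξ + c * fderiv ℝ h z ζ) / 2 ∂vol = 0 := by
  obtain ⟨h1, h2, h3⟩ := contDiff_indicator hU hK hKU hh h0
  have h4 : ∀ v, Integrable (fun z => fderiv ℝ (U.indicator h) z v) vol := fun v =>
    ((h1.continuous_fderiv one_ne_zero).clm_apply continuous_const).integrable_of_hasCompactSupport
      (h2.fderiv_apply ℝ v)
  have h5 : ∀ z ∈ U, fderiv ℝ h z = fderiv ℝ (U.indicator h) z := by
    intro z hz
    refine Filter.EventuallyEq.fderiv_eq ?_
    filter_upwards [hU.mem_nhds hz] with y hy using (indicator_of_mem hy h).symm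
  have h6 : ∀ z, z ∉ U → fderiv ℝ (U.indicator h) z = 0 := fun z hz =>
    image_eq_zero_of_notMem_tsupport fun h7 => hz (hKU (h3 (tsupport_fderiv_subset ℝ h7)))
  rw [setIntegral_congr_fun (g := fun z => (fderiv ℝ (U.indicator h) z ξ +
      c * fderiv ℝ (U.indicator h) z ζ) / 2) hU.measurableSet fun z hz => by simp only [h5 z hz],
    setIntegral_eq_integral_of_forall_compl_eq_zero fun z hz => by simp [h6 z hz],
    integral_div, integral_add (h4 ξ) ((h4 ζ).const_mul c), integral_const_mul,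
    integral_fderiv_zero h1 h2, integral_fderiv_zero h1 h2]
  simp

theorem setIntegral_dz_zero {U K : Set E} (hU : IsOpen U) (hK : IsCompact K) (hKU : K ⊆ U)
    {h : E → ℂ} (hh : ContDiffOn ℝ 1 h U) (h0 : ∀ z ∈ U, z ∉ K → h z = 0) (ξ : E) :
    ∫ z in U, dz h z ξ ∂vol = 0 := by
  simpa only [dz, neg_mul, ← sub_eq_add_neg] using
    hibp_zero (vol := vol) hU hK hKU hh h0 (-I) ξ (I • ξ)

theorem setIntegral_db_zero {U K : Set E} (hU : IsOpen U) (hK : IsCompact K) (hKU : K ⊆ U)
    {h : E → ℂ} (hh : ContDiffOn ℝ 1 h U) (h0 : ∀ z ∈ U, z ∉ K → h z = 0) (ξ : E) :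
    ∫ z in U, db h z ξ ∂vol = 0 :=
  hibp_zero hU hK hKU hh h0 I ξ (I • ξ)

theorem integrableOn_of_supp {F : Type*} [NormedAddCommGroup F] {U K : Set E} (hU : IsOpen U)
    (hK : IsCompact K) (hKU : K ⊆ U) {h : E → F} (hh : ContinuousOn h U)
    (h0 : ∀ z ∈ U, z ∉ K → h z = 0) : IntegrableOn h U vol :=
  ((hh.mono hKU).integrableOn_compact hK).of_forall_sdiff_eq_zero hU.measurableSet
    fun z hz => h0 z hz.1 hz.2

/-- A continuous function with compact support times a locally square integrable function. -/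
theorem integrableOn_mul_of_supp {U K : Set E} (hU : IsOpen U) (hK : IsCompact K) (hKU : K ⊆ U)
    {a g : E → ℂ} (ha : ContinuousOn a U) (h0 : ∀ z ∈ U, z ∉ K → a z = 0)
    (hg : AEStronglyMeasurable g (vol.restrict U))
    (hg2 : ∫⁻ z in K, ENNReal.ofReal (‖g z‖ ^ 2) ∂vol ≠ ⊤) :
    IntegrableOn (fun z => a z * g z) U vol := by
  have h1 : AEStronglyMeasurable g (vol.restrict K) :=
    hg.mono_measure (Measure.restrict_mono hKU le_rfl)
  have h2 : MemLp g 2 (vol.restrict K) :=
    (memLp_two_iff_integrable_sq_norm h1).2 ⟨h1.norm.pow 2,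
      (hasFiniteIntegral_iff_ofReal (ae_of_all _ fun z => sq_nonneg _)).2 hg2.lt_top⟩
  have : IsFiniteMeasure (vol.restrict K) := isFiniteMeasure_restrict.2 hK.measure_lt_top.ne
  exact (IntegrableOn.continuousOn_mul (ha.mono hKU) (h2.integrable one_le_two)
    hK).of_forall_sdiff_eq_zero hU.measurableSet fun z hz => by rw [h0 z hz.1 hz.2, zero_mul]

theorem TestOn.dzr_eq_zero {U : Set E} {ζ : E → ℝ} (_h : TestOn U ζ) {z : E}
    (hz : z ∉ tsupport ζ) (ξ : E) : dzr ζ z ξ = 0 :=
  (dzr_congr (g := fun _ => 0) (notMem_tsupport_iff_eventuallyEq.1 hz) ξ).trans (dzr_const 0 z ξ)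

theorem TestOn.continuous_dzr {U : Set E} {ζ : E → ℝ} (h : TestOn U ζ) (ξ : E) :
    Continuous (fun z => dzr ζ z ξ) :=
  continuousOn_univ.1 (contDiffOn_dzr isOpen_univ h.1.contDiffOn ξ).continuousOn

/-- The product of a test function with a function that is smooth on U. -/
theorem TestOn.mul {U : Set E} (hU : IsOpen U) {ζ : E → ℝ} (h : TestOn U ζ) {θ : E → ℝ}
    (hθ : ContDiffOn ℝ ∞ θ U) : TestOn U (fun z => ζ z * θ z) ∧
      tsupport (fun z => ζ z * θ z) ⊆ tsupport ζ := by
  have h1 : tsupport (fun z => ζ z * θ z) ⊆ tsupport ζ := tsupport_mul_subset_left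
  have h2 := (contDiff_indicator hU h.2.1 h.2.2 (h.1.contDiffOn.mul hθ) fun z _ hz => by
    rw [image_eq_zero_of_notMem_tsupport hz, zero_mul]).1
  have h3 : U.indicator (fun z => ζ z * θ z) = fun z => ζ z * θ z :=
    indicator_eq_self.2 ((subset_tsupport _).trans (h1.trans h.2.2))
  rw [h3] at h2
  exact ⟨⟨h2, h.2.1.mul_right, h1.trans h.2.2⟩, h1⟩

theorem hibp_cont {U : Set E} (hU : IsOpen U) {g : E → ℂ} (hg : ContDiffOn ℝ 1 g U) (c : ℂ)
    (ξ η : E) : ContinuousOn (fun z => (fderiv ℝ g z ξ + c * fderiv ℝ g z η) / 2) U := by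
  have h1 := hg.continuousOn_fderiv_of_isOpen hU le_rfl
  exact ((h1.clm_apply continuousOn_const).add
    (continuousOn_const.mul (h1.clm_apply continuousOn_const))).div_const 2

theorem hibp_split {U : Set E} (hU : IsOpen U) {ζ : E → ℝ} (h : TestOn U ζ) {g a d t : E → ℂ}
    (hg : ContinuousOn g U) (ha : Continuous a) (ha0 : ∀ z, z ∉ tsupport ζ → a z = 0)
    (hd : ContinuousOn d U) (ht : ∀ z ∈ U, t z = a z * g z + (ζ z : ℂ) * d z)
    (h0 : ∫ z in U, t z ∂vol = 0) :
    ∫ z in U, a z * g z ∂vol = -∫ z in U, (ζ z : ℂ) * d z ∂vol := by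
  have h1 : IntegrableOn (fun z => a z * g z) U vol :=
    integrableOn_of_supp hU h.2.1 h.2.2 (ha.continuousOn.mul hg) fun z _ hz => by
      rw [ha0 z hz, zero_mul]
  have h2 : IntegrableOn (fun z => (ζ z : ℂ) * d z) U vol :=
    integrableOn_of_supp hU h.2.1 h.2.2
      ((continuous_ofReal.comp h.1.continuous).continuousOn.mul hd) fun z _ hz => by
      simp [image_eq_zero_of_notMem_tsupport hz]
  rw [setIntegral_congr_fun hU.measurableSet ht, integral_add h1 h2] at h0
  exact eq_neg_of_add_eq_zero_left h0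

theorem hibp_re {ζ : E → ℝ} (h : ContDiff ℝ ∞ ζ) : ContDiff ℝ 1 fun z => (ζ z : ℂ) :=
  ofRealCLM.contDiff.comp (h.of_le (by simp))

theorem ibp_dz {U : Set E} (hU : IsOpen U) {ζ : E → ℝ} (h : TestOn U ζ) {g : E → ℂ}
    (hg : ContDiffOn ℝ 1 g U) (ξ : E) :
    ∫ z in U, dzr ζ z ξ * g z ∂vol = -∫ z in U, (ζ z : ℂ) * dz g z ξ ∂vol := by
  have h1 := hibp_re h.1
  refine hibp_split hU h hg.continuousOn (h.continuous_dzr ξ) (fun z hz => h.dzr_eq_zero hz ξ) ?_
    (fun z hz => dz_mul (h1.differentiable one_ne_zero z)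
      ((hg.contDiffAt (hU.mem_nhds hz)).differentiableAt one_ne_zero) ξ)
    (setIntegral_dz_zero hU h.2.1 h.2.2 (h1.contDiffOn.mul hg) (fun z _ hz => ?_) ξ)
  · simpa only [dz, neg_mul, ← sub_eq_add_neg] using hibp_cont hU hg (-I) ξ (I • ξ)
  · simp [image_eq_zero_of_notMem_tsupport hz]

theorem ibp_db {U : Set E} (hU : IsOpen U) {ζ : E → ℝ} (h : TestOn U ζ) {g : E → ℂ}
    (hg : ContDiffOn ℝ 1 g U) (ξ : E) :
    ∫ z in U, conj (dzr ζ z ξ) * g z ∂vol = -∫ z in U, (ζ z : ℂ) * db g z ξ ∂vol := by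
  have h1 := hibp_re h.1
  refine hibp_split hU h hg.continuousOn (continuous_conj.comp (h.continuous_dzr ξ))
    (fun z hz => by simp [h.dzr_eq_zero hz ξ]) (hibp_cont hU hg I ξ (I • ξ))
    (fun z hz => ?_)
    (setIntegral_db_zero hU h.2.1 h.2.2 (h1.contDiffOn.mul hg) (fun z _ hz => ?_) ξ)
  · rw [db_mul (h1.differentiable one_ne_zero z)
      ((hg.contDiffAt (hU.mem_nhds hz)).differentiableAt one_ne_zero) ξ, db_ofReal]
  · simp [image_eq_zero_of_notMem_tsupport hz]

end

end Fuj
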