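import Vale.Agent.P271.HDefs

/-! Integrability of negative powers of holomorphic functions. -/

namespace Fuj

open MeasureTheory Set Filter Topology Complex
open scoped ENNReal ContDiff ComplexConjugate

noncomputable section

theorem HInt0_order {g : ℂ → ℂ} (hg : AnalyticAt ℂ g 0) {r : ℕ}
    (h : ∀ m : ℝ, 0 < m → ¬ ∀ᶠ t : ℂ in 𝓝 0, m * ‖t‖ ^ r ≤ ‖g t‖) :
    g 0 = 0 ∧ (fun t => g t - g 0) =o[𝓝 0] fun w : ℂ => ‖w - 0‖ ^ r := by
  have h1 : ((r + 1 : ℕ) : ℕ∞) ≤ analyticOrderAt g 0 := by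
    by_contra hn
    have hlt := not_le.1 hn
    obtain ⟨k, hk⟩ := ENat.ne_top_iff_exists.1 hlt.ne_top
    have hkr : k ≤ r := by
      rw [← hk] at hlt
      exact Nat.lt_succ_iff.1 (by exact_mod_cast hlt)
    obtain ⟨u, hu, hu0, he⟩ := hg.analyticOrderAt_eq_natCast.1 hk.symm
    have hp : 0 < ‖u 0‖ := norm_pos_iff.2 hu0
    refine h (‖u 0‖ / 2) (half_pos hp) ?_
    filter_upwards [he, continuousAt_const.eventually_lt hu.continuousAt.norm (half_lt_self hp),
      Metric.closedBall_mem_nhds (0 : ℂ) one_pos] with t ht h2 h3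
    rw [ht, sub_zero, norm_smul, norm_pow, mul_comm]
    exact mul_le_mul (pow_le_pow_of_le_one (norm_nonneg _) (by simpa using h3) hkr) h2.le
      (half_pos hp).le (by positivity)
  obtain ⟨u, hu, he⟩ := (natCast_le_analyticOrderAt hg).1 h1
  have h0 : g 0 = 0 := by simpa using he.self_of_nhds
  refine ⟨h0, ?_⟩
  have h2 : (fun t : ℂ => t * u t) =o[𝓝 0] fun _ => (1 : ℝ) := by
    rw [Asymptotics.isLittleO_one_iff]
    simpa using (continuousAt_id' (0 : ℂ)).tendsto.mul hu.continuousAt.tendsto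
  have h3 : (fun t : ℂ => t ^ r) =O[𝓝 0] fun w : ℂ => ‖w - 0‖ ^ r :=
    Asymptotics.IsBigO.of_bound 1 (Eventually.of_forall fun t => by simp)
  refine (h3.mul_isLittleO h2).congr' ?_ (Eventually.of_forall fun t => by simp)
  filter_upwards [he] with t ht
  rw [ht, h0]
  simp [pow_succ, mul_assoc]

/-- If t ↦ f (y + t ξ) is O(t^(r+1)) for every ξ, the Schwarz lemma (for a holomorphic g on a disc of
radius ρ bounded by M with a zero of order ≥ r + 1, |g t| ≤ M (|t|/ρ)^(r+1); induction with dslope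
or the maximum principle for g / t^(r+1)) gives f = O(|z - y|^(r+1)). Otherwise for some ξ the
analytic function t ↦ f (y + t ξ) has order k ≤ r, so it is t^k times a nonvanishing function. -/
theorem exists_dir {E : Type*} [NormedAddCommGroup E] [NormedSpace ℂ E] {f : E → ℂ} {y : E}
    (hf : ∀ᶠ z in 𝓝 y, DifferentiableAt ℂ f z) {r : ℕ}
    (hr : ¬ f =O[𝓝 y] (fun z => ‖z - y‖ ^ (r + 1))) :
    ∃ (ξ : E) (m : ℝ), 0 < m ∧ ∀ᶠ t : ℂ in 𝓝 0, m * ‖t‖ ^ r ≤ ‖f (y + t • ξ)‖ := by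
  by_contra hn
  have hc := hf.self_of_nhds.continuousAt
  obtain ⟨ρ, hρ, hb⟩ := Metric.eventually_nhds_iff_ball.1
    (hf.and (hc.eventually (Metric.closedBall_mem_nhds (f y) one_pos)))
  have key : ∀ ξ : E, f (y + (0 : ℂ) • ξ) = 0 ∧ (fun t : ℂ => f (y + t • ξ) - f (y + (0 : ℂ) • ξ))
      =o[𝓝 0] fun w : ℂ => ‖w - 0‖ ^ r := by
    intro ξ
    refine HInt0_order (g := fun t => f (y + t • ξ)) ?_ fun m hm h => hn ⟨ξ, m, hm, h⟩
    have ht : Tendsto (fun t : ℂ => y + t • ξ) (𝓝 0) (𝓝 y) :=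
      Continuous.tendsto' (by fun_prop) _ _ (by simp)
    rw [analyticAt_iff_eventually_differentiableAt]
    filter_upwards [ht.eventually hf] with t h
    exact h.comp t (f := fun t : ℂ => y + t • ξ) (by fun_prop)
  have h0 : f y = 0 := by simpa using (key 0).1
  refine hr (Asymptotics.IsBigO.of_bound ((1 / ρ) ^ (r + 1)) ?_)
  filter_upwards [Metric.ball_mem_nhds y hρ] with z hz
  rcases eq_or_ne z y with rfl | hne
  · simp [h0]
  have hp : 0 < ‖z - y‖ := norm_pos_iff.2 (sub_ne_zero.2 hne)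
  have hm : ∀ t : ℂ, t ∈ Metric.ball (0 : ℂ) (ρ / ‖z - y‖) → y + t • (z - y) ∈ Metric.ball y ρ := by
    intro t ht
    rw [mem_ball_zero_iff, lt_div_iff₀ hp] at ht
    rwa [mem_ball_iff_norm, add_sub_cancel_left, norm_smul]
  have h := dist_le_mul_div_pow_of_mapsTo_ball_of_isLittleO (f := fun t : ℂ => f (y + t • (z - y)))
    (c := 0) (z := 1) (R₁ := ρ / ‖z - y‖) (R₂ := 1) (n := r)
    (fun t ht => ((hb _ (hm t ht)).1.comp t (f := fun t : ℂ => y + t • (z - y))
      (by fun_prop)).differentiableWithinAt)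
    (fun t ht => by simpa using (hb _ (hm t ht)).2) (key (z - y)).2
    (by rw [mem_ball_zero_iff, lt_div_iff₀ hp, norm_one, one_mul]; exact mem_ball_iff_norm.1 hz)
  simp only [one_smul, add_sub_cancel, zero_smul, add_zero, h0, dist_zero_right, norm_one,
    one_mul] at h
  refine h.trans_eq ?_
  rw [norm_pow, norm_norm, ← mul_pow]
  congr 1
  field_simp

end

end Fuj
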