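import Vale.Agent.P271.HLaur

/-! The key lemma. -/

namespace Fuj

open MeasureTheory Set Filter Topology Complex
open scoped ENNReal ContDiff ComplexConjugate

noncomputable section

section
variable {X : Type} [NormedAddCommGroup X] [NormedSpace ℝ X] [NormedSpace ℂ X]
  [IsScalarTower ℝ ℂ X] [FiniteDimensional ℂ X] [MeasurableSpace X] [BorelSpace X]
  [SecondCountableTopology X] (vol : Measure X) [vol.IsAddHaarMeasure]

omit [NormedSpace ℝ X] [IsScalarTower ℝ ℂ X] [FiniteDimensional ℂ X] [MeasurableSpace X]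
  [BorelSpace X] [SecondCountableTopology X] in
theorem kld_cont {P : Set X} {F : X × ℂ → ℂ}
    (hF : DifferentiableOn ℂ F (P ×ˢ (Metric.ball 0 1 \ {0}))) (k : ℕ) :
    ContinuousOn (fun p => ∮ τ in C(0, 1 / 2), τ⁻¹ * (τ ^ k * F (p, τ))) P := by
  rw [continuousOn_iff_continuous_domRestrict]
  have hne : ∀ θ : ℝ, circleMap 0 (1 / 2) θ ≠ 0 := fun θ => circleMap_ne_center (by norm_num)
  have h1 : Continuous fun q : P × ℝ => F (q.1, circleMap 0 (1 / 2) q.2) := by
    refine hF.continuousOn.comp_continuous (by fun_prop) fun q => ⟨q.1.2, ?_, hne _⟩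
    rw [mem_ball_zero_iff, norm_circleMap_zero]
    norm_num
  have h2 : Continuous fun q : P × ℝ => circleMap 0 (1 / 2) q.2 := by fun_prop
  refine intervalIntegral.continuous_parametric_intervalIntegral_of_continuous'
    (f := fun (p : P) (θ : ℝ) => deriv (circleMap 0 (1 / 2)) θ •
      ((circleMap 0 (1 / 2) θ)⁻¹ * (circleMap 0 (1 / 2) θ ^ k * F (p, circleMap 0 (1 / 2) θ))))
    ?_ _ _
  simp only [deriv_circleMap, smul_eq_mul]
  exact (h2.mul continuous_const).mul ((h2.inv₀ fun q => hne _).mul ((h2.pow k).mul h1))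

/-- The coefficient a(p) is continuous near p₀ (parametric interval integral), so |a| ≥ m > 0 on a
ball V ⊆ P. Tonelli (F, σ_j are continuous on the open sets, which gives a.e. measurability; one may
replace σ_j by the indicator of P times σ_j) and laur_lower with g t = kw t p * exp (c t). -/
theorem kl_good {P : Set X} (hP : IsOpen P) {J : Type} [Fintype J] {σ : J → X → ℂ} (b : J → ℝ)
    (μ c : ℝ) (hσ : ∀ j, DifferentiableOn ℂ (σ j) P) {F : X × ℂ → ℂ}
    (hF : DifferentiableOn ℂ F (P ×ˢ (Metric.ball 0 1 \ {0})))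
    (hfin : ∫⁻ q in P ×ˢ (Metric.ball 0 1 \ {0}), ENNReal.ofReal (‖F q‖ ^ 2 * ew σ b μ c q)
      ∂(vol.prod volume) ≠ ⊤) {p₀ : X} (hp₀ : p₀ ∈ P) {k : ℕ}
    (hk : (∮ τ in C(0, 1 / 2), τ⁻¹ * (τ ^ k * F (p₀, τ))) ≠ 0) :
    ∃ V ∈ 𝓝 p₀, V ⊆ P ∧ ∫⁻ t in Ioi (0 : ℝ), ENNReal.ofReal (Real.exp ((c - 1) * t)) *
      ∫⁻ p in V, ENNReal.ofReal (kw σ b μ t p) ∂vol ≠ ⊤ := by
  classical
  have : ProperSpace X := FiniteDimensional.proper ℂ X
  set a : X → ℂ := fun p => ∮ τ in C(0, 1 / 2), τ⁻¹ * (τ ^ k * F (p, τ)) with ha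
  have hac : ContinuousOn a P := kld_cont hF k
  set m : ℝ := ‖a p₀‖ / 2 with hm
  have hm0 : 0 < m := half_pos (norm_pos_iff.2 hk)
  set V : Set X := P ∩ (fun p => ‖a p‖) ⁻¹' Ioi m with hV
  have hVo : IsOpen V := hac.norm.isOpen_inter_preimage hP isOpen_Ioi
  have hVP : V ⊆ P := inter_subset_left
  refine ⟨V, hVo.mem_nhds ⟨hp₀, half_lt_self (norm_pos_iff.2 hk)⟩, hVP, ?_⟩
  set D : Set ℂ := Metric.ball 0 1 \ {0} with hD
  have hDo : IsOpen D := Metric.isOpen_ball.sdiff isClosed_singleton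
  set σ' : J → X → ℂ := fun j => P.piecewise (σ j) 0 with hσ'
  have hσm : ∀ j, Measurable (σ' j) := fun j =>
    (hσ j).continuousOn.measurable_piecewise continuousOn_const hP.measurableSet
  have hkw : ∀ t, ∀ p ∈ P, kw σ' b μ t p = kw σ b μ t p := fun t p hp => by
    simp only [kw, hσ', piecewise_eq_of_mem _ _ _ hp]
  have hkw0 : ∀ t p, 0 ≤ kw σ b μ t p := fun t p =>
    Real.rpow_nonneg (Finset.sum_nonneg fun j _ => by positivity) _
  set G : X × ℝ → ℝ≥0∞ := fun q => ENNReal.ofReal (kw σ' b μ q.2 q.1 * Real.exp (c * q.2))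
    with hG
  have hGm : Measurable G := by
    refine ENNReal.measurable_ofReal.comp (Measurable.mul ?_ (by fun_prop))
    refine Measurable.pow_const (Finset.measurable_sum _ fun j _ => ?_) _
    exact (((hσm j).comp measurable_fst).norm.pow_const 2).mul (by fun_prop)
  have e1 : ∫⁻ t in Ioi (0 : ℝ), ENNReal.ofReal (Real.exp ((c - 1) * t)) *
      ∫⁻ p in V, ENNReal.ofReal (kw σ b μ t p) ∂vol =
      ∫⁻ p in V, (∫⁻ t in Ioi (0 : ℝ), G (p, t) * ENNReal.ofReal (Real.exp (-t))) ∂vol := by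
    rw [lintegral_lintegral_swap (hGm.mul (by fun_prop)).aemeasurable]
    refine lintegral_congr fun t => ?_
    rw [← lintegral_const_mul' _ _ ENNReal.ofReal_ne_top]
    refine setLIntegral_congr_fun hVo.measurableSet fun p hp => ?_
    simp only [hG, hkw t p (hVP hp)]
    rw [← ENNReal.ofReal_mul (Real.exp_pos _).le,
      ← ENNReal.ofReal_mul (mul_nonneg (hkw0 _ _) (Real.exp_pos _).le), mul_assoc,
      ← Real.exp_add, mul_comm]
    congr 3
    ring
  have hFm : AEMeasurable F ((vol.restrict V).prod (volume.restrict D)) := by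
    rw [Measure.prod_restrict]
    exact (hF.continuousOn.mono (prod_mono hVP subset_rfl)).aemeasurable
      (hVo.prod hDo).measurableSet
  have e2 : ∫⁻ p in V, (∫⁻ τ in D, ENNReal.ofReal (‖F (p, τ)‖ ^ 2) *
      G (p, -Real.log (‖τ‖ ^ 2))) ∂vol ≤
      ∫⁻ q in P ×ˢ D, ENNReal.ofReal (‖F q‖ ^ 2 * ew σ b μ c q) ∂(vol.prod volume) := by
    have hm2 : Measurable fun q : X × ℂ => G (q.1, -Real.log (‖q.2‖ ^ 2)) :=
      hGm.comp (measurable_fst.prodMk (by fun_prop))
    rw [← lintegral_prod (fun q : X × ℂ => ENNReal.ofReal (‖F q‖ ^ 2) *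
      G (q.1, -Real.log (‖q.2‖ ^ 2)))
      ((hFm.norm.pow_const 2).ennreal_ofReal.mul hm2.aemeasurable), Measure.prod_restrict]
    refine le_trans (le_of_eq ?_) (lintegral_mono_set (prod_mono hVP subset_rfl))
    refine setLIntegral_congr_fun (hVo.prod hDo).measurableSet fun q hq => ?_
    simp only [hG, hkw _ _ (hVP hq.1), ew]
    rw [← ENNReal.ofReal_mul (sq_nonneg _)]
  have e3 : ENNReal.ofReal (m ^ 2 / (4 * Real.pi)) *
      ∫⁻ p in V, (∫⁻ t in Ioi (0 : ℝ), G (p, t) * ENNReal.ofReal (Real.exp (-t))) ∂vol ≤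
      ∫⁻ p in V, (∫⁻ τ in D, ENNReal.ofReal (‖F (p, τ)‖ ^ 2) *
        G (p, -Real.log (‖τ‖ ^ 2))) ∂vol := by
    rw [← lintegral_const_mul' _ _ ENNReal.ofReal_ne_top]
    refine setLIntegral_mono' hVo.measurableSet fun p hp => ?_
    have hFp : DifferentiableOn ℂ (fun τ => F (p, τ)) D :=
      hF.comp ((differentiableOn_const p).prodMk differentiableOn_id) fun τ hτ => ⟨hVP hp, hτ⟩
    refine le_trans (mul_le_mul_left (ENNReal.ofReal_le_ofReal ?_) _)
      (laur_lower hFp k (g := fun t => G (p, t)) (hGm.comp measurable_prodMk_left))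
    have h1 : m ≤ ‖a p‖ := le_of_lt hp.2
    exact div_le_div_of_nonneg_right (pow_le_pow_left₀ hm0.le h1 2) (by positivity)
  rw [e1]
  intro htop
  rw [htop, ENNReal.mul_top (ENNReal.ofReal_pos.2 (by positivity)).ne'] at e3
  exact hfin (top_le_iff.1 (e3.trans e2))

end

end

end Fuj
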