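import Vale.Agent.P271.HKLc
import Vale.Agent.P271.HKLd

/-! The key lemma. -/

namespace Fuj

open MeasureTheory Set Filter Topology Complex
open scoped ENNReal ContDiff ComplexConjugate

noncomputable section

variable {E₁ E₂ : Type} [NormedAddCommGroup E₁] [NormedSpace ℝ E₁] [InnerProductSpace ℂ E₁]
  [IsScalarTower ℝ ℂ E₁] [FiniteDimensional ℂ E₁] [MeasurableSpace E₁] [BorelSpace E₁]
  [NormedAddCommGroup E₂] [NormedSpace ℝ E₂] [InnerProductSpace ℂ E₂]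
  [IsScalarTower ℝ ℂ E₂] [FiniteDimensional ℂ E₂] [MeasurableSpace E₂] [BorelSpace E₂]
  [SecondCountableTopology E₁] [SecondCountableTopology E₂]
  (v₁ : Measure E₁) [v₁.IsAddHaarMeasure] (v₂ : Measure E₂) [v₂.IsAddHaarMeasure]

/-- mv_two with B = ball (r₁/4) × ball (r₂/4) × ball (1/8); there 3/8 ≤ |τ| ≤ 5/8, so |t| ≤ 2 and
ew is bounded below (kw_bounds). -/
theorem kl_sup {r₁ r₂ A μ : ℝ} (β c : ℝ) (h₁ : 0 < r₁) (h₂ : 0 < r₂) (hA : 0 < A) (hμ : 0 ≤ μ) :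
    ∃ C : ℝ, 0 < C ∧ ∀ (J : Type) [Fintype J] (σ : J → E₁ × E₂ → ℂ) (b : J → ℝ),
      KD (PP E₁ E₂ r₁ r₂) A β σ b → ∀ F : (E₁ × E₂) × ℂ → ℂ,
      DifferentiableOn ℂ F (OO E₁ E₂ r₁ r₂) → ∀ (z₁ : E₁) (y₀ : E₂) (τ : ℂ), ‖z₁‖ ≤ r₁ / 2 →
      ‖y₀‖ ≤ r₂ / 2 → ‖τ‖ = 1 / 2 → ENNReal.ofReal (‖F ((z₁, y₀), τ)‖ ^ 2) ≤
        ENNReal.ofReal C * ∫⁻ q in OO E₁ E₂ r₁ r₂, ENNReal.ofReal (‖F q‖ ^ 2 * ew σ b μ c q)
          ∂((v₁.prod v₂).prod volume) := by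
  haveI := FiniteDimensional.proper ℂ E₁
  haveI := FiniteDimensional.proper ℂ E₂
  set vol : Measure ((E₁ × E₂) × ℂ) := (v₁.prod v₂).prod volume with hvol
  haveI : vol.IsAddHaarMeasure := Measure.prod.instIsAddHaarMeasure _ _
  set B : Set ((E₁ × E₂) × ℂ) :=
    (Metric.ball 0 (r₁ / 4) ×ˢ Metric.ball 0 (r₂ / 4)) ×ˢ Metric.ball 0 (1 / 8) with hB
  have hBo : IsOpen B := (Metric.isOpen_ball.prod Metric.isOpen_ball).prod Metric.isOpen_ball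
  have hB0 : vol B ≠ 0 := (hBo.measure_pos vol ⟨0, ⟨Metric.mem_ball_self (by linarith),
    Metric.mem_ball_self (by linarith)⟩, Metric.mem_ball_self (by norm_num)⟩).ne'
  have hB1 : vol B ≠ ⊤ := ((Metric.isBounded_ball.prod Metric.isBounded_ball).prod
    Metric.isBounded_ball).measure_lt_top.ne
  have hb : ∀ y ∈ B, ∀ c : ℂ, ‖c‖ ≤ 1 → c • y ∈ B := by
    intro y ⟨⟨y1, y2⟩, y3⟩ c hc
    rw [mem_ball_zero_iff] at y1 y2 y3
    refine ⟨⟨mem_ball_zero_iff.2 ?_, mem_ball_zero_iff.2 ?_⟩, mem_ball_zero_iff.2 ?_⟩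
    · exact ((norm_smul_le c y.1.1).trans (mul_le_of_le_one_left (norm_nonneg _) hc)).trans_lt y1
    · exact ((norm_smul_le c y.1.2).trans (mul_le_of_le_one_left (norm_nonneg _) hc)).trans_lt y2
    · exact ((norm_smul_le c y.2).trans (mul_le_of_le_one_left (norm_nonneg _) hc)).trans_lt y3
  set m : ℝ := (A * Real.exp (|β| * 7)) ^ (-μ) * Real.exp (-(|c| * 7)) with hm
  have hm0 : 0 < m := by positivity
  have hV := ENNReal.toReal_pos hB0 hB1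
  refine ⟨(vol B).toReal⁻¹ * m⁻¹, by positivity, fun J _ σ b h F hF z₁ y₀ τ hz hy hτ => ?_⟩
  have hin : ∀ y ∈ B, ((z₁, y₀), τ) + y ∈ OO E₁ E₂ r₁ r₂ ∧
      m ≤ ew σ b μ c (((z₁, y₀), τ) + y) := by
    intro y ⟨⟨y1, y2⟩, y3⟩
    rw [mem_ball_zero_iff] at y1 y2 y3
    have a1 : ‖z₁ + y.1.1‖ < r₁ := by linarith [norm_add_le z₁ y.1.1]
    have a2 : ‖y₀ + y.1.2‖ < r₂ := by linarith [norm_add_le y₀ y.1.2]
    have a3 : ‖τ + y.2‖ < 1 := by linarith [norm_add_le τ y.2]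
    have a4 : 3 / 8 ≤ ‖τ + y.2‖ := by
      have := norm_sub_le (τ + y.2) y.2
      rw [add_sub_cancel_right] at this
      linarith
    have hP : (z₁ + y.1.1, y₀ + y.1.2) ∈ PP E₁ E₂ r₁ r₂ :=
      ⟨mem_ball_zero_iff.2 a1, mem_ball_zero_iff.2 a2⟩
    refine ⟨⟨hP, mem_ball_zero_iff.2 a3, norm_pos_iff.1 (by linarith : 0 < ‖τ + y.2‖)⟩, ?_⟩
    have a5 : 1 / 8 ≤ ‖τ + y.2‖ ^ 2 := by nlinarith
    have a6 : |-Real.log (‖τ + y.2‖ ^ 2)| ≤ 7 := by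
      have a7 : Real.log (‖τ + y.2‖ ^ 2) ≤ 0 := Real.log_nonpos (by positivity) (by nlinarith)
      have a8 := Real.log_le_log (by norm_num) a5
      have a9 := Real.log_le_sub_one_of_pos (by norm_num : (0 : ℝ) < 8)
      rw [one_div, Real.log_inv] at a8
      rw [abs_of_nonneg (by linarith)]
      linarith
    refine mul_le_mul (le_trans ?_ (kw_bounds hA hμ h hP _).1) (Real.exp_le_exp.2 ?_)
      (Real.exp_pos _).le (Real.rpow_nonneg (Finset.sum_nonneg fun j _ => by positivity) _)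
    · refine Real.rpow_le_rpow_of_nonpos (by positivity)
        (mul_le_mul_of_nonneg_left (Real.exp_le_exp.2 ?_) hA.le) (by linarith)
      exact mul_le_mul (le_abs_self β) a6 (abs_nonneg _) (abs_nonneg _)
    · refine le_trans (neg_le_neg ?_) (neg_abs_le _)
      rw [abs_mul]
      exact mul_le_mul_of_nonneg_left a6 (abs_nonneg _)
  have key := mv_two (vol := vol) (isOpen_OO r₁ r₂) hF hBo.measurableSet hb
    fun y hy => (hin y hy).1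
  have k2 : ∫⁻ y in B, ENNReal.ofReal (‖F (((z₁, y₀), τ) + y)‖ ^ 2) ∂vol ≤ ENNReal.ofReal m⁻¹ *
      ∫⁻ q in OO E₁ E₂ r₁ r₂, ENNReal.ofReal (‖F q‖ ^ 2 * ew σ b μ c q) ∂vol := by
    rw [← (measurePreserving_add_left vol ((z₁, y₀), τ)).setLIntegral_comp_preimage_emb
      (MeasurableEquiv.addLeft ((z₁, y₀), τ)).measurableEmbedding
      (fun q => ENNReal.ofReal (‖F q‖ ^ 2 * ew σ b μ c q)) (OO E₁ E₂ r₁ r₂),
      ← lintegral_const_mul' _ _ ENNReal.ofReal_ne_top]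
    refine le_trans (setLIntegral_mono' hBo.measurableSet fun y hy => ?_)
      (lintegral_mono_set fun y hy => (hin y hy).1)
    rw [← ENNReal.ofReal_mul (by positivity)]
    refine ENNReal.ofReal_le_ofReal ?_
    rw [le_inv_mul_iff₀ hm0, mul_comm]
    exact mul_le_mul_of_nonneg_left (hin y hy).2 (by positivity)
  rw [ENNReal.ofReal_mul (by positivity), ENNReal.ofReal_inv_of_pos hV, ENNReal.ofReal_toReal hB1,
    mul_assoc, ← ENNReal.div_eq_inv_mul, ENNReal.le_div_iff_mul_le (Or.inl hB0) (Or.inl hB1)]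
  exact key.trans k2

/-- kl_ext with c + 1 and θ = η / 2: ∫ |F|² ew ≤ C exp ((1 - η/2) t₀). If some coefficient at
(z₁, y₀) is nonzero use kl_good. Else laur_small and kl_sup give
1/4 ≤ 16 exp (-t₀) C' C exp ((1 - η/2) t₀), false for large t₀. -/
theorem kl {r₁ r₂ A μ η : ℝ} (β c : ℝ) (h₁ : 0 < r₁) (h₂ : 0 < r₂) (hA : 0 < A) (hμ : 0 ≤ μ)
    (hη : 0 < η) :
    ∃ t₁ : ℝ, ∀ (J : Type) [Fintype J] (σ : J → E₁ × E₂ → ℂ) (b : J → ℝ),
      KD (PP E₁ E₂ r₁ r₂) A β σ b → ∀ t₀, t₁ ≤ t₀ → ∀ z₁ : E₁, ‖z₁‖ ≤ r₁ / 2 →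
      ∀ y₀ : E₂, ‖y₀‖ ≤ r₂ / 2 →
      ∫⁻ y in Metric.ball 0 r₂, ENNReal.ofReal (kw σ b μ t₀ (z₁, y)) ∂v₂ ≤
        ENNReal.ofReal (Real.exp (-(c + η) * t₀)) →
      ∃ V ∈ 𝓝 (z₁, y₀), V ⊆ PP E₁ E₂ r₁ r₂ ∧
        ∫⁻ t in Ioi (0 : ℝ), ENNReal.ofReal (Real.exp (c * t)) *
          ∫⁻ p in V, ENNReal.ofReal (kw σ b μ t p) ∂(v₁.prod v₂) ≠ ⊤ := by
  haveI := FiniteDimensional.proper ℂ E₁
  haveI := FiniteDimensional.proper ℂ E₂
  obtain ⟨C, t₁, hC, -, hext⟩ := kl_ext v₁ v₂ β (c + 1) h₁ h₂ hA hμ (half_pos hη)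
  obtain ⟨C', hC', hsup⟩ := kl_sup v₁ v₂ β (c + 1) h₁ h₂ hA hμ
  refine ⟨max t₁ (max 6 (128 * (C' * C) / η)), fun J _ σ b h t₀ ht z₁ hz y₀ hy hI => ?_⟩
  have t6 : 6 ≤ t₀ := ((le_max_left _ _).trans (le_max_right _ _)).trans ht
  have t7 : 128 * (C' * C) / η ≤ t₀ := ((le_max_right _ _).trans (le_max_right _ _)).trans ht
  obtain ⟨F, hF, hF1, hF2⟩ := hext J σ b h t₀ ((le_max_left _ _).trans ht) z₁ hz y₀ hy
  have hF3 := hF2.trans (mul_le_mul_right hI _)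
  rw [← ENNReal.ofReal_mul (by positivity), mul_assoc, ← Real.exp_add] at hF3
  have hp : (z₁, y₀) ∈ PP E₁ E₂ r₁ r₂ :=
    ⟨mem_ball_zero_iff.2 (by linarith), mem_ball_zero_iff.2 (by linarith)⟩
  by_cases hk : ∃ k : ℕ, (∮ τ in C(0, 1 / 2), τ⁻¹ * (τ ^ k * F ((z₁, y₀), τ))) ≠ 0
  · obtain ⟨k, hk⟩ := hk
    have key := kl_good (v₁.prod v₂) (P := PP E₁ E₂ r₁ r₂)
      (Metric.isOpen_ball.prod Metric.isOpen_ball) b μ (c + 1) h.hol hF
      (ne_top_of_le_ne_top ENNReal.ofReal_ne_top hF3) hp hk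
    rwa [add_sub_cancel_right] at key
  · exfalso
    simp only [ne_eq, not_exists, not_not] at hk
    set X : ℝ := C' * (C * Real.exp ((η / 2 + (c + 1)) * t₀ + -(c + η) * t₀)) with hX
    have hX0 : 0 ≤ X := by positivity
    have hM : ∀ τ : ℂ, ‖τ‖ = 1 / 2 → ‖F ((z₁, y₀), τ)‖ ≤ Real.sqrt X := fun τ hτ => by
      have h1 := (hsup J σ b h F hF z₁ y₀ τ hz hy hτ).trans (mul_le_mul_right hF3 _)
      rw [← ENNReal.ofReal_mul hC'.le, ENNReal.ofReal_le_ofReal_iff hX0] at h1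
      exact Real.le_sqrt_of_sq_le h1
    have hn : ‖((Real.exp (-t₀ / 2) : ℝ) : ℂ)‖ = Real.exp (-t₀ / 2) := by
      rw [norm_real, Real.norm_of_nonneg (Real.exp_pos _).le]
    have h4 : Real.exp (-t₀ / 2) ≤ 1 / 4 := by
      have h5 := Real.add_one_le_exp (t₀ / 2)
      rw [neg_div, Real.exp_neg, one_div]
      exact inv_anti₀ (by norm_num) (by linarith)
    have h6 := hF1.trans (laur_small (F := fun τ => F ((z₁, y₀), τ))
      (hF.comp ((differentiableOn_const _).prodMk differentiableOn_id) fun τ hτ => ⟨hp, hτ⟩) hk hM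
      (ofReal_ne_zero.2 (Real.exp_pos _).ne') (hn.trans_le h4))
    rw [hn] at h6
    have h7 := pow_le_pow_left₀ (by norm_num) h6 2
    have h8 : Real.exp (-t₀ / 2) ^ 2 * Real.exp ((η / 2 + (c + 1)) * t₀ + -(c + η) * t₀) *
        Real.exp (η * t₀ / 2) = 1 := by
      rw [← Real.exp_nat_mul, ← Real.exp_add, ← Real.exp_add, Real.exp_eq_one_iff]
      push_cast
      ring
    rw [mul_pow, mul_pow, Real.sq_sqrt hX0, hX] at h7
    have h9 := mul_le_mul_of_nonneg_right h7 (Real.exp_pos (η * t₀ / 2)).le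
    have h10 := Real.add_one_le_exp (η * t₀ / 2)
    rw [div_le_iff₀ hη] at t7
    have h11 : 4 ^ 2 * Real.exp (-t₀ / 2) ^ 2 *
        (C' * (C * Real.exp ((η / 2 + (c + 1)) * t₀ + -(c + η) * t₀))) * Real.exp (η * t₀ / 2) =
        16 * (C' * C) := by
      linear_combination 16 * (C' * C) * h8
    rw [h11] at h9
    nlinarith

end

end Fuj
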