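import Vale.Agent.P271.HKLa0

/-! Key lemma: the exhaustion and the weights. -/

namespace Fuj

open MeasureTheory Set Filter Topology Complex
open scoped ENNReal ContDiff ComplexConjugate

noncomputable section

variable {E₁ E₂ : Type} [NormedAddCommGroup E₁] [NormedSpace ℝ E₁] [InnerProductSpace ℂ E₁]
  [IsScalarTower ℝ ℂ E₁] [FiniteDimensional ℂ E₁] [MeasurableSpace E₁] [BorelSpace E₁]
  [NormedAddCommGroup E₂] [NormedSpace ℝ E₂] [InnerProductSpace ℂ E₂]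
  [IsScalarTower ℝ ℂ E₂] [FiniteDimensional ℂ E₂] [MeasurableSpace E₂] [BorelSpace E₂]
  [SecondCountableTopology E₁] [SecondCountableTopology E₂]
  (v₁ : Measure E₁) [v₁.IsAddHaarMeasure] (v₂ : Measure E₂) [v₂.IsAddHaarMeasure]

theorem HKLa_loc {τ τ₁ : ℂ} (h : τ ≠ 0) (h₁ : τ₁ ≠ 0) (w : ℂ) (b : ℝ) :
    ‖w * cexp (-b * (log (τ / τ₁) + Real.log ‖τ₁‖))‖ ^ 2 =
      ‖w‖ ^ 2 * Real.exp (b * -Real.log (‖τ‖ ^ 2)) := by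
  rw [norm_mul, mul_pow, norm_exp, ← Real.exp_nat_mul, Real.log_pow]
  have e : (-(b : ℂ) * (log (τ / τ₁) + Real.log ‖τ₁‖)).re = -b * Real.log ‖τ‖ := by
    rw [← ofReal_neg, re_ofReal_mul, add_re, ofReal_re, log_re, norm_div,
      Real.log_div (norm_ne_zero_iff.2 h) (norm_ne_zero_iff.2 h₁), sub_add_cancel]
  rw [e]
  congr 2
  ring

/-- -log ew = μ log Σ|σ_j|² exp (b_j t) - c t, t = -log |τ|². Near (p₁, τ₁),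
|σ_j|² exp (b_j t) = |σ_j |τ₁|^(-b_j) exp (-b_j log (τ / τ₁))|² (Complex.log near 1);
levi_log_sum_ge with c = 0, leviC_log_normSq. -/
theorem kl_psi {r₁ r₂ A β μ : ℝ} (c : ℝ) (hA : 0 < A) (hμ : 0 ≤ μ) {J : Type} [Fintype J]
    {σ : J → E₁ × E₂ → ℂ} {b : J → ℝ} (h : KD (PP E₁ E₂ r₁ r₂) A β σ b) :
    ContDiffOn ℝ ∞ (fun q => -Real.log (ew σ b μ c q)) (OO E₁ E₂ r₁ r₂) ∧
      (∀ q ∈ OO E₁ E₂ r₁ r₂, 0 < ew σ b μ c q) ∧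
      ∀ q ∈ OO E₁ E₂ r₁ r₂, ∀ ξ, 0 ≤ levi (fun q => -Real.log (ew σ b μ c q)) q ξ := by
  have hO := isOpen_OO (E₁ := E₁) (E₂ := E₂) r₁ r₂
  have h0 : ∀ q ∈ OO E₁ E₂ r₁ r₂, q.2 ≠ 0 := fun q hq => hq.2.2
  have hσ : ∀ j, DifferentiableOn ℂ (fun q : (E₁ × E₂) × ℂ => σ j q.1) (OO E₁ E₂ r₁ r₂) :=
    fun j => (h.hol j).comp differentiableOn_fst fun q hq => hq.1
  set S : (E₁ × E₂) × ℂ → ℝ := fun q =>
    ∑ j, ‖σ j q.1‖ ^ 2 * Real.exp (b j * -Real.log (‖q.2‖ ^ 2)) with hS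
  have hS0 : ∀ q ∈ OO E₁ E₂ r₁ r₂, 0 < S q := by
    intro q hq
    obtain ⟨j, -, hj⟩ := Finset.exists_ne_zero_of_sum_ne_zero
      ((inv_pos.2 hA).trans_le (h.lo _ hq.1)).ne'
    exact Finset.sum_pos' (fun j _ => by positivity)
      ⟨j, Finset.mem_univ j, mul_pos ((sq_nonneg _).lt_of_ne' hj) (Real.exp_pos _)⟩
  have hT : ContDiffOn ℝ ∞ (fun q : (E₁ × E₂) × ℂ => Real.log (‖q.2‖ ^ 2)) (OO E₁ E₂ r₁ r₂) :=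
    (contDiff_normSq.comp contDiff_snd).contDiffOn.log fun q hq =>
      pow_ne_zero 2 (norm_ne_zero_iff.2 (h0 q hq))
  have hL : ContDiffOn ℝ ∞ (fun q => Real.log (S q)) (OO E₁ E₂ r₁ r₂) :=
    (ContDiffOn.sum fun j _ => (contDiff_normSq.comp_contDiffOn
      (contDiffOn_of_hol hO (hσ j))).mul (contDiffOn_const.mul hT.neg).exp).log
      fun q hq => (hS0 q hq).ne'
  have he : ∀ q ∈ OO E₁ E₂ r₁ r₂, -Real.log (ew σ b μ c q) =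
      μ * Real.log (S q) + c * Real.log (‖q.2‖ ^ 2) := by
    intro q hq
    rw [ew, kw, Real.log_mul (Real.rpow_pos_of_pos (hS0 q hq) _).ne' (Real.exp_pos _).ne',
      Real.log_rpow (hS0 q hq), Real.log_exp]
    ring
  refine ⟨((contDiffOn_const.mul hL).add (contDiffOn_const.mul hT)).congr he,
    fun q hq => mul_pos (Real.rpow_pos_of_pos (hS0 q hq) _) (Real.exp_pos _), fun q hq ξ => ?_⟩
  have hn := hO.mem_nhds hq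
  have cL := (hL.contDiffAt hn).of_le HKLa_two
  have cT := (hT.contDiffAt hn).of_le HKLa_two
  rw [levi_congr (eventually_of_mem hn he), levi_add (contDiffAt_const.mul cL)
    (contDiffAt_const.mul cT), levi_const_mul cL, levi_const_mul cT]
  have e1 : levi (fun y : (E₁ × E₂) × ℂ => Real.log (‖y.2‖ ^ 2)) q ξ = 0 := by
    rw [levi, leviC_log_normSq (f := fun y : (E₁ × E₂) × ℂ => y.2)
      (Eventually.of_forall fun _ => differentiableAt_snd) (h0 q hq), zero_re]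
  rw [e1, mul_zero, add_zero]
  refine mul_nonneg hμ ?_
  set f : J → (E₁ × E₂) × ℂ → ℂ := fun j y =>
    σ j y.1 * cexp (-b j * (log (y.2 / q.2) + Real.log ‖q.2‖)) with hf
  have e2 : ∀ y ∈ OO E₁ E₂ r₁ r₂, S y = ∑ j, ‖f j y‖ ^ 2 + 0 := fun y hy => by
    simp only [hS, hf, HKLa_loc (h0 y hy) (h0 q hq), add_zero]
  have hs : ∀ᶠ y : (E₁ × E₂) × ℂ in 𝓝 q, y.2 / q.2 ∈ slitPlane :=
    (continuous_snd.div_const q.2).continuousAt.eventually_mem (isOpen_slitPlane.mem_nhds (by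
      simp only [div_self (h0 q hq)]
      exact one_mem_slitPlane))
  have hd : ∀ j, ∀ᶠ y in 𝓝 q, DifferentiableAt ℂ (f j) y := fun j =>
    (hs.and hn).mono fun y hy => ((hσ j).differentiableAt (hO.mem_nhds hy.2)).mul
      (((DifferentiableAt.clog (f := fun y : (E₁ × E₂) × ℂ => y.2 / q.2)
        (differentiableAt_snd.mul_const q.2⁻¹) hy.1).add_const _).const_mul _).cexp
  have key := levi_log_sum_ge hd le_rfl (e2 q hq ▸ hS0 q hq) ξ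
  rw [zero_mul, zero_div] at key
  rwa [levi_congr (eventually_of_mem hn fun y hy => congrArg Real.log (e2 y hy))]

/-- The barrier log (|z - z₁|² + |τ - τ₀|² + e) and the cutoff. With s = |z - z₁|² + |τ - τ₀|²:
levi s = |ξ₁|² + |ξ₃|² =: n, |dzr s|² ≤ s n, levi log (s + e) = n/(s+e) - |dzr s|²/(s+e)². -/
theorem kl_bar (z₁ : E₁) (τ₀ : ℂ) :
    (∀ e : ℝ, 0 < e →
      ContDiff ℝ ∞ (fun q : (E₁ × E₂) × ℂ => Real.log (‖q.1.1 - z₁‖ ^ 2 + ‖q.2 - τ₀‖ ^ 2 + e)) ∧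
      ∀ q ξ : (E₁ × E₂) × ℂ,
        e * (‖ξ.1.1‖ ^ 2 + ‖ξ.2‖ ^ 2) / (‖q.1.1 - z₁‖ ^ 2 + ‖q.2 - τ₀‖ ^ 2 + e) ^ 2 ≤
          levi (fun q : (E₁ × E₂) × ℂ =>
            Real.log (‖q.1.1 - z₁‖ ^ 2 + ‖q.2 - τ₀‖ ^ 2 + e)) q ξ) ∧
    ContDiff ℝ ∞ (fun q : (E₁ × E₂) × ℂ => ‖q.1.1 - z₁‖ ^ 2 + ‖q.2 - τ₀‖ ^ 2) ∧
    ∀ q ξ : (E₁ × E₂) × ℂ,
      ‖dzr (fun q : (E₁ × E₂) × ℂ => ‖q.1.1 - z₁‖ ^ 2 + ‖q.2 - τ₀‖ ^ 2) q ξ‖ ^ 2 ≤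
        (‖q.1.1 - z₁‖ ^ 2 + ‖q.2 - τ₀‖ ^ 2) * (‖ξ.1.1‖ ^ 2 + ‖ξ.2‖ ^ 2) := by
  let L₁ : (E₁ × E₂) × ℂ →L[ℂ] E₁ :=
    (ContinuousLinearMap.fst ℂ E₁ E₂).comp (ContinuousLinearMap.fst ℂ (E₁ × E₂) ℂ)
  let L₂ : (E₁ × E₂) × ℂ →L[ℂ] ℂ := ContinuousLinearMap.snd ℂ (E₁ × E₂) ℂ
  have s₁ : ContDiff ℝ ∞ fun q : (E₁ × E₂) × ℂ => ‖q.1.1 - z₁‖ ^ 2 := HKLa_sm L₁ z₁
  have s₂ : ContDiff ℝ ∞ fun q : (E₁ × E₂) × ℂ => ‖q.2 - τ₀‖ ^ 2 := HKLa_sm L₂ τ₀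
  have hd : ∀ q ξ : (E₁ × E₂) × ℂ,
      ‖dzr (fun q : (E₁ × E₂) × ℂ => ‖q.1.1 - z₁‖ ^ 2 + ‖q.2 - τ₀‖ ^ 2) q ξ‖ ^ 2 ≤
        (‖q.1.1 - z₁‖ ^ 2 + ‖q.2 - τ₀‖ ^ 2) * (‖ξ.1.1‖ ^ 2 + ‖ξ.2‖ ^ 2) := by
    intro q ξ
    have d₁ : ‖dzr (fun q : (E₁ × E₂) × ℂ => ‖q.1.1 - z₁‖ ^ 2) q ξ‖ ≤ ‖q.1.1 - z₁‖ * ‖ξ.1.1‖ :=
      HKLa_dzr L₁ z₁ q ξ
    have d₂ : ‖dzr (fun q : (E₁ × E₂) × ℂ => ‖q.2 - τ₀‖ ^ 2) q ξ‖ ≤ ‖q.2 - τ₀‖ * ‖ξ.2‖ :=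
      HKLa_dzr L₂ τ₀ q ξ
    rw [dzr_add (s₁.differentiable (by simp) q) (s₂.differentiable (by simp) q)]
    refine (pow_le_pow_left₀ (norm_nonneg _)
      ((norm_add_le _ _).trans (add_le_add d₁ d₂)) 2).trans ?_
    nlinarith [sq_nonneg (‖q.1.1 - z₁‖ * ‖ξ.2‖ - ‖q.2 - τ₀‖ * ‖ξ.1.1‖)]
  refine ⟨fun e he => ⟨((s₁.add s₂).add contDiff_const).log fun q => by positivity,
    fun q ξ => ?_⟩, s₁.add s₂, hd⟩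
  have l₁ : levi (fun q : (E₁ × E₂) × ℂ => ‖q.1.1 - z₁‖ ^ 2) q ξ = ‖ξ.1.1‖ ^ 2 :=
    HKLa_levi L₁ z₁ q ξ
  have l₂ : levi (fun q : (E₁ × E₂) × ℂ => ‖q.2 - τ₀‖ ^ 2) q ξ = ‖ξ.2‖ ^ 2 := HKLa_levi L₂ τ₀ q ξ
  have h3 := hd q ξ
  set s : ℝ := ‖q.1.1 - z₁‖ ^ 2 + ‖q.2 - τ₀‖ ^ 2 with hs
  have hs0 : 0 < s + e := by positivity
  have h1 : ∀ᶠ t in 𝓝 s, HasDerivAt (fun t => Real.log (t + e)) (t + e)⁻¹ t :=
    (lt_mem_nhds (by linarith : -e < s)).mono fun t ht => by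
      simpa using ((hasDerivAt_id t).add_const e).log (by simp only [id]; linarith)
  have h2 : HasDerivAt (fun t => (t + e)⁻¹) (-1 / (s + e) ^ 2) s :=
    ((hasDerivAt_id s).add_const e).inv hs0.ne'
  rw [levi_comp (h := fun t => Real.log (t + e)) ((s₁.add s₂).contDiffAt.of_le HKLa_two) h1 h2,
    levi_add (s₁.contDiffAt.of_le HKLa_two) (s₂.contDiffAt.of_le HKLa_two), l₁, l₂, ← hs,
    div_le_iff₀ (by positivity)]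
  refine le_trans ?_ (le_of_eq (?_ : (s + e) * (‖ξ.1.1‖ ^ 2 + ‖ξ.2‖ ^ 2) -
    ‖dzr (fun q : (E₁ × E₂) × ℂ => ‖q.1.1 - z₁‖ ^ 2 + ‖q.2 - τ₀‖ ^ 2) q ξ‖ ^ 2 = _))
  · linarith
  · field_simp
    ring

end

end Fuj
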