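import Vale.Agent.P271.HCalc2

/-! Key lemma: the exhaustion and the weights. -/

namespace Fuj

open MeasureTheory Set Filter Topology Complex
open scoped ENNReal ContDiff ComplexConjugate

noncomputable section

variable {E₁ E₂ : Type} [NormedAddCommGroup E₁] [NormedSpace ℝ E₁] [InnerProductSpace ℂ E₁]
  [IsScalarTower ℝ ℂ E₁] [FiniteDimensional ℂ E₁] [MeasurableSpace E₁] [BorelSpace E₁]
  [NormedAddCommGroup E₂] [NormedSpace ℝ E₂] [InnerProductSpace ℂ E₂]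
  [IsScalarTower ℝ ℂ E₂] [FiniteDimensional ℂ E₂] [MeasurableSpace E₂] [BorelSpace E₂]
  [SecondCountableTopology E₁] [SecondCountableTopology E₂]
  (v₁ : Measure E₁) [v₁.IsAddHaarMeasure] (v₂ : Measure E₂) [v₂.IsAddHaarMeasure]

section
variable {X F : Type} [NormedAddCommGroup X] [NormedSpace ℝ X] [NormedSpace ℂ X]
  [IsScalarTower ℝ ℂ X] [FiniteDimensional ℂ X] [NormedAddCommGroup F] [NormedSpace ℝ F]
  [InnerProductSpace ℂ F] [IsScalarTower ℝ ℂ F] [FiniteDimensional ℂ F]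

theorem HKLa_two : (2 : WithTop ℕ∞) ≤ ((⊤ : ℕ∞) : WithTop ℕ∞) :=
  WithTop.coe_le_coe.2 (le_top : (2 : ℕ∞) ≤ ⊤)

omit [FiniteDimensional ℂ X] [FiniteDimensional ℂ F] in
theorem HKLa_sm (L : X →L[ℂ] F) (z : F) : ContDiff ℝ ∞ fun q => ‖L q - z‖ ^ 2 :=
  contDiff_normSq.comp ((L.contDiff.restrict_scalars ℝ).sub contDiff_const)

omit [FiniteDimensional ℂ X] [FiniteDimensional ℂ F] in
theorem HKLa_dzr (L : X →L[ℂ] F) (z : F) (q ξ : X) :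
    ‖dzr (fun q => ‖L q - z‖ ^ 2) q ξ‖ ≤ ‖L q - z‖ * ‖L ξ‖ := by
  have hΦ := L.hasFDerivAt (x := q).sub_const z
  have h1 : DifferentiableAt ℝ (fun y : F => ((‖y‖ ^ 2 : ℝ) : ℂ)) (L q - z) :=
    ofRealCLM.differentiableAt.comp _ (contDiff_normSq.differentiable (by simp) _)
  have h2 := dz_comp_hol (Φ := fun q => L q - z) h1 hΦ.differentiableAt ξ
  rw [hΦ.fderiv] at h2
  have h3 := dzr_normSq_id (L q - z) (L ξ)
  rw [dzr] at h3 ⊢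
  rw [h2, h3]
  exact norm_inner_le_norm _ _

theorem HKLa_levi (L : X →L[ℂ] F) (z : F) (q ξ : X) :
    levi (fun q => ‖L q - z‖ ^ 2) q ξ = ‖L ξ‖ ^ 2 := by
  have hΦ := fun q => L.hasFDerivAt (x := q).sub_const z
  have h2 := levi_comp_hol (ψ := fun y : F => ‖y‖ ^ 2) (Φ := fun q => L q - z) (z := q)
    (contDiff_normSq.contDiffAt.of_le HKLa_two)
    (Eventually.of_forall fun q => (hΦ q).differentiableAt) ξ
  rw [(hΦ q).fderiv, levi_normSq_id] at h2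
  exact h2

theorem HKLa0_term (L : X →L[ℂ] F) (hL : ∀ ξ, ‖L ξ‖ ≤ ‖ξ‖) {r : ℝ} {q : X} (hq : ‖L q‖ < r) :
    ContDiffAt ℝ ∞ (fun y => -2 * Real.log (r ^ 2 - ‖L y‖ ^ 2)) q ∧
    (∀ ξ, 0 ≤ levi (fun y => -2 * Real.log (r ^ 2 - ‖L y‖ ^ 2)) q ξ) ∧
    (∀ ξ, ‖dzr (fun y => -2 * Real.log (r ^ 2 - ‖L y‖ ^ 2)) q ξ‖ ^ 2 ≤
      4 * r ^ 2 * Real.exp (-2 * Real.log (r ^ 2 - ‖L q‖ ^ 2)) * ‖ξ‖ ^ 2) ∧
    -|2 * Real.log (r ^ 2)| ≤ -2 * Real.log (r ^ 2 - ‖L q‖ ^ 2) := by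
  have h0 := pow_lt_pow_left₀ hq (norm_nonneg _) two_ne_zero
  have h1 : 0 < r ^ 2 - ‖L q‖ ^ 2 := sub_pos.2 h0
  have s : ContDiff ℝ ∞ fun y => ‖L y‖ ^ 2 := by simpa using HKLa_sm L 0
  have hd : ∀ t < r ^ 2, HasDerivAt (fun t => -2 * Real.log (r ^ 2 - t)) (2 * (r ^ 2 - t)⁻¹) t :=
    fun t ht => (((hasDerivAt_id t).const_sub (r ^ 2)).log (sub_pos.2 ht).ne').const_mul (-2)
      |>.congr_deriv (by simp only [id]; ring)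
  refine ⟨contDiffAt_const.mul ((contDiffAt_const.sub s.contDiffAt).log h1.ne'), fun ξ => ?_,
    fun ξ => ?_, ?_⟩
  · have h2 : HasDerivAt (fun t => 2 * (r ^ 2 - t)⁻¹) (2 * (- -1 / (r ^ 2 - ‖L q‖ ^ 2) ^ 2))
        (‖L q‖ ^ 2) := (((hasDerivAt_id _).const_sub (r ^ 2)).inv h1.ne').const_mul 2
    have h3 := HKLa_levi L 0 q ξ
    simp only [sub_zero] at h3
    rw [levi_comp (h := fun t => -2 * Real.log (r ^ 2 - t)) (s.contDiffAt.of_le HKLa_two)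
      ((gt_mem_nhds h0).mono hd) h2, h3, neg_neg]
    positivity
  · have h3 := HKLa_dzr L 0 q ξ
    simp only [sub_zero] at h3
    have h4 := h3.trans (mul_le_mul hq.le (hL ξ) (norm_nonneg _) ((norm_nonneg _).trans hq.le))
    have h5 : Real.exp (-2 * Real.log (r ^ 2 - ‖L q‖ ^ 2)) = (r ^ 2 - ‖L q‖ ^ 2)⁻¹ ^ 2 := by
      rw [← Real.exp_log (inv_pos.2 h1), ← Real.exp_nat_mul, Real.log_inv]
      congr 1
      push_cast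
      ring
    rw [dzr_comp (h := fun t => -2 * Real.log (r ^ 2 - t)) (s.differentiable (by simp) q)
      (hd _ h0), norm_mul, norm_real, Real.norm_of_nonneg (by positivity), h5]
    refine (pow_le_pow_left₀ (by positivity)
      (mul_le_mul_of_nonneg_left h4 (by positivity)) 2).trans (le_of_eq ?_)
    ring
  · have h2 := Real.log_le_log h1 (sub_le_self _ (sq_nonneg ‖L q‖))
    linarith [le_abs_self (2 * Real.log (r ^ 2))]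

theorem HKLa0_log (L : X →L[ℂ] ℂ) (hL : ∀ ξ, ‖L ξ‖ ≤ ‖ξ‖) {q : X} (h0 : L q ≠ 0) :
    ContDiffAt ℝ ∞ (fun y => -1 * Real.log (‖L y‖ ^ 2)) q ∧
    (∀ ξ, levi (fun y => -1 * Real.log (‖L y‖ ^ 2)) q ξ = 0) ∧
    ∀ ξ, ‖dzr (fun y => -1 * Real.log (‖L y‖ ^ 2)) q ξ‖ ^ 2 ≤
      Real.exp (-1 * Real.log (‖L q‖ ^ 2)) * ‖ξ‖ ^ 2 := by
  have h1 : 0 < ‖L q‖ ^ 2 := by positivity
  have s : ContDiff ℝ ∞ fun y => ‖L y‖ ^ 2 := by simpa using HKLa_sm L 0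
  have s' := s.contDiffAt.log h1.ne'
  refine ⟨contDiffAt_const.mul s', fun ξ => ?_, fun ξ => ?_⟩
  · rw [levi_const_mul (s'.of_le HKLa_two), levi,
      leviC_log_normSq (Eventually.of_forall fun _ => L.differentiableAt) h0, zero_re, mul_zero]
  · rw [dzr_const_mul (s'.differentiableAt (by simp)), dzr_log_normSq L.differentiableAt h0,
      L.fderiv, neg_one_mul (Real.log _), Real.exp_neg, Real.exp_log h1, norm_mul, norm_real,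
      norm_neg, norm_one, one_mul, norm_div, div_pow, div_eq_inv_mul]
    exact mul_le_mul_of_nonneg_left (pow_le_pow_left₀ (norm_nonneg _) (hL ξ) 2) (by positivity)

theorem HKLa0_le {a c c' k : ℝ} (ha : 0 < a) (hk : 1 ≤ k) (h : -k * Real.log a ≤ c)
    (hc : |c| ≤ c') : Real.exp (-c') ≤ a := by
  rw [← Real.le_log_iff_exp_le ha]
  by_contra h1
  nlinarith [le_abs_self c, abs_nonneg c]

end

/-- u = -2 log (r₁² - |z|²) - 2 log (r₂² - |y|²) - log |τ|² - 2 log (1 - |τ|²). Each term is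
plurisubharmonic (levi_comp, levi_comp_hol with the projections, levi_normSq_id, leviC_log_normSq)
and bounded below on OO, and |d term|² ≤ C exp (term), so |du|² ≤ C exp u. Sublevel sets lie in
compact sets closedBall × closedBall × closed annulus inside OO and are relatively closed. -/
theorem kl_exh {r₁ r₂ : ℝ} (h₁ : 0 < r₁) (h₂ : 0 < r₂) :
    ∃ (u : (E₁ × E₂) × ℂ → ℝ) (C₀ : ℝ), ContDiffOn ℝ ∞ u (OO E₁ E₂ r₁ r₂) ∧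
      (∀ q ∈ OO E₁ E₂ r₁ r₂, ∀ ξ, 0 ≤ levi u q ξ) ∧
      (∀ c, IsCompact {q | q ∈ OO E₁ E₂ r₁ r₂ ∧ u q ≤ c}) ∧
      ∀ q ∈ OO E₁ E₂ r₁ r₂, ∀ ξ, ‖dzr u q ξ‖ ^ 2 ≤ C₀ * (1 + Real.exp (u q)) * ‖ξ‖ ^ 2 := by
  let L₁ : (E₁ × E₂) × ℂ →L[ℂ] E₁ :=
    (ContinuousLinearMap.fst ℂ E₁ E₂).comp (ContinuousLinearMap.fst ℂ (E₁ × E₂) ℂ)
  let L₂ : (E₁ × E₂) × ℂ →L[ℂ] E₂ :=
    (ContinuousLinearMap.snd ℂ E₁ E₂).comp (ContinuousLinearMap.fst ℂ (E₁ × E₂) ℂ)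
  let L₃ : (E₁ × E₂) × ℂ →L[ℂ] ℂ := ContinuousLinearMap.snd ℂ (E₁ × E₂) ℂ
  have n₁ : ∀ ξ, ‖L₁ ξ‖ ≤ ‖ξ‖ := fun ξ => (norm_fst_le ξ.1).trans (norm_fst_le ξ)
  have n₂ : ∀ ξ, ‖L₂ ξ‖ ≤ ‖ξ‖ := fun ξ => (norm_snd_le ξ.1).trans (norm_fst_le ξ)
  have n₃ : ∀ ξ, ‖L₃ ξ‖ ≤ ‖ξ‖ := fun ξ => norm_snd_le ξ
  have m₁ : ∀ q ∈ OO E₁ E₂ r₁ r₂, ‖L₁ q‖ < r₁ := fun q hq => mem_ball_zero_iff.1 hq.1.1
  have m₂ : ∀ q ∈ OO E₁ E₂ r₁ r₂, ‖L₂ q‖ < r₂ := fun q hq => mem_ball_zero_iff.1 hq.1.2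
  have m₃ : ∀ q ∈ OO E₁ E₂ r₁ r₂, ‖L₃ q‖ < 1 := fun q hq => mem_ball_zero_iff.1 hq.2.1
  have m₄ : ∀ q ∈ OO E₁ E₂ r₁ r₂, L₃ q ≠ 0 := fun q hq => hq.2.2
  have t₁ := fun q hq => HKLa0_term L₁ n₁ (m₁ q hq)
  have t₂ := fun q hq => HKLa0_term L₂ n₂ (m₂ q hq)
  have t₃ := fun q hq => HKLa0_term L₃ n₃ (m₃ q hq)
  have t₄ := fun q hq => HKLa0_log L₃ n₃ (m₄ q hq)
  have p₄ : ∀ q ∈ OO E₁ E₂ r₁ r₂, 0 ≤ -1 * Real.log (‖L₃ q‖ ^ 2) := fun q hq => by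
    have := Real.log_nonpos (sq_nonneg ‖L₃ q‖) (pow_le_one₀ (norm_nonneg _) (m₃ q hq).le)
    linarith
  set w₁ := fun y => -2 * Real.log (r₁ ^ 2 - ‖L₁ y‖ ^ 2) with hw₁
  set w₂ := fun y => -2 * Real.log (r₂ ^ 2 - ‖L₂ y‖ ^ 2) with hw₂
  set w₃ := fun y => -2 * Real.log (1 ^ 2 - ‖L₃ y‖ ^ 2) with hw₃
  set w₄ := fun y => -1 * Real.log (‖L₃ y‖ ^ 2) with hw₄
  set K := |2 * Real.log (r₁ ^ 2)| + |2 * Real.log (r₂ ^ 2)| + |2 * Real.log (1 ^ 2)| with hK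
  have hb : ∀ q ∈ OO E₁ E₂ r₁ r₂, ∀ c, w₁ q + w₂ q + w₃ q + w₄ q ≤ c →
      w₁ q ≤ K + c ∧ w₂ q ≤ K + c ∧ w₃ q ≤ K + c ∧ w₄ q ≤ K + c := fun q hq c hc => by
    have a₁ : _ ≤ w₁ q := (t₁ q hq).2.2.2
    have a₂ : _ ≤ w₂ q := (t₂ q hq).2.2.2
    have a₃ : _ ≤ w₃ q := (t₃ q hq).2.2.2
    have a₄ : _ ≤ w₄ q := p₄ q hq
    have b₁ := abs_nonneg (2 * Real.log (r₁ ^ 2))
    have b₂ := abs_nonneg (2 * Real.log (r₂ ^ 2))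
    have b₃ := abs_nonneg (2 * Real.log (1 ^ 2))
    exact ⟨by linarith, by linarith, by linarith, by linarith⟩
  have hs : ContDiffOn ℝ ∞ (fun y => w₁ y + w₂ y + w₃ y + w₄ y) (OO E₁ E₂ r₁ r₂) := fun q hq =>
    ((((t₁ q hq).1.add (t₂ q hq).1).add (t₃ q hq).1).add (t₄ q hq).1).contDiffWithinAt
  refine ⟨fun y => w₁ y + w₂ y + w₃ y + w₄ y, 4 * (4 * r₁ ^ 2 + 4 * r₂ ^ 2 + 5) * Real.exp K, hs,
    fun q hq ξ => ?_, fun c => ?_, fun q hq ξ => ?_⟩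
  · have c₁ := (t₁ q hq).1.of_le HKLa_two
    have c₂ := (t₂ q hq).1.of_le HKLa_two
    have c₃ := (t₃ q hq).1.of_le HKLa_two
    have c₄ := (t₄ q hq).1.of_le HKLa_two
    rw [levi_add ((c₁.add c₂).add c₃) c₄, levi_add (c₁.add c₂) c₃, levi_add c₁ c₂, (t₄ q hq).2.1]
    linarith [(t₁ q hq).2.1 ξ, (t₂ q hq).2.1 ξ, (t₃ q hq).2.1 ξ]
  · haveI := FiniteDimensional.proper ℂ ((E₁ × E₂) × ℂ)
    set δ := Real.exp (-|K + c|) with hδ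
    have hδ0 : 0 < δ := Real.exp_pos _
    set T : Set ((E₁ × E₂) × ℂ) := {q | δ ≤ r₁ ^ 2 - ‖L₁ q‖ ^ 2 ∧ δ ≤ r₂ ^ 2 - ‖L₂ q‖ ^ 2 ∧
      δ ≤ 1 ^ 2 - ‖L₃ q‖ ^ 2 ∧ δ ≤ ‖L₃ q‖ ^ 2} with hT
    have hTc : IsClosed T := by
      refine IsClosed.and ?_ (IsClosed.and ?_ (IsClosed.and ?_ ?_)) <;>
        exact isClosed_le continuous_const (by fun_prop)
    have hTO : T ⊆ OO E₁ E₂ r₁ r₂ := fun q ⟨a₁, a₂, a₃, a₄⟩ =>
      ⟨⟨mem_ball_zero_iff.2 (lt_of_pow_lt_pow_left₀ (a := ‖L₁ q‖) 2 h₁.le (by linarith)),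
        mem_ball_zero_iff.2 (lt_of_pow_lt_pow_left₀ (a := ‖L₂ q‖) 2 h₂.le (by linarith))⟩,
        mem_ball_zero_iff.2 (lt_of_pow_lt_pow_left₀ (a := ‖L₃ q‖) 2 zero_le_one (by linarith)),
        norm_ne_zero_iff.1 (pow_ne_zero_iff two_ne_zero |>.1 (hδ0.trans_le a₄).ne')⟩
    have e : {q | q ∈ OO E₁ E₂ r₁ r₂ ∧ w₁ q + w₂ q + w₃ q + w₄ q ≤ c} =
        T ∩ (fun y => w₁ y + w₂ y + w₃ y + w₄ y) ⁻¹' Iic c := by
      refine Set.ext fun q => ⟨fun ⟨hq, hc⟩ => ⟨?_, hc⟩, fun ⟨hq, hc⟩ => ⟨hTO hq, hc⟩⟩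
      obtain ⟨a₁, a₂, a₃, a₄⟩ := hb q hq c hc
      have k := fun {x r : ℝ} (h0 : 0 ≤ x) (h : x < r) =>
        sub_pos.2 (pow_lt_pow_left₀ h h0 two_ne_zero)
      exact ⟨HKLa0_le (k (norm_nonneg _) (m₁ q hq)) one_le_two a₁ le_rfl,
        HKLa0_le (k (norm_nonneg _) (m₂ q hq)) one_le_two a₂ le_rfl,
        HKLa0_le (k (norm_nonneg _) (m₃ q hq)) one_le_two a₃ le_rfl,
        HKLa0_le (pow_pos (norm_pos_iff.2 (m₄ q hq)) 2) le_rfl a₄ le_rfl⟩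
    rw [e]
    refine Metric.isCompact_of_isClosed_isBounded
      ((hs.continuousOn.mono hTO).preimage_isClosed_of_isClosed hTc isClosed_Iic) ?_
    exact ((Metric.isBounded_ball.prod Metric.isBounded_ball).prod
      (Metric.isBounded_ball.subset diff_subset)).subset (inter_subset_left.trans hTO)
  · have c₁ := (t₁ q hq).1.differentiableAt (by simp)
    have c₂ := (t₂ q hq).1.differentiableAt (by simp)
    have c₃ := (t₃ q hq).1.differentiableAt (by simp)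
    have c₄ := (t₄ q hq).1.differentiableAt (by simp)
    obtain ⟨a₁, a₂, a₃, a₄⟩ := hb q hq _ le_rfl
    rw [← Real.exp_le_exp, Real.exp_add] at a₁ a₂ a₃ a₄
    have d₁ := ((t₁ q hq).2.2.1 ξ).trans (mul_le_mul_of_nonneg_right
      (mul_le_mul_of_nonneg_left a₁ (by positivity)) (sq_nonneg _))
    have d₂ := ((t₂ q hq).2.2.1 ξ).trans (mul_le_mul_of_nonneg_right
      (mul_le_mul_of_nonneg_left a₂ (by positivity)) (sq_nonneg _))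
    have d₃ := ((t₃ q hq).2.2.1 ξ).trans (mul_le_mul_of_nonneg_right
      (mul_le_mul_of_nonneg_left a₃ (by positivity)) (sq_nonneg _))
    have d₄ := ((t₄ q hq).2.2 ξ).trans (mul_le_mul_of_nonneg_right a₄ (sq_nonneg _))
    rw [dzr_add ((c₁.fun_add c₂).fun_add c₃) c₄, dzr_add (c₁.fun_add c₂) c₃, dzr_add c₁ c₂]
    refine (pow_le_pow_left₀ (norm_nonneg _) ((norm_add_le _ _).trans
      (add_le_add_left (norm_add₃_le) _)) 2).trans ?_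
    have z : 0 ≤ 4 * (4 * r₁ ^ 2 + 4 * r₂ ^ 2 + 5) * Real.exp K * ‖ξ‖ ^ 2 := by positivity
    generalize ‖dzr w₁ q ξ‖ = x₁ at *
    generalize ‖dzr w₂ q ξ‖ = x₂ at *
    generalize ‖dzr w₃ q ξ‖ = x₃ at *
    generalize ‖dzr w₄ q ξ‖ = x₄ at *
    nlinarith [sq_nonneg (x₁ - x₂), sq_nonneg (x₁ - x₃), sq_nonneg (x₁ - x₄), sq_nonneg (x₂ - x₃),
      sq_nonneg (x₂ - x₄), sq_nonneg (x₃ - x₄)]

theorem isOpen_OO (r₁ r₂ : ℝ) : IsOpen (OO E₁ E₂ r₁ r₂) :=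
  (Metric.isOpen_ball.prod Metric.isOpen_ball).prod (Metric.isOpen_ball.sdiff isClosed_singleton)

end

end Fuj
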