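import Vale.Agent.P271.HDefs

/-! Key lemma: oscillation and size of the weight. -/

namespace Fuj

open MeasureTheory Set Filter Topology Complex
open scoped ENNReal ContDiff ComplexConjugate

noncomputable section

variable {E₁ E₂ : Type} [NormedAddCommGroup E₁] [NormedSpace ℝ E₁] [InnerProductSpace ℂ E₁]
  [IsScalarTower ℝ ℂ E₁] [FiniteDimensional ℂ E₁] [MeasurableSpace E₁] [BorelSpace E₁]
  [NormedAddCommGroup E₂] [NormedSpace ℝ E₂] [InnerProductSpace ℂ E₂]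
  [IsScalarTower ℝ ℂ E₂] [FiniteDimensional ℂ E₂] [MeasurableSpace E₂] [BorelSpace E₂]
  [SecondCountableTopology E₁] [SecondCountableTopology E₂]
  (v₁ : Measure E₁) [v₁.IsAddHaarMeasure] (v₂ : Measure E₂) [v₂.IsAddHaarMeasure]

theorem kl_sum_cmp {J : Type} [Fintype J] {a b : J → ℝ} {β : ℝ} (ha : ∀ j, 0 ≤ a j)
    (hb : ∀ j, |b j| ≤ β) (s t : ℝ) :
    ∑ j, a j * Real.exp (b j * t) ≤ Real.exp (β * |t - s|) * ∑ j, a j * Real.exp (b j * s) := by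
  rw [Finset.mul_sum]
  refine Finset.sum_le_sum fun j _ => ?_
  rw [mul_left_comm, ← Real.exp_add]
  refine mul_le_mul_of_nonneg_left (Real.exp_le_exp.2 ?_) (ha j)
  have h1 : b j * (t - s) ≤ |b j| * |t - s| := by
    rw [← abs_mul]; exact le_abs_self _
  have h2 : |b j| * |t - s| ≤ β * |t - s| := mul_le_mul_of_nonneg_right (hb j) (abs_nonneg _)
  linarith

theorem kl_rpow_cmp {x y K μ : ℝ} (hx : 0 < x) (hy : 0 < y) (hK : 0 < K) (hμ : 0 ≤ μ)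
    (h : x ≤ K * y) : y ^ (-μ) ≤ K ^ μ * x ^ (-μ) := by
  have h1 : (K * y) ^ (-μ) ≤ x ^ (-μ) := Real.rpow_le_rpow_of_nonpos hx h (by linarith)
  rw [Real.mul_rpow hK.le hy.le] at h1
  have h2 : K ^ μ * K ^ (-μ) = 1 := by rw [← Real.rpow_add hK]; simp
  have h3 : 0 ≤ K ^ μ := Real.rpow_nonneg hK.le _
  calc y ^ (-μ) = K ^ μ * (K ^ (-μ) * y ^ (-μ)) := by rw [← mul_assoc, h2, one_mul]
    _ ≤ _ := mul_le_mul_of_nonneg_left h1 h3

theorem kl_sum_bounds {X : Type*} [NormedAddCommGroup X] [NormedSpace ℂ X] {P : Set X} {A β : ℝ}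
    (hA : 0 < A) {J : Type} [Fintype J] {σ : J → X → ℂ} {b : J → ℝ}
    (h : KD P A β σ b) {p : X} (hp : p ∈ P) (t : ℝ) :
    1 ≤ (A * Real.exp (β * |t|)) * ∑ j, ‖σ j p‖ ^ 2 * Real.exp (b j * t) ∧
      ∑ j, ‖σ j p‖ ^ 2 * Real.exp (b j * t) ≤ A * Real.exp (β * |t|) := by
  have h1 := kl_sum_cmp (a := fun j => ‖σ j p‖ ^ 2) (fun j => by positivity) h.bd 0 t
  have h2 := kl_sum_cmp (a := fun j => ‖σ j p‖ ^ 2) (fun j => by positivity) h.bd t 0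
  simp only [mul_zero, Real.exp_zero, mul_one, sub_zero, zero_sub, abs_neg] at h1 h2
  have h3 := h.lo p hp
  have h4 := h.hi p hp
  have he := Real.exp_pos (β * |t|)
  constructor
  · have h5 := mul_le_mul_of_nonneg_left (h3.trans h2) hA.le
    rw [mul_inv_cancel₀ hA.ne'] at h5
    rw [mul_assoc]; exact h5
  · rw [mul_comm]
    exact h1.trans (mul_le_mul_of_nonneg_left h4 he.le)

theorem kw_bounds {X : Type*} [NormedAddCommGroup X] [NormedSpace ℂ X] {P : Set X} {A β μ : ℝ}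
    (hA : 0 < A) (hμ : 0 ≤ μ) {J : Type} [Fintype J] {σ : J → X → ℂ} {b : J → ℝ}
    (h : KD P A β σ b) {p : X} (hp : p ∈ P) (t : ℝ) :
    (A * Real.exp (β * |t|)) ^ (-μ) ≤ kw σ b μ t p ∧
      kw σ b μ t p ≤ (A * Real.exp (β * |t|)) ^ μ := by
  obtain ⟨h1, h2⟩ := kl_sum_bounds hA h hp t
  have hM : 0 < A * Real.exp (β * |t|) := by positivity
  have hQ : 0 < ∑ j, ‖σ j p‖ ^ 2 * Real.exp (b j * t) :=
    pos_of_mul_pos_right (lt_of_lt_of_le one_pos h1) hM.le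
  refine ⟨Real.rpow_le_rpow_of_nonpos hQ h2 (by linarith), ?_⟩
  have := kl_rpow_cmp one_pos hQ hM hμ h1
  rwa [Real.one_rpow, mul_one] at this

/-- The time variable of a point close to exp (-t₀ / 2). -/
theorem kl_tau {t₀ : ℝ} (ht : 6 ≤ t₀) {τ : ℂ}
    (hτ : ‖τ - (Real.exp (-t₀ / 2) : ℝ)‖ ≤ Real.exp (-t₀)) :
    τ ∈ Metric.ball (0 : ℂ) 1 \ {0} ∧ |-Real.log (‖τ‖ ^ 2) - t₀| ≤ 1 := by
  set a := Real.exp (-t₀ / 2) with ha
  have ha0 : 0 < a := Real.exp_pos _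
  have hsq : Real.exp (-t₀) = a * a := by rw [ha, ← Real.exp_add]; congr 1; ring
  have ha4 : a ≤ 1 / 4 := by
    have h1 : t₀ / 2 + 1 ≤ Real.exp (t₀ / 2) := Real.add_one_le_exp _
    have h2 : a * Real.exp (t₀ / 2) = 1 := by
      rw [ha, ← Real.exp_add, show -t₀ / 2 + t₀ / 2 = 0 by ring, Real.exp_zero]
    nlinarith
  have hn : ‖((a : ℝ) : ℂ)‖ = a := by rw [Complex.norm_real, Real.norm_eq_abs, abs_of_pos ha0]
  have h1 := abs_norm_sub_norm_le τ ((a : ℝ) : ℂ)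
  rw [hn, abs_le] at h1
  have hd : ‖τ - ((a : ℝ) : ℂ)‖ ≤ a / 4 := by rw [hsq] at hτ; nlinarith
  have hlo : 3 / 4 * a ≤ ‖τ‖ := by linarith [h1.1]
  have hhi : ‖τ‖ ≤ 5 / 4 * a := by linarith [h1.2]
  have hτ0 : 0 < ‖τ‖ := by linarith
  refine ⟨⟨by rw [mem_ball_zero_iff]; linarith, norm_pos_iff.1 hτ0⟩, ?_⟩
  have he : 2 ≤ Real.exp 1 := by linarith [Real.add_one_le_exp 1]
  have hp : 0 < ‖τ‖ ^ 2 := by positivity
  have haa : 0 < a * a := by positivity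
  have h2 : ‖τ‖ ^ 2 ≤ Real.exp (1 + -t₀) := by
    rw [Real.exp_add, hsq]; nlinarith
  have h3 : Real.exp (-t₀) ≤ Real.exp 1 * ‖τ‖ ^ 2 := by
    rw [hsq]; nlinarith
  have h4 := (Real.log_le_iff_le_exp hp).2 h2
  have h5 := Real.log_le_log (Real.exp_pos _) h3
  rw [Real.log_exp, Real.log_mul (Real.exp_pos _).ne' hp.ne', Real.log_exp] at h5
  rw [abs_le]
  constructor <;> linarith

omit [NormedSpace ℝ E₁] [IsScalarTower ℝ ℂ E₁] [FiniteDimensional ℂ E₁] [MeasurableSpace E₁]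
  [BorelSpace E₁] [NormedSpace ℝ E₂] [IsScalarTower ℝ ℂ E₂] [FiniteDimensional ℂ E₂]
  [MeasurableSpace E₂] [BorelSpace E₂] [SecondCountableTopology E₁]
  [SecondCountableTopology E₂] in
/-- Oscillation in the space variable. -/
theorem kl_space {r₁ r₂ A β : ℝ} (h₁ : 0 < r₁) (hA : 0 < A) {J : Type} [Fintype J]
    {σ : J → E₁ × E₂ → ℂ} {b : J → ℝ} (h : KD (PP E₁ E₂ r₁ r₂) A β σ b) (t : ℝ) {z₁ z : E₁}
    (hz₁ : ‖z₁‖ ≤ r₁ / 2) {y : E₂} (hy : ‖y‖ < r₂) (hz : ‖z - z₁‖ < r₁ / 4)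
    (hz' : 16 * (A * Real.exp (β * |t|)) * ‖z - z₁‖ ≤ r₁) :
    ∑ j, ‖σ j (z, y)‖ ^ 2 * Real.exp (b j * t) ≤
        4 * ∑ j, ‖σ j (z₁, y)‖ ^ 2 * Real.exp (b j * t) ∧
      ∑ j, ‖σ j (z₁, y)‖ ^ 2 * Real.exp (b j * t) ≤
        4 * ∑ j, ‖σ j (z, y)‖ ^ 2 * Real.exp (b j * t) := by
  let F : E₁ → EuclideanSpace ℂ J := fun w =>
    WithLp.toLp 2 fun j => (Real.exp (b j * t / 2) : ℝ) * σ j (w, y)
  have hF : ∀ w, ‖F w‖ ^ 2 = ∑ j, ‖σ j (w, y)‖ ^ 2 * Real.exp (b j * t) := by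
    intro w
    rw [EuclideanSpace.norm_sq_eq]
    refine Finset.sum_congr rfl fun j _ => ?_
    show ‖((Real.exp (b j * t / 2) : ℝ) : ℂ) * σ j (w, y)‖ ^ 2 = _
    rw [norm_mul, Complex.norm_real, Real.norm_eq_abs, abs_of_pos (Real.exp_pos _), mul_pow,
      sq (Real.exp _), ← Real.exp_add, add_halves, mul_comm]
  have hr : 0 < r₁ / 2 := half_pos h₁
  have hin : ∀ w ∈ Metric.ball z₁ (r₁ / 2), (w, y) ∈ PP E₁ E₂ r₁ r₂ := by
    intro w hw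
    refine ⟨?_, mem_ball_zero_iff.2 hy⟩
    rw [mem_ball_iff_norm] at hw
    rw [mem_ball_zero_iff]
    have := norm_add_le (w - z₁) z₁
    rw [sub_add_cancel] at this
    show ‖w‖ < r₁
    linarith
  have hd : DifferentiableOn ℂ F (Metric.ball z₁ (r₁ / 2)) := by
    refine differentiableOn_euclidean.2 fun j => ?_
    exact ((h.hol j).comp (differentiableOn_id.prodMk (differentiableOn_const y)) hin).const_mul _
  set M := Real.sqrt (A * Real.exp (β * |t|)) with hM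
  have hM2 : M ^ 2 = A * Real.exp (β * |t|) := Real.sq_sqrt (by positivity)
  have hM0 : 0 < M := Real.sqrt_pos.2 (by positivity)
  have hb : ∀ w ∈ Metric.ball z₁ (r₁ / 2), ‖F w‖ ≤ M := by
    intro w hw
    apply Real.le_sqrt_of_sq_le
    rw [hF]
    exact (kl_sum_bounds hA h (hin w hw) t).2
  have hlip := Vale.Agent.P274.norm_sub_le_of_bdd hr hd hb (y := z) (z := z₁)
    (by rw [mem_ball_iff_norm]; linarith) (Metric.mem_ball_self (by positivity))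
  have hlo := (kl_sum_bounds hA h (hin z₁ (Metric.mem_ball_self hr)) t).1
  rw [← hF, ← hM2, ← mul_pow] at hlo
  have hlo' : 1 ≤ M * ‖F z₁‖ := by
    by_contra hc
    have h0 : 0 ≤ M * ‖F z₁‖ := by positivity
    nlinarith
  rw [← hM2] at hz'
  have hn := norm_nonneg (z - z₁)
  have h2 : 4 * M / (r₁ / 2) * ‖z - z₁‖ ≤ ‖F z₁‖ / 2 := by
    rw [div_mul_eq_mul_div, div_le_iff₀ hr]
    refine le_of_mul_le_mul_left ?_ hM0
    nlinarith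
  have h3 := abs_norm_sub_norm_le (F z) (F z₁)
  rw [abs_le] at h3
  rw [← hF, ← hF]
  have h4 := norm_nonneg (F z)
  have h5 := norm_nonneg (F z₁)
  have h6 : ‖F z‖ ≤ 2 * ‖F z₁‖ := by linarith [h3.2]
  have h7 : ‖F z₁‖ ≤ 2 * ‖F z‖ := by linarith [h3.1]
  constructor <;> nlinarith

/-- |t - t₀| ≤ 1 because |τ - τ₀| ≤ τ₀ / 4 (B ≥ 1, t₀ ≥ t₁ ≥ 3). Let Q(z) = Σ|σ_j (z, y)|² exp (b_j t₀).
The map z ↦ (σ_j (z, y))_j into EuclideanSpace ℂ J is bounded by √A on ball 0 r₁, so it is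
C √A / r₁ Lipschitz near z₁ (P274.norm_sub_le_of_bdd on ball z₁ (r₁/2)); hence
|√Q(z) - √Q(z₁)| ≤ exp (β t₀/2) C √A |z - z₁| / r₁ ≤ √Q(z₁) / 2 for B = |β| + 1 and t₀ large, as
Q(z₁) ≥ exp (-β t₀) / A. C = (4 exp |β|)^μ exp |c|. -/
theorem kl_osc {r₁ r₂ A μ : ℝ} (β c : ℝ) (h₁ : 0 < r₁) (hA : 0 < A) (hμ : 0 ≤ μ) :
    ∃ B C t₁ : ℝ, 1 ≤ B ∧ 0 < C ∧ 3 ≤ t₁ ∧ ∀ (J : Type) [Fintype J] (σ : J → E₁ × E₂ → ℂ)
      (b : J → ℝ), KD (PP E₁ E₂ r₁ r₂) A β σ b → ∀ t₀, t₁ ≤ t₀ → ∀ z₁ : E₁, ‖z₁‖ ≤ r₁ / 2 →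
      ∀ y : E₂, ‖y‖ < r₂ → ∀ (z : E₁) (τ : ℂ), ‖z - z₁‖ ≤ Real.exp (-B * t₀) →
      ‖τ - (Real.exp (-t₀ / 2) : ℝ)‖ ≤ Real.exp (-B * t₀) →
      ((z, y), τ) ∈ OO E₁ E₂ r₁ r₂ ∧
        ew σ b μ c ((z, y), τ) ≤ C * (kw σ b μ t₀ (z₁, y) * Real.exp (c * t₀)) ∧
        kw σ b μ t₀ (z₁, y) * Real.exp (c * t₀) ≤ C * ew σ b μ c ((z, y), τ) := by
  have hε : 0 < min (r₁ / 8) (r₁ / (16 * A)) := by positivity
  have hβ := abs_nonneg β
  have hK : 0 < 4 * Real.exp |β| := by positivity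
  refine ⟨|β| + 1, (4 * Real.exp |β|) ^ μ * Real.exp |c|,
    max 6 (-Real.log (min (r₁ / 8) (r₁ / (16 * A)))), by linarith, by positivity,
    le_max_of_le_left (by norm_num), ?_⟩
  intro J _ σ b h t₀ ht z₁ hz₁ y hy z τ hz hτ
  have ht6 : 6 ≤ t₀ := (le_max_left _ _).trans ht
  have hte : Real.exp (-t₀) ≤ min (r₁ / 8) (r₁ / (16 * A)) := by
    rw [← Real.le_log_iff_exp_le hε]
    linarith [(le_max_right _ _).trans ht]
  have h' : KD (PP E₁ E₂ r₁ r₂) A |β| σ b :=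
    ⟨h.hol, h.lo, h.hi, fun j => (h.bd j).trans (le_abs_self β)⟩
  have hB : Real.exp (-(|β| + 1) * t₀) ≤ Real.exp (-t₀) := Real.exp_le_exp.2 (by nlinarith)
  obtain ⟨hτ1, hτ2⟩ := kl_tau ht6 (hτ.trans hB)
  have hz4 : ‖z - z₁‖ < r₁ / 4 := by linarith [hte.trans (min_le_left _ _)]
  have hz16 : 16 * (A * Real.exp (|β| * |t₀|)) * ‖z - z₁‖ ≤ r₁ := by
    have h1 : Real.exp (|β| * |t₀|) * Real.exp (-(|β| + 1) * t₀) = Real.exp (-t₀) := by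
      rw [← Real.exp_add, abs_of_pos (by linarith : 0 < t₀)]; congr 1; ring
    have h2 := hte.trans (min_le_right _ _)
    rw [le_div_iff₀ (by positivity)] at h2
    calc 16 * (A * Real.exp (|β| * |t₀|)) * ‖z - z₁‖
        ≤ 16 * (A * Real.exp (|β| * |t₀|)) * Real.exp (-(|β| + 1) * t₀) := by gcongr
      _ = Real.exp (-t₀) * (16 * A) := by rw [← h1]; ring
      _ ≤ r₁ := h2
  obtain ⟨hs1, hs2⟩ := kl_space h₁ hA h' t₀ hz₁ hy hz4 hz16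
  have hzP : (z, y) ∈ PP E₁ E₂ r₁ r₂ := by
    refine ⟨?_, mem_ball_zero_iff.2 hy⟩
    rw [mem_ball_zero_iff]
    have := norm_add_le (z - z₁) z₁
    rw [sub_add_cancel] at this
    show ‖z‖ < r₁
    linarith
  have hz₁P : (z₁, y) ∈ PP E₁ E₂ r₁ r₂ :=
    ⟨mem_ball_zero_iff.2 (by show ‖z₁‖ < r₁; linarith), mem_ball_zero_iff.2 hy⟩
  refine ⟨⟨hzP, hτ1⟩, ?_⟩
  unfold ew kw
  simp only
  generalize -Real.log (‖τ‖ ^ 2) = t at hτ2 ⊢
  have hτ3 : |t₀ - t| ≤ 1 := by rwa [abs_sub_comm]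
  have c1 := kl_sum_cmp (a := fun j => ‖σ j (z, y)‖ ^ 2) (fun j => by positivity) h'.bd t₀ t
  have c2 := kl_sum_cmp (a := fun j => ‖σ j (z, y)‖ ^ 2) (fun j => by positivity) h'.bd t t₀
  have p1 : 0 < ∑ j, ‖σ j (z, y)‖ ^ 2 * Real.exp (b j * t) :=
    pos_of_mul_pos_right (lt_of_lt_of_le one_pos (kl_sum_bounds hA h' hzP t).1) (by positivity)
  have p2 : 0 < ∑ j, ‖σ j (z, y)‖ ^ 2 * Real.exp (b j * t₀) :=
    pos_of_mul_pos_right (lt_of_lt_of_le one_pos (kl_sum_bounds hA h' hzP t₀).1) (by positivity)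
  have p3 : 0 < ∑ j, ‖σ j (z₁, y)‖ ^ 2 * Real.exp (b j * t₀) :=
    pos_of_mul_pos_right (lt_of_lt_of_le one_pos (kl_sum_bounds hA h' hz₁P t₀).1) (by positivity)
  have e1 : Real.exp (|β| * |t - t₀|) ≤ Real.exp |β| := Real.exp_le_exp.2 (by nlinarith)
  have e2 : Real.exp (|β| * |t₀ - t|) ≤ Real.exp |β| := Real.exp_le_exp.2 (by nlinarith)
  have e0 := Real.exp_pos |β|
  generalize ∑ j, ‖σ j (z, y)‖ ^ 2 * Real.exp (b j * t) = Q at *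
  generalize ∑ j, ‖σ j (z, y)‖ ^ 2 * Real.exp (b j * t₀) = Q' at *
  generalize ∑ j, ‖σ j (z₁, y)‖ ^ 2 * Real.exp (b j * t₀) = Q₀ at *
  have q1 : Q ≤ 4 * Real.exp |β| * Q₀ :=
    calc Q ≤ Real.exp |β| * (4 * Q₀) := c1.trans (by gcongr)
      _ = _ := by ring
  have q2 : Q₀ ≤ 4 * Real.exp |β| * Q :=
    calc Q₀ ≤ 4 * (Real.exp |β| * Q) := hs2.trans (by gcongr; exact c2.trans (by gcongr))
      _ = _ := by ring
  have r1 := kl_rpow_cmp p1 p3 hK hμ q1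
  have r2 := kl_rpow_cmp p3 p1 hK hμ q2
  have hc : ∀ s s' : ℝ, |s - s'| ≤ 1 → Real.exp (c * s) ≤ Real.exp |c| * Real.exp (c * s') := by
    intro s s' hs
    rw [← Real.exp_add]
    refine Real.exp_le_exp.2 ?_
    have h1 : c * (s - s') ≤ |c| * |s - s'| := by rw [← abs_mul]; exact le_abs_self _
    have h2 := abs_nonneg c
    nlinarith
  constructor
  · calc Q ^ (-μ) * Real.exp (c * t)
        ≤ ((4 * Real.exp |β|) ^ μ * Q₀ ^ (-μ)) * (Real.exp |c| * Real.exp (c * t₀)) :=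
          mul_le_mul r2 (hc _ _ hτ2) (by positivity) (by positivity)
      _ = _ := by ring
  · calc Q₀ ^ (-μ) * Real.exp (c * t₀)
        ≤ ((4 * Real.exp |β|) ^ μ * Q ^ (-μ)) * (Real.exp |c| * Real.exp (c * t)) :=
          mul_le_mul r1 (hc _ _ hτ3) (by positivity) (by positivity)
      _ = _ := by ring

end

end Fuj
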