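import Vale.Agent.P271.HKLc0
import Vale.Agent.P271.HKLb

/-! Key lemma: approximate extension from a slice. -/

namespace Fuj

open MeasureTheory Set Filter Topology Complex
open scoped ENNReal ContDiff ComplexConjugate

noncomputable section

variable {E₁ E₂ : Type} [NormedAddCommGroup E₁] [NormedSpace ℝ E₁] [InnerProductSpace ℂ E₁]
  [IsScalarTower ℝ ℂ E₁] [FiniteDimensional ℂ E₁] [MeasurableSpace E₁] [BorelSpace E₁]
  [NormedAddCommGroup E₂] [NormedSpace ℝ E₂] [InnerProductSpace ℂ E₂]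
  [IsScalarTower ℝ ℂ E₂] [FiniteDimensional ℂ E₂] [MeasurableSpace E₂] [BorelSpace E₂]
  [SecondCountableTopology E₁] [SecondCountableTopology E₂]
  (v₁ : Measure E₁) [v₁.IsAddHaarMeasure] (v₂ : Measure E₂) [v₂.IsAddHaarMeasure]

/-- The base of the power in `kw` does not vanish. -/
theorem hklc_ne {X : Type*} [NormedAddCommGroup X] [NormedSpace ℂ X] {P : Set X} {A β : ℝ}
    (hA : 0 < A) {J : Type} [Fintype J] {σ : J → X → ℂ} {b : J → ℝ}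
    (h : KD P A β σ b) {p : X} (hp : p ∈ P) (t : ℝ) :
    ∑ j, ‖σ j p‖ ^ 2 * Real.exp (b j * t) ≠ 0 := by
  intro h0
  have h1 := (Finset.sum_eq_zero_iff_of_nonneg fun j _ => by positivity).1 h0
  have h2 : ∑ j, ‖σ j p‖ ^ 2 = 0 := Finset.sum_eq_zero fun j hj =>
    (mul_eq_zero.1 (h1 j hj)).resolve_right (Real.exp_pos _).ne'
  have h3 := h.lo p hp
  rw [h2] at h3
  exact absurd (inv_pos.2 hA) (not_lt.2 h3)

/-- Continuity of `kw`. -/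
theorem hklc_cont {X : Type*} [NormedAddCommGroup X] [NormedSpace ℂ X] {P : Set X} {A β : ℝ}
    (hA : 0 < A) {J : Type} [Fintype J] {σ : J → X → ℂ} {b : J → ℝ}
    (h : KD P A β σ b) (μ t : ℝ) : ContinuousOn (kw σ b μ t) P := by
  unfold kw
  refine ContinuousOn.rpow_const ?_ fun p hp => Or.inl (hklc_ne hA h hp t)
  exact continuousOn_finsetSum _ fun j _ =>
    ((h.hol j).continuousOn.norm.pow 2).mul continuousOn_const

/-- kl_ext0 with w = ew, ε = exp (-B t₀), a = min 1 (θ / (4 B)), g y = C kw t₀ (z₁, y) exp (c t₀)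
(kl_osc, kl_psi, kw_bounds). -/
theorem kl_ext {r₁ r₂ A μ θ : ℝ} (β c : ℝ) (h₁ : 0 < r₁) (h₂ : 0 < r₂) (hA : 0 < A) (hμ : 0 ≤ μ)
    (hθ : 0 < θ) :
    ∃ C t₁ : ℝ, 0 < C ∧ 3 ≤ t₁ ∧ ∀ (J : Type) [Fintype J] (σ : J → E₁ × E₂ → ℂ) (b : J → ℝ),
      KD (PP E₁ E₂ r₁ r₂) A β σ b → ∀ t₀, t₁ ≤ t₀ → ∀ z₁ : E₁, ‖z₁‖ ≤ r₁ / 2 →
      ∀ y₀ : E₂, ‖y₀‖ ≤ r₂ / 2 →
      ∃ F : (E₁ × E₂) × ℂ → ℂ, DifferentiableOn ℂ F (OO E₁ E₂ r₁ r₂) ∧
        1 / 2 ≤ ‖F ((z₁, y₀), ((Real.exp (-t₀ / 2) : ℝ) : ℂ))‖ ∧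
        ∫⁻ q in OO E₁ E₂ r₁ r₂, ENNReal.ofReal (‖F q‖ ^ 2 * ew σ b μ c q)
            ∂((v₁.prod v₂).prod volume) ≤
          ENNReal.ofReal (C * Real.exp ((θ + c) * t₀)) *
            ∫⁻ y in Metric.ball 0 r₂, ENNReal.ofReal (kw σ b μ t₀ (z₁, y)) ∂v₂ := by
  obtain ⟨B, C₁, t₁, hB, hC₁, ht₁, hosc⟩ :=
    kl_osc (E₁ := E₁) (E₂ := E₂) (r₂ := r₂) β c h₁ hA hμ
  have hB0 : 0 < B := lt_of_lt_of_le one_pos hB
  have ha : 0 < min 1 (θ / (4 * B)) := lt_min one_pos (by positivity)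
  obtain ⟨C₀, hC₀, hext⟩ := kl_ext0 v₁ v₂ h₁ h₂ ha (min_le_left _ _)
  refine ⟨C₀ * C₁, t₁, mul_pos hC₀ hC₁, ht₁, ?_⟩
  intro J _ σ b hK t₀ ht₀ z₁ hz₁ y₀ hy₀
  have ht0 : 0 ≤ t₀ := by linarith
  obtain ⟨hs1, hs2, hs3⟩ := kl_psi c hA hμ hK
  have hmem : ∀ y : E₂, ‖y‖ < r₂ → (z₁, y) ∈ PP E₁ E₂ r₁ r₂ := fun y hy =>
    ⟨mem_ball_zero_iff.2 (by linarith), mem_ball_zero_iff.2 hy⟩
  have hAe : 0 < A * Real.exp (β * |t₀|) := by positivity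
  have hint : ∫⁻ y in Metric.ball (0 : E₂) r₂,
      ENNReal.ofReal (C₁ * (kw σ b μ t₀ (z₁, y) * Real.exp (c * t₀))) ∂v₂ =
      ENNReal.ofReal (C₁ * Real.exp (c * t₀)) *
        ∫⁻ y in Metric.ball (0 : E₂) r₂, ENNReal.ofReal (kw σ b μ t₀ (z₁, y)) ∂v₂ := by
    rw [← lintegral_const_mul' _ _ ENNReal.ofReal_ne_top]
    refine lintegral_congr fun y => ?_
    rw [← ENNReal.ofReal_mul (by positivity)]
    congr 1
    ring
  have hfin : ∫⁻ y in Metric.ball (0 : E₂) r₂, ENNReal.ofReal (kw σ b μ t₀ (z₁, y)) ∂v₂ ≠ ⊤ := by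
    have : ProperSpace E₂ := FiniteDimensional.proper ℂ E₂
    have hle : ∫⁻ y in Metric.ball (0 : E₂) r₂, ENNReal.ofReal (kw σ b μ t₀ (z₁, y)) ∂v₂ ≤
        ∫⁻ _ in Metric.ball (0 : E₂) r₂,
          ENNReal.ofReal ((A * Real.exp (β * |t₀|)) ^ μ) ∂v₂ :=
      setLIntegral_mono' measurableSet_ball fun y hy =>
        ENNReal.ofReal_le_ofReal (kw_bounds hA hμ hK (hmem y (mem_ball_zero_iff.1 hy)) t₀).2
    refine ne_top_of_le_ne_top ?_ hle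
    rw [setLIntegral_const]
    exact ENNReal.mul_ne_top ENNReal.ofReal_ne_top measure_ball_lt_top.ne
  obtain ⟨F, hF1, hF2, hF3⟩ := hext (ew σ b μ c)
    (fun y => C₁ * (kw σ b μ t₀ (z₁, y) * Real.exp (c * t₀))) z₁ y₀
    ((Real.exp (-t₀ / 2) : ℝ) : ℂ) (Real.exp (-B * t₀))
    ((A * Real.exp (β * |t₀|)) ^ (-μ) * Real.exp (c * t₀) / C₁) hs1 hs2 hs3 (Real.exp_pos _)
    (Real.exp_le_one_iff.2 (by nlinarith)) (by positivity) (by linarith)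
    (by
      rw [Complex.norm_real, Real.norm_eq_abs, abs_of_pos (Real.exp_pos _)]
      exact Real.exp_le_one_iff.2 (by linarith))
    hy₀
    (by
      refine continuousOn_const.mul (ContinuousOn.mul ?_ continuousOn_const)
      exact (hklc_cont hA hK μ t₀).comp (Continuous.prodMk_right z₁).continuousOn
        fun y hy => hmem y (mem_ball_zero_iff.1 hy))
    (by
      intro z y τ hz hy hτ
      obtain ⟨o1, o2, o3⟩ := hosc J σ b hK t₀ ht₀ z₁ hz₁ y hy z τ hz hτ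
      refine ⟨o1, ?_, o2⟩
      rw [div_le_iff₀ hC₁, mul_comm _ C₁]
      exact le_trans (mul_le_mul_of_nonneg_right (kw_bounds hA hμ hK (hmem y hy) t₀).1
        (Real.exp_pos _).le) o3)
    (by
      rw [hint]
      exact ENNReal.mul_ne_top ENNReal.ofReal_ne_top hfin)
  refine ⟨F, hF1, hF2, hF3.trans ?_⟩
  rw [hint, ← mul_assoc, ← ENNReal.ofReal_mul (by positivity)]
  refine mul_le_mul_left (ENNReal.ofReal_le_ofReal ?_) _
  have e1 : Real.exp (-B * t₀) ^ (-4 * min 1 (θ / (4 * B))) ≤ Real.exp (θ * t₀) := by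
    rw [← Real.exp_mul]
    refine Real.exp_le_exp.2 ?_
    have h1 : min 1 (θ / (4 * B)) * (4 * B) ≤ θ := by
      rw [← le_div_iff₀ (by positivity)]
      exact min_le_right _ _
    nlinarith
  calc C₀ * Real.exp (-B * t₀) ^ (-4 * min 1 (θ / (4 * B))) * (C₁ * Real.exp (c * t₀))
      ≤ C₀ * Real.exp (θ * t₀) * (C₁ * Real.exp (c * t₀)) := by gcongr
    _ = C₀ * C₁ * Real.exp ((θ + c) * t₀) := by rw [add_mul, Real.exp_add]; ring

end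

end Fuj
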