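import Vale.Agent.P271.HMain
import Vale.Agent.P271.HMeas

/-! The L² existence theorem on an open set; the lifted measure. -/

namespace Fuj

open MeasureTheory Set Filter Topology Complex
open scoped ENNReal ContDiff ComplexConjugate

noncomputable section

variable {E : Type*} [NormedAddCommGroup E] [NormedSpace ℝ E] [NormedSpace ℂ E]
  [IsScalarTower ℝ ℂ E] [FiniteDimensional ℂ E] [MeasurableSpace E] [BorelSpace E]
  {vol : Measure E} [vol.IsAddHaarMeasure]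

/-- The chart of an open set. -/
def hoE {Ω : Set E} (hΩ : IsOpen Ω) [Nonempty Ω] : OpenPartialHomeomorph Ω E :=
  hΩ.isOpenEmbedding_subtypeVal.toOpenPartialHomeomorph _

omit [NormedSpace ℝ E] [NormedSpace ℂ E] [IsScalarTower ℝ ℂ E] [FiniteDimensional ℂ E]
  [MeasurableSpace E] [BorelSpace E] in
theorem hoE_source {Ω : Set E} (hΩ : IsOpen Ω) [Nonempty Ω] : (hoE hΩ).source = univ := rfl

omit [NormedSpace ℝ E] [NormedSpace ℂ E] [IsScalarTower ℝ ℂ E] [FiniteDimensional ℂ E]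
  [MeasurableSpace E] [BorelSpace E] in
theorem hoE_target {Ω : Set E} (hΩ : IsOpen Ω) [Nonempty Ω] : (hoE hΩ).target = Ω := by
  simp [hoE]

omit [NormedSpace ℝ E] [NormedSpace ℂ E] [IsScalarTower ℝ ℂ E] [FiniteDimensional ℂ E]
  [MeasurableSpace E] [BorelSpace E] in
theorem hoE_left {Ω : Set E} (hΩ : IsOpen Ω) [Nonempty Ω] (p : Ω) : (hoE hΩ).symm p = p :=
  hΩ.isOpenEmbedding_subtypeVal.toOpenPartialHomeomorph_left_inv _

omit [NormedSpace ℝ E] [NormedSpace ℂ E] [IsScalarTower ℝ ℂ E] [FiniteDimensional ℂ E]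
  [MeasurableSpace E] [BorelSpace E] in
theorem hoE_right {Ω : Set E} (hΩ : IsOpen Ω) [Nonempty Ω] {z : E} (hz : z ∈ Ω) :
    (((hoE hΩ).symm z : Ω) : E) = z :=
  congrArg Subtype.val (hoE_left hΩ ⟨z, hz⟩)

/-- The trivial bundle on an open set. -/
def hoS {Ω : Set E} (hΩ : IsOpen Ω) [Nonempty Ω] (vol : Measure E) : Sheets E Ω vol where
  ι := Unit
  cnt := inferInstance
  π := Subtype.val
  e _ := hoE hΩ
  e_eq _ _ _ := rfl
  cover _ := ⟨(), mem_univ _⟩
  τ _ _ := 1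
  τ_meas _ := measurable_const
  τ_ne _ _ _ := one_ne_zero
  hol _ _ := differentiableOn_const _
  μ := Measure.comap Subtype.val vol
  μ_eq _ := by
    have hm : MeasurableEmbedding (Subtype.val : Ω → E) :=
      MeasurableEmbedding.subtype_coe hΩ.measurableSet
    have h1 : vol.restrict (hoE hΩ).target = (Measure.comap Subtype.val vol).map
        (Subtype.val : Ω → E) := by
      rw [hm.map_comap, Subtype.range_coe, hoE_target]
    have h2 : AEMeasurable (hoE hΩ).symm (vol.restrict (hoE hΩ).target) :=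
      (hoE hΩ).continuousOn_symm.aemeasurable (hoE hΩ).open_target.measurableSet
    rw [hoE_source, Measure.restrict_univ, h1,
      AEMeasurable.map_map_of_aemeasurable (h1 ▸ h2) hm.measurable.aemeasurable]
    have h3 : ((hoE hΩ).symm ∘ Subtype.val : Ω → Ω) = id := funext fun p => hoE_left hΩ p
    rw [h3, Measure.map_id]

/-- If Ω is empty there is nothing to prove. Else W = Ω as a subtype, one chart
(IsOpen.isOpenEmbedding_subtypeVal, IsOpenEmbedding.toOpenPartialHomeomorph), τ = 1,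
μ = Measure.comap Subtype.val vol; Sheets.hormander; F z = rep () F z. -/
theorem hormander_open {Ω : Set E} (hΩ : IsOpen Ω) {u φ : E → ℝ} (hu : ContDiffOn ℝ ∞ u Ω)
    (hup : ∀ z ∈ Ω, ∀ ξ, 0 ≤ levi u z ξ) (huc : ∀ c, IsCompact {z | z ∈ Ω ∧ u z ≤ c}) {C₀ : ℝ}
    (hug : ∀ z ∈ Ω, ∀ ξ, ‖dzr u z ξ‖ ^ 2 ≤ C₀ * (1 + Real.exp (u z)) * ‖ξ‖ ^ 2)
    (hφ : ContDiffOn ℝ ∞ φ Ω) (hφp : ∀ z ∈ Ω, ∀ ξ, 0 ≤ levi φ z ξ)
    {f : E → ℂ} (hf : ContDiffOn ℝ ∞ f Ω)
    (hf2 : ∫⁻ z in Ω, ENNReal.ofReal (‖f z‖ ^ 2 * Real.exp (-φ z)) ∂vol ≠ ⊤)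
    {A : E → ℝ} (hA : Measurable A) (hA0 : ∀ z, 0 ≤ A z)
    (hfA : ∀ z ∈ Ω, ∀ ξ, ‖db f z ξ‖ ^ 2 ≤ A z * levi φ z ξ) :
    ∃ F : E → ℂ, DifferentiableOn ℂ F Ω ∧
      ∫⁻ z in Ω, ENNReal.ofReal (‖F z - f z‖ ^ 2 * Real.exp (-φ z)) ∂vol ≤
        2 * ∫⁻ z in Ω, ENNReal.ofReal (A z * Real.exp (-φ z)) ∂vol := by
  rcases Ω.eq_empty_or_nonempty with rfl | hne
  · exact ⟨0, differentiableOn_empty, by simp⟩
  have : Nonempty Ω := hne.to_subtype
  have hT : ∀ i, ((hoS hΩ vol).e i).target = Ω := fun _ => hoE_target hΩ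
  have eloc : ∀ (g : E → ℝ) i, ∀ z ∈ Ω, (hoS hΩ vol).loc i (fun p => g p) z = g z :=
    fun g i z hz => congrArg g (hoE_right hΩ hz)
  have ewt : ∀ (g : E → ℝ) i, ∀ z ∈ Ω, (hoS hΩ vol).wt i (fun p => g p) z = g z :=
    fun g i z hz => by
      change g ((hoE hΩ).symm z) + Real.log (‖(1 : ℂ)‖ ^ 2) = g z
      rw [hoE_right hΩ hz]; simp
  have erep : ∀ (g : E → ℂ) i, ∀ z ∈ Ω, (hoS hΩ vol).rep i (fun p => g p) z = g z :=
    fun g i z hz => by
      change 1 * g ((hoE hΩ).symm z) = g z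
      rw [hoE_right hΩ hz, one_mul]
  have ev : ∀ {Y : Type} {g g' : E → Y}, (∀ z ∈ Ω, g z = g' z) → ∀ z ∈ Ω, g =ᶠ[𝓝 z] g' :=
    fun h z hz => eventually_of_mem (hΩ.mem_nhds hz) h
  have hint : ∀ g : E → ℝ≥0∞, ∫⁻ p : Ω, g p ∂(hoS hΩ vol).μ = ∫⁻ z in Ω, g z ∂vol :=
    fun g => lintegral_subtype_comap hΩ.measurableSet g
  obtain ⟨F, hF, hle⟩ := (hoS hΩ vol).hormander (u := fun p => u p) (φ := fun p => φ p)
    (f := fun p => f p) (A := fun p => A p) (C₀ := C₀)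
    (fun i => by rw [hT]; exact hu.congr (eloc u i))
    (fun i z hz ξ => by
      rw [hT] at hz
      rw [levi_congr (ev (eloc u i) z hz)]; exact hup z hz ξ)
    (fun c => by
      rw [Subtype.isCompact_iff]
      convert huc c using 1
      ext z
      simp only [mem_image, mem_ofPred_eq, Subtype.exists, exists_and_right, exists_eq_right,
        exists_prop])
    (fun i z hz ξ => by
      rw [hT] at hz
      rw [dzr_congr (ev (eloc u i) z hz), eloc u i z hz]; exact hug z hz ξ)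
    (fun i => by rw [hT]; exact hφ.congr (ewt φ i))
    (fun i z hz ξ => by
      rw [hT] at hz
      rw [levi_congr (ev (ewt φ i) z hz)]; exact hφp z hz ξ)
    (fun i => by rw [hT]; exact hf.congr (erep f i))
    (by
      rw [← hint] at hf2
      exact hf2)
    (hA.comp measurable_subtype_coe) (fun p => hA0 p)
    (fun i z hz ξ => by
      rw [hT] at hz
      rw [levi_congr (ev (ewt φ i) z hz), db_congr (ev (erep f i) z hz), eloc A i z hz]
      change _ ≤ ‖(1 : ℂ)‖ ^ 2 * A z * levi φ z ξ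
      simpa using hfA z hz ξ)
  refine ⟨(hoS hΩ vol).rep () F, (hF ()).mono (hT ()).ge, ?_⟩
  rw [← hint, ← hint]
  refine le_trans (le_of_eq (lintegral_congr fun p => ?_)) hle
  change ENNReal.ofReal (‖1 * F ((hoE hΩ).symm p) - f p‖ ^ 2 * _) = _
  rw [hoE_left, one_mul]

end

end Fuj
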