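import Vale.Agent.P271.HKLc0_a
import Vale.Agent.P271.HNorm
import Vale.Agent.P271.HOpen
import Vale.Agent.P271.HMV

/-! Key lemma: approximate extension from a slice. -/

namespace Fuj

open MeasureTheory Set Filter Topology Complex
open scoped ENNReal ContDiff ComplexConjugate

noncomputable section

variable {E₁ E₂ : Type} [NormedAddCommGroup E₁] [NormedSpace ℝ E₁] [InnerProductSpace ℂ E₁]
  [IsScalarTower ℝ ℂ E₁] [FiniteDimensional ℂ E₁] [MeasurableSpace E₁] [BorelSpace E₁]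
  [NormedAddCommGroup E₂] [NormedSpace ℝ E₂] [InnerProductSpace ℂ E₂]
  [IsScalarTower ℝ ℂ E₂] [FiniteDimensional ℂ E₂] [MeasurableSpace E₂] [BorelSpace E₂]
  [SecondCountableTopology E₁] [SecondCountableTopology E₂]
  (v₁ : Measure E₁) [v₁.IsAddHaarMeasure] (v₂ : Measure E₂) [v₂.IsAddHaarMeasure]

theorem pow_aux {ε a : ℝ} (hε : 0 < ε) (N : ℕ) :
    (ε ^ 2) ^ (-a) * (ε ^ 2 / 2) ^ (-((N : ℝ) / 2 + a)) * ε ^ N =
      2 ^ ((N : ℝ) / 2 + a) * ε ^ (-4 * a) := by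
  have h2 : (0 : ℝ) < 2 := two_pos
  rw [Real.rpow_def_of_pos (by positivity), Real.rpow_def_of_pos (by positivity),
    Real.rpow_def_of_pos h2, Real.rpow_def_of_pos hε, ← Real.rpow_natCast ε N,
    Real.rpow_def_of_pos hε, ← Real.exp_add, ← Real.exp_add, ← Real.exp_add,
    Real.log_div (by positivity) (by positivity), Real.log_pow]
  congr 1; push_cast; ring

theorem pow_aux2 {δ a : ℝ} (hδ : 0 < δ) (N : ℕ) :
    (2 * δ ^ 2) ^ (-((N : ℝ) / 2 + a)) * (δ / 2) ^ N =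
      2 ^ (-(3 * (N : ℝ) / 2 + a)) * δ ^ (-(2 * a)) := by
  have h2 : (0 : ℝ) < 2 := two_pos
  rw [Real.rpow_def_of_pos (by positivity), Real.rpow_def_of_pos h2, Real.rpow_def_of_pos hδ,
    ← Real.rpow_natCast (δ / 2) N, Real.rpow_def_of_pos (by positivity), ← Real.exp_add,
    ← Real.exp_add, Real.log_div (by positivity) (by positivity),
    Real.log_mul (by positivity) (by positivity), Real.log_pow]
  congr 1; push_cast; ring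

theorem sq2_le {E₁ E₂ : Type} [NormedAddCommGroup E₁] {z₁ : E₁} {τ₀ : ℂ} {ε : ℝ} (hε : 0 < ε)
    {q : (E₁ × E₂) × ℂ} (hs : sq2 z₁ τ₀ q ≤ ε ^ 2) : ‖q.1.1 - z₁‖ ≤ ε ∧ ‖q.2 - τ₀‖ ≤ ε := by
  have a1 : ‖q.1.1 - z₁‖ ^ 2 ≤ ε ^ 2 := by
    unfold sq2 at hs; nlinarith [sq_nonneg ‖q.2 - τ₀‖]
  have a2 : ‖q.2 - τ₀‖ ^ 2 ≤ ε ^ 2 := by
    unfold sq2 at hs; nlinarith [sq_nonneg ‖q.1.1 - z₁‖]
  exact ⟨(pow_le_pow_iff_left₀ (norm_nonneg _) hε.le two_ne_zero).1 a1,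
    (pow_le_pow_iff_left₀ (norm_nonneg _) hε.le two_ne_zero).1 a2⟩

theorem cut0_sq_le {E₁ E₂ : Type} [NormedAddCommGroup E₁] (z₁ : E₁) (τ₀ : ℂ) (ε : ℝ)
    (q : (E₁ × E₂) × ℂ) : ‖(cut0 z₁ τ₀ ε q : ℂ)‖ ^ 2 ≤ 1 := by
  rw [Complex.norm_real, Real.norm_eq_abs, sq_abs]
  exact pow_le_one₀ (Real.smoothTransition.nonneg _) (Real.smoothTransition.le_one _)

/-- Solving the dbar equation. -/
theorem ext_solve {r₁ r₂ a L : ℝ} (h₁ : 0 < r₁) (h₂ : 0 < r₂) (ha : 0 < a)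
    (hL : ∀ x, |deriv Real.smoothTransition x| ≤ L) {w : (E₁ × E₂) × ℂ → ℝ} {g : E₂ → ℝ}
    (z₁ : E₁) (τ₀ : ℂ) {ε δ : ℝ} (hε : 0 < ε) (hδ : 0 < δ)
    (hw : ContDiffOn ℝ ∞ (fun q => -Real.log (w q)) (OO E₁ E₂ r₁ r₂))
    (hw0 : ∀ q ∈ OO E₁ E₂ r₁ r₂, 0 < w q)
    (hp : ∀ q ∈ OO E₁ E₂ r₁ r₂, ∀ ξ, 0 ≤ levi (fun q => -Real.log (w q)) q ξ)
    (hg : ContinuousOn g (Metric.ball 0 r₂))
    (hwg : ∀ q ∈ OO E₁ E₂ r₁ r₂, sq2 z₁ τ₀ q ≤ ε ^ 2 → w q ≤ g q.1.2)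
    (hG : ∫⁻ y in Metric.ball 0 r₂, ENNReal.ofReal (g y) ∂v₂ ≠ ⊤) :
    ∃ F : (E₁ × E₂) × ℂ → ℂ, DifferentiableOn ℂ F (OO E₁ E₂ r₁ r₂) ∧
      ∫⁻ q in OO E₁ E₂ r₁ r₂, ENNReal.ofReal (‖F q - cut0 z₁ τ₀ ε q‖ ^ 2 *
        Real.exp (-phi0 w z₁ τ₀ a (((Module.finrank ℝ E₁ + 2 : ℕ) : ℝ) / 2 + a) ε δ q))
          ∂((v₁.prod v₂).prod volume) ≤
        ENNReal.ofReal (2 * (16 * L ^ 2 / a * 2 ^ (((Module.finrank ℝ E₁ + 2 : ℕ) : ℝ) / 2 + a) *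
          (v₁ (Metric.ball 0 1) * volume (Metric.ball (0 : ℂ) 1)).toReal) * ε ^ (-4 * a)) *
          ∫⁻ y in Metric.ball 0 r₂, ENNReal.ofReal (g y) ∂v₂ := by
  have : FiniteDimensional ℝ E₁ := Module.Finite.trans ℂ E₁
  have : FiniteDimensional ℝ E₂ := Module.Finite.trans ℂ E₂
  have := FiniteDimensional.proper_real E₁
  have := FiniteDimensional.proper_real E₂
  have := haar_prod3 v₁ v₂
  set N := Module.finrank ℝ E₁ + 2 with hN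
  set n : ℝ := (N : ℝ) / 2 + a with hn
  have hn0 : 0 ≤ n := by positivity
  have hO := isOpen_OO (E₁ := E₁) (E₂ := E₂) r₁ r₂
  obtain ⟨u, C₀, u1, u2, u3, u4⟩ := kl_exh (E₁ := E₁) (E₂ := E₂) h₁ h₂
  have hsc : Continuous (sq2 (E₂ := E₂) z₁ τ₀) := (sq2_contDiff z₁ τ₀).continuous
  have hf2 : ∫⁻ q in OO E₁ E₂ r₁ r₂, ENNReal.ofReal (‖(cut0 z₁ τ₀ ε q : ℂ)‖ ^ 2 *
      Real.exp (-phi0 w z₁ τ₀ a n ε δ q)) ∂((v₁.prod v₂).prod volume) ≠ ⊤ := by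
    refine ne_top_of_le_ne_top (ENNReal.mul_ne_top ENNReal.ofReal_ne_top hG)
      (tube_le v₁ v₂ z₁ τ₀ (K := (ε ^ 2) ^ (-a) * (δ ^ 2) ^ (-n)) hε (by positivity) hg ?_ ?_)
    · intro q hq hs
      have s0 := sq2_nonneg z₁ τ₀ q
      have w0 := hw0 q hq
      rw [exp_phi0 z₁ τ₀ a n hε hδ w0]
      have b1 : (sq2 z₁ τ₀ q + ε ^ 2) ^ (-a) ≤ (ε ^ 2) ^ (-a) :=
        Real.rpow_le_rpow_of_nonpos (by positivity) (by linarith) (by linarith)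
      have b2 : (sq2 z₁ τ₀ q + δ ^ 2) ^ (-n) ≤ (δ ^ 2) ^ (-n) :=
        Real.rpow_le_rpow_of_nonpos (by positivity) (by linarith) (by linarith)
      calc _ ≤ 1 * (g q.1.2 * ((ε ^ 2) ^ (-a) * (δ ^ 2) ^ (-n))) := by
            apply mul_le_mul (cut0_sq_le z₁ τ₀ ε q) _ (by positivity) zero_le_one
            exact mul_le_mul (hwg q hq hs) (mul_le_mul b1 b2 (by positivity) (by positivity))
              (by positivity) (w0.le.trans (hwg q hq hs))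
        _ = _ := by ring
    · intro q _ hs
      rw [cut0_zero hε hs.le]; simp
  have hAm : Measurable ({q : (E₁ × E₂) × ℂ | ε ^ 2 / 2 ≤ sq2 z₁ τ₀ q ∧ sq2 z₁ τ₀ q ≤ ε ^ 2}.indicator
      (fun _ => 16 * L ^ 2 / a)) :=
    measurable_const.indicator ((isClosed_le continuous_const hsc).inter
      (isClosed_le hsc continuous_const)).measurableSet
  obtain ⟨F, F1, F2⟩ := hormander_open (vol := (v₁.prod v₂).prod volume) hO u1 u2 u3 u4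
    (phi0_contDiffOn hw z₁ τ₀ a n hε hδ)
    (fun q hq ξ => le_trans (by have := sq2_nonneg z₁ τ₀ q; positivity)
      (phi0_levi hO hw hp z₁ τ₀ ha.le hn0 hε hδ hq ξ))
    (f := fun q => (cut0 z₁ τ₀ ε q : ℂ))
    (ofRealCLM.contDiff.comp (cut0_contDiff z₁ τ₀ ε)).contDiffOn hf2 hAm
    (fun q => indicator_nonneg (fun _ _ => by positivity) q)
    (fun q hq ξ => cut0_le hO hw hp z₁ τ₀ ha hn0 hε hδ hL hq ξ)
  refine ⟨F, F1, F2.trans ?_⟩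
  have h3 := tube_le v₁ v₂ z₁ τ₀ (r₁ := r₁) (K := 16 * L ^ 2 / a * ((ε ^ 2) ^ (-a) * (ε ^ 2 / 2) ^ (-n)))
    (h := fun q => {q : (E₁ × E₂) × ℂ | ε ^ 2 / 2 ≤ sq2 z₁ τ₀ q ∧ sq2 z₁ τ₀ q ≤ ε ^ 2}.indicator
      (fun _ => 16 * L ^ 2 / a) q * Real.exp (-phi0 w z₁ τ₀ a n ε δ q)) hε (by positivity) hg
    (by
      intro q hq hs
      have w0 := hw0 q hq
      have g0 : 0 < g q.1.2 := w0.trans_le (hwg q hq hs)
      by_cases h : q ∈ {q : (E₁ × E₂) × ℂ | ε ^ 2 / 2 ≤ sq2 z₁ τ₀ q ∧ sq2 z₁ τ₀ q ≤ ε ^ 2}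
      · have s0 := sq2_nonneg z₁ τ₀ q
        rw [indicator_of_mem h, exp_phi0 z₁ τ₀ a n hε hδ w0]
        have b1 : (sq2 z₁ τ₀ q + ε ^ 2) ^ (-a) ≤ (ε ^ 2) ^ (-a) :=
          Real.rpow_le_rpow_of_nonpos (by positivity) (by linarith) (by linarith)
        have b2 : (sq2 z₁ τ₀ q + δ ^ 2) ^ (-n) ≤ (ε ^ 2 / 2) ^ (-n) :=
          Real.rpow_le_rpow_of_nonpos (by positivity) (by nlinarith [h.1, sq_nonneg δ])
            (by linarith)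
        calc _ ≤ 16 * L ^ 2 / a * (g q.1.2 * ((ε ^ 2) ^ (-a) * (ε ^ 2 / 2) ^ (-n))) := by
              apply mul_le_mul_of_nonneg_left _ (by positivity)
              exact mul_le_mul (hwg q hq hs) (mul_le_mul b1 b2 (by positivity) (by positivity))
                (by positivity) g0.le
          _ = _ := by ring
      · rw [indicator_of_notMem h, zero_mul]; positivity)
    (by
      intro q _ hs
      rw [indicator_of_notMem (fun h => absurd h.2 (not_le.2 hs)), zero_mul])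
  refine (mul_le_mul_right h3 2).trans (le_of_eq ?_)
  rw [← mul_assoc, ← ENNReal.ofReal_ofNat 2, ← ENNReal.ofReal_mul (by norm_num)]
  congr 2
  have h4 := pow_aux (a := a) hε N
  rw [← hN]
  calc _ = 2 * (16 * L ^ 2 / a * ((ε ^ 2) ^ (-a) * (ε ^ 2 / 2) ^ (-((N : ℝ) / 2 + a)) * ε ^ N) *
        (v₁ (Metric.ball 0 1) * volume (Metric.ball (0 : ℂ) 1)).toReal) := by rw [hn]; ring
    _ = _ := by rw [h4, hn]; ring

/-- The value at the centre. -/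
theorem ext_value {r₁ r₂ a m : ℝ} (h₂ : 0 < r₂) (ha : 0 < a) (hm : 0 < m)
    {w : (E₁ × E₂) × ℂ → ℝ} (z₁ : E₁) (y₀ : E₂) (τ₀ : ℂ) {ε δ : ℝ} (hε : 0 < ε) (hδ : 0 < δ)
    (hδε : δ ≤ ε) (hy₀ : ‖y₀‖ ≤ r₂ / 2)
    (ht : ∀ (z : E₁) (y : E₂) (τ : ℂ), ‖z - z₁‖ ≤ ε → ‖y‖ < r₂ → ‖τ - τ₀‖ ≤ ε →
      ((z, y), τ) ∈ OO E₁ E₂ r₁ r₂ ∧ m ≤ w ((z, y), τ))
    {F : (E₁ × E₂) × ℂ → ℂ} (hF : DifferentiableOn ℂ F (OO E₁ E₂ r₁ r₂)) :
    ENNReal.ofReal (‖F ((z₁, y₀), τ₀) - 1‖ ^ 2 * (m * (2 * ε ^ 2) ^ (-a) *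
      2 ^ (-(3 * ((Module.finrank ℝ E₁ + 2 : ℕ) : ℝ) / 2 + a)) *
      (v₁ (Metric.ball 0 1) * v₂ (Metric.ball 0 (r₂ / 2)) * volume (Metric.ball (0 : ℂ) 1)).toReal *
      δ ^ (-(2 * a)))) ≤
      ∫⁻ q in OO E₁ E₂ r₁ r₂, ENNReal.ofReal (‖F q - cut0 z₁ τ₀ ε q‖ ^ 2 *
        Real.exp (-phi0 w z₁ τ₀ a (((Module.finrank ℝ E₁ + 2 : ℕ) : ℝ) / 2 + a) ε δ q))
          ∂((v₁.prod v₂).prod volume) := by
  have : FiniteDimensional ℝ E₁ := Module.Finite.trans ℂ E₁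
  have : FiniteDimensional ℝ E₂ := Module.Finite.trans ℂ E₂
  have := FiniteDimensional.proper_real E₁
  have := FiniteDimensional.proper_real E₂
  have := haar_prod3 v₁ v₂
  set N := Module.finrank ℝ E₁ + 2 with hN
  set n : ℝ := (N : ℝ) / 2 + a with hn
  have hn0 : 0 ≤ n := by positivity
  have hO := isOpen_OO (E₁ := E₁) (E₂ := E₂) r₁ r₂
  set B : Set ((E₁ × E₂) × ℂ) :=
    (Metric.ball 0 (δ / 2) ×ˢ Metric.ball 0 (r₂ / 2)) ×ˢ Metric.ball 0 (δ / 2) with hB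
  have hBm : MeasurableSet B := (measurableSet_ball.prod measurableSet_ball).prod measurableSet_ball
  set p : (E₁ × E₂) × ℂ := ((z₁, y₀), τ₀) with hp
  have key : ∀ y ∈ B, p + y ∈ OO E₁ E₂ r₁ r₂ ∧ m ≤ w (p + y) ∧ sq2 z₁ τ₀ (p + y) ≤ δ ^ 2 / 2 := by
    rintro ⟨⟨z, y⟩, τ⟩ ⟨⟨hz, hy⟩, hτ⟩
    simp only [mem_ball_zero_iff] at hz hy hτ
    have e1 : p + ((z, y), τ) = ((z₁ + z, y₀ + y), τ₀ + τ) := rfl
    have e2 := ht (z₁ + z) (y₀ + y) (τ₀ + τ) (by rw [add_sub_cancel_left]; linarith)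
      ((norm_add_le _ _).trans_lt (by linarith)) (by rw [add_sub_cancel_left]; linarith)
    rw [e1]
    refine ⟨e2.1, e2.2, ?_⟩
    unfold sq2
    simp only [add_sub_cancel_left]
    nlinarith [norm_nonneg z, norm_nonneg τ]
  have hbal : ∀ y ∈ B, ∀ c : ℂ, ‖c‖ ≤ 1 → c • y ∈ B := by
    rintro ⟨⟨z, y⟩, τ⟩ ⟨⟨hz, hy⟩, hτ⟩ c hc
    simp only [mem_ball_zero_iff] at hz hy hτ
    refine ⟨⟨mem_ball_zero_iff.2 ?_, mem_ball_zero_iff.2 ?_⟩, mem_ball_zero_iff.2 ?_⟩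
    · exact lt_of_le_of_lt ((norm_smul_le c z).trans (mul_le_of_le_one_left (norm_nonneg _) hc)) hz
    · exact lt_of_le_of_lt ((norm_smul_le c y).trans (mul_le_of_le_one_left (norm_nonneg _) hc)) hy
    · exact lt_of_le_of_lt ((norm_smul_le c τ).trans (mul_le_of_le_one_left (norm_nonneg _) hc)) hτ
  have mv := mv_two (vol := (v₁.prod v₂).prod volume) hO (hF.sub_const 1) hBm hbal (p := p)
    (fun y hy => (key y hy).1)
  set κ : ℝ := m * ((2 * ε ^ 2) ^ (-a) * (2 * δ ^ 2) ^ (-n)) with hκ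
  have hκ0 : 0 ≤ κ := by positivity
  set H : (E₁ × E₂) × ℂ → ℝ≥0∞ := fun q => ENNReal.ofReal (‖F q - cut0 z₁ τ₀ ε q‖ ^ 2 *
    Real.exp (-phi0 w z₁ τ₀ a n ε δ q)) with hH
  have vB : ((v₁.prod v₂).prod volume) B = ENNReal.ofReal ((δ / 2) ^ N) *
      (v₁ (Metric.ball 0 1) * v₂ (Metric.ball 0 (r₂ / 2)) * volume (Metric.ball (0 : ℂ) 1)) := by
    rw [hB, Measure.prod_prod, Measure.prod_prod,
      Measure.addHaar_ball_of_pos v₁ 0 (half_pos hδ),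
      Measure.addHaar_ball_of_pos volume (0 : ℂ) (half_pos hδ), hN, pow_add,
      ENNReal.ofReal_mul (by positivity), Complex.finrank_real_complex]
    ring
  have fin : v₁ (Metric.ball 0 1) * v₂ (Metric.ball 0 (r₂ / 2)) * volume (Metric.ball (0 : ℂ) 1)
      ≠ ⊤ := ENNReal.mul_ne_top (ENNReal.mul_ne_top measure_ball_lt_top.ne measure_ball_lt_top.ne)
        measure_ball_lt_top.ne
  calc _ = ENNReal.ofReal κ * (ENNReal.ofReal (‖F p - 1‖ ^ 2) * ((v₁.prod v₂).prod volume) B) := by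
        rw [vB]
        conv_rhs => rw [← ENNReal.ofReal_toReal fin]
        rw [← ENNReal.ofReal_mul (by positivity), ← ENNReal.ofReal_mul (by positivity),
          ← ENNReal.ofReal_mul hκ0]
        congr 1
        have h4 := pow_aux2 (a := a) hδ N
        rw [hκ, hn]
        linear_combination (-(‖F p - 1‖ ^ 2 * m * (2 * ε ^ 2) ^ (-a) *
          (v₁ (Metric.ball 0 1) * v₂ (Metric.ball 0 (r₂ / 2)) *
            volume (Metric.ball (0 : ℂ) 1)).toReal)) * h4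
    _ ≤ ENNReal.ofReal κ * ∫⁻ y in B, ENNReal.ofReal (‖F (p + y) - 1‖ ^ 2)
        ∂((v₁.prod v₂).prod volume) := mul_le_mul_right mv _
    _ = ∫⁻ y, B.indicator (fun y => ENNReal.ofReal κ * ENNReal.ofReal (‖F (p + y) - 1‖ ^ 2)) y
        ∂((v₁.prod v₂).prod volume) := by
        rw [lintegral_indicator hBm, lintegral_const_mul' _ _ ENNReal.ofReal_ne_top]
    _ ≤ ∫⁻ y, (OO E₁ E₂ r₁ r₂).indicator H (p + y) ∂((v₁.prod v₂).prod volume) := by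
        apply lintegral_mono
        intro y
        by_cases hy : y ∈ B
        · obtain ⟨k1, k2, k3⟩ := key y hy
          have s0 := sq2_nonneg z₁ τ₀ (p + y)
          have d2 : δ ^ 2 ≤ ε ^ 2 := pow_le_pow_left₀ hδ.le hδε 2
          have w0 : 0 < w (p + y) := hm.trans_le k2
          simp only [indicator_of_mem hy, indicator_of_mem k1, hH]
          rw [← ENNReal.ofReal_mul hκ0, cut0_one hε (by linarith), exp_phi0 z₁ τ₀ a n hε hδ w0,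
            mul_comm κ]
          apply ENNReal.ofReal_le_ofReal
          apply mul_le_mul_of_nonneg_left _ (by positivity)
          have b1 : (2 * ε ^ 2) ^ (-a) ≤ (sq2 z₁ τ₀ (p + y) + ε ^ 2) ^ (-a) :=
            Real.rpow_le_rpow_of_nonpos (by positivity) (by nlinarith [sq_nonneg δ]) (by linarith)
          have b2 : (2 * δ ^ 2) ^ (-n) ≤ (sq2 z₁ τ₀ (p + y) + δ ^ 2) ^ (-n) :=
            Real.rpow_le_rpow_of_nonpos (by positivity) (by nlinarith [sq_nonneg δ]) (by linarith)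
          exact mul_le_mul k2 (mul_le_mul b1 b2 (by positivity) (by positivity)) (by positivity)
            w0.le
        · simp only [indicator_of_notMem hy]; exact zero_le
    _ = _ := by
        rw [lintegral_add_left_eq_self (fun q => (OO E₁ E₂ r₁ r₂).indicator H q) p,
          lintegral_indicator hO.measurableSet]

/-- The norm of F. -/
theorem ext_norm {r₁ r₂ a n : ℝ} (ha : 0 < a) (hn : 0 ≤ n) {w : (E₁ × E₂) × ℂ → ℝ} {g : E₂ → ℝ}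
    (z₁ : E₁) (τ₀ : ℂ) {ε δ : ℝ} (hε : 0 < ε) (hδ : 0 < δ) (hε1 : ε ≤ 1) (hδ1 : δ ≤ 1)
    (hz₁ : ‖z₁‖ ≤ r₁) (hτ₀ : ‖τ₀‖ ≤ 1)
    (hw : ContDiffOn ℝ ∞ (fun q => -Real.log (w q)) (OO E₁ E₂ r₁ r₂))
    (hw0 : ∀ q ∈ OO E₁ E₂ r₁ r₂, 0 < w q) (hg : ContinuousOn g (Metric.ball 0 r₂))
    (hwg : ∀ q ∈ OO E₁ E₂ r₁ r₂, sq2 z₁ τ₀ q ≤ ε ^ 2 → w q ≤ g q.1.2) (F : (E₁ × E₂) × ℂ → ℂ) :
    ∫⁻ q in OO E₁ E₂ r₁ r₂, ENNReal.ofReal (‖F q‖ ^ 2 * w q) ∂((v₁.prod v₂).prod volume) ≤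
      ENNReal.ofReal (2 * ((4 * r₁ ^ 2 + 5) ^ a * (4 * r₁ ^ 2 + 5) ^ n)) *
        ∫⁻ q in OO E₁ E₂ r₁ r₂, ENNReal.ofReal (‖F q - cut0 z₁ τ₀ ε q‖ ^ 2 *
          Real.exp (-phi0 w z₁ τ₀ a n ε δ q)) ∂((v₁.prod v₂).prod volume) +
      ENNReal.ofReal (2 * ε ^ (Module.finrank ℝ E₁ + 2) *
        (v₁ (Metric.ball 0 1) * volume (Metric.ball (0 : ℂ) 1)).toReal) *
        ∫⁻ y in Metric.ball 0 r₂, ENNReal.ofReal (g y) ∂v₂ := by
  have hO := isOpen_OO (E₁ := E₁) (E₂ := E₂) r₁ r₂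
  have hwc : ContinuousOn w (OO E₁ E₂ r₁ r₂) := by
    refine (Real.continuous_exp.comp_continuousOn hw.continuousOn.neg).congr fun q hq => ?_
    simp [Real.exp_log (hw0 q hq)]
  have hc : ContinuousOn (fun q => 2 * ‖(cut0 z₁ τ₀ ε q : ℂ)‖ ^ 2 * w q) (OO E₁ E₂ r₁ r₂) :=
    (continuous_const.mul ((continuous_ofReal.comp
      (cut0_contDiff z₁ τ₀ ε).continuous).norm.pow 2)).continuousOn.mul hwc
  have h1 := tube_le v₁ v₂ z₁ τ₀ (r₁ := r₁) (K := 2)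
    (h := fun q => 2 * ‖(cut0 z₁ τ₀ ε q : ℂ)‖ ^ 2 * w q) hε zero_le_two hg
    (fun q hq hs => by
      have := cut0_sq_le z₁ τ₀ ε q
      have := hwg q hq hs
      have := hw0 q hq
      nlinarith)
    (fun q _ hs => by rw [cut0_zero hε hs.le]; simp)
  set D : ℝ := 4 * r₁ ^ 2 + 5 with hD
  refine le_trans ?_ (add_le_add le_rfl h1)
  rw [← lintegral_const_mul' _ _ ENNReal.ofReal_ne_top,
    ← lintegral_add_right' _ (hc.aemeasurable hO.measurableSet).ennreal_ofReal]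
  apply setLIntegral_mono' hO.measurableSet
  intro q hq
  have w0 := hw0 q hq
  have s0 := sq2_nonneg z₁ τ₀ q
  have D0 : 0 < D := by positivity
  have s1 : sq2 z₁ τ₀ q + 1 ≤ D := by
    have b1 : ‖q.1.1 - z₁‖ ≤ 2 * r₁ := by
      have := mem_ball_zero_iff.1 hq.1.1
      linarith [norm_sub_le q.1.1 z₁]
    have b2 : ‖q.2 - τ₀‖ ≤ 2 := by
      have := mem_ball_zero_iff.1 hq.2.1
      linarith [norm_sub_le q.2 τ₀]
    have := pow_le_pow_left₀ (norm_nonneg _) b1 2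
    have := pow_le_pow_left₀ (norm_nonneg _) b2 2
    unfold sq2; nlinarith
  have e2 : ε ^ 2 ≤ 1 := pow_le_one₀ hε.le hε1
  have d2 : δ ^ 2 ≤ 1 := pow_le_one₀ hδ.le hδ1
  have b1 : 1 ≤ D ^ a * (sq2 z₁ τ₀ q + ε ^ 2) ^ (-a) := by
    rw [Real.rpow_neg (by positivity), ← div_eq_mul_inv, one_le_div (by positivity)]
    exact Real.rpow_le_rpow (by positivity) (by linarith) ha.le
  have b2 : 1 ≤ D ^ n * (sq2 z₁ τ₀ q + δ ^ 2) ^ (-n) := by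
    rw [Real.rpow_neg (by positivity), ← div_eq_mul_inv, one_le_div (by positivity)]
    exact Real.rpow_le_rpow (by positivity) (by linarith) hn
  have b3 : w q ≤ D ^ a * D ^ n * Real.exp (-phi0 w z₁ τ₀ a n ε δ q) := by
    rw [exp_phi0 z₁ τ₀ a n hε hδ w0]
    have := mul_le_mul_of_nonneg_left (one_le_mul_of_one_le_of_one_le b1 b2) w0.le
    linarith
  rw [← ENNReal.ofReal_mul (by positivity), ← ENNReal.ofReal_add (by positivity) (by positivity)]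
  apply ENNReal.ofReal_le_ofReal
  have b4 := normSq_add_le (F q - cut0 z₁ τ₀ ε q) (cut0 z₁ τ₀ ε q) one_pos
  rw [sub_add_cancel, inv_one] at b4
  have b5 := mul_le_mul_of_nonneg_right b4 w0.le
  have b6 := mul_le_mul_of_nonneg_left b3 (sq_nonneg ‖F q - cut0 z₁ τ₀ ε q‖)
  nlinarith

theorem exists_small {a ε x : ℝ} (ha : 0 < a) (hε : 0 < ε) (hx : 0 < x) :
    ∃ δ : ℝ, 0 < δ ∧ δ ≤ ε ∧ δ ^ (2 * a) ≤ x := by
  refine ⟨min ε (x ^ (2 * a)⁻¹), by positivity, min_le_left _ _, ?_⟩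
  calc _ ≤ (x ^ (2 * a)⁻¹) ^ (2 * a) :=
        Real.rpow_le_rpow (by positivity) (min_le_right _ _) (by positivity)
    _ = x := Real.rpow_inv_rpow hx.le (by positivity)

/-- The abstract extension step. w > 0 is a weight on OO with -log w smooth and plurisubharmonic,
w ≤ g(y) on the tube T = {|z - z₁| ≤ ε, |τ - τ₀| ≤ ε} ⊆ OO and w ≥ m > 0 there. Let
n = finrank E₁ + 1, s = |z - z₁|² + |τ - τ₀|², φ = -log w + a log (s + ε²) + (n + a) log (s + δ²),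
f = smoothTransition (2 - 2 s / ε²), A = (4 L² / a) on {ε²/2 ≤ s ≤ ε²}, 0 elsewhere, where
|db f ξ|² ≤ L² (|ξ₁|² + |ξ₃|²) / ε² (kl_bar, dzr_comp; f is locally constant off that set).
hormander_open (kl_exh): ∫ |F - f|² exp (-φ) ≤ 2 ∫ A exp (-φ) ≤ C ε^(-4a) ∫ g (Tonelli, volume of
balls: Measure.addHaar_closedBall), uniformly in 0 < δ ≤ ε/2. On OO s + 1 ≤ D(r₁), so
w ≤ D^(n+2) exp (-φ). F - f = F - 1 is holomorphic on OO ∩ {s < ε²/2}; mv_two with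
B = ball (δ/2) × ball (r₂/2) × ball (δ/2) gives |F - 1|² ≤ C' δ^(2a) at the centre, C' independent
of δ; choose δ small. -/
theorem kl_ext0 {r₁ r₂ a : ℝ} (h₁ : 0 < r₁) (h₂ : 0 < r₂) (ha : 0 < a) (ha1 : a ≤ 1) :
    ∃ C : ℝ, 0 < C ∧ ∀ (w : (E₁ × E₂) × ℂ → ℝ) (g : E₂ → ℝ) (z₁ : E₁) (y₀ : E₂) (τ₀ : ℂ) (ε m : ℝ),
      ContDiffOn ℝ ∞ (fun q => -Real.log (w q)) (OO E₁ E₂ r₁ r₂) →
      (∀ q ∈ OO E₁ E₂ r₁ r₂, 0 < w q) →
      (∀ q ∈ OO E₁ E₂ r₁ r₂, ∀ ξ, 0 ≤ levi (fun q => -Real.log (w q)) q ξ) →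
      0 < ε → ε ≤ 1 → 0 < m → ‖z₁‖ ≤ r₁ → ‖τ₀‖ ≤ 1 → ‖y₀‖ ≤ r₂ / 2 →
      ContinuousOn g (Metric.ball 0 r₂) →
      (∀ (z : E₁) (y : E₂) (τ : ℂ), ‖z - z₁‖ ≤ ε → ‖y‖ < r₂ → ‖τ - τ₀‖ ≤ ε →
        ((z, y), τ) ∈ OO E₁ E₂ r₁ r₂ ∧ m ≤ w ((z, y), τ) ∧ w ((z, y), τ) ≤ g y) →
      ∫⁻ y in Metric.ball 0 r₂, ENNReal.ofReal (g y) ∂v₂ ≠ ⊤ →
      ∃ F : (E₁ × E₂) × ℂ → ℂ, DifferentiableOn ℂ F (OO E₁ E₂ r₁ r₂) ∧
        1 / 2 ≤ ‖F ((z₁, y₀), τ₀)‖ ∧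
        ∫⁻ q in OO E₁ E₂ r₁ r₂, ENNReal.ofReal (‖F q‖ ^ 2 * w q) ∂((v₁.prod v₂).prod volume) ≤
          ENNReal.ofReal (C * ε ^ (-4 * a)) *
            ∫⁻ y in Metric.ball 0 r₂, ENNReal.ofReal (g y) ∂v₂ := by
  have : FiniteDimensional ℝ E₁ := Module.Finite.trans ℂ E₁
  have : FiniteDimensional ℝ E₂ := Module.Finite.trans ℂ E₂
  have := FiniteDimensional.proper_real E₁
  have := FiniteDimensional.proper_real E₂
  obtain ⟨L, L0, hL⟩ := st_deriv_bdd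
  set n : ℝ := ((Module.finrank ℝ E₁ + 2 : ℕ) : ℝ) / 2 + a with hn
  have hn0 : 0 ≤ n := by positivity
  set c : ℝ := (v₁ (Metric.ball 0 1) * volume (Metric.ball (0 : ℂ) 1)).toReal with hc
  have c0 : 0 ≤ c := ENNReal.toReal_nonneg
  set C₁ : ℝ := 2 * (16 * L ^ 2 / a * 2 ^ n * c) with hC₁
  have C₁0 : 0 ≤ C₁ := by positivity
  set D : ℝ := 2 * ((4 * r₁ ^ 2 + 5) ^ a * (4 * r₁ ^ 2 + 5) ^ n) with hD
  have D0 : 0 ≤ D := by positivity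
  refine ⟨D * C₁ + 2 * c + 1, by positivity, ?_⟩
  intro w g z₁ y₀ τ₀ ε m hw hw0 hp hε hε1 hm hz₁ hτ₀ hy₀ hg ht hG
  have hwg : ∀ q ∈ OO E₁ E₂ r₁ r₂, sq2 z₁ τ₀ q ≤ ε ^ 2 → w q ≤ g q.1.2 := fun q hq hs =>
    (ht q.1.1 q.1.2 q.2 (sq2_le hε hs).1 (mem_ball_zero_iff.1 hq.1.2) (sq2_le hε hs).2).2.2
  set G := ∫⁻ y in Metric.ball 0 r₂, ENNReal.ofReal (g y) ∂v₂ with hGd
  set κ : ℝ := m * (2 * ε ^ 2) ^ (-a) *
    2 ^ (-(3 * ((Module.finrank ℝ E₁ + 2 : ℕ) : ℝ) / 2 + a)) *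
    (v₁ (Metric.ball 0 1) * v₂ (Metric.ball 0 (r₂ / 2)) * volume (Metric.ball (0 : ℂ) 1)).toReal
    with hκ
  have κ0 : 0 < κ := by
    have : 0 < (v₁ (Metric.ball 0 1) * v₂ (Metric.ball 0 (r₂ / 2)) *
        volume (Metric.ball (0 : ℂ) 1)).toReal := by
      apply ENNReal.toReal_pos
      · exact mul_ne_zero (mul_ne_zero (Metric.measure_ball_pos _ _ one_pos).ne'
          (Metric.measure_ball_pos _ _ (half_pos h₂)).ne') (Metric.measure_ball_pos _ _ one_pos).ne'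
      · exact ENNReal.mul_ne_top (ENNReal.mul_ne_top measure_ball_lt_top.ne measure_ball_lt_top.ne)
          measure_ball_lt_top.ne
    positivity
  set M : ℝ := C₁ * ε ^ (-4 * a) * G.toReal with hM
  have M0 : 0 ≤ M := by positivity
  obtain ⟨δ, hδ, hδε, hδx⟩ := exists_small ha hε (x := κ / (4 * (M + 1))) (by positivity)
  obtain ⟨F, F1, F2⟩ := ext_solve v₁ v₂ h₁ h₂ ha hL z₁ τ₀ hε hδ hw hw0 hp hg hwg hG
  refine ⟨F, F1, ?_, ?_⟩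
  · have h1 := (ext_value v₁ v₂ h₂ ha hm z₁ y₀ τ₀ hε hδ hδε hy₀
      (fun z y τ a1 a2 a3 => ⟨(ht z y τ a1 a2 a3).1, (ht z y τ a1 a2 a3).2.1⟩) F1).trans F2
    rw [← hGd, ← ENNReal.ofReal_toReal hG, ← ENNReal.ofReal_mul (by positivity),
      ENNReal.ofReal_le_ofReal_iff (by positivity)] at h1
    have h2 : ‖F ((z₁, y₀), τ₀) - 1‖ ^ 2 * (κ * δ ^ (-(2 * a))) ≤ M := h1
    have h3 : 0 < δ ^ (2 * a) := by positivity
    rw [Real.rpow_neg hδ.le, ← mul_assoc, ← div_eq_mul_inv, div_le_iff₀ h3] at h2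
    rw [le_div_iff₀ (by positivity)] at hδx
    have h4 : ‖F ((z₁, y₀), τ₀) - 1‖ ^ 2 ≤ (1 / 2) ^ 2 := by
      by_contra h5
      have := mul_lt_mul_of_pos_right (not_le.1 h5) κ0
      nlinarith
    have h5 := (pow_le_pow_iff_left₀ (norm_nonneg _) (by norm_num) two_ne_zero).1 h4
    have h6 := norm_sub_norm_le (1 : ℂ) (F ((z₁, y₀), τ₀))
    rw [norm_sub_rev, norm_one] at h6
    linarith
  · refine (ext_norm v₁ v₂ ha hn0 z₁ τ₀ hε hδ hε1 (hδε.trans hε1) hz₁ hτ₀ hw hw0 hg hwg F).trans ?_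
    refine (add_le_add (mul_le_mul_right F2 _) le_rfl).trans ?_
    rw [← hGd, ← mul_assoc, ← add_mul, ← ENNReal.ofReal_mul D0,
      ← ENNReal.ofReal_add (by positivity) (by positivity)]
    apply mul_le_mul_left
    apply ENNReal.ofReal_le_ofReal
    have e1 : 1 ≤ ε ^ (-4 * a) := Real.one_le_rpow_of_pos_of_le_one_of_nonpos hε hε1 (by linarith)
    have e2 : ε ^ (Module.finrank ℝ E₁ + 2) ≤ 1 := pow_le_one₀ hε.le hε1
    have e3 := mul_le_mul_of_nonneg_left (e2.trans e1) c0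
    change D * (C₁ * ε ^ (-4 * a)) + 2 * ε ^ (Module.finrank ℝ E₁ + 2) * c ≤ _
    nlinarith

end

end Fuj
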