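import Vale.Agent.P271.HKLa

/-! Key lemma: the cutoff, the weight and the tube integrals. -/

namespace Fuj

open MeasureTheory Set Filter Topology Complex
open scoped ENNReal ContDiff ComplexConjugate

noncomputable section

theorem st_hasDerivAt (x : ℝ) :
    HasDerivAt Real.smoothTransition (deriv Real.smoothTransition x) x :=
  ((Real.smoothTransition.contDiff (n := 1)).differentiable (by simp) x).hasDerivAt

theorem st_deriv_neg {x : ℝ} (h : x < 0) : deriv Real.smoothTransition x = 0 := by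
  have : Real.smoothTransition =ᶠ[𝓝 x] fun _ => 0 := by
    filter_upwards [Iio_mem_nhds h] with y hy using Real.smoothTransition.zero_of_nonpos (le_of_lt hy)
  rw [this.deriv_eq]; simp

theorem st_deriv_gt {x : ℝ} (h : 1 < x) : deriv Real.smoothTransition x = 0 := by
  have : Real.smoothTransition =ᶠ[𝓝 x] fun _ => 1 := by
    filter_upwards [Ioi_mem_nhds h] with y hy using Real.smoothTransition.one_of_one_le (le_of_lt hy)
  rw [this.deriv_eq]; simp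

theorem st_deriv_bdd : ∃ L : ℝ, 0 < L ∧ ∀ x, |deriv Real.smoothTransition x| ≤ L := by
  have hc : Continuous (deriv Real.smoothTransition) :=
    (Real.smoothTransition.contDiff (n := 1)).continuous_deriv (by simp)
  obtain ⟨C, hC⟩ := (isCompact_Icc (a := (0 : ℝ)) (b := 1)).exists_bound_of_continuousOn
    hc.continuousOn
  refine ⟨|C| + 1, by positivity, fun x => ?_⟩
  by_cases h0 : x < 0
  · rw [st_deriv_neg h0]; simp; positivity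
  by_cases h1 : 1 < x
  · rw [st_deriv_gt h1]; simp; positivity
  have := hC x ⟨not_lt.1 h0, not_lt.1 h1⟩
  rw [Real.norm_eq_abs] at this
  linarith [le_abs_self C]

variable {E₁ E₂ : Type} [NormedAddCommGroup E₁] [NormedSpace ℝ E₁] [InnerProductSpace ℂ E₁]
  [IsScalarTower ℝ ℂ E₁] [FiniteDimensional ℂ E₁] [MeasurableSpace E₁] [BorelSpace E₁]
  [NormedAddCommGroup E₂] [NormedSpace ℝ E₂] [InnerProductSpace ℂ E₂]
  [IsScalarTower ℝ ℂ E₂] [FiniteDimensional ℂ E₂] [MeasurableSpace E₂] [BorelSpace E₂]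
  [SecondCountableTopology E₁] [SecondCountableTopology E₂]
  (v₁ : Measure E₁) [v₁.IsAddHaarMeasure] (v₂ : Measure E₂) [v₂.IsAddHaarMeasure]

/-- Squared distance to the slice. -/
def sq2 {E₁ E₂ : Type} [NormedAddCommGroup E₁] (z₁ : E₁) (τ₀ : ℂ) (q : (E₁ × E₂) × ℂ) : ℝ :=
  ‖q.1.1 - z₁‖ ^ 2 + ‖q.2 - τ₀‖ ^ 2

/-- The cutoff. -/
def cut0 {E₁ E₂ : Type} [NormedAddCommGroup E₁] (z₁ : E₁) (τ₀ : ℂ) (ε : ℝ) (q : (E₁ × E₂) × ℂ) :
    ℝ := Real.smoothTransition (2 - 2 / ε ^ 2 * sq2 z₁ τ₀ q)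

/-- The weight. -/
def phi0 {E₁ E₂ : Type} [NormedAddCommGroup E₁] (w : (E₁ × E₂) × ℂ → ℝ) (z₁ : E₁) (τ₀ : ℂ)
    (a n ε δ : ℝ) (q : (E₁ × E₂) × ℂ) : ℝ :=
  -Real.log (w q) + (a * Real.log (sq2 z₁ τ₀ q + ε ^ 2) + n * Real.log (sq2 z₁ τ₀ q + δ ^ 2))

theorem sq2_nonneg {E₁ E₂ : Type} [NormedAddCommGroup E₁] (z₁ : E₁) (τ₀ : ℂ)
    (q : (E₁ × E₂) × ℂ) : 0 ≤ sq2 z₁ τ₀ q := by unfold sq2; positivity

theorem sq2_contDiff (z₁ : E₁) (τ₀ : ℂ) : ContDiff ℝ ∞ (sq2 (E₂ := E₂) z₁ τ₀) :=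
  (kl_bar (E₂ := E₂) z₁ τ₀).2.1

theorem cut0_contDiff (z₁ : E₁) (τ₀ : ℂ) (ε : ℝ) : ContDiff ℝ ∞ (cut0 (E₂ := E₂) z₁ τ₀ ε) :=
  Real.smoothTransition.contDiff.comp
    (contDiff_const.sub (contDiff_const.mul (sq2_contDiff z₁ τ₀)))

theorem cut0_one {E₁ E₂ : Type} [NormedAddCommGroup E₁] {z₁ : E₁} {τ₀ : ℂ} {ε : ℝ} (hε : 0 < ε)
    {q : (E₁ × E₂) × ℂ} (h : sq2 z₁ τ₀ q ≤ ε ^ 2 / 2) : cut0 z₁ τ₀ ε q = 1 := by
  apply Real.smoothTransition.one_of_one_le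
  have : 2 / ε ^ 2 * sq2 z₁ τ₀ q ≤ 1 := by
    rw [div_mul_eq_mul_div, div_le_one (by positivity)]; linarith
  linarith

theorem cut0_zero {E₁ E₂ : Type} [NormedAddCommGroup E₁] {z₁ : E₁} {τ₀ : ℂ} {ε : ℝ} (hε : 0 < ε)
    {q : (E₁ × E₂) × ℂ} (h : ε ^ 2 ≤ sq2 z₁ τ₀ q) : cut0 z₁ τ₀ ε q = 0 := by
  apply Real.smoothTransition.zero_of_nonpos
  have : 2 ≤ 2 / ε ^ 2 * sq2 z₁ τ₀ q := by
    rw [div_mul_eq_mul_div, le_div_iff₀ (by positivity)]; linarith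
  linarith

theorem cut0_db (z₁ : E₁) (τ₀ : ℂ) (ε : ℝ) (q ξ : (E₁ × E₂) × ℂ) :
    ‖db (fun y => (cut0 z₁ τ₀ ε y : ℂ)) q ξ‖ ^ 2 =
      (deriv Real.smoothTransition (2 - 2 / ε ^ 2 * sq2 z₁ τ₀ q)) ^ 2 * (2 / ε ^ 2) ^ 2 *
        ‖dzr (sq2 z₁ τ₀) q ξ‖ ^ 2 := by
  have hd : DifferentiableAt ℝ (sq2 (E₂ := E₂) z₁ τ₀) q :=
    (sq2_contDiff z₁ τ₀).differentiable (by simp) q
  have h1 : HasDerivAt (fun s : ℝ => Real.smoothTransition (2 - 2 / ε ^ 2 * s))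
      (deriv Real.smoothTransition (2 - 2 / ε ^ 2 * sq2 z₁ τ₀ q) * (-(2 / ε ^ 2)))
      (sq2 z₁ τ₀ q) := by
    have h2 : HasDerivAt (fun s : ℝ => 2 - 2 / ε ^ 2 * s) (-(2 / ε ^ 2)) (sq2 z₁ τ₀ q) := by
      simpa using ((hasDerivAt_id (sq2 z₁ τ₀ q)).const_mul (2 / ε ^ 2)).const_sub 2
    exact (st_hasDerivAt _).comp _ h2
  have h3 := dzr_comp hd h1 ξ
  rw [db_ofReal, Complex.norm_conj]
  have h4 : dzr (cut0 z₁ τ₀ ε) q ξ = _ := h3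
  rw [h4, norm_mul, mul_pow, Complex.norm_real, Real.norm_eq_abs, sq_abs]
  ring

theorem phi0_contDiffOn {w : (E₁ × E₂) × ℂ → ℝ} {U : Set ((E₁ × E₂) × ℂ)}
    (hw : ContDiffOn ℝ ∞ (fun q => -Real.log (w q)) U) (z₁ : E₁) (τ₀ : ℂ) (a n : ℝ) {ε δ : ℝ}
    (hε : 0 < ε) (hδ : 0 < δ) : ContDiffOn ℝ ∞ (phi0 w z₁ τ₀ a n ε δ) U :=
  hw.add ((contDiff_const.mul ((kl_bar (E₂ := E₂) z₁ τ₀).1 (ε ^ 2) (by positivity)).1).add
    (contDiff_const.mul ((kl_bar (E₂ := E₂) z₁ τ₀).1 (δ ^ 2) (by positivity)).1)).contDiffOn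

theorem phi0_levi {w : (E₁ × E₂) × ℂ → ℝ} {U : Set ((E₁ × E₂) × ℂ)} (hU : IsOpen U)
    (hw : ContDiffOn ℝ ∞ (fun q => -Real.log (w q)) U)
    (hp : ∀ q ∈ U, ∀ ξ, 0 ≤ levi (fun q => -Real.log (w q)) q ξ) (z₁ : E₁) (τ₀ : ℂ) {a n : ℝ}
    (ha : 0 ≤ a) (hn : 0 ≤ n) {ε δ : ℝ} (hε : 0 < ε) (hδ : 0 < δ) {q : (E₁ × E₂) × ℂ}
    (hq : q ∈ U) (ξ : (E₁ × E₂) × ℂ) :
    a * (ε ^ 2 * (‖ξ.1.1‖ ^ 2 + ‖ξ.2‖ ^ 2) / (sq2 z₁ τ₀ q + ε ^ 2) ^ 2) ≤
      levi (phi0 w z₁ τ₀ a n ε δ) q ξ := by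
  have two : (2 : WithTop ℕ∞) ≤ ((⊤ : ℕ∞) : WithTop ℕ∞) := WithTop.coe_le_coe.2 le_top
  obtain ⟨e1, e2⟩ := (kl_bar (E₂ := E₂) z₁ τ₀).1 (ε ^ 2) (by positivity)
  obtain ⟨d1, d2⟩ := (kl_bar (E₂ := E₂) z₁ τ₀).1 (δ ^ 2) (by positivity)
  have c0 : ContDiffAt ℝ 2 (fun q => -Real.log (w q)) q :=
    (hw.contDiffAt (hU.mem_nhds hq)).of_le two
  have c1 : ContDiffAt ℝ 2 (fun q : (E₁ × E₂) × ℂ => Real.log (sq2 z₁ τ₀ q + ε ^ 2)) q :=
    e1.contDiffAt.of_le two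
  have c2 : ContDiffAt ℝ 2 (fun q : (E₁ × E₂) × ℂ => Real.log (sq2 z₁ τ₀ q + δ ^ 2)) q :=
    d1.contDiffAt.of_le two
  have h1 := levi_add c0 ((contDiffAt_const (c := a).mul c1).add (contDiffAt_const (c := n).mul c2)) ξ
  have h2 := levi_add (contDiffAt_const (c := a).mul c1) (contDiffAt_const (c := n).mul c2) ξ
  have h3 := levi_const_mul c1 a ξ
  have h4 := levi_const_mul c2 n ξ
  have h5 : levi (phi0 w z₁ τ₀ a n ε δ) q ξ = _ := h1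
  rw [h5, h2, h3, h4]
  have h6 : ε ^ 2 * (‖ξ.1.1‖ ^ 2 + ‖ξ.2‖ ^ 2) / (sq2 z₁ τ₀ q + ε ^ 2) ^ 2 ≤
      levi (fun q : (E₁ × E₂) × ℂ => Real.log (sq2 z₁ τ₀ q + ε ^ 2)) q ξ := e2 q ξ
  have h7 : 0 ≤ levi (fun q : (E₁ × E₂) × ℂ => Real.log (sq2 z₁ τ₀ q + δ ^ 2)) q ξ :=
    le_trans (by positivity) (d2 q ξ)
  have h8 := hp q hq ξ
  have := mul_le_mul_of_nonneg_left h6 ha
  have := mul_nonneg hn h7
  linarith

theorem exp_phi0 {E₁ E₂ : Type} [NormedAddCommGroup E₁] {w : (E₁ × E₂) × ℂ → ℝ} (z₁ : E₁) (τ₀ : ℂ)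
    (a n : ℝ) {ε δ : ℝ} (hε : 0 < ε) (hδ : 0 < δ) {q : (E₁ × E₂) × ℂ} (hq : 0 < w q) :
    Real.exp (-phi0 w z₁ τ₀ a n ε δ q) =
      w q * ((sq2 z₁ τ₀ q + ε ^ 2) ^ (-a) * (sq2 z₁ τ₀ q + δ ^ 2) ^ (-n)) := by
  have := sq2_nonneg z₁ τ₀ q
  rw [Real.rpow_def_of_pos (by positivity), Real.rpow_def_of_pos (by positivity), ← Real.exp_add]
  conv_rhs => rw [← Real.exp_log hq, ← Real.exp_add]
  unfold phi0
  congr 1; ring

/-- The cutoff is dominated by the Levi form of the weight. -/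
theorem cut0_le {w : (E₁ × E₂) × ℂ → ℝ} {U : Set ((E₁ × E₂) × ℂ)} (hU : IsOpen U)
    (hw : ContDiffOn ℝ ∞ (fun q => -Real.log (w q)) U)
    (hp : ∀ q ∈ U, ∀ ξ, 0 ≤ levi (fun q => -Real.log (w q)) q ξ) (z₁ : E₁) (τ₀ : ℂ) {a n : ℝ}
    (ha : 0 < a) (hn : 0 ≤ n) {ε δ : ℝ} (hε : 0 < ε) (hδ : 0 < δ) {L : ℝ}
    (hL : ∀ x, |deriv Real.smoothTransition x| ≤ L) {q : (E₁ × E₂) × ℂ}
    (hq : q ∈ U) (ξ : (E₁ × E₂) × ℂ) :
    ‖db (fun y => (cut0 z₁ τ₀ ε y : ℂ)) q ξ‖ ^ 2 ≤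
      {q | ε ^ 2 / 2 ≤ sq2 z₁ τ₀ q ∧ sq2 z₁ τ₀ q ≤ ε ^ 2}.indicator (fun _ => 16 * L ^ 2 / a) q *
        levi (phi0 w z₁ τ₀ a n ε δ) q ξ := by
  rw [cut0_db]
  have hs := sq2_nonneg z₁ τ₀ q
  by_cases h : q ∈ {q | ε ^ 2 / 2 ≤ sq2 z₁ τ₀ q ∧ sq2 z₁ τ₀ q ≤ ε ^ 2}
  · rw [indicator_of_mem h]
    obtain ⟨h1, h2⟩ := h
    have h3 := phi0_levi hU hw hp z₁ τ₀ ha.le hn hε hδ hq ξ
    have h4 : ‖dzr (sq2 z₁ τ₀) q ξ‖ ^ 2 ≤ sq2 z₁ τ₀ q * (‖ξ.1.1‖ ^ 2 + ‖ξ.2‖ ^ 2) :=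
      (kl_bar (E₂ := E₂) z₁ τ₀).2.2 q ξ
    set N := ‖ξ.1.1‖ ^ 2 + ‖ξ.2‖ ^ 2 with hN
    have hN0 : 0 ≤ N := by positivity
    set s := sq2 z₁ τ₀ q
    have h5 : (deriv Real.smoothTransition (2 - 2 / ε ^ 2 * s)) ^ 2 ≤ L ^ 2 := by
      rw [← sq_abs]; exact pow_le_pow_left₀ (abs_nonneg _) (hL _) 2
    have h6 : ε ^ 2 * N / (2 * ε ^ 2) ^ 2 ≤ ε ^ 2 * N / (s + ε ^ 2) ^ 2 := by
      apply div_le_div_of_nonneg_left (by positivity) (by positivity)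
      exact pow_le_pow_left₀ (by positivity) (by linarith) 2
    calc _ ≤ L ^ 2 * (2 / ε ^ 2) ^ 2 * (ε ^ 2 * N) := by
          apply mul_le_mul (mul_le_mul_of_nonneg_right h5 (by positivity))
            (h4.trans (mul_le_mul_of_nonneg_right h2 hN0)) (by positivity) (by positivity)
      _ = 16 * L ^ 2 / a * (a * (ε ^ 2 * N / (2 * ε ^ 2) ^ 2)) := by field_simp; ring
      _ ≤ _ := by
          apply mul_le_mul_of_nonneg_left _ (by positivity)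
          exact (mul_le_mul_of_nonneg_left h6 ha.le).trans h3
  · rw [indicator_of_notMem h, zero_mul]
    have : deriv Real.smoothTransition (2 - 2 / ε ^ 2 * sq2 z₁ τ₀ q) = 0 := by
      simp only [mem_ofPred_eq, not_and_or, not_le] at h
      rcases h with h | h
      · apply st_deriv_gt
        have : 2 / ε ^ 2 * sq2 z₁ τ₀ q < 1 := by
          rw [div_mul_eq_mul_div, div_lt_one (by positivity)]; linarith
        linarith
      · apply st_deriv_neg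
        have : 2 < 2 / ε ^ 2 * sq2 z₁ τ₀ q := by
          rw [div_mul_eq_mul_div, lt_div_iff₀ (by positivity)]; linarith
        linarith
    rw [this]; simp

theorem haar_prod2 : (v₁.prod v₂).IsAddHaarMeasure := by
  have : FiniteDimensional ℝ E₁ := Module.Finite.trans ℂ E₁
  have : FiniteDimensional ℝ E₂ := Module.Finite.trans ℂ E₂
  have := FiniteDimensional.proper_real E₁
  have := FiniteDimensional.proper_real E₂
  exact Measure.prod.instIsAddHaarMeasure v₁ v₂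

theorem haar_prod3 : ((v₁.prod v₂).prod (volume : Measure ℂ)).IsAddHaarMeasure := by
  have : FiniteDimensional ℝ E₁ := Module.Finite.trans ℂ E₁
  have : FiniteDimensional ℝ E₂ := Module.Finite.trans ℂ E₂
  have := FiniteDimensional.proper_real E₁
  have := FiniteDimensional.proper_real E₂
  have := haar_prod2 v₁ v₂
  exact Measure.prod.instIsAddHaarMeasure _ _

/-- Integrals over the tube. -/
theorem tube_le (z₁ : E₁) (τ₀ : ℂ) {ε r₁ r₂ K : ℝ} (hε : 0 < ε) (hK : 0 ≤ K) {g : E₂ → ℝ}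
    (hg : ContinuousOn g (Metric.ball 0 r₂)) {h : (E₁ × E₂) × ℂ → ℝ}
    (h1 : ∀ q ∈ OO E₁ E₂ r₁ r₂, sq2 z₁ τ₀ q ≤ ε ^ 2 → h q ≤ K * g q.1.2)
    (h0 : ∀ q ∈ OO E₁ E₂ r₁ r₂, ε ^ 2 < sq2 z₁ τ₀ q → h q = 0) :
    ∫⁻ q in OO E₁ E₂ r₁ r₂, ENNReal.ofReal (h q) ∂((v₁.prod v₂).prod volume) ≤
      ENNReal.ofReal (K * ε ^ (Module.finrank ℝ E₁ + 2) *
        (v₁ (Metric.ball 0 1) * volume (Metric.ball (0 : ℂ) 1)).toReal) *
        ∫⁻ y in Metric.ball 0 r₂, ENNReal.ofReal (g y) ∂v₂ := by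
  have : FiniteDimensional ℝ E₁ := Module.Finite.trans ℂ E₁
  have : FiniteDimensional ℝ E₂ := Module.Finite.trans ℂ E₂
  have := FiniteDimensional.proper_real E₁
  have := FiniteDimensional.proper_real E₂
  set T : Set ((E₁ × E₂) × ℂ) :=
    (Metric.closedBall z₁ ε ×ˢ Metric.ball 0 r₂) ×ˢ Metric.closedBall τ₀ ε with hT
  have hTm : MeasurableSet T :=
    (measurableSet_closedBall.prod measurableSet_ball).prod measurableSet_closedBall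
  have hO : MeasurableSet (OO E₁ E₂ r₁ r₂) := (isOpen_OO r₁ r₂).measurableSet
  have hga : AEMeasurable (fun y => ENNReal.ofReal (g y)) (v₂.restrict (Metric.ball 0 r₂)) :=
    (hg.aemeasurable measurableSet_ball).ennreal_ofReal
  calc _ = ∫⁻ q, (OO E₁ E₂ r₁ r₂).indicator (fun q => ENNReal.ofReal (h q)) q
        ∂((v₁.prod v₂).prod volume) := (lintegral_indicator hO _).symm
    _ ≤ ∫⁻ q, T.indicator (fun q => (ENNReal.ofReal K * ENNReal.ofReal (g q.1.2)) * 1) q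
        ∂((v₁.prod v₂).prod volume) := by
        apply lintegral_mono
        intro q
        by_cases hq : q ∈ OO E₁ E₂ r₁ r₂
        · rw [indicator_of_mem hq]
          by_cases hs : sq2 z₁ τ₀ q ≤ ε ^ 2
          · have hqT : q ∈ T := by
              have a1 : ‖q.1.1 - z₁‖ ^ 2 ≤ ε ^ 2 := by
                unfold sq2 at hs; nlinarith [sq_nonneg ‖q.2 - τ₀‖]
              have a2 : ‖q.2 - τ₀‖ ^ 2 ≤ ε ^ 2 := by
                unfold sq2 at hs; nlinarith [sq_nonneg ‖q.1.1 - z₁‖]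
              exact ⟨⟨mem_closedBall_iff_norm.2 ((pow_le_pow_iff_left₀ (norm_nonneg _) hε.le two_ne_zero).1 a1), hq.1.2⟩,
                mem_closedBall_iff_norm.2 ((pow_le_pow_iff_left₀ (norm_nonneg _) hε.le two_ne_zero).1 a2)⟩
            rw [indicator_of_mem hqT, mul_one, ← ENNReal.ofReal_mul hK]
            exact ENNReal.ofReal_le_ofReal (h1 q hq hs)
          · rw [h0 q hq (not_le.1 hs)]; simp
        · rw [indicator_of_notMem hq]; exact zero_le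
    _ = (ENNReal.ofReal K * v₁ (Metric.closedBall z₁ ε) *
          ∫⁻ y in Metric.ball 0 r₂, ENNReal.ofReal (g y) ∂v₂) * volume (Metric.closedBall τ₀ ε) := by
        rw [lintegral_indicator hTm, hT, ← Measure.prod_restrict, ← Measure.prod_restrict,
          lintegral_prod_mul (f := fun p : E₁ × E₂ => ENNReal.ofReal K * ENNReal.ofReal (g p.2))
            (g := fun _ => 1) (hga.comp_snd.const_mul _) aemeasurable_const,
          lintegral_prod_mul (f := fun _ : E₁ => ENNReal.ofReal K)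
            (g := fun y => ENNReal.ofReal (g y)) aemeasurable_const hga]
        simp
    _ = _ := by
        have f1 : v₁ (Metric.ball 0 1) ≠ ⊤ := measure_ball_lt_top.ne
        have f2 : volume (Metric.ball (0 : ℂ) 1) ≠ ⊤ := measure_ball_lt_top.ne
        rw [Measure.addHaar_closedBall v₁ z₁ hε.le, Measure.addHaar_closedBall volume τ₀ hε.le,
          ENNReal.ofReal_mul (by positivity), ENNReal.ofReal_toReal (ENNReal.mul_ne_top f1 f2),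
          pow_add, ENNReal.ofReal_mul hK, ENNReal.ofReal_mul (by positivity),
          Complex.finrank_real_complex]
        ring

end

end Fuj
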