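import Vale.Agent.P271.HLaur0

/-! Laurent coefficients on the punctured disc. -/

namespace Fuj

open MeasureTheory Set Filter Topology Complex
open scoped ENNReal ContDiff ComplexConjugate

noncomputable section

namespace HLaur

theorem mem_circ {r : ℝ} (hr : r ∈ Ioo (0 : ℝ) 1) (θ : ℝ) :
    circleMap 0 r θ ∈ (Metric.ball 0 1 \ {0} : Set ℂ) :=
  ⟨by rw [mem_ball_zero_iff, norm_circleMap_zero, abs_of_pos hr.1]; exact hr.2,
    circleMap_ne_center hr.1.ne'⟩

theorem cs {u : ℝ → ℝ} (hu : Continuous u) :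
    (∫ θ in -Real.pi..Real.pi, u θ) ^ 2 / (2 * Real.pi) ≤ ∫ θ in -Real.pi..Real.pi, u θ ^ 2 := by
  have hp := Real.pi_pos
  obtain ⟨A, hA⟩ : ∃ A, A = ∫ θ in -Real.pi..Real.pi, u θ := ⟨_, rfl⟩
  have h1 : ∫ θ in -Real.pi..Real.pi, (2 * (A / (2 * Real.pi)) * u θ - (A / (2 * Real.pi)) ^ 2) ≤
      ∫ θ in -Real.pi..Real.pi, u θ ^ 2 :=
    intervalIntegral.integral_mono_on (by linarith) (Continuous.intervalIntegrable (by fun_prop) _ _)
      (Continuous.intervalIntegrable (by fun_prop) _ _) fun θ _ => by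
        nlinarith [sq_nonneg (u θ - A / (2 * Real.pi))]
  rw [intervalIntegral.integral_sub (Continuous.intervalIntegrable (by fun_prop) _ _)
    (Continuous.intervalIntegrable (by fun_prop) _ _), intervalIntegral.integral_const_mul,
    intervalIntegral.integral_const, ← hA, smul_eq_mul] at h1
  rw [← hA]
  refine le_trans (le_of_eq ?_) h1
  field_simp
  ring

theorem circ {F : ℂ → ℂ} (hF : DifferentiableOn ℂ F (Metric.ball 0 1 \ {0})) (k : ℕ) {r : ℝ}
    (hr : r ∈ Ioo (0 : ℝ) 1) :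
    ENNReal.ofReal (‖∮ τ in C(0, 1 / 2), τ⁻¹ * (τ ^ k * F τ)‖ ^ 2 / (2 * Real.pi)) ≤
      ∫⁻ θ in Ioo (-Real.pi) Real.pi, ENNReal.ofReal (‖F (circleMap 0 r θ)‖ ^ 2) := by
  have hp := Real.pi_pos
  have hc : Continuous fun θ => F (circleMap 0 r θ) :=
    hF.continuousOn.comp_continuous (continuous_circleMap 0 r) (mem_circ hr)
  have h1 : ‖∮ τ in C(0, 1 / 2), τ⁻¹ * (τ ^ k * F τ)‖ ≤
      ∫ θ in -Real.pi..Real.pi, ‖F (circleMap 0 r θ)‖ := by
    have hper : Function.Periodic (fun θ => ‖F (circleMap 0 r θ)‖) (2 * Real.pi) := fun θ => by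
      simp only [periodic_circleMap 0 r θ]
    have h2 := hper.intervalIntegral_add_eq 0 (-Real.pi)
    rw [zero_add, show -Real.pi + 2 * Real.pi = Real.pi by ring] at h2
    rw [laur_indep hF k (s := r) ⟨by norm_num, by norm_num⟩ hr, ← h2, circleIntegral]
    refine intervalIntegral.norm_integral_le_of_norm_le (by linarith)
      (Eventually.of_forall fun θ _ => ?_) (hc.norm.intervalIntegrable _ _)
    rw [deriv_circleMap, norm_smul, norm_mul, norm_mul, norm_mul, norm_inv, norm_pow, norm_I,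
      norm_circleMap_zero, abs_of_pos hr.1, mul_one, ← mul_assoc, mul_inv_cancel₀ hr.1.ne',
      one_mul]
    exact mul_le_of_le_one_left (norm_nonneg _) (pow_le_one₀ hr.1.le hr.2.le)
  have hi : IntegrableOn (fun θ => ‖F (circleMap 0 r θ)‖ ^ 2) (Ioo (-Real.pi) Real.pi) :=
    (hc.norm.pow 2).continuousOn.integrableOn_Icc.mono_set Ioo_subset_Icc_self
  rw [← ofReal_integral_eq_lintegral_ofReal hi
    (Eventually.of_forall fun θ => sq_nonneg _), ← integral_Ioc_eq_integral_Ioo,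
    ← intervalIntegral.integral_of_le (by linarith)]
  refine ENNReal.ofReal_le_ofReal (le_trans ?_ (cs hc.norm))
  gcongr

theorem radial (g : ℝ → ℝ≥0∞) :
    ∫⁻ r in Ioo (0 : ℝ) 1, ENNReal.ofReal r * g (-Real.log (r ^ 2)) =
      ENNReal.ofReal (1 / 2) * ∫⁻ t in Ioi (0 : ℝ), g t * ENNReal.ofReal (Real.exp (-t)) := by
  have h1 : (fun t => Real.exp (-t / 2)) '' Ioi (0 : ℝ) = Ioo 0 1 := by
    ext r
    constructor
    · rintro ⟨t, ht, rfl⟩
      exact ⟨Real.exp_pos _, Real.exp_lt_one_iff.2 (by linarith [mem_Ioi.1 ht])⟩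
    · intro hr
      refine ⟨-2 * Real.log r, mem_Ioi.2 (by linarith [Real.log_neg hr.1 hr.2]), ?_⟩
      show Real.exp (-(-2 * Real.log r) / 2) = r
      rw [show -(-2 * Real.log r) / 2 = Real.log r by ring, Real.exp_log hr.1]
  rw [← h1, lintegral_image_eq_lintegral_abs_deriv_mul measurableSet_Ioi
    (f := fun t => Real.exp (-t / 2)) (f' := fun t => Real.exp (-t / 2) * (-1 / 2))
    (fun t _ => (((hasDerivAt_id t).neg.div_const 2).exp).hasDerivWithinAt)
    (fun a _ b _ h => by have := Real.exp_injective h; linarith),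
    ← lintegral_const_mul' _ _ ENNReal.ofReal_ne_top]
  refine lintegral_congr fun t => ?_
  have hp := Real.exp_pos (-t / 2)
  rw [Real.log_pow, Real.log_exp, show -(((2 : ℕ) : ℝ) * (-t / 2)) = t by push_cast; ring,
    ← mul_assoc, ← ENNReal.ofReal_mul (abs_nonneg _), mul_comm (g t), ← mul_assoc,
    ← ENNReal.ofReal_mul (by norm_num), abs_of_neg (by linarith),
    show Real.exp (-t) = Real.exp (-t / 2) * Real.exp (-t / 2) by
      rw [← Real.exp_add]; congr 1; ring]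
  congr 2
  ring

theorem polar (p : ℝ × ℝ) : Complex.polarCoord.symm p = circleMap 0 p.1 p.2 := by
  rw [Complex.polarCoord_symm_apply, circleMap, zero_add, Complex.exp_mul_I, Complex.ofReal_cos,
    Complex.ofReal_sin]

end HLaur

/-- Polar coordinates (Complex.lintegral_comp_polarCoord_symm), r = exp (-t/2), r dr = exp (-t) dt/2;
on each circle |a|² ≤ 2π ∫ |F (r e^{iθ})|² dθ, where a is the coefficient (laur_indep, r ≤ 1,
Cauchy-Schwarz). -/
theorem laur_lower {F : ℂ → ℂ} (hF : DifferentiableOn ℂ F (Metric.ball 0 1 \ {0})) (k : ℕ)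
    {g : ℝ → ℝ≥0∞} (hg : Measurable g) :
    ENNReal.ofReal (‖∮ τ in C(0, 1 / 2), τ⁻¹ * (τ ^ k * F τ)‖ ^ 2 / (4 * Real.pi)) *
        ∫⁻ t in Ioi (0 : ℝ), g t * ENNReal.ofReal (Real.exp (-t)) ≤
      ∫⁻ τ in (Metric.ball 0 1 \ {0} : Set ℂ),
        ENNReal.ofReal (‖F τ‖ ^ 2) * g (-Real.log (‖τ‖ ^ 2)) := by
  have hp := Real.pi_pos
  have hS : MeasurableSet (Metric.ball 0 1 \ {0} : Set ℂ) :=
    Metric.isOpen_ball.measurableSet.diff (measurableSet_singleton 0)
  have hT : MeasurableSet (Ioo (0 : ℝ) 1 ×ˢ Ioo (-Real.pi) Real.pi) :=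
    measurableSet_Ioo.prod measurableSet_Ioo
  have hc : ContinuousOn (fun p : ℝ × ℝ => F (circleMap 0 p.1 p.2))
      (Ioo (0 : ℝ) 1 ×ˢ Ioo (-Real.pi) Real.pi) :=
    hF.continuousOn.comp (f := fun p : ℝ × ℝ => circleMap 0 p.1 p.2)
      (Continuous.continuousOn (by unfold circleMap; fun_prop)) fun p hp => HLaur.mem_circ hp.1 _
  have hm : AEMeasurable (fun p : ℝ × ℝ => ENNReal.ofReal p.1 * g (-Real.log (p.1 ^ 2)) *
      ENNReal.ofReal (‖F (circleMap 0 p.1 p.2)‖ ^ 2))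
      ((volume.prod volume).restrict (Ioo (0 : ℝ) 1 ×ˢ Ioo (-Real.pi) Real.pi)) :=
    (Measurable.aemeasurable (by fun_prop)).mul
      ((hc.norm.pow 2).aemeasurable hT).ennreal_ofReal
  rw [← lintegral_indicator hS, ← Complex.lintegral_comp_polarCoord_symm]
  refine le_trans ?_ (lintegral_mono_set (s := Ioo (0 : ℝ) 1 ×ˢ Ioo (-Real.pi) Real.pi)
    fun p hp => ⟨hp.1.1, hp.2⟩)
  rw [setLIntegral_congr_fun hT (g := fun p : ℝ × ℝ => ENNReal.ofReal p.1 *
      g (-Real.log (p.1 ^ 2)) * ENNReal.ofReal (‖F (circleMap 0 p.1 p.2)‖ ^ 2)) fun p hp => by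
      beta_reduce
      rw [HLaur.polar, indicator_of_mem (HLaur.mem_circ hp.1 _), norm_circleMap_zero, sq_abs,
        smul_eq_mul, mul_assoc, mul_comm (g _)],
    Measure.volume_eq_prod, setLIntegral_prod _ hm]
  refine le_trans (le_of_eq ?_) (setLIntegral_mono' measurableSet_Ioo
    (f := fun r => ENNReal.ofReal (‖∮ τ in C(0, 1 / 2), τ⁻¹ * (τ ^ k * F τ)‖ ^ 2 / (2 * Real.pi)) *
      (ENNReal.ofReal r * g (-Real.log (r ^ 2)))) fun r hr => ?_)
  · rw [lintegral_const_mul' _ _ ENNReal.ofReal_ne_top, HLaur.radial, ← mul_assoc,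
      ← ENNReal.ofReal_mul (by positivity)]
    congr 2
    field_simp
    ring
  · have hc' : Continuous fun θ => F (circleMap 0 r θ) :=
      hF.continuousOn.comp_continuous (continuous_circleMap 0 r) (HLaur.mem_circ hr)
    dsimp only
    rw [lintegral_const_mul _ (f := fun θ => ENNReal.ofReal (‖F (circleMap 0 r θ)‖ ^ 2))
      (hc'.norm.pow 2).measurable.ennreal_ofReal, mul_comm]
    exact mul_le_mul_right (HLaur.circ hF k hr) _

end

end Fuj
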