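import Vale.Agent.P271.HDefs

/-! Laurent coefficients on the punctured disc. -/

namespace Fuj

open MeasureTheory Set Filter Topology Complex
open scoped ENNReal ContDiff ComplexConjugate

noncomputable section

namespace Laur0

theorem mem {r : ℝ} (hr : r ∈ Ioo (0 : ℝ) 1) {τ : ℂ} (h : τ ∈ Metric.sphere (0 : ℂ) r) :
    τ ∈ Metric.ball (0 : ℂ) 1 \ {0} := by
  rw [mem_sphere_zero_iff_norm] at h
  refine ⟨mem_ball_zero_iff.2 (h ▸ hr.2), fun h0 => ?_⟩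
  rw [mem_singleton_iff.1 h0, norm_zero] at h
  exact hr.1.ne h

theorem indep {F : ℂ → ℂ} (hF : DifferentiableOn ℂ F (Metric.ball 0 1 \ {0}))
    {r s : ℝ} (hr : 0 < r) (hs : s < 1) (h : r ≤ s) :
    (∮ τ in C(0, s), τ⁻¹ * F τ) = ∮ τ in C(0, r), τ⁻¹ * F τ := by
  have hsub : Metric.closedBall (0 : ℂ) s \ Metric.ball 0 r ⊆ Metric.ball 0 1 \ {0} :=
    fun z hz => ⟨Metric.closedBall_subset_ball hs hz.1, fun h0 =>
      hz.2 (by rw [mem_singleton_iff.1 h0]; exact Metric.mem_ball_self hr)⟩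
  have := circleIntegral_sub_center_inv_smul_eq_of_differentiable_on_annulus_off_countable
    (c := 0) hr h countable_empty (hF.continuousOn.mono hsub) fun z hz =>
      hF.differentiableAt ((Metric.isOpen_ball.sdiff isClosed_singleton).mem_nhds
        (hsub ⟨Metric.ball_subset_closedBall hz.1.1, fun h' =>
          hz.1.2 (Metric.ball_subset_closedBall h')⟩))
  simpa using this

theorem small {G : ℂ → ℂ} {τ₀ : ℂ} (h0 : τ₀ ≠ 0) (hG : ContinuousOn G (Metric.sphere 0 (‖τ₀‖ / 2)))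
    (h : ∀ k : ℕ, (∮ τ in C(0, ‖τ₀‖ / 2), τ ^ k * G τ) = 0) :
    (∮ τ in C(0, ‖τ₀‖ / 2), (τ - τ₀)⁻¹ * G τ) = 0 := by
  have hp : 0 < ‖τ₀‖ := norm_pos_iff.2 h0
  have hρ : 0 ≤ ‖τ₀‖ / 2 := by positivity
  have hne : ∀ τ ∈ Metric.sphere (0 : ℂ) (‖τ₀‖ / 2), τ - τ₀ ≠ 0 := fun τ hτ e => by
    rw [sub_eq_zero.1 e, mem_sphere_zero_iff_norm] at hτ
    linarith
  have hH : ContinuousOn (fun τ => (τ - τ₀)⁻¹ * G τ) (Metric.sphere 0 (‖τ₀‖ / 2)) :=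
    ((continuousOn_id.sub continuousOn_const).inv₀ hne).mul hG
  have hI : ∀ N : ℕ, (∮ τ in C(0, ‖τ₀‖ / 2), τ ^ N * ((τ - τ₀)⁻¹ * G τ)) =
      τ₀ ^ N * ∮ τ in C(0, ‖τ₀‖ / 2), (τ - τ₀)⁻¹ * G τ := by
    intro N
    induction N with
    | zero => simp
    | succ N ih =>
      have e : (∮ τ in C(0, ‖τ₀‖ / 2), τ ^ (N + 1) * ((τ - τ₀)⁻¹ * G τ)) =
          ∮ τ in C(0, ‖τ₀‖ / 2), (τ ^ N * G τ + τ₀ * (τ ^ N * ((τ - τ₀)⁻¹ * G τ))) := by
        refine circleIntegral.integral_congr hρ fun τ hτ => ?_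
        have := hne τ hτ
        field_simp
        ring
      have i1 : CircleIntegrable (fun τ : ℂ => τ ^ N * G τ) 0 (‖τ₀‖ / 2) :=
        ((continuousOn_id.pow N).mul hG).circleIntegrable hρ
      have i2 : CircleIntegrable (fun τ : ℂ => τ₀ * (τ ^ N * ((τ - τ₀)⁻¹ * G τ))) 0 (‖τ₀‖ / 2) :=
        (continuousOn_const.mul ((continuousOn_id.pow N).mul hH)).circleIntegrable hρ
      rw [e, circleIntegral.integral_add i1 i2, h, circleIntegral.integral_const_mul, ih]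
      ring
  obtain ⟨C, hC⟩ := (isCompact_sphere (0 : ℂ) (‖τ₀‖ / 2)).exists_bound_of_continuousOn hH
  have hb : ∀ N : ℕ, ‖∮ τ in C(0, ‖τ₀‖ / 2), (τ - τ₀)⁻¹ * G τ‖ ≤
      2 * Real.pi * (‖τ₀‖ / 2) * C * (1 / 2) ^ N := by
    intro N
    have := circleIntegral.norm_integral_le_of_norm_le_const (c := 0) hρ
      (f := fun τ => τ ^ N * ((τ - τ₀)⁻¹ * G τ)) (C := (‖τ₀‖ / 2) ^ N * C) fun τ hτ => by
        rw [norm_mul, norm_pow, mem_sphere_zero_iff_norm.1 hτ]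
        exact mul_le_mul_of_nonneg_left (hC τ hτ) (by positivity)
    rw [hI, norm_mul, norm_pow] at this
    refine le_of_mul_le_mul_left (this.trans (le_of_eq ?_)) (pow_pos hp N)
    rw [div_pow, div_pow]
    ring
  have hl : Tendsto (fun N : ℕ => 2 * Real.pi * (‖τ₀‖ / 2) * C * (1 / 2 : ℝ) ^ N) atTop
      (𝓝 (2 * Real.pi * (‖τ₀‖ / 2) * C * 0)) :=
    (tendsto_pow_atTop_nhds_zero_of_lt_one (by norm_num) (by norm_num)).const_mul _
  rw [mul_zero] at hl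
  exact norm_le_zero_iff.1 (ge_of_tendsto' hl hb)

end Laur0

/-- circleIntegral_sub_center_inv_smul_eq_of_differentiable_on_annulus_off_countable. -/
theorem laur_indep {F : ℂ → ℂ} (hF : DifferentiableOn ℂ F (Metric.ball 0 1 \ {0})) (k : ℕ)
    {r s : ℝ} (hr : r ∈ Ioo (0 : ℝ) 1) (hs : s ∈ Ioo (0 : ℝ) 1) :
    (∮ τ in C(0, r), τ⁻¹ * (τ ^ k * F τ)) = ∮ τ in C(0, s), τ⁻¹ * (τ ^ k * F τ) := by
  have hG : DifferentiableOn ℂ (fun τ => τ ^ k * F τ) (Metric.ball 0 1 \ {0}) :=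
    (differentiableOn_id.pow k).mul hF
  rcases le_total r s with h | h
  · exact (Laur0.indep hG hr.1 hs.2 h).symm
  · exact Laur0.indep hG hs.1 hr.2 h

/-- G = dslope F τ₀ is holomorphic on the punctured disc; laur_indep for G with k = 1 compares
∮ G over |τ| = 1/2 and |τ| = ρ < |τ₀|. On the small circle 1/(τ - τ₀) = -Σ τ^j / τ₀^(j+1) (finite
geometric sum plus a remainder tending to 0), so ∮ F / (τ - τ₀) = 0 and ∮ 1/(τ - τ₀) = 0. On the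
large circle ∮ 1/(τ - τ₀) = 2πi and 1/(τ - τ₀) = 1/τ + τ₀ / (τ (τ - τ₀)). -/
theorem laur_small {F : ℂ → ℂ} (hF : DifferentiableOn ℂ F (Metric.ball 0 1 \ {0}))
    (h : ∀ k : ℕ, (∮ τ in C(0, 1 / 2), τ⁻¹ * (τ ^ k * F τ)) = 0) {M : ℝ}
    (hM : ∀ τ : ℂ, ‖τ‖ = 1 / 2 → ‖F τ‖ ≤ M) {τ₀ : ℂ} (h0 : τ₀ ≠ 0) (h1 : ‖τ₀‖ ≤ 1 / 4) :
    ‖F τ₀‖ ≤ 4 * ‖τ₀‖ * M := by
  have hp : 0 < ‖τ₀‖ := norm_pos_iff.2 h0
  have hρ : ‖τ₀‖ / 2 ∈ Ioo (0 : ℝ) 1 := ⟨by positivity, by linarith⟩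
  have hR : (1 / 2 : ℝ) ∈ Ioo (0 : ℝ) 1 := ⟨by norm_num, by norm_num⟩
  have hτ₀ : Metric.ball (0 : ℂ) 1 \ {0} ∈ 𝓝 τ₀ :=
    (Metric.isOpen_ball.sdiff isClosed_singleton).mem_nhds
      ⟨mem_ball_zero_iff.2 (by linarith), h0⟩
  have hc : ∀ {r : ℝ}, r ∈ Ioo (0 : ℝ) 1 → ContinuousOn F (Metric.sphere 0 r) :=
    fun hr => hF.continuousOn.mono fun τ hτ => Laur0.mem hr hτ
  have hG := (differentiableOn_dslope hτ₀).2 hF
  have hds : ∀ {r : ℝ}, r ∈ Ioo (0 : ℝ) 1 → r ≠ ‖τ₀‖ →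
      (∮ τ in C(0, r), τ⁻¹ * (τ ^ 1 * dslope F τ₀ τ)) =
        ∮ τ in C(0, r), (τ - τ₀)⁻¹ * (F τ - F τ₀) := by
    intro r hr hne
    refine circleIntegral.integral_congr hr.1.le fun τ hτ => ?_
    have a : τ ≠ 0 := (Laur0.mem hr hτ).2
    have b : τ ≠ τ₀ := fun e => hne (by rw [← e, mem_sphere_zero_iff_norm.1 hτ])
    rw [dslope_of_ne _ b, slope_def_field, pow_one, inv_mul_cancel_left₀ a, div_eq_inv_mul]
  have e1 : (∮ τ in C(0, ‖τ₀‖ / 2), (τ - τ₀)⁻¹ * (F τ - F τ₀)) = 0 := by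
    refine Laur0.small h0 ((hc hρ).sub continuousOn_const) fun k => ?_
    have a : (∮ τ in C(0, ‖τ₀‖ / 2), τ ^ k * F τ) = 0 := by
      refine Eq.trans ?_ ((laur_indep hF (k + 1) hρ hR).trans (h (k + 1)))
      refine circleIntegral.integral_congr hρ.1.le fun τ hτ => ?_
      have a : τ ≠ 0 := (Laur0.mem hρ hτ).2
      field_simp
      ring
    have b : (∮ τ in C(0, ‖τ₀‖ / 2), F τ₀ * τ ^ k) = 0 := by
      have := circleIntegral.integral_sub_zpow_of_ne (n := k) (by omega) 0 0 (‖τ₀‖ / 2)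
      simp only [sub_zero, zpow_natCast] at this
      rw [circleIntegral.integral_const_mul, this, mul_zero]
    have i1 : CircleIntegrable (fun τ : ℂ => τ ^ k * F τ) 0 (‖τ₀‖ / 2) :=
      ((continuousOn_id.pow k).mul (hc hρ)).circleIntegrable hρ.1.le
    have i2 : CircleIntegrable (fun τ : ℂ => F τ₀ * τ ^ k) 0 (‖τ₀‖ / 2) :=
      (continuousOn_const.mul (continuousOn_id.pow k)).circleIntegrable hρ.1.le
    have c := circleIntegral.integral_sub i1 i2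
    rw [a, b, sub_zero] at c
    exact Eq.trans (circleIntegral.integral_congr hρ.1.le fun τ _ => by ring) c
  have e2 : (∮ τ in C(0, 1 / 2), (τ - τ₀)⁻¹ * (F τ - F τ₀)) = 0 := by
    rw [← hds hR (by linarith), laur_indep hG 1 hR hρ, hds hρ (by linarith), e1]
  have hne : ∀ τ ∈ Metric.sphere (0 : ℂ) (1 / 2), 1 / 4 ≤ ‖τ - τ₀‖ := fun τ hτ => by
    have := norm_sub_norm_le τ τ₀
    rw [mem_sphere_zero_iff_norm.1 hτ] at this
    linarith
  have hne' : ∀ τ ∈ Metric.sphere (0 : ℂ) (1 / 2), τ - τ₀ ≠ 0 := fun τ hτ e => by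
    have := hne τ hτ
    rw [e, norm_zero] at this
    linarith
  have hi : ContinuousOn (fun τ : ℂ => (τ - τ₀)⁻¹) (Metric.sphere 0 (1 / 2)) :=
    (continuousOn_id.sub continuousOn_const).inv₀ hne'
  have hj : ContinuousOn (fun τ : ℂ => τ⁻¹) (Metric.sphere 0 (1 / 2)) :=
    continuousOn_id.inv₀ fun τ hτ => (Laur0.mem hR hτ).2
  have e3 : (∮ τ in C(0, 1 / 2), (τ - τ₀)⁻¹ * (F τ - F τ₀)) = ∮ τ in C(0, 1 / 2),
      ((τ⁻¹ * (τ ^ 0 * F τ) + τ₀ * (τ⁻¹ * ((τ - τ₀)⁻¹ * F τ))) - F τ₀ * (τ - τ₀)⁻¹) := by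
    refine circleIntegral.integral_congr hR.1.le fun τ hτ => ?_
    have a : τ ≠ 0 := (Laur0.mem hR hτ).2
    have b := hne' τ hτ
    field_simp
    ring
  have i1 : CircleIntegrable (fun τ : ℂ => τ⁻¹ * (τ ^ 0 * F τ)) 0 (1 / 2) :=
    (hj.mul ((continuousOn_id.pow 0).mul (hc hR))).circleIntegrable hR.1.le
  have i2 : CircleIntegrable (fun τ : ℂ => τ₀ * (τ⁻¹ * ((τ - τ₀)⁻¹ * F τ))) 0 (1 / 2) :=
    (continuousOn_const.mul (hj.mul (hi.mul (hc hR)))).circleIntegrable hR.1.le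
  have i3 : CircleIntegrable (fun τ : ℂ => F τ₀ * (τ - τ₀)⁻¹) 0 (1 / 2) :=
    (continuousOn_const.mul hi).circleIntegrable hR.1.le
  have i4 : CircleIntegrable (fun τ : ℂ => τ⁻¹ * (τ ^ 0 * F τ) +
      τ₀ * (τ⁻¹ * ((τ - τ₀)⁻¹ * F τ))) 0 (1 / 2) := i1.add i2
  rw [e3, circleIntegral.integral_sub i4 i3, circleIntegral.integral_add i1 i2, h 0,
    circleIntegral.integral_const_mul, circleIntegral.integral_const_mul,
    circleIntegral.integral_sub_inv_of_mem_ball (mem_ball_zero_iff.2 (by linarith)), zero_add,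
    sub_eq_zero] at e2
  have hb := circleIntegral.norm_integral_le_of_norm_le_const (c := 0) hR.1.le
    (f := fun τ : ℂ => τ⁻¹ * ((τ - τ₀)⁻¹ * F τ)) (C := 2 * (4 * M)) fun τ hτ => by
      have a := mem_sphere_zero_iff_norm.1 hτ
      rw [norm_mul, norm_mul, norm_inv, norm_inv, a]
      have b : ‖τ - τ₀‖⁻¹ ≤ 4 := inv_le_of_inv_le₀ (by norm_num) (by simpa using hne τ hτ)
      have c := mul_le_mul b (hM τ a) (norm_nonneg _) (by norm_num)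
      norm_num
      linarith
  have e4 := congrArg norm e2
  rw [norm_mul, norm_mul] at e4
  have e5 : ‖(2 * Real.pi * I : ℂ)‖ = 2 * Real.pi := by simp [Real.pi_pos.le]
  rw [e5] at e4
  have e6 := mul_le_mul_of_nonneg_left hb hp.le
  rw [e4] at e6
  refine le_of_mul_le_mul_right (e6.trans (le_of_eq ?_)) Real.two_pi_pos
  ring

end

end Fuj
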