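import Vale.Agent.P271.HSh3
import Vale.Agent.P271.HNorm
import Vale.Agent.P271.HWeyl

/-! The L² existence theorem. -/

namespace Fuj

open MeasureTheory Set Filter Topology Complex
open scoped ENNReal ContDiff ComplexConjugate

noncomputable section

namespace Sheets

variable {E W : Type*} [NormedAddCommGroup E] [NormedSpace ℝ E] [NormedSpace ℂ E]
  [IsScalarTower ℝ ℂ E] [FiniteDimensional ℂ E] [MeasurableSpace E] [BorelSpace E]
  [TopologicalSpace W] [T2Space W] [MeasurableSpace W] [BorelSpace W]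
  {vol : Measure E} [vol.IsAddHaarMeasure] (S : Sheets E W vol)
  {κ : Type*} [Fintype κ] (b : Module.Basis κ ℂ E)

theorem hm0_basis {φ : W → ℝ} (hφ : S.SmW φ) {F₀ : W → ℂ} (h0 : S.LocL2 F₀) {ξ : E}
    (hw : ∀ σ, S.Test σ → S.ip φ (S.Dl φ ξ σ) F₀ = 0) (i : S.ι) {ζ : E → ℝ}
    (hζ : TestOn (S.e i).target ζ) :
    ∫ z in (S.e i).target, conj (dzr ζ z ξ) * S.rep i F₀ z ∂vol = 0 := by
  have hU : IsOpen (S.e i).target := (S.e i).open_target
  have hg : ContDiffOn ℝ ∞ (fun z => ((ζ z * Real.exp (S.wt i φ z) : ℝ) : ℂ)) (S.e i).target :=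
    ofRealCLM.contDiff.comp_contDiffOn (hζ.1.contDiffOn.mul (hφ i).exp)
  obtain ⟨ht, hs⟩ := S.ext_test (K := tsupport ζ) hζ.2.1 hζ.2.2 hg (fun z _ hz => by
    rw [image_eq_zero_of_notMem_tsupport hz]; simp)
  have h1 := hw _ ht
  rw [S.ip_chart hφ (SmS.measurable S (SmS.Dl S hφ ht.1 ξ)) h0.1 (i := i) (fun p hp => by
    rw [S.Dl_eq_zero φ (fun h => ?_) ξ, zero_mul]
    obtain ⟨z, hz, rfl⟩ := hs h
    exact hp ((S.e i).map_target (hζ.2.2 hz)))] at h1
  have h2 := congrArg conj h1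
  rw [← integral_conj, map_zero] at h2
  rw [← h2]
  refine setIntegral_congr_fun hU.measurableSet fun z hz => ?_
  have hev : S.rep i (S.ext i fun z => ((ζ z * Real.exp (S.wt i φ z) : ℝ) : ℂ)) =ᶠ[𝓝 z]
      fun z => ((ζ z * Real.exp (S.wt i φ z) : ℝ) : ℂ) := by
    filter_upwards [hU.mem_nhds hz] with y hy using S.rep_ext _ hy
  have dζ : DifferentiableAt ℝ ζ z := (hζ.1.differentiable (by simp)) z
  have dw : DifferentiableAt ℝ (S.wt i φ) z :=
    ((hφ i).contDiffAt (hU.mem_nhds hz)).differentiableAt (by simp)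
  have e1 : dz (fun z => ((ζ z * Real.exp (S.wt i φ z) : ℝ) : ℂ)) z ξ =
      dzr ζ z ξ * (Real.exp (S.wt i φ z) : ℝ) +
        ζ z * ((Real.exp (S.wt i φ z) : ℝ) * dzr (S.wt i φ) z ξ) := by
    have := dzr_mul dζ dw.exp ξ
    rw [dzr_comp dw (Real.hasDerivAt_exp _) ξ] at this
    exact this
  have e2 : ((Real.exp (S.wt i φ z) : ℝ) : ℂ) * ((Real.exp (-S.wt i φ z) : ℝ) : ℂ) = 1 := by
    rw [← ofReal_mul, ← Real.exp_add]; simp
  have e3 : S.rep i (S.Dl φ ξ (S.ext i fun z => ((ζ z * Real.exp (S.wt i φ z) : ℝ) : ℂ))) z =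
      dzr ζ z ξ * (Real.exp (S.wt i φ z) : ℝ) := by
    rw [S.rep_Dl hφ ht.1 hz, dz_congr hev, e1, S.rep_ext _ hz, ofReal_mul]
    ring
  rw [e3]
  have e4 : dzr ζ z ξ * (Real.exp (S.wt i φ z) : ℝ) * conj (S.rep i F₀ z) *
      ((Real.exp (-S.wt i φ z) : ℝ) : ℂ) = dzr ζ z ξ * conj (S.rep i F₀ z) := by
    linear_combination (dzr ζ z ξ * conj (S.rep i F₀ z)) * e2
  rw [e4, map_mul, conj_conj]

theorem hm0_weak {φ : W → ℝ} (hφ : S.SmW φ) {F₀ : W → ℂ} (h0 : S.LocL2 F₀)
    (hw : ∀ σ, S.Test σ → ∀ j, S.ip φ (S.Dl φ (b j) σ) F₀ = 0) (i : S.ι) (ζ : E → ℝ)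
    (hζ : TestOn (S.e i).target ζ) (ξ : E) :
    ∫ z in (S.e i).target, conj (dzr ζ z ξ) * S.rep i F₀ z ∂vol = 0 := by
  have hU : IsOpen (S.e i).target := (S.e i).open_target
  have e : ∀ z, conj (dzr ζ z ξ) * S.rep i F₀ z =
      ∑ j, conj (b.repr ξ j) * (conj (dzr ζ z (b j)) * S.rep i F₀ z) := by
    intro z
    have : dzr ζ z ξ = ∑ j, b.repr ξ j * dzr ζ z (b j) := by
      conv_lhs => rw [← b.sum_repr ξ]
      exact dz_sum_dir _ _ _ _ _
    rw [this, map_sum, Finset.sum_mul]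
    refine Finset.sum_congr rfl fun j _ => ?_
    rw [map_mul, mul_assoc]
  simp_rw [e]
  rw [integral_finsetSum]
  · refine Finset.sum_eq_zero fun j _ => ?_
    rw [integral_const_mul, hm0_basis S hφ h0 (fun σ hσ => hw σ hσ j) i hζ, mul_zero]
  · intro j _
    refine Integrable.const_mul ?_ _
    exact integrableOn_mul_of_supp hU hζ.2.1 hζ.2.2
      (continuous_conj.comp (hζ.continuous_dzr (b j))).continuousOn
      (fun z _ hz => by simp [hζ.dzr_eq_zero hz]) (S.aesm_rep h0.1 i)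
      (h0.2 i _ hζ.2.1 hζ.2.2)

theorem hm0_loc {F₀ : W → ℂ} (h0 : S.LocL2 F₀) (i : S.ι) :
    LocallyIntegrableOn (S.rep i F₀) (S.e i).target vol := by
  have : FiniteDimensional ℝ E := Module.Finite.trans ℂ E
  have : ProperSpace E := FiniteDimensional.proper ℝ E
  rw [locallyIntegrableOn_iff (S.e i).open_target.isLocallyClosed]
  intro K hKU hK
  have hm : AEStronglyMeasurable (S.rep i F₀) (vol.restrict K) :=
    (S.aesm_rep h0.1 i).mono_measure (Measure.restrict_mono hKU le_rfl)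
  have : IsFiniteMeasure (vol.restrict K) := isFiniteMeasure_restrict.2 hK.measure_ne_top
  have h2 : MemLp (S.rep i F₀) 2 (vol.restrict K) := by
    rw [memLp_two_iff_integrable_sq_norm hm]
    exact (lintegral_ofReal_ne_top_iff_integrable (hm.norm.pow 2)
      (ae_of_all _ fun z => sq_nonneg _)).1 (h0.2 i K hK hKU)
  exact h2.integrable one_le_two

theorem hm0_overlap {F₀ : W → ℂ} {G : S.ι → E → ℂ}
    (hG : ∀ i, DifferentiableOn ℂ (G i) (S.e i).target)
    (hae : ∀ i, G i =ᵐ[vol.restrict (S.e i).target] S.rep i F₀) {i j : S.ι} {p : W}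
    (hi : p ∈ (S.e i).source) (hj : p ∈ (S.e j).source) :
    G j (S.π p) = S.τ j p / S.τ i p * G i (S.π p) := by
  have hV : IsOpen ((S.e i).target ∩ (S.e i).symm ⁻¹' (S.e j).source) :=
    (S.e i).isOpen_inter_preimage_symm (S.e j).open_source
  have hsub : (S.e i).target ∩ (S.e i).symm ⁻¹' (S.e j).source ⊆ (S.e j).target := by
    intro z hz
    have := S.π_mem (i := j) hz.2
    rwa [S.π_symm hz.1] at this
  have hsymm : ∀ z ∈ (S.e i).target ∩ (S.e i).symm ⁻¹' (S.e j).source,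
      (S.e j).symm z = (S.e i).symm z := by
    intro z hz
    have := S.symm_π (i := j) hz.2
    rwa [S.π_symm hz.1] at this
  have key : EqOn (G j) (fun z => S.τ j ((S.e i).symm z) / S.τ i ((S.e i).symm z) * G i z)
      ((S.e i).target ∩ (S.e i).symm ⁻¹' (S.e j).source) := by
    refine Measure.eqOn_open_of_ae_eq (μ := vol) ?_ hV ((hG j).continuousOn.mono hsub)
      ((S.hol i j).continuousOn.mul ((hG i).continuousOn.mono inter_subset_left))
    filter_upwards [ae_restrict_of_ae_restrict_of_subset hsub (hae j),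
      ae_restrict_of_ae_restrict_of_subset inter_subset_left (hae i),
      ae_restrict_mem hV.measurableSet] with z h1 h2 hz
    have hne := S.τ_ne i _ ((S.e i).map_target hz.1)
    rw [h1, h2, rep, rep, hsymm z hz]
    field_simp
  have hp : S.π p ∈ (S.e i).target ∩ (S.e i).symm ⁻¹' (S.e j).source :=
    ⟨S.π_mem hi, by rw [mem_preimage, S.symm_π hi]; exact hj⟩
  have := key hp
  simp only [S.symm_π hi] at this
  exact this

/-- Test with σ = ext i (ζ exp (wt i φ)): rep (Dl ξ σ) = exp wt * dzr ζ ξ, so (ip_chart, conjugate)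
∫ conj (dzr ζ ξ) rep F₀ = 0, first for ξ = b j, then for all ξ (dz_sum_dir). weyl gives F_i on each
target; F p = F_(idx p) (π p) / τ (idx p) p; on overlaps F_j = (τ_j / τ_i) F_i a.e., hence
everywhere (Measure.eqOn_open_of_ae_eq on target i ∩ symm ⁻¹ source j, where the two symm agree);
measurable_of_rep, ae_of_charts. -/
theorem hol_of_weak {φ : W → ℝ} (hφ : S.SmW φ) {F₀ : W → ℂ} (h0 : S.LocL2 F₀)
    (hw : ∀ σ, S.Test σ → ∀ j, S.ip φ (S.Dl φ (b j) σ) F₀ = 0) :
    ∃ F, S.HolS F ∧ F =ᵐ[S.μ] F₀ := by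
  choose G hG hae using fun i =>
    weyl (S.e i).open_target (hm0_loc S h0 i) (hm0_weak S b hφ h0 hw i)
  have hrep : ∀ i, ∀ z ∈ (S.e i).target,
      S.rep i (fun p => G (S.idx p) (S.π p) / S.τ (S.idx p) p) z = G i z := by
    intro i z hz
    have hi := (S.e i).map_target hz
    have hk := S.idx_mem ((S.e i).symm z)
    have h1 := S.τ_ne i _ hi
    have h2 := S.τ_ne _ _ hk
    rw [rep, hm0_overlap S hG hae hi hk, S.π_symm hz]
    field_simp
  have hH : S.HolS (fun p => G (S.idx p) (S.π p) / S.τ (S.idx p) p) :=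
    fun i => (hG i).congr (hrep i)
  refine ⟨_, hH, ?_⟩
  have hm := S.measurable_of_rep fun i => (hH i).continuousOn
  refine S.ae_of_charts (measurableSet_eq_fun hm h0.1) fun i => ?_
  filter_upwards [hae i, ae_restrict_mem (S.e i).open_target.measurableSet] with z h1 hz
  have h2 := hrep i z hz
  rw [h1, rep, rep] at h2
  exact mul_left_cancel₀ (S.τ_ne i _ ((S.e i).map_target hz)) h2

end Sheets

end

end Fuj
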