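import Vale.Agent.P271.HDefs

/-! Mollification. -/

namespace Fuj

open MeasureTheory Set Filter Topology Complex
open scoped ENNReal ContDiff ComplexConjugate

noncomputable section

variable {E V V' : Type*} [NormedAddCommGroup E] [NormedSpace ℝ E] [FiniteDimensional ℝ E]
  [MeasurableSpace E] [BorelSpace E] {vol : Measure E} [vol.IsAddHaarMeasure]
  [NormedAddCommGroup V] [NormedSpace ℝ V] [FiniteDimensional ℝ V]
  [NormedAddCommGroup V'] [NormedSpace ℝ V'] [FiniteDimensional ℝ V']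

omit [NormedSpace ℝ V] [FiniteDimensional ℝ V] in
/-- Continuity of translations in L². -/
theorem moll_transl {g : E → V} (hg : MemLp g 2 vol) {ε : ℝ} (hε : 0 < ε) :
    ∃ r : ℝ, 0 < r ∧ ∀ t : E, ‖t‖ < r →
      ∫⁻ z, ‖g (z - t) - g z‖ₑ ^ 2 ∂vol ≤ ENNReal.ofReal ε := by
  let T : E → C(E, E) := fun t => ⟨fun z => z - t, by fun_prop⟩
  have hT : Continuous T := by
    apply ContinuousMap.continuous_of_continuous_uncurry
    exact continuous_snd.sub continuous_fst
  have hm : ∀ t, MeasurePreserving (T t) vol vol := fun t => measurePreserving_sub_right vol t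
  have hc : Continuous (fun t => Lp.compMeasurePreserving (T t) (hm t) (hg.toLp g)) :=
    Continuous.compMeasurePreservingLp continuous_const hT hm (by simp)
  have h0 := Metric.continuousAt_iff.1 (hc.continuousAt (x := 0)) (√ε) (Real.sqrt_pos.2 hε)
  obtain ⟨r, hr, hr'⟩ := h0
  refine ⟨r, hr, fun t ht => ?_⟩
  have h1 := hr' (x := t) (by simpa using ht)
  rw [Lp.toLp_compMeasurePreserving, Lp.toLp_compMeasurePreserving, Lp.dist_def] at h1
  have h2 : eLpNorm (fun z => g (z - t) - g z) 2 vol =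
      eLpNorm (⇑((hg.comp_measurePreserving (hm t)).toLp _) -
        ⇑((hg.comp_measurePreserving (hm 0)).toLp _)) 2 vol := by
    apply eLpNorm_congr_ae
    filter_upwards [(hg.comp_measurePreserving (hm t)).coeFn_toLp,
      (hg.comp_measurePreserving (hm 0)).coeFn_toLp] with z h3 h4
    rw [Pi.sub_apply, h3, h4]
    simp [T]
  rw [← h2] at h1
  have h3 : eLpNorm (fun z => g (z - t) - g z) 2 vol ≠ ⊤ :=
    ((hg.comp_measurePreserving (hm t)).sub hg).2.ne
  have h4 : eLpNorm (fun z => g (z - t) - g z) 2 vol ≤ ENNReal.ofReal (√ε) :=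
    (ENNReal.le_ofReal_iff_toReal_le h3 (Real.sqrt_nonneg _)).2 h1.le
  have h5 := eLpNorm_nnreal_pow_eq_lintegral (μ := vol) (f := fun z => g (z - t) - g z)
    (p := 2) (by norm_num)
  have h6 : ∫⁻ z, ‖g (z - t) - g z‖ₑ ^ 2 ∂vol = eLpNorm (fun z => g (z - t) - g z) 2 vol ^ 2 := by
    simpa using h5.symm
  rw [h6]
  calc _ ≤ ENNReal.ofReal (√ε) ^ 2 := by gcongr
    _ = ENNReal.ofReal ε := by
      rw [← ENNReal.ofReal_pow (Real.sqrt_nonneg _), Real.sq_sqrt hε.le]

/-- Jensen inequality for the square. -/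
theorem moll_cs {α : Type*} [MeasurableSpace α] {μ : Measure α} {w h : α → ℝ≥0∞}
    (hw : AEMeasurable w μ) (hh : AEMeasurable h μ) (h1 : ∫⁻ t, w t ∂μ = 1) :
    (∫⁻ t, w t * h t ∂μ) ^ 2 ≤ ∫⁻ t, w t * h t ^ 2 ∂μ := by
  have h2 := ENNReal.lintegral_mul_norm_pow_le (μ := μ) (f := w) (g := fun t => w t * h t ^ 2) hw
    (hw.mul (hh.pow_const 2)) (p := 1 / 2) (q := 1 / 2) (by norm_num) (by norm_num) (by norm_num)
  have h3 : ∀ t, w t ^ (1 / 2 : ℝ) * (w t * h t ^ 2) ^ (1 / 2 : ℝ) = w t * h t := by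
    intro t
    rw [← ENNReal.mul_rpow_of_nonneg _ _ (by norm_num),
      show w t * (w t * h t ^ 2) = (w t * h t) ^ (2 : ℝ) by rw [ENNReal.rpow_two]; ring,
      ← ENNReal.rpow_mul]
    norm_num
  simp only [h3, h1, ENNReal.one_rpow, one_mul] at h2
  calc _ ≤ ((∫⁻ t, w t * h t ^ 2 ∂μ) ^ (1 / 2 : ℝ)) ^ 2 := by gcongr
    _ = _ := by
      rw [← ENNReal.rpow_two, ← ENNReal.rpow_mul]
      norm_num

theorem moll_pt {g : E → V} (hg : LocallyIntegrable g vol) (hm : StronglyMeasurable g)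
    (ρ : ContDiffBump (0 : E)) (z : E) :
    ‖(∫ y, ρ.normed vol (z - y) • g y ∂vol) - g z‖ₑ ^ 2 ≤
      ∫⁻ t, ENNReal.ofReal (ρ.normed vol t) * ‖g (z - t) - g z‖ₑ ^ 2 ∂vol := by
  have e1 : ∫ y, ρ.normed vol (z - y) • g y ∂vol = ∫ t, ρ.normed vol t • g (z - t) ∂vol := by
    rw [← integral_sub_left_eq_self (fun t => ρ.normed vol t • g (z - t)) vol z]
    simp
  have i1 : Integrable (fun t => ρ.normed vol t • g (z - t)) vol :=
    ρ.hasCompactSupport_normed.convolutionExists_left (ContinuousLinearMap.lsmul ℝ ℝ)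
      ρ.continuous_normed hg z
  have i2 : Integrable (fun t => ρ.normed vol t • g z) vol :=
    ρ.integrable_normed.smul_const _
  have e2 : (∫ y, ρ.normed vol (z - y) • g y ∂vol) - g z =
      ∫ t, ρ.normed vol t • (g (z - t) - g z) ∂vol := by
    rw [e1]
    simp only [smul_sub]
    rw [integral_sub i1 i2, ρ.integral_normed_smul]
  have hw : Measurable fun t => ENNReal.ofReal (ρ.normed vol t) :=
    ρ.continuous_normed.measurable.ennreal_ofReal
  have h1 : ∫⁻ t, ENNReal.ofReal (ρ.normed vol t) ∂vol = 1 := by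
    rw [← ofReal_integral_eq_lintegral_ofReal ρ.integrable_normed
      (Eventually.of_forall ρ.nonneg_normed), ρ.integral_normed]
    simp
  have hh : Measurable fun t => ‖g (z - t) - g z‖ₑ :=
    ((hm.comp_measurable (by fun_prop)).sub stronglyMeasurable_const).enorm
  refine le_trans ?_ (moll_cs hw.aemeasurable hh.aemeasurable h1)
  gcongr
  rw [e2]
  refine (enorm_integral_le_lintegral_enorm _).trans (le_of_eq ?_)
  refine lintegral_congr fun t => ?_
  rw [enorm_smul, Real.enorm_eq_ofReal (ρ.nonneg_normed t)]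

theorem moll_l2_aux {g : E → V} (hg : MemLp g 2 vol) (hm : StronglyMeasurable g) {ε : ℝ}
    (hε : 0 < ε) : ∃ r : ℝ, 0 < r ∧ ∀ ρ : ContDiffBump (0 : E), ρ.rOut ≤ r →
      ∫⁻ z, ‖(∫ y, ρ.normed vol (z - y) • g y ∂vol) - g z‖ₑ ^ 2 ∂vol ≤ ENNReal.ofReal ε := by
  obtain ⟨r, hr, hr'⟩ := moll_transl hg hε
  refine ⟨r, hr, fun ρ hρ => ?_⟩
  have hw : Measurable fun t => ENNReal.ofReal (ρ.normed vol t) :=
    ρ.continuous_normed.measurable.ennreal_ofReal
  have h1 : ∫⁻ t, ENNReal.ofReal (ρ.normed vol t) ∂vol = 1 := by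
    rw [← ofReal_integral_eq_lintegral_ofReal ρ.integrable_normed
      (Eventually.of_forall ρ.nonneg_normed), ρ.integral_normed]
    simp
  have hh : Measurable fun q : E × E => ‖g (q.1 - q.2) - g q.1‖ₑ :=
    ((hm.comp_measurable (by fun_prop)).sub (hm.comp_measurable measurable_fst)).enorm
  calc _ ≤ ∫⁻ z, ∫⁻ t, ENNReal.ofReal (ρ.normed vol t) * ‖g (z - t) - g z‖ₑ ^ 2 ∂vol ∂vol :=
        lintegral_mono fun z => moll_pt (hg.locallyIntegrable (by norm_num)) hm ρ z
    _ = ∫⁻ t, ∫⁻ z, ENNReal.ofReal (ρ.normed vol t) * ‖g (z - t) - g z‖ₑ ^ 2 ∂vol ∂vol :=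
        lintegral_lintegral_swap ((hw.comp measurable_snd).mul (hh.pow_const 2)).aemeasurable
    _ ≤ ∫⁻ t, ENNReal.ofReal (ρ.normed vol t) * ENNReal.ofReal ε ∂vol := by
        refine lintegral_mono fun t => ?_
        simp only
        rw [lintegral_const_mul' _ _ ENNReal.ofReal_ne_top]
        by_cases ht : ‖t‖ < r
        · gcongr
          exact hr' t ht
        · have : ρ.normed vol t = 0 := by
            by_contra h0
            have : t ∈ Function.support (ρ.normed vol) := h0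
            rw [ρ.support_normed_eq] at this
            exact ht (lt_of_lt_of_le (by simpa using this) hρ)
          simp [this]
    _ = ENNReal.ofReal ε := by
        rw [lintegral_mul_const _ hw, h1, one_mul]

/-- L² convergence of mollifications. Jensen gives ‖ρ ⋆ g‖₂ ≤ ‖g‖₂; approximate g in L² by a
continuous compactly supported g₀ (MemLp.exists_hasCompactSupport_eLpNorm_sub_le), uniform
continuity of g₀ (ContDiffBump.dist_normed_convolution_le). -/
theorem moll_l2 {g : E → V} (hg : MemLp g 2 vol) {ε : ℝ} (hε : 0 < ε) :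
    ∃ r : ℝ, 0 < r ∧ ∀ ρ : ContDiffBump (0 : E), ρ.rOut ≤ r →
      ∫⁻ z, ‖(∫ y, ρ.normed vol (z - y) • g y ∂vol) - g z‖ₑ ^ 2 ∂vol ≤ ENNReal.ofReal ε := by
  have he : g =ᵐ[vol] hg.1.mk g := hg.1.ae_eq_mk
  obtain ⟨r, hr, hr'⟩ := moll_l2_aux ((memLp_congr_ae he).1 hg) hg.1.stronglyMeasurable_mk hε
  refine ⟨r, hr, fun ρ hρ => le_trans (le_of_eq ?_) (hr' ρ hρ)⟩
  refine lintegral_congr_ae ?_
  filter_upwards [he] with z hz
  rw [hz]
  congr 3
  refine integral_congr_ae ?_
  filter_upwards [he] with y hy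
  rw [hy]

end

end Fuj
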