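import Vale.Agent.P271.HDefs

/-! Elementary facts on the weighted norm and scalar product; projection and Riesz lemmas. -/

namespace Fuj

open MeasureTheory Set Filter Topology Complex
open scoped ENNReal ContDiff ComplexConjugate

noncomputable section

section
variable {X : Type*} [MeasurableSpace X] (ν : Measure X)

theorem n0_riesz {V H : Type*} [AddCommGroup V] [Module ℂ V] [NormedAddCommGroup H]
    [InnerProductSpace ℂ H] [CompleteSpace H] (T : V →ₗ[ℂ] H) (ℓ : V →ₗ[ℂ] ℂ) {C : ℝ}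
    (hC : 0 ≤ C) (h : ∀ v, ‖ℓ v‖ ≤ C * ‖T v‖) :
    ∃ u : H, ‖u‖ ≤ C ∧ ∀ v, ℓ v = inner ℂ u (T v) := by
  obtain ⟨g, hg⟩ := LinearMap.exists_rightInverse_of_surjective T.rangeRestrict
    (LinearMap.range_rangeRestrict T)
  have hg' : ∀ x : LinearMap.range T, T (g x) = x := fun x =>
    congrArg Subtype.val (LinearMap.congr_fun hg x)
  have hb : ∀ x : LinearMap.range T, ‖(ℓ ∘ₗ g) x‖ ≤ C * ‖x‖ := fun x => by
    have := h (g x)
    rw [hg'] at this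
    exact this
  obtain ⟨F, hF, hFn⟩ := exists_extension_norm_eq (LinearMap.range T) ((ℓ ∘ₗ g).mkContinuous C hb)
  refine ⟨(InnerProductSpace.toDual ℂ H).symm F, ?_, fun v => ?_⟩
  · rw [LinearIsometryEquiv.norm_map, hFn]
    exact LinearMap.mkContinuous_norm_le _ hC _
  · rw [InnerProductSpace.toDual_symm_apply]
    have h1 := hF ⟨T v, LinearMap.mem_range_self T v⟩
    rw [h1]
    have h2 := h (v - g ⟨T v, LinearMap.mem_range_self T v⟩)
    rw [map_sub T, hg', sub_self, norm_zero, mul_zero, norm_le_zero_iff, map_sub,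
      sub_eq_zero] at h2
    exact h2

theorem n0_proj {V H : Type*} [AddCommGroup V] [Module ℂ V] [NormedAddCommGroup H]
    [InnerProductSpace ℂ H] [CompleteSpace H] (T : V →ₗ[ℂ] H) (y : H) :
    ∃ p : H, (∀ ε : ℝ, 0 < ε → ∃ v, ‖p - T v‖ ^ 2 ≤ ε) ∧ ∀ v, inner ℂ (T v) (y - p) = 0 := by
  let K := (LinearMap.range T).topologicalClosure
  refine ⟨K.starProjection y, fun ε hε => ?_, fun v => ?_⟩
  · have hm : K.starProjection y ∈ closure (LinearMap.range T : Set H) :=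
      K.starProjection_apply_mem y
    obtain ⟨b, ⟨v, rfl⟩, hb⟩ := Metric.mem_closure_iff.1 hm (Real.sqrt ε) (Real.sqrt_pos.2 hε)
    refine ⟨v, ?_⟩
    rw [dist_eq_norm] at hb
    calc ‖K.starProjection y - T v‖ ^ 2 ≤ Real.sqrt ε ^ 2 := by gcongr
      _ = ε := Real.sq_sqrt hε.le
  · exact Submodule.inner_right_of_mem_orthogonal
      ((LinearMap.range T).le_topologicalClosure (LinearMap.mem_range_self T v))
      (K.sub_starProjection_mem_orthogonal y)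

theorem n0_lint {w : X → ℝ} (hw : Measurable w) (hw0 : ∀ x, 0 < w x) (f : X → ℂ) :
    ∫⁻ x, ENNReal.ofReal (‖f x‖ ^ 2 * w x) ∂ν =
      eLpNorm f 2 (ν.withDensity fun x => ENNReal.ofReal (w x)) ^ 2 := by
  have h1 := eLpNorm_nnreal_pow_eq_lintegral (f := f)
    (μ := ν.withDensity fun x => ENNReal.ofReal (w x)) (p := 2) two_ne_zero
  simp only [ENNReal.coe_ofNat, NNReal.coe_ofNat, ENNReal.rpow_ofNat] at h1
  rw [h1, lintegral_withDensity_eq_lintegral_mul_non_measurable _ hw.ennreal_ofReal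
    (ae_of_all _ fun x => ENNReal.ofReal_lt_top)]
  refine lintegral_congr fun x => ?_
  simp only [Pi.mul_apply]
  rw [mul_comm, ENNReal.ofReal_mul (hw0 x).le, ENNReal.ofReal_pow (norm_nonneg _),
    ofReal_norm]

theorem n0_int {w : X → ℝ} (hw : Measurable w) (hw0 : ∀ x, 0 < w x) (g : X → ℂ) :
    ∫ x, g x * (w x : ℝ) ∂ν = ∫ x, g x ∂(ν.withDensity fun x => ENNReal.ofReal (w x)) := by
  rw [integral_withDensity_eq_integral_toReal_smul hw.ennreal_ofReal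
    (ae_of_all _ fun x => ENNReal.ofReal_lt_top)]
  refine integral_congr_ae (ae_of_all _ fun x => ?_)
  simp only [ENNReal.toReal_ofReal (hw0 x).le, Complex.real_smul, mul_comm]

theorem n0_mem {w : X → ℝ} (hw : Measurable w) (hw0 : ∀ x, 0 < w x) {f : X → ℂ}
    (hf : Measurable f) (h : ∫⁻ x, ENNReal.ofReal (‖f x‖ ^ 2 * w x) ∂ν ≠ ⊤) :
    MemLp f 2 (ν.withDensity fun x => ENNReal.ofReal (w x)) := by
  refine ⟨hf.aestronglyMeasurable, lt_top_iff_ne_top.2 fun ht => h ?_⟩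
  rw [n0_lint ν hw hw0, ht]
  simp

theorem n0_norm {w : X → ℝ} (hw : Measurable w) (hw0 : ∀ x, 0 < w x) {f : X → ℂ}
    (F : Lp ℂ 2 (ν.withDensity fun x => ENNReal.ofReal (w x)))
    (h : F =ᵐ[ν.withDensity fun x => ENNReal.ofReal (w x)] f) :
    ∫⁻ x, ENNReal.ofReal (‖f x‖ ^ 2 * w x) ∂ν = ENNReal.ofReal (‖F‖ ^ 2) := by
  rw [n0_lint ν hw hw0, ← eLpNorm_congr_ae h, ENNReal.ofReal_pow (norm_nonneg _), Lp.norm_def,
    ENNReal.ofReal_toReal (Lp.eLpNorm_ne_top F)]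

theorem n0_inner {w : X → ℝ} (hw : Measurable w) (hw0 : ∀ x, 0 < w x) {f g : X → ℂ}
    (F G : Lp ℂ 2 (ν.withDensity fun x => ENNReal.ofReal (w x)))
    (hf : F =ᵐ[ν.withDensity fun x => ENNReal.ofReal (w x)] f)
    (hg : G =ᵐ[ν.withDensity fun x => ENNReal.ofReal (w x)] g) :
    ∫ x, f x * conj (g x) * (w x : ℝ) ∂ν = inner ℂ G F := by
  rw [n0_int ν hw hw0, L2.inner_def]
  refine integral_congr_ae ?_
  filter_upwards [hf, hg] with x h1 h2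
  rw [h1, h2, RCLike.inner_apply]

/-- Projection onto the closure of a space of forms. Map R into Lp (EuclideanSpace ℂ κ) 2 ν (or
PiLp 2 of Lp ℂ 2 ν) by r ↦ √w r, project γ onto the topological closure of the range, take a
measurable representative and divide by √w. -/
theorem l2_proj {w : X → ℝ} (hw : Measurable w) (hw0 : ∀ x, 0 < w x) {κ : Type*} [Fintype κ]
    (R : Submodule ℂ (κ → X → ℂ))
    (hR : ∀ r ∈ R, ∀ j, Measurable (r j) ∧ ∫⁻ x, ENNReal.ofReal (‖r j x‖ ^ 2 * w x) ∂ν ≠ ⊤)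
    (γ : κ → X → ℂ)
    (hγ : ∀ j, Measurable (γ j) ∧ ∫⁻ x, ENNReal.ofReal (‖γ j x‖ ^ 2 * w x) ∂ν ≠ ⊤) :
    ∃ γ₁ : κ → X → ℂ,
      (∀ j, Measurable (γ₁ j) ∧ ∫⁻ x, ENNReal.ofReal (‖γ₁ j x‖ ^ 2 * w x) ∂ν ≠ ⊤) ∧
      (∀ ε : ℝ, 0 < ε → ∃ r ∈ R,
        ∑ j, ∫⁻ x, ENNReal.ofReal (‖γ₁ j x - r j x‖ ^ 2 * w x) ∂ν ≤ ENNReal.ofReal ε) ∧
      ∀ r ∈ R, ∑ j, ∫ x, (γ j x - γ₁ j x) * conj (r j x) * (w x : ℝ) ∂ν = 0 := by
  have hm : ∀ (r : R) (j : κ), MemLp (r.1 j) 2 (ν.withDensity fun x => ENNReal.ofReal (w x)) :=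
    fun r j => n0_mem ν hw hw0 (hR r.1 r.2 j).1 (hR r.1 r.2 j).2
  have hm' : ∀ j : κ, MemLp (γ j) 2 (ν.withDensity fun x => ENNReal.ofReal (w x)) :=
    fun j => n0_mem ν hw hw0 (hγ j).1 (hγ j).2
  let T : R →ₗ[ℂ] PiLp 2 (fun _ : κ => Lp ℂ 2 (ν.withDensity fun x => ENNReal.ofReal (w x))) :=
    { toFun := fun r => WithLp.toLp 2 fun j => (hm r j).toLp (r.1 j)
      map_add' := fun _ _ => rfl
      map_smul' := fun _ _ => rfl }
  have hT : ∀ (r : R) (j : κ),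
      T r j =ᵐ[ν.withDensity fun x => ENNReal.ofReal (w x)] r.1 j := fun r j => (hm r j).coeFn_toLp
  obtain ⟨p, hp1, hp2⟩ := n0_proj T (WithLp.toLp 2 fun j => (hm' j).toLp (γ j))
  refine ⟨fun j => p j, fun j => ⟨(Lp.stronglyMeasurable (p j)).measurable, ?_⟩, fun ε hε => ?_,
    fun r hr => ?_⟩
  · rw [n0_norm ν hw hw0 (p j) EventuallyEq.rfl]
    exact ENNReal.ofReal_ne_top
  · obtain ⟨v, hv⟩ := hp1 ε hε
    refine ⟨v.1, v.2, ?_⟩
    have h1 : ∀ j, ∫⁻ x, ENNReal.ofReal (‖p j x - v.1 j x‖ ^ 2 * w x) ∂ν =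
        ENNReal.ofReal (‖(p - T v) j‖ ^ 2) := fun j => by
      refine n0_norm ν hw hw0 ((p - T v) j) ?_
      filter_upwards [Lp.coeFn_sub (p j) (T v j), hT v j] with x h1 h2
      rw [PiLp.sub_apply, h1, Pi.sub_apply, h2]
    simp only [h1]
    rw [← ENNReal.ofReal_sum_of_nonneg fun j _ => by positivity, ← PiLp.norm_sq_eq_of_L2]
    exact ENNReal.ofReal_le_ofReal hv
  · have h1 := hp2 ⟨r, hr⟩
    rw [PiLp.inner_apply] at h1
    refine (Finset.sum_congr rfl fun j _ => ?_).trans h1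
    refine n0_inner ν hw hw0 _ _ ?_ (hT ⟨r, hr⟩ j)
    filter_upwards [Lp.coeFn_sub ((hm' j).toLp (γ j)) (p j), (hm' j).coeFn_toLp] with x h1 h2
    rw [PiLp.sub_apply, PiLp.toLp_apply, h1, Pi.sub_apply, h2]

/-- Riesz representation. The relation G defines a bounded functional on the image of G in
Lp ℂ 2 ν (t ↦ √w t); extend it (exists_extension_norm_eq) and use InnerProductSpace.toDual. -/
theorem l2_riesz {w : X → ℝ} (hw : Measurable w) (hw0 : ∀ x, 0 < w x)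
    (G : Submodule ℂ ((X → ℂ) × ℂ)) {M : ℝ≥0∞} (hM : M ≠ ⊤)
    (hG : ∀ t ∈ G, Measurable t.1 ∧ ∫⁻ x, ENNReal.ofReal (‖t.1 x‖ ^ 2 * w x) ∂ν ≠ ⊤ ∧
      ENNReal.ofReal (‖t.2‖ ^ 2) ≤ M * ∫⁻ x, ENNReal.ofReal (‖t.1 x‖ ^ 2 * w x) ∂ν) :
    ∃ u : X → ℂ, Measurable u ∧ ∫⁻ x, ENNReal.ofReal (‖u x‖ ^ 2 * w x) ∂ν ≤ M ∧
      ∀ t ∈ G, t.2 = ∫ x, t.1 x * conj (u x) * (w x : ℝ) ∂ν := by
  have hm : ∀ t : G, MemLp t.1.1 2 (ν.withDensity fun x => ENNReal.ofReal (w x)) :=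
    fun t => n0_mem ν hw hw0 (hG t.1 t.2).1 (hG t.1 t.2).2.1
  let T : G →ₗ[ℂ] Lp ℂ 2 (ν.withDensity fun x => ENNReal.ofReal (w x)) :=
    { toFun := fun t => (hm t).toLp t.1.1
      map_add' := fun _ _ => rfl
      map_smul' := fun _ _ => rfl }
  have hT : ∀ t : G, T t =ᵐ[ν.withDensity fun x => ENNReal.ofReal (w x)] t.1.1 :=
    fun t => (hm t).coeFn_toLp
  have hb : ∀ t : G, ‖((LinearMap.snd ℂ (X → ℂ) ℂ) ∘ₗ G.subtype) t‖ ≤
      Real.sqrt M.toReal * ‖T t‖ := fun t => by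
    have h1 := (hG t.1 t.2).2.2
    rw [n0_norm ν hw hw0 (T t) (hT t), ← ENNReal.ofReal_toReal hM,
      ← ENNReal.ofReal_mul ENNReal.toReal_nonneg,
      ENNReal.ofReal_le_ofReal_iff (by positivity)] at h1
    refine (pow_le_pow_iff_left₀ (norm_nonneg _) (by positivity) two_ne_zero).1 ?_
    rw [mul_pow, Real.sq_sqrt ENNReal.toReal_nonneg]
    exact h1
  obtain ⟨u, hu, hu'⟩ := n0_riesz T _ (Real.sqrt_nonneg _) hb
  refine ⟨u, (Lp.stronglyMeasurable u).measurable, ?_, fun t ht => ?_⟩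
  · rw [n0_norm ν hw hw0 u EventuallyEq.rfl, ← ENNReal.ofReal_toReal hM]
    refine ENNReal.ofReal_le_ofReal ?_
    calc ‖u‖ ^ 2 ≤ Real.sqrt M.toReal ^ 2 := by gcongr
      _ = M.toReal := Real.sq_sqrt ENNReal.toReal_nonneg
  · rw [n0_inner ν hw hw0 (T ⟨t, ht⟩) u (hT ⟨t, ht⟩) EventuallyEq.rfl]
    exact hu' ⟨t, ht⟩

end

end

end Fuj
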