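import Vale.Agent.P271.HIbp

/-! Removable singularities for square integrable holomorphic functions. -/

namespace Fuj

open MeasureTheory Set Filter Topology Complex
open scoped ENNReal ContDiff ComplexConjugate

noncomputable section

theorem HRS0_deriv (n : ℕ) (s : ℝ) :
    HasDerivAt (fun s : ℝ => max s 0 ^ (n + 2)) ((n + 2 : ℕ) * max s 0 ^ (n + 1)) s := by
  rcases lt_trichotomy s 0 with h | rfl | h
  · have : (fun s : ℝ => max s 0 ^ (n + 2)) =ᶠ[𝓝 s] fun _ => 0 := by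
      filter_upwards [Iio_mem_nhds h] with x hx
      simp [max_eq_right (le_of_lt (mem_Iio.1 hx))]
    refine ((hasDerivAt_const s (0 : ℝ)).congr_of_eventuallyEq this).congr_deriv ?_
    simp [max_eq_right h.le]
  · rw [hasDerivAt_iff_isLittleO_nhds_zero]
    refine Asymptotics.IsBigO.trans_isLittleO (Asymptotics.IsBigO.of_bound' ?_)
      (Asymptotics.isLittleO_pow_id (n := n + 2) (by omega))
    refine Eventually.of_forall fun x => ?_
    simp only [zero_add, max_self, ne_eq, Nat.add_eq_zero_iff, OfNat.ofNat_ne_zero, and_false,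
      not_false_eq_true, zero_pow, sub_zero, one_ne_zero, mul_zero, smul_eq_mul, norm_pow,
      Real.norm_eq_abs]
    refine pow_le_pow_left₀ (abs_nonneg _) ?_ _
    rw [abs_of_nonneg (le_max_right _ _)]
    exact max_le (le_abs_self _) (abs_nonneg _)
  · have : (fun s : ℝ => max s 0 ^ (n + 2)) =ᶠ[𝓝 s] fun s => s ^ (n + 2) := by
      filter_upwards [Ioi_mem_nhds h] with x hx
      rw [max_eq_left (le_of_lt hx)]
    refine ((hasDerivAt_pow (n + 2) s).congr_of_eventuallyEq this).congr_deriv ?_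
    simp [max_eq_left h.le]

theorem HRS0_contDiff (n : ℕ) : ContDiff ℝ n fun s : ℝ => max s 0 ^ (n + 1) := by
  induction n with
  | zero => exact contDiff_zero.2 (by fun_prop)
  | succ n ih =>
    rw [Nat.cast_succ, contDiff_succ_iff_deriv]
    refine ⟨fun s => (HRS0_deriv n s).differentiableAt, by simp, ?_⟩
    rw [show deriv (fun s : ℝ => max s 0 ^ (n + 1 + 1)) = _ from
      funext fun s => (HRS0_deriv n s).deriv]
    exact contDiff_const.mul ih

variable {E : Type*} [NormedAddCommGroup E] [NormedSpace ℝ E] [NormedSpace ℂ E]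
  [IsScalarTower ℝ ℂ E] [FiniteDimensional ℂ E] [MeasurableSpace E] [BorelSpace E]
  {vol : Measure E} [vol.IsAddHaarMeasure]

theorem HRS0_test {V K : Set E} (hV : IsOpen V) (hK : IsCompact K) (hKV : K ⊆ V) :
    ∃ η : E → ℝ, TestOn V η ∧ (∀ z, 0 ≤ η z) ∧ ∀ z ∈ K, η z = 1 := by
  have : FiniteDimensional ℝ E := Module.Finite.trans ℂ E
  have := FiniteDimensional.proper ℂ E
  obtain ⟨L, hL, h1, h2⟩ := exists_compact_between hK hV hKV
  obtain ⟨f, f0, f1, f2⟩ := exists_contMDiffMap_zero_one_of_isClosed (n := ⊤)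
    (modelWithCornersSelf ℝ E) isOpen_interior.isClosed_compl hK.isClosed
    (disjoint_compl_left_iff_subset.2 h1)
  have hs : tsupport f ⊆ L := closure_minimal
    (fun z hz => by_contra fun h => hz (f0 fun h' => h (interior_subset h'))) hL.isClosed
  exact ⟨f, ⟨f.contMDiff.contDiff, hL.of_isClosed_subset (isClosed_tsupport _) hs, hs.trans h2⟩,
    fun z => (f2 z).1, fun z hz => f1 hz⟩

theorem HRS0_energy {V : Set E} (hV : IsOpen V) {η : E → ℝ} (hη : TestOn V η) (ξ : E) :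
    ∃ C : ℝ, 0 ≤ C ∧ ∀ (ψ : E → ℝ) (B : ℝ), ContDiffOn ℝ 2 ψ V →
      (∀ z ∈ tsupport η, |ψ z| ≤ B) → IntegrableOn (fun z => η z * levi ψ z ξ) V vol ∧
        ∫ z in V, η z * levi ψ z ξ ∂vol ≤ C * B := by
  have hK := hη.2.1.isCompact
  have hu : ContDiffOn ℝ ∞ (fun y => conj (dzr η y ξ)) V :=
    conjCLE.contDiff.comp_contDiffOn (contDiffOn_dzr hV hη.1.contDiffOn ξ)
  have ha := (contDiffOn_dz hV hu ξ).continuousOn
  have a0 : ∀ z ∈ V, z ∉ tsupport η → dz (fun y => conj (dzr η y ξ)) z ξ = 0 := fun z _ hz => by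
    have : (fun y => conj (dzr η y ξ)) =ᶠ[𝓝 z] fun _ => 0 := by
      filter_upwards [(isClosed_tsupport η).isOpen_compl.mem_nhds hz] with y hy
      simp [hη.dzr_eq_zero hy]
    rw [dz_congr this, dz_const]
  have ia := integrableOn_of_supp (vol := vol) hV hK hη.2.2 ha a0
  refine ⟨∫ z in V, ‖dz (fun y => conj (dzr η y ξ)) z ξ‖ ∂vol,
    integral_nonneg fun _ => norm_nonneg _, fun ψ B hψ hB => ?_⟩
  have hψc : ContDiffOn ℝ 2 (fun y => (ψ y : ℂ)) V := ofRealCLM.contDiff.comp_contDiffOn hψ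
  have hg : ContDiffOn ℝ 1 (fun y => dzr ψ y ξ) V := by
    have := hψc.fderiv_of_isOpen (m := 1) hV le_rfl
    exact ((this.clm_apply contDiffOn_const).sub
      (contDiffOn_const.mul (this.clm_apply contDiffOn_const))).div_const 2
  have cL : ContinuousOn (fun z => leviC ψ z ξ ξ) V := by
    have := hg.continuousOn_fderiv_of_isOpen hV le_rfl
    exact ((this.clm_apply continuousOn_const).add
      (continuousOn_const.mul (this.clm_apply continuousOn_const))).div_const 2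
  refine ⟨integrableOn_of_supp hV hK hη.2.2 (hη.1.continuous.continuousOn.mul
    (continuous_re.comp_continuousOn cL)) fun z _ hz => by
      simp [image_eq_zero_of_notMem_tsupport hz], ?_⟩
  have e1 := ibp_db (vol := vol) hV hη hg ξ
  have e2 := setIntegral_dz_zero (vol := vol) hV hK hη.2.2
    (h := fun y => conj (dzr η y ξ) * (ψ y : ℂ)) ((hu.of_le (by simp)).mul (hψc.of_le (by simp)))
    (fun z _ hz => by simp [hη.dzr_eq_zero hz]) ξ
  have i1 : IntegrableOn (fun z => dz (fun y => conj (dzr η y ξ)) z ξ * (ψ z : ℂ)) V vol :=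
    integrableOn_of_supp hV hK hη.2.2 (ha.mul hψc.continuousOn) fun z hz hz' => by
      simp [a0 z hz hz']
  have i2 : IntegrableOn (fun z => conj (dzr η z ξ) * dzr ψ z ξ) V vol :=
    integrableOn_of_supp hV hK hη.2.2 (hu.continuousOn.mul hg.continuousOn) fun z _ hz' => by
      simp [hη.dzr_eq_zero hz']
  rw [setIntegral_congr_fun hV.measurableSet fun z hz => dz_mul
    ((hu.contDiffAt (hV.mem_nhds hz)).differentiableAt (by simp))
    ((hψc.contDiffAt (hV.mem_nhds hz)).differentiableAt (by simp)) ξ] at e2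
  erw [integral_add i1 i2, e1] at e2
  have e3 : ((∫ z in V, η z * levi ψ z ξ ∂vol : ℝ) : ℂ) =
      ∫ z in V, dz (fun y => conj (dzr η y ξ)) z ξ * (ψ z : ℂ) ∂vol := by
    rw [add_neg_eq_zero.1 e2, ← integral_complex_ofReal]
    refine setIntegral_congr_fun hV.measurableSet fun z hz => ?_
    simp only [ofReal_mul, levi_ofReal (hψ.contDiffAt (hV.mem_nhds hz))]
    rfl
  refine (le_abs_self _).trans ?_
  rw [← Real.norm_eq_abs, ← Complex.norm_real, e3, ← integral_mul_const]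
  refine norm_integral_le_of_norm_le (ia.norm.mul_const B)
    ((ae_restrict_iff' hV.measurableSet).2 (Eventually.of_forall fun z hz => ?_))
  by_cases hz' : z ∈ tsupport η
  · rw [norm_mul, Complex.norm_real]
    exact mul_le_mul_of_nonneg_left (hB z hz') (norm_nonneg _)
  · simp [a0 z hz hz']

/-- The cutoffs χ_k = h (1 + log |c|² / (k + 1)) off the zero set of c, 0 on it, h s = (max s 0)³ (any
C² convex function vanishing on (-∞, 0] with h 1 = 1 will do, e.g. a power of max s 0). χ_k vanishes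
where |c|² < exp (-(k + 1)), is C² on V and bounded on compact sets uniformly in k. Energy bound: log |c|² has
zero Levi form, so levi (χ_k²) ξ = (h²)'' |dzr log|c|² ξ|² / (k + 1)² ≥ 2 |dzr χ_k ξ|²; hence for a test
function η with η = 1 on K (or η ≥ 1), 2 ∫ η |dzr χ_k ξ|² ≤ ∫ η levi (χ_k²) = ∫ χ_k² levi η ≤ C
(two integrations by parts). -/
theorem rs_cut {V : Set E} (hV : IsOpen V) {c : E → ℂ} (hc : DifferentiableOn ℂ c V) :
    ∃ χ : ℕ → E → ℝ, (∀ k, ContDiffOn ℝ 2 (χ k) V) ∧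
      (∀ k : ℕ, ∀ z ∈ V, ‖c z‖ ^ 2 < Real.exp (-((k : ℝ) + 1)) → χ k z = 0) ∧
      (∀ z ∈ V, c z ≠ 0 → Tendsto (fun k => χ k z) atTop (𝓝 1)) ∧
      ∀ K, IsCompact K → K ⊆ V → ∀ ξ : E, ∃ C : ℝ, (∀ k, ∀ z ∈ K, |χ k z| ≤ C) ∧
        (∀ k, ∫⁻ z in K, ENNReal.ofReal (‖dzr (χ k) z ξ‖ ^ 2) ∂vol ≤ ENNReal.ofReal C) ∧
        ∀ r : ℝ, 0 < r → ∀ ε : ℝ, 0 < ε → ∀ᶠ k in atTop, ∀ z ∈ K, r ≤ ‖c z‖ →
          ‖dzr (χ k) z ξ‖ ≤ ε := by
  classical
  have cs := contDiffOn_of_hol hV hc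
  have cd : ∀ z ∈ V, ∀ᶠ y in 𝓝 z, DifferentiableAt ℂ c y := fun z hz => by
    filter_upwards [hV.mem_nhds hz] with y hy using hc.differentiableAt (hV.mem_nhds hy)
  set l : ℕ → E → ℝ := fun k z => 1 + 1 / ((k : ℝ) + 1) * Real.log (‖c z‖ ^ 2) with hl
  set χ : ℕ → E → ℝ := fun k z => if c z = 0 then 0 else max (l k z) 0 ^ 3 with hχ
  have two : (2 : WithTop ℕ∞) ≤ ((⊤ : ℕ∞) : WithTop ℕ∞) :=
    WithTop.coe_le_coe.2 (le_top : (2 : ℕ∞) ≤ ⊤)
  have z0 : ∀ (k : ℕ) z, ‖c z‖ ^ 2 < Real.exp (-((k : ℝ) + 1)) → χ k z = 0 := fun k z h => by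
    by_cases h0 : c z = 0
    · simp [hχ, h0]
    · have h1 := Real.log_lt_log (by positivity) h
      rw [Real.log_exp] at h1
      have hk : (0 : ℝ) < k + 1 := by positivity
      have : l k z ≤ 0 := by
        have : 1 / ((k : ℝ) + 1) * Real.log (‖c z‖ ^ 2) ≤ -1 := by
          rw [one_div_mul_eq_div, div_le_iff₀ hk]
          linarith
        simp only [hl]
        linarith
      simp [hχ, h0, max_eq_right this]
  have ev0 : ∀ k, ∀ z ∈ V, c z = 0 → χ k =ᶠ[𝓝 z] fun _ => 0 := fun k z hz h0 => by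
    have : ContinuousAt (fun y => ‖c y‖ ^ 2) z :=
      (cd z hz).self_of_nhds.continuousAt.norm.pow 2
    filter_upwards [this.eventually_lt (continuousAt_const (y := Real.exp (-((k : ℝ) + 1))))
      (by simpa [h0] using Real.exp_pos _)] with y hy using z0 k y hy
  have ev1 : ∀ k, ∀ z ∈ V, c z ≠ 0 → χ k =ᶠ[𝓝 z] fun y => max (l k y) 0 ^ 3 := fun k z hz h0 => by
    filter_upwards [(cd z hz).self_of_nhds.continuousAt.eventually_ne h0] with y hy
    simp [hχ, hy]
  have sl : ∀ z ∈ V, c z ≠ 0 → ContDiffAt ℝ 2 (fun y => Real.log (‖c y‖ ^ 2)) z := fun z hz h0 =>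
    (((cs.contDiffAt (hV.mem_nhds hz)).of_le two).norm_sq ℂ).log (by positivity)
  have sl' : ∀ k, ∀ z ∈ V, c z ≠ 0 → ContDiffAt ℝ 2 (l k) z := fun k z hz h0 =>
    contDiffAt_const.add (contDiffAt_const.mul (sl z hz h0))
  have sχ : ∀ k, ContDiffOn ℝ 2 (χ k) V := fun k z hz => by
    refine ContDiffAt.contDiffWithinAt ?_
    by_cases h0 : c z = 0
    · exact contDiffAt_const.congr_of_eventuallyEq (ev0 k z hz h0)
    · exact ((HRS0_contDiff 2).contDiffAt.comp z (sl' k z hz h0)).congr_of_eventuallyEq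
        (ev1 k z hz h0)
  have dχ : ∀ k, ∀ z ∈ V, c z ≠ 0 → ∀ ξ,
      ‖dzr (χ k) z ξ‖ = 3 * max (l k z) 0 ^ 2 * ‖dzr (l k) z ξ‖ := fun k z hz h0 ξ => by
    rw [dzr_congr (ev1 k z hz h0), dzr_comp ((sl' k z hz h0).differentiableAt two_ne_zero)
      (HRS0_deriv 1 _), norm_mul, Complex.norm_real, Real.norm_of_nonneg (by positivity)]
    norm_num
  have dl : ∀ k, ∀ z ∈ V, c z ≠ 0 → ∀ ξ,
      ‖dzr (l k) z ξ‖ = 1 / ((k : ℝ) + 1) * (‖fderiv ℂ c z ξ‖ / ‖c z‖) := fun k z hz h0 ξ => by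
    have d := (sl z hz h0).differentiableAt two_ne_zero
    rw [hl]
    beta_reduce
    rw [dzr_add (differentiableAt_const _) (d.const_mul _), dzr_const, dzr_const_mul d,
      dzr_log_normSq (cd z hz).self_of_nhds h0, zero_add, norm_mul, norm_div, Complex.norm_real,
      Real.norm_of_nonneg (by positivity)]
  have en : ∀ k, ∀ z ∈ V, ∀ ξ, ‖dzr (χ k) z ξ‖ ^ 2 ≤ levi (fun y => χ k y ^ 2) z ξ := by
    intro k z hz ξ
    by_cases h0 : c z = 0
    · have : (fun y => χ k y ^ 2) =ᶠ[𝓝 z] fun _ => 0 := by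
        filter_upwards [ev0 k z hz h0] with y hy
        simp [hy]
      simp [dzr_congr (ev0 k z hz h0), levi_congr this, dzr_const, levi_const]
    · have : (fun y => χ k y ^ 2) =ᶠ[𝓝 z] fun y => max (l k y) 0 ^ (4 + 2) := by
        filter_upwards [ev1 k z hz h0] with y hy
        rw [hy]
        ring
      have l0 : levi (l k) z ξ = 0 := by
        rw [hl]
        beta_reduce
        rw [levi_add contDiffAt_const (contDiffAt_const.mul (sl z hz h0)), levi_const,
          levi_const_mul (sl z hz h0), levi, leviC_log_normSq (cd z hz) h0]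
        simp
      rw [levi_congr this, levi_comp (sl' k z hz h0) (Eventually.of_forall (HRS0_deriv 4))
        ((HRS0_deriv 3 _).const_mul _), l0, dχ k z hz h0]
      push_cast
      nlinarith [mul_nonneg (sq_nonneg (max (l k z) 0 ^ 2)) (sq_nonneg ‖dzr (l k) z ξ‖)]
  have bd : ∀ K, IsCompact K → K ⊆ V → ∃ B : ℝ, 0 ≤ B ∧ ∀ k, ∀ z ∈ K, max (l k z) 0 ≤ B := by
    intro K hK hKV
    obtain ⟨B, hB⟩ := hK.exists_bound_of_continuousOn (hc.continuousOn.mono hKV)
    refine ⟨1 + B ^ 2, by positivity, fun k z hz => max_le (add_le_add_right ?_ _) (by positivity)⟩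
    have h1 := (Real.log_le_self (sq_nonneg ‖c z‖)).trans
      (pow_le_pow_left₀ (norm_nonneg _) (hB z hz) 2)
    refine (mul_le_mul_of_nonneg_left h1 (by positivity)).trans
      (mul_le_of_le_one_left (sq_nonneg _) ?_)
    rw [div_le_one (by positivity)]
    exact le_add_of_nonneg_left (by positivity)
  have bd' : ∀ k z B, 0 ≤ B → max (l k z) 0 ≤ B → |χ k z| ≤ B ^ 3 := fun k z B hB h => by
    by_cases h0 : c z = 0
    · simp only [hχ, h0, if_true, abs_zero]
      positivity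
    · simp only [hχ, h0, if_false]
      rw [abs_of_nonneg (by positivity)]
      exact pow_le_pow_left₀ (le_max_right _ _) h 3
  refine ⟨χ, sχ, fun k z _ => z0 k z, fun z hz h0 => ?_, fun K hK hKV ξ => ?_⟩
  · have := ((((tendsto_one_div_add_atTop_nhds_zero_nat (𝕜 := ℝ)).mul_const
      (Real.log (‖c z‖ ^ 2))).const_add 1).max (tendsto_const_nhds (x := (0 : ℝ)))).pow 3
    simpa [hχ, hl, h0] using this
  obtain ⟨η, hη, η0, η1⟩ := HRS0_test hV hK hKV
  obtain ⟨C, hC, hE⟩ := HRS0_energy (vol := vol) hV hη ξ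
  obtain ⟨B, hB0, hB⟩ := bd K hK hKV
  obtain ⟨B', hB0', hB'⟩ := bd _ hη.2.1.isCompact hη.2.2
  refine ⟨max (B ^ 3) (C * (B' ^ 3) ^ 2), fun k z hz =>
    (bd' k z B hB0 (hB k z hz)).trans (le_max_left _ _), fun k => ?_, fun r hr ε hε => ?_⟩
  · obtain ⟨i1, i2⟩ := hE (fun y => χ k y ^ 2) ((B' ^ 3) ^ 2) ((sχ k).pow 2) fun z hz => by
      rw [abs_pow]
      exact pow_le_pow_left₀ (abs_nonneg _) (bd' k z B' hB0' (hB' k z hz)) 2
    refine le_trans ?_ (ENNReal.ofReal_le_ofReal (i2.trans (le_max_right _ _)))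
    rw [ofReal_integral_eq_lintegral_ofReal i1 ((ae_restrict_iff' hV.measurableSet).2
      (Eventually.of_forall fun z hz => mul_nonneg (η0 z) ((sq_nonneg _).trans (en k z hz ξ))))]
    refine le_trans (setLIntegral_mono' hK.measurableSet fun z hz => ?_) (lintegral_mono_set hKV)
    rw [η1 z hz, one_mul]
    exact ENNReal.ofReal_le_ofReal (en k z (hKV hz) ξ)
  · obtain ⟨D, hD⟩ := hK.exists_bound_of_continuousOn
      ((contDiffOn_dz hV cs ξ).continuousOn.mono hKV)
    have := (tendsto_one_div_add_atTop_nhds_zero_nat (𝕜 := ℝ)).mul_const (|D| / r) |>.const_mul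
      (3 * B ^ 2)
    filter_upwards [this.eventually_le_const (by simpa using hε)] with k hk z hz hrz
    have h0 : c z ≠ 0 := norm_pos_iff.1 (hr.trans_le hrz)
    have hD' := (hD z hz).trans (le_abs_self D)
    rw [dz_hol (cd z (hKV hz)).self_of_nhds] at hD'
    rw [dχ k z (hKV hz) h0, dl k z (hKV hz) h0]
    refine le_trans ?_ hk
    have := hB k z hz
    gcongr

end

end Fuj
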