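import Vale.Agent.P271.HCalc2

/-! Sheets: independence of the chart, closure properties of smooth objects. -/

namespace Fuj

open MeasureTheory Set Filter Topology Complex
open scoped ENNReal ContDiff ComplexConjugate

noncomputable section

namespace Sheets

set_option linter.unusedSectionVars false

variable {E W : Type*} [NormedAddCommGroup E] [NormedSpace ℝ E] [NormedSpace ℂ E]
  [IsScalarTower ℝ ℂ E] [FiniteDimensional ℂ E] [MeasurableSpace E] [BorelSpace E]
  [TopologicalSpace W] [T2Space W] [MeasurableSpace W] [BorelSpace W]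
  {vol : Measure E} [vol.IsAddHaarMeasure] (S : Sheets E W vol)
  {κ : Type*} [Fintype κ] (b : Module.Basis κ ℂ E)

theorem symm_π {i : S.ι} {p : W} (hp : p ∈ (S.e i).source) : (S.e i).symm (S.π p) = p := by
  rw [← S.e_eq i p hp, (S.e i).left_inv hp]

theorem π_mem {i : S.ι} {p : W} (hp : p ∈ (S.e i).source) : S.π p ∈ (S.e i).target := by
  rw [← S.e_eq i p hp]; exact (S.e i).map_source hp

theorem π_symm {i : S.ι} {z : E} (hz : z ∈ (S.e i).target) : S.π ((S.e i).symm z) = z := by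
  rw [← S.e_eq i _ ((S.e i).map_target hz), (S.e i).right_inv hz]

theorem idx_mem (p : W) : p ∈ (S.e (S.idx p)).source := by
  exact (S.cover p).choose_spec

theorem continuous_π : Continuous S.π := by
  rw [continuous_iff_continuousAt]
  intro p
  obtain ⟨i, hi⟩ := S.cover p
  have h1 := (S.e i).continuousAt hi
  refine h1.congr ?_
  filter_upwards [(S.e i).open_source.mem_nhds hi] with q hq using S.e_eq i q hq

theorem rep_π {i : S.ι} {p : W} (hp : p ∈ (S.e i).source) (f : W → ℂ) :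
    S.rep i f (S.π p) = S.τ i p * f p := by
  rw [rep, S.symm_π hp]

theorem loc_π {i : S.ι} {p : W} (hp : p ∈ (S.e i).source) (h : W → ℝ) :
    S.loc i h (S.π p) = h p := by
  rw [loc, S.symm_π hp]

theorem exp_wt {i : S.ι} {z : E} (hz : z ∈ (S.e i).target) (φ : W → ℝ) :
    Real.exp (-φ ((S.e i).symm z)) =
      ‖S.τ i ((S.e i).symm z)‖ ^ 2 * Real.exp (-S.wt i φ z) := by
  have h0 : 0 < ‖S.τ i ((S.e i).symm z)‖ ^ 2 :=
    pow_pos (norm_pos_iff.2 (S.τ_ne i _ ((S.e i).map_target hz))) 2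
  rw [wt, neg_add, Real.exp_add, Real.exp_neg (Real.log _), Real.exp_log h0, mul_left_comm,
    mul_inv_cancel₀ h0.ne', mul_one]

theorem sh0_open (i j : S.ι) : IsOpen ((S.e i).target ∩ (S.e i).symm ⁻¹' (S.e j).source) :=
  (S.e i).isOpen_inter_preimage_symm (S.e j).open_source

theorem sh0_mem {i j : S.ι} {p : W} (hi : p ∈ (S.e i).source) (hj : p ∈ (S.e j).source) :
    (S.e i).target ∩ (S.e i).symm ⁻¹' (S.e j).source ∈ 𝓝 (S.π p) :=
  (S.sh0_open i j).mem_nhds ⟨S.π_mem hi, by rw [mem_preimage, S.symm_π hi]; exact hj⟩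

theorem sh0_symm {i j : S.ι} {z : E}
    (hz : z ∈ (S.e i).target ∩ (S.e i).symm ⁻¹' (S.e j).source) :
    (S.e i).symm z = (S.e j).symm z := by
  have := S.symm_π (i := j) hz.2
  rw [S.π_symm hz.1] at this
  exact this.symm

/-- Near π p the point (e i).symm z lies in the source of e j and π maps it to z. -/
theorem symm_eventuallyEq {i j : S.ι} {p : W} (hi : p ∈ (S.e i).source) (hj : p ∈ (S.e j).source) :
    (S.e i).symm =ᶠ[𝓝 (S.π p)] (S.e j).symm := by
  filter_upwards [S.sh0_mem hi hj] with z hz using S.sh0_symm hz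

theorem tr_hol {i j : S.ι} {p : W} (hi : p ∈ (S.e i).source) (hj : p ∈ (S.e j).source) :
    ∀ᶠ z in 𝓝 (S.π p),
      DifferentiableAt ℂ (fun z => S.τ j ((S.e i).symm z) / S.τ i ((S.e i).symm z)) z := by
  filter_upwards [S.sh0_mem hi hj] with z hz
  exact (S.hol i j).differentiableAt ((S.sh0_open i j).mem_nhds hz)

theorem rep_eventuallyEq {i j : S.ι} {p : W} (hi : p ∈ (S.e i).source) (hj : p ∈ (S.e j).source)
    (f : W → ℂ) : S.rep j f =ᶠ[𝓝 (S.π p)]
      fun z => S.τ j ((S.e i).symm z) / S.τ i ((S.e i).symm z) * S.rep i f z := by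
  filter_upwards [S.sh0_mem hi hj] with z hz
  have hne := S.τ_ne i _ ((S.e i).map_target hz.1)
  rw [rep, rep, ← S.sh0_symm hz]
  field_simp

theorem wt_eventuallyEq {i j : S.ι} {p : W} (hi : p ∈ (S.e i).source) (hj : p ∈ (S.e j).source)
    (φ : W → ℝ) : S.wt j φ =ᶠ[𝓝 (S.π p)] fun z =>
      S.wt i φ z + Real.log (‖S.τ j ((S.e i).symm z) / S.τ i ((S.e i).symm z)‖ ^ 2) := by
  filter_upwards [S.sh0_mem hi hj] with z hz
  have h1 : ‖S.τ i ((S.e i).symm z)‖ ^ 2 ≠ 0 :=
    pow_ne_zero 2 (norm_ne_zero_iff.2 (S.τ_ne i _ ((S.e i).map_target hz.1)))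
  have h2 : ‖S.τ j ((S.e i).symm z)‖ ^ 2 ≠ 0 :=
    pow_ne_zero 2 (norm_ne_zero_iff.2 (S.τ_ne j _ hz.2))
  rw [wt, wt, ← S.sh0_symm hz, norm_div, div_pow, Real.log_div h2 h1]
  ring

/-- Smoothness can be checked near each point in one chart. -/
theorem smS_of_local {f : W → ℂ}
    (h : ∀ p, ∃ i, p ∈ (S.e i).source ∧ ContDiffAt ℝ ∞ (S.rep i f) (S.π p)) :
    S.SmS f := by
  intro j z hz
  have hj := (S.e j).map_target hz
  obtain ⟨i, hi, hf⟩ := h ((S.e j).symm z)
  have h1 : ContDiffAt ℝ ∞ (fun z => S.τ j ((S.e i).symm z) / S.τ i ((S.e i).symm z))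
      (S.π ((S.e j).symm z)) :=
    (contDiffOn_of_hol (S.sh0_open i j) (S.hol i j)).contDiffAt (S.sh0_mem hi hj)
  have h2 := (h1.mul hf).congr_of_eventuallyEq (S.rep_eventuallyEq hi hj f)
  rw [S.π_symm hz] at h2
  exact h2.contDiffWithinAt

theorem smF_of_local {f : W → ℝ}
    (h : ∀ p, ∃ i, p ∈ (S.e i).source ∧ ContDiffAt ℝ ∞ (S.loc i f) (S.π p)) :
    S.SmF f := by
  intro j z hz
  have hj := (S.e j).map_target hz
  obtain ⟨i, hi, hf⟩ := h ((S.e j).symm z)
  have h1 : S.loc j f =ᶠ[𝓝 (S.π ((S.e j).symm z))] S.loc i f := by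
    filter_upwards [S.symm_eventuallyEq hi hj] with y hy
    rw [loc, loc, hy]
  have h2 := hf.congr_of_eventuallyEq h1
  rw [S.π_symm hz] at h2
  exact h2.contDiffWithinAt

theorem holS_of_local {f : W → ℂ}
    (h : ∀ p, ∃ i, p ∈ (S.e i).source ∧ DifferentiableAt ℂ (S.rep i f) (S.π p)) :
    S.HolS f := by
  intro j z hz
  have hj := (S.e j).map_target hz
  obtain ⟨i, hi, hf⟩ := h ((S.e j).symm z)
  have h2 := ((S.tr_hol hi hj).self_of_nhds.mul hf).congr_of_eventuallyEq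
    (S.rep_eventuallyEq hi hj f)
  rw [S.π_symm hz] at h2
  exact h2.differentiableWithinAt

end Sheets

end

end Fuj
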