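import Vale.Agent.P271.HSh0

/-! Sheets: independence of the chart, closure properties of smooth objects. -/

namespace Fuj

open MeasureTheory Set Filter Topology Complex
open scoped ENNReal ContDiff ComplexConjugate

set_option linter.unusedSectionVars false

noncomputable section

namespace Sheets

variable {E W : Type*} [NormedAddCommGroup E] [NormedSpace ℝ E] [NormedSpace ℂ E]
  [IsScalarTower ℝ ℂ E] [FiniteDimensional ℂ E] [MeasurableSpace E] [BorelSpace E]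
  [TopologicalSpace W] [T2Space W] [MeasurableSpace W] [BorelSpace W]
  {vol : Measure E} [vol.IsAddHaarMeasure] (S : Sheets E W vol)
  {κ : Type*} [Fintype κ] (b : Module.Basis κ ℂ E)

theorem HSh1_at {F : Type*} [NormedAddCommGroup F] [NormedSpace ℝ F] {g : E → F} {i : S.ι}
    (hg : ContDiffOn ℝ ∞ g (S.e i).target) {p : W} (hp : p ∈ (S.e i).source) :
    ContDiffAt ℝ ∞ g (S.π p) :=
  hg.contDiffAt ((S.e i).open_target.mem_nhds (S.π_mem hp))

theorem HSh1_diff {F : Type*} [NormedAddCommGroup F] [NormedSpace ℝ F] {g : E → F} {i : S.ι}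
    (hg : ContDiffOn ℝ ∞ g (S.e i).target) {p : W} (hp : p ∈ (S.e i).source) :
    DifferentiableAt ℝ g (S.π p) :=
  (S.HSh1_at hg hp).differentiableAt (by simp)

theorem HSh1_two {F : Type*} [NormedAddCommGroup F] [NormedSpace ℝ F] {g : E → F} {i : S.ι}
    (hg : ContDiffOn ℝ ∞ g (S.e i).target) {p : W} (hp : p ∈ (S.e i).source) :
    ContDiffAt ℝ 2 g (S.π p) :=
  (S.HSh1_at hg hp).of_le (WithTop.coe_le_coe.2 le_top)

theorem HSh1_log {h : E → ℂ} {z : E} (hh : ∀ᶠ y in 𝓝 z, DifferentiableAt ℂ h y) (h0 : h z ≠ 0) :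
    ContDiffAt ℝ ∞ (fun y => Real.log (‖h y‖ ^ 2)) z := by
  obtain ⟨U, hU, hUo, hz⟩ := eventually_nhds_iff.1 hh
  have h1 : ContDiffAt ℝ ∞ h z :=
    (contDiffOn_of_hol hUo fun y hy => (hU y hy).differentiableWithinAt).contDiffAt
      (hUo.mem_nhds hz)
  exact (h1.norm_sq ℝ).log (pow_ne_zero 2 (norm_ne_zero_iff.2 h0))

theorem HSh1_loc (h : W → ℝ) {i j : S.ι} {p : W} (hi : p ∈ (S.e i).source)
    (hj : p ∈ (S.e j).source) : S.loc i h =ᶠ[𝓝 (S.π p)] S.loc j h := by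
  filter_upwards [S.symm_eventuallyEq hi hj] with z hz
  simp only [loc, hz]

theorem Db_eq {f : W → ℂ} (hf : S.SmS f) {i : S.ι} {p : W} (hp : p ∈ (S.e i).source) (ξ : E) :
    S.τ i p * S.Db ξ f p = db (S.rep i f) (S.π p) ξ := by
  have hj := S.idx_mem p
  have h0 := S.τ_ne _ p hj
  have hh := (S.tr_hol hj hp).self_of_nhds
  rw [db_congr (S.rep_eventuallyEq hj hp f),
    db_mul (hh.restrictScalars ℝ) (S.HSh1_diff (hf _) hj), db_hol hh, S.symm_π hj, Db]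
  field_simp
  ring

/-- rep_eventuallyEq, wt_eventuallyEq, dz_mul, dz_hol, dzr_log_normSq. -/
theorem Dl_eq {φ : W → ℝ} (hφ : S.SmW φ) {f : W → ℂ} (hf : S.SmS f) {i : S.ι} {p : W}
    (hp : p ∈ (S.e i).source) (ξ : E) : S.τ i p * S.Dl φ ξ f p =
      dz (S.rep i f) (S.π p) ξ - dzr (S.wt i φ) (S.π p) ξ * S.rep i f (S.π p) := by
  have hj := S.idx_mem p
  have h0 := S.τ_ne _ p hj
  have h1 := S.τ_ne _ p hp
  have hh' := S.tr_hol hj hp
  have hh := hh'.self_of_nhds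
  have hne : S.τ i ((S.e (S.idx p)).symm (S.π p)) /
      S.τ (S.idx p) ((S.e (S.idx p)).symm (S.π p)) ≠ 0 := by
    rw [S.symm_π hj]
    exact div_ne_zero h1 h0
  rw [dz_congr (S.rep_eventuallyEq hj hp f), dzr_congr (S.wt_eventuallyEq hj hp φ),
    dz_mul (hh.restrictScalars ℝ) (S.HSh1_diff (hf _) hj), dz_hol hh,
    dzr_add (S.HSh1_diff (hφ _) hj) ((HSh1_log hh' hne).differentiableAt (by simp)),
    dzr_log_normSq hh hne, Dl, S.rep_π hp, S.rep_π hj, S.symm_π hj]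
  field_simp
  ring

theorem Dz_eq (h : W → ℝ) {i : S.ι} {p : W} (hp : p ∈ (S.e i).source) (ξ : E) :
    S.Dz h p ξ = dzr (S.loc i h) (S.π p) ξ :=
  dzr_congr (S.HSh1_loc h (S.idx_mem p) hp) ξ

theorem LvF_eq (h : W → ℝ) {i : S.ι} {p : W} (hp : p ∈ (S.e i).source) (ξ : E) :
    S.LvF h p ξ = levi (S.loc i h) (S.π p) ξ :=
  levi_congr (S.HSh1_loc h (S.idx_mem p) hp) ξ

theorem LvC_eq {φ : W → ℝ} (hφ : S.SmW φ) {i : S.ι} {p : W} (hp : p ∈ (S.e i).source) (ξ ζ : E) :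
    S.LvC φ p ξ ζ = leviC (S.wt i φ) (S.π p) ξ ζ := by
  have hj := S.idx_mem p
  have hh' := S.tr_hol hj hp
  have hne : S.τ i ((S.e (S.idx p)).symm (S.π p)) /
      S.τ (S.idx p) ((S.e (S.idx p)).symm (S.π p)) ≠ 0 := by
    rw [S.symm_π hj]
    exact div_ne_zero (S.τ_ne _ p hp) (S.τ_ne _ p hj)
  rw [leviC_congr (S.wt_eventuallyEq hj hp φ), leviC_add (S.HSh1_two (hφ _) hj)
    ((HSh1_log hh' hne).of_le (WithTop.coe_le_coe.2 le_top)), leviC_log_normSq hh' hne, add_zero, LvC]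

theorem Lv_eq {φ : W → ℝ} (hφ : S.SmW φ) {i : S.ι} {p : W} (hp : p ∈ (S.e i).source) (ξ : E) :
    S.Lv φ p ξ = levi (S.wt i φ) (S.π p) ξ :=
  congrArg Complex.re (S.LvC_eq hφ hp ξ ξ)

theorem rep_Db {f : W → ℂ} (hf : S.SmS f) {i : S.ι} {z : E} (hz : z ∈ (S.e i).target) (ξ : E) :
    S.rep i (S.Db ξ f) z = db (S.rep i f) z ξ := by
  rw [rep, S.Db_eq hf ((S.e i).map_target hz), S.π_symm hz]

theorem rep_Dl {φ : W → ℝ} (hφ : S.SmW φ) {f : W → ℂ} (hf : S.SmS f) {i : S.ι} {z : E}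
    (hz : z ∈ (S.e i).target) (ξ : E) :
    S.rep i (S.Dl φ ξ f) z = dz (S.rep i f) z ξ - dzr (S.wt i φ) z ξ * S.rep i f z := by
  rw [rep, S.Dl_eq hφ hf ((S.e i).map_target hz), S.π_symm hz]

theorem smS_zero : S.SmS (fun _ => 0) :=
  fun _ =>
    (contDiffOn_const (c := (0 : ℂ))).congr fun _ _ => mul_zero _

theorem SmS.add {f g : W → ℂ} (hf : S.SmS f) (hg : S.SmS g) : S.SmS (fun p => f p + g p) :=
  fun i =>
    (ContDiffOn.add (hf i) (hg i)).congr fun _ _ => mul_add _ _ _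

theorem SmS.sub {f g : W → ℂ} (hf : S.SmS f) (hg : S.SmS g) : S.SmS (fun p => f p - g p) :=
  fun i =>
    (ContDiffOn.sub (hf i) (hg i)).congr fun _ _ => mul_sub _ _ _

theorem SmS.const_mul {f : W → ℂ} (hf : S.SmS f) (c : ℂ) : S.SmS (fun p => c * f p) :=
  fun i =>
    ((contDiffOn_const (c := c)).mul (hf i)).congr fun _ _ => mul_left_comm _ _ _

theorem smS_sum {α : Type*} (s : Finset α) {f : α → W → ℂ} (hf : ∀ a ∈ s, S.SmS (f a)) :
    S.SmS (fun p => ∑ a ∈ s, f a p) :=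
  fun i =>
    (ContDiffOn.sum fun a ha => hf a ha i).congr fun _ _ => Finset.mul_sum _ _ _

theorem SmS.mulF {h : W → ℝ} (hh : S.SmF h) {f : W → ℂ} (hf : S.SmS f) :
    S.SmS (fun p => (h p : ℂ) * f p) :=
  fun i =>
    ((ofRealCLM.contDiff.comp_contDiffOn (hh i)).mul (hf i)).congr fun _ _ => mul_left_comm _ _ _

theorem SmS.Db {f : W → ℂ} (hf : S.SmS f) (ξ : E) : S.SmS (S.Db ξ f) :=
  fun i =>
    (contDiffOn_db (S.e i).open_target (hf i) ξ).congr fun _ hz => S.rep_Db hf hz ξ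

theorem SmS.Dl {φ : W → ℝ} (hφ : S.SmW φ) {f : W → ℂ} (hf : S.SmS f) (ξ : E) :
    S.SmS (S.Dl φ ξ f) :=
  fun i =>
    ((contDiffOn_dz (S.e i).open_target (hf i) ξ).sub
    ((contDiffOn_dzr (S.e i).open_target (hφ i) ξ).mul (hf i))).congr
      fun _ hz => S.rep_Dl hφ hf hz ξ

theorem HolS.smS {f : W → ℂ} (hf : S.HolS f) : S.SmS f :=
  fun i =>
    contDiffOn_of_hol (S.e i).open_target (hf i)

theorem smF_const (c : ℝ) : S.SmF (fun _ => c) :=
  fun _ => contDiffOn_const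

theorem SmF.add {f g : W → ℝ} (hf : S.SmF f) (hg : S.SmF g) : S.SmF (fun p => f p + g p) :=
  fun i =>
    ContDiffOn.add (hf i) (hg i)

theorem SmF.mul {f g : W → ℝ} (hf : S.SmF f) (hg : S.SmF g) : S.SmF (fun p => f p * g p) :=
  fun i =>
    ContDiffOn.mul (hf i) (hg i)

theorem SmF.comp {g : ℝ → ℝ} (hg : ContDiff ℝ ∞ g) {h : W → ℝ} (hh : S.SmF h) :
    S.SmF (fun p => g (h p)) :=
  fun i => hg.comp_contDiffOn (hh i)

theorem SmW.add {φ ψ : W → ℝ} (hφ : S.SmW φ) (hψ : S.SmF ψ) : S.SmW (fun p => φ p + ψ p) :=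
  fun i =>
    (ContDiffOn.add (hφ i) (hψ i)).congr fun _ _ => add_right_comm _ _ _

end Sheets

end

end Fuj
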