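import Vale.Agent.P271.HSh2a

/-! Sheets: Leibniz rules, supports, continuity, measurability. -/

namespace Fuj

open MeasureTheory Set Filter Topology Complex
open scoped ENNReal ContDiff ComplexConjugate

noncomputable section

namespace Sheets

variable {E W : Type*} [NormedAddCommGroup E] [NormedSpace ℝ E] [NormedSpace ℂ E]
  [IsScalarTower ℝ ℂ E] [FiniteDimensional ℂ E] [MeasurableSpace E] [BorelSpace E]
  [TopologicalSpace W] [T2Space W] [MeasurableSpace W] [BorelSpace W]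
  {vol : Measure E} [vol.IsAddHaarMeasure] (S : Sheets E W vol)
  {κ : Type*} [Fintype κ] (b : Module.Basis κ ℂ E)

theorem h2_tendsto {i : S.ι} {p : W} (hp : p ∈ (S.e i).source) :
    Tendsto (S.e i).symm (𝓝 (S.π p)) (𝓝 p) := by
  have := (S.e i).tendsto_symm hp
  rwa [S.e_eq i p hp] at this

theorem h2_rep {f g : W → ℂ} {p : W} (h : f =ᶠ[𝓝 p] g) :
    S.rep (S.idx p) f =ᶠ[𝓝 (S.π p)] S.rep (S.idx p) g := by
  filter_upwards [(S.h2_tendsto (S.idx_mem p)).eventually h] with z hz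
  simp only [rep, hz]

theorem h2_meas {Y : Type*} [MeasurableSpace Y] {f : W → Y}
    (h : ∀ i, ∃ g : W → Y, Measurable g ∧ EqOn f g (S.e i).source) : Measurable f := by
  intro A hA
  choose g hg he using h
  have := S.cnt
  have e : f ⁻¹' A = ⋃ i, (S.e i).source ∩ g i ⁻¹' A := by
    ext p
    simp only [mem_preimage, mem_iUnion, mem_inter_iff]
    constructor
    · intro hp
      obtain ⟨i, hi⟩ := S.cover p
      exact ⟨i, hi, he i hi ▸ hp⟩
    · rintro ⟨i, hi, hp⟩
      exact he i hi ▸ hp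
  rw [e]
  exact MeasurableSet.iUnion fun i => (S.e i).open_source.measurableSet.inter (hg i hA)

theorem h2_piece {Y : Type*} [TopologicalSpace Y] [MeasurableSpace Y] [BorelSpace Y] [Zero Y]
    {i : S.ι} {u : E → Y} (hu : ContinuousOn u (S.e i).target) :
    ∃ g : W → Y, Measurable g ∧ ∀ p ∈ (S.e i).source, g p = u (S.π p) := by
  classical
  refine ⟨(S.e i).source.piecewise (fun p => u (S.π p)) fun _ => 0, ?_,
    fun p hp => piecewise_eq_of_mem _ _ _ hp⟩
  exact ContinuousOn.measurable_piecewise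
    (hu.comp S.continuous_π.continuousOn fun p hp => S.π_mem hp) continuousOn_const
    (S.e i).open_source.measurableSet

omit [MeasurableSpace W] [BorelSpace W] in
theorem h2_supp {f g : W → ℂ} (hf : HasCompactSupport f) (h : ∀ p, p ∉ tsupport f → g p = 0) :
    HasCompactSupport g := HasCompactSupport.intro hf h

theorem Db_congr {f g : W → ℂ} {p : W} (h : f =ᶠ[𝓝 p] g) (ξ : E) : S.Db ξ f p = S.Db ξ g p := by
  rw [Db, Db, db_congr (S.h2_rep h)]

theorem Dl_congr (φ : W → ℝ) {f g : W → ℂ} {p : W} (h : f =ᶠ[𝓝 p] g) (ξ : E) :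
    S.Dl φ ξ f p = S.Dl φ ξ g p := by
  rw [Dl, Dl, dz_congr (S.h2_rep h), (S.h2_rep h).eq_of_nhds]

theorem Dz_congr {f g : W → ℝ} {p : W} (h : f =ᶠ[𝓝 p] g) (ξ : E) : S.Dz f p ξ = S.Dz g p ξ :=
  dzr_congr ((S.h2_tendsto (S.idx_mem p)).eventually h) ξ

theorem Db_eq_zero {f : W → ℂ} {p : W} (h : p ∉ tsupport f) (ξ : E) : S.Db ξ f p = 0 := by
  have e : S.rep (S.idx p) (0 : W → ℂ) = fun _ => 0 := funext fun z => mul_zero _
  rw [S.Db_congr (notMem_tsupport_iff_eventuallyEq.1 h), Db, e, db_const, zero_div]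

theorem Dl_eq_zero (φ : W → ℝ) {f : W → ℂ} {p : W} (h : p ∉ tsupport f) (ξ : E) :
    S.Dl φ ξ f p = 0 := by
  have e : S.rep (S.idx p) (0 : W → ℂ) = fun _ => 0 := funext fun z => mul_zero _
  rw [S.Dl_congr φ (notMem_tsupport_iff_eventuallyEq.1 h), Dl, e, dz_const, mul_zero, sub_zero,
    zero_div]

theorem Dz_eq_zero {f : W → ℝ} {p : W} (h : p ∉ tsupport f) (ξ : E) : S.Dz f p ξ = 0 := by
  rw [S.Dz_congr (notMem_tsupport_iff_eventuallyEq.1 h)]
  exact dzr_const 0 _ _

theorem test_zero : S.Test (fun _ => 0) := ⟨S.smS_zero, HasCompactSupport.zero⟩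

theorem Test.add {f g : W → ℂ} (hf : S.Test f) (hg : S.Test g) : S.Test (fun p => f p + g p) :=
  ⟨SmS.add S hf.1 hg.1, hf.2.add hg.2⟩

theorem Test.sub {f g : W → ℂ} (hf : S.Test f) (hg : S.Test g) : S.Test (fun p => f p - g p) :=
  ⟨SmS.sub S hf.1 hg.1, hf.2.sub hg.2⟩

theorem Test.const_mul {f : W → ℂ} (hf : S.Test f) (c : ℂ) : S.Test (fun p => c * f p) :=
  ⟨SmS.const_mul S hf.1 c, hf.2.mul_left (f := fun _ => c)⟩

theorem test_sum {α : Type*} (s : Finset α) {f : α → W → ℂ} (hf : ∀ a ∈ s, S.Test (f a)) :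
    S.Test (fun p => ∑ a ∈ s, f a p) := by
  classical
  induction s using Finset.induction_on with
  | empty => simpa using S.test_zero
  | insert a s ha ih =>
    simp only [Finset.sum_insert ha]
    exact Test.add S (hf a (Finset.mem_insert_self a s))
      (ih fun x hx => hf x (Finset.mem_insert_of_mem hx))

theorem Test.mulF {h : W → ℝ} (hh : S.SmF h) {f : W → ℂ} (hf : S.Test f) :
    S.Test (fun p => (h p : ℂ) * f p) :=
  ⟨SmS.mulF S hh hf.1, hf.2.mul_left (f := fun p => (h p : ℂ))⟩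

theorem test_cut {h : W → ℝ} (hh : S.SmF h) (hc : HasCompactSupport h) {f : W → ℂ}
    (hf : S.SmS f) : S.Test (fun p => (h p : ℂ) * f p) :=
  ⟨SmS.mulF S hh hf, HasCompactSupport.intro hc fun p hp => by
    rw [image_eq_zero_of_notMem_tsupport hp, ofReal_zero, zero_mul]⟩

theorem Test.Db {f : W → ℂ} (hf : S.Test f) (ξ : E) : S.Test (S.Db ξ f) :=
  ⟨SmS.Db S hf.1 ξ, h2_supp hf.2 fun _ hp => S.Db_eq_zero hp ξ⟩

theorem Test.Dl {φ : W → ℝ} (hφ : S.SmW φ) {f : W → ℂ} (hf : S.Test f) (ξ : E) :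
    S.Test (S.Dl φ ξ f) :=
  ⟨SmS.Dl S hφ hf.1 ξ, h2_supp hf.2 fun _ hp => S.Dl_eq_zero φ hp ξ⟩

theorem test_Div {φ : W → ℝ} (hφ : S.SmW φ) {γ : κ → W → ℂ} (hγ : ∀ j, S.Test (γ j)) :
    S.Test (S.Div b φ γ) :=
  S.test_sum Finset.univ fun j _ => Test.Dl S hφ (hγ j) (b j)

theorem test_Curl {γ : κ → W → ℂ} (hγ : ∀ j, S.Test (γ j)) (j k : κ) :
    S.Test (S.Curl b γ j k) :=
  Test.sub S (Test.Db S (hγ k) (b j)) (Test.Db S (hγ j) (b k))

theorem continuous_of_loc {Y : Type*} [TopologicalSpace Y] {h : W → Y}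
    (hh : ∀ i, ContinuousOn (fun z => h ((S.e i).symm z)) (S.e i).target) : Continuous h := by
  refine continuous_iff_continuousAt.2 fun p => ?_
  obtain ⟨i, hi⟩ := S.cover p
  have h1 : ContinuousAt (fun q => h ((S.e i).symm (S.e i q))) p :=
    ((hh i).continuousAt ((S.e i).open_target.mem_nhds ((S.e i).map_source hi))).comp
      ((S.e i).continuousAt hi)
  refine h1.congr ?_
  filter_upwards [(S.e i).open_source.mem_nhds hi] with q hq
  rw [(S.e i).left_inv hq]

theorem SmF.continuous {h : W → ℝ} (hh : S.SmF h) : Continuous h :=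
  S.continuous_of_loc fun i => (hh i).continuousOn

theorem continuous_Dz {h : W → ℝ} (hh : S.SmF h) (ξ : E) : Continuous (fun p => S.Dz h p ξ) :=
  S.continuous_of_loc fun i =>
    (contDiffOn_dzr (S.e i).open_target (hh i) ξ).continuousOn.congr fun z hz => by
      simp only [S.Dz_eq h ((S.e i).map_target hz), S.π_symm hz]

theorem continuous_LvC {φ : W → ℝ} (hφ : S.SmW φ) (ξ ζ : E) :
    Continuous (fun p => S.LvC φ p ξ ζ) :=
  S.continuous_of_loc fun i =>
    (contDiffOn_leviC (S.e i).open_target (hφ i) ξ ζ).continuousOn.congr fun z hz => by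
      simp only [S.LvC_eq hφ ((S.e i).map_target hz), S.π_symm hz]

/-- In the chart i this is rep f * conj (rep g) * exp (-wt), by exp_wt. -/
theorem continuous_pair {φ : W → ℝ} (hφ : S.SmW φ) {f g : W → ℂ} (hf : S.SmS f) (hg : S.SmS g) :
    Continuous (fun p => f p * conj (g p) * (Real.exp (-φ p) : ℝ)) := by
  refine S.continuous_of_loc fun i => ?_
  have h1 : ContinuousOn (fun z => S.rep i f z * conj (S.rep i g z) *
      (Real.exp (-S.wt i φ z) : ℝ)) (S.e i).target :=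
    ((hf i).continuousOn.mul (continuous_conj.comp_continuousOn (hg i).continuousOn)).mul
      (continuous_ofReal.comp_continuousOn (hφ i).continuousOn.neg.rexp)
  refine h1.congr fun z hz => ?_
  simp only [S.exp_wt hz, rep, map_mul, ofReal_mul, ofReal_pow, ← mul_conj']
  ring

/-- On the source of e i, f = (rep i f ∘ π) / τ i; countable cover by open sets. -/
theorem measurable_of_rep {f : W → ℂ} (hf : ∀ i, ContinuousOn (S.rep i f) (S.e i).target) :
    Measurable f := by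
  refine S.h2_meas fun i => ?_
  obtain ⟨g, hg, e⟩ := S.h2_piece (hf i)
  refine ⟨fun p => g p / S.τ i p, hg.div (S.τ_meas i), fun p hp => ?_⟩
  simp only [e p hp, S.rep_π hp]
  rw [mul_div_cancel_left₀ _ (S.τ_ne i p hp)]

theorem SmS.measurable {f : W → ℂ} (hf : S.SmS f) : Measurable f :=
  S.measurable_of_rep fun i => (hf i).continuousOn

theorem SmW.measurable {φ : W → ℝ} (hφ : S.SmW φ) : Measurable φ := by
  refine S.h2_meas fun i => ?_
  obtain ⟨g, hg, e⟩ := S.h2_piece (hφ i).continuousOn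
  refine ⟨fun p => g p - Real.log (‖S.τ i p‖ ^ 2),
    hg.sub ((S.τ_meas i).norm.pow_const 2).log, fun p hp => ?_⟩
  simp only [e p hp, wt, S.symm_π hp, add_sub_cancel_right]

theorem measurable_Lv_vec {φ : W → ℝ} (hφ : S.SmW φ) {γ : κ → W → ℂ}
    (hγ : ∀ j, Measurable (γ j)) : Measurable (fun p => S.Lv φ p (vec b γ p)) := by
  have e : (fun p => S.Lv φ p (vec b γ p)) = fun p =>
      (∑ j, ∑ k, γ j p * conj (γ k p) * S.LvC φ p (b j) (b k)).re := by
    funext p
    rw [← S.Lv_vec b hφ, ofReal_re]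
  rw [e]
  refine measurable_re.comp (Finset.measurable_sum _ fun j _ => Finset.measurable_sum _ fun k _ => ?_)
  exact ((hγ j).mul (continuous_conj.measurable.comp (hγ k))).mul
    (S.continuous_LvC hφ _ _).measurable

/-- Lv_vec and continuity of LvC. -/
theorem Lv_le_on {φ : W → ℝ} (hφ : S.SmW φ) {K : Set W} (hK : IsCompact K) :
    ∃ C : ℝ, 0 ≤ C ∧ ∀ p ∈ K, ∀ γ : κ → W → ℂ,
      S.Lv φ p (vec b γ p) ≤ C * ∑ j, ‖γ j p‖ ^ 2 := by
  choose M hM using fun j k : κ =>
    hK.exists_bound_of_continuousOn (S.continuous_LvC hφ (b j) (b k)).continuousOn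
  refine ⟨∑ j, ∑ k, |M j k|, by positivity, fun p hp γ => ?_⟩
  have h1 : ∀ j, ‖γ j p‖ ^ 2 ≤ ∑ l, ‖γ l p‖ ^ 2 := fun j =>
    Finset.single_le_sum (f := fun l => ‖γ l p‖ ^ 2) (fun _ _ => sq_nonneg _) (Finset.mem_univ j)
  rw [← ofReal_re (S.Lv φ p _), S.Lv_vec b hφ]
  refine (re_le_norm _).trans ((norm_sum_le _ _).trans ?_)
  rw [Finset.sum_mul]
  refine Finset.sum_le_sum fun j _ => (norm_sum_le _ _).trans ?_
  rw [Finset.sum_mul]
  refine Finset.sum_le_sum fun k _ => ?_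
  rw [norm_mul, norm_mul, norm_conj, mul_comm]
  refine mul_le_mul ((hM j k p hp).trans (le_abs_self _)) ?_ (by positivity) (abs_nonneg _)
  linarith [h1 j, h1 k, two_mul_le_add_sq ‖γ j p‖ ‖γ k p‖]

end Sheets

end

end Fuj
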