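import Vale.Agent.P271.HSh1

/-! Sheets: Leibniz rules, supports, continuity, measurability. -/

namespace Fuj

open MeasureTheory Set Filter Topology Complex
open scoped ENNReal ContDiff ComplexConjugate

noncomputable section

namespace Sheets

variable {E W : Type*} [NormedAddCommGroup E] [NormedSpace ℝ E] [NormedSpace ℂ E]
  [IsScalarTower ℝ ℂ E] [FiniteDimensional ℂ E] [MeasurableSpace E] [BorelSpace E]
  [TopologicalSpace W] [T2Space W] [MeasurableSpace W] [BorelSpace W]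
  {vol : Measure E} [vol.IsAddHaarMeasure] (S : Sheets E W vol)
  {κ : Type*} [Fintype κ] (b : Module.Basis κ ℂ E)

theorem sh2a_nhds (p : W) : (S.e (S.idx p)).target ∈ 𝓝 (S.π p) :=
  (S.e _).open_target.mem_nhds (S.π_mem (S.idx_mem p))

theorem sh2a_ne (p : W) : S.τ (S.idx p) p ≠ 0 := S.τ_ne _ p (S.idx_mem p)

theorem sh2a_two : (2 : WithTop ℕ∞) ≤ ((⊤ : ℕ∞) : WithTop ℕ∞) :=
  WithTop.coe_le_coe.2 (le_top : (2 : ℕ∞) ≤ ⊤)

theorem sh2a_cS {f : W → ℂ} (hf : S.SmS f) (p : W) :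
    ContDiffAt ℝ 2 (S.rep (S.idx p) f) (S.π p) :=
  ((hf _).contDiffAt (S.sh2a_nhds p)).of_le sh2a_two

theorem sh2a_cF {f : W → ℝ} (hf : S.SmF f) (p : W) :
    ContDiffAt ℝ 2 (S.loc (S.idx p) f) (S.π p) :=
  ((hf _).contDiffAt (S.sh2a_nhds p)).of_le sh2a_two

theorem sh2a_cW {f : W → ℝ} (hf : S.SmW f) (p : W) :
    ContDiffAt ℝ 2 (S.wt (S.idx p) f) (S.π p) :=
  ((hf _).contDiffAt (S.sh2a_nhds p)).of_le sh2a_two

theorem sh2a_dS {f : W → ℂ} (hf : S.SmS f) (p : W) :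
    DifferentiableAt ℝ (S.rep (S.idx p) f) (S.π p) :=
  (S.sh2a_cS hf p).differentiableAt two_ne_zero

theorem sh2a_dF {f : W → ℝ} (hf : S.SmF f) (p : W) :
    DifferentiableAt ℝ (S.loc (S.idx p) f) (S.π p) :=
  (S.sh2a_cF hf p).differentiableAt two_ne_zero

theorem sh2a_dFC {f : W → ℝ} (hf : S.SmF f) (p : W) :
    DifferentiableAt ℝ (fun z => (S.loc (S.idx p) f z : ℂ)) (S.π p) :=
  ofRealCLM.differentiableAt.comp _ (S.sh2a_dF hf p)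

theorem sh2a_dW {f : W → ℝ} (hf : S.SmW f) (p : W) :
    DifferentiableAt ℝ (S.wt (S.idx p) f) (S.π p) :=
  (S.sh2a_cW hf p).differentiableAt two_ne_zero

theorem sh2a_rep_add (i : S.ι) (f g : W → ℂ) :
    S.rep i (fun q => f q + g q) = fun z => S.rep i f z + S.rep i g z :=
  funext fun _ => mul_add _ _ _

theorem sh2a_rep_cmul (i : S.ι) (c : ℂ) (f : W → ℂ) :
    S.rep i (fun q => c * f q) = fun z => c * S.rep i f z :=
  funext fun _ => mul_left_comm _ _ _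

theorem sh2a_rep_sum (i : S.ι) {α : Type*} (s : Finset α) (f : α → W → ℂ) :
    S.rep i (fun q => ∑ a ∈ s, f a q) = fun z => ∑ a ∈ s, S.rep i (f a) z :=
  funext fun _ => Finset.mul_sum _ _ _

theorem sh2a_rep_mulF (i : S.ι) (h : W → ℝ) (f : W → ℂ) :
    S.rep i (fun q => (h q : ℂ) * f q) = fun z => (S.loc i h z : ℂ) * S.rep i f z :=
  funext fun _ => mul_left_comm _ _ _

theorem sh2a_wt_add (i : S.ι) (φ ψ : W → ℝ) :
    S.wt i (fun q => φ q + ψ q) = fun z => S.wt i φ z + S.loc i ψ z :=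
  funext fun _ => add_right_comm _ _ _

theorem Db_add {f g : W → ℂ} (hf : S.SmS f) (hg : S.SmS g) (ξ : E) (p : W) :
    S.Db ξ (fun q => f q + g q) p = S.Db ξ f p + S.Db ξ g p := by
  rw [Db, Db, Db, sh2a_rep_add, db_add (S.sh2a_dS hf p) (S.sh2a_dS hg p), add_div]

theorem Db_const_mul {f : W → ℂ} (hf : S.SmS f) (c : ℂ) (ξ : E) (p : W) :
    S.Db ξ (fun q => c * f q) p = c * S.Db ξ f p := by
  rw [Db, Db, sh2a_rep_cmul, db_mul (differentiableAt_const c) (S.sh2a_dS hf p), db_const]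
  ring

theorem Db_sum {α : Type*} (s : Finset α) {f : α → W → ℂ} (hf : ∀ a ∈ s, S.SmS (f a)) (ξ : E)
    (p : W) : S.Db ξ (fun q => ∑ a ∈ s, f a q) p = ∑ a ∈ s, S.Db ξ (f a) p := by
  rw [Db, sh2a_rep_sum, db_sum s fun a ha => S.sh2a_dS (hf a ha) p, Finset.sum_div]
  rfl

theorem Db_mulF {h : W → ℝ} (hh : S.SmF h) {f : W → ℂ} (hf : S.SmS f) (ξ : E) (p : W) :
    S.Db ξ (fun q => (h q : ℂ) * f q) p = h p * S.Db ξ f p + conj (S.Dz h p ξ) * f p := by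
  have h0 := S.sh2a_ne p
  rw [Db, Db, Dz, sh2a_rep_mulF, db_mul (S.sh2a_dFC hh p) (S.sh2a_dS hf p), db_ofReal,
    S.rep_π (S.idx_mem p), S.loc_π (S.idx_mem p)]
  field_simp
  ring

theorem Dl_add (φ : W → ℝ) {f g : W → ℂ} (hf : S.SmS f) (hg : S.SmS g) (ξ : E) (p : W) :
    S.Dl φ ξ (fun q => f q + g q) p = S.Dl φ ξ f p + S.Dl φ ξ g p := by
  rw [Dl, Dl, Dl, sh2a_rep_add, dz_add (S.sh2a_dS hf p) (S.sh2a_dS hg p)]
  ring

theorem Dl_const_mul (φ : W → ℝ) {f : W → ℂ} (hf : S.SmS f) (c : ℂ) (ξ : E) (p : W) :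
    S.Dl φ ξ (fun q => c * f q) p = c * S.Dl φ ξ f p := by
  rw [Dl, Dl, sh2a_rep_cmul, dz_mul (differentiableAt_const c) (S.sh2a_dS hf p), dz_const]
  ring

theorem Dl_sum (φ : W → ℝ) {α : Type*} (s : Finset α) {f : α → W → ℂ}
    (hf : ∀ a ∈ s, S.SmS (f a)) (ξ : E) (p : W) :
    S.Dl φ ξ (fun q => ∑ a ∈ s, f a q) p = ∑ a ∈ s, S.Dl φ ξ (f a) p := by
  rw [Dl, sh2a_rep_sum, dz_sum s fun a ha => S.sh2a_dS (hf a ha) p, Finset.mul_sum,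
    ← Finset.sum_sub_distrib, Finset.sum_div]
  rfl

theorem Dl_mulF (φ : W → ℝ) {h : W → ℝ} (hh : S.SmF h) {f : W → ℂ} (hf : S.SmS f) (ξ : E) (p : W) :
    S.Dl φ ξ (fun q => (h q : ℂ) * f q) p = h p * S.Dl φ ξ f p + S.Dz h p ξ * f p := by
  have h0 := S.sh2a_ne p
  rw [Dl, Dl, Dz, sh2a_rep_mulF, dz_mul (S.sh2a_dFC hh p) (S.sh2a_dS hf p), ← dzr]
  simp only [S.rep_π (S.idx_mem p), S.loc_π (S.idx_mem p)]
  field_simp
  ring

theorem Dl_weight {φ ψ : W → ℝ} (hφ : S.SmW φ) (hψ : S.SmF ψ) (ξ : E) (f : W → ℂ) (p : W) :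
    S.Dl (fun q => φ q + ψ q) ξ f p = S.Dl φ ξ f p - S.Dz ψ p ξ * f p := by
  have h0 := S.sh2a_ne p
  rw [Dl, Dl, Dz, sh2a_wt_add, dzr_add (S.sh2a_dW hφ p) (S.sh2a_dF hψ p), S.rep_π (S.idx_mem p)]
  field_simp
  ring

theorem Db_vec (f : W → ℂ) (γ : κ → W → ℂ) (p : W) :
    S.Db (vec b γ p) f p = ∑ j, S.Db (b j) f p * conj (γ j p) := by
  rw [Db, vec, db_sum_dir, Finset.sum_div]
  refine Finset.sum_congr rfl fun j _ => ?_
  rw [Db]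
  ring

theorem Dz_vec (h : W → ℝ) (γ : κ → W → ℂ) (p : W) :
    S.Dz h p (vec b γ p) = ∑ j, S.Dz h p (b j) * γ j p := by
  rw [Dz, dzr, vec, dz_sum_dir]
  exact Finset.sum_congr rfl fun j _ => mul_comm _ _

theorem Lv_vec {φ : W → ℝ} (hφ : S.SmW φ) (γ : κ → W → ℂ) (p : W) :
    (S.Lv φ p (vec b γ p) : ℂ) = ∑ j, ∑ k, γ j p * conj (γ k p) * S.LvC φ p (b j) (b k) := by
  rw [Lv, levi_ofReal (S.sh2a_cW hφ p), vec, leviC_sum (S.sh2a_cW hφ p)]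
  rfl

theorem Lv_smul {φ : W → ℝ} (hφ : S.SmW φ) (p : W) (c : ℂ) (ξ : E) :
    S.Lv φ p (c • ξ) = ‖c‖ ^ 2 * S.Lv φ p ξ := levi_smul (S.sh2a_cW hφ p) c ξ

theorem Lv_add_le {φ : W → ℝ} (hφ : S.SmW φ) {p : W} (hp : ∀ ξ, 0 ≤ S.Lv φ p ξ) {t : ℝ}
    (ht : 0 < t) (ξ ζ : E) :
    S.Lv φ p (ξ + ζ) ≤ (1 + t) * S.Lv φ p ξ + (1 + t⁻¹) * S.Lv φ p ζ :=
  levi_add_le (S.sh2a_cW hφ p) hp ht ξ ζ

theorem Lv_add {φ ψ : W → ℝ} (hφ : S.SmW φ) (hψ : S.SmF ψ) (p : W) (ξ : E) :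
    S.Lv (fun q => φ q + ψ q) p ξ = S.Lv φ p ξ + S.LvF ψ p ξ := by
  rw [Lv, sh2a_wt_add, levi_add (S.sh2a_cW hφ p) (S.sh2a_cF hψ p)]
  rfl

theorem Dz_comp {g g' : ℝ → ℝ} (hg : ∀ s, HasDerivAt g (g' s) s) {h : W → ℝ} (hh : S.SmF h)
    (p : W) (ξ : E) : S.Dz (fun q => g (h q)) p ξ = g' (h p) * S.Dz h p ξ := by
  have h1 := dzr_comp (S.sh2a_dF hh p) (hg _) ξ
  rw [S.loc_π (S.idx_mem p)] at h1
  exact h1

theorem LvF_comp {g g' g'' : ℝ → ℝ} (hg : ∀ s, HasDerivAt g (g' s) s)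
    (hg' : ∀ s, HasDerivAt g' (g'' s) s) {h : W → ℝ} (hh : S.SmF h) (p : W) (ξ : E) :
    S.LvF (fun q => g (h q)) p ξ = g' (h p) * S.LvF h p ξ + g'' (h p) * ‖S.Dz h p ξ‖ ^ 2 := by
  have h1 := levi_comp (S.sh2a_cF hh p) (Eventually.of_forall hg) (hg' _) ξ
  rw [S.loc_π (S.idx_mem p)] at h1
  exact h1

/-- The commutator. In a chart: dz_db_comm, db_sub, db_mul. -/
theorem comm {φ : W → ℝ} (hφ : S.SmW φ) {f : W → ℂ} (hf : S.SmS f) (ξ ζ : E) (p : W) :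
    S.Dl φ ξ (S.Db ζ f) p - S.Db ζ (S.Dl φ ξ f) p = S.LvC φ p ξ ζ * f p := by
  have h0 := S.sh2a_ne p
  have e1 : S.rep (S.idx p) (S.Db ζ f) =ᶠ[𝓝 (S.π p)] fun z => db (S.rep (S.idx p) f) z ζ := by
    filter_upwards [S.sh2a_nhds p] with z hz
    exact S.rep_Db hf hz ζ
  have e2 : S.rep (S.idx p) (S.Dl φ ξ f) =ᶠ[𝓝 (S.π p)] fun z => dz (S.rep (S.idx p) f) z ξ -
      dzr (S.wt (S.idx p) φ) z ξ * S.rep (S.idx p) f z := by
    filter_upwards [S.sh2a_nhds p] with z hz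
    exact S.rep_Dl hφ hf hz ξ
  have d1 : DifferentiableAt ℝ (fun z => dz (S.rep (S.idx p) f) z ξ) (S.π p) :=
    ((contDiffOn_dz (S.e _).open_target (hf _) ξ).contDiffAt (S.sh2a_nhds p)).differentiableAt
      (by simp)
  have d2 := differentiableAt_dzr (S.sh2a_cW hφ p) ξ
  rw [Dl, Db, dz_congr e1, db_congr e2, e1.eq_of_nhds,
    db_sub d1 (d2.fun_mul (S.sh2a_dS hf p)), db_mul d2 (S.sh2a_dS hf p),
    dz_db_comm (S.sh2a_cS hf p), S.rep_π (S.idx_mem p), LvC, leviC]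
  field_simp
  ring

theorem Db_comm {f : W → ℂ} (hf : S.SmS f) (ξ ζ : E) (p : W) :
    S.Db ξ (S.Db ζ f) p = S.Db ζ (S.Db ξ f) p := by
  have e1 : ∀ ζ, S.rep (S.idx p) (S.Db ζ f) =ᶠ[𝓝 (S.π p)]
      fun z => db (S.rep (S.idx p) f) z ζ := fun ζ => by
    filter_upwards [S.sh2a_nhds p] with z hz
    exact S.rep_Db hf hz ζ
  rw [Db, Db, db_congr (e1 ζ), db_congr (e1 ξ), db_db_comm (S.sh2a_cS hf p)]

end Sheets

end

end Fuj
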