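import Vale.Agent.P271.HSh3a

/-! Sheets: integration, extension by zero, partitions of unity, weighted norms. -/

namespace Fuj

open MeasureTheory Set Filter Topology Complex
open scoped ENNReal ContDiff ComplexConjugate

noncomputable section

namespace Sheets

variable {E W : Type*} [NormedAddCommGroup E] [NormedSpace ℝ E] [NormedSpace ℂ E]
  [IsScalarTower ℝ ℂ E] [FiniteDimensional ℂ E] [MeasurableSpace E] [BorelSpace E]
  [TopologicalSpace W] [T2Space W] [MeasurableSpace W] [BorelSpace W]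
  {vol : Measure E} [vol.IsAddHaarMeasure] (S : Sheets E W vol)
  {κ : Type*} [Fintype κ] (b : Module.Basis κ ℂ E)

theorem hsh3_meas {φ : W → ℝ} (hφ : S.SmW φ) {f : W → ℂ} (hf : Measurable f) :
    Measurable fun p => ENNReal.ofReal (‖f p‖ ^ 2 * Real.exp (-φ p)) :=
  ((hf.norm.pow_const 2).mul (SmW.measurable S hφ).neg.exp).ennreal_ofReal

theorem hsh3_src {φ : W → ℝ} (hφ : S.SmW φ) {f : W → ℂ} (hf : Measurable f) (i : S.ι) :
    ∫⁻ p in (S.e i).source, ENNReal.ofReal (‖f p‖ ^ 2 * Real.exp (-φ p)) ∂S.μ =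
      ∫⁻ z in (S.e i).target,
        ENNReal.ofReal (‖S.rep i f z‖ ^ 2 * Real.exp (-S.wt i φ z)) ∂vol := by
  rw [S.lintegral_source i (S.hsh3_meas hφ hf)]
  refine setLIntegral_congr_fun (S.e i).open_target.measurableSet fun z hz => ?_
  simp only [S.exp_wt hz, rep, norm_mul]
  congr 1
  ring

theorem hsh3_fin {K : Set E} (hK : IsCompact K) {u v : E → ℝ} {C : ℝ} (hC : 0 ≤ C)
    (h : ∀ z ∈ K, u z ≤ C * v z) (hv : ∫⁻ z in K, ENNReal.ofReal (v z) ∂vol ≠ ⊤) :
    ∫⁻ z in K, ENNReal.ofReal (u z) ∂vol ≠ ⊤ := by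
  refine ne_top_of_le_ne_top (ENNReal.mul_ne_top (ENNReal.ofReal_ne_top (r := C)) hv) ?_
  rw [← lintegral_const_mul' _ _ ENNReal.ofReal_ne_top]
  refine setLIntegral_mono' hK.measurableSet fun z hz => ?_
  rw [← ENNReal.ofReal_mul hC]
  exact ENNReal.ofReal_le_ofReal (h z hz)

theorem hsh3_bd {K : Set E} (hK : IsCompact K) {u : E → ℝ} (hu : ContinuousOn u K) :
    ∃ C : ℝ, 0 ≤ C ∧ ∀ z ∈ K, u z ≤ C := by
  obtain ⟨C, hC⟩ := hK.exists_bound_of_continuousOn hu
  exact ⟨max C 0, le_max_right _ _, fun z hz =>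
    ((le_abs_self _).trans (hC z hz)).trans (le_max_left _ _)⟩

theorem nn_chart {φ : W → ℝ} (hφ : S.SmW φ) {f : W → ℂ} (hf : Measurable f) {i : S.ι}
    (h0 : ∀ p, p ∉ (S.e i).source → f p = 0) : S.nn φ f = ∫⁻ z in (S.e i).target,
      ENNReal.ofReal (‖S.rep i f z‖ ^ 2 * Real.exp (-S.wt i φ z)) ∂vol := by
  rw [← S.hsh3_src hφ hf i, nn, setLIntegral_eq_of_support_subset]
  intro p hp
  by_contra h1
  exact hp (by simp [h0 p h1])

theorem chart_le_nn {φ : W → ℝ} (hφ : S.SmW φ) {f : W → ℂ} (hf : Measurable f) (i : S.ι) :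
    ∫⁻ z in (S.e i).target, ENNReal.ofReal (‖S.rep i f z‖ ^ 2 * Real.exp (-S.wt i φ z)) ∂vol ≤
      S.nn φ f := by
  rw [← S.hsh3_src hφ hf i]
  exact setLIntegral_le_lintegral _ _

theorem ip_chart {φ : W → ℝ} (hφ : S.SmW φ) {f g : W → ℂ} (hf : Measurable f) (hg : Measurable g)
    {i : S.ι} (h0 : ∀ p, p ∉ (S.e i).source → f p * conj (g p) = 0) :
    S.ip φ f g = ∫ z in (S.e i).target,
      S.rep i f z * conj (S.rep i g z) * (Real.exp (-S.wt i φ z) : ℝ) ∂vol := by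
  have hm : Measurable fun p => f p * conj (g p) * ((Real.exp (-φ p) : ℝ) : ℂ) :=
    (hf.mul (continuous_conj.measurable.comp hg)).mul
      (measurable_ofReal.comp (SmW.measurable S hφ).neg.exp)
  rw [ip, ← setIntegral_eq_integral_of_forall_compl_eq_zero (s := (S.e i).source)
    fun p hp => by rw [h0 p hp, zero_mul], S.integral_source i hm]
  refine setIntegral_congr_fun (S.e i).open_target.measurableSet fun z hz => ?_
  simp only [S.exp_wt hz, rep, map_mul, ofReal_mul, ofReal_pow, ← Complex.mul_conj']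
  ring

theorem Test.nn_ne_top {φ : W → ℝ} (hφ : S.SmW φ) {f : W → ℂ} (hf : S.Test f) : S.nn φ f ≠ ⊤ := by
  have := S.finiteOnCompacts
  have h1 := ((S.continuous_pair hφ hf.1 hf.1).integrable_of_hasCompactSupport (μ := S.μ)
    hf.2.mul_right.mul_right).2
  refine ne_of_lt (lt_of_eq_of_lt ?_ h1)
  refine lintegral_congr fun p => ?_
  rw [← ofReal_norm, norm_mul, norm_mul, norm_conj, norm_real, Real.norm_eq_abs,
    abs_of_pos (Real.exp_pos _), sq]

/-- exp (-wt) is bounded below on K. -/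
theorem locL2_of_nn {φ : W → ℝ} (hφ : S.SmW φ) {f : W → ℂ} (hf : Measurable f)
    (h : S.nn φ f ≠ ⊤) : S.LocL2 f := by
  refine ⟨hf, fun i K hK hKU => ?_⟩
  obtain ⟨C, hC, h1⟩ := hsh3_bd hK (((hφ i).continuousOn.mono hKU).rexp)
  refine hsh3_fin hK hC (v := fun z => ‖S.rep i f z‖ ^ 2 * Real.exp (-S.wt i φ z))
    (fun z hz => ?_) (ne_top_of_le_ne_top h
      ((lintegral_mono_set hKU).trans (S.chart_le_nn hφ hf i)))
  calc ‖S.rep i f z‖ ^ 2
      = Real.exp (S.wt i φ z) * (‖S.rep i f z‖ ^ 2 * Real.exp (-S.wt i φ z)) := by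
        rw [mul_left_comm, ← Real.exp_add, add_neg_cancel, Real.exp_zero, mul_one]
    _ ≤ C * (‖S.rep i f z‖ ^ 2 * Real.exp (-S.wt i φ z)) :=
        mul_le_mul_of_nonneg_right (h1 z hz) (by positivity)

theorem SmS.locL2 {f : W → ℂ} (hf : S.SmS f) : S.LocL2 f := by
  refine ⟨SmS.measurable S hf, fun i K hK hKU => ?_⟩
  obtain ⟨C, hC, h1⟩ := hsh3_bd hK (((hf i).continuousOn.mono hKU).norm.pow 2)
  refine hsh3_fin hK hC (v := fun _ => 1) (fun z hz => (h1 z hz).trans_eq (mul_one C).symm) ?_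
  simpa using hK.measure_lt_top.ne

theorem LocL2.add {f g : W → ℂ} (hf : S.LocL2 f) (hg : S.LocL2 g) :
    S.LocL2 (fun p => f p + g p) := by
  refine ⟨hf.1.add hg.1, fun i K hK hKU => ?_⟩
  refine hsh3_fin hK zero_le_two (v := fun z => ‖S.rep i f z‖ ^ 2 + ‖S.rep i g z‖ ^ 2)
    (fun z _ => ?_) ?_
  · have h1 : ‖S.rep i (fun p => f p + g p) z‖ ≤ ‖S.rep i f z‖ + ‖S.rep i g z‖ := by
      simp only [rep, mul_add]
      exact norm_add_le _ _
    have h2 := pow_le_pow_left₀ (norm_nonneg _) h1 2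
    nlinarith [sq_nonneg (‖S.rep i f z‖ - ‖S.rep i g z‖)]
  · have h1 : AEMeasurable (fun z => ENNReal.ofReal (‖S.rep i f z‖ ^ 2)) (vol.restrict K) :=
      (((S.aesm_rep hf.1 i).mono_measure
        (Measure.restrict_mono hKU le_rfl)).norm.aemeasurable.pow_const 2).ennreal_ofReal
    simp only [ENNReal.ofReal_add (sq_nonneg _) (sq_nonneg _)]
    rw [lintegral_add_left' h1]
    exact ENNReal.add_ne_top.2 ⟨hf.2 i K hK hKU, hg.2 i K hK hKU⟩

theorem LocL2.mul {h : W → ℂ} (hh : Continuous h) {f : W → ℂ} (hf : S.LocL2 f) :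
    S.LocL2 (fun p => h p * f p) := by
  refine ⟨hh.measurable.mul hf.1, fun i K hK hKU => ?_⟩
  obtain ⟨C, hC, h1⟩ := hsh3_bd hK
    ((hh.comp_continuousOn ((S.e i).continuousOn_symm.mono hKU)).norm.pow 2)
  refine hsh3_fin hK hC (fun z hz => ?_) (hf.2 i K hK hKU)
  refine le_of_eq_of_le ?_ (mul_le_mul_of_nonneg_right (h1 z hz) (sq_nonneg _))
  simp only [rep, norm_mul, Function.comp_apply, Pi.pow_apply]
  ring

theorem locL2_sum {α : Type*} (s : Finset α) {f : α → W → ℂ} (hf : ∀ a ∈ s, S.LocL2 (f a)) :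
    S.LocL2 (fun p => ∑ a ∈ s, f a p) := by
  classical
  induction s using Finset.induction_on with
  | empty => simpa using SmS.locL2 S S.smS_zero
  | insert a s ha ih =>
    simp only [Finset.sum_insert ha]
    exact LocL2.add S (hf a (Finset.mem_insert_self a s))
      (ih fun c hc => hf c (Finset.mem_insert_of_mem hc))

theorem hsh3_piece {φ : W → ℝ} (hφ : S.SmW φ) {f : W → ℂ} (hf : S.LocL2 f) {i : S.ι} {K : Set W}
    (hK : IsCompact K) (hKU : K ⊆ (S.e i).source) :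
    ∫⁻ p in K, ENNReal.ofReal (‖f p‖ ^ 2 * Real.exp (-φ p)) ∂S.μ ≠ ⊤ := by
  have h1 : IsCompact (S.π '' K) := hK.image S.continuous_π
  have h2 : S.π '' K ⊆ (S.e i).target := by
    rintro _ ⟨p, hp, rfl⟩
    exact S.π_mem (hKU hp)
  obtain ⟨C, hC, h3⟩ := hsh3_bd h1 (((hφ i).continuousOn.mono h2).neg.rexp)
  have h4 := hsh3_fin h1 hC (u := fun z => ‖S.rep i f z‖ ^ 2 * Real.exp (-S.wt i φ z))
    (fun z hz => (mul_le_mul_of_nonneg_left (h3 z hz) (sq_nonneg _)).trans_eq (mul_comm _ _))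
    (hf.2 i _ h1 h2)
  refine ne_top_of_le_ne_top h4 ?_
  have h5 : ∫⁻ p in K, ENNReal.ofReal (‖f p‖ ^ 2 * Real.exp (-φ p)) ∂S.μ ≤
      S.nn φ (K.indicator f) := by
    refine le_of_eq_of_le (setLIntegral_congr_fun hK.measurableSet fun p hp => ?_)
      (setLIntegral_le_lintegral K _)
    simp only [indicator_of_mem hp]
  rw [S.nn_chart hφ (hf.1.indicator hK.measurableSet) (i := i)
    fun p hp => indicator_of_notMem (fun h6 => hp (hKU h6)) f] at h5
  refine h5.trans ?_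
  rw [← lintegral_indicator h1.measurableSet]
  refine (setLIntegral_mono' (S.e i).open_target.measurableSet fun z hz => ?_).trans
    (setLIntegral_le_lintegral (S.e i).target _)
  by_cases h6 : (S.e i).symm z ∈ K
  · have h7 : z ∈ S.π '' K := ⟨_, h6, S.π_symm hz⟩
    rw [indicator_of_mem h7]
    simp only [rep, indicator_of_mem h6, le_refl]
  · simp [rep, indicator_of_notMem h6]

/-- Cover K by finitely many compact sets inside charts (IsCompact.finite_compact_cover or pu). -/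
theorem LocL2.nn_ne_top {φ : W → ℝ} (hφ : S.SmW φ) {f : W → ℂ} (hf : S.LocL2 f) {K : Set W}
    (hK : IsCompact K) (h0 : ∀ p, p ∉ K → f p = 0) : S.nn φ f ≠ ⊤ := by
  obtain ⟨t, ht⟩ := hK.elim_finite_subcover (fun i => (S.e i).source)
    (fun i => (S.e i).open_source) fun p _ => mem_iUnion.2 (S.cover p)
  obtain ⟨L, h1, h2, h3⟩ := hK.finite_compact_cover t (fun i => (S.e i).source)
    (fun i _ => (S.e i).open_source) ht
  have h4 : K = ⋃ i : t, L i := by rw [h3]; ext p; simp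
  rw [nn, ← setLIntegral_eq_of_support_subset (s := K) fun p hp => by
    by_contra h5
    exact hp (by simp [h0 p h5]), h4]
  refine ne_top_of_le_ne_top ?_ (lintegral_iUnion_le _ _)
  rw [tsum_fintype]
  exact ENNReal.sum_ne_top.2 fun i _ => S.hsh3_piece hφ hf (h1 i) (h2 i)

end Sheets

end

end Fuj
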