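import Vale.Agent.P271.HSh2
import Vale.Agent.P271.HIbp

/-! Sheets: integration, extension by zero, partitions of unity, weighted norms. -/

namespace Fuj

open MeasureTheory Set Filter Topology Complex
open scoped ENNReal ContDiff ComplexConjugate

noncomputable section

namespace Sheets

variable {E W : Type*} [NormedAddCommGroup E] [NormedSpace ℝ E] [NormedSpace ℂ E]
  [IsScalarTower ℝ ℂ E] [FiniteDimensional ℂ E] [MeasurableSpace E] [BorelSpace E]
  [TopologicalSpace W] [T2Space W] [MeasurableSpace W] [BorelSpace W]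
  {vol : Measure E} [vol.IsAddHaarMeasure] (S : Sheets E W vol)
  {κ : Type*} [Fintype κ] (b : Module.Basis κ ℂ E)

theorem aemeasurable_symm (i : S.ι) :
    AEMeasurable (S.e i).symm (vol.restrict (S.e i).target) :=
  (S.e i).continuousOn_symm.aemeasurable (S.e i).open_target.measurableSet

theorem lintegral_source (i : S.ι) {g : W → ℝ≥0∞} (hg : Measurable g) :
    ∫⁻ p in (S.e i).source, g p ∂S.μ = ∫⁻ z in (S.e i).target, g ((S.e i).symm z) ∂vol := by
  rw [← S.μ_eq i, lintegral_map' hg.aemeasurable (S.aemeasurable_symm i)]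

theorem integral_source (i : S.ι) {g : W → ℂ} (hg : Measurable g) :
    ∫ p in (S.e i).source, g p ∂S.μ = ∫ z in (S.e i).target, g ((S.e i).symm z) ∂vol := by
  rw [← S.μ_eq i, integral_map (S.aemeasurable_symm i) hg.aestronglyMeasurable]

theorem ae_of_charts {P : W → Prop} (hP : MeasurableSet {p | P p})
    (h : ∀ i, ∀ᵐ z ∂vol.restrict (S.e i).target, P ((S.e i).symm z)) : ∀ᵐ p ∂S.μ, P p := by
  have := S.cnt
  have h1 : (⋃ i, (S.e i).source) = univ := eq_univ_of_forall fun p => mem_iUnion.2 (S.cover p)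
  rw [← Measure.restrict_univ (μ := S.μ), ← h1, ae_restrict_iUnion_iff]
  intro i
  rw [← S.μ_eq i, ae_map_iff (S.aemeasurable_symm i) hP]
  exact h i

theorem aesm_rep {f : W → ℂ} (hf : Measurable f) (i : S.ι) :
    AEStronglyMeasurable (S.rep i f) (vol.restrict (S.e i).target) :=
  (((S.τ_meas i).mul hf).comp_aemeasurable (S.aemeasurable_symm i)).aestronglyMeasurable

include S in
theorem locallyCompact : LocallyCompactSpace W := by
  have := FiniteDimensional.proper ℂ E
  let _ : ChartedSpace E W :=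
    { atlas := range S.e
      chartAt := fun p => S.e (S.idx p)
      mem_chart_source := S.idx_mem
      chart_mem_atlas := fun p => mem_range_self _ }
  exact ChartedSpace.locallyCompactSpace E W

/-- Every point has a neighbourhood (preimage of a small ball in a chart) of finite measure. -/
theorem finiteOnCompacts : IsFiniteMeasureOnCompacts S.μ := by
  have := FiniteDimensional.proper ℂ E
  have : IsLocallyFiniteMeasure S.μ := by
    refine ⟨fun p => ?_⟩
    obtain ⟨i, hi⟩ := S.cover p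
    have h1 : IsOpen ((S.e i).source ∩ S.e i ⁻¹' Metric.ball (S.e i p) 1) :=
      (S.e i).isOpen_inter_preimage Metric.isOpen_ball
    refine ⟨_, h1.mem_nhds ⟨hi, Metric.mem_ball_self one_pos⟩, ?_⟩
    rw [← Measure.restrict_eq_self S.μ inter_subset_left, ← S.μ_eq i,
      Measure.map_apply_of_aemeasurable (S.aemeasurable_symm i) h1.measurableSet,
      Measure.restrict_apply' (S.e i).open_target.measurableSet]
    refine (measure_mono fun z hz => ?_).trans_lt (measure_ball_lt_top (x := S.e i p) (r := 1))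
    have h2 := hz.1.2
    rwa [mem_preimage, (S.e i).right_inv hz.2] at h2
  infer_instance

theorem rep_ext {i : S.ι} (g : E → ℂ) {z : E} (hz : z ∈ (S.e i).target) :
    S.rep i (S.ext i g) z = g z := by
  have h1 := (S.e i).map_target hz
  simp only [rep, ext, h1, if_true, S.π_symm hz]
  exact mul_div_cancel₀ _ (S.τ_ne i _ h1)

theorem loc_extF {i : S.ι} (g : E → ℝ) {z : E} (hz : z ∈ (S.e i).target) :
    S.loc i (S.extF i g) z = g z := by
  simp only [loc, extF, (S.e i).map_target hz, if_true, S.π_symm hz]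

theorem hsh3a_tendsto {i : S.ι} {p : W} (hp : p ∈ (S.e i).source) :
    Tendsto (S.e i).symm (𝓝 (S.π p)) (𝓝 p) := by
  rw [← S.e_eq i p hp]
  exact (S.e i).tendsto_symm hp

theorem hsh3a_supp {F : Type*} [Zero F] {i : S.ι} {f : W → F} {K : Set E} (hK : IsCompact K)
    (hKU : K ⊆ (S.e i).target) (h0 : ∀ p, f p ≠ 0 → p ∈ (S.e i).source ∧ S.π p ∈ K) :
    HasCompactSupport f ∧ tsupport f ⊆ (S.e i).symm '' K ∧ tsupport f ⊆ (S.e i).source := by
  have h1 : IsCompact ((S.e i).symm '' K) :=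
    hK.image_of_continuousOn ((S.e i).continuousOn_symm.mono hKU)
  have h2 : tsupport f ⊆ (S.e i).symm '' K :=
    closure_minimal (fun p hp => ⟨S.π p, (h0 p hp).2, S.symm_π (h0 p hp).1⟩) h1.isClosed
  refine ⟨h1.of_isClosed_subset (isClosed_tsupport f) h2, h2, h2.trans ?_⟩
  rintro _ ⟨z, hz, rfl⟩
  exact (S.e i).map_target (hKU hz)

/-- The image of K under (e i).symm is compact, hence closed; smS_of_local. -/
theorem ext_test {i : S.ι} {g : E → ℂ} {K : Set E} (hK : IsCompact K) (hKU : K ⊆ (S.e i).target)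
    (hg : ContDiffOn ℝ ∞ g (S.e i).target) (h0 : ∀ z ∈ (S.e i).target, z ∉ K → g z = 0) :
    S.Test (S.ext i g) ∧ tsupport (S.ext i g) ⊆ (S.e i).symm '' K := by
  obtain ⟨h1, h2, h3⟩ := S.hsh3a_supp (f := S.ext i g) hK hKU fun p hp => by
    by_cases h4 : p ∈ (S.e i).source
    · refine ⟨h4, by_contra fun h5 => hp ?_⟩
      simp only [ext, h4, if_true, h0 _ (S.π_mem h4) h5, zero_div]
    · exact absurd (if_neg h4) hp
  refine ⟨⟨S.smS_of_local fun p => ?_, h1⟩, h2⟩
  by_cases h4 : p ∈ (S.e i).source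
  · have h5 := (S.e i).open_target.mem_nhds (S.π_mem h4)
    refine ⟨i, h4, (hg.contDiffAt h5).congr_of_eventuallyEq ?_⟩
    filter_upwards [h5] with z hz using S.rep_ext g hz
  · refine ⟨_, S.idx_mem p, (contDiffAt_const (c := 0)).congr_of_eventuallyEq ?_⟩
    filter_upwards [(S.hsh3a_tendsto (S.idx_mem p)).eventually
      (notMem_tsupport_iff_eventuallyEq.1 fun h5 => h4 (h3 h5))] with z hz
    rw [rep, hz, Pi.zero_apply, mul_zero]

theorem extF_smF {i : S.ι} {g : E → ℝ} {K : Set E} (hK : IsCompact K) (hKU : K ⊆ (S.e i).target)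
    (hg : ContDiffOn ℝ ∞ g (S.e i).target) (h0 : ∀ z ∈ (S.e i).target, z ∉ K → g z = 0) :
    S.SmF (S.extF i g) ∧ HasCompactSupport (S.extF i g) ∧
      tsupport (S.extF i g) ⊆ (S.e i).symm '' K := by
  obtain ⟨h1, h2, h3⟩ := S.hsh3a_supp (f := S.extF i g) hK hKU fun p hp => by
    by_cases h4 : p ∈ (S.e i).source
    · refine ⟨h4, by_contra fun h5 => hp ?_⟩
      simp only [extF, h4, if_true, h0 _ (S.π_mem h4) h5]
    · exact absurd (if_neg h4) hp
  refine ⟨S.smF_of_local fun p => ?_, h1, h2⟩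
  by_cases h4 : p ∈ (S.e i).source
  · have h5 := (S.e i).open_target.mem_nhds (S.π_mem h4)
    refine ⟨i, h4, (hg.contDiffAt h5).congr_of_eventuallyEq ?_⟩
    filter_upwards [h5] with z hz using S.loc_extF g hz
  · refine ⟨_, S.idx_mem p, (contDiffAt_const (c := 0)).congr_of_eventuallyEq ?_⟩
    filter_upwards [(S.hsh3a_tendsto (S.idx_mem p)).eventually
      (notMem_tsupport_iff_eventuallyEq.1 fun h5 => h4 (h3 h5))] with z hz
    exact hz

theorem hsh3a_bump (p : W) : ∃ β : W → ℝ, S.SmF β ∧ HasCompactSupport β ∧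
    tsupport β ⊆ (S.e (S.idx p)).source ∧ ∀ᶠ q in 𝓝 p, β q = 1 := by
  have : FiniteDimensional ℝ E := Module.Finite.trans ℂ E
  have := FiniteDimensional.proper ℂ E
  have hp := S.idx_mem p
  obtain ⟨r, hr, h1⟩ := Metric.nhds_basis_closedBall.mem_iff.1
    ((S.e (S.idx p)).open_target.mem_nhds (S.π_mem hp))
  let f : ContDiffBump (S.π p) := ⟨r / 2, r, half_pos hr, half_lt_self hr⟩
  obtain ⟨h2, h3, h4⟩ := S.extF_smF (g := f) (isCompact_closedBall _ r) h1 f.contDiff.contDiffOn
    fun z _ hz => image_eq_zero_of_notMem_tsupport (by rw [f.tsupport_eq]; exact hz)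
  refine ⟨_, h2, h3, h4.trans ?_, ?_⟩
  · rintro _ ⟨z, hz, rfl⟩
    exact (S.e (S.idx p)).map_target (h1 hz)
  · filter_upwards [(S.e (S.idx p)).open_source.mem_nhds hp,
      (S.continuous_π.tendsto p).eventually f.eventuallyEq_one] with q h5 h6
    simp only [extF, h5, if_true]
    exact h6

/-- Bumps β_a = extF of a ContDiffBump, equal to 1 near the centre, finitely many of these
neighbourhoods cover K; θ_a = β_a ∏_{c < a} (1 - β_c), Σ θ_a = 1 - ∏ (1 - β_a). -/
theorem pu {K : Set W} (hK : IsCompact K) :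
    ∃ (n : ℕ) (i : Fin n → S.ι) (θ : Fin n → W → ℝ),
      (∀ a, S.SmF (θ a) ∧ HasCompactSupport (θ a) ∧ tsupport (θ a) ⊆ (S.e (i a)).source) ∧
      ∀ p ∈ K, ∀ᶠ q in 𝓝 p, ∑ a, θ a q = 1 := by
  choose β h1 h2 h3 h4 using S.hsh3a_bump
  obtain ⟨t, ht⟩ := hK.elim_finite_subcover (fun p => interior {q | β p q = 1})
    (fun _ => isOpen_interior) fun p _ => mem_iUnion.2 ⟨p, mem_interior_iff_mem_nhds.2 (h4 p)⟩
  obtain ⟨c, hc⟩ : ∃ c : Fin t.card → W, ∀ p ∈ K, ∃ a, ∀ᶠ q in 𝓝 p, β (c a) q = 1 := by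
    refine ⟨fun a => (t.equivFin.symm a).1, fun p hp => ?_⟩
    obtain ⟨x, hx, h5⟩ := mem_iUnion₂.1 (ht hp)
    refine ⟨t.equivFin ⟨x, hx⟩, ?_⟩
    simp only [Equiv.symm_apply_apply]
    exact mem_interior_iff_mem_nhds.1 h5
  refine ⟨t.card, fun a => S.idx (c a),
    fun a q => β (c a) q * ∏ j ∈ Finset.univ with j < a, (1 - β (c j) q), fun a => ⟨?_, ?_, ?_⟩,
    fun p hp => ?_⟩
  · exact fun i => (h1 (c a) i).mul
      (contDiffOn_prod fun j _ => contDiffOn_const.sub (h1 (c j) i))
  · exact (h2 (c a)).mul_right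
  · exact tsupport_mul_subset_left.trans (h3 (c a))
  · obtain ⟨a, ha⟩ := hc p hp
    filter_upwards [ha] with q hq
    have h5 := Finset.prod_one_sub_ordered Finset.univ fun a => β (c a) q
    rw [Finset.prod_eq_zero (Finset.mem_univ a) (by rw [hq, sub_self])] at h5
    linarith

end Sheets

end

end Fuj
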