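import Vale.Agent.P271.HWk

/-! The projection of a test form onto the closure of the exact forms. -/

namespace Fuj

open MeasureTheory Set Filter Topology Complex
open scoped ENNReal ContDiff ComplexConjugate

noncomputable section

namespace Sheets

variable {E W : Type*} [NormedAddCommGroup E] [NormedSpace ℝ E] [NormedSpace ℂ E]
  [IsScalarTower ℝ ℂ E] [FiniteDimensional ℂ E] [MeasurableSpace E] [BorelSpace E]
  [TopologicalSpace W] [T2Space W] [MeasurableSpace W] [BorelSpace W]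
  {vol : Measure E} [vol.IsAddHaarMeasure] (S : Sheets E W vol)
  {κ : Type*} [Fintype κ] (b : Module.Basis κ ℂ E)

namespace HWkG

omit [IsScalarTower ℝ ℂ E] [FiniteDimensional ℂ E] [BorelSpace E] [T2Space W] [BorelSpace W]
  [vol.IsAddHaarMeasure] in
theorem ip_sub {φ : W → ℝ} (hφ : Measurable φ) {f g h : W → ℂ} (hf : Measurable f)
    (hg : Measurable g) (hh : Measurable h) (nf : S.nn φ f ≠ ⊤) (ng : S.nn φ g ≠ ⊤)
    (nh : S.nn φ h ≠ ⊤) : S.ip φ (fun p => f p - g p) h = S.ip φ f h - S.ip φ g h := by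
  unfold ip
  rw [← integral_sub (S.integrable_pair hφ hf hh nf nh) (S.integrable_pair hφ hg hh ng nh)]
  exact integral_congr_ae (Eventually.of_forall fun p => by ring)

omit [IsScalarTower ℝ ℂ E] [FiniteDimensional ℂ E] [BorelSpace E] [T2Space W] [BorelSpace W]
  [vol.IsAddHaarMeasure] in
theorem ip_small {φ : W → ℝ} (hφ : Measurable φ) {f h : W → ℂ} (hf : Measurable f)
    (hh : Measurable h) (nh : S.nn φ h ≠ ⊤) {ε : ℝ} (hε : 0 ≤ ε)
    (nf : S.nn φ f ≤ ENNReal.ofReal ε) : ‖S.ip φ f h‖ ^ 2 ≤ ε * (S.nn φ h).toReal := by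
  have := (S.ip_sq_le hφ hf hh).trans (mul_le_mul_left nf _)
  rw [← ENNReal.ofReal_toReal nh, ← ENNReal.ofReal_mul hε] at this
  exact (ENNReal.ofReal_le_ofReal_iff (by positivity)).1 this

omit [NormedSpace ℝ E] [IsScalarTower ℝ ℂ E] [FiniteDimensional ℂ E] [BorelSpace E] [T2Space W]
  [BorelSpace W] [vol.IsAddHaarMeasure] in
theorem off {i : S.ι} {K : Set E} (hKU : K ⊆ (S.e i).target) {σ : W → ℂ}
    (h : tsupport σ ⊆ (S.e i).symm '' K) {p : W} (hp : p ∉ (S.e i).source) : p ∉ tsupport σ :=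
  fun hq => by
    obtain ⟨z, hz, rfl⟩ := h hq
    exact hp ((S.e i).map_target (hKU hz))

theorem exp_cancel (x : ℝ) : ((Real.exp x : ℝ) : ℂ) * ((Real.exp (-x) : ℝ) : ℂ) = 1 := by
  rw [← ofReal_mul, ← Real.exp_add, add_neg_cancel, Real.exp_zero, ofReal_one]

omit [NormedSpace ℂ E] [IsScalarTower ℝ ℂ E] [FiniteDimensional ℂ E] [MeasurableSpace E]
  [BorelSpace E] in
theorem smo_ofReal {U : Set E} {f : E → ℝ} (hf : ContDiffOn ℝ ∞ f U) :
    ContDiffOn ℝ ∞ (fun z => (f z : ℂ)) U := ofRealCLM.contDiff.comp_contDiffOn hf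

theorem pair {φ : W → ℝ} (hφ : S.SmW φ) {i : S.ι} {K : Set E} (hK : IsCompact K)
    (hKU : K ⊆ (S.e i).target) {a : E → ℂ} (ha : ContDiffOn ℝ ∞ a (S.e i).target)
    (h0 : ∀ z ∈ (S.e i).target, z ∉ K → a z = 0) : ∃ σ, S.Test σ ∧ ∀ f, Measurable f →
      ∫ z in (S.e i).target, a z * S.rep i f z ∂vol = S.ip φ f σ := by
  obtain ⟨h1, h2⟩ := S.ext_test (g := fun z => conj (a z) * (Real.exp (S.wt i φ z) : ℝ)) hK hKU
    ((conjCLE.contDiff.comp_contDiffOn ha).mul (smo_ofReal (hφ i).exp))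
    (fun z hz hz' => by simp [h0 z hz hz'])
  refine ⟨_, h1, fun f hf => ?_⟩
  rw [S.ip_chart hφ hf (SmS.measurable S h1.1) (i := i) fun p hp => by
    rw [image_eq_zero_of_notMem_tsupport (off S hKU h2 hp), map_zero, mul_zero]]
  refine setIntegral_congr_fun (S.e i).open_target.measurableSet fun z hz => ?_
  rw [S.rep_ext _ hz, map_mul, conj_conj, conj_ofReal]
  linear_combination (-(a z * S.rep i f z)) * exp_cancel (S.wt i φ z)

theorem int_mul {i : S.ι} {ζ : E → ℝ} (hζ : TestOn (S.e i).target ζ) {a : E → ℂ}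
    (ha : ContinuousOn a (S.e i).target) (h0 : ∀ z, z ∉ tsupport ζ → a z = 0) {f : W → ℂ}
    (hf : S.LocL2 f) : IntegrableOn (fun z => a z * S.rep i f z) (S.e i).target vol :=
  integrableOn_mul_of_supp (S.e i).open_target hζ.2.1 hζ.2.2 ha (fun z _ => h0 z)
    (S.aesm_rep hf.1 i) (hf.2 i _ hζ.2.1 hζ.2.2)

theorem int_c {φ : W → ℝ} (hφ : S.SmW φ) {i : S.ι} {ζ : E → ℝ} (hζ : TestOn (S.e i).target ζ)
    (ξ : E) {f : W → ℂ} (hf : S.LocL2 f) :
    IntegrableOn (fun z => dzr ζ z ξ * S.rep i f z) (S.e i).target vol ∧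
    IntegrableOn (fun z => (ζ z * dzr (S.wt i φ) z ξ) * S.rep i f z) (S.e i).target vol ∧
    IntegrableOn (fun z => (ζ z : ℂ) * S.rep i f z) (S.e i).target vol := by
  have c : Continuous fun z => (ζ z : ℂ) := continuous_ofReal.comp hζ.1.continuous
  have z0 : ∀ z, z ∉ tsupport ζ → (ζ z : ℂ) = 0 := fun z hz => by
    rw [image_eq_zero_of_notMem_tsupport hz, ofReal_zero]
  exact ⟨int_mul S hζ (hζ.continuous_dzr ξ).continuousOn (fun z hz => hζ.dzr_eq_zero hz ξ) hf,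
    int_mul S hζ (c.continuousOn.mul (contDiffOn_dzr (S.e i).open_target (hφ i) ξ).continuousOn)
      (fun z hz => mul_eq_zero_of_left (z0 z hz) _) hf, int_mul S hζ c.continuousOn z0 hf⟩

theorem div_eq {φ : W → ℝ} (hφ : S.SmW φ) {i : S.ι} {ζ : E → ℝ} (hζ : TestOn (S.e i).target ζ)
    {f : κ → W → ℂ} (hf : ∀ j, S.LocL2 (f j)) {g : W → ℂ} (hg : S.LocL2 g) :
    (∫ z in (S.e i).target, ∑ j, dzr ζ z (b j) * S.rep i (f j) z ∂vol) +
      ∫ z in (S.e i).target, (ζ z : ℂ) *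
        (S.rep i g z + ∑ j, dzr (S.wt i φ) z (b j) * S.rep i (f j) z) ∂vol =
    (∑ j, ∫ z in (S.e i).target,
      (dzr ζ z (b j) + ζ z * dzr (S.wt i φ) z (b j)) * S.rep i (f j) z ∂vol) +
      ∫ z in (S.e i).target, (ζ z : ℂ) * S.rep i g z ∂vol := by
  have i1 := fun j => (int_c S hφ hζ (b j) (hf j)).1
  have i2 := fun j => (int_c S hφ hζ (b j) (hf j)).2.1
  have i3 := (int_c S hφ hζ 0 hg).2.2
  have e : ∀ z, (ζ z : ℂ) * (S.rep i g z + ∑ j, dzr (S.wt i φ) z (b j) * S.rep i (f j) z) =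
      (ζ z : ℂ) * S.rep i g z + ∑ j, (ζ z * dzr (S.wt i φ) z (b j)) * S.rep i (f j) z :=
    fun z => by simp only [mul_add, Finset.mul_sum, mul_assoc]
  simp only [e, add_mul]
  rw [integral_add i3 (integrable_finsetSum _ fun j _ => i2 j),
    integral_finsetSum _ fun j _ => i1 j, integral_finsetSum _ fun j _ => i2 j,
    Finset.sum_congr rfl fun j _ => integral_add (i1 j) (i2 j), Finset.sum_add_distrib]
  ring

theorem test_div {φ : W → ℝ} (hφ : S.SmW φ) {i : S.ι} {ζ : E → ℝ}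
    (hζ : TestOn (S.e i).target ζ) : ∃ σ, S.Test σ ∧ ∀ ξ f, Measurable f →
      S.ip φ f (S.Db ξ σ) = ∫ z in (S.e i).target,
        (dzr ζ z ξ + ζ z * dzr (S.wt i φ) z ξ) * S.rep i f z ∂vol := by
  have hU := (S.e i).open_target
  obtain ⟨h1, h2⟩ := S.ext_test (g := fun z => ((ζ z * Real.exp (S.wt i φ z) : ℝ) : ℂ)) hζ.2.1
    hζ.2.2 (smo_ofReal (hζ.1.contDiffOn.mul (hφ i).exp))
    (fun z _ hz' => by simp [image_eq_zero_of_notMem_tsupport hz'])
  refine ⟨_, h1, fun ξ f hf => ?_⟩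
  rw [S.ip_chart hφ hf (SmS.measurable S (SmS.Db S h1.1 ξ)) (i := i) fun p hp => by
    rw [S.Db_eq_zero (off S hζ.2.2 h2 hp), map_zero, mul_zero]]
  refine setIntegral_congr_fun hU.measurableSet fun z hz => ?_
  have dw : DifferentiableAt ℝ (S.wt i φ) z :=
    ((hφ i).contDiffAt (hU.mem_nhds hz)).differentiableAt (by simp)
  have dζ : DifferentiableAt ℝ ζ z := hζ.1.differentiable (by simp) z
  have ev : S.rep i (S.ext i fun z => ((ζ z * Real.exp (S.wt i φ z) : ℝ) : ℂ)) =ᶠ[𝓝 z]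
      fun z => ((ζ z * Real.exp (S.wt i φ z) : ℝ) : ℂ) :=
    mem_of_superset (hU.mem_nhds hz) fun y hy => S.rep_ext _ hy
  rw [S.rep_Db h1.1 hz, db_congr ev, db_ofReal, conj_conj,
    dzr_mul dζ dw.exp, dzr_comp dw (Real.hasDerivAt_exp _)]
  linear_combination ((dzr ζ z ξ + ζ z * dzr (S.wt i φ) z ξ) * S.rep i f z) *
    exp_cancel (S.wt i φ z)

end HWkG

open HWkG in
/-- div: test horth with σ = ext i (ζ exp (wt i φ)) (ext_test, ip_chart, rep_Db): it says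
∫ Σ_j rep (γ_j - γ₁_j) (dzr ζ b_j + ζ dzr wt b_j) = 0; compare with wk_smooth for γ.
curl: for r_j = Db b_j σ, wk_smooth and Db_comm give 0; the difference is bounded by
Cauchy-Schwarz on tsupport ζ, where exp (-wt) is bounded below (chart_le_nn). -/
theorem wk_proj {φ : W → ℝ} (hφ : S.SmW φ) {γ γ₁ : κ → W → ℂ} (hγ : ∀ j, S.Test (γ j))
    (h1 : ∀ j, Measurable (γ₁ j) ∧ S.nn φ (γ₁ j) ≠ ⊤)
    (happ : ∀ ε : ℝ, 0 < ε → ∃ σ, S.Test σ ∧
      ∑ j, S.nn φ (fun p => γ₁ j p - S.Db (b j) σ p) ≤ ENNReal.ofReal ε)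
    (horth : ∀ σ, S.Test σ → ∑ j, S.ip φ (fun p => γ j p - γ₁ j p) (S.Db (b j) σ) = 0) :
    S.Wk b φ γ₁ (S.Div b φ γ) (fun _ _ _ => 0) := by
  have mφ := SmW.measurable S hφ
  have l1 : ∀ j, S.LocL2 (γ₁ j) := fun j => S.locL2_of_nn hφ (h1 j).1 (h1 j).2
  have lg := SmS.locL2 S (S.test_Div b hφ hγ).1
  have mt : ∀ {σ}, S.Test σ → Measurable σ := fun h => SmS.measurable S h.1
  refine ⟨l1, lg, fun _ _ => SmS.locL2 S S.smS_zero, fun i ζ hζ => ?_, fun i ζ hζ j k => ?_⟩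
  · obtain ⟨σ, hσ, he⟩ := test_div S hφ hζ
    have k1 := div_eq S b hφ hζ l1 lg
    have k2 := div_eq S b hφ hζ (fun j => SmS.locL2 S (hγ j).1) lg
    have k3 := (S.wk_smooth b hφ fun j => (hγ j).1).div i ζ hζ
    have k4 := horth σ hσ
    rw [Finset.sum_congr rfl fun j _ => ip_sub S mφ (mt (hγ j)) (h1 j).1 (mt (Test.Db S hσ _))
      (Test.nn_ne_top S hφ (hγ j)) (h1 j).2 (Test.nn_ne_top S hφ (Test.Db S hσ (b j))),
      Finset.sum_sub_distrib, Finset.sum_congr rfl fun j _ => he (b j) _ (mt (hγ j)),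
      Finset.sum_congr rfl fun j _ => he (b j) _ (h1 j).1] at k4
    linear_combination k1 - k2 + k3 - k4
  · have hp := fun l => pair S hφ hζ.2.1 hζ.2.2 (a := fun z => conj (dzr ζ z (b l)))
      (conjCLE.contDiff.comp_contDiffOn
        (contDiffOn_dzr (S.e i).open_target hζ.1.contDiffOn (b l)))
      (fun z _ hz => by rw [hζ.dzr_eq_zero hz, map_zero])
    choose s hs he using hp
    have T : ∀ f : κ → W → ℂ, (∀ l, S.LocL2 (f l)) →
        ∫ z in (S.e i).target, (conj (dzr ζ z (b j)) * S.rep i (f k) z -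
          conj (dzr ζ z (b k)) * S.rep i (f j) z) ∂vol =
          S.ip φ (f k) (s j) - S.ip φ (f j) (s k) := fun f hf => by
      have I := fun l m => int_mul S hζ (a := fun z => conj (dzr ζ z (b l)))
        (continuous_conj.comp (hζ.continuous_dzr (b l))).continuousOn
        (fun z hz => by rw [hζ.dzr_eq_zero hz, map_zero]) (hf m)
      rw [integral_sub (I j k) (I k j), he j _ (hf k).1, he k _ (hf j).1]
    have z0 : ∫ z in (S.e i).target, (ζ z : ℂ) * S.rep i (fun _ => 0) z ∂vol = 0 := by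
      simp [rep]
    rw [T γ₁ l1, z0, neg_zero]
    have key : ∀ ε : ℝ, 0 < ε → ‖S.ip φ (γ₁ k) (s j) - S.ip φ (γ₁ j) (s k)‖ ^ 2 ≤
        ε * (2 * ((S.nn φ (s j)).toReal + (S.nn φ (s k)).toReal)) := by
      intro ε hε
      obtain ⟨σ, hσ, hle⟩ := happ ε hε
      have c := (S.wk_smooth b hφ (γ := fun l => S.Db (b l) σ) fun l => SmS.Db S hσ.1 _).curl
        i ζ hζ j k
      have c0 : S.Curl b (fun l => S.Db (b l) σ) j k = fun _ => 0 := funext fun p => by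
        simp only [Curl]
        rw [S.Db_comm hσ.1, sub_self]
      rw [T _ fun l => SmS.locL2 S (SmS.Db S hσ.1 _), c0, z0, neg_zero] at c
      have sb := fun l m => ip_sub S mφ (h1 l).1 (mt (Test.Db S hσ (b l))) (mt (hs m)) (h1 l).2
        (Test.nn_ne_top S hφ (Test.Db S hσ _)) (Test.nn_ne_top S hφ (hs m))
      have sm := fun l m => ip_small S mφ ((h1 l).1.sub (mt (Test.Db S hσ (b l)))) (mt (hs m))
        (Test.nn_ne_top S hφ (hs m)) hε.le ((Finset.single_le_sum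
          (f := fun l => S.nn φ fun p => γ₁ l p - S.Db (b l) σ p) (fun _ _ => zero_le)
          (Finset.mem_univ l)).trans hle)
      have e : S.ip φ (γ₁ k) (s j) - S.ip φ (γ₁ j) (s k) =
          S.ip φ (fun p => γ₁ k p - S.Db (b k) σ p) (s j) -
            S.ip φ (fun p => γ₁ j p - S.Db (b j) σ p) (s k) := by
        rw [sb, sb]; linear_combination c
      have a1 : ‖S.ip φ (fun p => γ₁ k p - S.Db (b k) σ p) (s j)‖ ^ 2 ≤ _ := sm k j
      have a2 : ‖S.ip φ (fun p => γ₁ j p - S.Db (b j) σ p) (s k)‖ ^ 2 ≤ _ := sm j k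
      rw [e]
      generalize S.ip φ (fun p => γ₁ k p - S.Db (b k) σ p) (s j) = x at a1 ⊢
      generalize S.ip φ (fun p => γ₁ j p - S.Db (b j) σ p) (s k) = y at a2 ⊢
      have := pow_le_pow_left₀ (norm_nonneg _) (norm_sub_le x y) 2
      nlinarith [sq_nonneg (‖x‖ - ‖y‖)]
    generalize S.ip φ (γ₁ k) (s j) - S.ip φ (γ₁ j) (s k) = x at key
    have hN : 0 ≤ 2 * ((S.nn φ (s j)).toReal + (S.nn φ (s k)).toReal) := by positivity
    generalize 2 * ((S.nn φ (s j)).toReal + (S.nn φ (s k)).toReal) = N at key hN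
    have : ‖x‖ ^ 2 ≤ 0 := le_of_forall_pos_le_add fun δ hδ => by
      refine (key _ (div_pos hδ (by linarith : 0 < N + 1))).trans ?_
      rw [zero_add, div_mul_eq_mul_div, div_le_iff₀ (by linarith)]
      nlinarith
    exact norm_eq_zero.1 (pow_eq_zero_iff two_ne_zero |>.1 (le_antisymm this (sq_nonneg _)))

open HWkG in
/-- l2_proj with R = {fun j => Db (b j) σ | σ test}, w = exp (-φ), then wk_proj. -/
theorem exists_proj {φ : W → ℝ} (hφ : S.SmW φ) {γ : κ → W → ℂ} (hγ : ∀ j, S.Test (γ j)) :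
    ∃ γ₁ : κ → W → ℂ, (∀ j, Measurable (γ₁ j) ∧ S.nn φ (γ₁ j) ≠ ⊤) ∧
      S.Wk b φ γ₁ (S.Div b φ γ) (fun _ _ _ => 0) ∧
      ∀ σ, S.Test σ → ∑ j, S.ip φ (S.Db (b j) σ) (γ j) = ∑ j, S.ip φ (S.Db (b j) σ) (γ₁ j) := by
  have mφ := SmW.measurable S hφ
  have mt : ∀ {σ}, S.Test σ → Measurable σ := fun h => SmS.measurable S h.1
  let R : Submodule ℂ (κ → W → ℂ) :=
    { carrier := {r | ∃ σ, S.Test σ ∧ r = fun j => S.Db (b j) σ}
      add_mem' := by
        rintro _ _ ⟨σ, hσ, rfl⟩ ⟨σ', hσ', rfl⟩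
        exact ⟨_, Test.add S hσ hσ', funext fun j => funext fun p =>
          (S.Db_add hσ.1 hσ'.1 (b j) p).symm⟩
      zero_mem' := ⟨_, S.test_zero, funext fun j => funext fun p =>
        (S.Db_eq_zero (by simp [tsupport]) (b j)).symm⟩
      smul_mem' := by
        rintro c _ ⟨σ, hσ, rfl⟩
        exact ⟨_, Test.const_mul S hσ c, funext fun j => funext fun p =>
          (S.Db_const_mul hσ.1 c (b j) p).symm⟩ }
  obtain ⟨γ₁, h1, h2, h3⟩ := l2_proj S.μ (w := fun p => Real.exp (-φ p)) mφ.neg.exp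
    (fun _ => Real.exp_pos _) R (by
      rintro _ ⟨σ, hσ, rfl⟩ j
      exact ⟨mt (Test.Db S hσ _), Test.nn_ne_top S hφ (Test.Db S hσ _)⟩) γ
    fun j => ⟨mt (hγ j), Test.nn_ne_top S hφ (hγ j)⟩
  have ho : ∀ σ, S.Test σ → ∑ j, S.ip φ (fun p => γ j p - γ₁ j p) (S.Db (b j) σ) = 0 :=
    fun σ hσ => h3 _ ⟨σ, hσ, rfl⟩
  refine ⟨γ₁, h1, S.wk_proj b hφ hγ h1 (fun ε hε => ?_) ho, fun σ hσ => ?_⟩
  · obtain ⟨_, ⟨σ, hσ, rfl⟩, h⟩ := h2 ε hε
    exact ⟨σ, hσ, h⟩
  · have k := ho σ hσ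
    rw [Finset.sum_congr rfl fun j _ => ip_sub S mφ (mt (hγ j)) (h1 j).1 (mt (Test.Db S hσ _))
      (Test.nn_ne_top S hφ (hγ j)) (h1 j).2 (Test.nn_ne_top S hφ (Test.Db S hσ (b j))),
      Finset.sum_sub_distrib, sub_eq_zero] at k
    have := congrArg conj k
    simpa only [map_sum, ip_conj] using this

end Sheets

end

end Fuj
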