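import Vale.Agent.P271.HTw1
import Vale.Agent.P271.HWkG

/-! The two weight a priori inequality. -/

namespace Fuj

open MeasureTheory Set Filter Topology Complex
open scoped ENNReal ContDiff ComplexConjugate

noncomputable section

namespace Sheets

variable {E W : Type*} [NormedAddCommGroup E] [NormedSpace ℝ E] [NormedSpace ℂ E]
  [IsScalarTower ℝ ℂ E] [FiniteDimensional ℂ E] [MeasurableSpace E] [BorelSpace E]
  [TopologicalSpace W] [T2Space W] [MeasurableSpace W] [BorelSpace W]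
  {vol : Measure E} [vol.IsAddHaarMeasure] (S : Sheets E W vol)
  {κ : Type*} [Fintype κ] (b : Module.Basis κ ℂ E)

/-- γ₁ from exists_proj. For large k, χ_k = 1 on a compact neighbourhood of the supports of the γ_j
(locallyCompact), so Σ ip (Db_j f) γ_j = Σ ip (Db_j (χ_k f)) γ_j = Σ ip (Db_j (χ_k f)) γ₁_j
= ∫ χ_k Db (vec γ₁) f exp (-φ) + ∫ f conj (Dz χ_k (vec γ₁)) exp (-φ) (Db_mulF, Db_vec, Dz_vec; the
sections χ_k Db_j f and Db_j (χ_k f) are test sections). cs_lintegral with a = A exp (ψ - φ),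
c = the integrand of tw_cut for the first term, with a = |f|² exp (ψ - φ),
c = c_k Σ|γ₁_j|² exp (-φ) for the second. normSq_add_le, k → ∞, t → 0. -/
theorem tw {φ ψ : W → ℝ} (hφ : S.SmW φ) (hψ : S.SmF ψ)
    (hpos : ∀ p ξ, 2 * ‖S.Dz ψ p ξ‖ ^ 2 ≤ S.Lv (fun q => φ q + ψ q) p ξ)
    {χ : ℕ → W → ℝ} {c : ℕ → ℝ}
    (hχ : ∀ k, S.SmF (χ k) ∧ HasCompactSupport (χ k) ∧ ∀ p, 0 ≤ χ k p ∧ χ k p ≤ 1)
    (hχ1 : ∀ K, IsCompact K → ∀ᶠ k in atTop, ∀ p ∈ K, χ k p = 1)
    (hc : ∀ k p, (∑ j, ‖S.Dz (χ k) p (b j)‖ ^ 2) * Real.exp (-ψ p) ≤ c k)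
    (hc0 : Tendsto c atTop (𝓝 0)) {f : W → ℂ} (hf : S.SmS f)
    (hf2 : S.nn (fun q => φ q - ψ q) f ≠ ⊤) {A : W → ℝ} (hA : Measurable A) (hA0 : ∀ p, 0 ≤ A p)
    (hfA : ∀ p ξ, ‖S.Db ξ f p‖ ^ 2 ≤
      A p * (S.Lv (fun q => φ q + ψ q) p ξ - 2 * ‖S.Dz ψ p ξ‖ ^ 2))
    (hM : ∫⁻ p, ENNReal.ofReal (A p * Real.exp (ψ p - φ p)) ∂S.μ ≠ ⊤)
    {γ : κ → W → ℂ} (hγ : ∀ j, S.Test (γ j)) :
    ENNReal.ofReal (‖∑ j, S.ip φ (S.Db (b j) f) (γ j)‖ ^ 2) ≤
      2 * (∫⁻ p, ENNReal.ofReal (A p * Real.exp (ψ p - φ p)) ∂S.μ) *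
        S.nn (fun q => φ q + ψ q) (S.Div b φ γ) := by
  rcases isEmpty_or_nonempty W with hW | ⟨⟨p₀⟩⟩
  · have : ∀ j, S.ip φ (S.Db (b j) f) (γ j) = 0 := fun j => integral_of_isEmpty
    simp [this]
  have hc0' : ∀ k, 0 ≤ c k := fun k => le_trans (by positivity) (hc k p₀)
  obtain ⟨γ₁, h1, hw, hpr⟩ := S.exists_proj b hφ hγ
  have hΦ := SmW.add S hφ hψ
  have mφ := SmW.measurable S hφ
  have mψ := (SmF.continuous S hψ).measurable
  have mf := SmS.measurable S hf
  have mγ : ∀ j, Measurable (γ₁ j) := fun j => (h1 j).1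
  have key : ∀ x : ℝ≥0∞, x ≠ ⊤ → ∃ r : ℝ, 0 ≤ r ∧ x = ENNReal.ofReal r := fun x hx =>
    ⟨x.toReal, ENNReal.toReal_nonneg, (ENNReal.ofReal_toReal hx).symm⟩
  obtain ⟨m, hm0, hm⟩ := key _ hM
  obtain ⟨n, hn0, hn⟩ := key _ (Test.nn_ne_top S hΦ (S.test_Div b hφ hγ))
  obtain ⟨G, hG0, hG⟩ := key (∑ j, S.nn φ (γ₁ j)) (ENNReal.sum_ne_top.2 fun j _ => (h1 j).2)
  obtain ⟨F, hF0, hF⟩ := key _ hf2
  have := S.locallyCompact
  obtain ⟨K, hK, hKK⟩ := exists_compact_superset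
    (isCompact_iUnion fun j => (hγ j).2.isCompact : IsCompact (⋃ j, tsupport (γ j)))
  have mD : ∀ {h : W → ℝ}, S.SmF h → Measurable fun p => S.Dz h p (vec b γ₁ p) := fun {h} hh => by
    simp only [S.Dz_vec]
    exact Finset.measurable_sum _ fun j _ => (S.continuous_Dz hh _).measurable.mul (mγ j)
  have main : ∀ t : ℝ, 0 < t → ∀ᶠ k in atTop, ‖∑ j, S.ip φ (S.Db (b j) f) (γ j)‖ ^ 2 ≤
      (1 + t) * (m * (2 * (1 + t) * n + (2 * (1 + t⁻¹) + 4 * Fintype.card κ) * c k * G)) +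
        (1 + t⁻¹) * (F * (c k * G)) := by
    intro t ht
    filter_upwards [hχ1 K hK] with k hk
    obtain ⟨χs, χc, χ01⟩ := hχ k
    have mχ := (SmF.continuous S χs).measurable
    have hσ := S.test_cut χs χc hf
    have e1 : ∑ j, S.ip φ (S.Db (b j) f) (γ j) =
        ∑ j, S.ip φ (S.Db (b j) fun p => (χ k p : ℂ) * f p) (γ j) := by
      refine Finset.sum_congr rfl fun j _ => integral_congr_ae (Eventually.of_forall fun p => ?_)
      by_cases hp : p ∈ tsupport (γ j)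
      · have : f =ᶠ[𝓝 p] fun p => (χ k p : ℂ) * f p := by
          filter_upwards [mem_interior_iff_mem_nhds.1 (hKK (mem_iUnion.2 ⟨j, hp⟩))] with q hq
          simp [hk q hq]
        simp only [S.Db_congr this]
      · simp [image_eq_zero_of_notMem_tsupport hp]
    have iT : ∀ j, Integrable (fun p => S.Db (b j) (fun p => (χ k p : ℂ) * f p) p *
        conj (γ₁ j p) * (Real.exp (-φ p) : ℝ)) S.μ := fun j =>
      S.integrable_pair mφ (SmS.measurable S (Test.Db S hσ _).1) (mγ j)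
        (Test.nn_ne_top S hφ (Test.Db S hσ _)) (h1 j).2
    set x : W → ℂ := fun p => (χ k p : ℂ) * S.Db (vec b γ₁ p) f p * (Real.exp (-φ p) : ℝ) with hx
    set y : W → ℂ := fun p => conj (S.Dz (χ k) p (vec b γ₁ p)) * f p * (Real.exp (-φ p) : ℝ)
      with hy
    have eT : ∀ p, ∑ j, S.Db (b j) (fun p => (χ k p : ℂ) * f p) p *
        conj (γ₁ j p) * (Real.exp (-φ p) : ℝ) = x p + y p := fun p => by
      rw [← Finset.sum_mul, ← S.Db_vec, S.Db_mulF χs hf]
      ring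
    have ee : ∀ p, Real.exp (-φ p) ^ 2 = Real.exp (ψ p - φ p) * Real.exp (-(φ p + ψ p)) :=
      fun p => by
        rw [← Real.exp_add, sq, ← Real.exp_add]
        congr 1
        ring
    have ee' : ∀ p, Real.exp (-φ p) ^ 2 =
        Real.exp (-ψ p) * Real.exp (-(φ p - ψ p)) * Real.exp (-φ p) := fun p => by
      rw [← Real.exp_add, ← Real.exp_add, sq, ← Real.exp_add]
      congr 1
      ring
    have my : ∀ p, ‖y p‖ ^ 2 ≤ (‖f p‖ ^ 2 * Real.exp (-(φ p - ψ p))) *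
        (c k * ∑ j, ‖γ₁ j p‖ ^ 2 * Real.exp (-φ p)) := fun p => by
      simp only [hy, norm_mul, mul_pow, Complex.norm_conj, Complex.norm_real, Real.norm_eq_abs,
        sq_abs]
      rw [ee', S.Dz_vec, ← Finset.sum_mul]
      calc _ ≤ ((∑ j, ‖S.Dz (χ k) p (b j)‖ ^ 2) * ∑ j, ‖γ₁ j p‖ ^ 2) * ‖f p‖ ^ 2 *
            (Real.exp (-ψ p) * Real.exp (-(φ p - ψ p)) * Real.exp (-φ p)) := by
            gcongr
            exact HTw1_cs _ _
        _ = ((∑ j, ‖S.Dz (χ k) p (b j)‖ ^ 2) * Real.exp (-ψ p)) *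
            (‖f p‖ ^ 2 * Real.exp (-(φ p - ψ p)) *
              ((∑ j, ‖γ₁ j p‖ ^ 2) * Real.exp (-φ p))) := by ring
        _ ≤ c k * (‖f p‖ ^ 2 * Real.exp (-(φ p - ψ p)) *
              ((∑ j, ‖γ₁ j p‖ ^ 2) * Real.exp (-φ p))) :=
            mul_le_mul_of_nonneg_right (hc k p) (by positivity)
        _ = _ := by ring
    have hck := hc0' k
    have eG : ∫⁻ p, ENNReal.ofReal (c k * ∑ j, ‖γ₁ j p‖ ^ 2 * Real.exp (-φ p)) ∂S.μ =
        ENNReal.ofReal (c k * G) := by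
      rw [ENNReal.ofReal_mul hck, ← hG]
      unfold nn
      rw [← lintegral_finsetSum _ fun j _ => by fun_prop,
        ← lintegral_const_mul' _ _ ENNReal.ofReal_ne_top]
      refine lintegral_congr fun p => ?_
      rw [← ENNReal.ofReal_sum_of_nonneg fun j _ => by positivity, ← ENNReal.ofReal_mul hck]
    have mDχ := mD χs
    have iy : Integrable y S.μ := by
      refine integrable_of_cs S.μ (Measurable.aestronglyMeasurable ?_) (by fun_prop) (by fun_prop)
        (fun p => by positivity) (fun p => by positivity) my hf2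
        (by rw [eG]; exact ENNReal.ofReal_ne_top)
      exact ((Complex.continuous_conj.measurable.comp mDχ).mul mf).mul (by fun_prop)
    have ixy : Integrable (fun p => x p + y p) S.μ := by
      simpa only [eT] using integrable_finsetSum Finset.univ fun j _ => iT j
    have ix : Integrable x S.μ :=
      (ixy.sub iy).congr (Eventually.of_forall fun p => add_sub_cancel_right _ _)
    have e2 : ∑ j, S.ip φ (S.Db (b j) f) (γ j) = ∫ p, x p ∂S.μ + ∫ p, y p ∂S.μ := by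
      rw [e1, hpr _ hσ, ← integral_add ix iy]
      unfold ip
      rw [← integral_finsetSum _ fun j _ => iT j]
      simp only [eT]
    have bY := cs_lintegral S.μ (by fun_prop) (by fun_prop) (fun p => by positivity)
      (fun p => by positivity) my
    have mL := S.measurable_Lv_vec b hΦ mγ
    have mDψ := mD hψ
    have bX := cs_lintegral S.μ (h := x) (a := fun p => A p * Real.exp (ψ p - φ p))
      (c := fun p => χ k p ^ 2 * (S.Lv (fun q => φ q + ψ q) p (vec b γ₁ p) -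
        2 * ‖S.Dz ψ p (vec b γ₁ p)‖ ^ 2) * Real.exp (-(φ p + ψ p))) (by fun_prop) (by fun_prop)
      (fun p => mul_nonneg (hA0 p) (by positivity))
      (fun p => mul_nonneg (mul_nonneg (by positivity) (sub_nonneg.2 (hpos p _))) (by positivity))
      fun p => by
        simp only [hx, norm_mul, mul_pow, Complex.norm_real, Real.norm_eq_abs, sq_abs]
        rw [ee]
        calc _ ≤ χ k p ^ 2 * (A p * (S.Lv (fun q => φ q + ψ q) p (vec b γ₁ p) -
              2 * ‖S.Dz ψ p (vec b γ₁ p)‖ ^ 2)) *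
              (Real.exp (ψ p - φ p) * Real.exp (-(φ p + ψ p))) := by
              gcongr
              exact hfA p _
          _ = _ := by ring
    have bX2 := bX.trans (mul_le_mul_right (S.tw_cut b hφ hψ hpos hw χs χc χ01 (hc k) ht) _)
    rw [hm, hn, hG, ← ENNReal.ofReal_mul (by positivity), ← ENNReal.ofReal_mul (by positivity),
      ← ENNReal.ofReal_add (by positivity) (by positivity), ← ENNReal.ofReal_mul hm0,
      ENNReal.ofReal_le_ofReal_iff (by positivity)] at bX2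
    change _ ≤ S.nn (fun q => φ q - ψ q) f * _ at bY
    rw [eG, hF, ← ENNReal.ofReal_mul hF0, ENNReal.ofReal_le_ofReal_iff (by positivity)] at bY
    rw [e2]
    refine (normSq_add_le _ _ ht).trans ?_
    gcongr
  have lim1 : ∀ t : ℝ, 0 < t → ‖∑ j, S.ip φ (S.Db (b j) f) (γ j)‖ ^ 2 ≤
      (1 + t) * (m * (2 * (1 + t) * n)) := fun t ht => by
    have : Tendsto (fun k => (1 + t) * (m * (2 * (1 + t) * n +
        (2 * (1 + t⁻¹) + 4 * Fintype.card κ) * c k * G)) + (1 + t⁻¹) * (F * (c k * G))) atTop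
        (𝓝 ((1 + t) * (m * (2 * (1 + t) * n + (2 * (1 + t⁻¹) + 4 * Fintype.card κ) * 0 * G)) +
          (1 + t⁻¹) * (F * (0 * G)))) :=
      ((((hc0.const_mul _).mul_const _).const_add _).const_mul _ |>.const_mul _).add
        (((hc0.mul_const _).const_mul _).const_mul _)
    simpa using ge_of_tendsto this (main t ht)
  have lim2 : ‖∑ j, S.ip φ (S.Db (b j) f) (γ j)‖ ^ 2 ≤ 2 * m * n := by
    have : Tendsto (fun t : ℝ => (1 + t) * (m * (2 * (1 + t) * n))) (𝓝[>] 0)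
        (𝓝 ((1 + 0) * (m * (2 * (1 + 0) * n)))) :=
      (Continuous.tendsto (by fun_prop) _).mono_left nhdsWithin_le_nhds
    have := ge_of_tendsto this (eventually_nhdsWithin_of_forall lim1)
    linarith
  rw [hm, hn, ← ENNReal.ofReal_ofNat 2, ← ENNReal.ofReal_mul zero_le_two,
    ← ENNReal.ofReal_mul (by positivity)]
  exact ENNReal.ofReal_le_ofReal lim2

end Sheets

end

end Fuj
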