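import Vale.Agent.P271.HDens2

/-! The two weight inequality for a weakly closed form, with one cutoff. -/

namespace Fuj

open MeasureTheory Set Filter Topology Complex
open scoped ENNReal ContDiff ComplexConjugate

noncomputable section

namespace Sheets

variable {E W : Type*} [NormedAddCommGroup E] [NormedSpace ℝ E] [NormedSpace ℂ E]
  [IsScalarTower ℝ ℂ E] [FiniteDimensional ℂ E] [MeasurableSpace E] [BorelSpace E]
  [TopologicalSpace W] [T2Space W] [MeasurableSpace W] [BorelSpace W]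
  {vol : Measure E} [vol.IsAddHaarMeasure] (S : Sheets E W vol)
  {κ : Type*} [Fintype κ] (b : Module.Basis κ ℂ E)

theorem HTw1_sum {φ Φ : W → ℝ} (hφ : Measurable φ) {α : Type*} (s : Finset α) {γ : α → W → ℂ}
    (hγ : ∀ j, Measurable (γ j)) {f : W → ℂ} {C : ℝ} (hC : 0 ≤ C)
    (h : ∀ p, ‖f p‖ ^ 2 * Real.exp (-Φ p) ≤ C * ∑ j ∈ s, ‖γ j p‖ ^ 2 * Real.exp (-φ p)) :
    S.nn Φ f ≤ ENNReal.ofReal C * ∑ j ∈ s, S.nn φ (γ j) := by
  unfold nn
  rw [← lintegral_finsetSum _ fun j _ => by fun_prop,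
    ← lintegral_const_mul' _ _ ENNReal.ofReal_ne_top]
  refine lintegral_mono fun p => ?_
  rw [← ENNReal.ofReal_sum_of_nonneg fun j _ => by positivity, ← ENNReal.ofReal_mul hC]
  exact ENNReal.ofReal_le_ofReal (h p)

theorem HTw1_two {φ Φ : W → ℝ} (hφ : Measurable φ) {g g' : W → ℂ} (hg : Measurable g)
    (hg' : Measurable g') {f : W → ℂ} {C : ℝ} (hC : 0 ≤ C)
    (h : ∀ p, ‖f p‖ ^ 2 * Real.exp (-Φ p) ≤
      C * (‖g p‖ ^ 2 * Real.exp (-φ p) + ‖g' p‖ ^ 2 * Real.exp (-φ p))) :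
    S.nn Φ f ≤ ENNReal.ofReal C * (S.nn φ g + S.nn φ g') := by
  have := S.HTw1_sum hφ (Finset.univ : Finset Bool) (γ := fun t => cond t g g')
    (fun t => by cases t <;> assumption) hC (fun p => by simpa using h p)
  simpa using this

theorem HTw1_cs (x y : κ → ℂ) :
    ‖∑ j, x j * y j‖ ^ 2 ≤ (∑ j, ‖x j‖ ^ 2) * ∑ j, ‖y j‖ ^ 2 := by
  refine le_trans ?_ (Finset.sum_mul_sq_le_sq_mul_sq _ _ _)
  refine pow_le_pow_left₀ (norm_nonneg _) ((norm_sum_le _ _).trans_eq ?_) 2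
  simp only [norm_mul]

/-- Wk.mul with χ, Wk.weight with ψ, bkn_weak for the weight φ + ψ on K = tsupport χ. With
a = χ g, d = Dz χ (vec γ), c = χ Dz ψ (vec γ) (Dz_vec): |a + d - c|² ≤ 2|c|² + 2(1+t)|a|² +
2(1+1/t)|d|²; cancel the finite term 2 ∫ |c|² exp (-(φ+ψ)) (LocL2.nn_ne_top); Lv_smul for
vec (χ γ) = χ • vec γ. |d|² exp (-ψ) ≤ c₀ Σ|γ_j|² by Cauchy-Schwarz, and each curl term is at most
2 c₀ (|γ_j|² + |γ_k|²) exp ψ. -/
theorem tw_cut {φ ψ : W → ℝ} (hφ : S.SmW φ) (hψ : S.SmF ψ)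
    (hpos : ∀ p ξ, 2 * ‖S.Dz ψ p ξ‖ ^ 2 ≤ S.Lv (fun q => φ q + ψ q) p ξ)
    {γ : κ → W → ℂ} {g : W → ℂ} (hw : S.Wk b φ γ g (fun _ _ _ => 0))
    {χ : W → ℝ} (hχ : S.SmF χ) (hχc : HasCompactSupport χ) (hχ1 : ∀ p, 0 ≤ χ p ∧ χ p ≤ 1)
    {c₀ : ℝ} (hc₀ : ∀ p, (∑ j, ‖S.Dz χ p (b j)‖ ^ 2) * Real.exp (-ψ p) ≤ c₀) {t : ℝ} (ht : 0 < t) :
    ∫⁻ p, ENNReal.ofReal (χ p ^ 2 * (S.Lv (fun q => φ q + ψ q) p (vec b γ p) -
        2 * ‖S.Dz ψ p (vec b γ p)‖ ^ 2) * Real.exp (-(φ p + ψ p))) ∂S.μ ≤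
      ENNReal.ofReal (2 * (1 + t)) * S.nn (fun q => φ q + ψ q) g +
        ENNReal.ofReal ((2 * (1 + t⁻¹) + 4 * Fintype.card κ) * c₀) * ∑ j, S.nn φ (γ j) := by
  rcases isEmpty_or_nonempty W with hW | ⟨⟨p₀⟩⟩
  · rw [lintegral_of_isEmpty]
    exact zero_le
  have hc0 : 0 ≤ c₀ := le_trans (by positivity) (hc₀ p₀)
  have hΦ := SmW.add S hφ hψ
  have mφ := SmW.measurable S hφ
  have mΦ := SmW.measurable S hΦ
  have mγ : ∀ j, Measurable (γ j) := fun j => (hw.lγ j).1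
  have hw1 := Wk.mul S b hφ hw hχ
  have hw2 := Wk.weight S b hφ hψ hw1
  have hz : ∀ p, p ∉ tsupport χ → χ p = 0 ∧ ∀ ξ, S.Dz χ p ξ = 0 := fun p hp =>
    ⟨image_eq_zero_of_notMem_tsupport hp, S.Dz_eq_zero hp⟩
  have hB := S.bkn_weak b hΦ (fun p ξ => le_trans (by positivity) (hpos p ξ)) hw2 hχc.isCompact
    fun p hp => by simp [(hz p hp).1, (hz p hp).2]
  set c : W → ℂ := fun p => ∑ j, S.Dz ψ p (b j) * ((χ p : ℂ) * γ j p) with hc
  have lc : S.LocL2 c :=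
    S.locL2_sum _ fun j _ => LocL2.mul S (S.continuous_Dz hψ _) (hw1.lγ j)
  have fc : S.nn (fun q => φ q + ψ q) c ≠ ⊤ :=
    LocL2.nn_ne_top S hΦ lc hχc.isCompact fun p hp => by simp [hc, (hz p hp).1]
  have mc := lc.1
  have ec : ∀ p, ‖c p‖ ^ 2 = χ p ^ 2 * ‖S.Dz ψ p (vec b γ p)‖ ^ 2 := fun p => by
    have : c p = χ p * S.Dz ψ p (vec b γ p) := by
      rw [S.Dz_vec, Finset.mul_sum]
      exact Finset.sum_congr rfl fun j _ => by ring
    rw [this, norm_mul, mul_pow, Complex.norm_real, Real.norm_eq_abs, sq_abs]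
  have e1 : ∫⁻ p, ENNReal.ofReal (S.Lv (fun q => φ q + ψ q) p
      (vec b (fun j p => (χ p : ℂ) * γ j p) p) * Real.exp (-(φ p + ψ p))) ∂S.μ =
      ∫⁻ p, ENNReal.ofReal (χ p ^ 2 * (S.Lv (fun q => φ q + ψ q) p (vec b γ p) -
        2 * ‖S.Dz ψ p (vec b γ p)‖ ^ 2) * Real.exp (-(φ p + ψ p))) ∂S.μ +
        2 * S.nn (fun q => φ q + ψ q) c := by
    rw [nn, ← lintegral_const_mul' _ _ ENNReal.ofNat_ne_top,
      ← lintegral_add_right _ (by fun_prop)]
    refine lintegral_congr fun p => ?_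
    have a1 : vec b (fun j p => (χ p : ℂ) * γ j p) p = (χ p : ℂ) • vec b γ p := by
      simp only [vec, Finset.smul_sum, smul_smul]
    have a2 := sub_nonneg.2 (hpos p (vec b γ p))
    rw [a1, S.Lv_smul hΦ, ec, ← ENNReal.ofReal_ofNat 2, ← ENNReal.ofReal_mul zero_le_two,
      ← ENNReal.ofReal_add (by positivity) (by positivity), Complex.norm_real, Real.norm_eq_abs,
      sq_abs]
    congr 1
    ring
  have ma : Measurable fun p => (χ p : ℂ) * g p :=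
    (Complex.measurable_ofReal.comp (SmF.continuous S hχ).measurable).mul hw.lg.1
  have e2 := S.nn_add_le mΦ hw1.lg.1 (fun p => -c p) one_pos
  rw [S.nn_neg] at e2
  have e3 := S.nn_add_le mΦ ma (fun p => ∑ j, S.Dz χ p (b j) * γ j p) ht
  have e4 : S.nn (fun q => φ q + ψ q) (fun p => (χ p : ℂ) * g p) ≤
      S.nn (fun q => φ q + ψ q) g := by
    have := S.nn_mono (fun q => φ q + ψ q) (f := fun p => (χ p : ℂ) * g p) (g := g) zero_le_one
      fun p => by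
        rw [norm_mul, mul_pow, Complex.norm_real, Real.norm_eq_abs, sq_abs]
        exact mul_le_mul_of_nonneg_right (pow_le_one₀ (hχ1 p).1 (hχ1 p).2) (by positivity)
    simpa using this
  have ee : ∀ p, Real.exp (-(φ p + ψ p)) = Real.exp (-ψ p) * Real.exp (-φ p) := fun p => by
    rw [← Real.exp_add]
    congr 1
    ring
  have e5 : S.nn (fun q => φ q + ψ q) (fun p => ∑ j, S.Dz χ p (b j) * γ j p) ≤
      ENNReal.ofReal c₀ * ∑ j, S.nn φ (γ j) :=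
    S.HTw1_sum mφ _ mγ hc0 fun p => by
      rw [ee, ← Finset.sum_mul]
      calc _ ≤ ((∑ j, ‖S.Dz χ p (b j)‖ ^ 2) * ∑ j, ‖γ j p‖ ^ 2) *
            (Real.exp (-ψ p) * Real.exp (-φ p)) :=
            mul_le_mul_of_nonneg_right (HTw1_cs _ _) (by positivity)
        _ = ((∑ j, ‖S.Dz χ p (b j)‖ ^ 2) * Real.exp (-ψ p)) *
            ((∑ j, ‖γ j p‖ ^ 2) * Real.exp (-φ p)) := by ring
        _ ≤ _ := mul_le_mul_of_nonneg_right (hc₀ p) (by positivity)
  have e6 : ∀ j k, S.nn (fun q => φ q + ψ q) (fun p => (χ p : ℂ) * 0 +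
      (conj (S.Dz χ p (b j)) * γ k p - conj (S.Dz χ p (b k)) * γ j p)) ≤
      ENNReal.ofReal (2 * c₀) * (S.nn φ (γ k) + S.nn φ (γ j)) := fun j k =>
    S.HTw1_two mφ (mγ k) (mγ j) (by positivity) fun p => by
      have a1 := normSq_add_le (conj (S.Dz χ p (b j)) * γ k p)
        (-(conj (S.Dz χ p (b k)) * γ j p)) one_pos
      have a2 : ∀ l, ‖S.Dz χ p (b l)‖ ^ 2 * Real.exp (-ψ p) ≤ c₀ := fun l =>
        (mul_le_mul_of_nonneg_right (Finset.single_le_sum (f := fun l => ‖S.Dz χ p (b l)‖ ^ 2)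
          (fun _ _ => by positivity) (Finset.mem_univ l)) (by positivity)).trans (hc₀ p)
      simp only [norm_neg, norm_mul, mul_pow, Complex.norm_conj, inv_one, ← sub_eq_add_neg] at a1
      rw [mul_zero, zero_add, ee]
      have a3 := mul_le_mul_of_nonneg_right (a2 j)
        (by positivity : 0 ≤ ‖γ k p‖ ^ 2 * Real.exp (-φ p))
      have a4 := mul_le_mul_of_nonneg_right (a2 k)
        (by positivity : 0 ≤ ‖γ j p‖ ^ 2 * Real.exp (-φ p))
      have a5 := mul_le_mul_of_nonneg_right a1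
        (by positivity : 0 ≤ Real.exp (-ψ p) * Real.exp (-φ p))
      nlinarith
  have e7 := Finset.sum_le_sum fun j (_ : j ∈ Finset.univ) =>
    Finset.sum_le_sum fun k (_ : k ∈ Finset.univ) => e6 j k
  simp only [← Finset.mul_sum, Finset.sum_add_distrib, Finset.sum_const, Finset.card_univ,
    nsmul_eq_mul] at e7
  rw [e1] at hB
  have e8 := hB.trans (add_le_add (e2.trans (add_le_add (mul_le_mul_right
    (e3.trans (add_le_add (mul_le_mul_right e4 _) (mul_le_mul_right e5 _))) _) le_rfl)) e7)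
  have h2 : ENNReal.ofReal (1 + 1) = 2 := by norm_num
  rw [inv_one, h2, add_right_comm, ENNReal.add_le_add_iff_right
    (ENNReal.mul_ne_top ENNReal.ofNat_ne_top fc)] at e8
  refine e8.trans_eq ?_
  have ht' : 0 ≤ 1 + t⁻¹ := by positivity
  have q1 : ENNReal.ofReal (2 * (1 + t)) = 2 * ENNReal.ofReal (1 + t) := by
    rw [ENNReal.ofReal_mul zero_le_two, ENNReal.ofReal_ofNat]
  have q2 : ENNReal.ofReal (2 * c₀) = 2 * ENNReal.ofReal c₀ := by
    rw [ENNReal.ofReal_mul zero_le_two, ENNReal.ofReal_ofNat]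
  have q3 : ENNReal.ofReal ((2 * (1 + t⁻¹) + 4 * Fintype.card κ) * c₀) =
      (2 * ENNReal.ofReal (1 + t⁻¹) + 4 * Fintype.card κ) * ENNReal.ofReal c₀ := by
    rw [ENNReal.ofReal_mul (by positivity), ENNReal.ofReal_add (by positivity) (by positivity),
      ENNReal.ofReal_mul zero_le_two, ENNReal.ofReal_mul (by norm_num : (0 : ℝ) ≤ 4),
      ENNReal.ofReal_natCast, ENNReal.ofReal_ofNat, ENNReal.ofReal_ofNat]
  rw [q1, q2, q3]
  ring

end Sheets

end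

end Fuj
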