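import Vale.Agent.P271.HMV
import Vale.Agent.P271.HIbp

/-! Weyl lemma for dbar. -/

namespace Fuj

open MeasureTheory Set Filter Topology Complex
open scoped ENNReal ContDiff ComplexConjugate Convolution

noncomputable section

section Re

variable {E : Type*} [NormedAddCommGroup E] [NormedSpace ℝ E] [FiniteDimensional ℝ E]
  [MeasurableSpace E] [BorelSpace E] {vol : Measure E} [vol.IsAddHaarMeasure]

theorem weyl_fderiv {ρ : E → ℝ} (hρ : ContDiff ℝ 1 ρ) (hc : HasCompactSupport ρ) {g : E → ℂ}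
    (hg : LocallyIntegrable g vol) (z : E) :
    DifferentiableAt ℝ (ρ ⋆[ContinuousLinearMap.lsmul ℝ ℝ, vol] g) z ∧ ∀ v,
      fderiv ℝ (ρ ⋆[ContinuousLinearMap.lsmul ℝ ℝ, vol] g) z v =
        ∫ y, fderiv ℝ ρ (z - y) v • g y ∂vol ∧
      Integrable (fun y => fderiv ℝ ρ (z - y) v • g y) vol := by
  rw [← convolution_flip]
  have h1 := hc.hasFDerivAt_convolution_right
    (ContinuousLinearMap.lsmul ℝ ℝ : ℝ →L[ℝ] ℂ →L[ℝ] ℂ).flip hg hρ z
  have hd : Continuous (fderiv ℝ ρ) := hρ.continuous_fderiv one_ne_zero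
  refine ⟨h1.differentiableAt, fun v => ⟨?_, ?_⟩⟩
  · rw [h1.fderiv, convolution_precompR_apply _ hg (hc.fderiv ℝ) hd]
    rfl
  · have h2 : HasCompactSupport fun a => fderiv ℝ ρ a v :=
      (hc.fderiv ℝ).comp_left (g := fun T : E →L[ℝ] ℝ => T v) rfl
    exact h2.convolutionExists_right
      (ContinuousLinearMap.lsmul ℝ ℝ : ℝ →L[ℝ] ℂ →L[ℝ] ℂ).flip hg (hd.clm_apply continuous_const) z

theorem weyl_l1 (φ : ContDiffBump (0 : E)) {g : E → ℂ} (hg : Integrable g vol) :
    ∫⁻ z, ‖(φ.normed vol ⋆[ContinuousLinearMap.lsmul ℝ ℝ, vol] g) z‖ₑ ∂vol ≤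
      ENNReal.ofReal (∫ z, ‖g z‖ ∂vol) := by
  set H : E → ℝ := φ.normed vol ⋆[ContinuousLinearMap.lsmul ℝ ℝ, vol] fun z => ‖g z‖ with hH
  have h1 : Integrable H vol := φ.integrable_normed.integrable_convolution _ hg.norm
  have h2 : ∫ z, H z ∂vol = ∫ z, ‖g z‖ ∂vol := by
    rw [hH, integral_convolution _ φ.integrable_normed hg.norm, φ.integral_normed]
    simp
  have h3 : ∀ z, ‖(φ.normed vol ⋆[ContinuousLinearMap.lsmul ℝ ℝ, vol] g) z‖ ≤ H z := by
    intro z
    rw [hH, convolution_lsmul, convolution_lsmul]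
    refine (norm_integral_le_integral_norm _).trans (le_of_eq ?_)
    refine integral_congr_ae (Eventually.of_forall fun t => ?_)
    simp only [norm_smul, smul_eq_mul, Real.norm_of_nonneg (φ.nonneg_normed t)]
  rw [← h2, ofReal_integral_eq_lintegral_ofReal h1
    (Eventually.of_forall fun z => (norm_nonneg _).trans (h3 z))]
  refine lintegral_mono fun z => ?_
  simp only
  rw [← ofReal_norm]
  exact ENNReal.ofReal_le_ofReal (h3 z)

end Re

variable {E : Type*} [NormedAddCommGroup E] [NormedSpace ℝ E] [NormedSpace ℂ E]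
  [IsScalarTower ℝ ℂ E] [FiniteDimensional ℂ E] [MeasurableSpace E] [BorelSpace E]
  {vol : Measure E} [vol.IsAddHaarMeasure]

theorem weyl_hol {U : Set E} (hU : MeasurableSet U) {g : E → ℂ} (hg : IntegrableOn g U vol)
    (h : ∀ ζ, TestOn U ζ → ∀ ξ, ∫ z in U, conj (dzr ζ z ξ) * g z ∂vol = 0)
    {ρ : E → ℝ} (hρ : ContDiff ℝ ∞ ρ) (hc : HasCompactSupport ρ) {z : E}
    (hz : ∀ y, z - y ∈ tsupport ρ → y ∈ U) :
    DifferentiableAt ℂ (ρ ⋆[ContinuousLinearMap.lsmul ℝ ℝ, vol] U.indicator g) z := by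
  have : FiniteDimensional ℝ E := Module.Finite.trans ℂ E
  have hg0 : Integrable (U.indicator g) vol := (integrable_indicator_iff hU).2 hg
  obtain ⟨h1, h2⟩ := weyl_fderiv (hρ.of_le (by simp)) hc hg0.locallyIntegrable z
  refine differentiableAt_of_db h1 fun ξ => ?_
  have hρd : Differentiable ℝ ρ := hρ.differentiable (by simp)
  have hζ : TestOn U (fun y => ρ (z - y)) := by
    refine ⟨hρ.comp (contDiff_const.sub contDiff_id), ?_, ?_⟩
    · exact hc.comp_homeomorph (Homeomorph.subLeft z)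
    · intro y hy
      apply hz
      have : tsupport (fun y => ρ (z - y)) ⊆ (fun y => z - y) ⁻¹' tsupport ρ :=
        closure_minimal (fun w hw => subset_tsupport ρ hw)
          ((isClosed_tsupport ρ).preimage (by fun_prop))
      exact this hy
  have hd : ∀ y, HasFDerivAt (fun y => ρ (z - y))
      ((fderiv ℝ ρ (z - y)).comp (-ContinuousLinearMap.id ℝ E)) y := fun y =>
    (hρd (z - y)).hasFDerivAt.comp y ((hasFDerivAt_id y).const_sub z)
  have h3 := h _ hζ ξ
  have h4 : ∫ y in U, conj (dzr (fun y => ρ (z - y)) y ξ) * g y ∂vol =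
      ∫ y, -((fderiv ℝ ρ (z - y) ξ • U.indicator g y +
        I * (fderiv ℝ ρ (z - y) (I • ξ) • U.indicator g y)) / 2) ∂vol := by
    rw [← integral_indicator hU]
    refine integral_congr_ae (Eventually.of_forall fun y => ?_)
    by_cases hy : y ∈ U
    · simp only [indicator_of_mem hy]
      rw [dzr_eq (hd y).differentiableAt, (hd y).fderiv]
      simp only [ContinuousLinearMap.comp_apply, neg_apply,
        ContinuousLinearMap.id_apply, map_neg, map_div₀, map_sub, map_mul, conj_ofReal, conj_I,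
        real_smul, ofReal_neg, map_ofNat]
      ring
    · simp [indicator_of_notMem hy]
  rw [h4, integral_neg, integral_div, integral_add (h2 ξ).2 ((h2 (I • ξ)).2.const_mul I),
    integral_const_mul, ← (h2 ξ).1, ← (h2 (I • ξ)).1, neg_eq_zero] at h3
  exact h3

/-- Local statement. Let g₀ = indicator of ball x (4r) times g (integrable), g_k = ρ_k ⋆ g₀ with
rOut → 0. On ball x (3r), g_k is smooth with db g_k = 0 (test with ζ y = ρ_k (z - y)), hence
holomorphic (differentiableAt_of_db); mv_one and Fubini bound g_k uniformly on ball x (2r);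
g_k → g a.e. (ContDiffBump.ae_convolution_tendsto_right_of_locallyIntegrable); take the limit along
an ultrafilter (bounded sequences converge) and use Vale.Agent.P274.weierstrass. -/
theorem weyl_ball {x : E} {r : ℝ} (hr : 0 < r) {g : E → ℂ}
    (hg : IntegrableOn g (Metric.ball x (4 * r)) vol)
    (h : ∀ ζ, TestOn (Metric.ball x (4 * r)) ζ → ∀ ξ,
      ∫ z in Metric.ball x (4 * r), conj (dzr ζ z ξ) * g z ∂vol = 0) :
    ∃ F : E → ℂ, DifferentiableOn ℂ F (Metric.ball x r) ∧
      F =ᵐ[vol.restrict (Metric.ball x r)] g := by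
  have : FiniteDimensional ℝ E := Module.Finite.trans ℂ E
  have : ProperSpace E := FiniteDimensional.proper ℂ E
  have hU : MeasurableSet (Metric.ball x (4 * r)) := measurableSet_ball
  set g₀ := (Metric.ball x (4 * r)).indicator g with hg₀
  have hg0 : Integrable g₀ vol := (integrable_indicator_iff hU).2 hg
  have hpos : ∀ k : ℕ, 0 < r / ((k : ℝ) + 1) := fun k => by positivity
  let φ : ℕ → ContDiffBump (0 : E) := fun k =>
    ⟨r / ((k : ℝ) + 1) / 2, r / ((k : ℝ) + 1), half_pos (hpos k), half_lt_self (hpos k)⟩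
  have hφr : ∀ k, (φ k).rOut ≤ r := fun k =>
    div_le_self hr.le (by linarith [Nat.cast_nonneg (α := ℝ) k])
  set G : ℕ → E → ℂ := fun k => (φ k).normed vol ⋆[ContinuousLinearMap.lsmul ℝ ℝ, vol] g₀ with hG
  have hhol : ∀ k, DifferentiableOn ℂ (G k) (Metric.ball x (3 * r)) := by
    intro k z hz
    refine (weyl_hol hU hg h (φ k).contDiff_normed (φ k).hasCompactSupport_normed
      fun y hy => ?_).differentiableWithinAt
    rw [(φ k).tsupport_normed_eq, mem_closedBall_zero_iff] at hy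
    rw [Metric.mem_ball, dist_eq_norm] at hz ⊢
    have := hφr k
    calc ‖y - x‖ = ‖(z - x) - (z - y)‖ := by congr 1; abel
      _ ≤ ‖z - x‖ + ‖z - y‖ := norm_sub_le _ _
      _ < 4 * r := by linarith
  have hv0 : vol (Metric.ball (0 : E) r) ≠ 0 := (Metric.measure_ball_pos vol 0 hr).ne'
  have hv1 : vol (Metric.ball (0 : E) r) ≠ ⊤ := measure_ball_lt_top.ne
  set M : ℝ := (ENNReal.ofReal (∫ z, ‖g₀ z‖ ∂vol) / vol (Metric.ball (0 : E) r)).toReal with hM
  have hbd : ∀ k, ∀ p ∈ Metric.ball x r, ‖G k p‖ ≤ M := by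
    intro k p hp
    have h1 := mv_one (vol := vol) Metric.isOpen_ball (hhol k) (B := Metric.ball 0 r)
      measurableSet_ball (fun y hy c hc => by
        rw [mem_ball_zero_iff] at hy ⊢
        rw [norm_smul]
        exact lt_of_le_of_lt (mul_le_of_le_one_left (norm_nonneg _) hc) hy) (p := p)
      (fun y hy => by
        rw [mem_ball_zero_iff] at hy
        rw [Metric.mem_ball, dist_eq_norm] at hp ⊢
        calc ‖p + y - x‖ = ‖(p - x) + y‖ := by congr 1; abel
          _ ≤ ‖p - x‖ + ‖y‖ := norm_add_le _ _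
          _ < 3 * r := by linarith)
    have h2 : ∫⁻ y in Metric.ball 0 r, ‖G k (p + y)‖ₑ ∂vol ≤
        ENNReal.ofReal (∫ z, ‖g₀ z‖ ∂vol) := by
      refine (setLIntegral_le_lintegral _ _).trans ?_
      rw [lintegral_add_left_eq_self (fun y => ‖G k y‖ₑ) p]
      exact weyl_l1 (φ k) hg0
    have h3 : ‖G k p‖ₑ ≤ ENNReal.ofReal (∫ z, ‖g₀ z‖ ∂vol) / vol (Metric.ball (0 : E) r) :=
      (ENNReal.le_div_iff_mul_le (Or.inl hv0) (Or.inl hv1)).2 (h1.trans h2)
    rw [← ofReal_norm] at h3
    exact (ENNReal.ofReal_le_iff_le_toReal (ENNReal.div_ne_top ENNReal.ofReal_ne_top hv0)).1 h3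
  have hlim : ∀ p ∈ Metric.ball x r, ∃ c : ℂ, Tendsto (fun k => G k p) (hyperfilter ℕ) (𝓝 c) := by
    intro p hp
    obtain ⟨c, -, hc⟩ := (isCompact_closedBall (0 : ℂ) M).ultrafilter_le_nhds
      ((hyperfilter ℕ).map fun k => G k p) (by
        rw [Ultrafilter.coe_map, le_principal_iff, mem_map]
        exact Eventually.of_forall fun k => mem_closedBall_zero_iff.2 (hbd k p hp))
    exact ⟨c, hc⟩
  choose! F hF using hlim
  refine ⟨F, (Vale.Agent.P274.weierstrass (l := (hyperfilter ℕ : Filter ℕ)) (f := G)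
    Metric.isOpen_ball (fun p hp => ?_) hF).1, ?_⟩
  · obtain ⟨s, hs, hs'⟩ := Metric.isOpen_iff.1 Metric.isOpen_ball p hp
    refine ⟨s, hs, M, Eventually.of_forall fun k => ⟨(hhol k).mono (hs'.trans ?_), fun y hy =>
      hbd k y (hs' hy)⟩⟩
    exact Metric.ball_subset_ball (by linarith)
  · have hφ : Tendsto (fun k => (φ k).rOut) atTop (𝓝 0) := by
      have := tendsto_one_div_add_atTop_nhds_zero_nat (𝕜 := ℝ) |>.const_mul r
      simp only [mul_zero] at this
      refine this.congr fun k => ?_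
      simp only [φ]
      ring
    have hae := ContDiffBump.ae_convolution_tendsto_right_of_locallyIntegrable (μ := vol) (K := 2)
      hφ (Eventually.of_forall fun k => le_of_eq (by simp only [φ]; ring)) hg0.locallyIntegrable
    filter_upwards [ae_restrict_of_ae hae, ae_restrict_mem measurableSet_ball] with p h1 hp
    have h2 : Tendsto (fun k => G k p) (hyperfilter ℕ) (𝓝 (g₀ p)) :=
      h1.mono_left (Nat.hyperfilter_le_atTop)
    rw [tendsto_nhds_unique (hF p hp) h2, hg₀,
      indicator_of_mem (Metric.ball_subset_ball (by linarith) hp)]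

end

end Fuj
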