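import Vale.Agent.P271.HSh3
import Vale.Agent.P271.HNorm

/-! Weak divergence and curl: basic operations. -/

namespace Fuj

open MeasureTheory Set Filter Topology Complex
open scoped ENNReal ContDiff ComplexConjugate

noncomputable section

namespace Sheets

variable {E W : Type*} [NormedAddCommGroup E] [NormedSpace ℝ E] [NormedSpace ℂ E]
  [IsScalarTower ℝ ℂ E] [FiniteDimensional ℂ E] [MeasurableSpace E] [BorelSpace E]
  [TopologicalSpace W] [T2Space W] [MeasurableSpace W] [BorelSpace W]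
  {vol : Measure E} [vol.IsAddHaarMeasure] (S : Sheets E W vol)
  {κ : Type*} [Fintype κ] (b : Module.Basis κ ℂ E)

theorem wk_dAt {F : Type*} [NormedAddCommGroup F] [NormedSpace ℝ F] {U : Set F} (hU : IsOpen U)
    {f : F → ℝ} (hf : ContDiffOn ℝ ∞ f U) {z : F} (hz : z ∈ U) : DifferentiableAt ℝ f z :=
  (hf.contDiffAt (hU.mem_nhds hz)).differentiableAt (by simp)

theorem wk_shift {X : Type*} [MeasurableSpace X] {ν : Measure X} {U : Set X}
    (hU : MeasurableSet U) {A B C F G A' G' : X → ℂ} (hA : IntegrableOn A U ν)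
    (hB : IntegrableOn B U ν) (hC : IntegrableOn C U ν)
    (h : ∫ z in U, F z ∂ν = -∫ z in U, G z ∂ν) (hF : ∀ z ∈ U, F z = A z + B z)
    (hG : ∀ z ∈ U, G z = C z) (hA' : ∀ z ∈ U, A' z = A z) (hG' : ∀ z ∈ U, G' z = C z + B z) :
    ∫ z in U, A' z ∂ν = -∫ z in U, G' z ∂ν := by
  rw [setIntegral_congr_fun hU hF, setIntegral_congr_fun hU hG, integral_add hA hB] at h
  rw [setIntegral_congr_fun hU hA', setIntegral_congr_fun hU hG', integral_add hC hB]
  linear_combination h

theorem wk_int {i : S.ι} {ζ : E → ℝ} (hζ : TestOn (S.e i).target ζ) {a : E → ℂ}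
    (ha : ContinuousOn a (S.e i).target) (h0 : ∀ z, z ∉ tsupport ζ → a z = 0) {f : W → ℂ}
    (hf : S.LocL2 f) : IntegrableOn (fun z => a z * S.rep i f z) (S.e i).target vol :=
  integrableOn_mul_of_supp (S.e i).open_target hζ.2.1 hζ.2.2 ha (fun z _ => h0 z)
    (S.aesm_rep hf.1 i) (hf.2 i _ hζ.2.1 hζ.2.2)

theorem wk_int1 {i : S.ι} {ζ : E → ℝ} (hζ : TestOn (S.e i).target ζ) {a : E → ℂ}
    (ha : ContinuousOn a (S.e i).target) {f : W → ℂ} (hf : S.LocL2 f) :
    IntegrableOn (fun z => (ζ z : ℂ) * a z * S.rep i f z) (S.e i).target vol :=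
  S.wk_int hζ ((continuous_ofReal.comp hζ.1.continuous).continuousOn.mul ha)
    (fun z hz => by simp [image_eq_zero_of_notMem_tsupport hz]) hf

theorem wk_int2 {i : S.ι} {ζ : E → ℝ} (hζ : TestOn (S.e i).target ζ) {a : E → ℂ}
    (ha : ContinuousOn a (S.e i).target) {f : W → ℂ} (hf : S.LocL2 f) (ξ : E) :
    IntegrableOn (fun z => dzr ζ z ξ * a z * S.rep i f z) (S.e i).target vol :=
  S.wk_int hζ ((hζ.continuous_dzr ξ).continuousOn.mul ha)
    (fun z hz => by simp [hζ.dzr_eq_zero hz]) hf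

theorem wk_int3 {i : S.ι} {ζ : E → ℝ} (hζ : TestOn (S.e i).target ζ) {a : E → ℂ}
    (ha : ContinuousOn a (S.e i).target) {f : W → ℂ} (hf : S.LocL2 f) (ξ : E) :
    IntegrableOn (fun z => conj (dzr ζ z ξ) * a z * S.rep i f z) (S.e i).target vol :=
  S.wk_int hζ ((continuous_conj.comp (hζ.continuous_dzr ξ)).continuousOn.mul ha)
    (fun z hz => by simp [hζ.dzr_eq_zero hz]) hf

theorem wk_Dz (h : W → ℝ) {i : S.ι} {z : E} (hz : z ∈ (S.e i).target) (ξ : E) :
    S.Dz h ((S.e i).symm z) ξ = dzr (S.loc i h) z ξ := by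
  rw [S.Dz_eq h ((S.e i).map_target hz), S.π_symm hz]

theorem wk_locL2_sub {f g : W → ℂ} (hf : S.LocL2 f) (hg : S.LocL2 g) :
    S.LocL2 (fun p => f p - g p) := by
  simpa only [neg_one_mul, ← sub_eq_add_neg] using
    LocL2.add S hf (LocL2.mul S (h := fun _ => -1) continuous_const hg)

/-- Smooth forms satisfy the weak identities. -/
theorem wk_smooth {φ : W → ℝ} (hφ : S.SmW φ) {γ : κ → W → ℂ} (hγ : ∀ j, S.SmS (γ j)) :
    S.Wk b φ γ (S.Div b φ γ) (S.Curl b γ) := by
  have hl : ∀ j, S.LocL2 (γ j) := fun j => SmS.locL2 S (hγ j)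
  refine ⟨hl, SmS.locL2 S (smS_sum S Finset.univ fun j _ => SmS.Dl S hφ (hγ j) (b j)),
    fun j k => SmS.locL2 S (SmS.sub S (SmS.Db S (hγ k) (b j)) (SmS.Db S (hγ j) (b k))),
    fun i ζ hζ => ?_, fun i ζ hζ j k => ?_⟩
  · have hU := (S.e i).open_target
    have h1 : ∀ j, IntegrableOn (fun z => dzr ζ z (b j) * S.rep i (γ j) z) (S.e i).target vol :=
      fun j => by simpa only [mul_one] using S.wk_int2 hζ (a := fun _ => 1) continuousOn_const (hl j) (b j)
    have h2 : ∀ j, IntegrableOn (fun z => (ζ z : ℂ) * dz (S.rep i (γ j)) z (b j))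
        (S.e i).target vol := fun j =>
      integrableOn_of_supp hU hζ.2.1 hζ.2.2
        ((continuous_ofReal.comp hζ.1.continuous).continuousOn.mul
          (contDiffOn_dz hU (hγ j i) _).continuousOn)
        fun z _ hz => by simp [image_eq_zero_of_notMem_tsupport hz]
    rw [integral_finsetSum _ fun j _ => h1 j,
      Finset.sum_congr rfl fun j _ => ibp_dz hU hζ ((hγ j i).of_le (by simp)) (b j),
      Finset.sum_neg_distrib, ← integral_finsetSum _ fun j _ => h2 j]
    refine congrArg _ (setIntegral_congr_fun hU.measurableSet fun z hz => ?_)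
    have e : S.rep i (S.Div b φ γ) z = ∑ j, S.rep i (S.Dl φ (b j) (γ j)) z := by
      simp only [rep, Div, Finset.mul_sum]
    simp only [e, S.rep_Dl hφ (hγ _) hz, Finset.sum_sub_distrib, sub_add_cancel, Finset.mul_sum]
  · have hU := (S.e i).open_target
    have h1 : ∀ j k, IntegrableOn (fun z => conj (dzr ζ z (b j)) * S.rep i (γ k) z)
        (S.e i).target vol := fun j k => by
      simpa only [mul_one] using S.wk_int3 hζ (a := fun _ => 1) continuousOn_const (hl k) (b j)
    have h2 : ∀ j k, IntegrableOn (fun z => (ζ z : ℂ) * db (S.rep i (γ k)) z (b j))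
        (S.e i).target vol := fun j k =>
      integrableOn_of_supp hU hζ.2.1 hζ.2.2
        ((continuous_ofReal.comp hζ.1.continuous).continuousOn.mul
          (contDiffOn_db hU (hγ k i) _).continuousOn)
        fun z _ hz => by simp [image_eq_zero_of_notMem_tsupport hz]
    rw [integral_sub (h1 j k) (h1 k j), ibp_db hU hζ ((hγ k i).of_le (by simp)) (b j),
      ibp_db hU hζ ((hγ j i).of_le (by simp)) (b k), neg_sub_neg, ← neg_sub,
      ← integral_sub (h2 j k) (h2 k j)]
    refine congrArg _ (setIntegral_congr_fun hU.measurableSet fun z hz => ?_)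
    have e : S.rep i (S.Curl b γ j k) z =
        S.rep i (S.Db (b j) (γ k)) z - S.rep i (S.Db (b k) (γ j)) z := by
      simp only [rep, Curl, mul_sub]
    simp only [e, S.rep_Db (hγ _) hz, mul_sub]

/-- Product with a smooth function. -/
theorem Wk.mul {φ : W → ℝ} (hφ : S.SmW φ) {γ : κ → W → ℂ} {g : W → ℂ} {h : κ → κ → W → ℂ}
    (hw : S.Wk b φ γ g h) {θ : W → ℝ} (hθ : S.SmF θ) :
    S.Wk b φ (fun j p => (θ p : ℂ) * γ j p)
      (fun p => (θ p : ℂ) * g p + ∑ j, S.Dz θ p (b j) * γ j p)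
      (fun j k p => (θ p : ℂ) * h j k p +
        (conj (S.Dz θ p (b j)) * γ k p - conj (S.Dz θ p (b k)) * γ j p)) := by
  have hc : Continuous fun p => (θ p : ℂ) := continuous_ofReal.comp (SmF.continuous S hθ)
  have hd := fun j => S.continuous_Dz hθ (b j)
  have hd' := fun j => continuous_conj.comp (hd j)
  refine ⟨fun j => LocL2.mul S hc (hw.lγ j), LocL2.add S (LocL2.mul S hc hw.lg)
    (locL2_sum S Finset.univ fun j _ => LocL2.mul S (hd j) (hw.lγ j)),
    fun j k => LocL2.add S (LocL2.mul S hc (hw.lh j k))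
      (S.wk_locL2_sub (LocL2.mul S (hd' j) (hw.lγ k)) (LocL2.mul S (hd' k) (hw.lγ j))),
    fun i ζ hζ => ?_, fun i ζ hζ j k => ?_⟩
  all_goals
    have hU := (S.e i).open_target
    have ht : ContinuousOn (fun z => (S.loc i θ z : ℂ)) (S.e i).target :=
      continuous_ofReal.comp_continuousOn (hθ i).continuousOn
    have hz' := fun ξ => (contDiffOn_dzr hU (hθ i) ξ).continuousOn
    have hm := fun z hz ξ => dzr_mul (wk_dAt hU hζ.1.contDiffOn (z := z) hz)
      (wk_dAt hU (hθ i) hz) ξ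
  · refine wk_shift hU.measurableSet
      (integrable_finsetSum Finset.univ fun j _ => S.wk_int2 hζ ht (hw.lγ j) (b j))
      (integrable_finsetSum Finset.univ fun j _ => S.wk_int1 hζ (hz' (b j)) (hw.lγ j))
      ((S.wk_int1 hζ ht hw.lg).add (integrable_finsetSum Finset.univ fun j _ =>
        S.wk_int1 hζ (ht.mul (contDiffOn_dzr hU (hφ i) (b j)).continuousOn) (hw.lγ j)))
      (hw.div i _ (hζ.mul hU (hθ i)).1) (fun z hz => ?_) (fun z hz => ?_) (fun z hz => ?_)
      fun z hz => ?_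
    · simp only [hm z hz, add_mul, Finset.sum_add_distrib]
    · simp only [Pi.add_apply, Pi.mul_apply, ofReal_mul, mul_add, Finset.mul_sum, mul_assoc]
    · exact Finset.sum_congr rfl fun j _ => by simp only [rep, loc]; ring
    · simp only [Pi.add_apply, Pi.mul_apply, rep, S.wk_Dz θ hz, mul_add, Finset.mul_sum]
      rw [add_right_comm]
      congr 1
      · congr 1
        · simp only [loc]; ring
        · exact Finset.sum_congr rfl fun j _ => by simp only [loc]; ring
      · exact Finset.sum_congr rfl fun j _ => by ring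
  · have hz'' := fun ξ => continuous_conj.comp_continuousOn (hz' ξ)
    refine wk_shift hU.measurableSet
      ((S.wk_int3 hζ ht (hw.lγ k) (b j)).sub (S.wk_int3 hζ ht (hw.lγ j) (b k)))
      ((S.wk_int1 hζ (hz'' (b j)) (hw.lγ k)).sub (S.wk_int1 hζ (hz'' (b k)) (hw.lγ j)))
      (S.wk_int1 hζ ht (hw.lh j k))
      (hw.curl i _ (hζ.mul hU (hθ i)).1 j k) (fun z hz => ?_) (fun z hz => ?_) (fun z hz => ?_)
      fun z hz => ?_
    · simp only [hm z hz, Pi.sub_apply, Function.comp_apply, map_add, map_mul, conj_ofReal]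
      ring
    · simp only [ofReal_mul]
    · simp only [Pi.sub_apply, rep, loc]; ring
    · simp only [Pi.sub_apply, Function.comp_apply, rep, S.wk_Dz θ hz]
      simp only [loc]; ring

theorem Wk.weight {φ ψ : W → ℝ} (hφ : S.SmW φ) (hψ : S.SmF ψ) {γ : κ → W → ℂ} {g : W → ℂ}
    {h : κ → κ → W → ℂ} (hw : S.Wk b φ γ g h) :
    S.Wk b (fun p => φ p + ψ p) γ (fun p => g p - ∑ j, S.Dz ψ p (b j) * γ j p) h := by
  refine ⟨hw.lγ, S.wk_locL2_sub hw.lg (locL2_sum S Finset.univ fun j _ =>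
    LocL2.mul S (S.continuous_Dz hψ (b j)) (hw.lγ j)), hw.lh, fun i ζ hζ => ?_, hw.curl⟩
  have hU := (S.e i).open_target
  rw [hw.div i ζ hζ]
  refine congrArg _ (setIntegral_congr_fun hU.measurableSet fun z hz => ?_)
  have e : S.wt i (fun p => φ p + ψ p) = fun z => S.wt i φ z + S.loc i ψ z := by
    funext z; simp only [wt, loc]; ring
  have e2 : S.rep i (fun p => g p - ∑ j, S.Dz ψ p (b j) * γ j p) z =
      S.rep i g z - ∑ j, dzr (S.loc i ψ) z (b j) * S.rep i (γ j) z := by
    simp only [rep, S.wk_Dz ψ hz, mul_sub, Finset.mul_sum, mul_left_comm]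
  simp only [e, e2, dzr_add (wk_dAt hU (hφ i) hz) (wk_dAt hU (hψ i) hz), add_mul,
    Finset.sum_add_distrib]
  ring

end Sheets

end

end Fuj
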