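import Vale.Agent.P271.TDefs

open MeasureTheory Set Filter Topology Metric
open scoped Manifold ContDiff
open Vale.Agent.P271

noncomputable section
namespace Fuj

universe u v

attribute [local instance] FractionRing.liftAlgebra in
theorem TFin_abs (T : Type v) (R : Type u) [CommRing T] [IsDomain T] [IsIntegrallyClosed T]
    [IsNoetherianRing T] [CharZero T] [CommRing R] [IsDomain R] [Algebra T R] [FaithfulSMul T R]
    [Algebra.IsIntegral T R] (B : ℕ) (h : Module.rank T R ≤ B) : Module.Finite T R := by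
  have h1 : Module.rank (FractionRing T) (FractionRing R) = Module.rank T R := by
    have := Algebra.IsAlgebraic.rank_fractionRing (R := T) (S := R)
    exact this
  have : FiniteDimensional (FractionRing T) (FractionRing R) := by
    rw [FiniteDimensional, ← Module.rank_lt_aleph0_iff, h1]
    exact h.trans_lt (Cardinal.natCast_lt_aleph0)
  have : Module.Finite T (integralClosure T (FractionRing R)) :=
    IsIntegralClosure.finite T (FractionRing T) (FractionRing R) _
  let f : R →ₗ[T] (integralClosure T (FractionRing R)) :=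
    ((IsScalarTower.toAlgHom T R (FractionRing R)).codRestrict
      (integralClosure T (FractionRing R))
      (fun x => (Algebra.IsIntegral.isIntegral x).map (IsScalarTower.toAlgHom T R (FractionRing R)))).toLinearMap
  refine Module.Finite.of_injective f ?_
  intro a b hab
  have : (algebraMap R (FractionRing R) a) = algebraMap R (FractionRing R) b :=
    congrArg Subtype.val hab
  exact IsFractionRing.injective R (FractionRing R) this

section Rees
variable {Y : Type u} {V : ℕ → Submodule ℂ (Y → ℂ)} {n q : ℕ} {y : Fin (n + 1) → Y → ℂ}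

/-- the Rees algebra -/
def TFinR (h : GSys V n q y) : Subalgebra ℂ (Polynomial (Y → ℂ)) where
  carrier := {f | ∀ m, f.coeff m ∈ V m}
  mul_mem' := by
    intro a b ha hb m
    rw [Polynomial.coeff_mul]
    refine Submodule.sum_mem _ fun c hc => ?_
    rw [← Finset.HasAntidiagonal.mem_antidiagonal.1 hc]
    exact h.mul (ha _) (hb _)
  add_mem' := by
    intro a b ha hb m
    rw [Polynomial.coeff_add]
    exact Submodule.add_mem _ (ha m) (hb m)
  algebraMap_mem' := by
    intro r m
    rw [Polynomial.algebraMap_apply, Polynomial.coeff_C]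
    split_ifs with hm
    · subst hm
      rw [Algebra.algebraMap_eq_smul_one]
      exact Submodule.smul_mem _ _ h.one
    · exact Submodule.zero_mem _

theorem TFin_mem (h : GSys V n q y) (f : TFinR h) (m : ℕ) :
    (f : Polynomial (Y → ℂ)).coeff m ∈ V m := f.2 m

theorem TFin_dom (h : GSys V n q y) : IsDomain (TFinR h) := by
  obtain ⟨p⟩ := h.ne
  have : Nontrivial (Y → ℂ) := ⟨⟨0, 1, fun e => by simpa using congrFun e p⟩⟩
  have : NoZeroDivisors (TFinR h) := ⟨by
    intro a b hab
    by_contra hne
    push Not at hne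
    obtain ⟨ha, hb⟩ := hne
    have ha' : (a : Polynomial (Y → ℂ)) ≠ 0 := fun e => ha (Subtype.ext e)
    have hb' : (b : Polynomial (Y → ℂ)) ≠ 0 := fun e => hb (Subtype.ext e)
    have h1 := h.dom (TFin_mem h a (a : Polynomial (Y → ℂ)).natDegree)
      (TFin_mem h b (b : Polynomial (Y → ℂ)).natDegree)
      (Polynomial.leadingCoeff_ne_zero.2 ha') (Polynomial.leadingCoeff_ne_zero.2 hb')
    have h2 := Polynomial.coeff_mul_degree_add_degree (a : Polynomial (Y → ℂ))
      (b : Polynomial (Y → ℂ))
    have h3 : (a : Polynomial (Y → ℂ)) * (b : Polynomial (Y → ℂ)) = 0 := congrArg Subtype.val hab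
    rw [h3, Polynomial.coeff_zero] at h2
    exact h1 h2.symm⟩
  exact NoZeroDivisors.to_isDomain (TFinR h)

/-- a monomial of the Rees algebra -/
def TFinMono (h : GSys V n q y) (m : ℕ) (s : Y → ℂ) (hs : s ∈ V m) : TFinR h :=
  ⟨Polynomial.monomial m s, fun k => by
    rw [Polynomial.coeff_monomial]
    split_ifs with e
    · subst e; exact hs
    · exact Submodule.zero_mem _⟩

/-- the structure map -/
def TFinPhi (h : GSys V n q y) : MvPolynomial (Fin (n + 1)) ℂ →ₐ[ℂ] TFinR h :=
  MvPolynomial.aeval fun i => TFinMono h q (y i) (h.mem i)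

/-- evaluation -/
def TFinEv (h : GSys V n q y) (p : Y) (l : ℂ) : TFinR h →+* ℂ :=
  (Polynomial.eval₂RingHom (Pi.evalRingHom (fun _ : Y => ℂ) p) l).comp (TFinR h).val.toRingHom

theorem TFin_ev_zero (h : GSys V n q y) (f : TFinR h) (hf : ∀ p l, TFinEv h p l f = 0) :
    f = 0 := by
  apply Subtype.ext
  ext m p
  have : (f : Polynomial (Y → ℂ)).map (Pi.evalRingHom (fun _ : Y => ℂ) p) = 0 := by
    apply Polynomial.funext
    intro l
    rw [Polynomial.eval_map, Polynomial.eval_zero]
    exact hf p l
  have h2 := congrArg (fun g => Polynomial.coeff g m) this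
  simpa using h2

theorem TFin_ev_mono (h : GSys V n q y) (p : Y) (l : ℂ) (m : ℕ) (s : Y → ℂ) (hs : s ∈ V m) :
    TFinEv h p l (TFinMono h m s hs) = l ^ m * s p := by
  simp [TFinEv, TFinMono, mul_comm]

theorem TFin_ev_phi (h : GSys V n q y) (p : Y) (l : ℂ) :
    (TFinEv h p l).comp (TFinPhi h).toRingHom = MvPolynomial.eval fun i => l ^ q * y i p := by
  apply MvPolynomial.ringHom_ext
  · intro r
    simp [TFinEv, TFinPhi]
  · intro i
    simp only [RingHom.comp_apply, MvPolynomial.eval_X]
    rw [← TFin_ev_mono h p l q (y i) (h.mem i)]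
    simp [TFinPhi]

theorem TFin_inj (h : GSys V n q y) : Function.Injective (TFinPhi h) := by
  rw [injective_iff_map_eq_zero]
  intro F hF
  apply h.indep
  intro p l
  obtain ⟨z, hz⟩ := IsAlgClosed.exists_pow_nat_eq l (n := q) h.qpos
  rw [← hz, ← TFin_ev_phi h p z]
  simp [hF]

theorem TFin_pow (h : GSys V n q y) {m : ℕ} {s : Y → ℂ} (hs : s ∈ V m) (k : ℕ) :
    s ^ k ∈ V (m * k) := by
  induction k with
  | zero => simpa using h.one
  | succ k ih => rw [pow_succ, Nat.mul_succ]; exact h.mul ih hs

theorem TFin_int_mono (h : GSys V n q y) (m : ℕ) (s : Y → ℂ) (hs : s ∈ V m) :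
    (TFinPhi h).toRingHom.IsIntegralElem (TFinMono h m s hs) := by
  let _ : Algebra (MvPolynomial (Fin (n + 1)) ℂ) (TFinR h) := (TFinPhi h).toRingHom.toAlgebra
  change IsIntegral (MvPolynomial (Fin (n + 1)) ℂ) (TFinMono h m s hs)
  apply IsIntegral.of_pow (n := q) h.qpos
  obtain ⟨D, hD⟩ := h.roots
  obtain ⟨χ, hm, -, -, hr, -⟩ := hD m (s ^ q) (TFin_pow h hs q)
  refine ⟨χ, hm, ?_⟩
  apply TFin_ev_zero h
  intro p l
  rw [Polynomial.hom_eval₂]
  have e : (TFinEv h p l).comp (algebraMap (MvPolynomial (Fin (n + 1)) ℂ) (TFinR h)) =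
      MvPolynomial.eval fun i => l ^ q * y i p := TFin_ev_phi h p l
  rw [e, map_pow, TFin_ev_mono, ← hr p (l ^ q)]
  congr 1
  rw [mul_pow, Pi.pow_apply, ← pow_mul, ← pow_mul, mul_comm m q]

theorem TFin_sum (h : GSys V n q y) (f : TFinR h) :
    f = ∑ m ∈ (f : Polynomial (Y → ℂ)).support, TFinMono h m _ (TFin_mem h f m) := by
  apply Subtype.ext
  rw [AddSubmonoidClass.coe_finsetSum]
  exact (f : Polynomial (Y → ℂ)).as_sum_support

theorem TFin_int (h : GSys V n q y) (f : TFinR h) : (TFinPhi h).toRingHom.IsIntegralElem f := by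
  let _ : Algebra (MvPolynomial (Fin (n + 1)) ℂ) (TFinR h) := (TFinPhi h).toRingHom.toAlgebra
  change IsIntegral (MvPolynomial (Fin (n + 1)) ℂ) f
  rw [TFin_sum h f]
  refine IsIntegral.sum (R := MvPolynomial (Fin (n + 1)) ℂ) (A := TFinR h) _ fun m _ => ?_
  exact TFin_int_mono h m _ _

/-- the algebra structure over the polynomial ring -/
abbrev TFinAlg (h : GSys V n q y) : Algebra (MvPolynomial (Fin (n + 1)) ℂ) (TFinR h) :=
  (TFinPhi h).toRingHom.toAlgebra

attribute [local instance] TFinAlg

theorem TFin_tower (h : GSys V n q y) :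
    IsScalarTower ℂ (MvPolynomial (Fin (n + 1)) ℂ) (TFinR h) :=
  IsScalarTower.of_algebraMap_eq fun x => ((TFinPhi h).commutes x).symm

theorem TFin_smul (h : GSys V n q y) (a : MvPolynomial (Fin (n + 1)) ℂ) (f : TFinR h) :
    a • f = TFinPhi h a * f := Algebra.smul_def a f

theorem TFin_deg (h : GSys V n q y) (g : Fin (n + 1) →₀ ℕ) (k : ℕ) (hg : ∀ i, g i ≤ k) :
    ((TFinPhi h (MvPolynomial.monomial g 1) : TFinR h) : Polynomial (Y → ℂ)).natDegree
      ≤ (n + 1) * (k * q) := by
  rw [TFinPhi, MvPolynomial.aeval_monomial, map_one, one_mul, Finsupp.prod_fintype _ _ (by simp),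
    SubmonoidClass.coe_finsetProd]
  refine (Polynomial.natDegree_prod_le _ _).trans ?_
  refine (Finset.sum_le_card_nsmul _ _ (k * q) fun i _ => ?_).trans (by simp)
  rw [SubmonoidClass.coe_pow]
  refine Polynomial.natDegree_pow_le.trans ?_
  exact Nat.mul_le_mul (hg i) (Polynomial.natDegree_monomial_le _)

theorem TFin_count (h : GSys V n q y) {C : ℕ} (hC : ∀ m, Module.finrank ℂ (V m) ≤ C * (m + 1) ^ n)
    {ι : Type*} [Fintype ι] (w : ι → Polynomial (Y → ℂ)) (hw : LinearIndependent ℂ w) (N : ℕ)
    (hV : ∀ i m, (w i).coeff m ∈ V m) (hN : ∀ i, (w i).natDegree ≤ N) :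
    Fintype.card ι ≤ C * (N + 1) ^ (n + 1) := by
  have := h.fd
  let w' : ι → (∀ m : Fin (N + 1), V m) := fun i m => ⟨(w i).coeff m, hV i m⟩
  have hli : LinearIndependent ℂ w' := by
    rw [Fintype.linearIndependent_iff] at hw ⊢
    intro g hg
    apply hw g
    apply Polynomial.ext
    intro m
    rw [Polynomial.finsetSum_coeff, Polynomial.coeff_zero]
    by_cases hm : m ≤ N
    · have h2 := congrArg Subtype.val (congrFun hg ⟨m, Nat.lt_succ_of_le hm⟩)
      simpa [w'] using h2
    · refine Finset.sum_eq_zero fun i _ => ?_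
      rw [Polynomial.coeff_smul, Polynomial.coeff_eq_zero_of_natDegree_lt, smul_zero]
      have := hN i
      omega
  refine hli.fintype_card_le_finrank.trans ?_
  rw [Module.finrank_pi_fintype]
  refine (Finset.sum_le_card_nsmul _ _ (C * (N + 1) ^ n) fun m _ => ?_).trans ?_
  · refine (hC m).trans (Nat.mul_le_mul_left _ (Nat.pow_le_pow_left ?_ _))
    have := m.2
    omega
  · simp only [Finset.card_univ, Fintype.card_fin, smul_eq_mul]
    apply le_of_eq
    ring

theorem TFin_rank (h : GSys V n q y) :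
    ∃ B : ℕ, Module.rank (MvPolynomial (Fin (n + 1)) ℂ) (TFinR h) ≤ B := by
  obtain ⟨C, hC⟩ := h.grow
  have := TFin_tower h
  refine ⟨C * ((n + 1) * q + 1) ^ (n + 1), rank_le fun s hs => ?_⟩
  set M := s.sup fun f => (f : Polynomial (Y → ℂ)).natDegree with hM
  let e : (Fin (n + 1) → Fin (M + 1)) → (Fin (n + 1) →₀ ℕ) :=
    fun g => Finsupp.equivFunOnFinite.symm fun i => (g i : ℕ)
  have he : Function.Injective e := by
    intro a b hab
    funext i
    apply Fin.ext
    exact congrFun (Finsupp.equivFunOnFinite.symm.injective hab) i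
  have hb : LinearIndependent ℂ fun g : Fin (n + 1) → Fin (M + 1) =>
      (MvPolynomial.monomial (e g) (1 : ℂ) : MvPolynomial (Fin (n + 1)) ℂ) := by
    have := (MvPolynomial.basisMonomials (Fin (n + 1)) ℂ).linearIndependent.comp e he
    simpa [Function.comp_def] using this
  have h0 := (linearIndependent_smul hb hs).map_injOn (TFinR h).val.toLinearMap
    (Subtype.val_injective.injOn)
  have h1 := TFin_count h hC _ h0 (M + (n + 1) * ((M + 1) * q))
    (fun i m => TFin_mem h (MvPolynomial.monomial (e i.1) (1 : ℂ) • (i.2 : TFinR h)) m) (by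
    rintro ⟨g, f⟩
    change ((MvPolynomial.monomial (e g) (1 : ℂ) • (f : TFinR h) : TFinR h) :
      Polynomial (Y → ℂ)).natDegree ≤ _
    rw [TFin_smul, MulMemClass.coe_mul, add_comm M]
    refine Polynomial.natDegree_mul_le.trans (add_le_add ?_ ?_)
    · exact TFin_deg h _ _ fun i => (g i).2.le
    · exact Finset.le_sup (f := fun f : TFinR h => (f : Polynomial (Y → ℂ)).natDegree) f.2)
  simp only [Fintype.card_prod, Fintype.card_pi, Fintype.card_fin, Finset.prod_const,
    Finset.card_univ, Fintype.card_coe] at h1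
  have h2 : M + (n + 1) * ((M + 1) * q) + 1 = (M + 1) * ((n + 1) * q + 1) := by ring
  rw [h2, mul_pow, mul_left_comm] at h1
  exact Nat.le_of_mul_le_mul_left h1 (by positivity)

theorem TFin_finite (h : GSys V n q y) :
    Module.Finite (MvPolynomial (Fin (n + 1)) ℂ) (TFinR h) := by
  obtain ⟨B, hB⟩ := TFin_rank h
  have := TFin_dom h
  have : FaithfulSMul (MvPolynomial (Fin (n + 1)) ℂ) (TFinR h) :=
    (faithfulSMul_iff_algebraMap_injective _ _).2 (TFin_inj h)
  have : Algebra.IsIntegral (MvPolynomial (Fin (n + 1)) ℂ) (TFinR h) := ⟨fun f => TFin_int h f⟩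
  exact TFin_abs (MvPolynomial (Fin (n + 1)) ℂ) (TFinR h) B hB

theorem TFin_main (h : GSys V n q y) : Gen V q (Submodule.span ℂ (range y)) := by
  obtain ⟨s, hs⟩ := (TFin_finite h).fg_top
  have := TFin_tower h
  set M := s.sup fun f => (f : Polynomial (Y → ℂ)).natDegree with hM
  let N : Submodule (MvPolynomial (Fin (n + 1)) ℂ) (TFinR h) :=
    { carrier := {f | ∀ m, M ≤ m → (f : Polynomial (Y → ℂ)).coeff (m + q) ∈
        Submodule.span ℂ (range y) * V m}
      add_mem' := fun {a b} ha hb m hm => by
        rw [AddMemClass.coe_add, Polynomial.coeff_add]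
        exact Submodule.add_mem _ (ha m hm) (hb m hm)
      zero_mem' := fun m _ => by simp
      smul_mem' := fun a f hf => by
        induction a using MvPolynomial.induction_on with
        | C c =>
          intro m hm
          rw [TFin_smul, ← MvPolynomial.algebraMap_eq, AlgHom.commutes, ← Algebra.smul_def,
            SetLike.val_smul, Polynomial.coeff_smul]
          exact Submodule.smul_mem _ _ (hf m hm)
        | add a b ha hb =>
          intro m hm
          rw [add_smul, AddMemClass.coe_add, Polynomial.coeff_add]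
          exact Submodule.add_mem _ (ha m hm) (hb m hm)
        | mul_X a i _ =>
          intro m _
          rw [mul_comm a, mul_smul, TFin_smul, TFinPhi, MvPolynomial.aeval_X, MulMemClass.coe_mul]
          change (Polynomial.monomial q (y i) * _).coeff (m + q) ∈ _
          rw [Polynomial.coeff_monomial_mul]
          exact Submodule.mul_mem_mul (Submodule.subset_span ⟨i, rfl⟩) (TFin_mem h _ m) }
  have hN : (⊤ : Submodule (MvPolynomial (Fin (n + 1)) ℂ) (TFinR h)) ≤ N := by
    rw [← hs, Submodule.span_le]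
    intro f hf m hm
    have h1 : (f : Polynomial (Y → ℂ)).natDegree ≤ M :=
      Finset.le_sup (f := fun f : TFinR h => (f : Polynomial (Y → ℂ)).natDegree) hf
    have := h.qpos
    rw [Polynomial.coeff_eq_zero_of_natDegree_lt (by omega)]
    exact Submodule.zero_mem _
  refine ⟨M, fun m hm t ht => ?_⟩
  have h2 := hN (Submodule.mem_top (x := TFinMono h (m + q) t ht)) m hm
  simpa [TFinMono] using h2

end Rees

theorem t_FinS : FinS.{u} := fun _ _ _ _ _ h => TFin_main h

end Fuj
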