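import Vale.Agent.P271.TDefs

open MeasureTheory Set Filter Topology Metric
open scoped Manifold ContDiff
open Vale.Agent.P271

noncomputable section
namespace Fuj

universe u v

namespace TGen1X
open MvPolynomial

variable {Y : Type u} {V : ℕ → Submodule ℂ (Y → ℂ)} {n q : ℕ} {y : Fin (n + 1) → Y → ℂ}

/-- the graded evaluation -/
def Phi (y : Fin (n + 1) → Y → ℂ) : MvPolynomial (Fin (n + 1)) ℂ →ₐ[ℂ] Polynomial (Y → ℂ) :=
  aeval fun i => Polynomial.monomial 1 (y i)

theorem Phi_hom {a : MvPolynomial (Fin (n + 1)) ℂ} {r : ℕ} (h : a.IsHomogeneous r) :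
    Phi y a = Polynomial.monomial r (aeval y a) := by
  rw [a.as_sum, map_sum, map_sum, map_sum]
  refine Finset.sum_congr rfl fun d hd => ?_
  rw [Phi, aeval_monomial, aeval_monomial, h.degree_eq_sum_deg_support hd]
  simp only [Finsupp.prod, ← Polynomial.C_mul_X_pow_eq_monomial, pow_one, mul_pow,
    Finset.prod_mul_distrib, Finset.prod_pow_eq_pow_sum, map_mul, map_prod, map_pow, mul_assoc]
  rfl

theorem aeval_apply (a : MvPolynomial (Fin (n + 1)) ℂ) (p : Y) :
    aeval y a p = eval (fun i => y i p) a := by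
  induction a using MvPolynomial.induction_on with
  | C c => simp
  | add a b ha hb => simp [ha, hb]
  | mul_X a i ha => simp [ha]

theorem mulV (G : GSys V n q y) {m m' k : ℕ} {s s' : Y → ℂ} (h : s ∈ V m) (h' : s' ∈ V m')
    (e : m + m' = k) : s * s' ∈ V k := e ▸ G.mul h h'

theorem powV (G : GSys V n q y) {m : ℕ} {s : Y → ℂ} (h : s ∈ V m) (k : ℕ) :
    s ^ k ∈ V (k * m) := by
  induction k with
  | zero => simpa using G.one
  | succ k ih =>
    rw [pow_succ]
    exact mulV G ih h (by ring)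

theorem coeffV (G : GSys V n q y) (a : MvPolynomial (Fin (n + 1)) ℂ) (r : ℕ) :
    (Phi y a).coeff r ∈ V (r * q) := by
  induction a using MvPolynomial.induction_on generalizing r with
  | C c =>
    rw [Phi, aeval_C, Polynomial.algebraMap_apply, Polynomial.coeff_C]
    split_ifs with h
    · rw [h, zero_mul, Algebra.algebraMap_eq_smul_one]
      exact Submodule.smul_mem _ c G.one
    · exact zero_mem _
  | add a b ha hb =>
    rw [map_add, Polynomial.coeff_add]
    exact add_mem (ha r) (hb r)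
  | mul_X a i ha =>
    rw [map_mul, Polynomial.coeff_mul]
    refine Submodule.sum_mem _ fun c hc => ?_
    rw [Phi, aeval_X, Polynomial.coeff_monomial]
    split_ifs with h
    · refine mulV G (ha c.1) (G.mem i) ?_
      rw [← Finset.HasAntidiagonal.mem_antidiagonal.1 hc, ← h]
      ring
    · rw [mul_zero]
      exact zero_mem _

theorem homV (G : GSys V n q y) {a : MvPolynomial (Fin (n + 1)) ℂ} {r : ℕ}
    (h : a.IsHomogeneous r) : aeval y a ∈ V (r * q) := by
  have h1 := coeffV G a r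
  rwa [Phi_hom h, Polynomial.coeff_monomial, if_pos rfl] at h1

/-- the part of `V (r q)` generated by `V q₁` -/
def Q (V : ℕ → Submodule ℂ (Y → ℂ)) (q q₁ r : ℕ) : Submodule ℂ (Y → ℂ) :=
  ⨆ m : {m // m + q₁ = r * q}, V q₁ * V m

theorem Q_mul (G : GSys V n q y) {q₁ r m' m : ℕ} (e : m + q₁ = m' + r * q) :
    Q V q q₁ r * V m' ≤ V q₁ * V m := by
  rw [Q, Submodule.iSup_mul]
  refine iSup_le fun k => ?_
  rw [mul_assoc]
  refine mul_le_mul' le_rfl (Submodule.mul_le.2 fun s hs s' hs' => mulV G hs hs' ?_)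
  have := k.2
  omega

theorem mulQ (G : GSys V n q y) {q₁ r k t : ℕ} {s s' : Y → ℂ} (h : s ∈ V (k * q))
    (h' : s' ∈ Q V q q₁ r) (e : k + r = t) : s * s' ∈ Q V q q₁ t := by
  subst e
  refine Submodule.mul_le.1 (?_ : V (k * q) * Q V q q₁ r ≤ _) s h s' h'
  rw [Q, Submodule.mul_iSup]
  refine iSup_le fun m => ?_
  have e : k * q + m.1 + q₁ = (k + r) * q := by rw [add_assoc, m.2, add_mul]
  refine le_trans ?_ (le_iSup (fun m : {m // m + q₁ = (k + r) * q} => V q₁ * V m) ⟨_, e⟩)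
  rw [mul_left_comm]
  exact mul_le_mul' le_rfl (Submodule.mul_le.2 fun s hs s' hs' => G.mul hs hs')

/-- the ideal of the polynomials whose homogeneous parts are in `Q` -/
def J (G : GSys V n q y) (q₁ : ℕ) : Ideal (MvPolynomial (Fin (n + 1)) ℂ) where
  carrier := {a | ∀ r, (Phi y a).coeff r ∈ Q V q q₁ r}
  add_mem' ha hb r := by
    rw [map_add, Polynomial.coeff_add]
    exact add_mem (ha r) (hb r)
  zero_mem' r := by simp
  smul_mem' b a ha r := by
    rw [smul_eq_mul, map_mul, Polynomial.coeff_mul]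
    exact Submodule.sum_mem _ fun c hc =>
      mulQ G (coeffV G b c.1) (ha c.2) (Finset.HasAntidiagonal.mem_antidiagonal.1 hc)

theorem homJ (G : GSys V n q y) {q₁ : ℕ} {a : MvPolynomial (Fin (n + 1)) ℂ} {r : ℕ}
    (h : a.IsHomogeneous r) (ha : aeval y a ∈ Q V q q₁ r) : a ∈ J G q₁ := by
  intro k
  rw [Phi_hom h, Polynomial.coeff_monomial]
  split_ifs with e
  · exact e ▸ ha
  · exact zero_mem _

theorem coeff0 (G : GSys V n q y) {q₁ D : ℕ} {s : Y → ℂ} (hs : s ∈ V (q₁ * q))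
    (hs' : s ∈ Q V q q₁ q₁) {χ : Polynomial (MvPolynomial (Fin (n + 1)) ℂ)} (hD : χ.natDegree = D)
    (hh : ∀ j, (χ.coeff j).IsHomogeneous ((D - j) * q₁))
    (h0 : ∀ p, χ.eval₂ (eval fun i => 1 * y i p) (1 ^ q₁ * s p) = 0) : χ.coeff 0 ∈ J G q₁ := by
  refine homJ G (hh 0) ?_
  have e : aeval y (χ.coeff 0) =
      -∑ j ∈ Finset.range D, aeval y (χ.coeff (j + 1)) * s ^ j * s := by
    funext p
    have h1 := h0 p
    rw [Polynomial.eval₂_eq_sum_range, hD, Finset.sum_range_succ'] at h1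
    simp only [one_mul, one_pow, pow_zero, mul_one, pow_succ, ← mul_assoc] at h1
    simp only [Pi.neg_apply, Finset.sum_apply, Pi.mul_apply, Pi.pow_apply, aeval_apply]
    exact eq_neg_of_add_eq_zero_right h1
  rw [e]
  refine neg_mem (Submodule.sum_mem _ fun j hj => ?_)
  obtain ⟨t, rfl⟩ := Nat.exists_eq_add_of_lt (Finset.mem_range.1 hj)
  have h2 := hh (j + 1)
  rw [show j + t + 1 - (j + 1) = t by omega] at h2
  refine mulQ G (k := t * q₁ + j * q₁) (mulV G (homV G h2) (powV G hs j) (by ring)) hs' ?_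
  rw [Nat.sub_zero]
  ring

theorem no_zero (G : GSys V n q y) {q₁ : ℕ} (h₁ : 1 ≤ q₁) (hb : ∀ p, ∃ g ∈ V q₁, g p ≠ 0)
    {w : Fin (n + 1) → ℂ} (hw : ∀ a ∈ J G q₁, eval w a = 0) : w = 0 := by
  by_contra h0
  have _ := h₁
  obtain ⟨D, hD⟩ := G.roots
  have := G.fd (q₁ * q)
  let W : Submodule ℂ (Y → ℂ) := V (q₁ * q) ⊓ Q V q q₁ q₁
  have : FiniteDimensional ℂ W := Submodule.finiteDimensional_of_le inf_le_left
  let S : Set (Module.Dual ℂ W) :=
    {ξ | ∃ (p : Y) (l : ℂ), (∀ i, w i = l * y i p) ∧ ∀ s : W, ξ s = l ^ q₁ * s.1 p}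
  let b := Module.finBasis ℂ W
  choose χ h1 h2 h3 h4 h5 using fun s : W => hD q₁ s.1 s.2.1
  have hS : S.Finite := by
    refine Set.Finite.of_injOn (f := fun ξ j => ξ (b j))
      (t := Set.univ.pi fun j => ((χ (b j)).map (eval w)).roots.toFinset) ?_ ?_
      (Set.Finite.pi fun j => Finset.finite_toSet _)
    · rintro ξ ⟨p, l, hp, hξ⟩ j -
      have e : w = fun i => l * y i p := funext hp
      rw [Finset.mem_coe, Multiset.mem_toFinset,
        Polynomial.mem_roots ((h1 (b j)).map _).ne_zero, Polynomial.IsRoot, Polynomial.eval_map,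
        e]
      simp only [hξ]
      exact h4 (b j) p l
    · exact fun ξ _ ξ' _ h => b.ext fun j => congrFun h j
  have := hS.to_subtype
  obtain ⟨s, hs⟩ := Module.Dual.exists_forall_ne_zero_of_forall_exists (fun ξ : S => ξ.1) (by
    rintro ⟨ξ, p, l, hp, hξ⟩
    obtain ⟨g, hg, hgp⟩ := hb p
    have hl : l ≠ 0 := by
      rintro rfl
      exact h0 (funext fun i => by simpa using hp i)
    obtain ⟨k, rfl⟩ := Nat.exists_eq_add_of_le' G.qpos
    refine ⟨⟨g * g ^ k, mulV G hg (powV G hg k) (by ring), ?_⟩, ?_⟩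
    · exact le_iSup (fun m : {m // m + q₁ = q₁ * (k + 1)} => V q₁ * V m) ⟨k * q₁, by ring⟩
        (Submodule.mul_mem_mul hg (powV G hg k))
    · rw [hξ]
      exact mul_ne_zero (pow_ne_zero _ hl) (mul_ne_zero hgp (pow_ne_zero _ hgp)))
  have h6 := hw _ (coeff0 G s.2.1 s.2.2 (h2 s) (h3 s) fun p => h4 s p 1)
  obtain ⟨p, l, hp, hl⟩ := h5 s w 0 (by rw [Polynomial.eval₂_at_zero]; exact h6)
  exact hs ⟨(l ^ q₁) • (LinearMap.proj p).comp W.subtype, p, l, hp, fun _ => rfl⟩ hl.symm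

theorem pow_lift (k : ℕ) {s : Y → ℂ} (hs : s ∈ Submodule.span ℂ (range y) ^ k) :
    ∃ a ∈ Ideal.span (range (X : Fin (n + 1) → MvPolynomial (Fin (n + 1)) ℂ)) ^ k,
      Phi y a = Polynomial.monomial k s := by
  induction k generalizing s with
  | zero =>
    rw [pow_zero, Submodule.mem_one] at hs
    obtain ⟨c, rfl⟩ := hs
    exact ⟨C c, by simp, by rw [Phi, aeval_C]; rfl⟩
  | succ k ih =>
    rw [pow_succ] at hs
    refine Submodule.mul_induction_on hs (fun s hs s' hs' => ?_) ?_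
    · obtain ⟨a, ha, e⟩ := ih hs
      obtain ⟨c, rfl⟩ := (Submodule.mem_span_range_iff_exists_fun ℂ).1 hs'
      refine ⟨a * ∑ i, c i • X i, ?_, ?_⟩
      · rw [pow_succ]
        refine Ideal.mul_mem_mul ha (Submodule.sum_mem _ fun i _ => ?_)
        rw [smul_eq_C_mul]
        exact Ideal.mul_mem_left _ _ (Ideal.subset_span ⟨i, rfl⟩)
      · rw [map_mul, e, ← Polynomial.monomial_mul_monomial]
        congr 1
        simp only [map_sum, map_smul, Phi, aeval_X, Polynomial.smul_monomial]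
    · rintro s s' ⟨a, ha, e⟩ ⟨a', ha', e'⟩
      exact ⟨a + a', add_mem ha ha', by rw [map_add, map_add, e, e']⟩

theorem iter {U : Submodule ℂ (Y → ℂ)} {m₀ : ℕ} (h : ∀ m, m₀ ≤ m → V (m + q) ≤ U * V m)
    (k : ℕ) {m : ℕ} (hm : m₀ ≤ m) : V (m + k * q) ≤ U ^ k * V m := by
  induction k with
  | zero => simp
  | succ k ih =>
    rw [show m + (k + 1) * q = m + k * q + q by ring, pow_succ', mul_assoc]
    exact (h _ (by omega)).trans (mul_le_mul' le_rfl ih)

end TGen1X
open TGen1X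

theorem t_Gen1S : Gen1S.{u} := by
  intro Y V n q y G ⟨m₀, hm₀⟩ q₁ h₁ hb
  have h1 : Ideal.span (range (MvPolynomial.X : Fin (n + 1) → MvPolynomial (Fin (n + 1)) ℂ)) ≤
      (J G q₁).radical := by
    rw [← MvPolynomial.vanishingIdeal_zeroLocus_eq_radical (K := ℂ), Ideal.span_le]
    rintro _ ⟨i, rfl⟩ w hw
    rw [MvPolynomial.aeval_X, no_zero G h₁ hb hw]
    rfl
  obtain ⟨k, hk⟩ := Ideal.exists_pow_le_of_le_radical_of_fg h1
    (Submodule.fg_span (Set.finite_range _))
  have h2 : Submodule.span ℂ (range y) ^ k ≤ Q V q q₁ k := by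
    intro s hs
    obtain ⟨a, ha, e⟩ := pow_lift k hs
    have h3 := hk ha k
    rwa [e, Polynomial.coeff_monomial, if_pos rfl] at h3
  refine ⟨m₀ + k * q, fun m hm => ?_⟩
  have e : m + q₁ = m + q₁ - k * q + k * q := by omega
  rw [e]
  exact (iter hm₀ k (by omega)).trans ((mul_le_mul' h2 le_rfl).trans (Q_mul G e))

end Fuj
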