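import Vale.Agent.P271.FDefs
import Vale.Agent.P271.HKL
import Vale.Agent.P271.HInt

/-! The key lemma and the integrability lemma in the form used by part F. -/

open MeasureTheory Set Filter Topology Metric
open scoped ENNReal

noncomputable section
namespace Fuj

theorem t_IntS : IntS := by
  intro n r f y c hf hr hc hcr
  obtain ⟨V, hV, h⟩ := int_neg_pow volume
    (hf.eventually_analyticAt.mono fun z hz => hz.differentiableAt) hr hc hcr
  refine ⟨V, hV, ?_⟩
  have e : ∀ p, ENNReal.ofReal (‖f p‖ ^ 2) ^ (-c) = ‖f p‖ₑ ^ (-(2 * c)) := fun p => by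
    rw [ENNReal.ofReal_pow (norm_nonneg _), ofReal_norm_eq_enorm, ← ENNReal.rpow_natCast,
      ← ENNReal.rpow_mul]
    congr 1
    push_cast
    ring
  simp only [e]
  exact h

/-- translation followed by the identification with Euclidean space -/
def TKL_a {d : ℕ} (o : E d) : E d ≃ₜ EuclideanSpace ℂ (Fin d) :=
  (Homeomorph.subRight o).trans (EuclideanSpace.equiv (Fin d) ℂ).symm.toHomeomorph

theorem TKL_mp {d : ℕ} (o : E d) : MeasurePreserving (TKL_a o) volume
    (Measure.map (EuclideanSpace.equiv (Fin d) ℂ).symm volume) :=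
  MeasurePreserving.comp (g := (EuclideanSpace.equiv (Fin d) ℂ).symm)
    ⟨(EuclideanSpace.equiv (Fin d) ℂ).symm.continuous.measurable, rfl⟩
    (measurePreserving_sub_right volume o)

theorem TKL_lo {d : ℕ} (o z : E d) : ‖z - o‖ ≤ ‖TKL_a o z‖ :=
  (pi_norm_le_iff_of_nonneg (norm_nonneg _)).2 fun i => PiLp.norm_apply_le (TKL_a o z) i

theorem TKL_hi {d : ℕ} (o z : E d) : ‖TKL_a o z‖ ≤ (d + 1) * ‖z - o‖ := by
  rw [EuclideanSpace.norm_eq]
  refine Real.sqrt_le_iff.2 ⟨by positivity, ?_⟩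
  have h1 : ∑ i, ‖TKL_a o z i‖ ^ 2 ≤ ∑ _i : Fin d, ‖z - o‖ ^ 2 :=
    Finset.sum_le_sum fun i _ => pow_le_pow_left₀ (norm_nonneg _) (norm_le_pi_norm (z - o) i) 2
  rw [Finset.sum_const, Finset.card_univ, Fintype.card_fin, nsmul_eq_mul] at h1
  have h2 : (0 : ℝ) ≤ d := Nat.cast_nonneg d
  nlinarith [sq_nonneg ‖z - o‖, mul_nonneg h2 (sq_nonneg ‖z - o‖),
    mul_nonneg (mul_nonneg h2 h2) (sq_nonneg ‖z - o‖)]

theorem TKL_symm {d : ℕ} (o : E d) : Differentiable ℂ (TKL_a o).symm :=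
  (EuclideanSpace.equiv (Fin d) ℂ).differentiable.add_const o

theorem t_KL : KL := by
  intro d e J κ A B c η ρ hκ hA hη hρ
  obtain ⟨T, hT⟩ := kl (Measure.map (EuclideanSpace.equiv (Fin d) ℂ).symm volume)
    (Measure.map (EuclideanSpace.equiv (Fin e) ℂ).symm volume) B c hρ hρ hA hκ.le hη
  refine ⟨T, ρ / (2 * (d + e + 1)), by positivity, fun o σ b hσ hA' hb t₀ ht z hz hI w hw => ?_⟩
  let a := (TKL_a o.1).prodCongr (TKL_a o.2)
  have h1 : ∀ p, a p ∈ PP _ _ ρ ρ → p ∈ ball o ρ := fun p hp => by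
    rw [← ball_prod_same]
    exact ⟨mem_ball_iff_norm.2 ((TKL_lo _ _).trans_lt (mem_ball_zero_iff.1 hp.1)),
      mem_ball_iff_norm.2 ((TKL_lo _ _).trans_lt (mem_ball_zero_iff.1 hp.2))⟩
  have h2 : ∀ p ∈ PP _ _ ρ ρ, a.symm p ∈ ball o ρ := fun p hp =>
    h1 _ (by rwa [a.apply_symm_apply])
  have h3 : ∀ t, ∀ p ∈ ball o ρ,
      ENNReal.ofReal (kw (fun j p => σ j (a.symm p)) b κ t (a p)) = Ks σ b κ t p := by
    intro t p hp
    simp only [kw, Ks, a.symm_apply_apply]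
    refine (ENNReal.ofReal_rpow_of_pos ?_).symm
    have h4 := (inv_pos.2 hA).trans_le (hA' p hp).1
    obtain ⟨j, -, hj⟩ := Finset.exists_ne_zero_of_sum_ne_zero h4.ne'
    exact Finset.sum_pos' (fun _ _ => by positivity) ⟨j, Finset.mem_univ j,
      mul_pos (lt_of_le_of_ne (sq_nonneg _) hj.symm) (Real.exp_pos _)⟩
  have h4 : ∀ {k : ℕ} (o z : E k), k ≤ d + e → z ∈ ball o (ρ / (2 * (d + e + 1))) →
      ‖TKL_a o z‖ ≤ ρ / 2 := fun {k} o z hk hz => by
    have h5 := (mem_ball_iff_norm.1 hz).le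
    have h6 : (k : ℝ) ≤ d + e := by exact_mod_cast hk
    refine (TKL_hi o z).trans ((mul_le_mul (add_le_add_left h6 1) h5 (norm_nonneg _)
      (by positivity)).trans (le_of_eq ?_))
    field_simp
  have hz' := h4 _ _ (Nat.le_add_right d e) hz
  obtain ⟨V, hV, hVP, h5⟩ := hT (Fin J) (fun j p => σ j (a.symm p)) b
    ⟨fun j p hp => ((hσ j _ (h2 p hp)).differentiableAt.comp p
      (((TKL_symm o.1).comp differentiable_fst).prodMk
        ((TKL_symm o.2).comp differentiable_snd) p)).differentiableWithinAt,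
      fun p hp => (hA' _ (h2 p hp)).1, fun p hp => (hA' _ (h2 p hp)).2, hb⟩ t₀ ht _ hz' _
    (h4 _ _ (Nat.le_add_left e d) hw) (by
      rw [← (TKL_mp o.2).setLIntegral_comp_preimage_emb (TKL_a o.2).measurableEmbedding]
      refine le_trans (le_trans (le_of_eq ?_) 
        (lintegral_mono_set (s := TKL_a o.2 ⁻¹' ball 0 ρ) fun y hy => ?_)) hI
      · refine setLIntegral_congr_fun (isOpen_ball.preimage (TKL_a o.2).continuous).measurableSet
          fun y hy => h3 t₀ (z, y) (h1 _ ⟨mem_ball_zero_iff.2 ?_, hy⟩)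
        exact hz'.trans_lt (half_lt_self hρ)
      · exact mem_ball_iff_norm.2 ((TKL_lo _ _).trans_lt (mem_ball_zero_iff.1 hy)))
  obtain ⟨O, h6, h7, h8⟩ := _root_.mem_nhds_iff.1 hV
  refine ⟨a ⁻¹' O, (h7.preimage a.continuous).mem_nhds h8, ne_top_of_le_ne_top h5
    (lintegral_mono fun t => mul_le_mul_right ?_ _)⟩
  have h9 : MeasurePreserving a volume _ := (TKL_mp o.1).prod (TKL_mp o.2)
  refine le_trans (le_of_eq ?_) (lintegral_mono_set h6)
  rw [← h9.setLIntegral_comp_preimage_emb a.measurableEmbedding]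
  exact setLIntegral_congr_fun (h7.preimage a.continuous).measurableSet fun p hp =>
    (h3 t p (h1 p (hVP (h6 hp)))).symm

end Fuj
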