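import Vale.Agent.P271.TDefs

open MeasureTheory Set Filter Topology Metric
open scoped Manifold ContDiff
open Vale.Agent.P271

noncomputable section
namespace Fuj

universe u v

namespace TNz

variable {n : ℕ} {X : Type u} [TopologicalSpace X]

theorem ev_src {e' : OpenPartialHomeomorph X (E n)} {p : X} (hp' : p ∈ e'.source) {U : Set X}
    (hU : IsOpen U) (hp : p ∈ U) : ∀ᶠ z in 𝓝 (e' p), e'.symm z ∈ U := by
  have h := e'.continuousAt_symm (e'.map_source hp')
  refine h.eventually_mem ?_
  rw [e'.left_inv hp']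
  exact hU.mem_nhds hp

theorem ev_eq {F : Type*} {e e' : OpenPartialHomeomorph X (E n)} {p : X} (hp : p ∈ e.source)
    (hp' : p ∈ e'.source) (f : X → F) :
    (fun z => f (e.symm (e (e'.symm z)))) =ᶠ[𝓝 (e' p)] fun z => f (e'.symm z) := by
  filter_upwards [ev_src hp' e.open_source hp] with z hz
  rw [e.left_inv hz]

/-- analyticity does not depend on the chart -/
theorem an_tr {F : Type*} [NormedAddCommGroup F] [NormedSpace ℂ F]
    {e e' : OpenPartialHomeomorph X (E n)} {p : X} (hp : p ∈ e.source) (hp' : p ∈ e'.source)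
    (ht : AnalyticAt ℂ (fun z => e (e'.symm z)) (e' p)) {f : X → F}
    (hf : AnalyticAt ℂ (fun z => f (e.symm z)) (e p)) :
    AnalyticAt ℂ (fun z => f (e'.symm z)) (e' p) :=
  (hf.comp_of_eq ht (by simp only [e'.left_inv hp'])).congr (ev_eq hp hp' f)

/-- immersions do not depend on the chart -/
theorem inj_tr {F : Type*} [NormedAddCommGroup F] [NormedSpace ℂ F]
    {e e' : OpenPartialHomeomorph X (E n)} {p : X} (hp : p ∈ e.source) (hp' : p ∈ e'.source)
    (ht : AnalyticAt ℂ (fun z => e (e'.symm z)) (e' p))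
    (ht' : AnalyticAt ℂ (fun z => e' (e.symm z)) (e p)) {f : X → F}
    (hf : AnalyticAt ℂ (fun z => f (e.symm z)) (e p))
    (hi : Function.Injective (fderiv ℂ (fun z => f (e.symm z)) (e p))) :
    Function.Injective (fderiv ℂ (fun z => f (e'.symm z)) (e' p)) := by
  have h0 : e (e'.symm (e' p)) = e p := by rw [e'.left_inv hp']
  have key : ∀ {F' : Type _} [NormedAddCommGroup F'] [NormedSpace ℂ F'] {g : X → F'},
      AnalyticAt ℂ (fun z => g (e.symm z)) (e p) → fderiv ℂ (fun z => g (e'.symm z)) (e' p) =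
        (fderiv ℂ (fun z => g (e.symm z)) (e p)).comp
          (fderiv ℂ (fun z => e (e'.symm z)) (e' p)) := by
    intro F' _ _ g hg
    rw [← (ev_eq hp hp' g).fderiv_eq, ← h0]
    exact fderiv_comp (e' p) (g := fun z => g (e.symm z)) (f := fun z => e (e'.symm z))
      (h0 ▸ hg.differentiableAt) ht.differentiableAt
  have h1 : fderiv ℂ (fun z => e' (e'.symm z)) (e' p) = ContinuousLinearMap.id ℂ (E n) := by
    rw [EventuallyEq.fderiv_eq (f := id) (e'.eventually_right_inverse (e'.map_source hp')),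
      fderiv_id]
  have h2 : fderiv ℂ (fun z => e' (e'.symm z)) (e' p) =
      (fderiv ℂ (fun z => e' (e.symm z)) (e p)).comp
        (fderiv ℂ (fun z => e (e'.symm z)) (e' p)) := by
    rw [← (ev_eq hp hp' e').fderiv_eq, ← h0]
    exact fderiv_comp (e' p) (g := fun z => e' (e.symm z)) (f := fun z => e (e'.symm z))
      (h0 ▸ ht'.differentiableAt) ht.differentiableAt
  rw [key hf]
  refine hi.comp (Function.LeftInverse.injective
    (g := fderiv ℂ (fun z => e' (e.symm z)) (e p)) fun v => ?_)
  have := congrArg (fun L : E n →L[ℂ] E n => L v) (h2.symm.trans h1)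
  simpa using this

/-- a scaled local inverse -/
theorem exists_local {ψ : E n → E n} {z₀ : E n} (hψ : AnalyticAt ℂ ψ z₀)
    (hd : fderiv ℂ ψ z₀ = ContinuousLinearMap.id ℂ (E n)) (h0 : ψ z₀ = 0) {P : Set (E n)}
    (hP : P ∈ 𝓝 z₀) : ∃ (Φ : OpenPartialHomeomorph (E n) (E n)) (ρ : ℂ), z₀ ∈ Φ.source ∧
      Φ.source ⊆ P ∧ (∀ z, Φ z = ρ • ψ z) ∧ closedBall 0 2 ⊆ Φ.target ∧
      ∀ z ∈ Φ.source, AnalyticAt ℂ Φ z ∧ AnalyticAt ℂ Φ.symm (Φ z) := by
  have hs : HasStrictFDerivAt ψ
      ((ContinuousLinearEquiv.refl ℂ (E n) : E n ≃L[ℂ] E n) : E n →L[ℂ] E n) z₀ := by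
    have := hψ.hasStrictFDerivAt
    rwa [hd] at this
  set Φ₀ := hs.toOpenPartialHomeomorph ψ with hΦ₀
  have hz : z₀ ∈ Φ₀.source := hs.mem_toOpenPartialHomeomorph_source
  have ha : AnalyticAt ℂ Φ₀.symm (ψ z₀) :=
    Φ₀.analyticAt_symm' (i := ContinuousLinearEquiv.refl ℂ (E n)) hz hψ hd
  obtain ⟨O, hO, hOo, hzO⟩ := _root_.eventually_nhds_iff.1 ((hψ.eventually_analyticAt.and
    (hψ.continuousAt.eventually ha.eventually_analyticAt)).and hP)
  set Φ₁ := Φ₀.restrOpen O hOo with hΦ₁
  have hz1 : z₀ ∈ Φ₁.source := ⟨hz, hzO⟩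
  have ht : (0 : E n) ∈ Φ₁.target := h0 ▸ Φ₁.map_source hz1
  obtain ⟨r, hr, hb⟩ := Metric.isOpen_iff.1 Φ₁.open_target 0 ht
  have hρ : ((3 / r : ℝ) : ℂ) ≠ 0 := Complex.ofReal_ne_zero.2 (by positivity)
  refine ⟨Φ₁.transHomeomorph (Homeomorph.smulOfNeZero _ hρ), _, hz1, fun z hz => (hO z hz.2).2,
    fun z => rfl, fun z hz => hb ?_, fun z hz => ⟨?_, ?_⟩⟩
  · change ((3 / r : ℝ) : ℂ)⁻¹ • z ∈ ball (0 : E n) r
    rw [mem_ball_zero_iff, norm_smul, norm_inv, Complex.norm_real, Real.norm_of_nonneg
      (by positivity), inv_div, div_mul_eq_mul_div, div_lt_iff₀ (by norm_num)]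
    nlinarith [mem_closedBall_zero_iff.1 hz]
  · exact (hO z hz.2).1.1.fun_const_smul (c := ((3 / r : ℝ) : ℂ))
  · change AnalyticAt ℂ (fun w => Φ₀.symm (((3 / r : ℝ) : ℂ)⁻¹ • w)) (((3 / r : ℝ) : ℂ) • ψ z)
    exact (hO z hz.2).1.2.comp_of_eq (f := fun w : E n => ((3 / r : ℝ) : ℂ)⁻¹ • w)
      analyticAt_id.fun_const_smul (inv_smul_smul₀ hρ _)

variable [MeasurableSpace X] (G : Geo n X)

theorem quot_an {j : G.I} {p : X} (hp : p ∈ (G.e j).source) {a : Fin (G.N + 1)}
    (ha : G.t a p ≠ 0) : AnalyticAt ℂ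
      (fun z b => G.t b ((G.e j).symm z) / G.t a ((G.e j).symm z)) (G.e j p) := by
  refine analyticAt_pi_iff.2 fun b => ?_
  have h1 := fun b => G.t_mem b j _ ((G.e j).map_source hp)
  refine ((h1 b).div (h1 a) ?_).congr ?_
  · simp only [Atl.rep, (G.e j).left_inv hp]
    exact mul_ne_zero (pow_ne_zero _ (G.coc.ne j p hp)) ha
  · filter_upwards [ev_src hp (G.e j).open_source hp] with z hz
    exact mul_div_mul_left _ _ (pow_ne_zero _ (G.coc.ne j _ hz))

/-- data of a new chart -/
structure New (e' : OpenPartialHomeomorph X (E n)) (τ' : X → ℂ) : Prop where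
  h1 : ∀ j p, p ∈ e'.source → p ∈ (G.e j).source →
    AnalyticAt ℂ (fun z => G.e j (e'.symm z)) (e' p)
  h2 : ∀ j p, p ∈ e'.source → p ∈ (G.e j).source →
    AnalyticAt ℂ (fun z => e' ((G.e j).symm z)) (G.e j p)
  meas : Measurable τ'
  ne : ∀ p ∈ e'.source, τ' p ≠ 0
  h3 : ∀ j p, p ∈ e'.source → p ∈ (G.e j).source →
    AnalyticAt ℂ (fun z => τ' ((G.e j).symm z) / G.τ j ((G.e j).symm z)) (G.e j p)

variable {G} {e' : OpenPartialHomeomorph X (E n)} {τ' : X → ℂ}

theorem mem_idx (p : X) : p ∈ (G.e (G.idx p)).source := G.K_sub _ (G.idx_mem p)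

/-- the enlarged atlas -/
def atl (h : New G e' τ') : Atl n X where
  I := Option G.I
  e := fun o => o.elim e' G.e
  K := fun o => o.elim ∅ G.K
  K_cpt := fun o => by
    cases o with
    | none => exact isCompact_empty
    | some i => exact G.K_cpt i
  K_sub := fun o => by
    cases o with
    | none => exact empty_subset _
    | some i => exact G.K_sub i
  idx := fun p => some (G.idx p)
  idx_meas := fun o => by
    cases o with
    | none =>
      have : (fun p => some (G.idx p)) ⁻¹' {none} = ∅ := by ext; simp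
      rw [this]
      exact MeasurableSet.empty
    | some i =>
      have : (fun p => some (G.idx p)) ⁻¹' {some i} = G.idx ⁻¹' {i} := by ext; simp
      rw [this]
      exact G.idx_meas i
  idx_mem := G.idx_mem
  hol := fun i j p hi hj => by
    cases i with
    | none =>
      cases j with
      | none =>
        exact analyticAt_id.congr
          ((e'.eventually_right_inverse (e'.map_source hi)).mono fun _ h => h.symm)
      | some j => exact h.h1 j p hi hj
    | some i =>
      cases j with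
      | none => exact h.h2 i p hj hi
      | some j => exact G.hol i j p hi hj

/-- the enlarged trivialization -/
def tau (h : New G e' τ') : (atl h).I → X → ℂ := fun o => o.elim τ' G.τ

theorem sec_mem (h : New G e' τ') {m : ℕ} {s : X → ℂ} (hs : s ∈ G.R m) :
    s ∈ (atl h).Sec (tau h ^ m) := by
  intro o
  cases o with
  | some i => exact hs i
  | none =>
    intro z hz
    have hp : e'.symm z ∈ e'.source := e'.map_target hz
    have hj := mem_idx (G := G) (e'.symm z)
    have h1 := an_tr hj hp (h.h1 _ _ hp hj) (f := fun p => τ' p ^ m * s p)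
      ((((h.h3 _ _ hp hj).pow m).mul (hs _ _ ((G.e _).map_source hj))).congr (by
        filter_upwards [ev_src hj (G.e _).open_source hj] with w hw
        have := G.coc.ne _ _ hw
        change (_ / _) ^ m * (G.τ _ _ ^ m * _) = _
        rw [div_pow, ← mul_assoc, div_mul_cancel₀ _ (pow_ne_zero m this)]))
    rw [e'.right_inv hz] at h1
    exact h1

/-- the enlarged structure -/
def geo (h : New G e' τ') : Geo n X where
  toAtl := atl h
  τ := tau h
  coc := by
    refine ⟨fun o => ?_, fun o p hp => ?_, fun i j p hi hj => ?_⟩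
    · cases o with
      | none => exact h.meas
      | some i => exact G.coc.meas i
    · cases o with
      | none => exact h.ne p hp
      | some i => exact G.coc.ne i p hp
    · cases i with
      | none =>
        cases j with
        | none =>
          refine (analyticAt_const (v := (1 : ℂ))).congr ?_
          filter_upwards [ev_src hi e'.open_source hi] with z hz
          exact (div_self (h.ne _ hz)).symm
        | some j =>
          refine an_tr hj hi (h.h1 j p hi hj) (f := fun p => G.τ j p / τ' p)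
            (((h.h3 j p hi hj).inv ?_).congr (Eventually.of_forall fun z => inv_div _ _))
          rw [(G.e j).left_inv hj]
          exact div_ne_zero (h.ne p hi) (G.coc.ne j p hj)
      | some i =>
        cases j with
        | none => exact h.h3 i p hj hi
        | some j => exact G.coc.hol i j p hi hj
  q := G.q
  q_pos := G.q_pos
  N := G.N
  t := G.t
  t_mem := fun a => sec_mem h (G.t_mem a)
  unit := G.unit
  sep := G.sep
  imm := fun o p hp a ha => by
    cases o with
    | none =>
      have hj := mem_idx (G := G) p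
      exact inj_tr hj hp (h.h1 _ p hp hj) (h.h2 _ p hp hj) (f := fun p b => G.t b p / G.t a p)
        (quot_an G hj ha) (G.imm _ p hj a ha)
    | some i => exact G.imm i p hp a ha

theorem free (h : New G e' τ') {m : ℕ} {x : X} (hf : (geo h).Free m x) : G.Free m x := by
  obtain ⟨σ, h1, h2, i, hi, hne⟩ := hf
  refine ⟨fun i => σ (some i), fun i => h1 (some i), fun i j => h2 (some i) (some j), G.idx x,
    mem_idx x, fun h0 => ?_⟩
  have h3 := h2 i (some (G.idx x)) x hi (mem_idx x)
  have h4 : σ (some (G.idx x)) ((geo h).e (some (G.idx x)) x) = 0 := h0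
  rw [h4, zero_mul, zero_mul] at h3
  exact mul_ne_zero hne (pow_ne_zero _ (G.coc.ne _ x (mem_idx x))) h3

end TNz

open TNz in
theorem t_NzS : NzS.{u} := by
  intro n X _ _ _ G x
  have hx := mem_idx (G := G) x
  set i := G.idx x with hi
  obtain ⟨a, ha⟩ : ∃ a, G.t a x ≠ 0 := by
    by_contra! h
    simpa [h] using G.unit x
  set f : E n → Fin (G.N + 1) → ℂ := fun z b => G.t b ((G.e i).symm z) / G.t a ((G.e i).symm z)
    with hf
  have hfa : AnalyticAt ℂ f (G.e i x) := quot_an G hx ha
  obtain ⟨B₀, hB⟩ := LinearMap.exists_leftInverse_of_injective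
    (fderiv ℂ f (G.e i x) : E n →ₗ[ℂ] Fin (G.N + 1) → ℂ)
    (LinearMap.ker_eq_bot.2 (G.imm i x hx a ha))
  set B := LinearMap.toContinuousLinearMap B₀ with hBdef
  set g : E n → ℂ := G.rp G.q i (G.t a) with hg
  have hga : AnalyticOnNhd ℂ g (G.e i).target := G.t_mem a i
  have hgp : ∀ p ∈ (G.e i).source, g (G.e i p) = G.τ i p ^ G.q * G.t a p := fun p hp => by
    simp only [hg, Geo.rp, Atl.rep, (G.e i).left_inv hp, Pi.pow_apply]
  have hg0 : g (G.e i x) ≠ 0 := by
    rw [hgp x hx]
    exact mul_ne_zero (pow_ne_zero _ (G.coc.ne i x hx)) ha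
  have hsl : ∀ᶠ z in 𝓝 (G.e i x), g z / g (G.e i x) ∈ Complex.slitPlane :=
    ((hga _ ((G.e i).map_source hx)).continuousAt.div_const _).eventually_mem
      (Complex.isOpen_slitPlane.mem_nhds (by rw [div_self hg0]; exact Complex.one_mem_slitPlane))
  obtain ⟨Φ, ρ, hz, hP, hΦ, hball, han⟩ := exists_local (ψ := fun z => B (f z - f (G.e i x)))
    (z₀ := G.e i x) ((B.analyticAt _).fun_comp_of_eq (hfa.sub analyticAt_const) rfl)
    (by
      refine (B.hasFDerivAt.comp _ (hfa.differentiableAt.hasFDerivAt.sub_const _)).fderiv.trans ?_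
      exact ContinuousLinearMap.ext fun v => LinearMap.congr_fun hB v)
    (by simp) (hsl.and ((G.e i).open_target.mem_nhds ((G.e i).map_source hx)))
  set w : E n → ℂ := fun z =>
    Complex.exp (-(Complex.log (g z / g (G.e i x)) + Complex.log (g (G.e i x))) / G.q) with hw
  have hwa : ∀ z ∈ Φ.source, AnalyticAt ℂ w z := fun z hz =>
    ((((((hga z (hP hz).2).div_const).clog (hP hz).1).add analyticAt_const).neg).div_const).cexp
  have hwq : ∀ z ∈ Φ.source, w z ^ G.q * g z = 1 := fun z hz => by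
    have hq : (G.q : ℂ) ≠ 0 := Nat.cast_ne_zero.2 (by have := G.q_pos; omega)
    have h1 := Complex.slitPlane_ne_zero (hP hz).1
    rw [hw, ← Complex.exp_nat_mul, mul_div_cancel₀ _ hq, Complex.exp_neg, Complex.exp_add,
      Complex.exp_log h1, Complex.exp_log hg0, div_mul_cancel₀ _ hg0]
    exact inv_mul_cancel₀ fun h => h1 (by rw [h, zero_div])
  set e' := (G.e i).trans Φ with he'
  set τ' : X → ℂ := fun p => G.τ i p * e'.source.indicator (fun p => w (G.e i p)) p with hτ'
  have hτp : ∀ p ∈ e'.source, τ' p = G.τ i p * w (G.e i p) := fun p hp => by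
    simp only [hτ', indicator_of_mem hp]
  have hN : New G e' τ' := by
    refine ⟨fun j p hp hj => ?_, fun j p hp hj => ?_, (G.coc.meas i).mul ?_, fun p hp => ?_,
      fun j p hp hj => ?_⟩
    · exact (G.hol i j p hp.1 hj).comp_of_eq (han _ hp.2).2 (Φ.left_inv hp.2)
    · exact (han _ hp.2).1.comp_of_eq (G.hol j i p hj hp.1)
        (congrArg (G.e i) ((G.e j).left_inv hj))
    · classical
      rw [← piecewise_eq_indicator]
      refine ContinuousOn.measurable_piecewise (fun p hp => ?_) continuousOn_const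
        e'.open_source.measurableSet
      exact ((hwa _ hp.2).continuousAt.comp ((G.e i).continuousAt hp.1)).continuousWithinAt
    · rw [hτp p hp]
      exact mul_ne_zero (G.coc.ne i p hp.1) (Complex.exp_ne_zero _)
    · refine ((G.coc.hol j i p hj hp.1).mul ((hwa _ hp.2).comp_of_eq (G.hol j i p hj hp.1)
        (congrArg (G.e i) ((G.e j).left_inv hj)))).congr ?_
      filter_upwards [ev_src hj e'.open_source hp] with z hz
      rw [hτp _ hz, mul_div_right_comm]
      rfl
  have hone : ∀ p ∈ e'.source, τ' p ^ G.q * G.t a p = 1 := fun p hp => by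
    rw [hτp p hp, mul_pow, mul_right_comm, ← hgp p hp.1, mul_comm]
    exact hwq _ hp.2
  refine ⟨geo hN, none, ⟨⟨hx, hz⟩, ?_, fun z hz => ⟨hball hz, (hP (Φ.map_target (hball hz))).2⟩,
    ⟨G.t a, (geo hN).t_mem a, fun z hz => hone _ (e'.map_target hz)⟩, fun j => ?_⟩,
    fun m => free hN⟩
  · change Φ (G.e i x) = 0
    simp [hΦ]
  · refine ⟨∑ b, (ρ * B (Pi.single b 1) j) • (G.t b - f (G.e i x) b • G.t a),
      Submodule.sum_mem _ fun b _ => Submodule.smul_mem _ _ (Submodule.sub_mem _
        ((geo hN).t_mem b) (Submodule.smul_mem _ _ ((geo hN).t_mem a))), fun z hz => ?_⟩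
    have hp : e'.symm z ∈ e'.source := e'.map_target hz
    have hzp : Φ (G.e i (e'.symm z)) = z := e'.right_inv hz
    change τ' (e'.symm z) ^ G.q * (∑ b, (ρ * B (Pi.single b 1) j) •
      (G.t b - f (G.e i x) b • G.t a)) (e'.symm z) = z j
    generalize e'.symm z = p at hp hzp
    have h1 := hone p hp
    have h2 : G.t a p ≠ 0 := right_ne_zero_of_mul_eq_one h1
    rw [← hzp, hΦ, pi_eq_sum_univ' (f (G.e i p) - f (G.e i x)), map_sum]
    simp only [Finset.sum_apply, Pi.smul_apply, Pi.sub_apply, smul_eq_mul, map_smul,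
      Finset.mul_sum]
    refine Finset.sum_congr rfl fun b _ => ?_
    have h3 : f (G.e i p) b = τ' p ^ G.q * G.t b p := by
      simp only [hf, (G.e i).left_inv hp.1]
      rw [div_eq_iff h2, mul_right_comm, h1, one_mul]
    rw [h3]
    linear_combination (-(ρ * B (Pi.single b 1) j * f (G.e i x) b)) * h1

end Fuj
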