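import Vale.Agent.P271.TDefs

open MeasureTheory Set Filter Topology Metric
open scoped Manifold ContDiff
open Vale.Agent.P271

noncomputable section
namespace Fuj

universe u v w

section aux
variable {n : ℕ} {V : Type w} [NormedAddCommGroup V] [NormedSpace ℂ V] {X : Type u}
  [TopologicalSpace X] [ChartedSpace V X]

theorem TSG1_chart [IsManifold 𝓘(ℂ, V) ω X] (φ : V ≃L[ℂ] E n) (x : X) {O : Set X}
    (hO : IsOpen O) (hx : x ∈ O) : ∃ e : OpenPartialHomeomorph X (E n), x ∈ e.source ∧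
      e.source ⊆ O ∧ e.source ⊆ (chartAt V x).source ∧
      (∀ p, e p = φ (chartAt V x p)) ∧
      e.MDifferentiable 𝓘(ℂ, V) 𝓘(ℂ, E n) := by
  have h := mdifferentiable_chart (I := 𝓘(ℂ, V)) x
  refine ⟨((chartAt V x).restrOpen O hO).transHomeomorph
    φ.toHomeomorph, ⟨mem_chart_source _ x, hx⟩,
    inter_subset_right, inter_subset_left, fun _ => rfl, fun p hp => ?_, fun z hz => ?_⟩
  · exact (φ.differentiableAt.mdifferentiableAt.comp p
      (h.mdifferentiableAt hp.1)).mdifferentiableWithinAt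
  · exact ((h.mdifferentiableAt_symm hz.1).comp z
      φ.symm.differentiableAt.mdifferentiableAt
        ).mdifferentiableWithinAt

theorem TSG1_an {F : Type} [NormedAddCommGroup F] [NormedSpace ℂ F] [CompleteSpace F]
    {e : OpenPartialHomeomorph X (E n)}
    (he : e.MDifferentiable 𝓘(ℂ, V) 𝓘(ℂ, E n)) {f : X → F} {O : Set X}
    (hO : IsOpen O) (hf : MDifferentiableOn 𝓘(ℂ, V) 𝓘(ℂ, F) f O) {p : X}
    (hp : p ∈ e.source) (hp' : p ∈ O) : AnalyticAt ℂ (fun z => f (e.symm z)) (e p) :=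
  Vale.Agent.P274.analyticOnNhd_of_differentiableOn (e.isOpen_inter_preimage_symm hO)
    (mdifferentiableOn_iff_differentiableOn.1
      (hf.comp (he.2.mono inter_subset_left) inter_subset_right)) _
    ⟨e.map_source hp, by rwa [mem_preimage, e.left_inv hp]⟩

theorem TSG1_inj {β : Type} [Fintype β]
    {e : OpenPartialHomeomorph X (E n)}
    (he : e.MDifferentiable 𝓘(ℂ, V) 𝓘(ℂ, E n)) {f : β → X → ℂ} {p : X}
    (hp : p ∈ e.source) (hd : ∀ b, DifferentiableAt ℂ (fun z => f b (e.symm z)) (e p))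
    (hf : ∀ v : TangentSpace 𝓘(ℂ, V) p,
      (∀ b, mfderiv 𝓘(ℂ, V) 𝓘(ℂ, ℂ) (f b) p v = 0) → v = 0) :
    Function.Injective (fderiv ℂ (fun z b => f b (e.symm z)) (e p)) := by
  refine (injective_iff_map_eq_zero _).2 fun u hu => ?_
  obtain ⟨v, rfl⟩ := he.mfderiv_surjective hp u
  rw [hf v fun b => ?_]
  · exact map_zero _
  have e1 : f b =ᶠ[𝓝 p] (fun z => f b (e.symm z)) ∘ e := by
    filter_upwards [e.open_source.mem_nhds hp] with y hy
    rw [Function.comp_apply, e.left_inv hy]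
  rw [fderiv_pi hd] at hu
  rw [e1.mfderiv_eq, mfderiv_comp p (hd b).mdifferentiableAt (he.mdifferentiableAt hp),
    mfderiv_eq_fderiv]
  exact congrFun hu b

end aux

theorem TSG1_idx {X : Type u} [MeasurableSpace X] {k : ℕ} {K : Fin k → Set X}
    (hK : ∀ i, MeasurableSet (K i)) (hc : ∀ p, ∃ i, p ∈ K i) : ∃ idx : X → Fin k,
      (∀ i, MeasurableSet (idx ⁻¹' {i})) ∧ ∀ p, p ∈ K (idx p) := by
  refine ⟨fun p => (hc p).choose, fun i => ?_, fun p => (hc p).choose_spec⟩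
  have hm : Measurable fun p i => p ∈ K i :=
    measurable_pi_lambda _ fun i => measurable_mem.2 (hK i)
  have e : (fun p => (hc p).choose) ⁻¹' {i} =
      (fun p i => p ∈ K i) ⁻¹' {s : Fin k → Prop | ∃ h : ∃ j, s j, h.choose = i} :=
    Set.ext fun p => ⟨fun h => ⟨hc p, h⟩, fun h => h.2⟩
  rw [e]
  exact hm (Set.toFinite _).measurableSet

theorem TSG1_meas {X : Type u} [TopologicalSpace X] [MeasurableSpace X] [BorelSpace X] {k : ℕ}
    {idx : X → Fin k} (hm : ∀ i, MeasurableSet (idx ⁻¹' {i})) {S : Set X} (hS : MeasurableSet S)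
    {f : Fin k → X → ℂ} (hf : ∀ j, ContinuousOn (f j) (S ∩ idx ⁻¹' {j})) :
    Measurable (S.indicator fun p => f (idx p) p) := by
  classical
  have e : (S.indicator fun p => f (idx p) p) =
      fun p => ∑ j, (S ∩ idx ⁻¹' {j}).piecewise (f j) 0 p := by
    funext p
    rw [Finset.sum_eq_single (idx p) (fun j _ hj => piecewise_eq_of_notMem _ _ _ fun h =>
      hj h.2.symm) fun h => absurd (Finset.mem_univ _) h]
    by_cases hp : p ∈ S
    · rw [indicator_of_mem hp, piecewise_eq_of_mem (S ∩ idx ⁻¹' {idx p}) _ _ ⟨hp, rfl⟩]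
    · rw [indicator_of_notMem hp, piecewise_eq_of_notMem _ _ _ fun h => hp h.1]
      rfl
  rw [e]
  exact Finset.measurable_fun_sum _ fun j _ =>
    (hf j).measurable_piecewise continuousOn_const (hS.inter (hm j))

theorem TSG1_nu {X : Type u} [TopologicalSpace X] {ι : Type v} {U : ι → Set X} {q N : ℕ}
    (hq : 1 ≤ q) {t : Fin N → ι → X → ℂ} (ht : ∀ b j, ContinuousOn (t b j) (U j))
    (h0 : ∀ j, ∀ p ∈ U j, ∃ b, t b j p ≠ 0) : ∃ ν : ι → X → ℝ, (∀ j, ∀ p ∈ U j, 0 < ν j p) ∧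
      (∀ j, ContinuousOn (ν j) (U j)) ∧ ∀ j p, ν j p ^ (q * 2) = ∑ b, ‖t b j p‖ ^ 2 := by
  have h1 : ∀ j p, 0 ≤ ∑ b, ‖t b j p‖ ^ 2 := fun j p => Finset.sum_nonneg fun _ _ => sq_nonneg _
  refine ⟨fun j p => (∑ b, ‖t b j p‖ ^ 2) ^ (((q * 2 : ℕ) : ℝ)⁻¹), fun j p hp => ?_, fun j => ?_,
    fun j p => Real.rpow_inv_natCast_pow (h1 j p) (by omega)⟩
  · obtain ⟨b, hb⟩ := h0 j p hp
    have h2 : 0 < ∑ b, ‖t b j p‖ ^ 2 := Finset.sum_pos' (fun b _ => sq_nonneg ‖t b j p‖)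
      ⟨b, Finset.mem_univ _, pow_pos (norm_pos_iff.2 hb) 2⟩
    exact Real.rpow_pos_of_pos h2 _
  · have h2 : ContinuousOn (fun p => ∑ b, ‖t b j p‖ ^ 2) (U j) :=
      continuousOn_finsetSum _ fun b _ => (ht b j).norm.pow 2
    exact h2.rpow_const fun _ _ => Or.inr (inv_nonneg.2 (Nat.cast_nonneg _))

theorem t_SG1 : SG1.{u, v, w} := by
  intro n V _ _ φ X _ _ _ _ _ _ _ ι L ⟨q, hq, N, t, ht, h0, hsep, himm⟩
  choose a0 ha0 using L.cover
  choose e0 e1 e2 e3 e4 e5 using fun x => TSG1_chart φ x (L.isOpen_U _) (ha0 x)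
  choose K0 k1 k2 k3 using fun x => exists_compact_subset (e0 x).open_source (e1 x)
  obtain ⟨s, hs⟩ := CompactSpace.elim_nhds_subcover K0 fun x => mem_interior_iff_mem_nhds.1 (k2 x)
  obtain ⟨k, c, hc⟩ : ∃ (k : ℕ) (c : Fin k → X), ∀ p, ∃ i, p ∈ K0 (c i) := by
    refine ⟨s.card, fun i => s.equivFin.symm i, fun p => ?_⟩
    obtain ⟨x, hx, hp⟩ := mem_iUnion₂.1 (hs.ge (mem_univ p))
    exact ⟨s.equivFin ⟨x, hx⟩, by simpa only [Equiv.symm_apply_apply] using hp⟩
  obtain ⟨idx, im, ik⟩ := TSG1_idx (fun i => (k1 (c i)).measurableSet) hc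
  obtain ⟨a, ha⟩ : ∃ a : Fin k → ι, a = fun i => a0 (c i) := ⟨_, rfl⟩
  obtain ⟨e, he⟩ : ∃ e : Fin k → OpenPartialHomeomorph X (E n), e = fun i => e0 (c i) := ⟨_, rfl⟩
  have sU : ∀ i, (e i).source ⊆ L.U (a i) := fun i => by rw [ha, he]; exact e2 _
  have sC : ∀ i, (e i).source ⊆ (chartAt V (c i)).source := fun i => by
    rw [he]; exact e3 _
  have sE : ∀ i, ∀ p ∈ (e i).source, e i p = φ (chartAt V (c i) p) := fun i p _ => by
    rw [he]; exact e4 _ p
  have kS : ∀ i, K0 (c i) ⊆ (e i).source := fun i => by rw [he]; exact k3 _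
  have md : ∀ i, (e i).MDifferentiable 𝓘(ℂ, V) 𝓘(ℂ, E n) := fun i => by
    rw [he]; exact e5 _
  have hU : ∀ p, p ∈ L.U (a (idx p)) := fun p => sU _ (kS _ (ik p))
  obtain ⟨ν, ν0, ν1, ν2⟩ : ∃ ν : ι → X → ℝ, (∀ j, ∀ p ∈ L.U j, 0 < ν j p) ∧
      (∀ j, ContinuousOn (ν j) (L.U j)) ∧ ∀ j p, ν j p ^ (q * 2) = ∑ b, ‖t b j p‖ ^ 2 := by
    exact TSG1_nu hq (fun b j => ((ht b).1 j).continuousOn) h0
  have νn : ∀ p, (ν (a (idx p)) p : ℂ) ≠ 0 := fun p =>
    Complex.ofReal_ne_zero.2 (ν0 _ p (hU p)).ne'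
  have gn : ∀ i j, ∀ p ∈ L.U i, p ∈ L.U j → L.g i j p ≠ 0 := fun i j p hi hj =>
    left_ne_zero_of_mul_eq_one ((L.cocycle i j i p ⟨⟨hi, hj⟩, hi⟩).trans (L.g_self i p hi))
  obtain ⟨τ, hτ⟩ : ∃ τ : Fin k → X → ℂ, ∀ i, τ i = (e i).source.indicator
    fun p => L.g (a i) (a (idx p)) p * ν (a (idx p)) p := ⟨_, fun _ => rfl⟩
  obtain ⟨T, hT⟩ : ∃ T : Fin (N + 1) → X → ℂ, ∀ b p,
    T b p = t b (a (idx p)) p / (ν (a (idx p)) p : ℂ) ^ q := ⟨_, fun _ _ => rfl⟩
  have τn : ∀ i, ∀ p ∈ (e i).source, τ i p ≠ 0 := fun i p hp => by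
    rw [hτ, indicator_of_mem hp]
    exact mul_ne_zero (gn _ _ p (sU i hp) (hU p)) (νn p)
  have τr : ∀ i j p, p ∈ (e i).source → p ∈ (e j).source →
      τ i p = L.g (a i) (a j) p * τ j p := fun i j p hi hj => by
    rw [hτ, hτ, indicator_of_mem hi, indicator_of_mem hj, ← mul_assoc,
      L.cocycle _ _ _ p ⟨⟨sU i hi, sU j hj⟩, hU p⟩]
  have τT : ∀ i b, ∀ p ∈ (e i).source, τ i p ^ q * T b p = t b (a i) p := fun i b p hp => by
    rw [hτ, indicator_of_mem hp, hT, (ht b).2 (a i) _ p ⟨sU i hp, hU p⟩, mul_pow, mul_assoc,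
      mul_div_cancel₀ _ (pow_ne_zero q (νn p))]
  refine ⟨{ I := Fin k
            e := e
            K := fun i => K0 (c i)
            K_cpt := fun i => k1 _
            K_sub := kS
            idx := idx
            idx_meas := im
            idx_mem := ik
            hol := fun i j p hi hj => TSG1_an (md i) (e j).open_source (md j).1 hi hj
            τ := τ
            coc := ⟨fun i => ?_, τn, fun i j p hi hj => ?_⟩
            q := q
            q_pos := hq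
            N := N
            t := T
            t_mem := fun b i z hz => ?_
            unit := fun p => ?_
            sep := fun p p' d h => hsep _ _ p (hU p) p' (hU p') ⟨d * (ν (a (idx p)) p : ℂ) ^ q /
              (ν (a (idx p')) p' : ℂ) ^ q, fun b => ?_⟩
            imm := fun i p hp b hb => ?_ }, a, c,
    ⟨sU, sC, sE, τr⟩⟩
  · rw [hτ]
    refine TSG1_meas im (e i).open_source.measurableSet
      (f := fun j p => L.g (a i) (a j) p * ν (a j) p) fun j => ?_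
    have h1 : (e i).source ∩ idx ⁻¹' {j} ⊆ L.U (a j) := fun p hp =>
      (mem_singleton_iff.1 hp.2) ▸ hU p
    exact ((L.hol _ _).continuousOn.mono fun p hp => ⟨sU i hp.1, h1 hp⟩).mul
      (Complex.continuous_ofReal.comp_continuousOn ((ν1 _).mono h1))
  · refine TSG1_an (md i) (f := fun p => τ j p / τ i p) ((e j).open_source.inter (e i).open_source)
      (((L.hol (a j) (a i)).mono (inter_subset_inter (sU j) (sU i))).congr fun y hy => ?_) hi
      ⟨hj, hi⟩
    rw [τr j i y hy.1 hy.2, mul_div_cancel_right₀ _ (τn i y hy.2)]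
  · have h1 := TSG1_an (md i) (f := fun p => τ i p ^ q * T b p) (e i).open_source
      ((((ht b).1 (a i)).mono (sU i)).congr (τT i b)) ((e i).map_target hz) ((e i).map_target hz)
    rw [(e i).right_inv hz] at h1
    exact h1
  · simp only [hT, norm_div, norm_pow, div_pow, ← pow_mul, ← Finset.sum_div, ← ν2,
      Complex.norm_real, Real.norm_of_nonneg (ν0 _ p (hU p)).le]
    exact div_self (pow_pos (ν0 _ p (hU p)) _).ne'
  · have h1 := h b
    rw [hT, hT, div_eq_iff (pow_ne_zero q (νn p))] at h1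
    rw [h1]
    ring
  · have hb' : t b (a i) p ≠ 0 := τT i b p hp ▸ mul_ne_zero (pow_ne_zero q (τn i p hp)) hb
    have an : ∀ b', AnalyticAt ℂ (fun z => t b' (a i) ((e i).symm z)) (e i p) := fun b' =>
      TSG1_an (md i) (L.isOpen_U _) ((ht b').1 (a i)) hp (sU i hp)
    have h1 : (fun z b' => T b' ((e i).symm z) / T b ((e i).symm z)) =ᶠ[𝓝 (e i p)]
        fun z b' => t b' (a i) ((e i).symm z) / t b (a i) ((e i).symm z) := by
      filter_upwards [(e i).open_target.mem_nhds ((e i).map_source hp)] with z hz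
      funext b'
      have h2 := (e i).map_target hz
      rw [← τT i b' _ h2, ← τT i b _ h2, mul_div_mul_left _ _ (pow_ne_zero q (τn i _ h2))]
    refine h1.fderiv_eq (𝕜 := ℂ) ▸ TSG1_inj (md i) (f := fun b' y => t b' (a i) y / t b (a i) y) hp
      (fun b' => ((an b').div (an b) ?_).differentiableAt)
      (himm _ p (sU i hp) b hb')
    rwa [(e i).left_inv hp]

end Fuj
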