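import Vale.Agent.P271.TDefs

open MeasureTheory Set Filter Topology Metric
open scoped Manifold ContDiff
open Vale.Agent.P271

noncomputable section
namespace Fuj

universe u v w

/-- the determinant form -/
def TSG2dt (n : ℕ) : E n [⋀^Fin n]→L[ℂ] ℂ :=
  { (Pi.basisFun ℂ (Fin n)).det with
    cont := by
      have : Continuous fun v : Fin n → E n => ((Pi.basisFun ℂ (Fin n)).toMatrix v).det := by
        refine Continuous.matrix_det (continuous_matrix fun i j => ?_)
        simp only [Module.Basis.toMatrix_apply, Pi.basisFun_repr]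
        fun_prop
      exact this }

theorem TSG2dt_apply (n : ℕ) (w : Fin n → E n) : TSG2dt n w = (Pi.basisFun ℂ (Fin n)).det w := rfl

section
variable {n : ℕ} {V : Type w} [NormedAddCommGroup V] [NormedSpace ℂ V] {φ : V ≃L[ℂ] E n}
  {X : Type u} [TopologicalSpace X] [ChartedSpace V X]
  [MeasurableSpace X] {ι : Type v} {L : LineBundle V X ι} {G : Geo n X} {a : G.I → ι}
  {c : G.I → X}

/-- derivative of a chart -/
def TSG2dm (V : Type w) [NormedAddCommGroup V] [NormedSpace ℂ V] [ChartedSpace V X] (G : Geo n X)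
    (i : G.I) (p : X) :
    TangentSpace 𝓘(ℂ, V) p →L[ℂ] E n :=
  mfderiv 𝓘(ℂ, V) 𝓘(ℂ, E n) (G.e i) p

/-- pull back of the determinant form -/
def TSG2om (V : Type w) [NormedAddCommGroup V] [NormedSpace ℂ V] [ChartedSpace V X] (G : Geo n X)
    (i : G.I) (p : X) :
    TangentSpace 𝓘(ℂ, V) p [⋀^Fin n]→L[ℂ] ℂ :=
  (TSG2dt n).compContinuousLinearMap (TSG2dm V G i p)

variable [IsManifold 𝓘(ℂ, V) ω X]

theorem TSG2_der (h : Spec φ L G a c) {i : G.I} {p : X} (hp : p ∈ (G.e i).source) :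
    HasMFDerivAt 𝓘(ℂ, V) 𝓘(ℂ, E n) (G.e i) p (TSG2dm V G i p) ∧
      Function.Surjective (TSG2dm V G i p) := by
  have hc := mdifferentiable_chart (I := 𝓘(ℂ, V)) (c i)
  have h1 := (hc.mdifferentiableAt (h.subC i hp)).hasMFDerivAt
  have h2 : HasMFDerivAt 𝓘(ℂ, V) 𝓘(ℂ, E n)
      φ (chartAt V (c i) p)
      (φ : V →L[ℂ] E n) :=
    φ.hasMFDerivAt
  have h3 := (h2.comp p h1).congr_of_eventuallyEq (f₁ := G.e i) (by
    filter_upwards [(G.e i).open_source.mem_nhds hp] with q hq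
    exact h.eq i q hq)
  refine ⟨h3.mdifferentiableAt.hasMFDerivAt, ?_⟩
  unfold TSG2dm
  rw [h3.mfderiv]
  exact φ.surjective.comp (hc.mfderiv_surjective (h.subC i hp))

theorem TSG2_om (h : Spec φ L G a c) {i j : G.I} {p : X} (hi : p ∈ (G.e i).source)
    (hj : p ∈ (G.e j).source) : TSG2om V G j p = G.jac i j p • TSG2om V G i p := by
  have h1 := (G.hol i j p hi hj).differentiableAt.hasFDerivAt.hasMFDerivAt
  have h2 := (h1.comp p (TSG2_der h hi).1).congr_of_eventuallyEq (f₁ := G.e j) (by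
    filter_upwards [(G.e i).open_source.mem_nhds hi] with q hq
    simp [(G.e i).left_inv hq])
  have h3 : TSG2dm V G j p = (fderiv ℂ (fun z => G.e j ((G.e i).symm z)) (G.e i p)).comp
      (TSG2dm V G i p) := h2.mfderiv
  ext w
  unfold TSG2om
  rw [h3]
  exact (Pi.basisFun ℂ (Fin n)).det_comp
    (fderiv ℂ (fun z => G.e j ((G.e i).symm z)) (G.e i p) : E n →ₗ[ℂ] E n) (TSG2dm V G i p ∘ w)

theorem TSG2_ne (h : Spec φ L G a c) {i : G.I} {p : X} (hi : p ∈ (G.e i).source) :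
    TSG2om V G i p ≠ 0 := by
  intro h0
  choose w hw using fun k => (TSG2_der h hi).2 (Pi.basisFun ℂ (Fin n) k)
  have h1 : TSG2om V G i p w = 1 := by
    unfold TSG2om
    rw [ContinuousAlternatingMap.compContinuousLinearMap_apply, TSG2dt_apply,
      show TSG2dm V G i p ∘ w = Pi.basisFun ℂ (Fin n) from funext hw, Module.Basis.det_self]
  rw [h0] at h1
  simp at h1

end

theorem t_SG2 : SG2.{u, v, w} := by
  intro V _ _ _ φ X _ _ _ _ ι L G a c h m x ⟨σ, hσ, hrel, i₀, hx, hne⟩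
  have hidx : ∀ p, p ∈ (G.e (G.idx p)).source := fun p => G.K_sub _ (G.idx_mem p)
  have ind : ∀ b i j p, p ∈ L.U b → p ∈ (G.e i).source → p ∈ (G.e j).source →
      (L.g b (a j) p ^ m * σ j (G.e j p)) • TSG2om V G j p =
        (L.g b (a i) p ^ m * σ i (G.e i p)) • TSG2om V G i p := by
    intro b i j p hb hi hj
    have h1 := hrel i j p hi hj
    rw [h.tau i j p hi hj, mul_pow] at h1
    have h2 : σ i (G.e i p) = σ j (G.e j p) * L.g (a i) (a j) p ^ m * G.jac i j p :=
      mul_right_cancel₀ (pow_ne_zero m (G.coc.ne j p hj)) (by rw [h1]; ring)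
    rw [TSG2_om h hi hj, smul_smul, h2,
      ← L.cocycle b (a i) (a j) p ⟨⟨hb, h.subU i hi⟩, h.subU j hj⟩]
    congr 1
    ring
  refine ⟨fun b p => (L.g b (a (G.idx p)) p ^ m * σ (G.idx p) (G.e (G.idx p) p)) •
    TSG2om V G (G.idx p) p, ⟨fun b e he v z₀ hz₀ => ?_, fun b b' p hp u => ?_⟩, a i₀, h.subU _ hx, ?_⟩
  · obtain ⟨i, hi⟩ : ∃ i, e.symm z₀ ∈ (G.e i).source := ⟨_, hidx _⟩
    have hV : IsOpen (e.target ∩ e.symm ⁻¹' (L.U b ∩ (G.e i).source)) :=
      e.isOpen_inter_preimage_symm ((L.isOpen_U b).inter (G.e i).open_source)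
    have hz : z₀ ∈ e.target ∩ e.symm ⁻¹' (L.U b ∩ (G.e i).source) := ⟨hz₀.1, hz₀.2, hi⟩
    let T : V → V →L[ℂ] E (Module.finrank ℂ V) := fun z =>
      (TSG2dm V G i (e.symm z)).comp
        (mfderiv 𝓘(ℂ, V) 𝓘(ℂ, V) e.symm z)
    have d1 : ∀ z ∈ e.target ∩ e.symm ⁻¹' (L.U b ∩ (G.e i).source),
        HasFDerivAt (fun z => G.e i (e.symm z)) (T z) z :=
      fun z hz => ((TSG2_der h hz.2.2).1.comp z
        (mdifferentiableAt_atlas_symm he hz.1).hasMFDerivAt).hasFDerivAt
    have d2 := Vale.Agent.P274.analyticOnNhd_of_differentiableOn hV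
      fun z hz => (d1 z hz).differentiableAt.differentiableWithinAt
    have d3 : DifferentiableAt ℂ (fderiv ℂ fun z => G.e i (e.symm z)) z₀ :=
      (d2 z₀ hz).fderiv.differentiableAt
    have d4 : DifferentiableAt ℂ (fun z => L.g b (a i) (e.symm z)) z₀ :=
      (((L.hol b (a i)).mdifferentiableAt (((L.isOpen_U b).inter (L.isOpen_U _)).mem_nhds
        ⟨hz₀.2, h.subU i hi⟩)).comp z₀ (mdifferentiableAt_atlas_symm he hz₀.1)).differentiableAt
    have d5 : DifferentiableAt ℂ (fun z => σ i (G.e i (e.symm z))) z₀ :=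
      (hσ i _ ((G.e i).map_source hi)).differentiableAt.comp z₀ (d1 z₀ hz).differentiableAt
    have d6 : DifferentiableAt ℂ (fun z => (TSG2dt (Module.finrank ℂ V)).toContinuousMultilinearMap fun k =>
        fderiv ℂ (fun z => G.e i (e.symm z)) z (v k)) z₀ :=
      ((TSG2dt (Module.finrank ℂ V)).toContinuousMultilinearMap.analyticAt.differentiableAt).comp z₀
        (differentiableAt_pi.2 fun k => d3.clm_apply (differentiableAt_const _))
    have d7 := ((d4.pow m).mul d5).mul d6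
    refine (d7.congr_of_eventuallyEq ?_).differentiableWithinAt
    filter_upwards [hV.mem_nhds hz] with z hz
    unfold coef
    beta_reduce
    rw [ind b i _ _ hz.2.1 hz.2.2 (hidx _)]
    simp only [Pi.mul_apply, Pi.pow_apply]
    rw [(d1 z hz).fderiv]
    rfl
  · simp only [ContinuousAlternatingMap.smul_apply, smul_eq_mul]
    rw [← L.cocycle b b' (a (G.idx p)) p ⟨hp, h.subU _ (hidx p)⟩, mul_pow]
    ring
  · simp only
    rw [ind (a i₀) i₀ _ _ (h.subU _ hx) hx (hidx _), L.g_self _ _ (h.subU _ hx), one_pow, one_mul]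
    exact DFunLike.ne_iff.1 (smul_ne_zero hne (TSG2_ne h hx))

end Fuj
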