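import Vale.Agent.P271.GMain
import Vale.Agent.P271.EMain
import Vale.Agent.P271.FFinal
import Vale.Agent.P271.TKL
import Vale.Agent.P271.TNz
import Vale.Agent.P271.TFin
import Vale.Agent.P271.TGen1
import Vale.Agent.P271.TSG1
import Vale.Agent.P271.TSG2
import Vale.Agent.P271.DMain
import Vale.Agent.P271.DNN
import Vale.Agent.P271.DCnt
import Vale.Agent.P271.DExN
import Vale.Agent.P271.DHF
import Vale.Agent.P271.DCop
import Vale.Agent.P271.DUnif
import Vale.Agent.P271.DOpenC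
import Vale.Agent.P271.DSepN
import Vale.Agent.P271.DChart

/-! Problem P271: the final assembly. -/

open scoped Manifold ContDiff
open Vale.Agent.P271

namespace Fuj

theorem main {F : Type*} [NormedAddCommGroup F] [NormedSpace ℂ F] [FiniteDimensional ℂ F]
    (hn : 1 ≤ Module.finrank ℂ F) {X : Type*} [TopologicalSpace X] [ChartedSpace F X]
    [IsManifold 𝓘(ℂ, F) ω X] [T2Space X] [CompactSpace X] [ConnectedSpace X] {ι : Type*}
    (L : LineBundle F X ι) (hL : L.IsAmple) (m : ℕ) (hm : Module.finrank ℂ F + 1 ≤ m) :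
    L.AdjointFree m :=
  main_of g_PartG t_NzS t_FinS t_Gen1S
    (d_PartD (d_ExN d_NN) (d_HF d_Cnt) d_Cop (d_Unif d_Cnt) d_OpenC d_SepN d_Chart)
    (d_HilbX (d_ExN d_NN) (d_HF d_Cnt) d_Cop (d_Unif d_Cnt) d_OpenC d_SepN d_Chart)
    e_PartE f_PartF t_KL t_IntS t_SG1 t_SG2 hn L hL m hm

end Fuj
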