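import Vale.Agent.P271.Defs
import Vale.Agent.P271.Geo
import Vale.Agent.P271.DDefs

/-! Problem P271: the glue between the statement, the manifold layer and the local model. -/

open MeasureTheory Set Filter Topology Metric
open scoped Manifold ContDiff
open Vale.Agent.P271

noncomputable section
namespace Fuj

universe u v w

/-- a graded system of functions with a linear normalisation `y` in degree `q` -/
structure GSys {Y : Type u} (V : ℕ → Submodule ℂ (Y → ℂ)) (n q : ℕ) (y : Fin (n + 1) → Y → ℂ) :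
    Prop where
  qpos : 1 ≤ q
  fd : ∀ m, FiniteDimensional ℂ (V m)
  one : (1 : Y → ℂ) ∈ V 0
  mul : ∀ {m m' : ℕ} {s s' : Y → ℂ}, s ∈ V m → s' ∈ V m' → s * s' ∈ V (m + m')
  dom : ∀ {m m' : ℕ} {s s' : Y → ℂ}, s ∈ V m → s' ∈ V m' → s ≠ 0 → s' ≠ 0 → s * s' ≠ 0
  ne : Nonempty Y
  grow : ∃ C : ℕ, ∀ m, Module.finrank ℂ (V m) ≤ C * (m + 1) ^ n
  mem : ∀ i, y i ∈ V q
  indep : ∀ F : MvPolynomial (Fin (n + 1)) ℂ,
    (∀ (p : Y) (l : ℂ), MvPolynomial.eval (fun i => l * y i p) F = 0) → F = 0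
  roots : ∃ D : ℕ, ∀ k, ∀ s ∈ V (k * q),
    ∃ χ : Polynomial (MvPolynomial (Fin (n + 1)) ℂ), χ.Monic ∧ χ.natDegree = D ∧
      (∀ j, (χ.coeff j).IsHomogeneous ((D - j) * k)) ∧
      (∀ (p : Y) (l : ℂ), χ.eval₂ (MvPolynomial.eval fun i => l * y i p) (l ^ k * s p) = 0) ∧
      ∀ (T : Fin (n + 1) → ℂ) (x : ℂ), χ.eval₂ (MvPolynomial.eval T) x = 0 →
        ∃ (p : Y) (l : ℂ), (∀ i, T i = l * y i p) ∧ x = l ^ k * s p

/-- finite generation -/
def FinS : Prop := ∀ (Y : Type u) (V : ℕ → Submodule ℂ (Y → ℂ)) (n q : ℕ)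
  (y : Fin (n + 1) → Y → ℂ), GSys V n q y → Gen V q (Submodule.span ℂ (range y))

/-- generation by a base point free degree -/
def Gen1S : Prop := ∀ (Y : Type u) (V : ℕ → Submodule ℂ (Y → ℂ)) (n q : ℕ)
  (y : Fin (n + 1) → Y → ℂ), GSys V n q y → Gen V q (Submodule.span ℂ (range y)) →
  ∀ q₁, 1 ≤ q₁ → (∀ p, ∃ g ∈ V q₁, g p ≠ 0) → Gen V q₁ (V q₁)

namespace Geo
variable {n : ℕ} {X : Type u} [TopologicalSpace X] [MeasurableSpace X] (G : Geo n X)

/-- the chart `i` is centred at `x`, and `1` and the coordinates are sections of `q L` -/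
structure Nz (i : G.I) (x : X) : Prop where
  mem : x ∈ (G.e i).source
  cen : G.e i x = 0
  sub : closedBall (0 : E n) 2 ⊆ (G.e i).target
  one : ∃ s ∈ G.R G.q, ∀ z ∈ (G.e i).target, G.rp G.q i s z = 1
  crd : ∀ j, ∃ s ∈ G.R G.q, ∀ z ∈ (G.e i).target, G.rp G.q i s z = z j

end Geo

/-- a normalised chart can be added -/
def NzS : Prop := ∀ (n : ℕ) (X : Type u) [TopologicalSpace X] [MeasurableSpace X] [BorelSpace X]
  (G : Geo n X) (x : X), ∃ (G' : Geo n X) (i : G'.I), G'.Nz i x ∧ ∀ m, G'.Free m x → G.Free m x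

/-- the working structure describes the line bundle `L` -/
structure Spec {n : ℕ} {F : Type w} [NormedAddCommGroup F] [NormedSpace ℂ F] (φ : F ≃L[ℂ] E n)
    {X : Type u} [TopologicalSpace X] [MeasurableSpace X] [ChartedSpace F X] {ι : Type v}
    (L : LineBundle F X ι) (G : Geo n X) (a : G.I → ι) (c : G.I → X) : Prop where
  subU : ∀ i, (G.e i).source ⊆ L.U (a i)
  subC : ∀ i, (G.e i).source ⊆ (chartAt F (c i)).source
  eq : ∀ i, ∀ p ∈ (G.e i).source, G.e i p = φ (chartAt F (c i) p)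
  tau : ∀ i j p, p ∈ (G.e i).source → p ∈ (G.e j).source →
    G.τ i p = L.g (a i) (a j) p * G.τ j p

/-- construction of the working structure -/
def SG1 : Prop := ∀ (n : ℕ) (F : Type w) [NormedAddCommGroup F] [NormedSpace ℂ F]
  (φ : F ≃L[ℂ] E n) (X : Type u) [TopologicalSpace X] [ChartedSpace F X] [IsManifold 𝓘(ℂ, F) ω X]
  [T2Space X] [CompactSpace X] [MeasurableSpace X] [BorelSpace X] (ι : Type v)
  (L : LineBundle F X ι), L.IsAmple → ∃ (G : Geo n X) (a : G.I → ι) (c : G.I → X), Spec φ L G a c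

/-- back to the statement -/
def SG2 : Prop := ∀ (F : Type w) [NormedAddCommGroup F] [NormedSpace ℂ F] [FiniteDimensional ℂ F]
  (φ : F ≃L[ℂ] E (Module.finrank ℂ F)) (X : Type u) [TopologicalSpace X] [ChartedSpace F X]
  [IsManifold 𝓘(ℂ, F) ω X] [MeasurableSpace X] (ι : Type v) (L : LineBundle F X ι)
  (G : Geo (Module.finrank ℂ F) X) (a : G.I → ι) (c : G.I → X), Spec φ L G a c →
  ∀ (m : ℕ) (x : X), G.Free m x → ∃ w, L.IsAdjointSection m w ∧ ∃ i, x ∈ L.U i ∧ ∃ u, w i x u ≠ 0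

end Fuj
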