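import Vale.Agent.P271.TDefs
import Vale.Agent.P271.GBase2

/-! The local model of a working structure at a normalised chart. -/

open MeasureTheory Set Filter Topology Metric
open scoped ENNReal

noncomputable section
namespace Fuj

open Classical in
/-- the retraction -/
def ret {n : ℕ} (p : E n) : E n := if p ∈ ball (0 : E n) 2 then p else 0

theorem ret_of_mem {n : ℕ} {p : E n} (h : p ∈ ball (0 : E n) 2) : ret p = p := if_pos h

theorem ret_mem {n : ℕ} (p : E n) : ret p ∈ ball (0 : E n) 2 := by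
  unfold ret
  split_ifs with h
  · exact h
  · exact mem_ball_self two_pos

theorem ret_ev {n : ℕ} {p : E n} (h : p ∈ ball (0 : E n) 2) : ∀ᶠ z in 𝓝 p, ret z = z := by
  filter_upwards [isOpen_ball.mem_nhds h] with z hz using ret_of_mem hz

namespace Geo

variable {n : ℕ} {X : Type*} [TopologicalSpace X] [MeasurableSpace X] (G : Geo n X) (i : G.I)

/-- reading a section in the chart -/
def T (m : ℕ) : (X → ℂ) →ₗ[ℂ] E n → ℂ where
  toFun s p := G.rp m i s (ret p)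
  map_add' s s' := funext fun p => by simp [rp_eq, mul_add]
  map_smul' c s := funext fun p => by simp [rp_eq, mul_left_comm]

theorem T_apply (m : ℕ) (s : X → ℂ) (p : E n) : G.T i m s p = G.rp m i s (ret p) := rfl

theorem T_mul (m m' : ℕ) (s s' : X → ℂ) :
    G.T i (m + m') (s * s') = G.T i m s * G.T i m' s' := funext fun _ => rp_mul _ _ _ _ _ _

theorem T_ev (m : ℕ) (s : X → ℂ) {p : E n} (h : p ∈ ball (0 : E n) 2) :
    G.T i m s =ᶠ[𝓝 p] G.rp m i s := by
  filter_upwards [ret_ev h] with z hz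
  rw [T_apply, hz]

variable {G i} {x : X} (hN : G.Nz i x) (hfd : ∀ m, FiniteDimensional ℂ (G.R m))

include hN in
theorem Nz.ball_sub : ball (0 : E n) 2 ⊆ (G.e i).target := ball_subset_closedBall.trans hN.sub

/-- the local model -/
def Nz.loc : Loc n where
  V m := (G.R m).map (G.T i m)
  fd m := by
    have := hfd m
    infer_instance
  one := ⟨1, G.one_mem, funext fun p => by simp [T_apply, rp_eq]⟩
  mul := by
    rintro m m' _ _ ⟨s, hs, rfl⟩ ⟨s', hs', rfl⟩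
    exact ⟨s * s', R_mul hs hs', G.T_mul i _ _ _ _⟩
  an := by
    rintro m _ ⟨s, hs, rfl⟩ p hp
    exact (rp_an hs i p (hN.ball_sub hp)).congr (G.T_ev i m s hp).symm
  meas := by
    classical
    rintro m _ ⟨s, hs, rfl⟩
    have h1 : ContinuousOn (G.rp m i s) (ball 0 2) :=
      ((rp_an hs i).mono hN.ball_sub).continuousOn
    have h2 := ContinuousOn.measurable_piecewise h1
      (continuousOn_const (c := G.rp m i s 0) (s := (ball (0 : E n) 2)ᶜ)) measurableSet_ball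
    refine (congrArg Measurable (funext fun p => ?_)).mpr h2
    by_cases h : p ∈ ball (0 : E n) 2
    · rw [piecewise_eq_of_mem _ _ _ h, T_apply, ret_of_mem h]
    · rw [piecewise_eq_of_notMem _ _ _ h, T_apply, ret, if_neg h]
  inj := by
    rintro m _ ⟨s, -, rfl⟩ h
    funext p
    have := h _ (ret_mem p)
    rwa [T_apply, ret_of_mem (ret_mem p)] at this

theorem Nz.mem_loc {m : ℕ} {f : E n → ℂ} :
    f ∈ (hN.loc hfd).V m ↔ ∃ s ∈ G.R m, G.T i m s = f := Iff.rfl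

include hN in
theorem Nz.T_zero (m : ℕ) (s : X → ℂ) : G.T i m s 0 = G.τ i x ^ m * s x := by
  rw [T_apply, ret_of_mem (mem_ball_self two_pos), ← hN.cen, rp_apply _ _ hN.mem]

theorem Nz.gen {r : ℕ} (h : Gen G.R r (G.R r)) : Gen (hN.loc hfd).V r ((hN.loc hfd).V r) := by
  obtain ⟨m₀, h⟩ := h
  refine ⟨m₀, fun m hm => ?_⟩
  rintro _ ⟨s, hs, rfl⟩
  refine Submodule.mul_induction_on (C := fun s => G.T i (m + r) s ∈
    (hN.loc hfd).V r * (hN.loc hfd).V m) (h m hm hs) (fun a ha b hb => ?_) fun a b ha hb => ?_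
  · rw [add_comm, T_mul]
    exact Submodule.mul_mem_mul ⟨a, ha, rfl⟩ ⟨b, hb, rfl⟩
  · rw [map_add]
    exact add_mem ha hb

theorem Nz.one_mem : (1 : E n → ℂ) ∈ (hN.loc hfd).V G.q := by
  obtain ⟨s, hs, h⟩ := hN.one
  exact ⟨s, hs, funext fun p => h _ (hN.ball_sub (ret_mem p))⟩

theorem Nz.crd_mem (j : Fin n) : Fuj.crd j ∈ (hN.loc hfd).V G.q := by
  obtain ⟨s, hs, h⟩ := hN.crd j
  refine ⟨s, hs, funext fun p => (h _ (hN.ball_sub (ret_mem p))).trans ?_⟩
  by_cases hp : p ∈ ball (0 : E n) 2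
  · rw [ret_of_mem hp, Fuj.crd, indicator_of_mem hp]
  · rw [ret, if_neg hp, Fuj.crd, indicator_of_notMem hp]
    rfl

theorem Nz.big (hB : G.BpfS) : ∀ᶠ m in atTop, ∃ s ∈ (hN.loc hfd).V m, s 0 ≠ 0 := by
  obtain ⟨q₁, h⟩ := hB
  filter_upwards [eventually_ge_atTop q₁] with m hm
  obtain ⟨g, hg, h0⟩ := h m hm x
  refine ⟨_, ⟨g, hg, rfl⟩, ?_⟩
  rw [hN.T_zero]
  exact mul_ne_zero (pow_ne_zero _ (G.coc.ne i x hN.mem)) h0

theorem near [CompactSpace X] {O : Set X} (hO : IsOpen O) (hx : x ∈ O) {c : ℂ} (hc : c ≠ 0) :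
    ∃ δ : ℝ, 0 < δ ∧ (∃ a, δ ≤ ‖c * G.t a x‖) ∧
      ∀ (p : X) (l : ℂ), (∀ a, ‖l * G.t a p - c * G.t a x‖ < δ) → p ∈ O := by
  obtain ⟨a₀, ha₀⟩ := G.exists_t x
  set u : Fin (G.N + 1) → ℂ := fun a => c * G.t a x with hu
  have hu₀ : 0 < ‖u a₀‖ := norm_pos_iff.2 (mul_ne_zero hc ha₀)
  let f : X → ℝ := fun p => ∑ b, ‖(u a₀ • G.t b - u b • G.t a₀) p‖
  have hf : Continuous f := continuous_finsetSum _ fun b _ => cont_norm
    (sub_mem (Submodule.smul_mem _ _ (G.t_mem' b)) (Submodule.smul_mem _ _ (G.t_mem' a₀)))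
  have hpos : ∀ p ∈ Oᶜ, 0 < f p := fun p hp => by
    refine lt_of_le_of_ne (Finset.sum_nonneg fun _ _ => norm_nonneg _) fun h => hp ?_
    have h1 := (Finset.sum_eq_zero_iff_of_nonneg fun _ _ => norm_nonneg _).1 h.symm
    rw [G.sep p x (G.t a₀ p / G.t a₀ x) fun b => ?_]
    · exact hx
    have h2 : c * G.t a₀ x * G.t b p - c * G.t b x * G.t a₀ p = 0 :=
      norm_eq_zero.1 (h1 b (Finset.mem_univ b))
    field_simp
    refine mul_left_cancel₀ hc ?_
    linear_combination h2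
  obtain ⟨c₀, hc₀, h₀⟩ := hO.isClosed_compl.isCompact.exists_forall_le' hf.continuousOn hpos
  set S := ∑ b, (‖u a₀‖ + ‖u b‖) with hS
  have hS0 : 0 ≤ S := Finset.sum_nonneg fun _ _ => by positivity
  refine ⟨min (‖u a₀‖ / 2) (c₀ * (‖u a₀‖ / 2) / (S + 1)), by positivity,
    ⟨a₀, (min_le_left _ _).trans (half_le_self hu₀.le)⟩, fun p l h => ?_⟩
  by_contra hp
  set δ := min (‖u a₀‖ / 2) (c₀ * (‖u a₀‖ / 2) / (S + 1)) with hδ
  have h1 : ‖G.t a₀ p‖ ≤ 1 := by
    have := Finset.single_le_sum (f := fun a => ‖G.t a p‖ ^ 2) (fun _ _ => by positivity)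
      (Finset.mem_univ a₀)
    rw [G.unit p] at this
    nlinarith [norm_nonneg (G.t a₀ p)]
  have h2 : ‖u a₀‖ / 2 ≤ ‖l‖ := by
    have h3 := norm_sub_norm_le (u a₀) (l * G.t a₀ p)
    rw [norm_sub_rev] at h3
    have h4 := (h a₀).trans_le (min_le_left _ _)
    have h5 : ‖l * G.t a₀ p‖ ≤ ‖l‖ := by
      rw [norm_mul]
      exact mul_le_of_le_one_right (norm_nonneg _) h1
    change ‖l * G.t a₀ p - u a₀‖ < _ at h4
    linarith
  have h3 : ‖l‖ * f p ≤ S * δ := by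
    rw [Finset.mul_sum, Finset.sum_mul]
    refine Finset.sum_le_sum fun b _ => ?_
    rw [← norm_mul]
    have e : l * (u a₀ • G.t b - u b • G.t a₀) p =
        u a₀ * (l * G.t b p - u b) - u b * (l * G.t a₀ p - u a₀) := by
      simp only [Pi.sub_apply, Pi.smul_apply, smul_eq_mul]
      ring
    rw [e, add_mul]
    refine (norm_sub_le _ _).trans (add_le_add ?_ ?_) <;> rw [norm_mul]
    · exact mul_le_mul_of_nonneg_left (h b).le (norm_nonneg _)
    · exact mul_le_mul_of_nonneg_left (h a₀).le (norm_nonneg _)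
  have h4 : δ * (S + 1) ≤ c₀ * (‖u a₀‖ / 2) :=
    (le_div_iff₀ (by positivity)).1 (min_le_right _ _)
  have h5 : c₀ * (‖u a₀‖ / 2) ≤ f p * ‖l‖ := mul_le_mul (h₀ p hp) h2 (by positivity) (hpos p hp).le
  have h6 : 0 < δ := by positivity
  nlinarith

theorem Nz.alg [CompactSpace X] (hB : G.BpfS) (hC : G.ChowS) (hg : Gen G.R G.q (G.R G.q))
    (hg1 : ∀ r, 1 ≤ r → (∀ p, ∃ g ∈ G.R r, g p ≠ 0) → Gen G.R r (G.R r)) :
    (hN.loc hfd).Alg G.q where
  qpos := G.q_pos
  ret := by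
    rintro m _ ⟨s, -, rfl⟩ p hp
    rw [T_apply, T_apply, ret, if_neg hp, ret_of_mem (mem_ball_self two_pos)]
  one := hN.one_mem hfd
  crd := hN.crd_mem hfd
  big := hN.big hfd hB
  gen := hN.gen hfd hg
  gen1 := by
    obtain ⟨q₁, h⟩ := hB
    have := Nat.le_mul_of_pos_right q₁ G.q_pos
    exact ⟨q₁ * G.q + 1, by omega, by simp, hN.gen hfd (hg1 _ (by omega) (h _ (by omega)))⟩
  lc := by
    have hτ := pow_ne_zero G.q (G.coc.ne i x hN.mem)
    obtain ⟨δ, hδ, ⟨a₀, ha₀⟩, h⟩ := near (G := G) (x := x)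
      ((G.e i).isOpen_inter_preimage (isOpen_ball (x := 0) (ε := 1)))
      ⟨hN.mem, by rw [mem_preimage, hN.cen]; exact mem_ball_self one_pos⟩ hτ
    refine ⟨δ, G.N + 1, fun a => G.T i G.q (G.t a), hδ, fun a => ⟨_, G.t_mem' a, rfl⟩,
      fun ξ hξ h1 h2 => ?_⟩
    simp only [hN.T_zero] at h2
    obtain ⟨p, l, -, h3⟩ := hC (fun k s => ξ k (G.T i (k * G.q) s))
      (fun k s hs s' hs' => by rw [map_add]; exact hξ.add ⟨s, hs, rfl⟩ ⟨s', hs', rfl⟩)
      (fun k s hs c => by rw [map_smul]; exact hξ.smul c ⟨s, hs, rfl⟩)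
      (fun k k' s hs s' hs' => by rw [add_mul, T_mul]; exact hξ.mul ⟨s, hs, rfl⟩ ⟨s', hs', rfl⟩)
      (by
        have : G.T i (0 * G.q) 1 = 1 := funext fun p => by simp [T_apply, rp_eq]
        rw [this]
        exact hξ.one)
      ⟨a₀, fun h0 => by
        have := h2 a₀
        rw [one_mul] at h0
        rw [h0, zero_sub, norm_neg] at this
        exact absurd ha₀ (not_le.2 this)⟩
    have h4 : ∀ s ∈ G.R G.q, ξ 1 (G.T i G.q s) = l * s p := fun s hs => by
      have := h3 1 s (by rwa [one_mul])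
      rwa [one_mul, pow_one] at this
    obtain ⟨hp, hp'⟩ := h p l fun a => by rw [← h4 _ (G.t_mem' a)]; exact h2 a
    have h5 : l = G.τ i p ^ G.q := by
      obtain ⟨s, hs, h6⟩ := hN.one
      have h7 := h4 s hs
      rw [show G.T i G.q s = 1 from funext fun p => h6 _ (hN.ball_sub (ret_mem p)), h1] at h7
      have h8 := h6 _ ((G.e i).map_source hp)
      rw [rp_apply _ _ hp] at h8
      exact mul_right_cancel₀ (right_ne_zero_of_mul_eq_one h8) (h7.symm.trans h8.symm)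
    refine ⟨G.e i p, hp', ?_⟩
    rintro k _ ⟨s, hs, rfl⟩
    rw [h3 k s hs, T_apply, ret_of_mem (ball_subset_ball one_le_two hp'), rp_apply _ _ hp, h5,
      ← pow_mul, mul_comm G.q]

end Geo
end Fuj
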