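import Vale.Agent.P271.TLoc

/-! The top assembly from the statements of the parts. -/

open MeasureTheory Set Filter Topology Metric
open scoped ENNReal Manifold ContDiff
open Vale.Agent.P271

noncomputable section
namespace Fuj

universe u v w

theorem IntAt.congr {n : ℕ} {y : E n} {f g : E n → ℝ≥0∞} (h : IntAt y f) (e : f =ᶠ[𝓝 y] g) :
    IntAt y g := by
  obtain ⟨U, hU, h⟩ := h
  obtain ⟨O, h1, h2, h3⟩ := _root_.mem_nhds_iff.1 (inter_mem hU e)
  refine ⟨O, h2.mem_nhds h3, ?_⟩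
  rw [← setLIntegral_congr_fun h2.measurableSet fun z hz => (h1 hz).2]
  exact ne_top_of_le_ne_top h (lintegral_mono_set fun z hz => (h1 hz).1)

namespace Geo

variable {n : ℕ} {X : Type u} [TopologicalSpace X] [MeasurableSpace X] {G : Geo n X} {i : G.I}
  {x : X} (hN : G.Nz i x) (hfd : ∀ m, FiniteDimensional ℂ (G.R m))

theorem Psi_T {J N : ℕ} (ρ : Fin J → X → ℂ) (κ : ℝ) {p : E n} (h : p ∈ ball (0 : E n) 2) :
    Psi (fun j => G.T i N (ρ j)) κ p = Psi (fun j => G.rp N i (ρ j)) κ p := by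
  simp only [Psi, T_apply, ret_of_mem h]

theorem Psi_ev {J N : ℕ} (ρ : Fin J → X → ℂ) (κ : ℝ) {p : E n} (h : p ∈ ball (0 : E n) 2) :
    Psi (fun j => G.T i N (ρ j)) κ =ᶠ[𝓝 p] Psi (fun j => G.rp N i (ρ j)) κ := by
  filter_upwards [isOpen_ball.mem_nhds h] with z hz using Psi_T ρ κ hz

theorem Nz.hyp (hn : 1 ≤ n) (hA : (hN.loc hfd).Alg G.q) (hD : PartD) (hH : HilbX) (hE : PartE)
    (hS : G.SiegelS) (h1 : G.G1S) (h2 : G.G2S) {m : ℕ} (hm : n + 1 ≤ m) (hF : ¬ G.Free m x) :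
    (hN.loc hfd).Hyp where
  bpf := by
    refine ⟨G.q, G.q_pos, fun p _ => ⟨1, hA.one, one_ne_zero⟩, Fuj.crd, hA.crd,
      fun j => indicator_of_mem (mem_ball_self two_pos) _, ?_⟩
    refine (hasFDerivAt_id (0 : E n)).congr_of_eventuallyEq ?_
    filter_upwards [ball_mem_nhds (0 : E n) two_pos] with p hp
    exact funext fun j => indicator_of_mem hp _
  big := hA.big
  siegel := by
    obtain ⟨C₀, h⟩ := hS i x hN.mem
    refine ⟨C₀, ?_⟩
    rintro k _ ⟨s, hs, rfl⟩ h0 h3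
    refine h k s hs (fun h4 => h0 (by rw [h4, map_zero])) ?_
    rw [hN.cen]
    exact h3.congr' (G.T_ev i k s (mem_ball_self two_pos)) EventuallyEq.rfl
  hilb := (hE hD hH n _ _ hn hA).1
  grow := (hE hD hH n _ _ hn hA).2.1
  pert := (hE hD hH n _ _ hn hA).2.2
  noIso := by
    intro U hU
    obtain ⟨r, hr, h3⟩ := Metric.nhds_basis_closedBall.mem_iff.1
      (inter_mem hU (ball_mem_nhds (0 : E n) two_pos))
    refine ⟨sphere 0 r, isCompact_sphere _ _, fun z hz => (h3 (sphere_subset_closedBall hz)).1,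
      by simpa using hr.ne, fun N J ρ lam hN1 hρ hl hl' hI => ?_⟩
    choose ρ' h4 h5 using hρ
    obtain rfl : ρ = fun j => G.T i N (ρ' j) := (funext h5).symm
    by_contra h6
    refine hF (h1 m N J ρ' lam r i x hN.mem hN1 h4 hl (hl'.trans_le (by exact_mod_cast hm)) hr
      ?_ (fun z hz => ?_) fun h7 => h6 ?_)
    · rw [hN.cen]
      exact fun z hz => hN.ball_sub (h3 hz).2
    · rw [hN.cen] at hz
      have h7 : z ∈ sphere (0 : E n) r := mem_sphere_iff_norm.2 hz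
      exact (hI z h7).congr (Psi_ev ρ' _ (h3 (sphere_subset_closedBall h7)).2)
    · rw [hN.cen] at h7
      exact h7.congr (Psi_ev ρ' _ (mem_ball_self two_pos)).symm
  g2 := by
    intro N J ρ lam y hN1 hρ hl hy hI
    choose ρ' h4 h5 using hρ
    obtain rfl : ρ = fun j => G.T i N (ρ' j) := (funext h5).symm
    obtain ⟨q₁, h3⟩ := h2 lam hl.le
    have hy2 := ball_subset_ball one_le_two hy
    have hy3 := hN.ball_sub hy2
    obtain ⟨g, hg, h6, h7⟩ := h3 q₁ le_rfl N J ρ' i ((G.e i).symm y) (closedBall 0 1)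
      ((G.e i).map_target hy3) hN1 h4 (isCompact_closedBall _ _)
      ((closedBall_subset_closedBall one_le_two).trans hN.sub)
      (by rw [(G.e i).right_inv hy3]; exact hI.congr (Psi_ev ρ' _ hy2))
    refine ⟨q₁, _, ⟨g, hg, rfl⟩, ?_, ?_⟩
    · rw [T_apply, ret_of_mem hy2, rp_eq]
      exact mul_ne_zero (pow_ne_zero _ (G.coc.ne i _ ((G.e i).map_target hy3))) h6
    · refine ne_top_of_le_ne_top h7 (le_trans (le_of_eq ?_)
        (lintegral_mono_set ball_subset_closedBall))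
      refine setLIntegral_congr_fun measurableSet_ball fun z hz => ?_
      have hz2 := ball_subset_ball one_le_two hz
      simp only [Psi_T ρ' _ hz2, T_apply, ret_of_mem hz2]

end Geo

/-- the results of the manifold layer -/
def PartG : Prop := ∀ (n : ℕ) (X : Type u) [TopologicalSpace X] [T2Space X] [CompactSpace X]
  [ConnectedSpace X] [SecondCountableTopology X] [MeasurableSpace X] [BorelSpace X] (G : Geo n X),
  1 ≤ n → G.SiegelS ∧ G.GrowS ∧ (∃ ν : G.Nrm, G.RootsS ν.y) ∧ G.ChowS ∧ G.G1S ∧ G.G2S ∧ G.BpfS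

theorem free_of (hG : PartG.{u}) (hNz : NzS.{u}) (hFin : FinS.{u}) (hG1 : Gen1S.{u}) (hD : PartD)
    (hH : HilbX) (hE : PartE) (hF : PartF) (hK : KL) (hI : IntS) {n : ℕ} (hn : 1 ≤ n)
    {X : Type u} [TopologicalSpace X] [T2Space X] [CompactSpace X] [ConnectedSpace X]
    [SecondCountableTopology X] [MeasurableSpace X] [BorelSpace X] (G : Geo n X) {m : ℕ}
    (hm : n + 1 ≤ m) (x : X) : G.Free m x := by
  obtain ⟨G', i, hN, h⟩ := hNz n X G x
  refine h m (by_contra fun h0 => ?_)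
  obtain ⟨h1, h2, ⟨ν, h3⟩, h4, h5, h6, h7⟩ := hG n X G' hn
  have hS : GSys G'.R n G'.q ν.y :=
    ⟨G'.q_pos, h2.1, G'.one_mem, Geo.R_mul, fun a b c d e => (Geo.dom a b e).elim c d,
      ⟨x⟩, h2.2, ν.y_R, ν.indep, h3⟩
  have h8 := hFin _ _ _ _ _ hS
  have h9 : Gen G'.R G'.q (G'.R G'.q) := by
    obtain ⟨m₀, h8⟩ := h8
    exact ⟨m₀, fun k hk => (h8 k hk).trans
      (mul_le_mul_left (Submodule.span_le.2 (range_subset_iff.2 ν.y_R)) _)⟩
  exact hF hK hI n hn _ (hN.hyp h2.1 hn (hN.alg h2.1 h7 h4 h9 (hG1 _ _ _ _ _ hS h8)) hD hH hE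
    h1 h5 h6 hm h0)

theorem main_of (hG : PartG.{u}) (hNz : NzS.{u}) (hFin : FinS.{u}) (hG1 : Gen1S.{u}) (hD : PartD)
    (hH : HilbX) (hE : PartE) (hF : PartF) (hK : KL) (hI : IntS) (h1 : SG1.{u, v, w})
    (h2 : SG2.{u, v, w}) {F : Type w} [NormedAddCommGroup F] [NormedSpace ℂ F]
    [FiniteDimensional ℂ F] (hn : 1 ≤ Module.finrank ℂ F) {X : Type u} [TopologicalSpace X]
    [ChartedSpace F X] [IsManifold 𝓘(ℂ, F) ω X]
    [T2Space X] [CompactSpace X] [ConnectedSpace X] {ι : Type v} (L : LineBundle F X ι)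
    (hL : L.IsAmple) (m : ℕ) (hm : Module.finrank ℂ F + 1 ≤ m) : L.AdjointFree m := by
  intro x
  borelize X
  let φ : F ≃L[ℂ] E (Module.finrank ℂ F) := ContinuousLinearEquiv.ofFinrankEq (by simp)
  have : SecondCountableTopology F := φ.toHomeomorph.secondCountableTopology
  have := ChartedSpace.secondCountable_of_sigmaCompact F X
  obtain ⟨G, a, c, h⟩ := h1 _ F φ X ι L hL
  exact h2 F φ X ι L G a c h m x (free_of hG hNz hFin hG1 hD hH hE hF hK hI hn G hm x)

end Fuj
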